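import Vale.Agent.Lib.P100.Literal

/-!
# P100: the certificate theorem with Mathlib's Laplacian.
-/

open scoped BigOperators
open InnerProductSpace Laplacian

noncomputable section

namespace Vale.Agent.Lib.P100

variable {n : ℕ}

/-- The Laplacian in coordinates, at a point where `u` is `C²`. -/
theorem laplacian_eq_sum_Hf {u : Eu n → ℝ} {x : Eu n} (hu : ContDiffAt ℝ 2 u x) :
    Δ u x = ∑ i, Hf u i i x := by
  rw [laplacian_eq_iteratedFDeriv_orthonormalBasis u (EuclideanSpace.basisFun (Fin n) ℝ)]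
  refine Finset.sum_congr rfl fun i _ => ?_
  have h1 : ContDiffAt ℝ 1 (fderiv ℝ u) x := hu.fderiv_right (by norm_num)
  have hd : DifferentiableAt ℝ (fderiv ℝ u) x := h1.differentiableAt (by norm_num)
  rw [iteratedFDeriv_two_apply]
  simp only [Matrix.cons_val_zero, Matrix.cons_val_one, EuclideanSpace.basisFun_apply]
  exact (pd_pd hd i i).symm

/-- **Certificate implies nonexistence**, with Mathlib's Laplacian: for the exact class of solutions
of the problem (`A = B = 0`): positive, continuous on `ℝⁿ`, `C²` off the origin, equations off the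
origin. -/
theorem no_solution_of_cert_lap (hn4 : 4 < n) {p q a b lam mu c0 : ℝ} {c : Fin 14 → ℝ}
    (hcert : Cert n p q a b c c0) (hc0 : 0 < c0)
    (ha : a = mu * q - lam) (hb : b = lam * p - mu) (hlam : 0 ≤ lam) (hmu : 0 ≤ mu)
    (hD : (n : ℝ) < 2 * (lam + mu) + 4)
    {u v : Eu n → ℝ} (hucont : Continuous u) (hvcont : Continuous v)
    (hupos : ∀ x, 0 < u x) (hvpos : ∀ x, 0 < v x)
    (hu : ContDiffOn ℝ 2 u {0}ᶜ) (hv : ContDiffOn ℝ 2 v {0}ᶜ)
    (hpdeU : ∀ x, x ≠ 0 → - Δ u x = v x ^ p)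
    (hpdeV : ∀ x, x ≠ 0 → - Δ v x = u x ^ q) : False := by
  have hc : ∀ {f : Eu n → ℝ}, ContDiffOn ℝ 2 f {0}ᶜ → ∀ x : Eu n, x ≠ 0 → ContDiffAt ℝ 2 f x :=
    fun hf x hx => hf.contDiffAt (isOpen_compl_singleton.mem_nhds hx)
  refine no_solution_of_cert hn4 hcert hc0 ha hb hlam hmu hD hucont hvcont hupos hvpos hu hv ?_ ?_
  · intro x hx
    rw [← laplacian_eq_sum_Hf (hc hu x hx), ← hpdeU x hx, neg_neg]
  · intro x hx
    rw [← laplacian_eq_sum_Hf (hc hv x hx), ← hpdeV x hx, neg_neg]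

end Vale.Agent.Lib.P100
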