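import Vale.Agent.Lib.P100.NAB
import Vale.Agent.Lib.P100.AB.Base

/-!
# P100: equal negative weights with the weight `|x|^c u^a v^b`, `a ≠ b`: the certificate.

Every design `(a, b, E1, F1, E2, F2, f)` that works for the unweighted system in the (real) dimension
`m = 2 (n + A) / (2 + A)` works for the system with equal weights `A ∈ (-2, 0)` in dimension `n`.
-/

noncomputable section

namespace Vale.Agent.Lib.P100

open Filter Topology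

/-- The coefficient vector. -/
def coefB (E1 F1 E2 F2 Γ η β f : ℝ) : Fin 13 → ℝ :=
  ![1, 1, -E1, -F1, -F2, -E2, -Γ, -Γ, η, β, β, f, -f]

/-- The expansion of the divergence. -/
lemma QB_expand (n p q a b c Aw E1 F1 E2 F2 Γ η β f : ℝ) (A : NAtoms) :
    ∑ k, coefB E1 F1 E2 F2 Γ η β f k * NAtoms.DB n p q a b c Aw Aw A k =
      (A.UU + (a - 2 - 2 * E1) * A.UXX + (b - 2 * F1) * A.UXY + (c + 2 * β) * A.uxz)
      + (A.VV + (b - 2 - 2 * E2) * A.VYY + (a - 2 * F2) * A.VXY + (c + 2 * β) * A.vyz)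
      + A.x * (E1 * (3 - a) * A.x + ((2 - a) * F1 - b * E1) * A.z + (1 - b) * F1 * A.y
          + (-(E1 * c) + β * (a - 2)) * A.tx + (-(F1 * c) + β * b) * A.ty
          + β * (n - 2 + c) * A.w)
      + (A.y * (E2 * (3 - b) * A.y + ((2 - b) * F2 - a * E2) * A.z + (1 - a) * F2 * A.x
          + (-(E2 * c) + β * (b - 2)) * A.ty + (-(F2 * c) + β * a) * A.tx
          + β * (n - 2 + c) * A.w))
      + A.s * (((1 + 2 / n) * E1 - Γ * (a - 2)) * A.x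
          + ((2 / n) * F1 - (1 - 1 / n) * p - Γ * (b + p) + f * (a - 1)) * A.z
          + (F2 + f * (b + p - 1)) * A.y
          + (-(1 - 1 / n) * Aw - (2 / n) * β - Γ * (Aw + c)) * A.tx + f * (Aw + c) * A.ty)
      + A.t * ((F1 - f * (a + q - 1)) * A.x
          + ((2 / n) * F2 - (1 - 1 / n) * q - Γ * (a + q) - f * (b - 1)) * A.z
          + ((1 + 2 / n) * E2 - Γ * (b - 2)) * A.y
          + (-(1 - 1 / n) * Aw - (2 / n) * β - Γ * (Aw + c)) * A.ty - f * (Aw + c) * A.tx)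
      + Γ * A.s ^ 2 + Γ * A.t ^ 2
      + η * (A.w * (a * A.tx + b * A.ty) + (n - 4 + c) * A.w ^ 2) := by
  simp [coefB, NAtoms.DB, Fin.sum_univ_succ]
  ring

/-- The coefficient of `x²` after the tensor square. -/
def qA (K a E : ℝ) : ℝ := E * (3 - a) - K / 4 * (a - 2 - 2 * E) ^ 2

/-- The coefficient of `x z` after the tensor square. -/
def qB (K a b E F : ℝ) : ℝ := (2 - a) * F - b * E - K / 2 * ((a - 2 - 2 * E) * (b - 2 * F))

/-- The coefficient of `x y` after the tensor squares. -/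
def qC (K a b F1 F2 : ℝ) : ℝ :=
  (1 - b) * F1 + (1 - a) * F2 - K / 4 * ((b - 2 * F1) ^ 2 + (a - 2 * F2) ^ 2)

/-- The quartic form after the tensor squares. -/
def qF (K a b E1 F1 E2 F2 x z y : ℝ) : ℝ :=
  qA K a E1 * x ^ 2 + qB K a b E1 F1 * (x * z) + qC K a b F1 F2 * (x * y)
    + qB K b a E2 F2 * (y * z) + qA K b E2 * y ^ 2

/-- The cross terms of `w ξ`, with a parameter. -/
lemma wxi_lowerB {a b e θ x y w tx ty : ℝ} (ha : 0 ≤ a) (hb : 0 ≤ b) (hθ : 0 < θ)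
    (he : 0 < e - (a + b) / (2 * θ)) (hw : 0 ≤ w)
    (h1 : 0 ≤ θ ^ 2 * x + w + 2 * θ * tx) (h2 : 0 ≤ θ ^ 2 * y + w + 2 * θ * ty) :
    (e - (a + b) / (2 * θ)) / 2 * w ^ 2
        - ((a * θ) ^ 2 + (b * θ) ^ 2) / (4 * (e - (a + b) / (2 * θ))) * (x ^ 2 + y ^ 2)
      ≤ w * (a * tx + b * ty) + e * w ^ 2 := by
  obtain ⟨d, hd⟩ : ∃ d : ℝ, d = e - (a + b) / (2 * θ) := ⟨_, rfl⟩
  rw [← hd] at he ⊢
  have hed : e = d + (a + b) / (2 * θ) := by rw [hd]; ring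
  obtain ⟨a', ha'⟩ : ∃ a' : ℝ, a' = a * θ := ⟨_, rfl⟩
  obtain ⟨b', hb'⟩ : ∃ b' : ℝ, b' = b * θ := ⟨_, rfl⟩
  rw [← ha', ← hb']
  have h3 : 0 ≤ a / (2 * θ) * w * (θ ^ 2 * x + w + 2 * θ * tx) :=
    mul_nonneg (by positivity) h1
  have h4 : 0 ≤ b / (2 * θ) * w * (θ ^ 2 * y + w + 2 * θ * ty) :=
    mul_nonneg (by positivity) h2
  have e3 : a / (2 * θ) * w * (θ ^ 2 * x + w + 2 * θ * tx)
      = a' / 2 * (x * w) + a / (2 * θ) * w ^ 2 + w * (a * tx) := by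
    rw [ha']
    field_simp
  have e4 : b / (2 * θ) * w * (θ ^ 2 * y + w + 2 * θ * ty)
      = b' / 2 * (y * w) + b / (2 * θ) * w ^ 2 + w * (b * ty) := by
    rw [hb']
    field_simp
  rw [e3] at h3
  rw [e4] at h4
  have hee : 0 ≤ d / 4 * w ^ 2 + a' ^ 2 / (4 * d) * x ^ 2 - a' / 2 * (x * w) := by
    have : d / 4 * w ^ 2 + a' ^ 2 / (4 * d) * x ^ 2 - a' / 2 * (x * w)
        = (d * w - a' * x) ^ 2 / (4 * d) := by
      field_simp
      ring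
    rw [this]
    positivity
  have hee2 : 0 ≤ d / 4 * w ^ 2 + b' ^ 2 / (4 * d) * y ^ 2 - b' / 2 * (y * w) := by
    have : d / 4 * w ^ 2 + b' ^ 2 / (4 * d) * y ^ 2 - b' / 2 * (y * w)
        = (d * w - b' * y) ^ 2 / (4 * d) := by
      field_simp
      ring
    rw [this]
    positivity
  have k1 : 0 ≤ a' ^ 2 / (4 * d) * y ^ 2 := by positivity
  have k2 : 0 ≤ b' ^ 2 / (4 * d) * x ^ 2 := by positivity
  rw [hed]
  linear_combination h3 + h4 + hee + hee2 + k1 + k2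

/-- **The certificate for the negative weight system, in terms of its parameters.** -/
theorem nbcert_of_params {n p q a b c Aw E1 F1 E2 F2 Γ η β f r γ m v1 v2 v1' v2' μ c0 θ : ℝ}
    (hr : 0 < r) (hγ : 0 ≤ γ) (hη : 0 ≤ η) (ha : 0 ≤ a) (hb : 0 ≤ b) (hθ : 0 < θ)
    (he : 0 < n - 4 + c - (a + b) / (2 * θ)) (hAc : Aw + c = 0)
    (hm : -(1 - 1 / n) * Aw - (2 / n) * β - Γ * (Aw + c) = 2 * γ * m)
    (hv1 : -(E1 * c) + β * (a - 2) - (r * (1 - 1 / n)) / 2 * ((a - 2 - 2 * E1) * (c + 2 * β))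
      = 2 * γ * m * v1)
    (hv2 : -(F1 * c) + β * b - (r * (1 - 1 / n)) / 2 * ((b - 2 * F1) * (c + 2 * β))
      = 2 * γ * m * v2)
    (hv1' : -(E2 * c) + β * (b - 2) - (r * (1 - 1 / n)) / 2 * ((b - 2 - 2 * E2) * (c + 2 * β))
      = 2 * γ * m * v1')
    (hv2' : -(F2 * c) + β * a - (r * (1 - 1 / n)) / 2 * ((a - 2 * F2) * (c + 2 * β))
      = 2 * γ * m * v2')
    (hF : γ * m ^ 2 ≤ β * (n - 2 + c) - (r * (1 - 1 / n)) / 4 * (c + 2 * β) ^ 2)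
    (hQ : ∀ x z y : ℝ, 0 ≤ x → 0 ≤ y → z ^ 2 ≤ x * y → μ * (x ^ 2 + y ^ 2) ≤
      (qA (r * (1 - 1 / n)) a E1 - γ * v1 ^ 2) * x ^ 2
        + (qB (r * (1 - 1 / n)) a b E1 F1 - 2 * γ * v1 * v2) * (x * z)
        + (qC (r * (1 - 1 / n)) a b F1 F2 - γ * (v2 ^ 2 + v2' ^ 2)) * (x * y)
        + (qB (r * (1 - 1 / n)) b a E2 F2 - 2 * γ * v1' * v2') * (y * z)
        + (qA (r * (1 - 1 / n)) b E2 - γ * v1' ^ 2) * y ^ 2)
    (hT1 : 0 < F1 - f * (a + q - 1))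
    (hL1A : 0 < (1 + 2 / n) * E1 - Γ * (a - 2) - 2 * γ * v1)
    (hL1 : ((2 / n) * F1 - (1 - 1 / n) * p - Γ * (b + p) + f * (a - 1) - 2 * γ * v2) ^ 2
      ≤ 4 * ((1 + 2 / n) * E1 - Γ * (a - 2) - 2 * γ * v1) * (F2 + f * (b + p - 1)))
    (hL2 : ((2 / n) * F2 - (1 - 1 / n) * q - Γ * (a + q) - f * (b - 1) - 2 * γ * v2') ^ 2
      ≤ 4 * (F1 - f * (a + q - 1)) * ((1 + 2 / n) * E2 - Γ * (b - 2) - 2 * γ * v1'))
    (hc1 : c0 ≤ 1 - 1 / r)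
    (hc3 : c0 + η * (((a * θ) ^ 2 + (b * θ) ^ 2) / (4 * (n - 4 + c - (a + b) / (2 * θ)))) ≤ μ)
    (hc5 : c0 ≤ Γ - γ)
    (hc7 : c0 ≤ η * ((n - 4 + c - (a + b) / (2 * θ)) / 2)) (A : NAtoms) (hA : A.Realizable n) :
    c0 * A.EW ≤ ∑ k, coefB E1 F1 E2 F2 Γ η β f k * NAtoms.DB n p q a b c Aw Aw A k := by
  rw [QB_expand]
  have hb' := hA.base.base
  have hx := hb'.x_nonneg
  have hy := hb'.y_nonneg
  have hs := hb'.s_pos
  have ht := hb'.t_pos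
  have hw := hA.base.w_nonneg
  have hUU : 0 ≤ A.UU := by
    have := hb'.gram_nonneg ![1, 0, 0, 0, 0]
    simpa [Fin.sum_univ_five, Atoms.gram] using this
  have hVV : 0 ≤ A.VV := by
    have := hb'.gram_nonneg ![0, 1, 0, 0, 0]
    simpa [Fin.sum_univ_five, Atoms.gram] using this
  have tU := tensU_slack hA hr (a - 2 - 2 * E1) (b - 2 * F1) (c + 2 * β)
  have tV := tensV_slack hA hr (b - 2 - 2 * E2) (a - 2 * F2) (c + 2 * β)
  have sq1 := square_s (s := A.s) hγ (hA.csX v1 v2 m)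
  have sq2 := square_s (s := A.t) hγ (hA.csY v1' v2' m)
  have hQA := hQ A.x A.z A.y hx hy hb'.cs
  have b1 := mul_nonneg hs.le (form_nn hb' hL1A hL1)
  have b2 := mul_nonneg ht.le (form_nn hb' hT1 hL2)
  have hFF := sub_nonneg.mpr hF
  have F1' := mul_nonneg (mul_nonneg hx hw) hFF
  have F2' := mul_nonneg (mul_nonneg hy hw) hFF
  have e1 := congrArg (fun w => w * (A.s * A.tx)) hm
  have e2 := congrArg (fun w => w * (A.t * A.ty)) hm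
  have e3 := congrArg (fun w => w * (A.x * A.tx)) hv1
  have e4 := congrArg (fun w => w * (A.x * A.ty)) hv2
  have e5 := congrArg (fun w => w * (A.y * A.ty)) hv1'
  have e6 := congrArg (fun w => w * (A.y * A.tx)) hv2'
  -- the `w ξ` part
  have t1 : 0 ≤ θ ^ 2 * A.x + A.w + 2 * θ * A.tx := by
    have h := hA.base.form3 θ 0 1
    linarith only [h]
  have t2 : 0 ≤ θ ^ 2 * A.y + A.w + 2 * θ * A.ty := by
    have h := hA.base.form3 0 θ 1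
    linarith only [h]
  have wl := wxi_lowerB (e := n - 4 + c) (x := A.x) (y := A.y) ha hb hθ he hw t1 t2
  have wl2 := mul_le_mul_of_nonneg_left wl hη
  have c1 := mul_le_mul_of_nonneg_right hc1 hUU
  have c2 := mul_le_mul_of_nonneg_right hc1 hVV
  have c3 := mul_le_mul_of_nonneg_right hc3 (sq_nonneg A.x)
  have c4 := mul_le_mul_of_nonneg_right hc3 (sq_nonneg A.y)
  have c5 := mul_le_mul_of_nonneg_right hc5 (sq_nonneg A.s)
  have c6 := mul_le_mul_of_nonneg_right hc5 (sq_nonneg A.t)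
  have c7 := mul_le_mul_of_nonneg_right hc7 (sq_nonneg A.w)
  simp only [qA, qB, qC] at hQA
  have eEW : A.EW = A.UU + A.VV + A.x ^ 2 + A.y ^ 2 + A.s ^ 2 + A.t ^ 2 + A.w ^ 2 := rfl
  rw [eEW]
  linear_combination tU + tV + sq1 + sq2 + hQA + b1 + b2 + F1' + F2' + wl2 + c1 + c2 + c3 + c4
    + c5 + c6 + c7 - e1 - e2 - e3 - e4 - e5 - e6
    + (f * (A.t * A.tx) - f * (A.s * A.ty)) * hAc

/-- The choice of the numbers, once `δ` is small. -/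
lemma nbcert_at0 {n p q a b Aw E1 F1 E2 F2 f γ0 κ S ρ τ δ θ μ : ℝ}
    (hn0 : 0 < n) (hθ : 0 < θ) (hd : 0 < n - 4 + -Aw - (a + b) / (2 * θ))
    (hA : Aw < 0) (ha0 : 0 ≤ a) (hb0 : 0 ≤ b)
    (hκd : κ = 1 - 1 / n) (hSd : S = 1 - 2 / n) (hκ : 0 < κ) (hS : 0 < S) (hγ0pos : 0 < γ0)
    (hbase : Aw ^ 2 * S ^ 2 / (4 * γ0) = (-Aw / 2) * (n - 2 + -Aw) - κ * Aw ^ 2)
    (hρ : ρ = S ^ 2 / (4 * γ0 * (γ0 + 1) * κ)) (hτ : τ = (1 / 2 - (1 + ρ * δ) * κ) / S)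
    (hδ : 0 < δ) (hδ1 : δ ≤ 1) (hμ : 0 < μ)
    (hQ : ∀ x z y : ℝ, 0 ≤ x → 0 ≤ y → z ^ 2 ≤ x * y → μ * (x ^ 2 + y ^ 2) ≤
      qF ((1 + ρ * δ) * κ + 4 * (γ0 + δ) * τ ^ 2) a b E1 F1 E2 F2 x z y)
    (hT1 : 0 < F1 - f * (a + q - 1))
    (h5 : 0 < (1 + 2 / n) * E1 - (γ0 + 2 * δ) * (a - 2) - 2 * (γ0 + δ) * (τ * (a - 2 - 2 * E1)))
    (h6 : ((2 / n) * F1 - (1 - 1 / n) * p - (γ0 + 2 * δ) * (b + p) + f * (a - 1)
        - 2 * (γ0 + δ) * (τ * (b - 2 * F1))) ^ 2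
      < 4 * ((1 + 2 / n) * E1 - (γ0 + 2 * δ) * (a - 2) - 2 * (γ0 + δ) * (τ * (a - 2 - 2 * E1)))
        * (F2 + f * (b + p - 1)))
    (h7 : ((2 / n) * F2 - (1 - 1 / n) * q - (γ0 + 2 * δ) * (a + q) - f * (b - 1)
        - 2 * (γ0 + δ) * (τ * (a - 2 * F2))) ^ 2
      < 4 * (F1 - f * (a + q - 1)) * ((1 + 2 / n) * E2 - (γ0 + 2 * δ) * (b - 2)
        - 2 * (γ0 + δ) * (τ * (b - 2 - 2 * E2)))) :
    ∃ Γ η c0 : ℝ, 0 < c0 ∧ ∀ A : NAtoms, A.Realizable n →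
      c0 * A.EW ≤ ∑ k, coefB E1 F1 E2 F2 Γ η (-Aw / 2) f k * NAtoms.DB n p q a b (-Aw) Aw Aw A k := by
  have hρ0 : 0 < ρ := by rw [hρ]; positivity
  have hr : 0 < 1 + ρ * δ := by positivity
  have hr1 : 0 < 1 - 1 / (1 + ρ * δ) := by
    have h0 := mul_pos hρ0 hδ
    have : 1 / (1 + ρ * δ) < 1 := by
      rw [div_lt_one hr]
      linarith only [h0]
    linarith only [this]
  obtain ⟨lam, hlam⟩ : ∃ lam : ℝ,
      lam = ((a * θ) ^ 2 + (b * θ) ^ 2) / (4 * (n - 4 + -Aw - (a + b) / (2 * θ))) := ⟨_, rfl⟩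
  have hlam0 : 0 ≤ lam := by rw [hlam]; positivity
  obtain ⟨bb, hbb⟩ : ∃ bb : ℝ, bb = μ / 2 := ⟨_, rfl⟩
  have hbb0 : 0 < bb := by rw [hbb]; positivity
  obtain ⟨η, hη⟩ : ∃ η : ℝ, η = bb / (lam + 1) := ⟨_, rfl⟩
  have hη0 : 0 < η := by rw [hη]; positivity
  have hηlam : η * lam ≤ bb := by
    rw [hη, div_mul_eq_mul_div, div_le_iff₀ (by linarith only [hlam0])]
    nlinarith only [hbb0, hlam0, mul_nonneg hbb0.le hlam0]
  have hcd : 0 < η * ((n - 4 + -Aw - (a + b) / (2 * θ)) / 2) := by positivity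
  obtain ⟨c0, hc0⟩ : ∃ c0 : ℝ, c0 = min (1 - 1 / (1 + ρ * δ)) (min bb
      (min δ (η * ((n - 4 + -Aw - (a + b) / (2 * θ)) / 2)))) := ⟨_, rfl⟩
  have hc1 : c0 ≤ 1 - 1 / (1 + ρ * δ) := by rw [hc0]; exact min_le_left _ _
  have hc2 : c0 ≤ min bb (min δ (η * ((n - 4 + -Aw - (a + b) / (2 * θ)) / 2))) := by
    rw [hc0]; exact min_le_right _ _
  have cb := hc2.trans (min_le_left _ _)
  have hc3 := hc2.trans (min_le_right _ _)
  have cd := hc3.trans (min_le_left _ _)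
  have cη := hc3.trans (min_le_right _ _)
  have hc0pos : 0 < c0 := by
    rw [hc0]
    exact lt_min hr1 (lt_min hbb0 (lt_min hδ hcd))
  refine ⟨γ0 + 2 * δ, η, c0, hc0pos, ?_⟩
  intro A hAr
  have hγpos : 0 < γ0 + δ := by linarith only [hγ0pos, hδ]
  have hSτ : S * τ = 1 / 2 - (1 + ρ * δ) * κ := by
    rw [hτ]
    field_simp
  have hm2 : 2 * (γ0 + δ) * (-Aw * S / (2 * (γ0 + δ))) = -Aw * S := by
    field_simp
  refine nbcert_of_params (θ := θ) (r := 1 + ρ * δ) (γ := γ0 + δ) (m := -Aw * S / (2 * (γ0 + δ)))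
    (v1 := τ * (a - 2 - 2 * E1)) (v2 := τ * (b - 2 * F1))
    (v1' := τ * (b - 2 - 2 * E2)) (v2' := τ * (a - 2 * F2)) (μ := μ)
    hr hγpos.le hη0.le ha0 hb0 hθ hd (by ring) ?_ ?_ ?_ ?_ ?_ ?_ ?_ hT1 h5 ?_ ?_ hc1 ?_ ?_ cη A hAr
  · -- hm
    rw [hm2, hSd]
    field_simp
    ring
  · rw [← hκd, hm2]
    linear_combination (Aw * (a - 2 - 2 * E1)) * hSτ
  · rw [← hκd, hm2]
    linear_combination (Aw * (b - 2 * F1)) * hSτ
  · rw [← hκd, hm2]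
    linear_combination (Aw * (b - 2 - 2 * E2)) * hSτ
  · rw [← hκd, hm2]
    linear_combination (Aw * (a - 2 * F2)) * hSτ
  · rw [← hκd]
    rw [hρ]
    exact hF_defect hγ0pos hκ hδ hδ1 hbase
  · intro x z y hx hy hz
    refine (hQ x z y hx hy hz).trans (le_of_eq ?_)
    rw [← hκd]
    simp only [qF, qA, qB, qC]
    ring
  · exact h6.le
  · exact h7.le
  · rw [← hlam]; rw [hbb] at hηlam cb; linarith only [cb, hηlam]
  · have e : γ0 + 2 * δ - (γ0 + δ) = δ := by ring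
    rw [e]; exact cd

/-- **The certificate exists as soon as the closed form conditions hold strictly in the effective
dimension `n' = 2 (n + A) / (2 + A)`.** -/
theorem exists_nbcert0 {n n' p q a b Aw E1 F1 E2 F2 f : ℝ} (hn : 2 < n) (hnc : 0 < n - 4 + -Aw)
    (hA : Aw < 0) (hA2 : -2 < Aw) (hn' : n' = 2 * (n + Aw) / (2 + Aw)) (ha0 : 0 ≤ a) (hb0 : 0 ≤ b)
    (hE1 : 0 < E1) (hE2 : 0 < E2)
    (h1 : 0 < qA (1 - 1 / n') a E1) (h6 : 0 < qA (1 - 1 / n') b E2)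
    (hD : qB (1 - 1 / n') a b E1 F1 ^ 2 * qA (1 - 1 / n') b E2
        + qB (1 - 1 / n') b a E2 F2 ^ 2 * qA (1 - 1 / n') a E1
      < 4 * qC (1 - 1 / n') a b F1 F2 * qA (1 - 1 / n') a E1 * qA (1 - 1 / n') b E2)
    (hL1 : ((2 / n') * F1 - (1 - 1 / n') * p + f * (a - 1)) ^ 2
      < 4 * ((1 + 2 / n') * E1) * (F2 + f * (b + p - 1)))
    (hL2 : ((2 / n') * F2 - (1 - 1 / n') * q - f * (b - 1)) ^ 2
      < 4 * (F1 - f * (a + q - 1)) * ((1 + 2 / n') * E2)) :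
    ∃ Γ η c0 : ℝ, 0 < c0 ∧ ∀ A : NAtoms, A.Realizable n →
      c0 * A.EW ≤ ∑ k, coefB E1 F1 E2 F2 Γ η (-Aw / 2) f k * NAtoms.DB n p q a b (-Aw) Aw Aw A k := by
  have hn0 : (0 : ℝ) < n := by linarith
  have h2w : 0 < 2 + Aw := by linarith
  have hnA : 0 < n + Aw := by linarith
  have hn'0 : 0 < n' := by rw [hn']; positivity
  have hn2 : 0 < n - 2 := by linarith
  have hE1' : 0 < (1 + 2 / n') * E1 := by positivity
  have hE2' : 0 < (1 + 2 / n') * E2 := by positivity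
  have hT1 : 0 < F1 - f * (a + q - 1) := by
    have hpos : 0 < 4 * (F1 - f * (a + q - 1)) * ((1 + 2 / n') * E2) :=
      lt_of_le_of_lt (sq_nonneg _) hL2
    have h4 : 0 < 4 * (F1 - f * (a + q - 1)) := (pos_iff_pos_of_mul_pos hpos).mpr hE2'
    linarith only [h4]
  obtain ⟨γ0, hγ0⟩ : ∃ γ0 : ℝ, γ0 = 1 / n - 1 / n' := ⟨_, rfl⟩
  have hγ0f : γ0 = -Aw * (n - 2) / (2 * n * (n + Aw)) := by
    rw [hγ0, hn']
    field_simp
    ring
  have hγ0pos : 0 < γ0 := by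
    rw [hγ0f]
    exact div_pos (mul_pos (neg_pos.2 hA) hn2) (by positivity)
  obtain ⟨κ, hκd⟩ : ∃ κ : ℝ, κ = 1 - 1 / n := ⟨_, rfl⟩
  have hκ : 0 < κ := by
    rw [hκd]
    have : 1 / n < 1 := by rw [div_lt_one hn0]; linarith
    linarith
  obtain ⟨S, hSd⟩ : ∃ S : ℝ, S = 1 - 2 / n := ⟨_, rfl⟩
  have hS : 0 < S := by
    rw [hSd]
    have : 2 / n < 1 := by rw [div_lt_one hn0]; linarith
    linarith
  have hbase : Aw ^ 2 * S ^ 2 / (4 * γ0) = (-Aw / 2) * (n - 2 + -Aw) - κ * Aw ^ 2 := by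
    have hA0 : Aw ≠ 0 := hA.ne
    have hn20 : n - 2 ≠ 0 := hn2.ne'
    rw [hγ0f, hSd, hκd]
    field_simp
    ring
  obtain ⟨ρ, hρ⟩ : ∃ ρ : ℝ, ρ = S ^ 2 / (4 * γ0 * (γ0 + 1) * κ) := ⟨_, rfl⟩
  -- the functions of `δ`
  obtain ⟨τ, hτ⟩ : ∃ τ : ℝ → ℝ, τ = fun δ => (1 / 2 - (1 + ρ * δ) * κ) / S := ⟨_, rfl⟩
  obtain ⟨Kt, hKt⟩ : ∃ Kt : ℝ → ℝ, Kt = fun δ => (1 + ρ * δ) * κ + 4 * (γ0 + δ) * τ δ ^ 2 := ⟨_, rfl⟩
  have hτc : Continuous τ := by rw [hτ]; fun_prop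
  have hKtc : Continuous Kt := by rw [hKt]; fun_prop
  have hτ0 : τ 0 = -1 / 2 := by
    rw [hτ]
    simp only [mul_zero, add_zero, one_mul]
    rw [hκd, hSd]
    have : 1 - 2 / n ≠ 0 := by rw [← hSd]; exact hS.ne'
    field_simp
    ring
  have hKt0 : Kt 0 = 1 - 1 / n' := by
    rw [hKt]
    simp only [mul_zero, add_zero, one_mul]
    rw [hτ0, hκd, hγ0]
    ring
  -- the quartic form
  have c1 : Continuous fun δ => qA (Kt δ) a E1 := by unfold qA; fun_prop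
  have c6 : Continuous fun δ => qA (Kt δ) b E2 := by unfold qA; fun_prop
  have cB1 : Continuous fun δ => qB (Kt δ) a b E1 F1 := by unfold qB; fun_prop
  have cB2 : Continuous fun δ => qB (Kt δ) b a E2 F2 := by unfold qB; fun_prop
  have cC : Continuous fun δ => qC (Kt δ) a b F1 F2 := by unfold qC; fun_prop
  have ev1 : ∀ᶠ δ in 𝓝 (0 : ℝ), 0 < qA (Kt δ) a E1 := by
    apply ContinuousAt.eventually_lt continuousAt_const c1.continuousAt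
    simpa only [hKt0] using h1
  have ev2 : ∀ᶠ δ in 𝓝 (0 : ℝ), 0 < qA (Kt δ) b E2 := by
    apply ContinuousAt.eventually_lt continuousAt_const c6.continuousAt
    simpa only [hKt0] using h6
  have ev3 : ∀ᶠ δ in 𝓝 (0 : ℝ), qB (Kt δ) a b E1 F1 ^ 2 * qA (Kt δ) b E2
        + qB (Kt δ) b a E2 F2 ^ 2 * qA (Kt δ) a E1
      < 4 * qC (Kt δ) a b F1 F2 * qA (Kt δ) a E1 * qA (Kt δ) b E2 := by
    apply ContinuousAt.eventually_lt
    · exact Continuous.continuousAt (by fun_prop)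
    · exact Continuous.continuousAt (by fun_prop)
    · simpa only [hKt0] using hD
  -- the linear forms
  have ev5 : ∀ᶠ δ in 𝓝 (0 : ℝ),
      0 < (1 + 2 / n) * E1 - (γ0 + 2 * δ) * (a - 2) - 2 * (γ0 + δ) * (τ δ * (a - 2 - 2 * E1)) := by
    apply ContinuousAt.eventually_lt continuousAt_const
    · exact Continuous.continuousAt (by fun_prop)
    · simp only [mul_zero, add_zero]
      rw [hτ0]
      have e : (1 + 2 / n) * E1 - γ0 * (a - 2) - 2 * γ0 * (-1 / 2 * (a - 2 - 2 * E1))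
          = (1 + 2 / n') * E1 := by rw [hγ0]; ring
      rw [e]
      exact hE1'
  have ev6 : ∀ᶠ δ in 𝓝 (0 : ℝ),
      ((2 / n) * F1 - (1 - 1 / n) * p - (γ0 + 2 * δ) * (b + p) + f * (a - 1)
        - 2 * (γ0 + δ) * (τ δ * (b - 2 * F1))) ^ 2
      < 4 * ((1 + 2 / n) * E1 - (γ0 + 2 * δ) * (a - 2) - 2 * (γ0 + δ) * (τ δ * (a - 2 - 2 * E1)))
        * (F2 + f * (b + p - 1)) := by
    apply ContinuousAt.eventually_lt
    · exact Continuous.continuousAt (by fun_prop)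
    · exact Continuous.continuousAt (by fun_prop)
    · simp only [mul_zero, add_zero]
      rw [hτ0]
      have e : (1 + 2 / n) * E1 - γ0 * (a - 2) - 2 * γ0 * (-1 / 2 * (a - 2 - 2 * E1))
          = (1 + 2 / n') * E1 := by rw [hγ0]; ring
      have e2 : (2 / n) * F1 - (1 - 1 / n) * p - γ0 * (b + p) + f * (a - 1)
            - 2 * γ0 * (-1 / 2 * (b - 2 * F1))
          = (2 / n') * F1 - (1 - 1 / n') * p + f * (a - 1) := by rw [hγ0]; ring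
      rw [e, e2]
      exact hL1
  have ev7 : ∀ᶠ δ in 𝓝 (0 : ℝ),
      ((2 / n) * F2 - (1 - 1 / n) * q - (γ0 + 2 * δ) * (a + q) - f * (b - 1)
        - 2 * (γ0 + δ) * (τ δ * (a - 2 * F2))) ^ 2
      < 4 * (F1 - f * (a + q - 1)) * ((1 + 2 / n) * E2 - (γ0 + 2 * δ) * (b - 2)
        - 2 * (γ0 + δ) * (τ δ * (b - 2 - 2 * E2))) := by
    apply ContinuousAt.eventually_lt
    · exact Continuous.continuousAt (by fun_prop)
    · exact Continuous.continuousAt (by fun_prop)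
    · simp only [mul_zero, add_zero]
      rw [hτ0]
      have e : (1 + 2 / n) * E2 - γ0 * (b - 2) - 2 * γ0 * (-1 / 2 * (b - 2 - 2 * E2))
          = (1 + 2 / n') * E2 := by rw [hγ0]; ring
      have e2 : (2 / n) * F2 - (1 - 1 / n) * q - γ0 * (a + q) - f * (b - 1)
            - 2 * γ0 * (-1 / 2 * (a - 2 * F2))
          = (2 / n') * F2 - (1 - 1 / n') * q - f * (b - 1) := by rw [hγ0]; ring
      rw [e, e2]
      exact hL2
  have ev1' : ∀ᶠ δ in 𝓝 (0 : ℝ), δ ≤ 1 := ge_mem_nhds (by norm_num)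
  have ev := ev1.and (ev2.and (ev3.and (ev5.and (ev6.and (ev7.and ev1')))))
  have ev' : ∀ᶠ δ in 𝓝[>] (0 : ℝ), 0 < δ := eventually_mem_nhdsWithin
  obtain ⟨δ, ⟨h1δ, h6δ, hDδ, h5, h6', h7, hδ1⟩, hδ⟩ :=
    ((ev.filter_mono nhdsWithin_le_nhds).and ev').exists
  have hKtδ : Kt δ = (1 + ρ * δ) * κ + 4 * (γ0 + δ) * τ δ ^ 2 := by rw [hKt]
  have hτδ : τ δ = (1 / 2 - (1 + ρ * δ) * κ) / S := by rw [hτ]
  -- the margin of the quartic form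
  have hC0 : 0 ≤ qC (Kt δ) a b F1 F2 := by
    have h0 : 0 ≤ qB (Kt δ) a b E1 F1 ^ 2 * qA (Kt δ) b E2
        + qB (Kt δ) b a E2 F2 ^ 2 * qA (Kt δ) a E1 :=
      add_nonneg (mul_nonneg (sq_nonneg _) h6δ.le) (mul_nonneg (sq_nonneg _) h1δ.le)
    have h2 : 0 < 4 * qC (Kt δ) a b F1 F2 * qA (Kt δ) a E1 * qA (Kt δ) b E2 := lt_of_le_of_lt h0 hDδ
    have h3 : 0 < 4 * qC (Kt δ) a b F1 F2 * (qA (Kt δ) a E1 * qA (Kt δ) b E2) := by
      have e : 4 * qC (Kt δ) a b F1 F2 * (qA (Kt δ) a E1 * qA (Kt δ) b E2)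
          = 4 * qC (Kt δ) a b F1 F2 * qA (Kt δ) a E1 * qA (Kt δ) b E2 := by ring
      rw [e]; exact h2
    have h4 := (pos_iff_pos_of_mul_pos h3).mpr (mul_pos h1δ h6δ)
    linarith only [h4]
  obtain ⟨μ, hμ, hμf⟩ := AB.form_margin3 (r1 := qA (Kt δ) a E1) (r2 := qB (Kt δ) a b E1 F1)
    (r3 := qC (Kt δ) a b F1 F2) (r4 := 0) (r5 := qB (Kt δ) b a E2 F2) (r6 := qA (Kt δ) b E2)
    h1δ h6δ hC0 (by simpa only [add_zero] using hDδ)
  have hQ : ∀ x z y : ℝ, 0 ≤ x → 0 ≤ y → z ^ 2 ≤ x * y → μ * (x ^ 2 + y ^ 2) ≤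
      qF ((1 + ρ * δ) * κ + 4 * (γ0 + δ) * τ δ ^ 2) a b E1 F1 E2 F2 x z y := by
    intro x z y _ _ hz
    rw [← hKtδ]
    refine (hμf x z y hz).trans (le_of_eq ?_)
    simp only [qF]
    ring
  obtain ⟨θ, hθ, hd⟩ := exists_theta (a := (a + b) / 2) (by linarith) hnc
  have hd' : 0 < n - 4 + -Aw - (a + b) / (2 * θ) := by
    have e : (a + b) / (2 * θ) = (a + b) / 2 / θ := by field_simp
    rw [e]; exact hd
  exact nbcert_at0 hn0 hθ hd' hA ha0 hb0 hκd hSd hκ hS hγ0pos hbase hρ hτδ hδ hδ1 hμ hQ hT1 h5 h6' h7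

open AB in
/-- **The lift, in the parameters of the unweighted certificates `AB.cert_of_params`.** -/
theorem nbcert_of_R {n m p q ab bb X1 X2 Y1 Y2 f Aw : ℝ} (hn : 2 < n) (hnc : 0 < n - 4 + -Aw)
    (hA : Aw < 0) (hA2 : -2 < Aw) (hm : m = 2 * (n + Aw) / (2 + Aw))
    (ha0 : 0 ≤ 1 - ab) (hb0 : 0 ≤ 1 - bb)
    (h1 : 0 < R1 (1 / m) ab X1) (h6 : 0 < R1 (1 / m) bb X2)
    (hD : R2 (1 / m) ab bb X1 Y1 ^ 2 * R1 (1 / m) bb X2 + R2 (1 / m) bb ab X2 Y2 ^ 2 * R1 (1 / m) ab X1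
      < 4 * (R3 ab bb Y1 Y2 + R4 (1 / m) ab bb Y1 Y2) * R1 (1 / m) ab X1 * R1 (1 / m) bb X2)
    (hE1 : 0 < 1 / 2 + X1) (hE2 : 0 < 1 / 2 + X2)
    (hL1 : ((2 / m * (1 / 2 - Y1) - (1 - 1 / m) * p - f * ab) / 2) ^ 2
      < ((1 + 2 / m) * (1 / 2 + X1)) * ((1 / 2 - Y2) + f * (p - bb)))
    (hL2 : ((2 / m * (1 / 2 - Y2) - (1 - 1 / m) * q + f * bb) / 2) ^ 2
      < ((1 + 2 / m) * (1 / 2 + X2)) * ((1 / 2 - Y1) - f * (q - ab))) :
    ∃ (co : Fin 13 → ℝ) (c0 : ℝ), 0 < c0 ∧ ∀ A : NAtoms, A.Realizable n →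
      c0 * A.EW ≤ ∑ k, co k * NAtoms.DB n p q (1 - ab) (1 - bb) (-Aw) Aw Aw A k := by
  have eA1 : qA (1 - 1 / m) (1 - ab) (1 / 2 + X1) = R1 (1 / m) ab X1 := by
    simp only [qA, R1]; ring
  have eA2 : qA (1 - 1 / m) (1 - bb) (1 / 2 + X2) = R1 (1 / m) bb X2 := by
    simp only [qA, R1]; ring
  have eB1 : qB (1 - 1 / m) (1 - ab) (1 - bb) (1 / 2 + X1) (1 / 2 - Y1)
      = R2 (1 / m) ab bb X1 Y1 := by
    simp only [qB, R2]; ring
  have eB2 : qB (1 - 1 / m) (1 - bb) (1 - ab) (1 / 2 + X2) (1 / 2 - Y2)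
      = R2 (1 / m) bb ab X2 Y2 := by
    simp only [qB, R2]; ring
  have eC : qC (1 - 1 / m) (1 - ab) (1 - bb) (1 / 2 - Y1) (1 / 2 - Y2)
      = R3 ab bb Y1 Y2 + R4 (1 / m) ab bb Y1 Y2 := by
    simp only [qC, R3, R4]; ring
  obtain ⟨Γ, η, c0, hc0, h⟩ := exists_nbcert0 (n := n) (n' := m) (p := p) (q := q) (a := 1 - ab)
    (b := 1 - bb) (Aw := Aw) (E1 := 1 / 2 + X1) (F1 := 1 / 2 - Y1) (E2 := 1 / 2 + X2)
    (F2 := 1 / 2 - Y2) (f := f) hn hnc hA hA2 hm ha0 hb0 hE1 hE2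
    (by rw [eA1]; exact h1) (by rw [eA2]; exact h6) (by rw [eA1, eA2, eB1, eB2, eC]; exact hD)
    (by
      have e : (2 / m) * (1 / 2 - Y1) - (1 - 1 / m) * p + f * ((1 - ab) - 1)
          = 2 / m * (1 / 2 - Y1) - (1 - 1 / m) * p - f * ab := by ring
      have e2 : (1 / 2 - Y2) + f * ((1 - bb) + p - 1) = (1 / 2 - Y2) + f * (p - bb) := by ring
      rw [e, e2]
      linear_combination 4 * hL1)
    (by
      have e : (2 / m) * (1 / 2 - Y2) - (1 - 1 / m) * q - f * ((1 - bb) - 1)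
          = 2 / m * (1 / 2 - Y2) - (1 - 1 / m) * q + f * bb := by ring
      have e2 : (1 / 2 - Y1) - f * ((1 - ab) + q - 1) = (1 / 2 - Y1) - f * (q - ab) := by ring
      rw [e, e2]
      linear_combination 4 * hL2)
  exact ⟨_, c0, hc0, h⟩

end Vale.Agent.Lib.P100
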