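import Vale.Agent.Lib.P100.Defs

open scoped BigOperators

namespace Vale.Agent.Lib.P100

variable {n : ℕ}

/-- Dot product of coordinate vectors. -/
def dot (X Y : Fin n → ℝ) : ℝ := ∑ i, X i * Y i

/-- Bilinear contraction `U(X,Y)`. -/
def bil (U : Fin n → Fin n → ℝ) (X Y : Fin n → ℝ) : ℝ := ∑ i, ∑ j, U i j * X i * Y j

/-- Frobenius pairing. -/
def frob (U V : Fin n → Fin n → ℝ) : ℝ := ∑ i, ∑ j, U i j * V i j

/-- Fourteen coefficients of the vector fields. -/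
structure Coef where
  (c1 c2 c3 c4 c5 c6 c7 c8 c9 c10 c11 c12 c13 c14 : ℝ)

/-- The polynomial `Q` in the atoms, which is the weighted divergence of the certificate field. -/
noncomputable def Qat (N p q a b : ℝ) (c : Coef)
    (UU UV VV UXX UXY UYY VXX VXY VYY x y z s t : ℝ) : ℝ :=
  let κ := 1 - 1 / N
  c.c1 * (UU + (a - 2) * UXX + b * UXY - κ * p * s * z)
  + c.c2 * (UV + (a - 1) * UXY + (b - 1) * UYY - κ * p * s * y)
  + c.c3 * (UV + (b - 1) * VXY + (a - 1) * VXX - κ * q * t * x)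
  + c.c4 * (VV + (b - 2) * VYY + a * VXY - κ * q * t * z)
  + c.c5 * (2 * UXX + (a - 3) * x ^ 2 + b * x * z - (1 + 2 / N) * s * x)
  + c.c6 * (2 * UXY + (a - 2) * x * z + (b - 1) * x * y - (2 / N) * s * z - t * x)
  + c.c7 * (UXY + VXX + (a - 2) * x * z + (b - 1) * z ^ 2 - (1 + 1 / N) * s * z - (1 / N) * t * x)
  + c.c8 * (VXY + UYY + (b - 2) * y * z + (a - 1) * z ^ 2 - (1 + 1 / N) * t * z - (1 / N) * s * y)
  + c.c9 * (2 * VXY + (b - 2) * y * z + (a - 1) * x * y - (2 / N) * t * z - s * y)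
  + c.c10 * (2 * VYY + (b - 3) * y ^ 2 + a * y * z - (1 + 2 / N) * t * y)
  + c.c11 * ((a - 2) * s * x + (b + p) * s * z - s ^ 2)
  + c.c12 * ((a - 1) * s * z + (b + p - 1) * s * y - s * t)
  + c.c13 * ((b - 1) * t * z + (a + q - 1) * t * x - s * t)
  + c.c14 * ((b - 2) * t * y + (a + q) * t * z - t ^ 2)

end Vale.Agent.Lib.P100
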