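import Mathlib

/-!
# P100: the scalar atoms of a jet, the 14 polynomials `D_k`, certificates.

Pure algebra, no analysis: this file is the interface between the analytic part
(`Jets.lean`: the `D_k` are the divergences of `W F_k`, divided by `W`) and the certificate part
(rational sums of squares on cells of the `(p,q)`-plane).

Notation of the paper proof: `X = grad u / u`, `Y = grad v / v`, `U0, V0` the traceless parts of
`Hess u / u`, `Hess v / v`, `s = v^p / u`, `t = u^q / v`.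
-/

noncomputable section

namespace Vale.Agent.Lib.P100

/-- The scalar invariants of a jet: `UU = |U0|^2`, `UV = U0:V0`, `VV = |V0|^2`,
`UXX = X^T U0 X`, `UXY = X^T U0 Y`, `UYY = Y^T U0 Y`, likewise `VXX, VXY, VYY`,
`x = |X|^2`, `z = X.Y`, `y = |Y|^2`, and `s`, `t`. -/
structure Atoms where
  UU : ℝ
  UV : ℝ
  VV : ℝ
  UXX : ℝ
  UXY : ℝ
  UYY : ℝ
  VXX : ℝ
  VXY : ℝ
  VYY : ℝ
  x : ℝ
  z : ℝ
  y : ℝ
  s : ℝ
  t : ℝ

/-- The coercive quantity `E = |U0|^2 + |V0|^2 + x^2 + y^2 + s^2 + t^2`. -/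
def Atoms.EE (A : Atoms) : ℝ := A.UU + A.VV + A.x ^ 2 + A.y ^ 2 + A.s ^ 2 + A.t ^ 2

/-- The Gram matrix of the five tensors `U0, V0, XX0, XY0, YY0` (traceless parts; `XY0` is the
traceless part of the symmetric product of `X` and `Y`), in terms of the atoms. -/
def Atoms.gram (n : ℝ) (A : Atoms) : Fin 5 → Fin 5 → ℝ :=
  let k := 1 - 1 / n
  ![![A.UU, A.UV, A.UXX, A.UXY, A.UYY],
    ![A.UV, A.VV, A.VXX, A.VXY, A.VYY],
    ![A.UXX, A.VXX, k * A.x ^ 2, k * (A.x * A.z), A.z ^ 2 - A.x * A.y / n],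
    ![A.UXY, A.VXY, k * (A.x * A.z), (A.x * A.y + A.z ^ 2) / 2 - A.z ^ 2 / n, k * (A.y * A.z)],
    ![A.UYY, A.VYY, A.z ^ 2 - A.x * A.y / n, k * (A.y * A.z), k * A.y ^ 2]]

/-- What is known about the atoms of an actual jet at a point of a positive solution. -/
structure Atoms.Realizable (n : ℝ) (A : Atoms) : Prop where
  x_nonneg : 0 ≤ A.x
  y_nonneg : 0 ≤ A.y
  /-- Cauchy-Schwarz: `z^2 <= x y`. -/
  cs : A.z ^ 2 ≤ A.x * A.y
  s_pos : 0 < A.s
  t_pos : 0 < A.t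
  /-- `|a X + b Y|^2 >= 0`. -/
  form_nonneg : ∀ a b : ℝ, 0 ≤ a ^ 2 * A.x + 2 * a * b * A.z + b ^ 2 * A.y
  /-- The Gram matrix of five tensors is positive semidefinite. -/
  gram_nonneg : ∀ l : Fin 5 → ℝ, 0 ≤ ∑ i, ∑ j, l i * l j * Atoms.gram n A i j

/-- The 14 polynomials: `D_k = div (W F_k) / W` for
`F = U0 X, U0 Y, V0 X, V0 Y, x X, x Y, z X, z Y, y X, y Y, s X, s Y, t X, t Y`,
where `W = u^a v^b`. -/
def Atoms.D (n p q a b : ℝ) (A : Atoms) : Fin 14 → ℝ :=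
  let k := 1 - 1 / n
  ![A.UU + (a - 2) * A.UXX + b * A.UXY - k * p * (A.s * A.z),
    A.UV + (a - 1) * A.UXY + (b - 1) * A.UYY - k * p * (A.s * A.y),
    A.UV + (b - 1) * A.VXY + (a - 1) * A.VXX - k * q * (A.t * A.x),
    A.VV + (b - 2) * A.VYY + a * A.VXY - k * q * (A.t * A.z),
    2 * A.UXX + (a - 3) * A.x ^ 2 + b * (A.x * A.z) - (1 + 2 / n) * (A.s * A.x),
    2 * A.UXY + (a - 2) * (A.x * A.z) + (b - 1) * (A.x * A.y) - (2 / n) * (A.s * A.z) - A.t * A.x,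
    A.UXY + A.VXX + (a - 2) * (A.x * A.z) + (b - 1) * A.z ^ 2 - (1 + 1 / n) * (A.s * A.z)
      - (1 / n) * (A.t * A.x),
    A.VXY + A.UYY + (b - 2) * (A.y * A.z) + (a - 1) * A.z ^ 2 - (1 + 1 / n) * (A.t * A.z)
      - (1 / n) * (A.s * A.y),
    2 * A.VXY + (b - 2) * (A.y * A.z) + (a - 1) * (A.x * A.y) - (2 / n) * (A.t * A.z) - A.s * A.y,
    2 * A.VYY + (b - 3) * A.y ^ 2 + a * (A.y * A.z) - (1 + 2 / n) * (A.t * A.y),
    (a - 2) * (A.s * A.x) + (b + p) * (A.s * A.z) - A.s ^ 2,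
    (a - 1) * (A.s * A.z) + (b + p - 1) * (A.s * A.y) - A.s * A.t,
    (b - 1) * (A.t * A.z) + (a + q - 1) * (A.t * A.x) - A.s * A.t,
    (b - 2) * (A.t * A.y) + (a + q) * (A.t * A.z) - A.t ^ 2]

/-- `Q = sum_k c_k D_k`. -/
def Atoms.Q (n p q a b : ℝ) (c : Fin 14 → ℝ) (A : Atoms) : ℝ := ∑ k, c k * Atoms.D n p q a b A k

/-- The pointwise certificate: `Q >= c0 E` on all realizable atoms. With `a = mu q - lam`,
`b = lam p - mu`, `lam, mu >= 0`, `lam + mu > n/2 - 2`, `c0 > 0` this excludes positive solutions. -/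
def Cert (n p q a b : ℝ) (c : Fin 14 → ℝ) (c0 : ℝ) : Prop :=
  ∀ A : Atoms, Atoms.Realizable n A → c0 * A.EE ≤ Atoms.Q n p q a b c A

end Vale.Agent.Lib.P100
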