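import Vale.Agent.Lib.P100.Alg

open scoped BigOperators

namespace Vale.Agent.Lib.P100

variable {n : ℕ}

/-- The differential data of a solution: logarithmic gradients, traceless Hessians, the two
ratios and the weight, with all the first order relations the computation needs. -/
structure Field (n : ℕ) (p q a b : ℝ) where
  X : Fin n → Eu n → ℝ
  Y : Fin n → Eu n → ℝ
  U : Fin n → Fin n → Eu n → ℝ
  V : Fin n → Fin n → Eu n → ℝ
  s : Eu n → ℝ
  t : Eu n → ℝ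
  W : Eu n → ℝ
  dfX : ∀ i, Differentiable ℝ (X i)
  dfY : ∀ i, Differentiable ℝ (Y i)
  dfU : ∀ i j, Differentiable ℝ (U i j)
  dfV : ∀ i j, Differentiable ℝ (V i j)
  dfs : Differentiable ℝ s
  dft : Differentiable ℝ t
  dfW : Differentiable ℝ W
  symU : ∀ i j x, U i j x = U j i x
  symV : ∀ i j x, V i j x = V j i x
  trU : ∀ x, ∑ i, U i i x = 0
  trV : ∀ x, ∑ i, V i i x = 0
  dX : ∀ k i x, pd k (X i) x = U k i x - (if k = i then s x / n else 0) - X k x * X i x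
  dY : ∀ k i x, pd k (Y i) x = V k i x - (if k = i then t x / n else 0) - Y k x * Y i x
  ds : ∀ k x, pd k s x = s x * (p * Y k x - X k x)
  dt : ∀ k x, pd k t x = t x * (q * X k x - Y k x)
  dW : ∀ k x, pd k W x = W x * (a * X k x + b * Y k x)
  divU : ∀ j x, ∑ k, pd k (U k j) x
    = -((1 - 1 / (n : ℝ)) * p * s x * Y j x) - ∑ l, U j l x * X l x
  divV : ∀ j x, ∑ k, pd k (V k j) x
    = -((1 - 1 / (n : ℝ)) * q * t x * X j x) - ∑ l, V j l x * Y l x

section basic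

variable {x : Eu n} {f g : Eu n → ℝ}

lemma pd_add (i : Fin n) (hf : DifferentiableAt ℝ f x) (hg : DifferentiableAt ℝ g x) :
    pd i (fun y => f y + g y) x = pd i f x + pd i g x := by
  unfold pd
  rw [show (fun y => f y + g y) = f + g from rfl, fderiv_add hf hg]; rfl

lemma pd_mul (i : Fin n) (hf : DifferentiableAt ℝ f x) (hg : DifferentiableAt ℝ g x) :
    pd i (fun y => f y * g y) x = pd i f x * g x + f x * pd i g x := by
  unfold pd
  rw [show (fun y => f y * g y) = f * g from rfl, fderiv_mul hf hg]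
  simp [smul_eq_mul]
  ring

lemma pd_const_mul (i : Fin n) (c : ℝ) (hf : DifferentiableAt ℝ f x) :
    pd i (fun y => c * f y) x = c * pd i f x := by
  unfold pd
  rw [fderiv_const_mul hf]; simp

lemma pd_sum {ι : Type*} (s : Finset ι) (i : Fin n) (h : ι → Eu n → ℝ)
    (hh : ∀ k ∈ s, DifferentiableAt ℝ (h k) x) :
    pd i (fun y => ∑ k ∈ s, h k y) x = ∑ k ∈ s, pd i (h k) x := by
  unfold pd
  rw [fderiv_fun_sum hh]
  simp

lemma pd_lin14 {f1 f2 f3 f4 f5 f6 f7 f8 f9 f10 f11 f12 f13 f14 : Eu n → ℝ} (i : Fin n)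
    (c1 c2 c3 c4 c5 c6 c7 c8 c9 c10 c11 c12 c13 c14 : ℝ)
    (h1 : DifferentiableAt ℝ f1 x) (h2 : DifferentiableAt ℝ f2 x) (h3 : DifferentiableAt ℝ f3 x)
    (h4 : DifferentiableAt ℝ f4 x) (h5 : DifferentiableAt ℝ f5 x) (h6 : DifferentiableAt ℝ f6 x)
    (h7 : DifferentiableAt ℝ f7 x) (h8 : DifferentiableAt ℝ f8 x) (h9 : DifferentiableAt ℝ f9 x)
    (h10 : DifferentiableAt ℝ f10 x) (h11 : DifferentiableAt ℝ f11 x)
    (h12 : DifferentiableAt ℝ f12 x) (h13 : DifferentiableAt ℝ f13 x)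
    (h14 : DifferentiableAt ℝ f14 x) :
    pd i (fun y => c1 * f1 y + c2 * f2 y + c3 * f3 y + c4 * f4 y + c5 * f5 y + c6 * f6 y + c7 * f7 y
      + c8 * f8 y + c9 * f9 y + c10 * f10 y + c11 * f11 y + c12 * f12 y + c13 * f13 y
      + c14 * f14 y) x
    = c1 * pd i f1 x + c2 * pd i f2 x + c3 * pd i f3 x + c4 * pd i f4 x + c5 * pd i f5 x
      + c6 * pd i f6 x + c7 * pd i f7 x + c8 * pd i f8 x + c9 * pd i f9 x + c10 * pd i f10 x
      + c11 * pd i f11 x + c12 * pd i f12 x + c13 * pd i f13 x + c14 * pd i f14 x := by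
  have H := ((((((((((((((h1.hasFDerivAt.const_mul c1).fun_add (h2.hasFDerivAt.const_mul c2)).fun_add
    (h3.hasFDerivAt.const_mul c3)).fun_add (h4.hasFDerivAt.const_mul c4)).fun_add
    (h5.hasFDerivAt.const_mul c5)).fun_add (h6.hasFDerivAt.const_mul c6)).fun_add
    (h7.hasFDerivAt.const_mul c7)).fun_add (h8.hasFDerivAt.const_mul c8)).fun_add
    (h9.hasFDerivAt.const_mul c9)).fun_add (h10.hasFDerivAt.const_mul c10)).fun_add
    (h11.hasFDerivAt.const_mul c11)).fun_add (h12.hasFDerivAt.const_mul c12)).fun_add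
    (h13.hasFDerivAt.const_mul c13)).fun_add (h14.hasFDerivAt.const_mul c14))
  unfold pd
  rw [H.fderiv]
  simp

end basic

section contractions

variable (U V : Fin n → Fin n → ℝ) (X Y Z : Fin n → ℝ)

lemma dot_comm' : dot X Y = dot Y X := by
  unfold dot; exact Finset.sum_congr rfl fun i _ => mul_comm _ _

lemma bil_symm (hU : ∀ i j, U i j = U j i) : bil U X Y = bil U Y X := by
  unfold bil
  rw [Finset.sum_comm]
  refine Finset.sum_congr rfl fun i _ => Finset.sum_congr rfl fun j _ => ?_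
  rw [hU j i]; ring

lemma frob_comm : frob U V = frob V U := by
  unfold frob
  exact Finset.sum_congr rfl fun i _ => Finset.sum_congr rfl fun j _ => mul_comm _ _

/-- contraction of `U(Z)` with `Z'`. -/
lemma sum_contr (Z' : Fin n → ℝ) : ∑ k, (∑ i, U k i * Z i) * Z' k = bil U Z' Z := by
  unfold bil
  refine Finset.sum_congr rfl fun k _ => ?_
  rw [Finset.sum_mul]
  exact Finset.sum_congr rfl fun i _ => by ring

end contractions

section field

variable {p q a b : ℝ} (F : Field n p q a b)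

/-- `|X|²` as a function. -/
def Field.xx (y : Eu n) : ℝ := ∑ i, F.X i y * F.X i y
/-- `⟨X,Y⟩` as a function. -/
def Field.zz (y : Eu n) : ℝ := ∑ i, F.X i y * F.Y i y
/-- `|Y|²` as a function. -/
def Field.yy (y : Eu n) : ℝ := ∑ i, F.Y i y * F.Y i y

/-- Vector `X` at a point. -/
def Field.vX (x : Eu n) : Fin n → ℝ := fun i => F.X i x
/-- Vector `Y` at a point. -/
def Field.vY (x : Eu n) : Fin n → ℝ := fun i => F.Y i x
/-- Matrix `U` at a point. -/
def Field.mU (x : Eu n) : Fin n → Fin n → ℝ := fun i j => F.U i j x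
/-- Matrix `V` at a point. -/
def Field.mV (x : Eu n) : Fin n → Fin n → ℝ := fun i j => F.V i j x

lemma Field.dfxx : Differentiable ℝ F.xx := by
  unfold Field.xx
  exact Differentiable.fun_sum fun i _ => (F.dfX i).fun_mul (F.dfX i)

lemma Field.dfzz : Differentiable ℝ F.zz := by
  unfold Field.zz
  exact Differentiable.fun_sum fun i _ => (F.dfX i).fun_mul (F.dfY i)

lemma Field.dfyy : Differentiable ℝ F.yy := by
  unfold Field.yy
  exact Differentiable.fun_sum fun i _ => (F.dfY i).fun_mul (F.dfY i)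

variable (x : Eu n)

lemma Field.xx_eq : F.xx x = dot (F.vX x) (F.vX x) := rfl
lemma Field.zz_eq : F.zz x = dot (F.vX x) (F.vY x) := rfl
lemma Field.yy_eq : F.yy x = dot (F.vY x) (F.vY x) := rfl

lemma Field.sum_dX (k : Fin n) (Z : Fin n → ℝ) :
    ∑ i, pd k (F.X i) x * Z i
      = ∑ i, F.mU x k i * Z i - (F.s x / n) * Z k - F.X k x * dot (F.vX x) Z := by
  unfold dot Field.vX Field.mU
  simp only [F.dX, sub_mul, Finset.sum_sub_distrib, ite_mul, zero_mul, Finset.sum_ite_eq,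
    Finset.mem_univ, if_true, Finset.mul_sum, mul_assoc]

lemma Field.sum_dY (k : Fin n) (Z : Fin n → ℝ) :
    ∑ i, pd k (F.Y i) x * Z i
      = ∑ i, F.mV x k i * Z i - (F.t x / n) * Z k - F.Y k x * dot (F.vY x) Z := by
  unfold dot Field.vY Field.mV
  simp only [F.dY, sub_mul, Finset.sum_sub_distrib, ite_mul, zero_mul, Finset.sum_ite_eq,
    Finset.mem_univ, if_true, Finset.mul_sum, mul_assoc]

lemma pd_dot (A B : Fin n → Eu n → ℝ) (hA : ∀ i, Differentiable ℝ (A i))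
    (hB : ∀ i, Differentiable ℝ (B i)) (k : Fin n) :
    pd k (fun y => ∑ i, A i y * B i y) x
      = ∑ i, pd k (A i) x * B i x + ∑ i, pd k (B i) x * A i x := by
  rw [pd_sum _ k (fun i y => A i y * B i y) (fun i _ => ((hA i) x).fun_mul ((hB i) x))]
  rw [← Finset.sum_add_distrib]
  refine Finset.sum_congr rfl fun i _ => ?_
  rw [pd_mul k ((hA i) x) ((hB i) x)]; ring

lemma Field.grad_xx (k : Fin n) :
    pd k F.xx x = 2 * ∑ i, F.mU x k i * F.vX x i - (2 * F.s x / n) * F.X k x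
      - 2 * F.xx x * F.X k x := by
  have h := pd_dot x F.X F.X F.dfX F.dfX k
  have h1 := F.sum_dX x k (F.vX x)
  unfold Field.vX at h1
  unfold Field.xx
  rw [h, h1]
  unfold Field.vX dot
  ring

lemma Field.grad_yy (k : Fin n) :
    pd k F.yy x = 2 * ∑ i, F.mV x k i * F.vY x i - (2 * F.t x / n) * F.Y k x
      - 2 * F.yy x * F.Y k x := by
  have h := pd_dot x F.Y F.Y F.dfY F.dfY k
  have h1 := F.sum_dY x k (F.vY x)
  unfold Field.vY at h1
  unfold Field.yy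
  rw [h, h1]
  unfold Field.vY dot
  ring

lemma Field.grad_zz (k : Fin n) :
    pd k F.zz x = ∑ i, F.mU x k i * F.vY x i + ∑ i, F.mV x k i * F.vX x i
      - (F.s x / n) * F.Y k x - (F.t x / n) * F.X k x
      - F.zz x * (F.X k x + F.Y k x) := by
  have h := pd_dot x F.X F.Y F.dfX F.dfY k
  have h1 := F.sum_dX x k (F.vY x)
  have h2 := F.sum_dY x k (F.vX x)
  unfold Field.vX Field.vY at h1 h2
  unfold Field.zz
  rw [h, h1, h2]
  have hc : dot (fun i => F.Y i x) (fun i => F.X i x) = dot (fun i => F.X i x) (fun i => F.Y i x) :=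
    dot_comm' _ _
  rw [hc]
  unfold Field.vX Field.vY dot
  ring

lemma Field.con_xx (Z : Fin n → ℝ) :
    ∑ k, pd k F.xx x * Z k
      = 2 * bil (F.mU x) Z (F.vX x) - (2 * F.s x / n) * dot (F.vX x) Z
        - 2 * F.xx x * dot (F.vX x) Z := by
  rw [← sum_contr (F.mU x) (F.vX x) Z]
  simp only [F.grad_xx x, sub_mul, Finset.sum_sub_distrib]
  unfold dot Field.vX
  simp only [Finset.mul_sum, Finset.sum_mul, mul_assoc]

lemma Field.con_yy (Z : Fin n → ℝ) :
    ∑ k, pd k F.yy x * Z k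
      = 2 * bil (F.mV x) Z (F.vY x) - (2 * F.t x / n) * dot (F.vY x) Z
        - 2 * F.yy x * dot (F.vY x) Z := by
  rw [← sum_contr (F.mV x) (F.vY x) Z]
  simp only [F.grad_yy x, sub_mul, Finset.sum_sub_distrib]
  unfold dot Field.vY
  simp only [Finset.mul_sum, Finset.sum_mul, mul_assoc]

lemma Field.con_zz (Z : Fin n → ℝ) :
    ∑ k, pd k F.zz x * Z k
      = bil (F.mU x) Z (F.vY x) + bil (F.mV x) Z (F.vX x)
        - (F.s x / n) * dot (F.vY x) Z - (F.t x / n) * dot (F.vX x) Z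
        - F.zz x * (dot (F.vX x) Z + dot (F.vY x) Z) := by
  rw [← sum_contr (F.mU x) (F.vY x) Z, ← sum_contr (F.mV x) (F.vX x) Z]
  simp only [F.grad_zz x, sub_mul, add_mul, Finset.sum_sub_distrib, Finset.sum_add_distrib]
  unfold dot Field.vX Field.vY
  simp only [Finset.mul_sum, Finset.sum_mul, mul_add, add_mul, mul_assoc, Finset.sum_add_distrib]

lemma Field.con_s (Z : Fin n → ℝ) :
    ∑ k, pd k F.s x * Z k = F.s x * (p * dot (F.vY x) Z - dot (F.vX x) Z) := by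
  simp only [F.ds]
  unfold dot Field.vX Field.vY
  rw [mul_sub, Finset.mul_sum, Finset.mul_sum, Finset.mul_sum, ← Finset.sum_sub_distrib]
  exact Finset.sum_congr rfl fun k _ => by ring

lemma Field.con_t (Z : Fin n → ℝ) :
    ∑ k, pd k F.t x * Z k = F.t x * (q * dot (F.vX x) Z - dot (F.vY x) Z) := by
  simp only [F.dt]
  unfold dot Field.vX Field.vY
  rw [mul_sub, Finset.mul_sum, Finset.mul_sum, Finset.mul_sum, ← Finset.sum_sub_distrib]
  exact Finset.sum_congr rfl fun k _ => by ring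

lemma Field.divX (hn : (n : ℝ) ≠ 0) : ∑ i, pd i (F.X i) x = - F.s x - F.xx x := by
  simp only [F.dX]
  simp only [if_true, Finset.sum_sub_distrib, F.trU, Finset.sum_const, Finset.card_univ,
    Fintype.card_fin, nsmul_eq_mul]
  unfold Field.xx
  field_simp
  ring

lemma Field.divY (hn : (n : ℝ) ≠ 0) : ∑ i, pd i (F.Y i) x = - F.t x - F.yy x := by
  simp only [F.dY]
  simp only [if_true, Finset.sum_sub_distrib, F.trV, Finset.sum_const, Finset.card_univ,
    Fintype.card_fin, nsmul_eq_mul]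
  unfold Field.yy
  field_simp
  ring

/-- Divergence of `W f ξ`. -/
lemma Field.div_W_f (f : Eu n → ℝ) (ξ : Fin n → Eu n → ℝ) (hf : Differentiable ℝ f)
    (hξ : ∀ i, Differentiable ℝ (ξ i)) :
    ∑ i, pd i (fun y => F.W y * (f y * ξ i y)) x
      = F.W x * (f x * (a * dot (F.vX x) (fun i => ξ i x) + b * dot (F.vY x) (fun i => ξ i x))
          + ∑ i, pd i f x * ξ i x + f x * ∑ i, pd i (ξ i) x) := by
  have key : ∀ i, pd i (fun y => F.W y * (f y * ξ i y)) x
      = F.W x * f x * (a * (F.X i x * ξ i x) + b * (F.Y i x * ξ i x))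
        + F.W x * (pd i f x * ξ i x) + F.W x * f x * pd i (ξ i) x := by
    intro i
    rw [pd_mul i (F.dfW x) ((hf x).fun_mul (hξ i x)), pd_mul i (hf x) (hξ i x), F.dW]
    ring
  simp only [key, Finset.sum_add_distrib, ← Finset.mul_sum]
  unfold dot Field.vX Field.vY
  rw [Finset.mul_sum]
  simp only [← Finset.mul_sum, mul_add]
  ring

/-- Divergence of `W A(ξ)`. -/
lemma Field.div_W_A (A : Fin n → Fin n → Eu n → ℝ) (ξ : Fin n → Eu n → ℝ)
    (hA : ∀ i l, Differentiable ℝ (A i l)) (hξ : ∀ i, Differentiable ℝ (ξ i)) :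
    ∑ i, pd i (fun y => F.W y * ∑ l, A i l y * ξ l y) x
      = F.W x * (a * bil (fun i l => A i l x) (F.vX x) (fun i => ξ i x)
          + b * bil (fun i l => A i l x) (F.vY x) (fun i => ξ i x)
          + ∑ l, (∑ i, pd i (A i l) x) * ξ l x
          + ∑ i, ∑ l, A i l x * pd i (ξ l) x) := by
  have hd : ∀ i, Differentiable ℝ (fun y => ∑ l, A i l y * ξ l y) := fun i =>
    Differentiable.fun_sum fun l _ => (hA i l).fun_mul (hξ l)
  have key : ∀ i, pd i (fun y => F.W y * ∑ l, A i l y * ξ l y) x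
      = F.W x * (a * ∑ l, A i l x * F.X i x * ξ l x + b * ∑ l, A i l x * F.Y i x * ξ l x)
        + F.W x * ∑ l, pd i (A i l) x * ξ l x + F.W x * ∑ l, A i l x * pd i (ξ l) x := by
    intro i
    rw [pd_mul i (F.dfW x) (hd i x), F.dW, pd_sum _ i (fun l y => A i l y * ξ l y) (fun l _ => (hA i l x).fun_mul (hξ l x))]
    have h2 : ∀ l, pd i (fun y => A i l y * ξ l y) x
        = pd i (A i l) x * ξ l x + A i l x * pd i (ξ l) x := fun l =>
      pd_mul i (hA i l x) (hξ l x)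
    simp only [h2, Finset.sum_add_distrib]
    have h3 : ∑ l, A i l x * F.X i x * ξ l x = F.X i x * ∑ l, A i l x * ξ l x := by
      rw [Finset.mul_sum]; exact Finset.sum_congr rfl fun l _ => by ring
    have h4 : ∑ l, A i l x * F.Y i x * ξ l x = F.Y i x * ∑ l, A i l x * ξ l x := by
      rw [Finset.mul_sum]; exact Finset.sum_congr rfl fun l _ => by ring
    rw [h3, h4]; ring
  simp only [key, Finset.sum_add_distrib, ← Finset.mul_sum]
  have h5 : ∑ l, (∑ i, pd i (A i l) x) * ξ l x = ∑ i, ∑ l, pd i (A i l) x * ξ l x := by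
    rw [Finset.sum_comm]
    exact Finset.sum_congr rfl fun l _ => Finset.sum_mul _ _ _
  rw [h5]
  unfold bil Field.vX Field.vY
  ring

lemma Field.sum_A_dX (A : Fin n → Fin n → ℝ) (hA : ∑ i, A i i = 0) :
    ∑ i, ∑ l, A i l * pd i (F.X l) x = frob A (F.mU x) - bil A (F.vX x) (F.vX x) := by
  simp only [F.dX, mul_sub, Finset.sum_sub_distrib, mul_ite, mul_zero, Finset.sum_ite_eq,
    Finset.mem_univ, if_true]
  have h0 : ∑ i, A i i * (F.s x / n) = 0 := by rw [← Finset.sum_mul, hA, zero_mul]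
  rw [h0, sub_zero]
  unfold frob bil Field.mU Field.vX
  simp only [mul_assoc]

lemma Field.sum_A_dY (A : Fin n → Fin n → ℝ) (hA : ∑ i, A i i = 0) :
    ∑ i, ∑ l, A i l * pd i (F.Y l) x = frob A (F.mV x) - bil A (F.vY x) (F.vY x) := by
  simp only [F.dY, mul_sub, Finset.sum_sub_distrib, mul_ite, mul_zero, Finset.sum_ite_eq,
    Finset.mem_univ, if_true]
  have h0 : ∑ i, A i i * (F.t x / n) = 0 := by rw [← Finset.sum_mul, hA, zero_mul]
  rw [h0, sub_zero]
  unfold frob bil Field.mV Field.vY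
  simp only [mul_assoc]

lemma Field.sum_divU (Z : Fin n → ℝ) :
    ∑ l, (∑ i, pd i (F.U i l) x) * Z l
      = -((1 - 1 / (n : ℝ)) * p * F.s x * dot (F.vY x) Z) - bil (F.mU x) Z (F.vX x) := by
  rw [← sum_contr (F.mU x) (F.vX x) Z]
  have h : ∀ l, (∑ i, pd i (F.U i l) x) * Z l
      = -((1 - 1 / (n : ℝ)) * p * F.s x) * (F.vY x l * Z l)
        - (∑ i, F.mU x l i * F.vX x i) * Z l := by
    intro l
    rw [F.divU]
    unfold Field.vY Field.vX Field.mU
    ring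
  simp only [h, Finset.sum_sub_distrib, ← Finset.mul_sum]
  unfold dot
  ring

lemma Field.sum_divV (Z : Fin n → ℝ) :
    ∑ l, (∑ i, pd i (F.V i l) x) * Z l
      = -((1 - 1 / (n : ℝ)) * q * F.t x * dot (F.vX x) Z) - bil (F.mV x) Z (F.vY x) := by
  rw [← sum_contr (F.mV x) (F.vY x) Z]
  have h : ∀ l, (∑ i, pd i (F.V i l) x) * Z l
      = -((1 - 1 / (n : ℝ)) * q * F.t x) * (F.vX x l * Z l)
        - (∑ i, F.mV x l i * F.vY x i) * Z l := by
    intro l
    rw [F.divV]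
    unfold Field.vX Field.vY Field.mV
    ring
  simp only [h, Finset.sum_sub_distrib, ← Finset.mul_sum]
  unfold dot
  ring

lemma Field.symU' (i j : Fin n) : F.mU x i j = F.mU x j i := F.symU i j x
lemma Field.symV' (i j : Fin n) : F.mV x i j = F.mV x j i := F.symV i j x

lemma Field.bilUsymm (X' Y' : Fin n → ℝ) : bil (F.mU x) X' Y' = bil (F.mU x) Y' X' :=
  bil_symm _ _ _ (F.symU' x)
lemma Field.bilVsymm (X' Y' : Fin n → ℝ) : bil (F.mV x) X' Y' = bil (F.mV x) Y' X' :=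
  bil_symm _ _ _ (F.symV' x)

lemma Field.dotYX : dot (F.vY x) (F.vX x) = F.zz x := dot_comm' _ _

/-- Field `U(X)`. -/
lemma Field.D1 :
    ∑ i, pd i (fun y => F.W y * ∑ l, F.U i l y * F.X l y) x
      = F.W x * (frob (F.mU x) (F.mU x) + (a - 2) * bil (F.mU x) (F.vX x) (F.vX x)
          + b * bil (F.mU x) (F.vX x) (F.vY x)
          - (1 - 1 / (n : ℝ)) * p * F.s x * F.zz x) := by
  rw [F.div_W_A x F.U F.X F.dfU F.dfX]
  have h1 := F.sum_divU x (F.vX x)
  have h2 := F.sum_A_dX x (F.mU x) (F.trU x)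
  have h3 := F.bilUsymm x (F.vY x) (F.vX x)
  have h4 := F.dotYX x
  change F.W x * (a * bil (F.mU x) (F.vX x) (F.vX x) + b * bil (F.mU x) (F.vY x) (F.vX x)
    + ∑ l, (∑ i, pd i (F.U i l) x) * F.vX x l + ∑ i, ∑ l, F.mU x i l * pd i (F.X l) x) = _
  rw [h1, h2, h3, h4]
  ring

/-- Field `U(Y)`. -/
lemma Field.D2 :
    ∑ i, pd i (fun y => F.W y * ∑ l, F.U i l y * F.Y l y) x
      = F.W x * (frob (F.mU x) (F.mV x) + (a - 1) * bil (F.mU x) (F.vX x) (F.vY x)
          + (b - 1) * bil (F.mU x) (F.vY x) (F.vY x)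
          - (1 - 1 / (n : ℝ)) * p * F.s x * F.yy x) := by
  rw [F.div_W_A x F.U F.Y F.dfU F.dfY]
  have h1 := F.sum_divU x (F.vY x)
  have h2 := F.sum_A_dY x (F.mU x) (F.trU x)
  have h3 := F.bilUsymm x (F.vY x) (F.vX x)
  change F.W x * (a * bil (F.mU x) (F.vX x) (F.vY x) + b * bil (F.mU x) (F.vY x) (F.vY x)
    + ∑ l, (∑ i, pd i (F.U i l) x) * F.vY x l + ∑ i, ∑ l, F.mU x i l * pd i (F.Y l) x) = _
  rw [h1, h2, h3, ← F.yy_eq x]
  ring

/-- Field `V(X)`. -/
lemma Field.D3 :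
    ∑ i, pd i (fun y => F.W y * ∑ l, F.V i l y * F.X l y) x
      = F.W x * (frob (F.mU x) (F.mV x) + (b - 1) * bil (F.mV x) (F.vX x) (F.vY x)
          + (a - 1) * bil (F.mV x) (F.vX x) (F.vX x)
          - (1 - 1 / (n : ℝ)) * q * F.t x * F.xx x) := by
  rw [F.div_W_A x F.V F.X F.dfV F.dfX]
  have h1 := F.sum_divV x (F.vX x)
  have h2 := F.sum_A_dX x (F.mV x) (F.trV x)
  have h3 := F.bilVsymm x (F.vY x) (F.vX x)
  have h4 := frob_comm (F.mV x) (F.mU x)
  change F.W x * (a * bil (F.mV x) (F.vX x) (F.vX x) + b * bil (F.mV x) (F.vY x) (F.vX x)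
    + ∑ l, (∑ i, pd i (F.V i l) x) * F.vX x l + ∑ i, ∑ l, F.mV x i l * pd i (F.X l) x) = _
  rw [h1, h2, h3, h4, ← F.xx_eq x]
  ring

/-- Field `V(Y)`. -/
lemma Field.D4 :
    ∑ i, pd i (fun y => F.W y * ∑ l, F.V i l y * F.Y l y) x
      = F.W x * (frob (F.mV x) (F.mV x) + (b - 2) * bil (F.mV x) (F.vY x) (F.vY x)
          + a * bil (F.mV x) (F.vX x) (F.vY x)
          - (1 - 1 / (n : ℝ)) * q * F.t x * F.zz x) := by
  rw [F.div_W_A x F.V F.Y F.dfV F.dfY]
  have h1 := F.sum_divV x (F.vY x)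
  have h2 := F.sum_A_dY x (F.mV x) (F.trV x)
  have h3 := F.bilVsymm x (F.vY x) (F.vX x)
  change F.W x * (a * bil (F.mV x) (F.vX x) (F.vY x) + b * bil (F.mV x) (F.vY x) (F.vY x)
    + ∑ l, (∑ i, pd i (F.V i l) x) * F.vY x l + ∑ i, ∑ l, F.mV x i l * pd i (F.Y l) x) = _
  rw [h1, h2, ← F.zz_eq x]
  ring

variable (hn : (n : ℝ) ≠ 0)
include hn

lemma Field.D5 :
    ∑ i, pd i (fun y => F.W y * (F.xx y * F.X i y)) x
      = F.W x * (2 * bil (F.mU x) (F.vX x) (F.vX x) + (a - 3) * F.xx x ^ 2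
          + b * F.xx x * F.zz x - (1 + 2 / (n : ℝ)) * F.s x * F.xx x) := by
  rw [F.div_W_f x F.xx F.X F.dfxx F.dfX]
  have h1 := F.con_xx x (F.vX x)
  change F.W x * (F.xx x * (a * dot (F.vX x) (F.vX x) + b * dot (F.vY x) (F.vX x))
    + ∑ i, pd i F.xx x * F.vX x i + F.xx x * ∑ i, pd i (F.X i) x) = _
  rw [h1, F.divX x hn, F.dotYX x, ← F.xx_eq x]
  ring

lemma Field.D6 :
    ∑ i, pd i (fun y => F.W y * (F.xx y * F.Y i y)) x
      = F.W x * (2 * bil (F.mU x) (F.vX x) (F.vY x) + (a - 2) * F.xx x * F.zz x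
          + (b - 1) * F.xx x * F.yy x - (2 / (n : ℝ)) * F.s x * F.zz x - F.t x * F.xx x) := by
  rw [F.div_W_f x F.xx F.Y F.dfxx F.dfY]
  have h1 := F.con_xx x (F.vY x)
  change F.W x * (F.xx x * (a * dot (F.vX x) (F.vY x) + b * dot (F.vY x) (F.vY x))
    + ∑ i, pd i F.xx x * F.vY x i + F.xx x * ∑ i, pd i (F.Y i) x) = _
  rw [h1, F.divY x hn, F.bilUsymm x (F.vY x) (F.vX x), ← F.zz_eq x, ← F.yy_eq x]
  ring

lemma Field.D7 :
    ∑ i, pd i (fun y => F.W y * (F.zz y * F.X i y)) x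
      = F.W x * (bil (F.mU x) (F.vX x) (F.vY x) + bil (F.mV x) (F.vX x) (F.vX x)
          + (a - 2) * F.xx x * F.zz x + (b - 1) * F.zz x ^ 2
          - (1 + 1 / (n : ℝ)) * F.s x * F.zz x - (1 / (n : ℝ)) * F.t x * F.xx x) := by
  rw [F.div_W_f x F.zz F.X F.dfzz F.dfX]
  have h1 := F.con_zz x (F.vX x)
  change F.W x * (F.zz x * (a * dot (F.vX x) (F.vX x) + b * dot (F.vY x) (F.vX x))
    + ∑ i, pd i F.zz x * F.vX x i + F.zz x * ∑ i, pd i (F.X i) x) = _
  rw [h1, F.divX x hn, F.dotYX x, ← F.xx_eq x]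
  ring

lemma Field.D8 :
    ∑ i, pd i (fun y => F.W y * (F.zz y * F.Y i y)) x
      = F.W x * (bil (F.mV x) (F.vX x) (F.vY x) + bil (F.mU x) (F.vY x) (F.vY x)
          + (b - 2) * F.yy x * F.zz x + (a - 1) * F.zz x ^ 2
          - (1 + 1 / (n : ℝ)) * F.t x * F.zz x - (1 / (n : ℝ)) * F.s x * F.yy x) := by
  rw [F.div_W_f x F.zz F.Y F.dfzz F.dfY]
  have h1 := F.con_zz x (F.vY x)
  change F.W x * (F.zz x * (a * dot (F.vX x) (F.vY x) + b * dot (F.vY x) (F.vY x))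
    + ∑ i, pd i F.zz x * F.vY x i + F.zz x * ∑ i, pd i (F.Y i) x) = _
  rw [h1, F.divY x hn, F.bilVsymm x (F.vY x) (F.vX x), ← F.zz_eq x, ← F.yy_eq x]
  ring

lemma Field.D9 :
    ∑ i, pd i (fun y => F.W y * (F.yy y * F.X i y)) x
      = F.W x * (2 * bil (F.mV x) (F.vX x) (F.vY x) + (b - 2) * F.yy x * F.zz x
          + (a - 1) * F.xx x * F.yy x - (2 / (n : ℝ)) * F.t x * F.zz x - F.s x * F.yy x) := by
  rw [F.div_W_f x F.yy F.X F.dfyy F.dfX]
  have h1 := F.con_yy x (F.vX x)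
  change F.W x * (F.yy x * (a * dot (F.vX x) (F.vX x) + b * dot (F.vY x) (F.vX x))
    + ∑ i, pd i F.yy x * F.vX x i + F.yy x * ∑ i, pd i (F.X i) x) = _
  rw [h1, F.divX x hn, F.dotYX x, ← F.xx_eq x]
  ring

lemma Field.D10 :
    ∑ i, pd i (fun y => F.W y * (F.yy y * F.Y i y)) x
      = F.W x * (2 * bil (F.mV x) (F.vY x) (F.vY x) + (b - 3) * F.yy x ^ 2
          + a * F.yy x * F.zz x - (1 + 2 / (n : ℝ)) * F.t x * F.yy x) := by
  rw [F.div_W_f x F.yy F.Y F.dfyy F.dfY]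
  have h1 := F.con_yy x (F.vY x)
  change F.W x * (F.yy x * (a * dot (F.vX x) (F.vY x) + b * dot (F.vY x) (F.vY x))
    + ∑ i, pd i F.yy x * F.vY x i + F.yy x * ∑ i, pd i (F.Y i) x) = _
  rw [h1, F.divY x hn, ← F.zz_eq x, ← F.yy_eq x]
  ring

lemma Field.D11 :
    ∑ i, pd i (fun y => F.W y * (F.s y * F.X i y)) x
      = F.W x * ((a - 2) * F.s x * F.xx x + (b + p) * F.s x * F.zz x - F.s x ^ 2) := by
  rw [F.div_W_f x F.s F.X F.dfs F.dfX]
  have h1 := F.con_s x (F.vX x)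
  change F.W x * (F.s x * (a * dot (F.vX x) (F.vX x) + b * dot (F.vY x) (F.vX x))
    + ∑ i, pd i F.s x * F.vX x i + F.s x * ∑ i, pd i (F.X i) x) = _
  rw [h1, F.divX x hn, F.dotYX x, ← F.xx_eq x]
  ring

lemma Field.D12 :
    ∑ i, pd i (fun y => F.W y * (F.s y * F.Y i y)) x
      = F.W x * ((a - 1) * F.s x * F.zz x + (b + p - 1) * F.s x * F.yy x - F.s x * F.t x) := by
  rw [F.div_W_f x F.s F.Y F.dfs F.dfY]
  have h1 := F.con_s x (F.vY x)
  change F.W x * (F.s x * (a * dot (F.vX x) (F.vY x) + b * dot (F.vY x) (F.vY x))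
    + ∑ i, pd i F.s x * F.vY x i + F.s x * ∑ i, pd i (F.Y i) x) = _
  rw [h1, F.divY x hn, ← F.zz_eq x, ← F.yy_eq x]
  ring

lemma Field.D13 :
    ∑ i, pd i (fun y => F.W y * (F.t y * F.X i y)) x
      = F.W x * ((b - 1) * F.t x * F.zz x + (a + q - 1) * F.t x * F.xx x - F.s x * F.t x) := by
  rw [F.div_W_f x F.t F.X F.dft F.dfX]
  have h1 := F.con_t x (F.vX x)
  change F.W x * (F.t x * (a * dot (F.vX x) (F.vX x) + b * dot (F.vY x) (F.vX x))
    + ∑ i, pd i F.t x * F.vX x i + F.t x * ∑ i, pd i (F.X i) x) = _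
  rw [h1, F.divX x hn, F.dotYX x, ← F.xx_eq x]
  ring

lemma Field.D14 :
    ∑ i, pd i (fun y => F.W y * (F.t y * F.Y i y)) x
      = F.W x * ((b - 2) * F.t x * F.yy x + (a + q) * F.t x * F.zz x - F.t x ^ 2) := by
  rw [F.div_W_f x F.t F.Y F.dft F.dfY]
  have h1 := F.con_t x (F.vY x)
  change F.W x * (F.t x * (a * dot (F.vX x) (F.vY x) + b * dot (F.vY x) (F.vY x))
    + ∑ i, pd i F.t x * F.vY x i + F.t x * ∑ i, pd i (F.Y i) x) = _
  rw [h1, F.divY x hn, ← F.zz_eq x, ← F.yy_eq x]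
  ring

omit hn

/-- The fourteen fields combined; the certificate field without the weight. -/
def Field.Ff (c : Coef) (i : Fin n) (y : Eu n) : ℝ :=
  c.c1 * ∑ l, F.U i l y * F.X l y + c.c2 * ∑ l, F.U i l y * F.Y l y
  + c.c3 * ∑ l, F.V i l y * F.X l y + c.c4 * ∑ l, F.V i l y * F.Y l y
  + c.c5 * (F.xx y * F.X i y) + c.c6 * (F.xx y * F.Y i y)
  + c.c7 * (F.zz y * F.X i y) + c.c8 * (F.zz y * F.Y i y)
  + c.c9 * (F.yy y * F.X i y) + c.c10 * (F.yy y * F.Y i y)
  + c.c11 * (F.s y * F.X i y) + c.c12 * (F.s y * F.Y i y)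
  + c.c13 * (F.t y * F.X i y) + c.c14 * (F.t y * F.Y i y)

/-- The main Bochner identity. -/
theorem Field.div_eq (hn : (n : ℝ) ≠ 0) (c : Coef) :
    ∑ i, pd i (fun y => F.W y * F.Ff c i y) x
      = F.W x * Qat n p q a b c (frob (F.mU x) (F.mU x)) (frob (F.mU x) (F.mV x))
          (frob (F.mV x) (F.mV x)) (bil (F.mU x) (F.vX x) (F.vX x))
          (bil (F.mU x) (F.vX x) (F.vY x)) (bil (F.mU x) (F.vY x) (F.vY x))
          (bil (F.mV x) (F.vX x) (F.vX x)) (bil (F.mV x) (F.vX x) (F.vY x))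
          (bil (F.mV x) (F.vY x) (F.vY x)) (F.xx x) (F.yy x) (F.zz x) (F.s x) (F.t x) := by
  have dA : ∀ (A : Fin n → Fin n → Eu n → ℝ) (ξ : Fin n → Eu n → ℝ),
      (∀ i l, Differentiable ℝ (A i l)) → (∀ i, Differentiable ℝ (ξ i)) → ∀ i,
      DifferentiableAt ℝ (fun y => F.W y * ∑ l, A i l y * ξ l y) x := fun A ξ hA hξ i =>
    (F.dfW x).fun_mul (Differentiable.fun_sum (fun l _ => (hA i l).fun_mul (hξ l)) x)
  have df : ∀ (f : Eu n → ℝ) (ξ : Fin n → Eu n → ℝ),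
      Differentiable ℝ f → (∀ i, Differentiable ℝ (ξ i)) → ∀ i,
      DifferentiableAt ℝ (fun y => F.W y * (f y * ξ i y)) x := fun f ξ hf hξ i =>
    (F.dfW x).fun_mul ((hf x).fun_mul (hξ i x))
  have key : ∀ i, pd i (fun y => F.W y * F.Ff c i y) x
      = c.c1 * pd i (fun y => F.W y * ∑ l, F.U i l y * F.X l y) x
        + c.c2 * pd i (fun y => F.W y * ∑ l, F.U i l y * F.Y l y) x
        + c.c3 * pd i (fun y => F.W y * ∑ l, F.V i l y * F.X l y) x
        + c.c4 * pd i (fun y => F.W y * ∑ l, F.V i l y * F.Y l y) x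
        + c.c5 * pd i (fun y => F.W y * (F.xx y * F.X i y)) x
        + c.c6 * pd i (fun y => F.W y * (F.xx y * F.Y i y)) x
        + c.c7 * pd i (fun y => F.W y * (F.zz y * F.X i y)) x
        + c.c8 * pd i (fun y => F.W y * (F.zz y * F.Y i y)) x
        + c.c9 * pd i (fun y => F.W y * (F.yy y * F.X i y)) x
        + c.c10 * pd i (fun y => F.W y * (F.yy y * F.Y i y)) x
        + c.c11 * pd i (fun y => F.W y * (F.s y * F.X i y)) x
        + c.c12 * pd i (fun y => F.W y * (F.s y * F.Y i y)) x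
        + c.c13 * pd i (fun y => F.W y * (F.t y * F.X i y)) x
        + c.c14 * pd i (fun y => F.W y * (F.t y * F.Y i y)) x := by
    intro i
    have d1 := dA F.U F.X F.dfU F.dfX i
    have d2 := dA F.U F.Y F.dfU F.dfY i
    have d3 := dA F.V F.X F.dfV F.dfX i
    have d4 := dA F.V F.Y F.dfV F.dfY i
    have d5 := df F.xx F.X F.dfxx F.dfX i
    have d6 := df F.xx F.Y F.dfxx F.dfY i
    have d7 := df F.zz F.X F.dfzz F.dfX i
    have d8 := df F.zz F.Y F.dfzz F.dfY i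
    have d9 := df F.yy F.X F.dfyy F.dfX i
    have d10 := df F.yy F.Y F.dfyy F.dfY i
    have d11 := df F.s F.X F.dfs F.dfX i
    have d12 := df F.s F.Y F.dfs F.dfY i
    have d13 := df F.t F.X F.dft F.dfX i
    have d14 := df F.t F.Y F.dft F.dfY i
    have hfun : (fun y => F.W y * F.Ff c i y) = fun y =>
        c.c1 * (F.W y * ∑ l, F.U i l y * F.X l y) + c.c2 * (F.W y * ∑ l, F.U i l y * F.Y l y)
        + c.c3 * (F.W y * ∑ l, F.V i l y * F.X l y) + c.c4 * (F.W y * ∑ l, F.V i l y * F.Y l y)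
        + c.c5 * (F.W y * (F.xx y * F.X i y)) + c.c6 * (F.W y * (F.xx y * F.Y i y))
        + c.c7 * (F.W y * (F.zz y * F.X i y)) + c.c8 * (F.W y * (F.zz y * F.Y i y))
        + c.c9 * (F.W y * (F.yy y * F.X i y)) + c.c10 * (F.W y * (F.yy y * F.Y i y))
        + c.c11 * (F.W y * (F.s y * F.X i y)) + c.c12 * (F.W y * (F.s y * F.Y i y))
        + c.c13 * (F.W y * (F.t y * F.X i y)) + c.c14 * (F.W y * (F.t y * F.Y i y)) := by
      funext y
      simp only [Field.Ff]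
      ring
    rw [hfun]
    exact pd_lin14 i c.c1 c.c2 c.c3 c.c4 c.c5 c.c6 c.c7 c.c8 c.c9 c.c10 c.c11 c.c12 c.c13 c.c14
      d1 d2 d3 d4 d5 d6 d7 d8 d9 d10 d11 d12 d13 d14
  simp only [key, Finset.sum_add_distrib, ← Finset.mul_sum]
  rw [F.D1 x, F.D2 x, F.D3 x, F.D4 x, F.D5 x hn, F.D6 x hn, F.D7 x hn, F.D8 x hn, F.D9 x hn,
    F.D10 x hn, F.D11 x hn, F.D12 x hn, F.D13 x hn, F.D14 x hn]
  unfold Qat
  ring

end field

end Vale.Agent.Lib.P100
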