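import Mathlib

/-!
P100: the abstract cut-off theorem behind the Bochner certificate.

`Z` is a `C¹` vector field (given by components along a family of directions `e i`), `W > 0`,
`Ee ≥ 0`, with `div Z ≥ c₀ W Ee`, `|Z| ≤ C W Ee^{3/4}`, `W ≤ K Ee^{D/2}` and `dim V < 2D + 4`.
Then we get a contradiction. There is no Young or Hölder inequality in the proof: the test function
is `ζ(x/R)^m` and the pointwise bound `real_two_case` is a two-case computation.
-/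

open MeasureTheory Set Metric Module Filter Topology

namespace Vale.Agent.Lib.P100

theorem real_two_case {A c0 K D R ζ w e : ℝ} {m : ℕ} (hA : 0 ≤ A) (hc0 : 0 < c0) (hK : 0 ≤ K)
    (hD : 0 ≤ D) (hm : 2 * D + 4 ≤ m) (hR : 0 < R) (hζ0 : 0 ≤ ζ) (hζ1 : ζ ≤ 1) (hw : 0 ≤ w)
    (he : 0 ≤ e) (hwe : w ≤ K * e ^ (D / 2)) :
    (A / R) * ζ ^ (m - 1) * (w * e ^ (3 / 4 : ℝ)) ≤
      (c0 / 2) * ζ ^ m * (w * e) + A * K * (2 * A / c0) ^ (2 * D + 3) * R ^ (-(2 * D + 4)) := by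
  have hm4 : (4 : ℝ) ≤ m := by linarith
  have hm1 : 1 ≤ m := by
    have : (1 : ℝ) ≤ m := by linarith
    exact_mod_cast this
  have hlast : 0 ≤ A * K * (2 * A / c0) ^ (2 * D + 3) * R ^ (-(2 * D + 4)) := by
    have : 0 ≤ 2 * A / c0 := by positivity
    positivity
  have hfirst : 0 ≤ (c0 / 2) * ζ ^ m * (w * e) := by positivity
  rcases eq_or_lt_of_le hA with hA0 | hApos
  · have h0 : (A / R) * ζ ^ (m - 1) * (w * e ^ (3 / 4 : ℝ)) = 0 := by rw [← hA0]; simp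
    rw [h0]
    exact add_nonneg hfirst hlast
  rcases eq_or_lt_of_le hζ0 with hζ | hζpos
  · have hm2 : m - 1 ≠ 0 := by
      intro h
      have h1 : m = 1 := by omega
      rw [h1] at hm4
      norm_num at hm4
    have h0 : (A / R) * ζ ^ (m - 1) * (w * e ^ (3 / 4 : ℝ)) = 0 := by
      rw [← hζ, zero_pow hm2]; simp
    rw [h0]
    exact add_nonneg hfirst hlast
  rcases eq_or_lt_of_le he with he0 | hepos
  · have h0 : (A / R) * ζ ^ (m - 1) * (w * e ^ (3 / 4 : ℝ)) = 0 := by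
      rw [← he0, Real.zero_rpow (by norm_num)]; simp
    rw [h0]
    exact add_nonneg hfirst hlast
  -- main case
  set τ0 : ℝ := 2 * A / c0 with hτ0
  have hτ0pos : 0 < τ0 := by positivity
  set f : ℝ := e ^ (1 / 4 : ℝ) with hf
  have hfpos : 0 < f := Real.rpow_pos_of_pos hepos _
  have hf3 : e ^ (3 / 4 : ℝ) = f ^ 3 := by
    rw [hf, ← Real.rpow_natCast, ← Real.rpow_mul hepos.le]
    norm_num
  have hf4 : e = f ^ 4 := by
    rw [hf, ← Real.rpow_natCast, ← Real.rpow_mul hepos.le]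
    norm_num
  have hfD : e ^ (D / 2) = f ^ (2 * D) := by
    rw [hf, ← Real.rpow_mul hepos.le]
    congr 1
    ring
  have hmm : ζ ^ m = ζ ^ (m - 1) * ζ := by
    rw [← pow_succ]
    congr 1
    omega
  by_cases hcase : τ0 ≤ f * ζ * R
  · -- large `τ`: absorbed
    have hAR : A / R ≤ (c0 / 2) * ζ * f := by
      rw [div_le_iff₀ hR]
      have h1 : 2 * A / c0 ≤ f * ζ * R := hcase
      rw [div_le_iff₀ hc0] at h1
      nlinarith
    have hmain : (A / R) * ζ ^ (m - 1) * (w * f ^ 3) ≤ (c0 / 2) * ζ ^ m * (w * f ^ 4) := by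
      rw [hmm]
      have h0 : 0 ≤ ζ ^ (m - 1) * (w * f ^ 3) := by positivity
      have := mul_le_mul_of_nonneg_right hAR h0
      nlinarith [this]
    rw [hf3]
    calc (A / R) * ζ ^ (m - 1) * (w * f ^ 3) ≤ (c0 / 2) * ζ ^ m * (w * f ^ 4) := hmain
      _ = (c0 / 2) * ζ ^ m * (w * e) := by rw [← hf4]
      _ ≤ _ := by linarith
  · -- small `τ`
    push Not at hcase
    have hζR : 0 < ζ * R := by positivity
    have hfle : f ≤ τ0 / (ζ * R) := by
      rw [le_div_iff₀ hζR]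
      nlinarith
    have hw' : w ≤ K * f ^ (2 * D) := by rwa [hfD] at hwe
    have hp : (0 : ℝ) < 2 * D + 3 := by positivity
    set p : ℝ := 2 * D + 3 with hpdef
    have hprod : w * f ^ (3 : ℕ) ≤ K * f ^ p := by
      have h1 : f ^ p = f ^ (2 * D) * f ^ (3 : ℕ) := by
        rw [hpdef, Real.rpow_add hfpos, ← Real.rpow_natCast f 3]
        norm_num
      rw [h1]
      have h2 : (0 : ℝ) ≤ f ^ (3 : ℕ) := by positivity
      nlinarith [mul_le_mul_of_nonneg_right hw' h2]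
    have hfp : f ^ p ≤ (τ0 / (ζ * R)) ^ p := Real.rpow_le_rpow hfpos.le hfle hp.le
    have hsplit : (τ0 / (ζ * R)) ^ p = τ0 ^ p / (ζ ^ p * R ^ p) := by
      rw [Real.div_rpow hτ0pos.le hζR.le, Real.mul_rpow hζpos.le hR.le]
    have hRp : R ^ (-(2 * D + 4)) = (R * R ^ p)⁻¹ := by
      have h1 : 2 * D + 4 = 1 + p := by rw [hpdef]; ring
      rw [h1, Real.rpow_neg hR.le, Real.rpow_add hR, Real.rpow_one]
    have hzpos : 0 < ζ ^ p := Real.rpow_pos_of_pos hζpos _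
    have hRppos : 0 < R ^ p := Real.rpow_pos_of_pos hR _
    have hzm : ζ ^ (m - 1) ≤ ζ ^ p := by
      rw [← Real.rpow_natCast ζ (m - 1)]
      apply Real.rpow_le_rpow_of_exponent_ge hζpos hζ1
      have h1 : ((m - 1 : ℕ) : ℝ) = (m : ℝ) - 1 := by
        rw [Nat.cast_sub hm1]; simp
      rw [h1, hpdef]
      linarith
    have hzm0 : 0 ≤ ζ ^ (m - 1) := by positivity
    have hchain : (A / R) * ζ ^ (m - 1) * (w * f ^ 3) ≤
        A * K * τ0 ^ p * R ^ (-(2 * D + 4)) := by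
      have h1 : w * f ^ 3 ≤ K * (τ0 ^ p / (ζ ^ p * R ^ p)) := by
        rw [← hsplit]
        exact hprod.trans (mul_le_mul_of_nonneg_left hfp hK)
      have h2 : (A / R) * ζ ^ (m - 1) * (w * f ^ 3) ≤
          (A / R) * ζ ^ (m - 1) * (K * (τ0 ^ p / (ζ ^ p * R ^ p))) :=
        mul_le_mul_of_nonneg_left h1 (by positivity)
      have hT : 0 ≤ τ0 ^ p := by positivity
      have h3 : (A / R) * ζ ^ (m - 1) * (K * (τ0 ^ p / (ζ ^ p * R ^ p))) =
          A * K * τ0 ^ p * (R * R ^ p)⁻¹ * (ζ ^ (m - 1) / ζ ^ p) := by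
        field_simp
      have h4 : ζ ^ (m - 1) / ζ ^ p ≤ 1 := (div_le_one hzpos).mpr hzm
      rw [hRp]
      refine h2.trans ?_
      rw [h3]
      exact mul_le_of_le_one_right (by positivity) h4
    rw [hf3]
    linarith

set_option linter.unusedSectionVars false

variable {V : Type*} [NormedAddCommGroup V] [InnerProductSpace ℝ V] [FiniteDimensional ℝ V]
  [MeasurableSpace V] [BorelSpace V]

/-- Integration by parts against a compactly supported `C¹` test function. -/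
theorem ibp {φ Z : V → ℝ} (hφ : ContDiff ℝ 1 φ) (hφc : HasCompactSupport φ) (hZ : ContDiff ℝ 1 Z)
    (v : V) : ∫ x, φ x * fderiv ℝ Z x v = - ∫ x, fderiv ℝ φ x v * Z x := by
  have hdφ : Continuous fun x => fderiv ℝ φ x v :=
    (hφ.continuous_fderiv one_ne_zero).clm_apply continuous_const
  have hdZ : Continuous fun x => fderiv ℝ Z x v :=
    (hZ.continuous_fderiv one_ne_zero).clm_apply continuous_const
  have hφc' : HasCompactSupport (fun x => fderiv ℝ φ x v) :=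
    (hφc.fderiv (𝕜 := ℝ)).comp_left (g := fun L : V →L[ℝ] ℝ => L v) (by simp)
  refine integral_mul_fderiv_eq_neg_fderiv_mul_of_integrable ?_ ?_ ?_ ?_ ?_
  · exact (hdφ.mul hZ.continuous).integrable_of_hasCompactSupport hφc'.mul_right
  · exact (hφ.continuous.mul hdZ).integrable_of_hasCompactSupport hφc.mul_right
  · exact (hφ.continuous.mul hZ.continuous).integrable_of_hasCompactSupport hφc.mul_right
  · exact fun x _ => (hφ.differentiable one_ne_zero) x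
  · exact fun x _ => (hZ.differentiable one_ne_zero) x

/-- The derivative of `χ (r⁻¹ x) ^ m`. -/
theorem hasFDerivAt_scaled_pow {χ : V → ℝ} (hχ : ContDiff ℝ 1 χ) (r : ℝ) (m : ℕ) (x : V) :
    HasFDerivAt (fun x => χ (r⁻¹ • x) ^ m)
      (((m : ℝ) * χ (r⁻¹ • x) ^ (m - 1) * r⁻¹) • fderiv ℝ χ (r⁻¹ • x)) x := by
  have h1 : HasFDerivAt χ (fderiv ℝ χ (r⁻¹ • x)) (r⁻¹ • x) :=
    ((hχ.differentiable one_ne_zero) _).hasFDerivAt
  have h2 : HasFDerivAt (fun x : V => r⁻¹ • x) (r⁻¹ • ContinuousLinearMap.id ℝ V) x :=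
    ((ContinuousLinearMap.id ℝ V).hasFDerivAt).const_smul r⁻¹
  have h3 : HasFDerivAt (fun x => χ (r⁻¹ • x) ^ m) _ x := (h1.comp x h2).pow m
  refine h3.congr_fderiv ?_
  ext v
  simp only [Function.comp_apply, nsmul_eq_mul, smul_apply, smul_eq_mul,
    ContinuousLinearMap.comp_apply, ContinuousLinearMap.id_apply, map_smul]
  ring

/-- Bound on the sum `∑ ∂ᵢ(χ_r^m) Zᵢ`. -/
theorem sum_term_le {ι : Type*} [Fintype ι] (e : ι → V) (Z : ι → ℝ) {χ : V → ℝ} {L B r : ℝ}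
    (m : ℕ) (hr : 0 < r) (y : V) (hχ0 : 0 ≤ χ y) (hL : ∑ i, |fderiv ℝ χ y (e i)| ≤ L)
    (hZ : ∀ i, |Z i| ≤ B) (hB : 0 ≤ B) :
    |∑ i, (((m : ℝ) * χ y ^ (m - 1) * r⁻¹) • fderiv ℝ χ y) (e i) * Z i| ≤
      ((m : ℝ) * L * B / r) * χ y ^ (m - 1) := by
  have hk : 0 ≤ (m : ℝ) * χ y ^ (m - 1) * r⁻¹ := by positivity
  calc |∑ i, (((m : ℝ) * χ y ^ (m - 1) * r⁻¹) • fderiv ℝ χ y) (e i) * Z i|
      ≤ ∑ i, |(((m : ℝ) * χ y ^ (m - 1) * r⁻¹) • fderiv ℝ χ y) (e i) * Z i| :=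
        Finset.abs_sum_le_sum_abs _ _
    _ ≤ ∑ i, ((m : ℝ) * χ y ^ (m - 1) * r⁻¹) * (|fderiv ℝ χ y (e i)| * B) := by
        apply Finset.sum_le_sum
        intro i _
        rw [abs_mul, smul_apply, smul_eq_mul, abs_mul, abs_of_nonneg hk,
          mul_assoc]
        exact mul_le_mul_of_nonneg_left
          (mul_le_mul_of_nonneg_left (hZ i) (abs_nonneg _)) hk
    _ = ((m : ℝ) * χ y ^ (m - 1) * r⁻¹) * ((∑ i, |fderiv ℝ χ y (e i)|) * B) := by
        rw [Finset.sum_mul, Finset.mul_sum]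
    _ ≤ ((m : ℝ) * χ y ^ (m - 1) * r⁻¹) * (L * B) := by
        exact mul_le_mul_of_nonneg_left (mul_le_mul_of_nonneg_right hL hB) hk
    _ = _ := by
        field_simp

/-- Functions continuous off the origin, multiplied by something vanishing near the origin. -/
theorem continuous_mul_of_punct {φ g : V → ℝ} (hφ : Continuous φ) (h0 : 0 ∉ tsupport φ)
    (hg : ContinuousOn g {0}ᶜ) : Continuous fun x => φ x * g x := by
  rw [continuous_iff_continuousAt]
  intro x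
  by_cases hx : x = 0
  · subst hx
    have h1 : φ =ᶠ[𝓝 0] 0 := notMem_tsupport_iff_eventuallyEq.mp h0
    have h2 : (fun x => φ x * g x) =ᶠ[𝓝 0] fun _ => 0 := by
      filter_upwards [h1] with y hy
      simp [hy]
    exact continuousAt_const.congr h2.symm
  · exact hφ.continuousAt.mul (hg.continuousAt (isOpen_compl_singleton.mem_nhds hx))

/-- The cut-off function. -/
theorem exists_bump {ι : Type*} [Fintype ι] (e : ι → V) :
    ∃ (ζ : V → ℝ) (L : ℝ), ContDiff ℝ 1 ζ ∧ 0 ≤ L ∧ (∀ x, 0 ≤ ζ x) ∧ (∀ x, ζ x ≤ 1) ∧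
      (∀ x, ‖x‖ ≤ 1 → ζ x = 1) ∧ (∀ x, 2 ≤ ‖x‖ → ζ x = 0) ∧
      (∀ x, ∑ i, |fderiv ℝ ζ x (e i)| ≤ L) := by
  let b : ContDiffBump (0 : V) := ⟨1, 2, one_pos, one_lt_two⟩
  have hcd : ContDiff ℝ 1 (b : V → ℝ) := b.contDiff
  have hc : HasCompactSupport (fderiv ℝ (b : V → ℝ)) := b.hasCompactSupport.fderiv (𝕜 := ℝ)
  obtain ⟨L0, hL0⟩ := (hcd.continuous_fderiv one_ne_zero).bounded_above_of_compact_support hc
  have hL00 : 0 ≤ L0 := (norm_nonneg _).trans (hL0 0)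
  refine ⟨b, L0 * ∑ i, ‖e i‖, hcd, by positivity, fun x => b.nonneg' x, fun x => b.le_one, ?_, ?_, ?_⟩
  · intro x hx
    exact b.one_of_mem_closedBall (by simpa using hx)
  · intro x hx
    exact b.zero_of_le_dist (by simpa using hx)
  · intro x
    rw [Finset.mul_sum]
    apply Finset.sum_le_sum
    intro i _
    calc |fderiv ℝ (b : V → ℝ) x (e i)| = ‖fderiv ℝ (b : V → ℝ) x (e i)‖ := (Real.norm_eq_abs _).symm
      _ ≤ ‖fderiv ℝ (b : V → ℝ) x‖ * ‖e i‖ := ContinuousLinearMap.le_opNorm _ _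
      _ ≤ L0 * ‖e i‖ := mul_le_mul_of_nonneg_right (hL0 x) (norm_nonneg _)

/-- The integral inequality for fixed radii. -/
theorem cutoff_integral_bound {ι : Type*} [Fintype ι] (e : ι → V) (Z : ι → V → ℝ)
    (W Ee : V → ℝ)
    (hZc : ∀ i, ContinuousOn (Z i) {0}ᶜ) (hWc : ContinuousOn W {0}ᶜ) (hEc : ContinuousOn Ee {0}ᶜ)
    (hWpos : ∀ x, x ≠ 0 → 0 < W x) (hE0 : ∀ x, x ≠ 0 → 0 ≤ Ee x)
    {c0 C K D Wm : ℝ} (hc0 : 0 < c0) (hC : 0 ≤ C) (hK : 0 ≤ K) (hD : 0 ≤ D)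
    (hWm : ∀ x, x ≠ 0 → ‖x‖ ≤ 1 → W x ≤ Wm)
    (hZb : ∀ i x, x ≠ 0 → |Z i x| ≤ C * (W x * Ee x ^ (3 / 4 : ℝ)))
    (hWE : ∀ x, x ≠ 0 → W x ≤ K * Ee x ^ (D / 2))
    (hweak : ∀ φ : V → ℝ, ContDiff ℝ 1 φ → HasCompactSupport φ → (∀ x, 0 ≤ φ x) → 0 ∉ tsupport φ →
      c0 * ∫ x, φ x * (W x * Ee x) ≤ - ∑ i, ∫ x, fderiv ℝ φ x (e i) * Z i x)
    {ζ : V → ℝ} {L : ℝ} (hζ : ContDiff ℝ 1 ζ) (hL0 : 0 ≤ L) (hζ0 : ∀ x, 0 ≤ ζ x) (hζ1 : ∀ x, ζ x ≤ 1)
    (hζone : ∀ x, ‖x‖ ≤ 1 → ζ x = 1) (hζzero : ∀ x, 2 ≤ ‖x‖ → ζ x = 0)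
    (hL : ∀ x, ∑ i, |fderiv ℝ ζ x (e i)| ≤ L)
    {m : ℕ} (hm : 2 * D + 4 ≤ m) {R ε : ℝ} (hR : 1 ≤ R) (hε : 0 < ε) (hε4 : ε ≤ 1 / 4) :
    Integrable (fun x => (ζ (R⁻¹ • x) ^ m * (1 - ζ (ε⁻¹ • x)) ^ m) * (W x * Ee x)) ∧
    (c0 / 2) * ∫ x, (ζ (R⁻¹ • x) ^ m * (1 - ζ (ε⁻¹ • x)) ^ m) * (W x * Ee x) ≤
      ((m : ℝ) * L * C) * K * (2 * ((m : ℝ) * L * C) / (c0 / 2)) ^ (2 * D + 3) * R ^ (-(2 * D + 4)) *
          (volume (ball (0 : V) (3 * R))).toReal +
        ((m : ℝ) * L * C) * |Wm| * (2 * ((m : ℝ) * L * C) / (c0 / 2)) ^ (2 * (0 : ℝ) + 3) *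
            ε ^ (-(2 * (0 : ℝ) + 4)) * (volume (ball (0 : V) (3 * ε))).toReal := by
  have hRpos : 0 < R := by linarith
  have hm4 : (4 : ℝ) ≤ m := by linarith
  have hm1 : 1 ≤ m := by
    have : (1 : ℝ) ≤ m := by linarith
    exact_mod_cast this
  have hm0 : m ≠ 0 := by omega
  have hm4' : 2 * (0 : ℝ) + 4 ≤ m := by linarith
  set A : ℝ := (m : ℝ) * L * C with hA
  have hA0 : 0 ≤ A := by positivity
  set remR : ℝ := A * K * (2 * A / (c0 / 2)) ^ (2 * D + 3) * R ^ (-(2 * D + 4)) with hremR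
  set remε : ℝ := A * |Wm| * (2 * A / (c0 / 2)) ^ (2 * (0 : ℝ) + 3) * ε ^ (-(2 * (0 : ℝ) + 4))
    with hremε
  have hτ : 0 ≤ 2 * A / (c0 / 2) := by positivity
  have hremR0 : 0 ≤ remR := by positivity
  have hremε0 : 0 ≤ remε := by positivity
  -- the two factors
  let χ : V → ℝ := fun x => 1 - ζ x
  have hχ : ContDiff ℝ 1 χ := contDiff_const.sub hζ
  have hχ0 : ∀ x, 0 ≤ χ x := fun x => sub_nonneg.mpr (hζ1 x)
  have hχ1 : ∀ x, χ x ≤ 1 := fun x => by simp only [χ]; linarith [hζ0 x]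
  have hχd : ∀ x v, fderiv ℝ χ x v = - fderiv ℝ ζ x v := by
    intro x v
    have h1 : HasFDerivAt χ (- fderiv ℝ ζ x) x :=
      (((hζ.differentiable one_ne_zero) x).hasFDerivAt).const_sub 1
    rw [h1.fderiv]
    rfl
  have hχL : ∀ x, ∑ i, |fderiv ℝ χ x (e i)| ≤ L := by
    intro x
    simpa only [hχd, abs_neg] using hL x
  let a : V → ℝ := fun x => ζ (R⁻¹ • x) ^ m
  let b : V → ℝ := fun x => χ (ε⁻¹ • x) ^ m
  have ha : ContDiff ℝ 1 a := (hζ.comp (contDiff_const_smul _)).pow m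
  have hb : ContDiff ℝ 1 b := (hχ.comp (contDiff_const_smul _)).pow m
  have ha0 : ∀ x, 0 ≤ a x := fun x => pow_nonneg (hζ0 _) _
  have hb0 : ∀ x, 0 ≤ b x := fun x => pow_nonneg (hχ0 _) _
  have ha1 : ∀ x, a x ≤ 1 := fun x => pow_le_one₀ (hζ0 _) (hζ1 _)
  have hb1 : ∀ x, b x ≤ 1 := fun x => pow_le_one₀ (hχ0 _) (hχ1 _)
  let φ : V → ℝ := fun x => a x * b x
  have hφ : ContDiff ℝ 1 φ := ha.mul hb
  have hφ0 : ∀ x, 0 ≤ φ x := fun x => mul_nonneg (ha0 x) (hb0 x)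
  have hφc : HasCompactSupport φ := by
    refine HasCompactSupport.intro (isCompact_closedBall (0 : V) (2 * R)) ?_
    intro x hx
    have hx' : 2 * R < ‖x‖ := by simpa using hx
    have h1 : 2 ≤ ‖R⁻¹ • x‖ := by
      rw [norm_smul, Real.norm_eq_abs, abs_of_pos (inv_pos.mpr hRpos), inv_mul_eq_div,
        le_div_iff₀ hRpos]
      exact hx'.le
    simp [φ, a, hζzero _ h1, hm0]
  have hφ00 : φ =ᶠ[𝓝 0] 0 := by
    filter_upwards [ball_mem_nhds (0 : V) hε] with y hy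
    have hy' : ‖y‖ < ε := by simpa using hy
    have h1 : ‖ε⁻¹ • y‖ ≤ 1 := by
      rw [norm_smul, Real.norm_eq_abs, abs_of_pos (inv_pos.mpr hε), inv_mul_eq_div,
        div_le_one hε]
      exact hy'.le
    simp [φ, b, χ, hζone _ h1, hm0]
  have hφt : 0 ∉ tsupport φ := notMem_tsupport_iff_eventuallyEq.mpr hφ00
  have hζd0 : ∀ y, 2 < ‖y‖ → fderiv ℝ ζ y = 0 := by
    intro y hy
    have h1 : ζ =ᶠ[𝓝 y] 0 := by
      filter_upwards [(isOpen_lt continuous_const continuous_norm).mem_nhds hy] with z hz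
      exact hζzero z (le_of_lt hz)
    rw [h1.fderiv_eq]
    simp
  -- the derivative of `φ`
  have h_a : ∀ x, HasFDerivAt a
      (((m : ℝ) * ζ (R⁻¹ • x) ^ (m - 1) * R⁻¹) • fderiv ℝ ζ (R⁻¹ • x)) x :=
    fun x => hasFDerivAt_scaled_pow hζ R m x
  have h_b : ∀ x, HasFDerivAt b
      (((m : ℝ) * χ (ε⁻¹ • x) ^ (m - 1) * ε⁻¹) • fderiv ℝ χ (ε⁻¹ • x)) x :=
    fun x => hasFDerivAt_scaled_pow hχ ε m x
  have hsplit : ∀ x, ∑ i, fderiv ℝ φ x (e i) * Z i x =
      a x * ∑ i, (((m : ℝ) * χ (ε⁻¹ • x) ^ (m - 1) * ε⁻¹) • fderiv ℝ χ (ε⁻¹ • x)) (e i) * Z i x +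
      b x * ∑ i, (((m : ℝ) * ζ (R⁻¹ • x) ^ (m - 1) * R⁻¹) • fderiv ℝ ζ (R⁻¹ • x)) (e i) * Z i x := by
    intro x
    have h1 : HasFDerivAt φ _ x := (h_a x).mul (h_b x)
    rw [h1.fderiv, Finset.mul_sum, Finset.mul_sum, ← Finset.sum_add_distrib]
    apply Finset.sum_congr rfl
    intro i _
    simp only [add_apply, smul_apply, smul_eq_mul]
    ring
  have hind : ∀ (r v : ℝ) (x : V), 0 ≤ v → 0 ≤ (ball (0 : V) r).indicator (fun _ => v) x :=
    fun r v x hv => Set.indicator_nonneg (fun _ _ => hv) x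
  -- the pointwise inequality
  have hpt : ∀ x, -∑ i, fderiv ℝ φ x (e i) * Z i x ≤ (c0 / 2) * (φ x * (W x * Ee x)) +
      (ball (0 : V) (3 * R)).indicator (fun _ => remR) x +
      (ball (0 : V) (3 * ε)).indicator (fun _ => remε) x := by
    intro x
    by_cases hx : x = 0
    · subst hx
      have h1 : fderiv ℝ φ 0 = 0 := by
        rw [hφ00.fderiv_eq]; simp
      have h2 : φ 0 = 0 := hφ00.self_of_nhds
      rw [h1, h2]
      simp only [zero_apply, zero_mul, Finset.sum_const_zero, neg_zero,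
        mul_zero, zero_add]
      exact add_nonneg (hind _ _ _ hremR0) (hind _ _ _ hremε0)
    obtain ⟨w, hwdef⟩ : ∃ w, w = W x := ⟨_, rfl⟩
    obtain ⟨ee, heedef⟩ : ∃ ee, ee = Ee x := ⟨_, rfl⟩
    have hw : 0 < w := hwdef ▸ hWpos x hx
    have hee : 0 ≤ ee := heedef ▸ hE0 x hx
    have hB0 : 0 ≤ C * (w * ee ^ (3 / 4 : ℝ)) := by positivity
    have hZi : ∀ i, |Z i x| ≤ C * (w * ee ^ (3 / 4 : ℝ)) := by
      intro i
      rw [hwdef, heedef]
      exact hZb i x hx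
    have hφw : 0 ≤ φ x * (w * ee) := mul_nonneg (hφ0 x) (by positivity)
    rw [hsplit x, ← hwdef, ← heedef]
    -- outer term
    have hOut : -(b x * ∑ i, (((m : ℝ) * ζ (R⁻¹ • x) ^ (m - 1) * R⁻¹) • fderiv ℝ ζ (R⁻¹ • x)) (e i) * Z i x)
        ≤ (c0 / 4) * (φ x * (w * ee)) + (ball (0 : V) (3 * R)).indicator (fun _ => remR) x := by
      by_cases hx3 : ‖x‖ < 3 * R
      · have hmem : x ∈ ball (0 : V) (3 * R) := by simpa using hx3
        rw [Set.indicator_of_mem hmem]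
        have h1 := sum_term_le e (fun i => Z i x) (χ := ζ) (L := L)
          (B := C * (w * ee ^ (3 / 4 : ℝ))) m hRpos (R⁻¹ • x) (hζ0 _) (hL _) hZi hB0
        have h2 := real_two_case (A := A) (c0 := c0 / 2) (K := K) (D := D) (R := R)
          (ζ := ζ (R⁻¹ • x)) (w := w) (e := ee) (m := m) hA0 (by positivity) hK hD hm hRpos
          (hζ0 _) (hζ1 _) hw.le hee (hwdef ▸ heedef ▸ hWE x hx)
        have h3 : (m : ℝ) * L * (C * (w * ee ^ (3 / 4 : ℝ))) / R * ζ (R⁻¹ • x) ^ (m - 1) =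
            A / R * ζ (R⁻¹ • x) ^ (m - 1) * (w * ee ^ (3 / 4 : ℝ)) := by
          rw [hA]; ring
        rw [h3] at h1
        have h4 := (abs_le.mp h1).1
        have h5 : -(∑ i, (((m : ℝ) * ζ (R⁻¹ • x) ^ (m - 1) * R⁻¹) • fderiv ℝ ζ (R⁻¹ • x)) (e i) * Z i x)
            ≤ c0 / 2 / 2 * ζ (R⁻¹ • x) ^ m * (w * ee) + remR := by
          have := neg_le.mp h4
          linarith
        have h6 := mul_le_mul_of_nonneg_left h5 (hb0 x)
        have h7 : b x * remR ≤ remR := mul_le_of_le_one_left hremR0 (hb1 x)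
        have h8 : b x * (c0 / 2 / 2 * ζ (R⁻¹ • x) ^ m * (w * ee)) = (c0 / 4) * (φ x * (w * ee)) := by
          simp only [φ, a]
          ring
        rw [mul_add, h8] at h6
        rw [mul_neg] at h6
        linarith
      · have hmem : x ∉ ball (0 : V) (3 * R) := by simpa using hx3
        rw [Set.indicator_of_notMem hmem]
        have h1 : 2 < ‖R⁻¹ • x‖ := by
          rw [norm_smul, Real.norm_eq_abs, abs_of_pos (inv_pos.mpr hRpos), inv_mul_eq_div,
            lt_div_iff₀ hRpos]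
          push Not at hx3
          linarith
        have h2 : ∑ i, (((m : ℝ) * ζ (R⁻¹ • x) ^ (m - 1) * R⁻¹) • fderiv ℝ ζ (R⁻¹ • x)) (e i) * Z i x = 0 := by
          rw [hζd0 _ h1]
          simp
        rw [h2]
        simp only [mul_zero, neg_zero, add_zero]
        positivity
    -- inner term
    have hIn : -(a x * ∑ i, (((m : ℝ) * χ (ε⁻¹ • x) ^ (m - 1) * ε⁻¹) • fderiv ℝ χ (ε⁻¹ • x)) (e i) * Z i x)
        ≤ (c0 / 4) * (φ x * (w * ee)) + (ball (0 : V) (3 * ε)).indicator (fun _ => remε) x := by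
      by_cases hx3 : ‖x‖ < 3 * ε
      · have hmem : x ∈ ball (0 : V) (3 * ε) := by simpa using hx3
        rw [Set.indicator_of_mem hmem]
        have h1 := sum_term_le e (fun i => Z i x) (χ := χ) (L := L)
          (B := C * (w * ee ^ (3 / 4 : ℝ))) m hε (ε⁻¹ • x) (hχ0 _) (hχL _) hZi hB0
        have hwm : w ≤ |Wm| * ee ^ ((0 : ℝ) / 2) := by
          simp only [zero_div, Real.rpow_zero, mul_one]
          refine (hwdef ▸ hWm x hx ?_).trans (le_abs_self _)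
          linarith
        have h2 := real_two_case (A := A) (c0 := c0 / 2) (K := |Wm|) (D := 0) (R := ε)
          (ζ := χ (ε⁻¹ • x)) (w := w) (e := ee) (m := m) hA0 (by positivity) (abs_nonneg _) le_rfl
          hm4' hε (hχ0 _) (hχ1 _) hw.le hee hwm
        have h3 : (m : ℝ) * L * (C * (w * ee ^ (3 / 4 : ℝ))) / ε * χ (ε⁻¹ • x) ^ (m - 1) =
            A / ε * χ (ε⁻¹ • x) ^ (m - 1) * (w * ee ^ (3 / 4 : ℝ)) := by
          rw [hA]; ring
        rw [h3] at h1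
        have h4 := (abs_le.mp h1).1
        have h5 : -(∑ i, (((m : ℝ) * χ (ε⁻¹ • x) ^ (m - 1) * ε⁻¹) • fderiv ℝ χ (ε⁻¹ • x)) (e i) * Z i x)
            ≤ c0 / 2 / 2 * χ (ε⁻¹ • x) ^ m * (w * ee) + remε := by
          have := neg_le.mp h4
          linarith
        have h6 := mul_le_mul_of_nonneg_left h5 (ha0 x)
        have h7 : a x * remε ≤ remε := mul_le_of_le_one_left hremε0 (ha1 x)
        have h8 : a x * (c0 / 2 / 2 * χ (ε⁻¹ • x) ^ m * (w * ee)) = (c0 / 4) * (φ x * (w * ee)) := by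
          simp only [φ, b]
          ring
        rw [mul_add, h8] at h6
        rw [mul_neg] at h6
        linarith
      · have hmem : x ∉ ball (0 : V) (3 * ε) := by simpa using hx3
        rw [Set.indicator_of_notMem hmem]
        have h1 : 2 < ‖ε⁻¹ • x‖ := by
          rw [norm_smul, Real.norm_eq_abs, abs_of_pos (inv_pos.mpr hε), inv_mul_eq_div,
            lt_div_iff₀ hε]
          push Not at hx3
          linarith
        have h2 : ∑ i, (((m : ℝ) * χ (ε⁻¹ • x) ^ (m - 1) * ε⁻¹) • fderiv ℝ χ (ε⁻¹ • x)) (e i) * Z i x = 0 := by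
          apply Finset.sum_eq_zero
          intro i _
          rw [smul_apply, hχd, hζd0 _ h1]
          simp
        rw [h2]
        simp only [mul_zero, neg_zero, add_zero]
        positivity
    rw [neg_add]
    linarith
  -- integrals
  have hf1 : Integrable fun x => φ x * (W x * Ee x) :=
    (continuous_mul_of_punct hφ.continuous hφt (hWc.mul hEc)).integrable_of_hasCompactSupport
      hφc.mul_right
  have hdφ0 : ∀ v : V, 0 ∉ tsupport fun x => fderiv ℝ φ x v := by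
    intro v
    refine notMem_tsupport_iff_eventuallyEq.mpr ?_
    filter_upwards [hφ00.fderiv (𝕜 := ℝ)] with y hy
    simp [hy]
  have hdφc : ∀ v : V, HasCompactSupport fun x => fderiv ℝ φ x v := fun v =>
    (hφc.fderiv (𝕜 := ℝ)).comp_left (g := fun L : V →L[ℝ] ℝ => L v) (by simp)
  have hf2 : ∀ i, Integrable fun x => fderiv ℝ φ x (e i) * Z i x := fun i =>
    (continuous_mul_of_punct ((hφ.continuous_fderiv one_ne_zero).clm_apply continuous_const)
      (hdφ0 (e i)) (hZc i)).integrable_of_hasCompactSupport (hdφc (e i)).mul_right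
  have hind_R : Integrable ((ball (0 : V) (3 * R)).indicator fun _ => remR) :=
    (integrable_indicator_iff measurableSet_ball).mpr
      (integrableOn_const (measure_ball_lt_top (μ := (volume : Measure V))).ne)
  have hind_ε : Integrable ((ball (0 : V) (3 * ε)).indicator fun _ => remε) :=
    (integrable_indicator_iff measurableSet_ball).mpr
      (integrableOn_const (measure_ball_lt_top (μ := (volume : Measure V))).ne)
  have hweak' := hweak φ hφ hφc hφ0 hφt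
  have hsum : - ∑ i, ∫ x, fderiv ℝ φ x (e i) * Z i x = ∫ x, -∑ i, fderiv ℝ φ x (e i) * Z i x := by
    rw [integral_neg, integral_finsetSum _ (fun i _ => hf2 i)]
  have hmono : ∫ x, -∑ i, fderiv ℝ φ x (e i) * Z i x ≤ ∫ x, ((c0 / 2) * (φ x * (W x * Ee x)) +
      (ball (0 : V) (3 * R)).indicator (fun _ => remR) x +
      (ball (0 : V) (3 * ε)).indicator (fun _ => remε) x) := by
    refine integral_mono ?_ ?_ hpt
    · exact (integrable_finsetSum _ (fun i _ => hf2 i)).neg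
    · exact ((hf1.const_mul _).add hind_R).add hind_ε
  have hval : ∫ x, ((c0 / 2) * (φ x * (W x * Ee x)) +
      (ball (0 : V) (3 * R)).indicator (fun _ => remR) x +
      (ball (0 : V) (3 * ε)).indicator (fun _ => remε) x) =
      (c0 / 2) * (∫ x, φ x * (W x * Ee x)) + remR * (volume (ball (0 : V) (3 * R))).toReal +
        remε * (volume (ball (0 : V) (3 * ε))).toReal := by
    have hA1 : Integrable fun x => (c0 / 2) * (φ x * (W x * Ee x)) := hf1.const_mul _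
    have hA2 : Integrable fun x => (c0 / 2) * (φ x * (W x * Ee x)) +
        (ball (0 : V) (3 * R)).indicator (fun _ => remR) x := hA1.add hind_R
    rw [integral_add hA2 hind_ε, integral_add hA1 hind_R,
      integral_const_mul, integral_indicator_const _ measurableSet_ball,
      integral_indicator_const _ measurableSet_ball]
    simp only [smul_eq_mul, measureReal_def]
    ring
  refine ⟨hf1, ?_⟩
  change (c0 / 2) * ∫ x, φ x * (W x * Ee x) ≤ remR * (volume (ball (0 : V) (3 * R))).toReal +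
    remε * (volume (ball (0 : V) (3 * ε))).toReal
  have hfin : c0 * ∫ x, φ x * (W x * Ee x) ≤ (c0 / 2) * (∫ x, φ x * (W x * Ee x)) +
      remR * (volume (ball (0 : V) (3 * R))).toReal +
        remε * (volume (ball (0 : V) (3 * ε))).toReal := by
    rw [← hval]
    rw [hsum] at hweak'
    exact hweak'.trans hmono
  linarith

/-- For every `B ≥ 0`, `y > 0`, `δ > 0`: `B r^{-y} < δ` for large `r`. -/
theorem exists_large_rpow {B y δ r0 : ℝ} (hy : 0 < y) (hδ : 0 < δ) :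
    ∃ r, r0 ≤ r ∧ 0 < r ∧ B * r ^ (-y) < δ := by
  have h1 : Tendsto (fun r : ℝ => B * r ^ (-y)) atTop (𝓝 (B * 0)) :=
    (tendsto_rpow_neg_atTop hy).const_mul B
  rw [mul_zero] at h1
  have h2 := (h1.eventually (gt_mem_nhds hδ)).and
    ((eventually_ge_atTop r0).and (eventually_gt_atTop 0))
  obtain ⟨r, hr1, hr2, hr3⟩ := h2.exists
  exact ⟨r, hr2, hr3, hr1⟩

/-- **The abstract cut-off theorem.** -/
theorem cutoff_false {ι : Type*} [Fintype ι] (e : ι → V) (Z : ι → V → ℝ) (W Ee : V → ℝ)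
    (hZc : ∀ i, ContinuousOn (Z i) {0}ᶜ) (hWc : ContinuousOn W {0}ᶜ) (hEc : ContinuousOn Ee {0}ᶜ)
    (hWpos : ∀ x, x ≠ 0 → 0 < W x) (hE0 : ∀ x, x ≠ 0 → 0 ≤ Ee x)
    {c0 C K D Wm : ℝ} (hc0 : 0 < c0) (hC : 0 ≤ C) (hK : 0 ≤ K) (hD : 0 < D)
    (hWm : ∀ x, x ≠ 0 → ‖x‖ ≤ 1 → W x ≤ Wm)
    (hdim4 : 4 < finrank ℝ V) (hdim : (finrank ℝ V : ℝ) < 2 * D + 4)
    (hZb : ∀ i x, x ≠ 0 → |Z i x| ≤ C * (W x * Ee x ^ (3 / 4 : ℝ)))
    (hWE : ∀ x, x ≠ 0 → W x ≤ K * Ee x ^ (D / 2))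
    (hweak : ∀ φ : V → ℝ, ContDiff ℝ 1 φ → HasCompactSupport φ → (∀ x, 0 ≤ φ x) → 0 ∉ tsupport φ →
      c0 * ∫ x, φ x * (W x * Ee x) ≤ - ∑ i, ∫ x, fderiv ℝ φ x (e i) * Z i x) :
    False := by
  have hnt : Nontrivial V := by
    apply Module.nontrivial_of_finrank_pos (R := ℝ)
    omega
  obtain ⟨ζ, L, hζ, hL0, hζ0, hζ1, hζone, hζzero, hL⟩ := exists_bump (V := V) e
  obtain ⟨m, hm⟩ : ∃ m : ℕ, 2 * D + 4 ≤ m := ⟨⌈2 * D + 4⌉₊, Nat.le_ceil _⟩
  have hm1 : 1 ≤ m := by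
    have : (1 : ℝ) ≤ m := by linarith
    exact_mod_cast this
  have hm0 : m ≠ 0 := by omega
  set d : ℕ := finrank ℝ V with hd
  -- the compact annulus
  set Ann : Set V := closedBall (0 : V) 1 \ ball (0 : V) (1 / 2) with hAnn
  have hAnncomp : IsCompact Ann := (isCompact_closedBall _ _).diff isOpen_ball
  have hAnn0 : ∀ x ∈ Ann, x ≠ 0 := by
    rintro x ⟨_, hx2⟩ rfl
    exact hx2 (by simp)
  have hWE0 : ∀ x, x ≠ 0 → 0 < Ee x := by
    intro x hx
    rcases (hE0 x hx).lt_or_eq with h | h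
    · exact h
    · have h1 := hWE x hx
      rw [← h, Real.zero_rpow (by positivity), mul_zero] at h1
      linarith [hWpos x hx]
  have hcontAnn : ContinuousOn (fun x => W x * Ee x) Ann :=
    (hWc.mul hEc).mono fun x hx => hAnn0 x hx
  have hintAnn : IntegrableOn (fun x => W x * Ee x) Ann := hcontAnn.integrableOn_compact hAnncomp
  have hmeasAnn : MeasurableSet Ann := hAnncomp.isClosed.measurableSet
  have hvolAnn : 0 < volume Ann := by
    obtain ⟨v, hv⟩ := exists_ne (0 : V)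
    have hvn : 0 < ‖v‖ := norm_pos_iff.mpr hv
    let y : V := ((3 / 4 : ℝ) / ‖v‖) • v
    have hy : ‖y‖ = 3 / 4 := by
      simp only [y]
      rw [norm_smul, Real.norm_eq_abs, abs_of_pos (by positivity)]
      field_simp
    have hopen : IsOpen (ball (0 : V) 1 \ closedBall (0 : V) (1 / 2)) :=
      isOpen_ball.sdiff isClosed_closedBall
    have hne : (ball (0 : V) 1 \ closedBall (0 : V) (1 / 2)).Nonempty :=
      ⟨y, by simp [hy]; norm_num⟩
    refine lt_of_lt_of_le (hopen.measure_pos volume hne) (measure_mono ?_)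
    rintro x ⟨hx1, hx2⟩
    refine ⟨ball_subset_closedBall hx1, fun h => hx2 (ball_subset_closedBall h)⟩
  set I0 : ℝ := ∫ x in Ann, W x * Ee x with hI0
  have hI0pos : 0 < I0 := by
    rw [hI0, setIntegral_pos_iff_support_of_nonneg_ae _ hintAnn]
    · refine lt_of_lt_of_le hvolAnn (measure_mono ?_)
      intro x hx
      exact ⟨(mul_pos (hWpos x (hAnn0 x hx)) (hWE0 x (hAnn0 x hx))).ne', hx⟩
    · filter_upwards [ae_restrict_mem hmeasAnn] with x hx
      exact (mul_pos (hWpos x (hAnn0 x hx)) (hWE0 x (hAnn0 x hx))).le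
  -- volumes
  set v1 : ℝ := (volume (ball (0 : V) 1)).toReal with hv1
  have hv10 : 0 ≤ v1 := ENNReal.toReal_nonneg
  have hvol : ∀ r : ℝ, 0 < r → (volume (ball (0 : V) r)).toReal = r ^ d * v1 := by
    intro r hr
    rw [Measure.addHaar_ball_of_pos _ _ hr, ENNReal.toReal_mul,
      ENNReal.toReal_ofReal (by positivity)]
  set A : ℝ := (m : ℝ) * L * C with hA
  have hA0 : 0 ≤ A := by positivity
  set τ : ℝ := 2 * A / (c0 / 2) with hτ
  have hτ0 : 0 ≤ τ := by positivity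
  have hδ : 0 < (c0 / 2) * I0 / 2 := by positivity
  have hy1 : 0 < 2 * D + 4 - (d : ℝ) := by linarith
  have hy2 : 0 < (d : ℝ) - 4 := by
    have : (4 : ℝ) < d := by exact_mod_cast hdim4
    linarith
  obtain ⟨R, hR1, hR0, hRlt⟩ := exists_large_rpow (B := A * K * τ ^ (2 * D + 3) * (3 ^ d * v1))
    (r0 := 1) hy1 hδ
  obtain ⟨r, hr4, hr0, hrlt⟩ := exists_large_rpow
    (B := A * |Wm| * τ ^ (2 * (0 : ℝ) + 3) * (3 ^ d * v1)) (r0 := 4) hy2 hδ
  have hε : 0 < r⁻¹ := inv_pos.mpr hr0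
  have hε4 : r⁻¹ ≤ 1 / 4 := by
    rw [inv_eq_one_div]
    exact one_div_le_one_div_of_le (by norm_num) hr4
  obtain ⟨hint, hbound⟩ := cutoff_integral_bound e Z W Ee hZc hWc hEc hWpos hE0 hc0 hC hK hD.le hWm
    hZb hWE hweak hζ hL0 hζ0 hζ1 hζone hζzero hL hm hR1 hε hε4
  have hnn : ∀ x, 0 ≤ (ζ (R⁻¹ • x) ^ m * (1 - ζ (r⁻¹⁻¹ • x)) ^ m) * (W x * Ee x) := by
    intro x
    by_cases hx : x = 0
    · subst hx
      have h1 : ζ (r⁻¹⁻¹ • (0 : V)) = 1 := hζone _ (by simp)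
      rw [h1]
      simp [hm0]
    · have h1 : 0 ≤ 1 - ζ (r⁻¹⁻¹ • x) := sub_nonneg.mpr (hζ1 _)
      have h2 := hζ0 (R⁻¹ • x)
      have h3 := hWpos x hx
      have h4 := hWE0 x hx
      positivity
  have hlower : I0 ≤ ∫ x, (ζ (R⁻¹ • x) ^ m * (1 - ζ (r⁻¹⁻¹ • x)) ^ m) * (W x * Ee x) := by
    have h1 := setIntegral_le_integral (s := Ann) hint (Filter.Eventually.of_forall hnn)
    refine le_trans (le_of_eq ?_) h1
    rw [hI0]
    apply setIntegral_congr_fun hmeasAnn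
    intro x hx
    have hx1 : ‖x‖ ≤ 1 := by simpa using hx.1
    have hx2 : 1 / 2 ≤ ‖x‖ := by
      have := hx.2
      simpa using this
    have h1 : ζ (R⁻¹ • x) = 1 := by
      apply hζone
      rw [norm_smul, Real.norm_eq_abs, abs_of_pos (inv_pos.mpr hR0), inv_mul_eq_div, div_le_one hR0]
      linarith
    have h2 : ζ (r⁻¹⁻¹ • x) = 0 := by
      apply hζzero
      rw [inv_inv, norm_smul, Real.norm_eq_abs, abs_of_pos hr0]
      nlinarith
    simp only [h1, h2, one_pow, sub_zero, one_mul]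
  -- the outer remainder
  have hRterm : A * K * τ ^ (2 * D + 3) * R ^ (-(2 * D + 4)) *
      (volume (ball (0 : V) (3 * R))).toReal =
      A * K * τ ^ (2 * D + 3) * (3 ^ d * v1) * R ^ (-(2 * D + 4 - (d : ℝ))) := by
    rw [hvol _ (by positivity), mul_pow]
    have h1 : R ^ (-(2 * D + 4 - (d : ℝ))) = R ^ (-(2 * D + 4)) * R ^ d := by
      rw [← Real.rpow_natCast R d, ← Real.rpow_add hR0]
      congr 1
      ring
    rw [h1]
    ring
  have hεterm : A * |Wm| * τ ^ (2 * (0 : ℝ) + 3) * (r⁻¹) ^ (-(2 * (0 : ℝ) + 4)) *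
      (volume (ball (0 : V) (3 * r⁻¹))).toReal =
      A * |Wm| * τ ^ (2 * (0 : ℝ) + 3) * (3 ^ d * v1) * r ^ (-((d : ℝ) - 4)) := by
    rw [hvol _ (by positivity), mul_pow]
    have h1 : r ^ (-((d : ℝ) - 4)) = (r⁻¹) ^ (-(2 * (0 : ℝ) + 4)) * (r⁻¹) ^ d := by
      rw [← Real.rpow_natCast r⁻¹ d, ← Real.rpow_add hε, Real.inv_rpow hr0.le,
        ← Real.rpow_neg hr0.le]
      congr 1
      ring
    rw [h1]
    ring
  rw [hRterm, hεterm] at hbound
  have hfinal : (c0 / 2) * I0 ≤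
      (c0 / 2) * ∫ x, (ζ (R⁻¹ • x) ^ m * (1 - ζ (r⁻¹⁻¹ • x)) ^ m) * (W x * Ee x) :=
    mul_le_mul_of_nonneg_left hlower (by positivity)
  have hI : 0 < (c0 / 2) * I0 := by positivity
  linarith

end Vale.Agent.Lib.P100
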