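import Vale.Agent.Lib.P100.Jets2

/-!
# P100: number-level facts on the atoms of a jet: Gram matrix, bounds for the fields.
-/

open scoped BigOperators

set_option linter.unusedTactic false

noncomputable section

namespace Vale.Agent.Lib.P100

variable {n : ℕ}

/-- The atoms of `(U,V,X,Y,s,t)`. -/
def atomsOf (U V : Fin n → Fin n → ℝ) (X Y : Fin n → ℝ) (s t : ℝ) : Atoms where
  UU := ip U U
  UV := ip U V
  VV := ip V V
  UXX := BB U X X
  UXY := BB U X Y
  UYY := BB U Y Y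
  VXX := BB V X X
  VXY := BB V X Y
  VYY := BB V Y Y
  x := dot X X
  z := dot X Y
  y := dot Y Y
  s := s
  t := t

/-- The traceless symmetric product of two vectors. -/
def Sy (P Q : Fin n → ℝ) : Fin n → Fin n → ℝ :=
  fun i j => (P i * Q j + P j * Q i) / 2 - dot P Q / n * dl i j

theorem ip_comm' (A B : Fin n → Fin n → ℝ) : ip A B = ip B A := by
  simp only [ip, mul_comm]

theorem dot_nonneg (X : Fin n → ℝ) : 0 ≤ dot X X :=
  Finset.sum_nonneg (fun _ _ => mul_self_nonneg _)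

theorem ip_nonneg (A : Fin n → Fin n → ℝ) : 0 ≤ ip A A :=
  Finset.sum_nonneg (fun _ _ => Finset.sum_nonneg (fun _ _ => mul_self_nonneg _))

theorem ip_Sy (A : Fin n → Fin n → ℝ) (hA : ∀ i j, A i j = A j i)
    (htr : ∑ i, A i i = 0) (P Q : Fin n → ℝ) : ip A (Sy P Q) = BB A P Q := by
  have h1 : ∀ i, ∑ j, A i j * Sy P Q i j
      = ∑ j, (A i j * (P i * Q j) + A i j * (P j * Q i)) / 2 - dot P Q / n * A i i := by
    intro i
    have h2 : dot P Q / n * A i i = ∑ j, dl j i * (dot P Q / n * A i j) :=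
      (sum_dl_mul i (fun j => dot P Q / n * A i j)).symm
    rw [h2, ← Finset.sum_sub_distrib]
    refine Finset.sum_congr rfl (fun j _ => ?_)
    have h3 : dl j i = dl i j := by simp only [dl, eq_comm]
    simp only [Sy, h3]
    ring
  simp only [ip]
  simp_rw [h1]
  rw [Finset.sum_sub_distrib, ← Finset.mul_sum, htr, mul_zero, sub_zero]
  simp only [add_div, Finset.sum_add_distrib]
  have h4 : ∑ i, ∑ j, A i j * (P i * Q j) / 2 = BB A P Q / 2 := by
    simp only [BB, Finset.sum_div]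
  have h5 : ∑ i, ∑ j, A i j * (P j * Q i) / 2 = BB A P Q / 2 := by
    have := BB_symm hA P Q
    rw [this]
    simp only [BB, Finset.sum_div]
    refine Finset.sum_congr rfl (fun i _ => Finset.sum_congr rfl (fun j _ => ?_))
    ring
  rw [h4, h5]
  ring

theorem ip_rank_rank (P Q R T : Fin n → ℝ) :
    ∑ i, ∑ j, (P i * Q j) * (R i * T j) = dot P R * dot Q T := by
  simp only [dot]
  rw [Finset.sum_mul_sum]
  refine Finset.sum_congr rfl (fun i _ => Finset.sum_congr rfl (fun j _ => ?_))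
  ring

theorem ip_rank_rank' (P Q R T : Fin n → ℝ) :
    ∑ i, ∑ j, (P i * Q j) * (R j * T i) = dot P T * dot Q R := by
  simp only [dot]
  rw [Finset.sum_mul_sum]
  refine Finset.sum_congr rfl (fun i _ => Finset.sum_congr rfl (fun j _ => ?_))
  ring

theorem ip_rank_dl (P Q : Fin n → ℝ) : ∑ i, ∑ j, (P i * Q j) * dl i j = dot P Q := by
  simp only [dot]
  refine Finset.sum_congr rfl (fun i _ => ?_)
  have := sum_dl_mul' i (fun j => P i * Q j)
  rw [← this]
  exact Finset.sum_congr rfl (fun j _ => by ring)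

theorem ip_dl_dl : ∑ i : Fin n, ∑ j, dl i j * dl i j = (n : ℝ) := by
  have h : ∀ i : Fin n, ∑ j, dl i j * dl i j = 1 := by
    intro i
    have := sum_dl_mul' i (fun j => dl i j)
    rw [this]
    simp [dl]
  simp [h]

/-- The inner products of the traceless symmetric products. -/
theorem ip_Sy_Sy (hn : (n : ℝ) ≠ 0) (P Q R T : Fin n → ℝ) :
    ip (Sy P Q) (Sy R T) = (dot P R * dot Q T + dot P T * dot Q R) / 2 - dot P Q * dot R T / n := by
  have hexp : ∀ i j, Sy P Q i j * Sy R T i j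
      = ((P i * Q j) * (R i * T j) + (P i * Q j) * (R j * T i)
          + (P j * Q i) * (R i * T j) + (P j * Q i) * (R j * T i)) / 4
        - dot R T / n * (((P i * Q j) * dl i j + (P j * Q i) * dl i j) / 2)
        - dot P Q / n * (((R i * T j) * dl i j + (R j * T i) * dl i j) / 2)
        + dot P Q / n * (dot R T / n) * (dl i j * dl i j) := by
    intro i j
    simp only [Sy]
    ring
  have e1 := ip_rank_rank P Q R T
  have e2 := ip_rank_rank' P Q R T
  have e3 : ∑ i, ∑ j, (P j * Q i) * (R i * T j) = dot P T * dot Q R := by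
    rw [Finset.sum_comm]
    exact e2
  have e4 : ∑ i, ∑ j, (P j * Q i) * (R j * T i) = dot P R * dot Q T := by
    rw [Finset.sum_comm]
    exact e1
  have e5 := ip_rank_dl P Q
  have e6 : ∑ i, ∑ j, (P j * Q i) * dl i j = dot P Q := by
    have h12 := ip_rank_dl Q P
    rw [dot_comm Q P] at h12
    rw [← h12]
    refine Finset.sum_congr rfl (fun i _ => Finset.sum_congr rfl (fun j _ => ?_))
    by_cases hij : i = j
    · subst hij; ring
    · simp [dl, hij]
  have e7 := ip_rank_dl R T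
  have e8 : ∑ i, ∑ j, (R j * T i) * dl i j = dot R T := by
    have h12 := ip_rank_dl T R
    rw [dot_comm T R] at h12
    rw [← h12]
    refine Finset.sum_congr rfl (fun i _ => Finset.sum_congr rfl (fun j _ => ?_))
    by_cases hij : i = j
    · subst hij; ring
    · simp [dl, hij]
  have e9 := ip_dl_dl (n := n)
  simp only [ip]
  simp_rw [hexp]
  simp only [Finset.sum_add_distrib, Finset.sum_sub_distrib, ← Finset.mul_sum, ← Finset.sum_div]
  rw [e1, e2, e3, e4, e5, e6, e7, e8, e9]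
  field_simp
  ring

/-- The five tensors. -/
def Tn (U V : Fin n → Fin n → ℝ) (X Y : Fin n → ℝ) : Fin 5 → Fin n → Fin n → ℝ :=
  ![U, V, Sy X X, Sy X Y, Sy Y Y]

theorem gram_sum (T : Fin 5 → Fin n → Fin n → ℝ) (l : Fin 5 → ℝ) :
    ∑ a, ∑ b, l a * l b * ip (T a) (T b)
      = ip (fun i j => ∑ a, l a * T a i j) (fun i j => ∑ a, l a * T a i j) := by
  simp only [ip]
  have h1 : ∀ i j, (∑ a, l a * T a i j) * (∑ a, l a * T a i j)
      = ∑ a, ∑ b, l a * l b * (T a i j * T b i j) := by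
    intro i j
    rw [Finset.sum_mul_sum]
    refine Finset.sum_congr rfl (fun a _ => Finset.sum_congr rfl (fun b _ => ?_))
    ring
  simp_rw [h1]
  simp only [Finset.mul_sum]
  calc ∑ a, ∑ b, ∑ i, ∑ j, l a * l b * (T a i j * T b i j)
      = ∑ a, ∑ i, ∑ b, ∑ j, l a * l b * (T a i j * T b i j) :=
        Finset.sum_congr rfl (fun a _ => Finset.sum_comm)
    _ = ∑ i, ∑ a, ∑ b, ∑ j, l a * l b * (T a i j * T b i j) := Finset.sum_comm
    _ = ∑ i, ∑ a, ∑ j, ∑ b, l a * l b * (T a i j * T b i j) :=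
        Finset.sum_congr rfl (fun i _ => Finset.sum_congr rfl (fun a _ => Finset.sum_comm))
    _ = ∑ i, ∑ j, ∑ a, ∑ b, l a * l b * (T a i j * T b i j) :=
        Finset.sum_congr rfl (fun i _ => Finset.sum_comm)

section
variable {U V : Fin n → Fin n → ℝ} {X Y : Fin n → ℝ} {s t : ℝ}

theorem gram_eq (hn : (n : ℝ) ≠ 0) (hU : ∀ i j, U i j = U j i) (hV : ∀ i j, V i j = V j i)
    (tU : ∑ i, U i i = 0) (tV : ∑ i, V i i = 0) (a b : Fin 5) :
    Atoms.gram n (atomsOf U V X Y s t) a b = ip (Tn U V X Y a) (Tn U V X Y b) := by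
  have dz : dot Y X = dot X Y := dot_comm _ _
  fin_cases a <;> fin_cases b
  · rfl
  · rfl
  · exact (ip_Sy U hU tU X X).symm
  · exact (ip_Sy U hU tU X Y).symm
  · exact (ip_Sy U hU tU Y Y).symm
  · exact ip_comm' U V
  · rfl
  · exact (ip_Sy V hV tV X X).symm
  · exact (ip_Sy V hV tV X Y).symm
  · exact (ip_Sy V hV tV Y Y).symm
  · exact ((ip_comm' (Sy X X) U).trans (ip_Sy U hU tU X X)).symm
  · exact ((ip_comm' (Sy X X) V).trans (ip_Sy V hV tV X X)).symm
  · show (1 - 1 / (n:ℝ)) * (dot X X) ^ 2 = ip (Sy X X) (Sy X X)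
    rw [ip_Sy_Sy hn]; (try simp only [dz]); field_simp; (try ring)
  · show (1 - 1 / (n:ℝ)) * (dot X X * dot X Y) = ip (Sy X X) (Sy X Y)
    rw [ip_Sy_Sy hn]; (try simp only [dz]); field_simp; (try ring)
  · show (dot X Y) ^ 2 - dot X X * dot Y Y / n = ip (Sy X X) (Sy Y Y)
    rw [ip_Sy_Sy hn]; (try simp only [dz]); field_simp; (try ring)
  · exact ((ip_comm' (Sy X Y) U).trans (ip_Sy U hU tU X Y)).symm
  · exact ((ip_comm' (Sy X Y) V).trans (ip_Sy V hV tV X Y)).symm
  · show (1 - 1 / (n:ℝ)) * (dot X X * dot X Y) = ip (Sy X Y) (Sy X X)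
    rw [ip_Sy_Sy hn]; (try simp only [dz]); field_simp; (try ring)
  · show (dot X X * dot Y Y + (dot X Y) ^ 2) / 2 - (dot X Y) ^ 2 / n = ip (Sy X Y) (Sy X Y)
    rw [ip_Sy_Sy hn]; (try simp only [dz]); field_simp; (try ring)
  · show (1 - 1 / (n:ℝ)) * (dot Y Y * dot X Y) = ip (Sy X Y) (Sy Y Y)
    rw [ip_Sy_Sy hn]; (try simp only [dz]); field_simp; (try ring)
  · exact ((ip_comm' (Sy Y Y) U).trans (ip_Sy U hU tU Y Y)).symm
  · exact ((ip_comm' (Sy Y Y) V).trans (ip_Sy V hV tV Y Y)).symm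
  · show (dot X Y) ^ 2 - dot X X * dot Y Y / n = ip (Sy Y Y) (Sy X X)
    rw [ip_Sy_Sy hn]; (try simp only [dz]); field_simp; (try ring)
  · show (1 - 1 / (n:ℝ)) * (dot Y Y * dot X Y) = ip (Sy Y Y) (Sy X Y)
    rw [ip_Sy_Sy hn]; (try simp only [dz]); field_simp; (try ring)
  · show (1 - 1 / (n:ℝ)) * (dot Y Y) ^ 2 = ip (Sy Y Y) (Sy Y Y)
    rw [ip_Sy_Sy hn]; (try simp only [dz]); field_simp; (try ring)

/-- The atoms of a jet are realizable. -/
theorem atomsOf_realizable (hn : (n : ℝ) ≠ 0) (hU : ∀ i j, U i j = U j i)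
    (hV : ∀ i j, V i j = V j i) (tU : ∑ i, U i i = 0) (tV : ∑ i, V i i = 0)
    (hs : 0 < s) (ht : 0 < t) : Atoms.Realizable n (atomsOf U V X Y s t) where
  x_nonneg := dot_nonneg X
  y_nonneg := dot_nonneg Y
  cs := by
    show (dot X Y) ^ 2 ≤ dot X X * dot Y Y
    have := Finset.sum_mul_sq_le_sq_mul_sq Finset.univ X Y
    simpa only [dot, pow_two] using this
  s_pos := hs
  t_pos := ht
  form_nonneg := by
    intro a b
    have h1 : 0 ≤ ∑ i, (a * X i + b * Y i) * (a * X i + b * Y i) :=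
      Finset.sum_nonneg (fun _ _ => mul_self_nonneg _)
    have h2 : ∑ i, (a * X i + b * Y i) * (a * X i + b * Y i)
        = a ^ 2 * dot X X + 2 * a * b * dot X Y + b ^ 2 * dot Y Y := by
      simp only [dot, Finset.mul_sum, ← Finset.sum_add_distrib]
      refine Finset.sum_congr rfl (fun i _ => ?_)
      ring
    rw [h2] at h1
    exact h1
  gram_nonneg := by
    intro l
    have h1 : ∀ a b, l a * l b * Atoms.gram n (atomsOf U V X Y s t) a b
        = l a * l b * ip (Tn U V X Y a) (Tn U V X Y b) := by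
      intro a b
      rw [gram_eq hn hU hV tU tV]
    simp_rw [h1]
    rw [gram_sum]
    exact ip_nonneg _

/-- The 14 vector fields at the level of numbers, in the order of `Atoms.D`. -/
def numF (U V : Fin n → Fin n → ℝ) (X Y : Fin n → ℝ) (s t : ℝ) : Fin 14 → Fin n → ℝ :=
  ![fun i => ∑ j, U i j * X j, fun i => ∑ j, U i j * Y j,
    fun i => ∑ j, V i j * X j, fun i => ∑ j, V i j * Y j,
    fun i => dot X X * X i, fun i => dot X X * Y i,
    fun i => dot X Y * X i, fun i => dot X Y * Y i,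
    fun i => dot Y Y * X i, fun i => dot Y Y * Y i,
    fun i => s * X i, fun i => s * Y i, fun i => t * X i, fun i => t * Y i]

theorem EE_eq : (atomsOf U V X Y s t).EE
    = ip U U + ip V V + (dot X X) ^ 2 + (dot Y Y) ^ 2 + s ^ 2 + t ^ 2 := rfl

theorem EE_nonneg : 0 ≤ (atomsOf U V X Y s t).EE := by
  rw [EE_eq]
  have := ip_nonneg U
  have := ip_nonneg V
  positivity

/-- The field bound in terms of `e` with `e^4 = E`. -/
theorem abs_numF_le_aux {e : ℝ} (he : 0 ≤ e) (h4 : (atomsOf U V X Y s t).EE = e ^ 4)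
    (k : Fin 14) (i : Fin n) : |numF U V X Y s t k i| ≤ e ^ 3 := by
  have hE := EE_eq (U := U) (V := V) (X := X) (Y := Y) (s := s) (t := t)
  rw [h4] at hE
  have a1 := ip_nonneg U
  have a2 := ip_nonneg V
  have a3 := dot_nonneg X
  have a4 := dot_nonneg Y
  have e2 : 0 ≤ e ^ 2 := by positivity
  have e4 : (e ^ 2) ^ 2 = e ^ 4 := by ring
  have hx : |dot X X| ≤ e ^ 2 := by
    apply abs_le_of_sq_le_sq _ e2
    nlinarith [sq_nonneg (dot Y Y), sq_nonneg s, sq_nonneg t]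
  have hy : |dot Y Y| ≤ e ^ 2 := by
    apply abs_le_of_sq_le_sq _ e2
    nlinarith [sq_nonneg (dot X X), sq_nonneg s, sq_nonneg t]
  have hs : |s| ≤ e ^ 2 := by
    apply abs_le_of_sq_le_sq _ e2
    nlinarith [sq_nonneg (dot X X), sq_nonneg (dot Y Y), sq_nonneg t]
  have ht : |t| ≤ e ^ 2 := by
    apply abs_le_of_sq_le_sq _ e2
    nlinarith [sq_nonneg (dot X X), sq_nonneg (dot Y Y), sq_nonneg s]
  have cs : (dot X Y) ^ 2 ≤ dot X X * dot Y Y := by
    have := Finset.sum_mul_sq_le_sq_mul_sq Finset.univ X Y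
    simpa only [dot, pow_two] using this
  have hz : |dot X Y| ≤ e ^ 2 := by
    apply abs_le_of_sq_le_sq _ e2
    nlinarith [sq_nonneg (dot X X - dot Y Y), sq_nonneg s, sq_nonneg t]
  have hxle : dot X X ≤ e ^ 2 := (le_abs_self _).trans hx
  have hyle : dot Y Y ≤ e ^ 2 := (le_abs_self _).trans hy
  have hXi : ∀ i, |X i| ≤ e := by
    intro i
    apply abs_le_of_sq_le_sq _ he
    have : X i * X i ≤ dot X X :=
      Finset.single_le_sum (f := fun j => X j * X j) (fun _ _ => mul_self_nonneg _)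
        (Finset.mem_univ i)
    nlinarith
  have hYi : ∀ i, |Y i| ≤ e := by
    intro i
    apply abs_le_of_sq_le_sq _ he
    have : Y i * Y i ≤ dot Y Y :=
      Finset.single_le_sum (f := fun j => Y j * Y j) (fun _ _ => mul_self_nonneg _)
        (Finset.mem_univ i)
    nlinarith
  have hprod : ∀ a b : ℝ, |a| ≤ e ^ 2 → |b| ≤ e → |a * b| ≤ e ^ 3 := by
    intro a b h1 h2
    rw [abs_mul]
    calc |a| * |b| ≤ e ^ 2 * e := mul_le_mul h1 h2 (abs_nonneg _) e2
      _ = e ^ 3 := by ring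
  have hUZ : ∀ (A : Fin n → Fin n → ℝ) (Z : Fin n → ℝ), ip A A ≤ e ^ 4 → dot Z Z ≤ e ^ 2 →
      |∑ j, A i j * Z j| ≤ e ^ 3 := by
    intro A Z h1 h2
    have e3 : 0 ≤ e ^ 3 := by positivity
    apply abs_le_of_sq_le_sq _ e3
    have h3 := Finset.sum_mul_sq_le_sq_mul_sq Finset.univ (A i) Z
    have h4' : ∑ j, A i j ^ 2 ≤ ip A A := by
      have : ∑ j, A i j * A i j ≤ ip A A :=
        Finset.single_le_sum (f := fun i => ∑ j, A i j * A i j)
          (fun _ _ => Finset.sum_nonneg (fun _ _ => mul_self_nonneg _)) (Finset.mem_univ i)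
      simpa only [pow_two] using this
    have h5 : ∑ j, Z j ^ 2 = dot Z Z := by simp only [dot, pow_two]
    rw [h5] at h3
    have h6 : 0 ≤ dot Z Z := dot_nonneg Z
    have h7 : 0 ≤ ∑ j, A i j ^ 2 := Finset.sum_nonneg (fun _ _ => sq_nonneg _)
    calc (∑ j, A i j * Z j) ^ 2 ≤ (∑ j, A i j ^ 2) * dot Z Z := h3
      _ ≤ e ^ 4 * e ^ 2 := mul_le_mul (h4'.trans h1) h2 h6 (by positivity)
      _ = (e ^ 3) ^ 2 := by ring
  have hUU : ip U U ≤ e ^ 4 := by
    nlinarith [sq_nonneg (dot X X), sq_nonneg (dot Y Y), sq_nonneg s, sq_nonneg t]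
  have hVV : ip V V ≤ e ^ 4 := by
    nlinarith [sq_nonneg (dot X X), sq_nonneg (dot Y Y), sq_nonneg s, sq_nonneg t]
  fin_cases k
  · exact hUZ U X hUU hxle
  · exact hUZ U Y hUU hyle
  · exact hUZ V X hVV hxle
  · exact hUZ V Y hVV hyle
  · exact hprod _ _ hx (hXi i)
  · exact hprod _ _ hx (hYi i)
  · exact hprod _ _ hz (hXi i)
  · exact hprod _ _ hz (hYi i)
  · exact hprod _ _ hy (hXi i)
  · exact hprod _ _ hy (hYi i)
  · exact hprod _ _ hs (hXi i)
  · exact hprod _ _ hs (hYi i)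
  · exact hprod _ _ ht (hXi i)
  · exact hprod _ _ ht (hYi i)

/-- Bound for the 14 fields: `|F_k^i| <= E^(3/4)`. -/
theorem abs_numF_le (k : Fin 14) (i : Fin n) :
    |numF U V X Y s t k i| ≤ (atomsOf U V X Y s t).EE ^ ((3 : ℝ) / 4) := by
  have hE := EE_nonneg (U := U) (V := V) (X := X) (Y := Y) (s := s) (t := t)
  set E := (atomsOf U V X Y s t).EE with hEdef
  have he : 0 ≤ E ^ ((1 : ℝ) / 4) := Real.rpow_nonneg hE _
  have h4 : E = (E ^ ((1 : ℝ) / 4)) ^ 4 := by
    rw [← Real.rpow_natCast, ← Real.rpow_mul hE]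
    norm_num
  have h3 : E ^ ((3 : ℝ) / 4) = (E ^ ((1 : ℝ) / 4)) ^ 3 := by
    rw [← Real.rpow_natCast, ← Real.rpow_mul hE]
    norm_num
  rw [h3]
  exact abs_numF_le_aux he h4 k i

/-- `s^lam t^mu <= E^((lam+mu)/2)`. -/
theorem st_pow_le (hs : 0 < s) (ht : 0 < t) {lam mu : ℝ} (hl : 0 ≤ lam) (hm : 0 ≤ mu) :
    s ^ lam * t ^ mu ≤ (atomsOf U V X Y s t).EE ^ ((lam + mu) / 2) := by
  have hE0 := EE_eq (U := U) (V := V) (X := X) (Y := Y) (s := s) (t := t)
  have a1 := ip_nonneg U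
  have a2 := ip_nonneg V
  set E := (atomsOf U V X Y s t).EE with hEdef
  have hEs : s ^ 2 ≤ E := by
    rw [hE0]; nlinarith [sq_nonneg (dot X X), sq_nonneg (dot Y Y), sq_nonneg t]
  have hEt : t ^ 2 ≤ E := by
    rw [hE0]; nlinarith [sq_nonneg (dot X X), sq_nonneg (dot Y Y), sq_nonneg s]
  have hEpos : 0 < E := lt_of_lt_of_le (by positivity) hEs
  have h1 : s ≤ E ^ ((1 : ℝ) / 2) := by
    rw [← Real.sqrt_eq_rpow]
    exact Real.le_sqrt_of_sq_le hEs
  have h2 : t ≤ E ^ ((1 : ℝ) / 2) := by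
    rw [← Real.sqrt_eq_rpow]
    exact Real.le_sqrt_of_sq_le hEt
  have h3 : s ^ lam ≤ E ^ (lam / 2) := by
    calc s ^ lam ≤ (E ^ ((1 : ℝ) / 2)) ^ lam := Real.rpow_le_rpow hs.le h1 hl
      _ = E ^ (lam / 2) := by rw [← Real.rpow_mul hEpos.le]; congr 1; ring
  have h4 : t ^ mu ≤ E ^ (mu / 2) := by
    calc t ^ mu ≤ (E ^ ((1 : ℝ) / 2)) ^ mu := Real.rpow_le_rpow ht.le h2 hm
      _ = E ^ (mu / 2) := by rw [← Real.rpow_mul hEpos.le]; congr 1; ring
  calc s ^ lam * t ^ mu ≤ E ^ (lam / 2) * E ^ (mu / 2) :=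
        mul_le_mul h3 h4 (Real.rpow_nonneg ht.le _) (Real.rpow_nonneg hEpos.le _)
    _ = E ^ ((lam + mu) / 2) := by rw [← Real.rpow_add hEpos]; congr 1; ring

end

end Vale.Agent.Lib.P100
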