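import Vale.Agent.Lib.P100.Jets3
import Vale.Agent.Lib.P100.Num
import Vale.Agent.Lib.P100.CutOff

/-!
# P100: from a certificate to nonexistence of positive `C^3` solutions on `R^n`.
-/

open scoped BigOperators
open Filter Topology MeasureTheory

noncomputable section

namespace Vale.Agent.Lib.P100

variable {n : ℕ}

section regularity
variable {u v : Eu n → ℝ} {p q : ℝ}

theorem cd_pd' {f : Eu n → ℝ} {k : ℕ} (hf : ContDiff ℝ (k + 1 : ℕ) f) (i : Fin n) :
    ContDiff ℝ k (pd i f) := by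
  have h1 : ContDiff ℝ k (fderiv ℝ f) := hf.fderiv_right (by norm_cast)
  exact h1.clm_apply contDiff_const

theorem cd_Xf (hu : ContDiff ℝ 3 u) (hup : ∀ x, 0 < u x) (i : Fin n) : ContDiff ℝ 2 (Xf u i) := by
  have h1 : ContDiff ℝ 2 (pd i u) := cd_pd' (k := 2) hu i
  exact h1.div (hu.of_le (by norm_num)) (fun x => (hup x).ne')

theorem cd_Sf (hu : ContDiff ℝ 3 u) (hv : ContDiff ℝ 3 v) (hup : ∀ x, 0 < u x) (hvp : ∀ x, 0 < v x) :
    ContDiff ℝ 3 (Sf u v p) :=
  (hv.rpow_const_of_ne (fun x => (hvp x).ne')).div hu (fun x => (hup x).ne')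

theorem cd_Hf (hu : ContDiff ℝ 3 u) (i j : Fin n) : ContDiff ℝ 1 (Hf u i j) :=
  cd_pd' (k := 1) (cd_pd' (k := 2) hu i) j

theorem cd_Uf (hu : ContDiff ℝ 3 u) (hv : ContDiff ℝ 3 v) (hup : ∀ x, 0 < u x)
    (hvp : ∀ x, 0 < v x) (i j : Fin n) : ContDiff ℝ 1 (Uf u v p i j) := by
  have h1 : ContDiff ℝ 1 (Hf u i j) := cd_Hf hu i j
  have h2 : ContDiff ℝ 1 u := hu.of_le (by norm_num)
  have h3 : ContDiff ℝ 1 (Sf u v p) := (cd_Sf hu hv hup hvp).of_le (by norm_num)
  exact (h1.div h2 (fun x => (hup x).ne')).add (contDiff_const.mul (h3.div_const _))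

theorem cd_Wf (hu : ContDiff ℝ 3 u) (hv : ContDiff ℝ 3 v) (hup : ∀ x, 0 < u x)
    (hvp : ∀ x, 0 < v x) (a b : ℝ) : ContDiff ℝ 3 (Wf u v a b) :=
  (hu.rpow_const_of_ne (fun x => (hup x).ne')).mul (hv.rpow_const_of_ne (fun x => (hvp x).ne'))

theorem cd_FU {Z : Fin n → Eu n → ℝ} (hu : ContDiff ℝ 3 u) (hv : ContDiff ℝ 3 v)
    (hup : ∀ x, 0 < u x) (hvp : ∀ x, 0 < v x) (hZ : ∀ j, ContDiff ℝ 1 (Z j)) (i : Fin n) :
    ContDiff ℝ 1 (FU u v p Z i) :=
  ContDiff.sum (fun j _ => (cd_Uf hu hv hup hvp i j).mul (hZ j))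

theorem cd_Fz {P R S : Fin n → Eu n → ℝ} (hP : ∀ j, ContDiff ℝ 1 (P j))
    (hR : ∀ j, ContDiff ℝ 1 (R j)) (hS : ∀ j, ContDiff ℝ 1 (S j)) (i : Fin n) :
    ContDiff ℝ 1 (Fz P R S i) :=
  (ContDiff.sum (fun j _ => (hP j).mul (hR j))).mul (hS i)

theorem cd_Fs {f : Eu n → ℝ} {S : Fin n → Eu n → ℝ} (hf : ContDiff ℝ 1 f)
    (hS : ∀ j, ContDiff ℝ 1 (S j)) (i : Fin n) : ContDiff ℝ 1 (Fs f S i) :=
  hf.mul (hS i)

theorem cd_Flds (hu : ContDiff ℝ 3 u) (hv : ContDiff ℝ 3 v)
    (hup : ∀ x, 0 < u x) (hvp : ∀ x, 0 < v x) (k : Fin 14) (i : Fin n) :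
    ContDiff ℝ 1 (Flds u v p q k i) := by
  have hX : ∀ j, ContDiff ℝ 1 (Xf u j) := fun j => (cd_Xf hu hup j).of_le (by norm_num)
  have hY : ∀ j, ContDiff ℝ 1 (Xf v j) := fun j => (cd_Xf hv hvp j).of_le (by norm_num)
  have hS : ContDiff ℝ 1 (Sf u v p) := (cd_Sf hu hv hup hvp).of_le (by norm_num)
  have hT : ContDiff ℝ 1 (Sf v u q) := (cd_Sf hv hu hvp hup).of_le (by norm_num)
  fin_cases k
  · exact cd_FU hu hv hup hvp hX i
  · exact cd_FU hu hv hup hvp hY i
  · exact cd_FU hv hu hvp hup hX i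
  · exact cd_FU hv hu hvp hup hY i
  · exact cd_Fz hX hX hX i
  · exact cd_Fz hX hX hY i
  · exact cd_Fz hX hY hX i
  · exact cd_Fz hX hY hY i
  · exact cd_Fz hY hY hX i
  · exact cd_Fz hY hY hY i
  · exact cd_Fs hS hX i
  · exact cd_Fs hS hY i
  · exact cd_Fs hT hX i
  · exact cd_Fs hT hY i

end regularity

/-- The Bochner vector field. -/
def Zf (u v : Eu n → ℝ) (p q a b : ℝ) (c : Fin 14 → ℝ) (i : Fin n) (y : Eu n) : ℝ :=
  ∑ k, c k * (Wf u v a b y * Flds u v p q k i y)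

theorem Flds_eq_numF (u v : Eu n → ℝ) (p q : ℝ) (x : Eu n) (k : Fin 14) (i : Fin n) :
    Flds u v p q k i x = numF (Um u v p x) (Um v u q x) (Xv u x) (Xv v x)
      (Sf u v p x) (Sf v u q x) k i := by
  fin_cases k <;> rfl

theorem atomsAt_eq (u v : Eu n → ℝ) (p q : ℝ) (x : Eu n) :
    atomsAt u v p q x = atomsOf (Um u v p x) (Um v u q x) (Xv u x) (Xv v x)
      (Sf u v p x) (Sf v u q x) := rfl

section
variable {u v : Eu n → ℝ} {p q : ℝ} {x : Eu n}

theorem Loc.realizable (h : Loc u v p q x) : Atoms.Realizable n (atomsAt u v p q x) := by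
  rw [atomsAt_eq]
  have hs : 0 < Sf u v p x := div_pos (Real.rpow_pos_of_pos h.vpos _) h.upos
  have ht : 0 < Sf v u q x := div_pos (Real.rpow_pos_of_pos h.upos _) h.vpos
  exact atomsOf_realizable h.hn h.Um_symm h.swap.Um_symm h.trUm h.swap.trUm hs ht

theorem Wf_eq_st {a b lam mu : ℝ} (hup : 0 < u x) (hvp : 0 < v x)
    (ha : a = mu * q - lam) (hb : b = lam * p - mu) :
    Wf u v a b x = (Sf u v p x) ^ lam * (Sf v u q x) ^ mu := by
  simp only [Wf, Sf]
  rw [Real.div_rpow (Real.rpow_nonneg hvp.le _) hup.le,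
    Real.div_rpow (Real.rpow_nonneg hup.le _) hvp.le, ← Real.rpow_mul hvp.le,
    ← Real.rpow_mul hup.le, ha, hb, Real.rpow_sub hup, Real.rpow_sub hvp, mul_comm mu q, mul_comm lam p]
  have h1 := (Real.rpow_pos_of_pos hup lam).ne'
  have h2 := (Real.rpow_pos_of_pos hvp mu).ne'
  field_simp

/-- The divergence of the Bochner field. -/
theorem div_Zf (hu : ContDiff ℝ 3 u) (hv : ContDiff ℝ 3 v) (hup : ∀ x, 0 < u x)
    (hvp : ∀ x, 0 < v x) (h : Loc u v p q x) (a b : ℝ) (c : Fin 14 → ℝ) :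
    ∑ i, pd i (Zf u v p q a b c i) x = Wf u v a b x * Atoms.Q n p q a b c (atomsAt u v p q x) := by
  have h1 : ∀ i, pd i (Zf u v p q a b c i) x
      = ∑ k, c k * pd i (fun y => Wf u v a b y * Flds u v p q k i y) x := by
    intro i
    have hd : ∀ k, DifferentiableAt ℝ (fun y => Wf u v a b y * Flds u v p q k i y) x := by
      intro k
      have h2 : ContDiff ℝ 1 (fun y => Wf u v a b y * Flds u v p q k i y) :=
        ((cd_Wf hu hv hup hvp a b).of_le (by norm_num)).mul (cd_Flds hu hv hup hvp k i)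
      exact (h2.differentiable one_ne_zero) x
    exact (HG.sum Finset.univ (fun k _ => HG.const_mul (c k) (HG.of_diff (hd k)))).2 i
  simp_rw [h1]
  rw [Finset.sum_comm]
  simp only [← Finset.mul_sum]
  simp_rw [div_Flds h a b]
  simp only [Atoms.Q, Finset.mul_sum]
  refine Finset.sum_congr rfl (fun k _ => ?_)
  ring

end

/-- Nonexistence of positive `C^3` solutions from a certificate. -/
theorem no_solution_C3 (hn5 : 5 ≤ n) {p q a b lam mu c0 : ℝ} {c : Fin 14 → ℝ}
    (hc : Cert n p q a b c c0) (hc0 : 0 < c0) (hl : 0 ≤ lam) (hm : 0 ≤ mu)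
    (ha : a = mu * q - lam) (hb : b = lam * p - mu) (hD : (n : ℝ) < 2 * (lam + mu) + 4)
    {u v : Eu n → ℝ} (hu : ContDiff ℝ 3 u) (hv : ContDiff ℝ 3 v)
    (hup : ∀ x, 0 < u x) (hvp : ∀ x, 0 < v x)
    (h1 : ∀ x, ∑ i, Hf u i i x = - v x ^ p) (h2 : ∀ x, ∑ i, Hf v i i x = - u x ^ q) : False := by
  have hn : (n : ℝ) ≠ 0 := by
    have : n ≠ 0 := by omega
    exact_mod_cast this
  have hL : ∀ x, Loc u v p q x := fun x =>
    ⟨hu.contDiffAt, hv.contDiffAt, hup x, hvp x, Eventually.of_forall h1,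
      Eventually.of_forall h2, hn⟩
  have hn5' : (5 : ℝ) ≤ n := by exact_mod_cast hn5
  have hDpos : 0 < lam + mu := by linarith
  set W := Wf u v a b with hWdef
  set Ee : Eu n → ℝ := fun x => (atomsAt u v p q x).EE with hEe
  have cW : Continuous W := (cd_Wf hu hv hup hvp a b).continuous
  have cX : ∀ j, Continuous (Xf u j) := fun j => (cd_Xf hu hup j).continuous
  have cY : ∀ j, Continuous (Xf v j) := fun j => (cd_Xf hv hvp j).continuous
  have cU : ∀ i j, Continuous (Uf u v p i j) := fun i j => (cd_Uf hu hv hup hvp i j).continuous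
  have cV : ∀ i j, Continuous (Uf v u q i j) := fun i j => (cd_Uf hv hu hvp hup i j).continuous
  have cS : Continuous (Sf u v p) := (cd_Sf hu hv hup hvp).continuous
  have cT : Continuous (Sf v u q) := (cd_Sf hv hu hvp hup).continuous
  have cEe : Continuous Ee := by
    have e1 : Continuous fun x => ip (Um u v p x) (Um u v p x) :=
      continuous_finsetSum _ fun i _ => continuous_finsetSum _ fun j _ => (cU i j).mul (cU i j)
    have e2 : Continuous fun x => ip (Um v u q x) (Um v u q x) :=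
      continuous_finsetSum _ fun i _ => continuous_finsetSum _ fun j _ => (cV i j).mul (cV i j)
    have e3 : Continuous fun x => dot (Xv u x) (Xv u x) :=
      continuous_finsetSum _ fun i _ => (cX i).mul (cX i)
    have e4 : Continuous fun x => dot (Xv v x) (Xv v x) :=
      continuous_finsetSum _ fun i _ => (cY i).mul (cY i)
    exact (((((e1.add e2).add (e3.pow 2)).add (e4.pow 2)).add (cS.pow 2)).add (cT.pow 2))
  have cZ : ∀ i, ContDiff ℝ 1 (Zf u v p q a b c i) := fun i =>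
    ContDiff.sum (fun k _ => contDiff_const.mul
      (((cd_Wf hu hv hup hvp a b).of_le (by norm_num)).mul (cd_Flds hu hv hup hvp k i)))
  have hWpos : ∀ x, 0 < W x := fun x =>
    mul_pos (Real.rpow_pos_of_pos (hup x) _) (Real.rpow_pos_of_pos (hvp x) _)
  obtain ⟨Wm, hWm⟩ := (isCompact_closedBall (0 : Eu n) 1).exists_bound_of_continuousOn
    cW.continuousOn
  have hEnn : ∀ x, 0 ≤ Ee x := fun x => by
    simp only [hEe, atomsAt_eq]
    exact EE_nonneg
  have hfr : Module.finrank ℝ (Eu n) = n := finrank_euclideanSpace_fin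
  refine cutoff_false (V := Eu n) (ι := Fin n) ee (Zf u v p q a b c) W Ee
    (fun i => (cZ i).continuous.continuousOn) cW.continuousOn cEe.continuousOn
    (fun x _ => hWpos x) (fun x _ => hEnn x) (c0 := c0) (C := ∑ k, |c k|) (K := 1)
    (D := lam + mu) (Wm := Wm) hc0 (Finset.sum_nonneg (fun _ _ => abs_nonneg _)) zero_le_one hDpos
    ?_ ?_ ?_ ?_ ?_ ?_
  · intro x _ hx
    have := hWm x (by simpa using hx)
    exact (le_abs_self _).trans this
  · rw [hfr]; omega
  · rw [hfr]; exact hD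
  · intro i x _
    have hW0 := (hWpos x).le
    have hE := abs_numF_le (U := Um u v p x) (V := Um v u q x) (X := Xv u x) (Y := Xv v x)
      (s := Sf u v p x) (t := Sf v u q x)
    simp only [Zf]
    calc |∑ k, c k * (Wf u v a b x * Flds u v p q k i x)|
        ≤ ∑ k, |c k * (Wf u v a b x * Flds u v p q k i x)| := Finset.abs_sum_le_sum_abs _ _
      _ ≤ ∑ k, |c k| * (W x * Ee x ^ (3 / 4 : ℝ)) := by
          refine Finset.sum_le_sum (fun k _ => ?_)
          rw [abs_mul, abs_mul, abs_of_pos (hWpos x)]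
          refine mul_le_mul_of_nonneg_left ?_ (abs_nonneg _)
          refine mul_le_mul_of_nonneg_left ?_ hW0
          rw [Flds_eq_numF]
          exact hE k i
      _ = (∑ k, |c k|) * (W x * Ee x ^ (3 / 4 : ℝ)) := by rw [Finset.sum_mul]
  · intro x _
    have h3 := Wf_eq_st (u := u) (v := v) (p := p) (q := q) (x := x) (a := a) (b := b)
      (lam := lam) (mu := mu) (hup x) (hvp x) ha hb
    have hs : 0 < Sf u v p x := div_pos (Real.rpow_pos_of_pos (hvp x) _) (hup x)
    have ht : 0 < Sf v u q x := div_pos (Real.rpow_pos_of_pos (hup x) _) (hvp x)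
    have h4 := st_pow_le (U := Um u v p x) (V := Um v u q x) (X := Xv u x) (Y := Xv v x) hs ht hl hm
    rw [one_mul]
    simp only [hWdef, hEe, atomsAt_eq, h3]
    exact h4
  · intro φ hφ hφc hφ0 _
    have hibp : ∀ i, - ∫ x, fderiv ℝ φ x (ee i) * Zf u v p q a b c i x
        = ∫ x, φ x * pd i (Zf u v p q a b c i) x := by
      intro i
      have := ibp hφ hφc (cZ i) (ee i)
      simp only [pd]
      rw [this]
    rw [← Finset.sum_neg_distrib]
    simp_rw [hibp]
    have hcdz : ∀ i, Continuous fun x => pd i (Zf u v p q a b c i) x := fun i =>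
      (cd_pd' (k := 0) (by simpa using cZ i) i).continuous
    have hint : ∀ i, Integrable (fun x => φ x * pd i (Zf u v p q a b c i) x) := fun i =>
      (hφ.continuous.mul (hcdz i)).integrable_of_hasCompactSupport hφc.mul_right
    rw [← integral_finsetSum _ (fun i _ => hint i)]
    rw [← integral_const_mul]
    refine integral_mono ?_ ?_ ?_
    · exact (continuous_const.mul (hφ.continuous.mul (cW.mul cEe))).integrable_of_hasCompactSupport
        (hφc.mul_right.mul_left)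
    · exact integrable_finsetSum _ (fun i _ => hint i)
    · intro x
      have h5 := hc _ (hL x).realizable
      have h6 := div_Zf hu hv hup hvp (hL x) a b c
      simp only
      rw [← Finset.mul_sum, h6]
      have h7 : 0 ≤ φ x * W x := mul_nonneg (hφ0 x) (hWpos x).le
      have h8 := mul_le_mul_of_nonneg_left h5 h7
      calc c0 * (φ x * (W x * Ee x)) = φ x * W x * (c0 * Ee x) := by ring
        _ ≤ _ := h8
        _ = _ := by ring

/-- The Laplacian of Mathlib in coordinates. -/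
theorem lap_eq {f : Eu n → ℝ} (hf : ContDiff ℝ 2 f) (x : Eu n) :
    Laplacian.laplacian f x = ∑ i, Hf f i i x := by
  have h1 := InnerProductSpace.laplacian_eq_iteratedFDeriv_orthonormalBasis f
    (EuclideanSpace.basisFun (Fin n) ℝ)
  rw [h1]
  refine Finset.sum_congr rfl (fun i _ => ?_)
  have hd : DifferentiableAt ℝ (fderiv ℝ f) x := by
    have h2 : ContDiff ℝ 1 (fderiv ℝ f) := hf.fderiv_right (by norm_num)
    exact (h2.differentiable one_ne_zero) x
  simp only [Hf]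
  rw [pd_pd hd, iteratedFDeriv_two_apply]
  simp

/-- Nonexistence of positive `C^3` solutions of the Lane-Emden system from a certificate, with
Mathlib's Laplacian. -/
theorem no_solution_C3_lap (hn5 : 5 ≤ n) {p q a b lam mu c0 : ℝ} {c : Fin 14 → ℝ}
    (hc : Cert n p q a b c c0) (hc0 : 0 < c0) (hl : 0 ≤ lam) (hm : 0 ≤ mu)
    (ha : a = mu * q - lam) (hb : b = lam * p - mu) (hD : (n : ℝ) < 2 * (lam + mu) + 4)
    {u v : Eu n → ℝ} (hu : ContDiff ℝ 3 u) (hv : ContDiff ℝ 3 v)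
    (hup : ∀ x, 0 < u x) (hvp : ∀ x, 0 < v x)
    (h1 : ∀ x, - Laplacian.laplacian u x = v x ^ p)
    (h2 : ∀ x, - Laplacian.laplacian v x = u x ^ q) : False := by
  refine no_solution_C3 hn5 hc hc0 hl hm ha hb hD hu hv hup hvp ?_ ?_
  · intro x
    rw [← lap_eq (hu.of_le (by norm_num)) x, ← h1 x, neg_neg]
  · intro x
    rw [← lap_eq (hv.of_le (by norm_num)) x, ← h2 x, neg_neg]

/-- The same with the conditions in terms of `a, b`: `pq > 1`, `a, b >= 0`,
`(n-4)(pq-1) < 2(a(p+1)+b(q+1))`. -/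
theorem no_solution_C3_ab (hn5 : 5 ≤ n) {p q a b c0 : ℝ} {c : Fin 14 → ℝ}
    (hc : Cert n p q a b c c0) (hc0 : 0 < c0) (hpq : 1 < p * q) (ha : 0 ≤ a) (hb : 0 ≤ b)
    (hp : 0 ≤ p) (hq : 0 ≤ q)
    (hD : ((n : ℝ) - 4) * (p * q - 1) < 2 * (a * (p + 1) + b * (q + 1)))
    {u v : Eu n → ℝ} (hu : ContDiff ℝ 3 u) (hv : ContDiff ℝ 3 v)
    (hup : ∀ x, 0 < u x) (hvp : ∀ x, 0 < v x)
    (h1 : ∀ x, - Laplacian.laplacian u x = v x ^ p)
    (h2 : ∀ x, - Laplacian.laplacian v x = u x ^ q) : False := by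
  have hd : 0 < p * q - 1 := by linarith
  have hd' : p * q - 1 ≠ 0 := hd.ne'
  refine no_solution_C3_lap hn5 hc hc0 (lam := (a + b * q) / (p * q - 1))
    (mu := (b + a * p) / (p * q - 1)) (by positivity) (by positivity) ?_ ?_ ?_ hu hv hup hvp h1 h2
  · have h3 : (b + a * p) / (p * q - 1) * q - (a + b * q) / (p * q - 1)
        = a * (p * q - 1) / (p * q - 1) := by ring
    rw [h3, mul_div_cancel_right₀ _ hd']
  · have h3 : (a + b * q) / (p * q - 1) * p - (b + a * p) / (p * q - 1)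
        = b * (p * q - 1) / (p * q - 1) := by ring
    rw [h3, mul_div_cancel_right₀ _ hd']
  · have h3 : (a + b * q) / (p * q - 1) + (b + a * p) / (p * q - 1)
        = (a * (p + 1) + b * (q + 1)) / (p * q - 1) := by
      ring
    rw [h3]
    have h4 : ((n : ℝ) - 4) < 2 * (a * (p + 1) + b * (q + 1)) / (p * q - 1) := by
      rw [lt_div_iff₀ hd]
      linarith
    have h5 : 2 * ((a * (p + 1) + b * (q + 1)) / (p * q - 1))
        = 2 * (a * (p + 1) + b * (q + 1)) / (p * q - 1) := by ring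
    linarith

end Vale.Agent.Lib.P100
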