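import Vale.Agent.Lib.P100.CPoly

/-!
# P100: the clean region `x y + (x-y)^2/(x y) < n^2`, from the double-root boxes (helper13).

With `x = (n-2) p - 2`, `y = (n-2) q - 2` the critical hyperbola is exactly `x y = n^2`.
The box parameter is `ρ = 1 + t` where `x = n + M t`, `M` the exact slope of the corner curve at `ρ = 1`.
-/

noncomputable section

namespace Vale.Agent.Lib.P100.CF

open Vale.Agent.Lib.P100

/-- `x(t) = n + M t` -/
def xh (d t : ℝ) : ℝ := fB d t / (2 * d * fZ d * (1 + d))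
/-- `n = 2 + 1/d` -/
def nn (d : ℝ) : ℝ := (1 + 2 * d) / d
/-- `S(t) = (x - n^2/x)^2 / n^2` -/
def fS (d t : ℝ) : ℝ := (xh d t - nn d ^ 2 / xh d t) ^ 2 / nn d ^ 2
/-- the bound for `y` -/
def yh (d t : ℝ) : ℝ := (nn d ^ 2 - fS d t) / xh d t

section basics
variable {d t : ℝ}

theorem fV_pos (hd : 0 < d) : 0 < fV d := by
  unfold fV; positivity

theorem fB_pos (hd : 0 < d) (hd3 : d ≤ 1 / 3) (ht : 0 < t) : 0 < fB d t := by
  unfold fB
  have := fZ_pos hd hd3
  have := fV_pos hd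
  positivity

theorem fA2_pos (hd : 0 < d) (hd3 : d ≤ 1 / 3) (ht : 0 < t) : 0 < fA2 d t := by
  unfold fA2
  have := fZ_pos hd hd3
  have := fV_pos hd
  positivity

theorem nn_pos (hd : 0 < d) : 0 < nn d := by
  unfold nn; positivity

theorem nn_ge (hd : 0 < d) (hd3 : d ≤ 1 / 3) : 5 ≤ nn d := by
  unfold nn
  rw [le_div_iff₀ hd]
  linarith

theorem xh_eq (hd : 0 < d) (hd3 : d ≤ 1 / 3) (t : ℝ) :
    xh d t = nn d + fV d * t / (2 * d * fZ d * (1 + d)) := by
  have h1 := (fZ_pos hd hd3).ne'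
  have h2 : 1 + d ≠ 0 := by positivity
  have h3 := hd.ne'
  unfold xh nn fB
  field_simp

theorem xh_gt (hd : 0 < d) (hd3 : d ≤ 1 / 3) (ht : 0 < t) : nn d < xh d t := by
  rw [xh_eq hd hd3]
  have := fZ_pos hd hd3
  have := fV_pos hd
  have : 0 < fV d * t / (2 * d * fZ d * (1 + d)) := by positivity
  linarith

theorem xh_pos (hd : 0 < d) (hd3 : d ≤ 1 / 3) (ht : 0 < t) : 0 < xh d t :=
  (nn_pos hd).trans (xh_gt hd hd3 ht)

theorem hF1 (hd : 0 < d) (hd3 : d ≤ 1 / 3) (t : ℝ) :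
    fF d (1 + t) = fF1n d t / (2 * (1 + 3 * d) * fZ d) := by
  have h1 := (fZ_pos hd hd3).ne'
  have h2 := hD hd
  unfold fF fF0 fl fF1n
  field_simp
  ring

theorem hF2 (hd : 0 < d) (hd3 : d ≤ 1 / 3) (ht : 0 < t) :
    fF d (1 / (1 + t)) = fF2n d t / (2 * (1 + 3 * d) * fZ d * (1 + t)) := by
  have h1 := (fZ_pos hd hd3).ne'
  have h2 := hD hd
  have h3 : 1 + t ≠ 0 := by positivity
  unfold fF fF0 fl fF2n
  field_simp
  ring

theorem hu (hd : 0 < d) (hd3 : d ≤ 1 / 3) (t : ℝ) :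
    (1 + d) * (xh d t + 2) - 2 * fF d (1 + t) = fA1 d t / (2 * d * fZ d * (1 + 3 * d)) := by
  have h1 := (fZ_pos hd hd3).ne'
  have h2 := hD hd
  have h3 := hd.ne'
  have h4 : 1 + d ≠ 0 := by positivity
  rw [hF1 hd hd3]
  unfold xh fB fA1 fF1n
  field_simp
  ring

theorem fA1_pos (hd : 0 < d) (hd3 : d ≤ 1 / 3) (ht : 0 < t) : 0 < fA1 d t := by
  unfold fA1
  have hZ := fZ_pos hd hd3
  have hY : fV d * (1 + 3 * d) - 2 * d ^ 2 * fY d =
      2 + 16 * d + 43 * d ^ 2 + 44 * d ^ 3 + 13 * d ^ 4 + 2 * d ^ 5 := by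
    unfold fV fY
    ring
  rw [hY]
  positivity

end basics

section boxes
variable {d t : ℝ}

/-- the upper side of the first box inequality -/
theorem B1_upper (hd : 0 < d) (hd3 : d ≤ 1 / 3) (ht : 0 < t) :
    (d / (1 + 2 * d) * ((1 + d) * (xh d t + 2) - 2 * fF d (1 + t))) ^ 2
      < 4 * (fF0 d * (fG d (1 + t) * fF d (1 / (1 + t)))) := by
  have hZ := fZ_pos hd hd3
  have hR := fR_pos hd hd3
  have key := I_pos hd hd3 ht
  rw [hu hd hd3, hF2 hd hd3 ht]
  have hden : 0 < fR d * (1 + t) + (1 + d) ^ 2 := by positivity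
  have e1 : (d / (1 + 2 * d) * (fA1 d t / (2 * d * fZ d * (1 + 3 * d)))) ^ 2 =
      fA1 d t ^ 2 / (4 * (1 + 2 * d) ^ 2 * fZ d ^ 2 * (1 + 3 * d) ^ 2) := by
    have h1 := hZ.ne'
    have h2 := hD hd
    have h3 := hd.ne'
    have h4 := hT hd
    field_simp
    ring
  have e2 : 4 * (fF0 d * (fG d (1 + t) * (fF2n d t / (2 * (1 + 3 * d) * fZ d * (1 + t))))) =
      (1 + d) * (1 + 4 * d) * (1 + t) * ((1 + d) ^ 2 * (1 + t) + fR d) * fF2n d t /
        ((1 + 3 * d) ^ 2 * fZ d * (fR d * (1 + t) + (1 + d) ^ 2)) := by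
    have h1 := hZ.ne'
    have h2 := hD hd
    have h3 : 1 + t ≠ 0 := by positivity
    have h4 := hden.ne'
    unfold fF0 fG
    field_simp
    ring
  rw [e1, e2, div_lt_div_iff₀ (by positivity) (by positivity)]
  have h5 : 0 < (1 + 3 * d) ^ 2 * fZ d := by positivity
  have := mul_lt_mul_of_pos_left key h5
  nlinarith [this]

theorem fl_le (hd : 0 < d) (hd3 : d ≤ 1 / 3) : 2 * fl d ≤ fF0 d := by
  have hZ := fZ_pos hd hd3
  have e : fF0 d - 2 * fl d = ((1 + d) * (1 + 4 * d) * fZ d - 2 * d * fY d) /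
      (2 * (1 + 3 * d) * fZ d) := by
    have h1 := hZ.ne'
    have h2 := hD hd
    unfold fF0 fl
    field_simp
  have h3 : 0 ≤ (1 + d) * (1 + 4 * d) * fZ d - 2 * d * fY d := by
    have e3 : (1 + d) * (1 + 4 * d) * fZ d - 2 * d * fY d =
        1 + 3 * d - 5 * d ^ 2 - 17 * d ^ 3 - 2 * d ^ 4 := by
      unfold fZ fY
      ring
    rw [e3]
    have h2 : d ^ 2 ≤ d * (1 / 3) := by nlinarith
    have h3' : d ^ 3 ≤ d * (1 / 9) := by nlinarith [sq_nonneg d]
    have h4 : d ^ 4 ≤ d * (1 / 27) := by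
      have : d ^ 4 = d ^ 3 * d := by ring
      nlinarith [pow_pos hd 3]
    nlinarith
  have : 0 ≤ fF0 d - 2 * fl d := by
    rw [e]
    positivity
  linarith

/-- the first box inequality for all `0 < x <= xh`. -/
theorem B1_gen (hd : 0 < d) (hd3 : d ≤ 1 / 3) (ht : 0 < t) {x : ℝ} (hx : 0 < x) (hxle : x ≤ xh d t) :
    (d / (1 + 2 * d) * ((1 + d) * (x + 2) - 2 * fF d (1 + t))) ^ 2
      < 4 * (fF0 d * (fG d (1 + t) * fF d (1 / (1 + t)))) := by
  have hρ0 : 0 < 1 + t := by linarith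
  have hup := B1_upper hd hd3 ht
  have hF0 := fF0_pos hd
  have hl := fl_pos hd hd3
  have hle := fl_le hd hd3
  have hc : 0 < d / (1 + 2 * d) := by positivity
  have hcle : d / (1 + 2 * d) ≤ 1 / 5 := by
    rw [div_le_div_iff₀ (by positivity) (by norm_num)]
    linarith
  have hF1pos := fF_pos hd hd3 hρ0
  have hF2pos := fF_pos hd hd3 (r := 1 / (1 + t)) (by positivity)
  set u := (1 + d) * (x + 2) - 2 * fF d (1 + t) with hu'
  have humax : u ≤ (1 + d) * (xh d t + 2) - 2 * fF d (1 + t) := by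
    rw [hu']
    have : (1 + d) * (x + 2) ≤ (1 + d) * (xh d t + 2) :=
      mul_le_mul_of_nonneg_left (by linarith) (by positivity)
    linarith
  by_cases hu0 : 0 ≤ u
  · refine lt_of_le_of_lt ?_ hup
    have : (d / (1 + 2 * d) * u) ^ 2 ≤
        (d / (1 + 2 * d) * ((1 + d) * (xh d t + 2) - 2 * fF d (1 + t))) ^ 2 := by
      apply pow_le_pow_left₀ (by positivity)
      exact mul_le_mul_of_nonneg_left humax hc.le
    exact this
  · push Not at hu0
    have hu2 : -u ≤ 2 * fF d (1 + t) := by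
      rw [hu']
      have : 0 < (1 + d) * (x + 2) := by positivity
      linarith
    have h1 : (d / (1 + 2 * d) * u) ^ 2 ≤ (1 / 5 * (2 * fF d (1 + t))) ^ 2 := by
      rw [← neg_sq]
      apply pow_le_pow_left₀ (by nlinarith)
      have : -(d / (1 + 2 * d) * u) = d / (1 + 2 * d) * (-u) := by ring
      rw [this]
      exact mul_le_mul hcle hu2 (by linarith) (by norm_num)
    refine lt_of_le_of_lt h1 ?_
    -- bounds
    have hF1le : fF d (1 + t) ≤ (1 + t) * fF0 d := by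
      unfold fF
      have : t * fl d ≤ t * fF0 d := mul_le_mul_of_nonneg_left (by linarith) ht.le
      nlinarith
    have hF2ge : fF0 d / 2 ≤ fF d (1 / (1 + t)) := by
      unfold fF
      have h3 : 0 < 1 / (1 + t) := by positivity
      nlinarith
    have hG : (1 + t) ^ 2 ≤ fG d (1 + t) := by
      unfold fG
      have hR := fR_pos hd hd3
      rw [le_div_iff₀ (by positivity)]
      have h4 : (1 + d) ^ 2 - fR d = 4 * d ^ 2 := by
        unfold fR; ring
      have h5 : fR d * (1 + t) + (1 + d) ^ 2 ≤ (1 + d) ^ 2 * (1 + t) + fR d := by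
        nlinarith [mul_nonneg ht.le (sq_nonneg d)]
      exact mul_le_mul_of_nonneg_left h5 (by positivity)
    have hG0 : 0 < fG d (1 + t) := lt_of_lt_of_le (by positivity) hG
    have h6 : (1 + t) ^ 2 * (fF0 d * (fF0 d / 2)) ≤ fG d (1 + t) * (fF0 d * fF d (1 / (1 + t))) := by
      apply mul_le_mul hG _ (by positivity) hG0.le
      exact mul_le_mul_of_nonneg_left hF2ge hF0.le
    have h7 : (fF d (1 + t)) ^ 2 ≤ (1 + t) ^ 2 * fF0 d ^ 2 := by
      have := pow_le_pow_left₀ hF1pos.le hF1le 2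
      nlinarith
    have h8 : 0 < (1 + t) ^ 2 * fF0 d ^ 2 := by positivity
    nlinarith


/-- the closed form of `Abar`. -/
theorem hAbar (hd : 0 < d) (hd3 : d ≤ 1 / 3) (ht : 0 < t) :
    (1 + d) * (nn d ^ 2 / xh d t + 2) - 2 * fF d (1 / (1 + t)) =
      fAn d t / (d * fB d t * (1 + 3 * d) * fZ d * (1 + t)) := by
  have hZ := (fZ_pos hd hd3).ne'
  have hB := (fB_pos hd hd3 ht).ne'
  have h2 := hD hd
  have h3 := hd.ne'
  have h4 : 1 + d ≠ 0 := by positivity
  have h5 : 1 + t ≠ 0 := by positivity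
  rw [hF2 hd hd3 ht]
  unfold nn xh fAn
  field_simp

/-- the closed form of `W`. -/
theorem hW (hd : 0 < d) (hd3 : d ≤ 1 / 3) (ht : 0 < t) :
    (1 + d) * fS d t / xh d t =
      d * fV d ^ 2 * t ^ 2 * fA2 d t ^ 2 / (2 * fZ d * (1 + 2 * d) ^ 2 * fB d t ^ 3) := by
  have hZ := (fZ_pos hd hd3).ne'
  have hB := (fB_pos hd hd3 ht).ne'
  have h3 := hd.ne'
  have h4 : 1 + d ≠ 0 := by positivity
  have h6 := hT hd
  unfold fS nn xh
  have hB' : fB d t = 2 * fZ d * (1 + d) * (1 + 2 * d) + fV d * t := rfl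
  have hA2' : fA2 d t = 4 * fZ d * (1 + d) * (1 + 2 * d) + fV d * t := rfl
  have e : fB d t / (2 * d * fZ d * (1 + d)) - ((1 + 2 * d) / d) ^ 2 / (fB d t / (2 * d * fZ d * (1 + d)))
      = fV d * t * fA2 d t / (2 * d * fZ d * (1 + d) * fB d t) := by
    field_simp
    rw [hB', hA2']
    ring
  rw [e]
  field_simp

/-- the polynomial inequality, in the original quantities. -/
theorem J_main (hd : 0 < d) (hd3 : d ≤ 1 / 3) (ht : 0 < t) (Ab W : ℝ)
    (hAb : Ab = fAn d t / (d * fB d t * (1 + 3 * d) * fZ d * (1 + t)))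
    (hWW : W = d * fV d ^ 2 * t ^ 2 * fA2 d t ^ 2 / (2 * fZ d * (1 + 2 * d) ^ 2 * fB d t ^ 3)) :
    fG d (1 + t) * (Ab ^ 2 - 16 / 11 * (Ab * W)) < 4 * (nn d ^ 2 * (fF0 d * fF d (1 + t))) := by
  have hZ := fZ_pos hd hd3
  have hB := fB_pos hd hd3 ht
  have hR := fR_pos hd hd3
  have hden : 0 < fR d * (1 + t) + (1 + d) ^ 2 := by positivity
  have key := J_pos hd hd3 ht
  have h2 : 1 + 3 * d ≠ 0 := hD hd
  have h3 := hd.ne'
  have h4 : 1 + d ≠ 0 := by positivity
  have h5 : 1 + t ≠ 0 := by positivity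
  have h6 := hT hd
  have hZ' := hZ.ne'
  have hB' := hB.ne'
  have hden' := hden.ne'
  rw [hF1 hd hd3, hAb, hWW]
  set P := 11 * ((1 + 2 * d) ^ 4 * (1 + d) * (1 + 4 * d) * fF1n d t * fZ d * (fR d * (1 + t) + (1 + d) ^ 2)
          * fB d t ^ 4
        - ((1 + d) ^ 2 * (1 + t) + fR d) * fAn d t ^ 2 * fB d t ^ 2 * (1 + 2 * d) ^ 2)
      + 8 * ((1 + t) * ((1 + d) ^ 2 * (1 + t) + fR d) * fAn d t * fV d ^ 2 * t ^ 2 * fA2 d t ^ 2
          * d ^ 2 * (1 + 3 * d)) with hP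
  have e : 4 * (nn d ^ 2 * (fF0 d * (fF1n d t / (2 * (1 + 3 * d) * fZ d)))) -
      fG d (1 + t) * ((fAn d t / (d * fB d t * (1 + 3 * d) * fZ d * (1 + t))) ^ 2 - 16 / 11 *
        (fAn d t / (d * fB d t * (1 + 3 * d) * fZ d * (1 + t)) *
          (d * fV d ^ 2 * t ^ 2 * fA2 d t ^ 2 / (2 * fZ d * (1 + 2 * d) ^ 2 * fB d t ^ 3)))) =
      P / (11 * ((fR d * (1 + t) + (1 + d) ^ 2) * d ^ 2 * (1 + 3 * d) ^ 2 * fZ d ^ 2 * fB d t ^ 4
        * (1 + 2 * d) ^ 2)) := by
    rw [hP]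
    unfold nn fF0 fG
    field_simp
    ring
  have hpos : 0 < P / (11 * ((fR d * (1 + t) + (1 + d) ^ 2) * d ^ 2 * (1 + 3 * d) ^ 2 * fZ d ^ 2 * fB d t ^ 4
        * (1 + 2 * d) ^ 2)) := by
    apply div_pos key
    positivity
  rw [← e] at hpos
  linarith

set_option maxHeartbeats 2000000 in
/-- the second box inequality for all `0 < y <= yh`. -/
theorem B2_gen (hd : 0 < d) (hd3 : d ≤ 1 / 3) (ht : 0 < t) {y : ℝ} (hy : 0 < y) (hyle : y ≤ yh d t) :
    fG d (1 + t) * (d / (1 + 2 * d) * ((1 + d) * (y + 2) - 2 * fF d (1 / (1 + t)))) ^ 2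
      < 4 * (fF0 d * fF d (1 + t)) := by
  have hx := xh_pos hd hd3 ht
  have hn := nn_pos hd
  have hxn := xh_gt hd hd3 ht
  have hK : 0 < 1 + d := by positivity
  have hρ0 : 0 < 1 + t := by positivity
  have hR := fR_pos hd hd3
  have hF0 := fF0_pos hd
  have hl := fl_pos hd hd3
  set x := xh d t with hxdef
  set n := nn d with hndef
  set S := fS d t with hSdef
  have hSx : S = (x - n ^ 2 / x) ^ 2 / n ^ 2 := rfl
  have hS0 : 0 ≤ S := by rw [hSx]; positivity
  -- `S < n^2`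
  have hyle' : y ≤ (n ^ 2 - S) / x := hyle
  have hyh : 0 < (n ^ 2 - S) / x := lt_of_lt_of_le hy hyle
  have hSn : S < n ^ 2 := by
    have := (div_pos_iff_of_pos_right hx).mp hyh
    linarith
  -- `S <= x^2/n^2`
  have hdiff0 : 0 ≤ x - n ^ 2 / x := by
    have : n ^ 2 / x ≤ x := by
      rw [div_le_iff₀ hx]
      nlinarith
    linarith
  have hdiffle : x - n ^ 2 / x ≤ x := by
    have : 0 ≤ n ^ 2 / x := by positivity
    linarith
  have hSle : S ≤ x ^ 2 / n ^ 2 := by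
    rw [hSx]
    apply div_le_div_of_nonneg_right _ (by positivity)
    exact pow_le_pow_left₀ hdiff0 hdiffle 2
  have hSlex : S ≤ x := by
    by_contra hc
    push Not at hc
    have h1 : x ^ 2 < S ^ 2 := pow_lt_pow_left₀ hc hx.le (by norm_num)
    have h2 : S * n ^ 2 ≤ x ^ 2 := by
      rwa [le_div_iff₀ (by positivity)] at hSle
    nlinarith
  set Ab := (1 + d) * (n ^ 2 / x + 2) - 2 * fF d (1 / (1 + t)) with hAb
  set W := (1 + d) * S / x with hWd
  have hW0 : 0 ≤ W := by rw [hWd]; positivity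
  have hWK : W ≤ 1 + d := by
    rw [hWd, div_le_iff₀ hx]
    exact mul_le_mul_of_nonneg_left hSlex hK.le
  set Yb := (1 + d) * (y + 2) - 2 * fF d (1 / (1 + t)) with hYb
  have hYle : Yb ≤ Ab - W := by
    have e : Ab - W = (1 + d) * ((n ^ 2 - S) / x + 2) - 2 * fF d (1 / (1 + t)) := by
      rw [hAb, hWd]; ring
    rw [e, hYb]
    have : (1 + d) * (y + 2) ≤ (1 + d) * ((n ^ 2 - S) / x + 2) :=
      mul_le_mul_of_nonneg_left (by linarith) hK.le
    linarith
  -- lower bound for `Yb`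
  have hF2le : fF d (1 / (1 + t)) ≤ fF0 d := by
    unfold fF
    have h3 : 1 / (1 + t) ≤ 1 := by
      rw [div_le_one hρ0]; linarith
    nlinarith
  have hF0le : 2 * fF0 d ≤ 7 / 6 * (1 + d) := by
    unfold fF0
    have hD' : 0 < 1 + 3 * d := by positivity
    have e : 2 * ((1 + d) * (1 + 4 * d) / (2 * (1 + 3 * d))) = (1 + d) * (1 + 4 * d) / (1 + 3 * d) := by
      field_simp
    rw [e, div_le_iff₀ hD']
    nlinarith
  have hYlow : 5 / 6 * (1 + d) ≤ Yb := by
    rw [hYb]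
    nlinarith [mul_pos hK hy]
  have hYpos : 0 < Yb := by nlinarith
  have h611 : 11 * W ≤ 6 * Ab := by linarith
  have hAbpos : 0 < Ab := by linarith
  have hsq : (Ab - W) ^ 2 ≤ Ab ^ 2 - 16 / 11 * (Ab * W) := by
    nlinarith [mul_nonneg hW0 (by linarith : 0 ≤ 6 * Ab - 11 * W)]
  have hJ := J_main hd hd3 ht Ab W (hAbar hd hd3 ht) (hW hd hd3 ht)
  have hG : 0 < fG d (1 + t) := by
    unfold fG
    positivity
  have hYsq : Yb ^ 2 ≤ (Ab - W) ^ 2 := pow_le_pow_left₀ hYpos.le hYle 2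
  have h1 : fG d (1 + t) * Yb ^ 2 < 4 * (n ^ 2 * (fF0 d * fF d (1 + t))) := by
    refine lt_of_le_of_lt ?_ hJ
    exact mul_le_mul_of_nonneg_left (hYsq.trans hsq) hG.le
  have hc : d / (1 + 2 * d) * n = 1 := by
    rw [hndef]
    unfold nn
    have h3 := hd.ne'
    have h4 := hT hd
    field_simp
  have e : fG d (1 + t) * (d / (1 + 2 * d) * Yb) ^ 2 =
      (d / (1 + 2 * d)) ^ 2 * (fG d (1 + t) * Yb ^ 2) := by ring
  have e2 : 4 * (fF0 d * fF d (1 + t)) =
      (d / (1 + 2 * d)) ^ 2 * (4 * (n ^ 2 * (fF0 d * fF d (1 + t)))) := by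
    have : (d / (1 + 2 * d)) ^ 2 * n ^ 2 = 1 := by
      rw [← mul_pow, hc, one_pow]
    calc 4 * (fF0 d * fF d (1 + t)) = ((d / (1 + 2 * d)) ^ 2 * n ^ 2) * (4 * (fF0 d * fF d (1 + t))) := by
          rw [this, one_mul]
      _ = _ := by ring
  rw [e, e2]
  exact mul_lt_mul_of_pos_left h1 (by positivity)

end boxes

section exists_t
variable {d : ℝ}

/-- from the clean inequality to the bound on `y`. -/
theorem y_bound {n x y : ℝ} (hn : 0 < n) (hxn : n < x) (hy : 0 < y)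
    (hclean : x * y + (x - y) ^ 2 / (x * y) < n ^ 2) :
    y ≤ (n ^ 2 - (x - n ^ 2 / x) ^ 2 / n ^ 2) / x := by
  have hx : 0 < x := hn.trans hxn
  have hxy : 0 < x * y := by positivity
  have h0 : 0 ≤ (x - y) ^ 2 / (x * y) := by positivity
  have hlt : x * y < n ^ 2 := by linarith
  have hy0 : y < n ^ 2 / x := by
    rw [lt_div_iff₀ hx]
    linarith
  have hy1 : n ^ 2 / x < x := by
    rw [div_lt_iff₀ hx]
    nlinarith
  have h1 : (x - n ^ 2 / x) ^ 2 ≤ (x - y) ^ 2 := by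
    apply pow_le_pow_left₀ (by linarith)
    linarith
  have h2 : (x - n ^ 2 / x) ^ 2 / n ^ 2 ≤ (x - y) ^ 2 / (x * y) := by
    calc (x - n ^ 2 / x) ^ 2 / n ^ 2 ≤ (x - y) ^ 2 / n ^ 2 :=
          div_le_div_of_nonneg_right h1 (by positivity)
      _ ≤ (x - y) ^ 2 / (x * y) :=
          div_le_div_of_nonneg_left (by positivity) hxy hlt.le
  rw [le_div_iff₀ hx]
  linarith

open Filter Topology in
/-- choice of the parameter `t`. -/
theorem exists_t (hd : 0 < d) (hd3 : d ≤ 1 / 3) {x y : ℝ} (hx : 0 < x) (hy : 0 < y) (hyx : y ≤ x)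
    (hclean : x * y + (x - y) ^ 2 / (x * y) < nn d ^ 2) :
    ∃ t, 0 < t ∧ x ≤ xh d t ∧ y ≤ yh d t := by
  have hn := nn_pos hd
  have hZ := fZ_pos hd hd3
  have hV := fV_pos hd
  have hK : 0 < 1 + d := by positivity
  have hxy : 0 < x * y := by positivity
  have hlt : x * y < nn d ^ 2 := by
    have : 0 ≤ (x - y) ^ 2 / (x * y) := by positivity
    linarith
  by_cases hc : nn d < x
  · -- main case
    set t := (x - nn d) * (2 * d * fZ d * (1 + d)) / fV d with ht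
    have htpos : 0 < t := by
      rw [ht]
      apply div_pos _ hV
      have : 0 < x - nn d := by linarith
      positivity
    have hxt : xh d t = x := by
      rw [xh_eq hd hd3, ht]
      have h1 := hV.ne'
      have h2 := hZ.ne'
      have h3 := hd.ne'
      have h4 := hK.ne'
      field_simp
      ring
    refine ⟨t, htpos, hxt.ge, ?_⟩
    have := y_bound hn hc hy hclean
    unfold yh fS
    rw [hxt]
    exact this
  · -- `x <= n`, then `y < n`
    push Not at hc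
    have hyn : y < nn d := by
      by_contra hh
      push Not at hh
      have h1 : nn d ≤ x := hh.trans hyx
      nlinarith
    have hxh0 : xh d 0 = nn d := by
      rw [xh_eq hd hd3]
      simp
    have hyh0 : yh d 0 = nn d := by
      unfold yh fS
      rw [hxh0]
      have := hn.ne'
      field_simp
      ring
    have hcx : ContinuousAt (xh d) 0 := by
      unfold xh fB
      fun_prop
    have hne : xh d 0 ≠ 0 := by rw [hxh0]; exact hn.ne'
    have hcy : ContinuousAt (yh d) 0 := by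
      unfold yh fS
      refine ContinuousAt.div ?_ hcx hne
      refine ContinuousAt.sub continuousAt_const ?_
      refine ContinuousAt.div_const ?_ _
      refine ContinuousAt.pow ?_ 2
      exact hcx.sub (continuousAt_const.div hcx hne)
    have hev : ∀ᶠ t in 𝓝 (0 : ℝ), y < yh d t :=
      hcy.eventually (lt_mem_nhds (by rw [hyh0]; exact hyn))
    have hev' : ∀ᶠ t in 𝓝[>] (0 : ℝ), y < yh d t := hev.filter_mono nhdsWithin_le_nhds
    obtain ⟨t, h1, h2⟩ := (hev'.and self_mem_nhdsWithin).exists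
    have h2' : 0 < t := h2
    exact ⟨t, h2', hc.trans (xh_gt hd hd3 h2').le, h1.le⟩

/-- **The clean certificate.** -/
theorem clean_cert (hd : 0 < d) (hd3 : d ≤ 1 / 3) {x y : ℝ} (hx : 0 < x) (hy : 0 < y) (hyx : y ≤ x)
    (hclean : x * y + (x - y) ^ 2 / (x * y) < nn d ^ 2) :
    ∃ (c : Fin 14 → ℝ) (c0 : ℝ), 0 < c0 ∧
      Cert (2 + 1 / d) ((x + 2) * d) ((y + 2) * d) (1 - d) (1 - d) c c0 := by
  obtain ⟨t, ht, h1, h2⟩ := exists_t hd hd3 hx hy hyx hclean
  have h3 := B1_gen hd hd3 ht hx h1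
  have h4 := B2_gen hd hd3 ht hy h2
  refine region_cert hd hd3 (ρ := 1 + t) (by linarith) ?_ ?_
  · have e : (1 + d) / (1 + 2 * d) * ((x + 2) * d) - 2 * (d / (1 + 2 * d)) * fF d (1 + t) =
        d / (1 + 2 * d) * ((1 + d) * (x + 2) - 2 * fF d (1 + t)) := by ring
    rw [e]
    exact h3
  · have e : (1 + d) / (1 + 2 * d) * ((y + 2) * d) - 2 * (d / (1 + 2 * d)) * fF d (1 / (1 + t)) =
        d / (1 + 2 * d) * ((1 + d) * (y + 2) - 2 * fF d (1 / (1 + t))) := by ring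
    rw [e]
    exact h4

end exists_t

end Vale.Agent.Lib.P100.CF
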