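import Vale.Agent.Lib.P100.CClean

/-!
# P100: the certificates of `CFamily` and `CClean`, with the coefficient vector made explicit.

The proofs are those of `family_cert`, `region_cert`, `clean_cert`; only the conclusion records that the
coefficient vector belongs to the eight field family.
-/

noncomputable section

namespace Vale.Agent.Lib.P100.CF

open Vale.Agent.Lib.P100

/-- Strict inequalities at `τ = 0` give a certificate with an explicit coefficient vector. -/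
theorem Par.exists_cert8 (P : Par) (hG : 0 < P.G) (hal : 0 < P.al 0) (hom : 0 < P.om 0)
    (hga : 0 < P.ga 0) (hS : 0 < P.Sl 0) (hA1 : 0 < P.A1 0) (hC1 : 0 ≤ P.C1)
    (hB1 : P.B1 0 ^ 2 < 4 * (P.A1 0 * P.C1)) (hA2 : 0 ≤ P.A2) (hC2 : 0 < P.C2 0)
    (hB2 : P.B2 0 ^ 2 < 4 * (P.A2 * P.C2 0)) :
    ∃ E1 E2 F1 F2 G' h c0 : ℝ, 0 < G' ∧ 0 < c0 ∧
      Cert P.n P.p P.q P.a P.b (coef E1 E2 F1 F2 G' h) c0 := by
  obtain ⟨τ, hτ⟩ := P.exists_good hG hal hom hga hS hA1 hC1 hB1 hA2 hC2 hB2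
  exact ⟨P.E1, P.E2, P.F1, P.F2, P.G, τ, τ, hG, hτ.hτ0, P.cert_of_good hτ⟩

section final8

variable {d ρ G p q : ℝ}

/-- `κ = (1+d)/(1+2d)`, `ν = d/(1+2d)`. The certificate for a given `G > fG`. -/
theorem family_cert8 (hd : 0 < d) (hd3 : d ≤ 1 / 3) (hρ : 1 < ρ) (hG : fG d ρ < G)
    (hB1 : ((1 + d) / (1 + 2 * d) * p - 2 * (d / (1 + 2 * d)) * fF d ρ) ^ 2
      < 4 * (fF0 d * (G * fF d (1 / ρ))))
    (hB2 : G * ((1 + d) / (1 + 2 * d) * q - 2 * (d / (1 + 2 * d)) * fF d (1 / ρ)) ^ 2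
      < 4 * (fF0 d * fF d ρ)) :
    ∃ E1 E2 F1 F2 G' h c0 : ℝ, 0 < G' ∧ 0 < c0 ∧
      Cert (2 + 1 / d) p q (1 - d) (1 - d) (coef E1 E2 F1 F2 G' h) c0 := by
  have hρ0 : 0 < ρ := by linarith
  have hR := fR_pos hd hd3
  have hG00 : 0 < fG d ρ := by
    unfold fG; positivity
  have hG0 : 0 < G := hG00.trans hG
  have hx := fxx_pos hd hd3
  have hF1 := fF_pos hd hd3 hρ0
  have hF2 := fF_pos hd hd3 (r := 1 / ρ) (by positivity)
  have hF0 := fF0_pos hd
  have hS := fam_Sl0_pos (p := p) (q := q) hd hd3 hρ hG hG0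
  have hal : 0 < (fam d ρ G p q).al 0 := by rw [fam_al0 hd]; exact hx
  have hom : 0 < (fam d ρ G p q).om 0 := by rw [fam_om0 hd hG0]; positivity
  have hze : (fam d ρ G p q).ze 0 ≤ 0 := by
    unfold Par.ze Par.Hu Par.Hv
    rw [fam_cu0, fam_cv0 hG0]
    simp only [fam]
    rw [inv_n hd]
    have h1 : 0 ≤ 1 / 2 - d / (1 + 2 * d) := by
      have : d / (1 + 2 * d) ≤ 1 / 2 := by
        rw [div_le_iff₀ (by positivity)]
        linarith
      linarith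
    have h2 : 0 ≤ (1 / 4 * ((1 - d) - 2 * fF d ρ) ^ 2 + G / 4 * ((1 - d) - 2 * fF d (1 / ρ)) ^ 2) := by
      positivity
    nlinarith [mul_nonneg h2 h1]
  have hga : 0 < (fam d ρ G p q).ga 0 := by
    have h1 : 0 ≤ (fam d ρ G p q).be 0 ^ 2 / (4 * (fam d ρ G p q).al 0) := by positivity
    have h2 : 0 ≤ (fam d ρ G p q).et 0 ^ 2 / (4 * (fam d ρ G p q).om 0) := by positivity
    have h3 := hS
    unfold Par.Sl at h3
    linarith
  have e1 : 1 + 2 / (2 + 1 / d) = 1 + 2 * (d / (1 + 2 * d)) := by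
    rw [← inv_n hd]; ring
  have hA1e : (fam d ρ G p q).A1 0 = fF0 d := by
    unfold Par.A1
    simp only [fam]
    rw [e1, th_E hd]
    ring
  have hC2e : (fam d ρ G p q).C2 0 = G * fF0 d := by
    unfold Par.C2
    simp only [fam]
    rw [e1, ← th_E hd]
    ring
  have hB1e : (fam d ρ G p q).B1 0 =
      -((1 + d) / (1 + 2 * d) * p - 2 * (d / (1 + 2 * d)) * fF d ρ) := by
    unfold Par.B1
    rw [fam_ka hd]
    simp only [fam]
    have : 2 / (2 + 1 / d) = 2 * (d / (1 + 2 * d)) := by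
      rw [← inv_n hd]; ring
    rw [this]
    ring
  have hB2e : (fam d ρ G p q).B2 0 =
      -(G * ((1 + d) / (1 + 2 * d) * q - 2 * (d / (1 + 2 * d)) * fF d (1 / ρ))) := by
    unfold Par.B2
    rw [fam_ka hd]
    simp only [fam]
    have : 2 / (2 + 1 / d) = 2 * (d / (1 + 2 * d)) := by
      rw [← inv_n hd]; ring
    rw [this]
    ring
  have hC1e : (fam d ρ G p q).C1 = G * fF d (1 / ρ) := rfl
  have hA2e : (fam d ρ G p q).A2 = fF d ρ := rfl
  refine Par.exists_cert8 (fam d ρ G p q) hG0 hal hom hga hS ?_ ?_ ?_ ?_ ?_ ?_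
  · rw [hA1e]; exact hF0
  · rw [hC1e]; positivity
  · rw [hB1e, hA1e, hC1e, neg_sq]; exact hB1
  · rw [hA2e]; exact hF1.le
  · rw [hC2e]; positivity
  · rw [hB2e, hA2e, hC2e, neg_sq]
    have : (G * ((1 + d) / (1 + 2 * d) * q - 2 * (d / (1 + 2 * d)) * fF d (1 / ρ))) ^ 2 =
        G * (G * ((1 + d) / (1 + 2 * d) * q - 2 * (d / (1 + 2 * d)) * fF d (1 / ρ)) ^ 2) := by ring
    rw [this]
    have e : 4 * (fF d ρ * (G * fF0 d)) = G * (4 * (fF0 d * fF d ρ)) := by ring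
    rw [e]
    exact mul_lt_mul_of_pos_left hB2 hG0

/-- The certificate at the critical `G0 = fG d ρ`, hypotheses at `G0`. -/
theorem region_cert8 (hd : 0 < d) (hd3 : d ≤ 1 / 3) (hρ : 1 < ρ)
    (hB1 : ((1 + d) / (1 + 2 * d) * p - 2 * (d / (1 + 2 * d)) * fF d ρ) ^ 2
      < 4 * (fF0 d * (fG d ρ * fF d (1 / ρ))))
    (hB2 : fG d ρ * ((1 + d) / (1 + 2 * d) * q - 2 * (d / (1 + 2 * d)) * fF d (1 / ρ)) ^ 2
      < 4 * (fF0 d * fF d ρ)) :
    ∃ E1 E2 F1 F2 G' h c0 : ℝ, 0 < G' ∧ 0 < c0 ∧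
      Cert (2 + 1 / d) p q (1 - d) (1 - d) (coef E1 E2 F1 F2 G' h) c0 := by
  have hρ0 : 0 < ρ := by linarith
  have hR := fR_pos hd hd3
  have hF2 := fF_pos hd hd3 (r := 1 / ρ) (by positivity)
  have hF0 := fF0_pos hd
  set w := ((1 + d) / (1 + 2 * d) * q - 2 * (d / (1 + 2 * d)) * fF d (1 / ρ)) ^ 2 with hw
  have hw0 : 0 ≤ w := by rw [hw]; positivity
  set K := 4 * (fF0 d * fF d ρ) with hK
  set η := (K - fG d ρ * w) / (2 * (w + 1)) with hη
  have hη0 : 0 < η := by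
    rw [hη]
    apply div_pos (by linarith) (by positivity)
  refine family_cert8 (G := fG d ρ + η) hd hd3 hρ (by linarith) ?_ ?_
  · refine lt_of_lt_of_le hB1 ?_
    have : 0 ≤ fF0 d * fF d (1 / ρ) := by positivity
    nlinarith [mul_nonneg this hη0.le]
  · have h1 : η * w < K - fG d ρ * w := by
      have h2 : η * (2 * (w + 1)) = K - fG d ρ * w := by
        rw [hη]; field_simp
      nlinarith [mul_pos hη0 (by linarith : (0:ℝ) < w + 2)]
    nlinarith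


end final8

section clean8

variable {d : ℝ}

/-- **The clean certificate.** -/
theorem clean_cert8 (hd : 0 < d) (hd3 : d ≤ 1 / 3) {x y : ℝ} (hx : 0 < x) (hy : 0 < y) (hyx : y ≤ x)
    (hclean : x * y + (x - y) ^ 2 / (x * y) < nn d ^ 2) :
    ∃ E1 E2 F1 F2 G' h c0 : ℝ, 0 < G' ∧ 0 < c0 ∧
      Cert (2 + 1 / d) ((x + 2) * d) ((y + 2) * d) (1 - d) (1 - d) (coef E1 E2 F1 F2 G' h) c0 := by
  obtain ⟨t, ht, h1, h2⟩ := exists_t hd hd3 hx hy hyx hclean
  have h3 := B1_gen hd hd3 ht hx h1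
  have h4 := B2_gen hd hd3 ht hy h2
  refine region_cert8 hd hd3 (ρ := 1 + t) (by linarith) ?_ ?_
  · have e : (1 + d) / (1 + 2 * d) * ((x + 2) * d) - 2 * (d / (1 + 2 * d)) * fF d (1 + t) =
        d / (1 + 2 * d) * ((1 + d) * (x + 2) - 2 * fF d (1 + t)) := by ring
    rw [e]
    exact h3
  · have e : (1 + d) / (1 + 2 * d) * ((y + 2) * d) - 2 * (d / (1 + 2 * d)) * fF d (1 / (1 + t)) =
        d / (1 + 2 * d) * ((1 + d) * (y + 2) - 2 * fF d (1 / (1 + t))) := by ring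
    rw [e]
    exact h4


end clean8

end Vale.Agent.Lib.P100.CF
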