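import Vale.Agent.Lib.P100.Atoms

/-!
# P100: a closed form certificate family valid in every dimension (helper13).

Eight fields only: `c = (1,0,0,G,-E1,-F1,0,0,-G F2,-G E2,-h,0,0,-h)`.  Completing the squares in
`U0, V0` reduces `Q >= c0 E` to a scalar inequality in `(x,z,y,s,t)`.
-/

noncomputable section

namespace Vale.Agent.Lib.P100.CF

open Vale.Agent.Lib.P100

/-- The coefficient vector of the family. -/
def coef (E1 E2 F1 F2 G h : ℝ) : Fin 14 → ℝ :=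
  ![1, 0, 0, G, -E1, -F1, 0, 0, -(G * F2), -(G * E2), -h, 0, 0, -h]

/-- Expansion of `Q` for the family. -/
theorem Q_coef (n p q a b E1 E2 F1 F2 G h : ℝ) (A : Atoms) :
    Atoms.Q n p q a b (coef E1 E2 F1 F2 G h) A =
      (A.UU + (a - 2) * A.UXX + b * A.UXY - (1 - 1 / n) * p * (A.s * A.z))
      + G * (A.VV + (b - 2) * A.VYY + a * A.VXY - (1 - 1 / n) * q * (A.t * A.z))
      - E1 * (2 * A.UXX + (a - 3) * A.x ^ 2 + b * (A.x * A.z) - (1 + 2 / n) * (A.s * A.x))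
      - F1 * (2 * A.UXY + (a - 2) * (A.x * A.z) + (b - 1) * (A.x * A.y) - (2 / n) * (A.s * A.z)
          - A.t * A.x)
      - (G * F2) * (2 * A.VXY + (b - 2) * (A.y * A.z) + (a - 1) * (A.x * A.y)
          - (2 / n) * (A.t * A.z) - A.s * A.y)
      - (G * E2) * (2 * A.VYY + (b - 3) * A.y ^ 2 + a * (A.y * A.z) - (1 + 2 / n) * (A.t * A.y))
      - h * ((a - 2) * (A.s * A.x) + (b + p) * (A.s * A.z) - A.s ^ 2)
      - h * ((b - 2) * (A.t * A.y) + (a + q) * (A.t * A.z) - A.t ^ 2) := by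
  simp only [Atoms.Q, Atoms.D, coef, Fin.sum_univ_succ, Fin.sum_univ_zero]
  simp
  ring

/-- The Gram inequality for `T_u = U0 + l2 XX0 + l3 XY0`. -/
theorem gram_u {n : ℝ} {A : Atoms} (hA : Atoms.Realizable n A) (l2 l3 : ℝ) :
    0 ≤ A.UU + 2 * l2 * A.UXX + 2 * l3 * A.UXY + l2 ^ 2 * ((1 - 1 / n) * A.x ^ 2)
      + 2 * l2 * l3 * ((1 - 1 / n) * (A.x * A.z))
      + l3 ^ 2 * ((A.x * A.y + A.z ^ 2) / 2 - A.z ^ 2 / n) := by
  have h := hA.gram_nonneg ![1, 0, l2, l3, 0]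
  simp only [Fin.sum_univ_succ, Fin.sum_univ_zero, Atoms.gram] at h
  simp at h
  have e : A.UU + 2 * l2 * A.UXX + 2 * l3 * A.UXY + l2 ^ 2 * ((1 - 1 / n) * A.x ^ 2)
      + 2 * l2 * l3 * ((1 - 1 / n) * (A.x * A.z))
      + l3 ^ 2 * ((A.x * A.y + A.z ^ 2) / 2 - A.z ^ 2 / n) =
      A.UU + (l2 * A.UXX + l3 * A.UXY) +
      (l2 * A.UXX + (l2 * l2 * ((1 - n⁻¹) * A.x ^ 2) + l2 * l3 * ((1 - n⁻¹) * (A.x * A.z))) +
        (l3 * A.UXY + (l3 * l2 * ((1 - n⁻¹) * (A.x * A.z)) + l3 * l3 * ((A.x * A.y + A.z ^ 2) / 2 - A.z ^ 2 / n)))) := by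
    rw [one_div]; ring
  rw [e]; exact h

/-- The Gram inequality for `T_v = V0 + l3 XY0 + l4 YY0`. -/
theorem gram_v {n : ℝ} {A : Atoms} (hA : Atoms.Realizable n A) (l3 l4 : ℝ) :
    0 ≤ A.VV + 2 * l3 * A.VXY + 2 * l4 * A.VYY + l4 ^ 2 * ((1 - 1 / n) * A.y ^ 2)
      + 2 * l3 * l4 * ((1 - 1 / n) * (A.y * A.z))
      + l3 ^ 2 * ((A.x * A.y + A.z ^ 2) / 2 - A.z ^ 2 / n) := by
  have h := hA.gram_nonneg ![0, 1, 0, l3, l4]
  simp only [Fin.sum_univ_succ, Fin.sum_univ_zero, Atoms.gram] at h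
  simp at h
  have e : A.VV + 2 * l3 * A.VXY + 2 * l4 * A.VYY + l4 ^ 2 * ((1 - 1 / n) * A.y ^ 2)
      + 2 * l3 * l4 * ((1 - 1 / n) * (A.y * A.z))
      + l3 ^ 2 * ((A.x * A.y + A.z ^ 2) / 2 - A.z ^ 2 / n) =
      A.VV + (l3 * A.VXY + l4 * A.VYY) +
      (l3 * A.VXY + (l3 * l3 * ((A.x * A.y + A.z ^ 2) / 2 - A.z ^ 2 / n) + l3 * l4 * ((1 - n⁻¹) * (A.y * A.z))) +
        (l4 * A.VYY + (l4 * l3 * ((1 - n⁻¹) * (A.y * A.z)) + l4 * l4 * ((1 - n⁻¹) * A.y ^ 2)))) := by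
    rw [one_div]; ring
  rw [e]; exact h

/-- Scaled version: `u UU + Gu UXX + Hu UXY + (1/(4u)) (...) >= 0`. -/
theorem gram_u' {n : ℝ} {A : Atoms} (hA : Atoms.Realizable n A) {u : ℝ} (hu : 0 < u) (Gu Hu : ℝ) :
    0 ≤ u * A.UU + Gu * A.UXX + Hu * A.UXY
      + (1 / (4 * u)) * (Gu ^ 2 * ((1 - 1 / n) * A.x ^ 2) + 2 * (Gu * Hu) * ((1 - 1 / n) * (A.x * A.z))
        + Hu ^ 2 * ((A.x * A.y + A.z ^ 2) / 2 - A.z ^ 2 / n)) := by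
  have h := mul_nonneg hu.le (gram_u hA (Gu / (2 * u)) (Hu / (2 * u)))
  have e : u * (A.UU + 2 * (Gu / (2 * u)) * A.UXX + 2 * (Hu / (2 * u)) * A.UXY
      + (Gu / (2 * u)) ^ 2 * ((1 - 1 / n) * A.x ^ 2)
      + 2 * (Gu / (2 * u)) * (Hu / (2 * u)) * ((1 - 1 / n) * (A.x * A.z))
      + (Hu / (2 * u)) ^ 2 * ((A.x * A.y + A.z ^ 2) / 2 - A.z ^ 2 / n)) =
      u * A.UU + Gu * A.UXX + Hu * A.UXY
      + (1 / (4 * u)) * (Gu ^ 2 * ((1 - 1 / n) * A.x ^ 2) + 2 * (Gu * Hu) * ((1 - 1 / n) * (A.x * A.z))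
        + Hu ^ 2 * ((A.x * A.y + A.z ^ 2) / 2 - A.z ^ 2 / n)) := by
    have hu' : u ≠ 0 := hu.ne'
    field_simp
    ring
  rw [e] at h
  exact h

/-- Scaled version for `V`. -/
theorem gram_v' {n : ℝ} {A : Atoms} (hA : Atoms.Realizable n A) {v : ℝ} (hv : 0 < v) (Hv Gv : ℝ) :
    0 ≤ v * A.VV + Hv * A.VXY + Gv * A.VYY
      + (1 / (4 * v)) * (Gv ^ 2 * ((1 - 1 / n) * A.y ^ 2) + 2 * (Hv * Gv) * ((1 - 1 / n) * (A.y * A.z))
        + Hv ^ 2 * ((A.x * A.y + A.z ^ 2) / 2 - A.z ^ 2 / n)) := by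
  have h := mul_nonneg hv.le (gram_v hA (Hv / (2 * v)) (Gv / (2 * v)))
  have e : v * (A.VV + 2 * (Hv / (2 * v)) * A.VXY + 2 * (Gv / (2 * v)) * A.VYY
      + (Gv / (2 * v)) ^ 2 * ((1 - 1 / n) * A.y ^ 2)
      + 2 * (Hv / (2 * v)) * (Gv / (2 * v)) * ((1 - 1 / n) * (A.y * A.z))
      + (Hv / (2 * v)) ^ 2 * ((A.x * A.y + A.z ^ 2) / 2 - A.z ^ 2 / n)) =
      v * A.VV + Hv * A.VXY + Gv * A.VYY
      + (1 / (4 * v)) * (Gv ^ 2 * ((1 - 1 / n) * A.y ^ 2) + 2 * (Hv * Gv) * ((1 - 1 / n) * (A.y * A.z))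
        + Hv ^ 2 * ((A.x * A.y + A.z ^ 2) / 2 - A.z ^ 2 / n)) := by
    have hv' : v ≠ 0 := hv.ne'
    field_simp
    ring
  rw [e] at h
  exact h

/-- A biquadratic in `x, y, z` with `z^2 <= x y`, by two squares. -/
theorem quartic_nonneg {al be ga ze et om x y z : ℝ} (hal : 0 < al) (hom : 0 < om) (hga : 0 ≤ ga)
    (hS : 0 ≤ ga + ze - be ^ 2 / (4 * al) - et ^ 2 / (4 * om))
    (hx : 0 ≤ x) (hy : 0 ≤ y) (hcs : z ^ 2 ≤ x * y) :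
    0 ≤ al * x ^ 2 + be * (x * z) + ga * (x * y) + ze * z ^ 2 + et * (y * z) + om * y ^ 2 := by
  have hxy : 0 ≤ x * y := mul_nonneg hx hy
  have h1 : al * x ^ 2 + be * (x * z) + be ^ 2 / (4 * al) * z ^ 2
      = al * (x + be / (2 * al) * z) ^ 2 := by
    have : al ≠ 0 := hal.ne'
    field_simp
    ring
  have h2 : om * y ^ 2 + et * (y * z) + et ^ 2 / (4 * om) * z ^ 2
      = om * (y + et / (2 * om) * z) ^ 2 := by
    have : om ≠ 0 := hom.ne'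
    field_simp
    ring
  have h3 : 0 ≤ al * (x + be / (2 * al) * z) ^ 2 := by positivity
  have h4 : 0 ≤ om * (y + et / (2 * om) * z) ^ 2 := by positivity
  set ze' := ze - be ^ 2 / (4 * al) - et ^ 2 / (4 * om) with hze'
  have h5 : 0 ≤ ga * (x * y) + ze' * z ^ 2 := by
    by_cases hz : 0 ≤ ze'
    · positivity
    · push Not at hz
      have : ze' * (x * y) ≤ ze' * z ^ 2 := mul_le_mul_of_nonpos_left hcs hz.le
      have hS' : 0 ≤ ga + ze' := by rw [hze']; linarith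
      nlinarith [mul_nonneg hS' hxy]
  have : al * x ^ 2 + be * (x * z) + ga * (x * y) + ze * z ^ 2 + et * (y * z) + om * y ^ 2 =
      (al * x ^ 2 + be * (x * z) + be ^ 2 / (4 * al) * z ^ 2)
      + (om * y ^ 2 + et * (y * z) + et ^ 2 / (4 * om) * z ^ 2) + (ga * (x * y) + ze' * z ^ 2) := by
    rw [hze']; ring
  rw [this, h1, h2]
  linarith

/-- A linear form `A x + B z + C y` with `B^2 <= 4 A C` is nonnegative on `z^2 <= x y`. -/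
theorem linear_nonneg {A B C x y z : ℝ} (hA : 0 ≤ A) (hC : 0 ≤ C) (hB : B ^ 2 ≤ 4 * (A * C))
    (hx : 0 ≤ x) (hy : 0 ≤ y) (hcs : z ^ 2 ≤ x * y) : 0 ≤ A * x + B * z + C * y := by
  have h0 : 0 ≤ A * x + C * y := by positivity
  have h1 : (B * z) ^ 2 ≤ (A * x + C * y) ^ 2 := by
    have h2 : (B * z) ^ 2 ≤ 4 * (A * C) * (x * y) := by
      calc (B * z) ^ 2 = B ^ 2 * z ^ 2 := by ring
        _ ≤ 4 * (A * C) * z ^ 2 := by
            exact mul_le_mul_of_nonneg_right hB (sq_nonneg z)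
        _ ≤ 4 * (A * C) * (x * y) := by
            exact mul_le_mul_of_nonneg_left hcs (by positivity)
    nlinarith [sq_nonneg (A * x - C * y)]
  have h3 := abs_le_of_sq_le_sq h1 h0
  have h4 := (abs_le.mp h3).1
  linarith

/-- Parameters of the family. -/
structure Par where
  n : ℝ
  p : ℝ
  q : ℝ
  a : ℝ
  b : ℝ
  E1 : ℝ
  E2 : ℝ
  F1 : ℝ
  F2 : ℝ
  G : ℝ

namespace Par

variable (P : Par)

/-- `a - 2 - 2 E1` -/
def Gu : ℝ := P.a - 2 - 2 * P.E1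
/-- `b - 2 F1` -/
def Hu : ℝ := P.b - 2 * P.F1
/-- `a - 2 F2` -/
def Hv : ℝ := P.a - 2 * P.F2
/-- `b - 2 - 2 E2` -/
def Gv : ℝ := P.b - 2 - 2 * P.E2
/-- `1 - 1/n` -/
def ka : ℝ := 1 - 1 / P.n
/-- `1/(4(1-τ))` -/
def _root_.Vale.Agent.Lib.P100.CF.cu (τ : ℝ) : ℝ := 1 / (4 * (1 - τ))
/-- `G^2/(4(G-τ))` -/
def cv (τ : ℝ) : ℝ := P.G ^ 2 * (1 / (4 * (P.G - τ)))

/-- coefficient of `x^2` -/
def al (τ : ℝ) : ℝ := P.E1 * (3 - P.a) - τ - cu τ * P.ka * P.Gu ^ 2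
/-- coefficient of `x z` -/
def be (τ : ℝ) : ℝ := -(P.E1 * P.b) + P.F1 * (2 - P.a) - 2 * cu τ * P.ka * (P.Gu * P.Hu)
/-- coefficient of `x y` -/
def ga (τ : ℝ) : ℝ := P.F1 * (1 - P.b) + P.G * P.F2 * (1 - P.a)
  - (cu τ * P.Hu ^ 2 + P.cv τ * P.Hv ^ 2) / 2
/-- coefficient of `z^2` -/
def ze (τ : ℝ) : ℝ := -((cu τ * P.Hu ^ 2 + P.cv τ * P.Hv ^ 2) * (1 / 2 - 1 / P.n))
/-- coefficient of `y z` -/
def et (τ : ℝ) : ℝ := P.G * P.F2 * (2 - P.b) - P.G * P.E2 * P.a - 2 * P.cv τ * P.ka * (P.Hv * P.Gv)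
/-- coefficient of `y^2` -/
def om (τ : ℝ) : ℝ := P.G * P.E2 * (3 - P.b) - τ - P.cv τ * P.ka * P.Gv ^ 2
/-- the slack -/
def Sl (τ : ℝ) : ℝ := P.ga τ + P.ze τ - P.be τ ^ 2 / (4 * P.al τ) - P.et τ ^ 2 / (4 * P.om τ)
/-- coefficient of `s x` -/
def A1 (τ : ℝ) : ℝ := P.E1 * (1 + 2 / P.n) + τ * (2 - P.a)
/-- coefficient of `s z` -/
def B1 (τ : ℝ) : ℝ := -(P.ka * P.p) + 2 / P.n * P.F1 - τ * (P.b + P.p)
/-- coefficient of `s y` -/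
def C1 : ℝ := P.G * P.F2
/-- coefficient of `t x` -/
def A2 : ℝ := P.F1
/-- coefficient of `t z` -/
def B2 (τ : ℝ) : ℝ := -(P.G * (P.ka * P.q)) + 2 / P.n * (P.G * P.F2) - τ * (P.a + P.q)
/-- coefficient of `t y` -/
def C2 (τ : ℝ) : ℝ := P.G * P.E2 * (1 + 2 / P.n) + τ * (2 - P.b)

/-- The inequalities needed at parameter `τ`. -/
structure Good (τ : ℝ) : Prop where
  hτ0 : 0 < τ
  hτ1 : τ < 1
  hτG : τ < P.G
  hal : 0 < P.al τ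
  hom : 0 < P.om τ
  hga : 0 ≤ P.ga τ
  hS : 0 ≤ P.Sl τ
  hA1 : 0 ≤ P.A1 τ
  hC1 : 0 ≤ P.C1
  hB1 : P.B1 τ ^ 2 ≤ 4 * (P.A1 τ * P.C1)
  hA2 : 0 ≤ P.A2
  hC2 : 0 ≤ P.C2 τ
  hB2 : P.B2 τ ^ 2 ≤ 4 * (P.A2 * P.C2 τ)

/-- The certificate from the inequalities. -/
theorem cert_of_good {τ : ℝ} (h : P.Good τ) :
    Cert P.n P.p P.q P.a P.b (coef P.E1 P.E2 P.F1 P.F2 P.G τ) τ := by
  intro A hA
  have hu : 0 < 1 - τ := by linarith [h.hτ1]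
  have hv : 0 < P.G - τ := by linarith [h.hτG]
  have hG : 0 < P.G := by linarith [h.hτ0, h.hτG]
  have g1 := gram_u' hA hu P.Gu P.Hu
  have g2 := gram_v' hA hv (P.G * P.Hv) (P.G * P.Gv)
  have hq := quartic_nonneg h.hal h.hom h.hga h.hS hA.x_nonneg hA.y_nonneg hA.cs
  have hl1 := linear_nonneg h.hA1 h.hC1 h.hB1 hA.x_nonneg hA.y_nonneg hA.cs
  have hl2 := linear_nonneg h.hA2 h.hC2 h.hB2 hA.x_nonneg hA.y_nonneg hA.cs
  have hs : 0 ≤ A.s * (P.A1 τ * A.x + P.B1 τ * A.z + P.C1 * A.y) := mul_nonneg hA.s_pos.le hl1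
  have ht : 0 ≤ A.t * (P.A2 * A.x + P.B2 τ * A.z + P.C2 τ * A.y) := mul_nonneg hA.t_pos.le hl2
  rw [Q_coef]
  have e : (A.UU + (P.a - 2) * A.UXX + P.b * A.UXY - (1 - 1 / P.n) * P.p * (A.s * A.z))
      + P.G * (A.VV + (P.b - 2) * A.VYY + P.a * A.VXY - (1 - 1 / P.n) * P.q * (A.t * A.z))
      - P.E1 * (2 * A.UXX + (P.a - 3) * A.x ^ 2 + P.b * (A.x * A.z) - (1 + 2 / P.n) * (A.s * A.x))
      - P.F1 * (2 * A.UXY + (P.a - 2) * (A.x * A.z) + (P.b - 1) * (A.x * A.y) - (2 / P.n) * (A.s * A.z)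
          - A.t * A.x)
      - (P.G * P.F2) * (2 * A.VXY + (P.b - 2) * (A.y * A.z) + (P.a - 1) * (A.x * A.y)
          - (2 / P.n) * (A.t * A.z) - A.s * A.y)
      - (P.G * P.E2) * (2 * A.VYY + (P.b - 3) * A.y ^ 2 + P.a * (A.y * A.z) - (1 + 2 / P.n) * (A.t * A.y))
      - τ * ((P.a - 2) * (A.s * A.x) + (P.b + P.p) * (A.s * A.z) - A.s ^ 2)
      - τ * ((P.b - 2) * (A.t * A.y) + (P.a + P.q) * (A.t * A.z) - A.t ^ 2)
      - τ * A.EE =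
      ((1 - τ) * A.UU + P.Gu * A.UXX + P.Hu * A.UXY
      + (1 / (4 * (1 - τ))) * (P.Gu ^ 2 * ((1 - 1 / P.n) * A.x ^ 2)
        + 2 * (P.Gu * P.Hu) * ((1 - 1 / P.n) * (A.x * A.z))
        + P.Hu ^ 2 * ((A.x * A.y + A.z ^ 2) / 2 - A.z ^ 2 / P.n)))
      + ((P.G - τ) * A.VV + (P.G * P.Hv) * A.VXY + (P.G * P.Gv) * A.VYY
      + (1 / (4 * (P.G - τ))) * ((P.G * P.Gv) ^ 2 * ((1 - 1 / P.n) * A.y ^ 2)
        + 2 * ((P.G * P.Hv) * (P.G * P.Gv)) * ((1 - 1 / P.n) * (A.y * A.z))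
        + (P.G * P.Hv) ^ 2 * ((A.x * A.y + A.z ^ 2) / 2 - A.z ^ 2 / P.n)))
      + (P.al τ * A.x ^ 2 + P.be τ * (A.x * A.z) + P.ga τ * (A.x * A.y) + P.ze τ * A.z ^ 2
          + P.et τ * (A.y * A.z) + P.om τ * A.y ^ 2)
      + A.s * (P.A1 τ * A.x + P.B1 τ * A.z + P.C1 * A.y)
      + A.t * (P.A2 * A.x + P.B2 τ * A.z + P.C2 τ * A.y) := by
    simp only [Gu, Hu, Hv, Gv, al, be, ga, ze, et, om, A1, B1, C1, A2, B2, C2, ka, cu, cv,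
      Atoms.EE]
    ring
  linarith

open Filter Topology in
/-- Strict inequalities at `τ = 0` give `Good τ` for a small positive `τ`. -/
theorem exists_good (hG : 0 < P.G) (hal : 0 < P.al 0) (hom : 0 < P.om 0) (hga : 0 < P.ga 0)
    (hS : 0 < P.Sl 0) (hA1 : 0 < P.A1 0) (hC1 : 0 ≤ P.C1)
    (hB1 : P.B1 0 ^ 2 < 4 * (P.A1 0 * P.C1)) (hA2 : 0 ≤ P.A2) (hC2 : 0 < P.C2 0)
    (hB2 : P.B2 0 ^ 2 < 4 * (P.A2 * P.C2 0)) : ∃ τ, P.Good τ := by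
  have hcu : ContinuousAt cu 0 := by
    unfold cu
    exact ContinuousAt.div continuousAt_const (by fun_prop) (by norm_num)
  have hcv : ContinuousAt P.cv 0 := by
    unfold cv
    refine ContinuousAt.mul continuousAt_const ?_
    exact ContinuousAt.div continuousAt_const (by fun_prop) (by simpa using hG.ne')
  have cal : ContinuousAt P.al 0 := by
    unfold al
    fun_prop
  have cbe : ContinuousAt P.be 0 := by
    unfold be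
    fun_prop
  have cga : ContinuousAt P.ga 0 := by
    unfold ga
    fun_prop
  have cze : ContinuousAt P.ze 0 := by
    unfold ze
    fun_prop
  have cet : ContinuousAt P.et 0 := by
    unfold et
    fun_prop
  have com : ContinuousAt P.om 0 := by
    unfold om
    fun_prop
  have cA1 : ContinuousAt P.A1 0 := by
    unfold A1
    fun_prop
  have cB1 : ContinuousAt P.B1 0 := by
    unfold B1
    fun_prop
  have cB2 : ContinuousAt P.B2 0 := by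
    unfold B2
    fun_prop
  have cC2 : ContinuousAt P.C2 0 := by
    unfold C2
    fun_prop
  have cSl : ContinuousAt P.Sl 0 := by
    unfold Sl
    refine ContinuousAt.sub (ContinuousAt.sub (cga.add cze) ?_) ?_
    · exact ContinuousAt.div (cbe.pow 2) (continuousAt_const.mul cal) (by positivity)
    · exact ContinuousAt.div (cet.pow 2) (continuousAt_const.mul com) (by positivity)
  have e1 : ∀ᶠ τ in 𝓝 (0 : ℝ), 0 < P.al τ := cal.eventually (lt_mem_nhds hal)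
  have e2 : ∀ᶠ τ in 𝓝 (0 : ℝ), 0 < P.om τ := com.eventually (lt_mem_nhds hom)
  have e3 : ∀ᶠ τ in 𝓝 (0 : ℝ), 0 < P.ga τ := cga.eventually (lt_mem_nhds hga)
  have e4 : ∀ᶠ τ in 𝓝 (0 : ℝ), 0 < P.Sl τ := cSl.eventually (lt_mem_nhds hS)
  have e5 : ∀ᶠ τ in 𝓝 (0 : ℝ), 0 < P.A1 τ := cA1.eventually (lt_mem_nhds hA1)
  have e6 : ∀ᶠ τ in 𝓝 (0 : ℝ), 0 < P.C2 τ := cC2.eventually (lt_mem_nhds hC2)
  have e7 : ∀ᶠ τ in 𝓝 (0 : ℝ), P.B1 τ ^ 2 < 4 * (P.A1 τ * P.C1) := by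
    have c1 : ContinuousAt (fun τ => 4 * (P.A1 τ * P.C1) - P.B1 τ ^ 2) 0 := by fun_prop
    have := c1.eventually (lt_mem_nhds (a := 0) (b := 4 * (P.A1 0 * P.C1) - P.B1 0 ^ 2) (by linarith))
    filter_upwards [this] with τ hτ
    linarith
  have e8 : ∀ᶠ τ in 𝓝 (0 : ℝ), P.B2 τ ^ 2 < 4 * (P.A2 * P.C2 τ) := by
    have c1 : ContinuousAt (fun τ => 4 * (P.A2 * P.C2 τ) - P.B2 τ ^ 2) 0 := by fun_prop
    have := c1.eventually (lt_mem_nhds (a := 0) (b := 4 * (P.A2 * P.C2 0) - P.B2 0 ^ 2) (by linarith))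
    filter_upwards [this] with τ hτ
    linarith
  have e9 : ∀ᶠ τ in 𝓝 (0 : ℝ), τ < 1 := Iio_mem_nhds (by norm_num)
  have e10 : ∀ᶠ τ in 𝓝 (0 : ℝ), τ < P.G := Iio_mem_nhds hG
  have all := e1.and (e2.and (e3.and (e4.and (e5.and (e6.and (e7.and (e8.and (e9.and e10))))))))
  have all' : ∀ᶠ τ in 𝓝[>] (0 : ℝ), _ := all.filter_mono nhdsWithin_le_nhds
  obtain ⟨τ, ⟨h1, h2, h3, h4, h5, h6, h7, h8, h9, h10⟩, hpos⟩ := (all'.and self_mem_nhdsWithin).exists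
  exact ⟨τ, hpos, h9, h10, h1, h2, h3.le, h4.le, h5.le, hC1, h7.le, hA2, h6.le, h8.le⟩

/-- Strict inequalities at `τ = 0` give a certificate with positive `c0`. -/
theorem exists_cert (hG : 0 < P.G) (hal : 0 < P.al 0) (hom : 0 < P.om 0) (hga : 0 < P.ga 0)
    (hS : 0 < P.Sl 0) (hA1 : 0 < P.A1 0) (hC1 : 0 ≤ P.C1)
    (hB1 : P.B1 0 ^ 2 < 4 * (P.A1 0 * P.C1)) (hA2 : 0 ≤ P.A2) (hC2 : 0 < P.C2 0)
    (hB2 : P.B2 0 ^ 2 < 4 * (P.A2 * P.C2 0)) :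
    ∃ (c : Fin 14 → ℝ) (c0 : ℝ), 0 < c0 ∧ Cert P.n P.p P.q P.a P.b c c0 := by
  obtain ⟨τ, hτ⟩ := P.exists_good hG hal hom hga hS hA1 hC1 hB1 hA2 hC2 hB2
  exact ⟨_, τ, hτ.hτ0, P.cert_of_good hτ⟩

end Par

end Vale.Agent.Lib.P100.CF
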