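import Vale.Agent.Lib.P100.CFBase

/-!
# P100: the explicit certificate family, every dimension (helper13).

`d = 1/(n-2)`, `a = b = 1 - d`.  Exact double root at `X / Y = ρ`.
-/

noncomputable section

namespace Vale.Agent.Lib.P100.CF

open Vale.Agent.Lib.P100

/-- `1 + 2 d - d^2` -/
def fZ (d : ℝ) : ℝ := 1 + 2 * d - d ^ 2
/-- `2 + 9 d + 10 d^2 - d^3` -/
def fY (d : ℝ) : ℝ := 2 + 9 * d + 10 * d ^ 2 - d ^ 3
/-- `(1 - d)(1 + 3 d)` -/
def fR (d : ℝ) : ℝ := (1 - d) * (1 + 3 * d)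
/-- `E0 = (1+d)(1+2d)/(2(1+3d))` -/
def fE (d : ℝ) : ℝ := (1 + d) * (1 + 2 * d) / (2 * (1 + 3 * d))
/-- `F0 = (1+d)(1+4d)/(2(1+3d))` -/
def fF0 (d : ℝ) : ℝ := (1 + d) * (1 + 4 * d) / (2 * (1 + 3 * d))
/-- the slope `l` -/
def fl (d : ℝ) : ℝ := d * fY d / (2 * (1 + 3 * d) * fZ d)
/-- `F(r) = F0 + (r-1) l` -/
def fF (d r : ℝ) : ℝ := fF0 d + (r - 1) * fl d
/-- the leading coefficient `xx0` of the quartic -/
def fxx (d : ℝ) : ℝ := (1 + d) * d * fY d / (4 * (1 + 2 * d) * (1 + 3 * d) ^ 2)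
/-- the critical `G` -/
def fG (d ρ : ℝ) : ℝ :=
  ρ ^ 2 * ((1 + d) ^ 2 * ρ + fR d) / (fR d * ρ + (1 + d) ^ 2)

section
variable {d : ℝ}

theorem hT (hd : 0 < d) : (1 + 2 * d) ≠ 0 := by positivity
theorem hD (hd : 0 < d) : (1 + 3 * d) ≠ 0 := by positivity

theorem fZ_pos (hd : 0 < d) (hd3 : d ≤ 1 / 3) : 0 < fZ d := by
  unfold fZ; nlinarith

theorem fY_pos (hd : 0 < d) (hd3 : d ≤ 1 / 3) : 0 < fY d := by
  unfold fY
  have : d ^ 3 ≤ d := by
    have h1 : d ^ 2 ≤ 1 := by nlinarith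
    nlinarith
  nlinarith [sq_nonneg d]

theorem fR_pos (hd : 0 < d) (hd3 : d ≤ 1 / 3) : 0 < fR d := by
  unfold fR
  have : 0 < 1 - d := by linarith
  positivity

theorem fE_pos (hd : 0 < d) : 0 < fE d := by
  unfold fE; positivity

theorem fl_pos (hd : 0 < d) (hd3 : d ≤ 1 / 3) : 0 < fl d := by
  unfold fl
  have := fY_pos hd hd3
  have := fZ_pos hd hd3
  positivity

theorem fxx_pos (hd : 0 < d) (hd3 : d ≤ 1 / 3) : 0 < fxx d := by
  unfold fxx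
  have := fY_pos hd hd3
  positivity

/-- `F0 - l > 0`. -/
theorem fF0_sub (hd : 0 < d) (hd3 : d ≤ 1 / 3) : 0 < fF0 d - fl d := by
  have hZ := fZ_pos hd hd3
  have e : fF0 d - fl d =
      (1 + 5 * d + 4 * d ^ 2 - 7 * d ^ 3 - 3 * d ^ 4) / (2 * (1 + 3 * d) * fZ d) := by
    unfold fF0 fl
    have h1 := hD hd
    have h2 := hZ.ne'
    field_simp
    unfold fZ fY
    ring
  rw [e]
  have : 0 < 1 + 5 * d + 4 * d ^ 2 - 7 * d ^ 3 - 3 * d ^ 4 := by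
    have h1 : d ^ 3 ≤ d := by
      have : d ^ 2 ≤ 1 := by nlinarith
      nlinarith
    have h2 : d ^ 4 ≤ d := by
      have : d ^ 3 ≤ 1 := by nlinarith
      nlinarith
    nlinarith [sq_nonneg d]
  positivity

theorem fF_pos (hd : 0 < d) (hd3 : d ≤ 1 / 3) {r : ℝ} (hr : 0 < r) : 0 < fF d r := by
  unfold fF
  have h1 := fF0_sub hd hd3
  have h2 := fl_pos hd hd3
  nlinarith [mul_pos hr h2]

/-- the quadratic polynomial `N(r) = r^2 xx0 + (κ/4) H(r)^2 - d F(r)` factors. -/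
theorem N_eq (hd : 0 < d) (hd3 : d ≤ 1 / 3) (r : ℝ) :
    r ^ 2 * fxx d + ((1 + d) / (1 + 2 * d) / 4) * ((1 - d) - 2 * fF d r) ^ 2 - d * fF d r
      = (r - 1) * fl d * ((1 + d) ^ 2 * r + fR d) / (2 * fZ d) := by
  have hZ := (fZ_pos hd hd3).ne'
  have h1 := hT hd
  have h2 := hD hd
  unfold fF fF0 fl fxx fR
  field_simp
  unfold fZ fY
  ring


/-- The parameters of the family: `n = 2 + 1/d`, `a = b = 1 - d`. -/
def fam (d ρ G p q : ℝ) : Par :=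
  ⟨2 + 1 / d, p, q, 1 - d, 1 - d, fE d, fE d, fF d ρ, fF d (1 / ρ), G⟩

/-- `1/n = d/(1+2d)` -/
theorem inv_n (hd : 0 < d) : 1 / (2 + 1 / d) = d / (1 + 2 * d) := by
  have h1 := hT hd
  have h2 : 2 * d + 1 ≠ 0 := by positivity
  field_simp
  ring

theorem fam_ka (hd : 0 < d) (ρ G p q : ℝ) : (fam d ρ G p q).ka = (1 + d) / (1 + 2 * d) := by
  have h1 := hT hd
  unfold Par.ka fam
  simp only
  rw [inv_n hd]
  field_simp
  ring

theorem fam_cu0 : cu 0 = 1 / 4 := by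
  unfold cu; norm_num

theorem fam_cv0 {G : ℝ} (hG : 0 < G) (d ρ p q : ℝ) : (fam d ρ G p q).cv 0 = G / 4 := by
  have := hG.ne'
  unfold Par.cv fam
  simp only
  rw [sub_zero]
  field_simp

/-- the `x^2` coefficient. -/
theorem E_id (hd : 0 < d) :
    fE d * (2 + d) - (1 / 4) * ((1 + d) / (1 + 2 * d)) * ((1 - d) - 2 - 2 * fE d) ^ 2 = fxx d := by
  have h1 := hT hd
  have h2 := hD hd
  unfold fE fxx fY
  field_simp
  ring

/-- the `x z` coefficient. -/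
theorem be_id (hd : 0 < d) (hd3 : d ≤ 1 / 3) (r : ℝ) :
    -(fE d * (1 - d)) + fF d r * (1 + d)
      - 2 * (1 / 4) * ((1 + d) / (1 + 2 * d)) * (((1 - d) - 2 - 2 * fE d) * ((1 - d) - 2 * fF d r))
      = -2 * r * fxx d := by
  have hZ := (fZ_pos hd hd3).ne'
  have h1 := hT hd
  have h2 := hD hd
  unfold fF fF0 fl fE fxx
  field_simp
  unfold fZ fY
  ring


section fam
variable {ρ G p q : ℝ}

theorem fam_al0 (hd : 0 < d) : (fam d ρ G p q).al 0 = fxx d := by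
  unfold Par.al Par.Gu
  rw [fam_ka hd, fam_cu0]
  simp only [fam]
  rw [← E_id hd]
  ring

theorem fam_be0 (hd : 0 < d) (hd3 : d ≤ 1 / 3) : (fam d ρ G p q).be 0 = -2 * ρ * fxx d := by
  unfold Par.be Par.Gu Par.Hu
  rw [fam_ka hd, fam_cu0]
  simp only [fam]
  rw [← be_id hd hd3 ρ]
  ring

theorem fam_om0 (hd : 0 < d) (hG : 0 < G) : (fam d ρ G p q).om 0 = G * fxx d := by
  unfold Par.om Par.Gv
  rw [fam_ka hd, fam_cv0 hG]
  simp only [fam]
  rw [← E_id hd]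
  ring

theorem fam_et0 (hd : 0 < d) (hd3 : d ≤ 1 / 3) (hG : 0 < G) :
    (fam d ρ G p q).et 0 = G * (-2 * (1 / ρ) * fxx d) := by
  unfold Par.et Par.Gv Par.Hv
  rw [fam_ka hd, fam_cv0 hG]
  simp only [fam]
  rw [← be_id hd hd3 (1 / ρ)]
  ring

/-- `ga + ze` at `τ = 0`. -/
theorem fam_gaze (hd : 0 < d) (hG : 0 < G) :
    (fam d ρ G p q).ga 0 + (fam d ρ G p q).ze 0 =
      d * fF d ρ + G * (d * fF d (1 / ρ))
        - ((1 + d) / (1 + 2 * d) / 4) * (((1 - d) - 2 * fF d ρ) ^ 2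
          + G * ((1 - d) - 2 * fF d (1 / ρ)) ^ 2) := by
  unfold Par.ga Par.ze Par.Hu Par.Hv
  rw [fam_cu0, fam_cv0 hG]
  simp only [fam]
  rw [inv_n hd]
  have h1 := hT hd
  field_simp
  ring

/-- The slack at `τ = 0`. -/
theorem fam_Sl0 (hd : 0 < d) (hd3 : d ≤ 1 / 3) (hρ : 0 < ρ) (hG : 0 < G) :
    (fam d ρ G p q).Sl 0 =
      ((ρ - 1) * fl d / (2 * fZ d)) *
        (G * (fR d * ρ + (1 + d) ^ 2) / ρ ^ 2 - ((1 + d) ^ 2 * ρ + fR d)) := by
  have hx := (fxx_pos hd hd3).ne'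
  have hG' := hG.ne'
  have hρ' := hρ.ne'
  have hZ := (fZ_pos hd hd3).ne'
  have e1 := N_eq hd hd3 ρ
  have e2 := N_eq hd hd3 (1 / ρ)
  have e3 : (fam d ρ G p q).Sl 0 =
      -(ρ ^ 2 * fxx d + ((1 + d) / (1 + 2 * d) / 4) * ((1 - d) - 2 * fF d ρ) ^ 2 - d * fF d ρ)
      - G * ((1 / ρ) ^ 2 * fxx d + ((1 + d) / (1 + 2 * d) / 4) * ((1 - d) - 2 * fF d (1 / ρ)) ^ 2
          - d * fF d (1 / ρ)) := by
    unfold Par.Sl
    rw [fam_gaze hd hG, fam_al0 hd, fam_om0 hd hG, fam_be0 hd hd3, fam_et0 hd hd3 hG]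
    field_simp
    ring
  rw [e3, e1, e2]
  field_simp
  ring

/-- Main consequence: for `ρ > 1` and `G` above the critical value the slack is positive. -/
theorem fam_Sl0_pos (hd : 0 < d) (hd3 : d ≤ 1 / 3) (hρ : 1 < ρ) (hG : fG d ρ < G) (hG0 : 0 < G) :
    0 < (fam d ρ G p q).Sl 0 := by
  have hρ0 : 0 < ρ := by linarith
  rw [fam_Sl0 hd hd3 hρ0 hG0]
  have hl := fl_pos hd hd3
  have hZ := fZ_pos hd hd3
  have hR := fR_pos hd hd3
  have h1 : 0 < (ρ - 1) * fl d / (2 * fZ d) := by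
    have : 0 < ρ - 1 := by linarith
    positivity
  refine mul_pos h1 ?_
  have hden : 0 < fR d * ρ + (1 + d) ^ 2 := by positivity
  unfold fG at hG
  rw [div_lt_iff₀ hden] at hG
  have : ((1 + d) ^ 2 * ρ + fR d) < G * (fR d * ρ + (1 + d) ^ 2) / ρ ^ 2 := by
    rw [lt_div_iff₀ (by positivity)]
    nlinarith
  linarith

end fam


section final
variable {ρ G p q : ℝ}

/-- `θ E0 = F0`. -/
theorem th_E (hd : 0 < d) : fE d * (1 + 2 * (d / (1 + 2 * d))) = fF0 d := by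
  have h1 := hT hd
  have h2 := hD hd
  unfold fE fF0
  field_simp
  ring

theorem fF0_pos (hd : 0 < d) : 0 < fF0 d := by
  unfold fF0; positivity

/-- `κ = (1+d)/(1+2d)`, `ν = d/(1+2d)`. The certificate for a given `G > fG`. -/
theorem family_cert (hd : 0 < d) (hd3 : d ≤ 1 / 3) (hρ : 1 < ρ) (hG : fG d ρ < G)
    (hB1 : ((1 + d) / (1 + 2 * d) * p - 2 * (d / (1 + 2 * d)) * fF d ρ) ^ 2
      < 4 * (fF0 d * (G * fF d (1 / ρ))))
    (hB2 : G * ((1 + d) / (1 + 2 * d) * q - 2 * (d / (1 + 2 * d)) * fF d (1 / ρ)) ^ 2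
      < 4 * (fF0 d * fF d ρ)) :
    ∃ (c : Fin 14 → ℝ) (c0 : ℝ), 0 < c0 ∧ Cert (2 + 1 / d) p q (1 - d) (1 - d) c c0 := by
  have hρ0 : 0 < ρ := by linarith
  have hR := fR_pos hd hd3
  have hG00 : 0 < fG d ρ := by
    unfold fG; positivity
  have hG0 : 0 < G := hG00.trans hG
  have hx := fxx_pos hd hd3
  have hF1 := fF_pos hd hd3 hρ0
  have hF2 := fF_pos hd hd3 (r := 1 / ρ) (by positivity)
  have hF0 := fF0_pos hd
  have hS := fam_Sl0_pos (p := p) (q := q) hd hd3 hρ hG hG0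
  have hal : 0 < (fam d ρ G p q).al 0 := by rw [fam_al0 hd]; exact hx
  have hom : 0 < (fam d ρ G p q).om 0 := by rw [fam_om0 hd hG0]; positivity
  have hze : (fam d ρ G p q).ze 0 ≤ 0 := by
    unfold Par.ze Par.Hu Par.Hv
    rw [fam_cu0, fam_cv0 hG0]
    simp only [fam]
    rw [inv_n hd]
    have h1 : 0 ≤ 1 / 2 - d / (1 + 2 * d) := by
      have : d / (1 + 2 * d) ≤ 1 / 2 := by
        rw [div_le_iff₀ (by positivity)]
        linarith
      linarith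
    have h2 : 0 ≤ (1 / 4 * ((1 - d) - 2 * fF d ρ) ^ 2 + G / 4 * ((1 - d) - 2 * fF d (1 / ρ)) ^ 2) := by
      positivity
    nlinarith [mul_nonneg h2 h1]
  have hga : 0 < (fam d ρ G p q).ga 0 := by
    have h1 : 0 ≤ (fam d ρ G p q).be 0 ^ 2 / (4 * (fam d ρ G p q).al 0) := by positivity
    have h2 : 0 ≤ (fam d ρ G p q).et 0 ^ 2 / (4 * (fam d ρ G p q).om 0) := by positivity
    have h3 := hS
    unfold Par.Sl at h3
    linarith
  have e1 : 1 + 2 / (2 + 1 / d) = 1 + 2 * (d / (1 + 2 * d)) := by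
    rw [← inv_n hd]; ring
  have hA1e : (fam d ρ G p q).A1 0 = fF0 d := by
    unfold Par.A1
    simp only [fam]
    rw [e1, th_E hd]
    ring
  have hC2e : (fam d ρ G p q).C2 0 = G * fF0 d := by
    unfold Par.C2
    simp only [fam]
    rw [e1, ← th_E hd]
    ring
  have hB1e : (fam d ρ G p q).B1 0 =
      -((1 + d) / (1 + 2 * d) * p - 2 * (d / (1 + 2 * d)) * fF d ρ) := by
    unfold Par.B1
    rw [fam_ka hd]
    simp only [fam]
    have : 2 / (2 + 1 / d) = 2 * (d / (1 + 2 * d)) := by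
      rw [← inv_n hd]; ring
    rw [this]
    ring
  have hB2e : (fam d ρ G p q).B2 0 =
      -(G * ((1 + d) / (1 + 2 * d) * q - 2 * (d / (1 + 2 * d)) * fF d (1 / ρ))) := by
    unfold Par.B2
    rw [fam_ka hd]
    simp only [fam]
    have : 2 / (2 + 1 / d) = 2 * (d / (1 + 2 * d)) := by
      rw [← inv_n hd]; ring
    rw [this]
    ring
  have hC1e : (fam d ρ G p q).C1 = G * fF d (1 / ρ) := rfl
  have hA2e : (fam d ρ G p q).A2 = fF d ρ := rfl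
  refine Par.exists_cert (fam d ρ G p q) hG0 hal hom hga hS ?_ ?_ ?_ ?_ ?_ ?_
  · rw [hA1e]; exact hF0
  · rw [hC1e]; positivity
  · rw [hB1e, hA1e, hC1e, neg_sq]; exact hB1
  · rw [hA2e]; exact hF1.le
  · rw [hC2e]; positivity
  · rw [hB2e, hA2e, hC2e, neg_sq]
    have : (G * ((1 + d) / (1 + 2 * d) * q - 2 * (d / (1 + 2 * d)) * fF d (1 / ρ))) ^ 2 =
        G * (G * ((1 + d) / (1 + 2 * d) * q - 2 * (d / (1 + 2 * d)) * fF d (1 / ρ)) ^ 2) := by ring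
    rw [this]
    have e : 4 * (fF d ρ * (G * fF0 d)) = G * (4 * (fF0 d * fF d ρ)) := by ring
    rw [e]
    exact mul_lt_mul_of_pos_left hB2 hG0

/-- The certificate at the critical `G0 = fG d ρ`, hypotheses at `G0`. -/
theorem region_cert (hd : 0 < d) (hd3 : d ≤ 1 / 3) (hρ : 1 < ρ)
    (hB1 : ((1 + d) / (1 + 2 * d) * p - 2 * (d / (1 + 2 * d)) * fF d ρ) ^ 2
      < 4 * (fF0 d * (fG d ρ * fF d (1 / ρ))))
    (hB2 : fG d ρ * ((1 + d) / (1 + 2 * d) * q - 2 * (d / (1 + 2 * d)) * fF d (1 / ρ)) ^ 2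
      < 4 * (fF0 d * fF d ρ)) :
    ∃ (c : Fin 14 → ℝ) (c0 : ℝ), 0 < c0 ∧ Cert (2 + 1 / d) p q (1 - d) (1 - d) c c0 := by
  have hρ0 : 0 < ρ := by linarith
  have hR := fR_pos hd hd3
  have hF2 := fF_pos hd hd3 (r := 1 / ρ) (by positivity)
  have hF0 := fF0_pos hd
  set w := ((1 + d) / (1 + 2 * d) * q - 2 * (d / (1 + 2 * d)) * fF d (1 / ρ)) ^ 2 with hw
  have hw0 : 0 ≤ w := by rw [hw]; positivity
  set K := 4 * (fF0 d * fF d ρ) with hK
  set η := (K - fG d ρ * w) / (2 * (w + 1)) with hη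
  have hη0 : 0 < η := by
    rw [hη]
    apply div_pos (by linarith) (by positivity)
  refine family_cert (G := fG d ρ + η) hd hd3 hρ (by linarith) ?_ ?_
  · refine lt_of_lt_of_le hB1 ?_
    have : 0 ≤ fF0 d * fF d (1 / ρ) := by positivity
    nlinarith [mul_nonneg this hη0.le]
  · have h1 : η * w < K - fG d ρ * w := by
      have h2 : η * (2 * (w + 1)) = K - fG d ρ * w := by
        rw [hη]; field_simp
      nlinarith [mul_pos hη0 (by linarith : (0:ℝ) < w + 2)]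
    nlinarith

end final

end

end Vale.Agent.Lib.P100.CF
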