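import Vale.Agent.Lib.P100.Atoms

/-!
# P100: a closed form certificate valid in all dimensions.

With `a = b = (n-3)/(n-2)`, and only the six fields `U0 X, V0 Y, x X, x Y, y X, y Y` (plus a small
multiple of `s X, t Y`), the polynomial `Q` is an explicit sum of squares as soon as
`|p - c| |q - c| < d ^ 2`, where `c = (n+2)/((n+1)(n-2))`, `d = n c`.
-/

noncomputable section

namespace Vale.Agent.Lib.P100.CertA

open Vale.Agent.Lib.P100

/-- The coefficient vector of the certificate. -/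
def cv (E F h g : ℝ) : Fin 14 → ℝ :=
  ![1, 0, 0, g, -E, -F, 0, 0, -(g * F), -(g * E), -h, 0, 0, -(g * h)]

lemma Q_cv (n p q a E F h g : ℝ) (A : Atoms) :
    Atoms.Q n p q a a (cv E F h g) A =
      (A.UU + (a - 2 - 2 * E) * A.UXX + (a - 2 * F) * A.UXY)
      + g * (A.VV + (a - 2 - 2 * E) * A.VYY + (a - 2 * F) * A.VXY)
      + (E * (3 - a) * A.x ^ 2 + (F * (2 - a) - E * a) * (A.x * A.z) + F * (1 - a) * (A.x * A.y))
      + g * (E * (3 - a) * A.y ^ 2 + (F * (2 - a) - E * a) * (A.y * A.z)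
          + F * (1 - a) * (A.x * A.y))
      + A.s * (((1 + 2 / n) * E + h * (2 - a)) * A.x
          + (2 / n * F - (1 - 1 / n) * p - h * (a + p)) * A.z + g * F * A.y)
      + A.t * (F * A.x + g * (2 / n * F - (1 - 1 / n) * q - h * (a + q)) * A.z
          + g * ((1 + 2 / n) * E + h * (2 - a)) * A.y)
      + h * A.s ^ 2 + g * h * A.t ^ 2 := by
  simp [Atoms.Q, Atoms.D, cv, Fin.sum_univ_succ]
  ring

/-- `|G XX0 + H XY0|^2`. -/
def Wu (n G H : ℝ) (A : Atoms) : ℝ :=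
  (1 - 1 / n) * G ^ 2 * A.x ^ 2 + 2 * (1 - 1 / n) * G * H * (A.x * A.z)
    + H ^ 2 * ((A.x * A.y + A.z ^ 2) / 2 - A.z ^ 2 / n)

/-- `|G YY0 + H XY0|^2`. -/
def Wv (n G H : ℝ) (A : Atoms) : ℝ :=
  (1 - 1 / n) * G ^ 2 * A.y ^ 2 + 2 * (1 - 1 / n) * G * H * (A.y * A.z)
    + H ^ 2 * ((A.x * A.y + A.z ^ 2) / 2 - A.z ^ 2 / n)

lemma gram_u (n G H r : ℝ) (A : Atoms) (hA : Atoms.Realizable n A) :
    0 ≤ A.UU + 2 * r * (G * A.UXX + H * A.UXY) + r ^ 2 * Wu n G H A := by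
  have h := hA.gram_nonneg ![1, 0, r * G, r * H, 0]
  have e : (∑ i, ∑ j, (![1, 0, r * G, r * H, 0] : Fin 5 → ℝ) i *
      (![1, 0, r * G, r * H, 0] : Fin 5 → ℝ) j * Atoms.gram n A i j)
      = A.UU + 2 * r * (G * A.UXX + H * A.UXY) + r ^ 2 * Wu n G H A := by
    simp [Fin.sum_univ_succ, Atoms.gram, Wu]
    ring
  rwa [e] at h

lemma gram_v (n G H r : ℝ) (A : Atoms) (hA : Atoms.Realizable n A) :
    0 ≤ A.VV + 2 * r * (G * A.VYY + H * A.VXY) + r ^ 2 * Wv n G H A := by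
  have h := hA.gram_nonneg ![0, 1, 0, r * H, r * G]
  have e : (∑ i, ∑ j, (![0, 1, 0, r * H, r * G] : Fin 5 → ℝ) i *
      (![0, 1, 0, r * H, r * G] : Fin 5 → ℝ) j * Atoms.gram n A i j)
      = A.VV + 2 * r * (G * A.VYY + H * A.VXY) + r ^ 2 * Wv n G H A := by
    simp [Fin.sum_univ_succ, Atoms.gram, Wv]
    ring
  rwa [e] at h

lemma UU_nonneg (n : ℝ) (A : Atoms) (hA : Atoms.Realizable n A) : 0 ≤ A.UU := by
  have := gram_u n 0 0 0 A hA
  simpa using this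

lemma VV_nonneg (n : ℝ) (A : Atoms) (hA : Atoms.Realizable n A) : 0 ≤ A.VV := by
  have := gram_v n 0 0 0 A hA
  simpa using this

/-- Positivity of a binary form, from the form bound. -/
lemma form_pos (n : ℝ) (A : Atoms) (hA : Atoms.Realizable n A) {P R S : ℝ} (hP : 0 < P)
    (h : S ^ 2 ≤ P * R) : 0 ≤ P * A.x + 2 * S * A.z + R * A.y := by
  have h1 := hA.form_nonneg P S
  have hy := hA.y_nonneg
  have h2 : 0 ≤ P * (P * A.x + 2 * S * A.z + R * A.y) := by nlinarith [mul_nonneg (sub_nonneg.2 h) hy]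
  exact nonneg_of_mul_nonneg_right h2 hP |> fun h => h

lemma form_pos' (n : ℝ) (A : Atoms) (hA : Atoms.Realizable n A) {P R S : ℝ} (hP : 0 < P)
    (h : S ^ 2 ≤ P * R) : 0 ≤ R * A.x + 2 * S * A.z + P * A.y := by
  have h1 := hA.form_nonneg S P
  have hx := hA.x_nonneg
  have h2 : 0 ≤ P * (R * A.x + 2 * S * A.z + P * A.y) := by nlinarith [mul_nonneg (sub_nonneg.2 h) hx]
  exact nonneg_of_mul_nonneg_right h2 hP |> fun h => h

lemma abs_z (n : ℝ) (A : Atoms) (hA : Atoms.Realizable n A) :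
    0 ≤ A.x + 2 * A.z + A.y ∧ 0 ≤ A.x - 2 * A.z + A.y := by
  have h1 := hA.form_nonneg 1 1
  have h2 := hA.form_nonneg 1 (-1)
  constructor <;> nlinarith

lemma Wu_le (n G H : ℝ) (hn : 1 ≤ n) (A : Atoms) (hA : Atoms.Realizable n A) :
    Wu n G H A ≤ 2 * (G ^ 2 + H ^ 2) * (A.x ^ 2 + A.y ^ 2) := by
  have hn0 : 0 < n := by linarith
  have hk0 : 0 ≤ 1 - 1 / n := by
    have : 1 / n ≤ 1 := by rw [div_le_iff₀ hn0]; linarith
    linarith
  have hk1 : 1 - 1 / n ≤ 1 := by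
    have : 0 ≤ 1 / n := by positivity
    linarith
  have hx := hA.x_nonneg
  have hy := hA.y_nonneg
  have hcs := hA.cs
  have h1 : 2 * (1 - 1 / n) * G * H * (A.x * A.z) ≤ (1 - 1 / n) * (G ^ 2 * A.x ^ 2 + H ^ 2 * A.z ^ 2) := by
    have := mul_nonneg hk0 (sq_nonneg (G * A.x - H * A.z))
    nlinarith
  have h2 : (1 - 1 / n) * (G ^ 2 * A.x ^ 2 + H ^ 2 * A.z ^ 2) ≤ G ^ 2 * A.x ^ 2 + H ^ 2 * A.z ^ 2 := by
    have : 0 ≤ G ^ 2 * A.x ^ 2 + H ^ 2 * A.z ^ 2 := by positivity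
    nlinarith
  have h3 : (1 - 1 / n) * G ^ 2 * A.x ^ 2 ≤ G ^ 2 * A.x ^ 2 := by
    have : 0 ≤ G ^ 2 * A.x ^ 2 := by positivity
    nlinarith
  have h4 : 0 ≤ A.z ^ 2 / n := by positivity
  have h5 : H ^ 2 * ((A.x * A.y + A.z ^ 2) / 2 - A.z ^ 2 / n) ≤ H ^ 2 * (A.x * A.y) := by
    apply mul_le_mul_of_nonneg_left _ (sq_nonneg H)
    linarith
  have h6 : H ^ 2 * A.z ^ 2 ≤ H ^ 2 * (A.x * A.y) :=
    mul_le_mul_of_nonneg_left hcs (sq_nonneg H)
  have h7 : H ^ 2 * (2 * (A.x * A.y)) ≤ H ^ 2 * (A.x ^ 2 + A.y ^ 2) := by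
    apply mul_le_mul_of_nonneg_left _ (sq_nonneg H)
    nlinarith [sq_nonneg (A.x - A.y)]
  unfold Wu
  have h8 : 0 ≤ G ^ 2 * A.y ^ 2 := by positivity
  have h9 : 0 ≤ H ^ 2 * (A.x ^ 2 + A.y ^ 2) := by positivity
  nlinarith

lemma Wv_le (n G H : ℝ) (hn : 1 ≤ n) (A : Atoms) (hA : Atoms.Realizable n A) :
    Wv n G H A ≤ 2 * (G ^ 2 + H ^ 2) * (A.x ^ 2 + A.y ^ 2) := by
  have hn0 : 0 < n := by linarith
  have hk0 : 0 ≤ 1 - 1 / n := by
    have : 1 / n ≤ 1 := by rw [div_le_iff₀ hn0]; linarith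
    linarith
  have hk1 : 1 - 1 / n ≤ 1 := by
    have : 0 ≤ 1 / n := by positivity
    linarith
  have hx := hA.x_nonneg
  have hy := hA.y_nonneg
  have hcs := hA.cs
  have h1 : 2 * (1 - 1 / n) * G * H * (A.y * A.z) ≤ (1 - 1 / n) * (G ^ 2 * A.y ^ 2 + H ^ 2 * A.z ^ 2) := by
    have := mul_nonneg hk0 (sq_nonneg (G * A.y - H * A.z))
    nlinarith
  have h2 : (1 - 1 / n) * (G ^ 2 * A.y ^ 2 + H ^ 2 * A.z ^ 2) ≤ G ^ 2 * A.y ^ 2 + H ^ 2 * A.z ^ 2 := by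
    have : 0 ≤ G ^ 2 * A.y ^ 2 + H ^ 2 * A.z ^ 2 := by positivity
    nlinarith
  have h3 : (1 - 1 / n) * G ^ 2 * A.y ^ 2 ≤ G ^ 2 * A.y ^ 2 := by
    have : 0 ≤ G ^ 2 * A.y ^ 2 := by positivity
    nlinarith
  have h4 : 0 ≤ A.z ^ 2 / n := by positivity
  have h5 : H ^ 2 * ((A.x * A.y + A.z ^ 2) / 2 - A.z ^ 2 / n) ≤ H ^ 2 * (A.x * A.y) := by
    apply mul_le_mul_of_nonneg_left _ (sq_nonneg H)
    linarith
  have h6 : H ^ 2 * A.z ^ 2 ≤ H ^ 2 * (A.x * A.y) :=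
    mul_le_mul_of_nonneg_left hcs (sq_nonneg H)
  have h7 : H ^ 2 * (2 * (A.x * A.y)) ≤ H ^ 2 * (A.x ^ 2 + A.y ^ 2) := by
    apply mul_le_mul_of_nonneg_left _ (sq_nonneg H)
    nlinarith [sq_nonneg (A.x - A.y)]
  unfold Wv
  have h8 : 0 ≤ G ^ 2 * A.x ^ 2 := by positivity
  have h9 : 0 ≤ H ^ 2 * (A.x ^ 2 + A.y ^ 2) := by positivity
  nlinarith

/-- The three coefficients of the quartic part. -/
def A1 (n a E : ℝ) : ℝ := E * (3 - a) - (1 - 1 / n) * (a - 2 - 2 * E) ^ 2 / 4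

/-- The three coefficients of the quartic part. -/
def A2 (n a E F : ℝ) : ℝ :=
  F * (2 - a) - E * a - (1 - 1 / n) * ((a - 2 - 2 * E) * (a - 2 * F)) / 2

/-- The three coefficients of the quartic part. -/
def A3 (n a F : ℝ) : ℝ := F * (1 - a) - (1 - 1 / n) * (a - 2 * F) ^ 2 / 4

lemma Q_lower (n p q a E F h g η : ℝ) (hn : 2 ≤ n) (hg : 0 < g) (hη0 : 0 ≤ η) (hη1 : η ≤ 1)
    (A : Atoms) (hA : Atoms.Realizable n A) :
    (η / 2) * (A.UU + g * A.VV)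
      - (η / 4) * (Wu n (a - 2 - 2 * E) (a - 2 * F) A + g * Wv n (a - 2 - 2 * E) (a - 2 * F) A)
      + A.x * (A1 n a E * A.x + A2 n a E F * A.z + A3 n a F * A.y)
      + g * (A.y * (A1 n a E * A.y + A2 n a E F * A.z + A3 n a F * A.x))
      + A.s * (((1 + 2 / n) * E + h * (2 - a)) * A.x
          + (2 / n * F - (1 - 1 / n) * p - h * (a + p)) * A.z + g * F * A.y)
      + A.t * (F * A.x + g * (2 / n * F - (1 - 1 / n) * q - h * (a + q)) * A.z
          + g * ((1 + 2 / n) * E + h * (2 - a)) * A.y)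
      + h * A.s ^ 2 + g * h * A.t ^ 2
      ≤ Atoms.Q n p q a a (cv E F h g) A := by
  set G := a - 2 - 2 * E with hG
  set H := a - 2 * F with hH
  have u1 := gram_u n G H (1 / 2) A hA
  have u2 := gram_u n G H 1 A hA
  have v1 := gram_v n G H (1 / 2) A hA
  have v2 := gram_v n G H 1 A hA
  have hn0 : 0 < n := by linarith
  have hcoef : 0 ≤ (1 : ℝ) / 2 - 1 / n := by
    have : 1 / n ≤ 1 / 2 := by
      apply one_div_le_one_div_of_le (by norm_num) hn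
    linarith
  have hcs : 0 ≤ A.x * A.y - A.z ^ 2 := sub_nonneg.2 hA.cs
  have p1 : 0 ≤ (1 - η) * (A.UU + 2 * (1 / 2) * (G * A.UXX + H * A.UXY) + (1 / 2) ^ 2 * Wu n G H A) :=
    mul_nonneg (by linarith) u1
  have p2 : 0 ≤ (η / 2) * (A.UU + 2 * 1 * (G * A.UXX + H * A.UXY) + 1 ^ 2 * Wu n G H A) :=
    mul_nonneg (by linarith) u2
  have p3 : 0 ≤ g * ((1 - η) * (A.VV + 2 * (1 / 2) * (G * A.VYY + H * A.VXY) + (1 / 2) ^ 2 * Wv n G H A)) :=
    mul_nonneg hg.le (mul_nonneg (by linarith) v1)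
  have p4 : 0 ≤ g * ((η / 2) * (A.VV + 2 * 1 * (G * A.VYY + H * A.VXY) + 1 ^ 2 * Wv n G H A)) :=
    mul_nonneg hg.le (mul_nonneg (by linarith) v2)
  have p5 : 0 ≤ (1 + g) * (H ^ 2 / 4 * ((1 : ℝ) / 2 - 1 / n)) * (A.x * A.y - A.z ^ 2) := by
    apply mul_nonneg _ hcs
    apply mul_nonneg (by linarith)
    exact mul_nonneg (by positivity) hcoef
  rw [Q_cv]
  have key : (A.UU + (a - 2 - 2 * E) * A.UXX + (a - 2 * F) * A.UXY)
      + g * (A.VV + (a - 2 - 2 * E) * A.VYY + (a - 2 * F) * A.VXY)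
      + (E * (3 - a) * A.x ^ 2 + (F * (2 - a) - E * a) * (A.x * A.z) + F * (1 - a) * (A.x * A.y))
      + g * (E * (3 - a) * A.y ^ 2 + (F * (2 - a) - E * a) * (A.y * A.z)
          + F * (1 - a) * (A.x * A.y))
      - ((η / 2) * (A.UU + g * A.VV) - (η / 4) * (Wu n G H A + g * Wv n G H A)
        + A.x * (A1 n a E * A.x + A2 n a E F * A.z + A3 n a F * A.y)
        + g * (A.y * (A1 n a E * A.y + A2 n a E F * A.z + A3 n a F * A.x)))
      = (1 - η) * (A.UU + 2 * (1 / 2) * (G * A.UXX + H * A.UXY) + (1 / 2) ^ 2 * Wu n G H A)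
        + (η / 2) * (A.UU + 2 * 1 * (G * A.UXX + H * A.UXY) + 1 ^ 2 * Wu n G H A)
        + g * ((1 - η) * (A.VV + 2 * (1 / 2) * (G * A.VYY + H * A.VXY) + (1 / 2) ^ 2 * Wv n G H A))
        + g * ((η / 2) * (A.VV + 2 * 1 * (G * A.VYY + H * A.VXY) + 1 ^ 2 * Wv n G H A))
        + (1 + g) * (H ^ 2 / 4 * ((1 : ℝ) / 2 - 1 / n)) * (A.x * A.y - A.z ^ 2) := by
    simp only [Wu, Wv, A1, A2, A3, hG, hH]
    ring
  linarith

lemma margin {P R S : ℝ} (hP : 0 < P) (h : S ^ 2 < P * R) :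
    ∃ μ : ℝ, 0 < μ ∧ 0 < P - μ ∧ S ^ 2 ≤ (P - μ) * (R - μ) := by
  have hPR : 0 < P * R := lt_of_le_of_lt (sq_nonneg S) h
  have hR : 0 < R := by
    by_contra hc
    have : P * R ≤ 0 := mul_nonpos_of_nonneg_of_nonpos hP.le (not_lt.1 hc)
    linarith
  have hsum : 0 < P + R := by linarith
  have hd : 0 < (P * R - S ^ 2) / (P + R) := div_pos (by linarith) hsum
  refine ⟨min (P / 2) ((P * R - S ^ 2) / (P + R)), lt_min (by linarith) hd, ?_, ?_⟩
  · have := min_le_left (P / 2) ((P * R - S ^ 2) / (P + R))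
    linarith
  · set μ := min (P / 2) ((P * R - S ^ 2) / (P + R)) with hμ
    have h1 : μ ≤ (P * R - S ^ 2) / (P + R) := min_le_right _ _
    have h2 : μ * (P + R) ≤ P * R - S ^ 2 := by
      rwa [le_div_iff₀ hsum] at h1
    nlinarith [sq_nonneg μ]

lemma form_margin {P R S : ℝ} (hP : 0 < P) (h : S ^ 2 < P * R) :
    ∃ μ : ℝ, 0 < μ ∧ ∀ (n : ℝ) (A : Atoms), Atoms.Realizable n A →
      μ * (A.x + A.y) ≤ P * A.x + 2 * S * A.z + R * A.y ∧
      μ * (A.x + A.y) ≤ R * A.x + 2 * S * A.z + P * A.y := by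
  obtain ⟨μ, hμ, h1, h2⟩ := margin hP h
  refine ⟨μ, hμ, fun n A hA => ⟨?_, ?_⟩⟩
  · have := form_pos n A hA h1 h2
    linarith
  · have := form_pos' n A hA h1 h2
    linarith

lemma lin_bound (α β x y z : ℝ) (hx : 0 ≤ x) (hy : 0 ≤ y) (h1 : 0 ≤ x + 2 * z + y)
    (h2 : 0 ≤ x - 2 * z + y) : -((|α| + |β| + 1) * (x + y)) ≤ α * x + β * z := by
  have hxy : 0 ≤ x + y := by linarith
  have ha : -(|α| * (x + y)) ≤ α * x := by
    have h3 : -|α| ≤ α := neg_abs_le α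
    have h4 : 0 ≤ |α| := abs_nonneg α
    nlinarith
  have hb : -(|β| * (x + y)) ≤ β * z := by
    have h4 : 0 ≤ |β| := abs_nonneg β
    rcases abs_cases β with ⟨h5, _⟩ | ⟨h5, _⟩ <;> rw [h5] <;> nlinarith
  nlinarith


lemma comb (L B μ Cs h w : ℝ) (hL : μ * w ≤ L) (hB : -(Cs * w) ≤ B) (hh : 0 ≤ h)
    (hhC : h * Cs ≤ μ) (hw : 0 ≤ w) : 0 ≤ L + h * B := by
  have e2 := mul_le_mul_of_nonneg_left hB hh
  have e3 := mul_le_mul_of_nonneg_right hhC hw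
  have e4 : h * (-(Cs * w)) = -(h * Cs * w) := by ring
  linarith

lemma quart_term (x y Lx μ : ℝ) (hx : 0 ≤ x) (hy : 0 ≤ y) (hμ : 0 < μ) (h : μ * (x + y) ≤ Lx) :
    μ * x ^ 2 ≤ x * Lx := by
  have h1 := mul_le_mul_of_nonneg_left h hx
  have h3 : 0 ≤ x * (μ * y) := by positivity
  have e : x * (μ * (x + y)) = μ * x ^ 2 + x * (μ * y) := by ring
  linarith

lemma final_c0 (η g g0 c2 h c0 UU VV x2 y2 s2 t2 Q : ℝ) (_hg0 : 0 < g0) (hg01 : g0 ≤ 1) (hg0g : g0 ≤ g)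
    (hη : 0 < η) (hh : 0 < h) (c1 : c0 ≤ η * g0 / 2) (c3 : c0 ≤ c2) (c4 : c0 ≤ h * g0)
    (hUU : 0 ≤ UU) (hVV : 0 ≤ VV) (hx2 : 0 ≤ x2) (hy2 : 0 ≤ y2) (hs2 : 0 ≤ s2) (ht2 : 0 ≤ t2)
    (hmain : (η / 2) * (UU + g * VV) + c2 * (x2 + y2) + h * (s2 + g * t2) ≤ Q) :
    c0 * (UU + VV + x2 + y2 + s2 + t2) ≤ Q := by
  have f1 : c0 * (UU + VV) ≤ (η / 2) * (UU + g * VV) := by
    have f : c0 * (UU + VV) ≤ (η * g0 / 2) * (UU + VV) :=
      mul_le_mul_of_nonneg_right c1 (by linarith)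
    have f' : g0 * VV ≤ g * VV := mul_le_mul_of_nonneg_right hg0g hVV
    have f'' : g0 * UU ≤ 1 * UU := mul_le_mul_of_nonneg_right hg01 hUU
    have := mul_le_mul_of_nonneg_left (add_le_add f'' f') (by positivity : 0 ≤ η / 2)
    have e : (η * g0 / 2) * (UU + VV) = η / 2 * (g0 * UU + g0 * VV) := by ring
    have e' : η / 2 * (1 * UU + g * VV) = (η / 2) * (UU + g * VV) := by ring
    linarith
  have f2 : c0 * (x2 + y2) ≤ c2 * (x2 + y2) := mul_le_mul_of_nonneg_right c3 (by linarith)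
  have f3 : c0 * (s2 + t2) ≤ h * (s2 + g * t2) := by
    have f : c0 * (s2 + t2) ≤ (h * g0) * (s2 + t2) := mul_le_mul_of_nonneg_right c4 (by linarith)
    have f' : g0 * t2 ≤ g * t2 := mul_le_mul_of_nonneg_right hg0g ht2
    have f'' : g0 * s2 ≤ 1 * s2 := mul_le_mul_of_nonneg_right hg01 hs2
    have := mul_le_mul_of_nonneg_left (add_le_add f'' f') hh.le
    have e : (h * g0) * (s2 + t2) = h * (g0 * s2 + g0 * t2) := by ring
    have e' : h * (1 * s2 + g * t2) = h * (s2 + g * t2) := by ring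
    linarith
  have e : c0 * (UU + VV + x2 + y2 + s2 + t2) = c0 * (UU + VV) + c0 * (x2 + y2) + c0 * (s2 + t2) := by
    ring
  linarith

/-- The abstract certificate: strict positivity of three binary forms gives `Cert`. -/
theorem cert_of_data (n p q a E F g : ℝ) (hn : 2 ≤ n) (hg : 0 < g)
    (hA1 : 0 < A1 n a E) (hdet : (A2 n a E F / 2) ^ 2 < A1 n a E * A3 n a F)
    (hs0 : 0 < (1 + 2 / n) * E)
    (hs : ((2 / n * F - (1 - 1 / n) * p) / 2) ^ 2 < ((1 + 2 / n) * E) * (g * F))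
    (hF : 0 < F)
    (ht : ((g * (2 / n * F - (1 - 1 / n) * q)) / 2) ^ 2 < F * (g * ((1 + 2 / n) * E))) :
    ∃ (h c0 : ℝ), 0 < c0 ∧ Cert n p q a a (cv E F h g) c0 := by
  obtain ⟨μ1, hμ1, hf1⟩ := form_margin hA1 hdet
  obtain ⟨μ2, hμ2, hf2⟩ := form_margin hs0 hs
  obtain ⟨μ3, hμ3, hf3⟩ := form_margin hF ht
  obtain ⟨Cs, hCs⟩ : ∃ Cs : ℝ, Cs = |2 - a| + |-(a + p)| + 1 := ⟨_, rfl⟩
  obtain ⟨Ct, hCt⟩ : ∃ Ct : ℝ, Ct = |2 - a| + |-(a + q)| + 1 := ⟨_, rfl⟩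
  have hCs0 : 0 < Cs := by rw [hCs]; positivity
  have hCt0 : 0 < Ct := by rw [hCt]; positivity
  obtain ⟨h, hh⟩ : ∃ h : ℝ, h = min (μ2 / Cs) (μ3 / (g * Ct)) := ⟨_, rfl⟩
  have hh0 : 0 < h := by
    rw [hh]; exact lt_min (div_pos hμ2 hCs0) (div_pos hμ3 (mul_pos hg hCt0))
  have hh1 : h * Cs ≤ μ2 := by
    have : h ≤ μ2 / Cs := by rw [hh]; exact min_le_left _ _
    rwa [le_div_iff₀ hCs0] at this
  have hh2 : h * (g * Ct) ≤ μ3 := by
    have : h ≤ μ3 / (g * Ct) := by rw [hh]; exact min_le_right _ _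
    rwa [le_div_iff₀ (mul_pos hg hCt0)] at this
  obtain ⟨G, hG⟩ : ∃ G : ℝ, G = a - 2 - 2 * E := ⟨_, rfl⟩
  obtain ⟨H, hH⟩ : ∃ H : ℝ, H = a - 2 * F := ⟨_, rfl⟩
  obtain ⟨C, hC⟩ : ∃ C : ℝ, C = (1 + g) * (G ^ 2 + H ^ 2) / 2 := ⟨_, rfl⟩
  have hC0 : 0 ≤ C := by rw [hC]; positivity
  obtain ⟨g0, hg0⟩ : ∃ g0 : ℝ, g0 = min 1 g := ⟨_, rfl⟩
  have hg00 : 0 < g0 := by rw [hg0]; exact lt_min one_pos hg
  have hg01 : g0 ≤ 1 := by rw [hg0]; exact min_le_left _ _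
  have hg0g : g0 ≤ g := by rw [hg0]; exact min_le_right _ _
  obtain ⟨c2, hc2⟩ : ∃ c2 : ℝ, c2 = μ1 * g0 / (C + 1) := ⟨_, rfl⟩
  have hc20 : 0 < c2 := by rw [hc2]; positivity
  obtain ⟨η, hη⟩ : ∃ η : ℝ, η = min 1 c2 := ⟨_, rfl⟩
  have hη0 : 0 < η := by rw [hη]; exact lt_min one_pos hc20
  have hη1 : η ≤ 1 := by rw [hη]; exact min_le_left _ _
  have hη2 : η ≤ c2 := by rw [hη]; exact min_le_right _ _
  have hc2C : η * C + c2 ≤ μ1 * g0 := by
    have h1 : η * C ≤ c2 * C := mul_le_mul_of_nonneg_right hη2 hC0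
    have h2 : c2 * (C + 1) = μ1 * g0 := by
      rw [hc2]; field_simp
    have e : c2 * (C + 1) = c2 * C + c2 := by ring
    linarith
  obtain ⟨c0, hc0⟩ : ∃ c0 : ℝ, c0 = min (η * g0 / 2) (min c2 (h * g0)) := ⟨_, rfl⟩
  have hc00 : 0 < c0 := by
    rw [hc0]; exact lt_min (by positivity) (lt_min hc20 (by positivity))
  have c1 : c0 ≤ η * g0 / 2 := by rw [hc0]; exact min_le_left _ _
  have c3 : c0 ≤ c2 := by rw [hc0]; exact le_trans (min_le_right _ _) (min_le_left _ _)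
  have c4 : c0 ≤ h * g0 := by rw [hc0]; exact le_trans (min_le_right _ _) (min_le_right _ _)
  refine ⟨h, c0, hc00, ?_⟩
  intro A hA
  have hlow := Q_lower n p q a E F h g η hn hg hη0.le hη1 A hA
  rw [← hG, ← hH] at hlow
  have hx := hA.x_nonneg
  have hy := hA.y_nonneg
  have hs_pos := hA.s_pos
  have ht_pos := hA.t_pos
  obtain ⟨hz1, hz2⟩ := abs_z n A hA
  have hUU := UU_nonneg n A hA
  have hVV := VV_nonneg n A hA
  obtain ⟨q1, q2⟩ := hf1 n A hA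
  obtain ⟨r1, -⟩ := hf2 n A hA
  obtain ⟨t1, -⟩ := hf3 n A hA
  have b1 := lin_bound (2 - a) (-(a + p)) A.x A.y A.z hx hy hz1 hz2
  have b2 := lin_bound (2 - a) (-(a + q)) A.y A.x A.z hy hx (by linarith) (by linarith)
  rw [← hCs] at b1
  rw [← hCt] at b2
  have hxy : 0 ≤ A.x + A.y := by linarith
  have hS : 0 ≤ A.s * (((1 + 2 / n) * E + h * (2 - a)) * A.x
      + (2 / n * F - (1 - 1 / n) * p - h * (a + p)) * A.z + g * F * A.y) := by
    apply mul_nonneg hs_pos.le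
    have e1 : ((1 + 2 / n) * E + h * (2 - a)) * A.x
      + (2 / n * F - (1 - 1 / n) * p - h * (a + p)) * A.z + g * F * A.y
      = ((1 + 2 / n) * E * A.x + 2 * ((2 / n * F - (1 - 1 / n) * p) / 2) * A.z + g * F * A.y)
        + h * ((2 - a) * A.x + (-(a + p)) * A.z) := by ring
    rw [e1]
    exact comb _ _ μ2 Cs h (A.x + A.y) r1 b1 hh0.le hh1 hxy
  have hT : 0 ≤ A.t * (F * A.x + g * (2 / n * F - (1 - 1 / n) * q - h * (a + q)) * A.z
          + g * ((1 + 2 / n) * E + h * (2 - a)) * A.y) := by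
    apply mul_nonneg ht_pos.le
    have e1 : F * A.x + g * (2 / n * F - (1 - 1 / n) * q - h * (a + q)) * A.z
          + g * ((1 + 2 / n) * E + h * (2 - a)) * A.y
      = (F * A.x + 2 * ((g * (2 / n * F - (1 - 1 / n) * q)) / 2) * A.z
          + (g * ((1 + 2 / n) * E)) * A.y)
        + (h * g) * ((2 - a) * A.y + (-(a + q)) * A.z) := by ring
    rw [e1]
    have hh2' : h * g * Ct ≤ μ3 := by
      have e : h * g * Ct = h * (g * Ct) := by ring
      linarith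
    have b2' : -(Ct * (A.x + A.y)) ≤ (2 - a) * A.y + (-(a + q)) * A.z := by
      have e : A.y + A.x = A.x + A.y := by ring
      rw [e] at b2
      exact b2
    exact comb _ _ μ3 Ct (h * g) (A.x + A.y) t1 b2' (by positivity) hh2' hxy
  have hQ1 : μ1 * A.x ^ 2 ≤ A.x * (A1 n a E * A.x + A2 n a E F * A.z + A3 n a F * A.y) := by
    apply quart_term _ A.y _ _ hx hy hμ1
    have e : A1 n a E * A.x + 2 * (A2 n a E F / 2) * A.z + A3 n a F * A.y
        = A1 n a E * A.x + A2 n a E F * A.z + A3 n a F * A.y := by ring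
    linarith
  have hQ2 : μ1 * A.y ^ 2 ≤ A.y * (A1 n a E * A.y + A2 n a E F * A.z + A3 n a F * A.x) := by
    apply quart_term _ A.x _ _ hy hx hμ1
    have e : A3 n a F * A.x + 2 * (A2 n a E F / 2) * A.z + A1 n a E * A.y
        = A1 n a E * A.y + A2 n a E F * A.z + A3 n a F * A.x := by ring
    have e' : A.y + A.x = A.x + A.y := by ring
    rw [e']
    linarith
  have hW1 := Wu_le n G H (by linarith) A hA
  have hW2 := Wv_le n G H (by linarith) A hA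
  have hxsq : 0 ≤ A.x ^ 2 + A.y ^ 2 := by positivity
  have hW : (η / 4) * (Wu n G H A + g * Wv n G H A) ≤ η * C * (A.x ^ 2 + A.y ^ 2) := by
    have h0 := mul_le_mul_of_nonneg_left hW2 hg.le
    have h1 : Wu n G H A + g * Wv n G H A ≤ (1 + g) * (2 * (G ^ 2 + H ^ 2) * (A.x ^ 2 + A.y ^ 2)) := by
      have e : (1 + g) * (2 * (G ^ 2 + H ^ 2) * (A.x ^ 2 + A.y ^ 2))
        = 2 * (G ^ 2 + H ^ 2) * (A.x ^ 2 + A.y ^ 2)
          + g * (2 * (G ^ 2 + H ^ 2) * (A.x ^ 2 + A.y ^ 2)) := by ring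
      linarith
    have h2 := mul_le_mul_of_nonneg_left h1 (by positivity : 0 ≤ η / 4)
    have e : η / 4 * ((1 + g) * (2 * (G ^ 2 + H ^ 2) * (A.x ^ 2 + A.y ^ 2)))
        = η * C * (A.x ^ 2 + A.y ^ 2) := by
      rw [hC]; ring
    linarith
  have hmain : (η / 2) * (A.UU + g * A.VV) + c2 * (A.x ^ 2 + A.y ^ 2) + h * (A.s ^ 2 + g * A.t ^ 2)
      ≤ Atoms.Q n p q a a (cv E F h g) A := by
    have e0 : g0 * (A.x ^ 2 + A.y ^ 2) ≤ A.x ^ 2 + g * A.y ^ 2 := by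
      have e1 : g0 * A.x ^ 2 ≤ 1 * A.x ^ 2 := mul_le_mul_of_nonneg_right hg01 (sq_nonneg _)
      have e2 : g0 * A.y ^ 2 ≤ g * A.y ^ 2 := mul_le_mul_of_nonneg_right hg0g (sq_nonneg _)
      have e3 : g0 * (A.x ^ 2 + A.y ^ 2) = g0 * A.x ^ 2 + g0 * A.y ^ 2 := by ring
      linarith
    have e1 := mul_le_mul_of_nonneg_left e0 hμ1.le
    have e2 : (η * C + c2) * (A.x ^ 2 + A.y ^ 2) ≤ μ1 * g0 * (A.x ^ 2 + A.y ^ 2) :=
      mul_le_mul_of_nonneg_right hc2C hxsq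
    have e3 := mul_le_mul_of_nonneg_left hQ2 hg.le
    have e4 : μ1 * (A.x ^ 2 + g * A.y ^ 2) = μ1 * A.x ^ 2 + g * (μ1 * A.y ^ 2) := by ring
    have e5 : μ1 * g0 * (A.x ^ 2 + A.y ^ 2) = μ1 * (g0 * (A.x ^ 2 + A.y ^ 2)) := by ring
    have e6 : (η * C + c2) * (A.x ^ 2 + A.y ^ 2)
      = η * C * (A.x ^ 2 + A.y ^ 2) + c2 * (A.x ^ 2 + A.y ^ 2) := by ring
    have e7 : h * (A.s ^ 2 + g * A.t ^ 2) = h * A.s ^ 2 + g * h * A.t ^ 2 := by ring
    linarith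
  exact final_c0 η g g0 c2 h c0 _ _ _ _ _ _ _ hg00 hg01 hg0g hη0 hh0 c1 c3 c4 hUU hVV (sq_nonneg _)
    (sq_nonneg _) (sq_nonneg _) (sq_nonneg _) hmain

/-! ### The closed form data -/

/-- `a* = (n-3)/(n-2)`. -/
def aS (n : ℝ) : ℝ := (n - 3) / (n - 2)
/-- `E* = n (n-1) / (2 (n+1) (n-2))`. -/
def Es (n : ℝ) : ℝ := n * (n - 1) / (2 * (n + 1) * (n - 2))
/-- `F* = (n+2) (n-1) / (2 (n+1) (n-2))`. -/
def Fs (n : ℝ) : ℝ := (n + 2) * (n - 1) / (2 * (n + 1) * (n - 2))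
/-- `c = (n+2) / ((n+1) (n-2))`, the centre of the hyperbola. -/
def cS (n : ℝ) : ℝ := (n + 2) / ((n + 1) * (n - 2))
/-- `d = n c`, the size of the hyperbola. -/
def dS (n : ℝ) : ℝ := n * cS n
/-- `rho = (n-1) (2 n^3 - 3 n^2 - 2 n - 1) / (4 n (n+1)^2 (n-2)^2)`. -/
def rho (n : ℝ) : ℝ :=
  (n - 1) * (2 * n ^ 3 - 3 * n ^ 2 - 2 * n - 1) / (4 * n * (n + 1) ^ 2 * (n - 2) ^ 2)

lemma rho_pos {n : ℝ} (hn : 3 ≤ n) : 0 < rho n := by
  unfold rho
  have h1 : 0 < n - 1 := by linarith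
  have h2 : 0 < 2 * n ^ 3 - 3 * n ^ 2 - 2 * n - 1 := by nlinarith [mul_nonneg (sub_nonneg.2 hn) (sub_nonneg.2 hn), mul_nonneg (mul_nonneg (sub_nonneg.2 hn) (sub_nonneg.2 hn)) (sub_nonneg.2 hn)]
  have h3 : 0 < n := by linarith
  have h4 : 0 < n + 1 := by linarith
  have h5 : 0 < n - 2 := by linarith
  positivity

section star
variable {n : ℝ} (hn : 3 ≤ n)
include hn

lemma star_A1 : A1 n (aS n) (Es n) = rho n := by
  have h0 : n ≠ 0 := by linarith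
  have h1 : n + 1 ≠ 0 := by linarith
  have h2 : n - 2 ≠ 0 := by intro h; linarith
  unfold A1 aS Es rho
  field_simp
  ring

lemma star_A2 : A2 n (aS n) (Es n) (Fs n) = -2 * rho n := by
  have h0 : n ≠ 0 := by linarith
  have h1 : n + 1 ≠ 0 := by linarith
  have h2 : n - 2 ≠ 0 := by intro h; linarith
  unfold A2 aS Es Fs rho
  field_simp
  ring

lemma star_A3 : A3 n (aS n) (Fs n) = rho n := by
  have h0 : n ≠ 0 := by linarith
  have h1 : n + 1 ≠ 0 := by linarith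
  have h2 : n - 2 ≠ 0 := by intro h; linarith
  unfold A3 aS Fs rho
  field_simp
  ring

lemma star_EF : (1 + 2 / n) * Es n = Fs n := by
  have h0 : n ≠ 0 := by linarith
  have h1 : n + 1 ≠ 0 := by linarith
  have h2 : n - 2 ≠ 0 := by intro h; linarith
  unfold Es Fs
  field_simp

lemma star_nuF : 2 / n * Fs n = (1 - 1 / n) * cS n := by
  have h0 : n ≠ 0 := by linarith
  have h1 : n + 1 ≠ 0 := by linarith
  have h2 : n - 2 ≠ 0 := by intro h; linarith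
  unfold Fs cS
  field_simp

lemma star_2F : 2 * Fs n = (1 - 1 / n) * dS n := by
  have h0 : n ≠ 0 := by linarith
  have h1 : n + 1 ≠ 0 := by linarith
  have h2 : n - 2 ≠ 0 := by intro h; linarith
  unfold Fs dS cS
  field_simp

/-- The first order variation: `e1 + e2 + e3 = (n-1)/(n-2)`. -/
lemma star_w : (-(Es n * (3 - aS n)) - (1 - 1 / n) * (Es n * (aS n - 2 - 2 * Es n)))
    + (-(Fs n * (2 - aS n)) + Es n * aS n
      - (1 - 1 / n) * (Es n * (aS n - 2 * Fs n) + Fs n * (aS n - 2 - 2 * Es n)))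
    + (-(Fs n * (1 - aS n)) - (1 - 1 / n) * (Fs n * (aS n - 2 * Fs n))) = (n - 1) / (n - 2) := by
  have h0 : n ≠ 0 := by linarith
  have h1 : n + 1 ≠ 0 := by linarith
  have h2 : n - 2 ≠ 0 := by intro h; linarith
  unfold aS Es Fs
  field_simp
  ring

end star

open Filter Topology in
lemma det_small (ρ e1 e2 e3 f1 f2 f3 : ℝ) (hρ : 0 < ρ) (hw : 0 < e1 + e2 + e3) :
    ∀ᶠ t in 𝓝[>] (0 : ℝ),
      ((-2 * ρ + t * e2 + t ^ 2 * f2) / 2) ^ 2 < (ρ + t * e1 + t ^ 2 * f1) * (ρ + t * e3 + t ^ 2 * f3) := by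
  have hc : Continuous (fun t : ℝ => ρ * (e1 + e2 + e3) + t * (ρ * (f1 + f2 + f3) + e1 * e3 - e2 ^ 2 / 4)
      + t ^ 2 * (e1 * f3 + e3 * f1 - e2 * f2 / 2) + t ^ 3 * (f1 * f3 - f2 ^ 2 / 4)) := by fun_prop
  have h0 : 0 < (fun t : ℝ => ρ * (e1 + e2 + e3) + t * (ρ * (f1 + f2 + f3) + e1 * e3 - e2 ^ 2 / 4)
      + t ^ 2 * (e1 * f3 + e3 * f1 - e2 * f2 / 2) + t ^ 3 * (f1 * f3 - f2 ^ 2 / 4)) 0 := by
    simp only
    have : 0 < ρ * (e1 + e2 + e3) := mul_pos hρ hw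
    simpa using this
  have key := (hc.tendsto 0).eventually (lt_mem_nhds h0)
  filter_upwards [nhdsWithin_le_nhds key, self_mem_nhdsWithin] with t ht ht0
  have ht0' : 0 < t := ht0
  have e : (ρ + t * e1 + t ^ 2 * f1) * (ρ + t * e3 + t ^ 2 * f3)
      - ((-2 * ρ + t * e2 + t ^ 2 * f2) / 2) ^ 2
      = t * (ρ * (e1 + e2 + e3) + t * (ρ * (f1 + f2 + f3) + e1 * e3 - e2 ^ 2 / 4)
      + t ^ 2 * (e1 * f3 + e3 * f1 - e2 * f2 / 2) + t ^ 3 * (f1 * f3 - f2 ^ 2 / 4)) := by ring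
  have := mul_pos ht0' ht
  linarith

lemma A1_expand (n a E t : ℝ) : A1 n a ((1 - t) * E) =
    A1 n a E + t * (-(E * (3 - a)) - (1 - 1 / n) * (E * (a - 2 - 2 * E)))
      + t ^ 2 * (-((1 - 1 / n) * E ^ 2)) := by
  unfold A1
  ring

lemma A2_expand (n a E F t : ℝ) : A2 n a ((1 - t) * E) ((1 - t) * F) =
    A2 n a E F + t * (-(F * (2 - a)) + E * a
      - (1 - 1 / n) * (E * (a - 2 * F) + F * (a - 2 - 2 * E)))
      + t ^ 2 * (-(2 * (1 - 1 / n) * (E * F))) := by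
  unfold A2
  ring

lemma A3_expand (n a F t : ℝ) : A3 n a ((1 - t) * F) =
    A3 n a F + t * (-(F * (1 - a)) - (1 - 1 / n) * (F * (a - 2 * F)))
      + t ^ 2 * (-((1 - 1 / n) * F ^ 2)) := by
  unfold A3
  ring

lemma Fs_pos {n : ℝ} (hn : 3 ≤ n) : 0 < Fs n := by
  unfold Fs
  have h1 : 0 < n - 1 := by linarith
  have h2 : 0 < n + 2 := by linarith
  have h3 : 0 < n + 1 := by linarith
  have h5 : 0 < n - 2 := by linarith
  positivity

lemma cS_pos {n : ℝ} (hn : 3 ≤ n) : 0 < cS n := by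
  unfold cS
  have h2 : 0 < n + 2 := by linarith
  have h3 : 0 < n + 1 := by linarith
  have h5 : 0 < n - 2 := by linarith
  positivity

lemma dS_pos {n : ℝ} (hn : 3 ≤ n) : 0 < dS n := by
  unfold dS
  exact mul_pos (by linarith) (cS_pos hn)

open Filter Topology in
lemma ev_of_cont {f : ℝ → ℝ} (hf : Continuous f) (h0 : 0 < f 0) : ∀ᶠ t in 𝓝[>] (0 : ℝ), 0 < f t :=
  nhdsWithin_le_nhds ((hf.tendsto 0).eventually (lt_mem_nhds h0))

open Filter Topology in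
/-- The closed form certificate, for a given mixing ratio `g`. -/
theorem cert_closed_g {n p q g : ℝ} (hn : 3 ≤ n) (hg : 0 < g)
    (h1 : (p - cS n) ^ 2 < g * dS n ^ 2) (h2 : g * (q - cS n) ^ 2 < dS n ^ 2) :
    ∃ (cc : Fin 14 → ℝ) (c0 : ℝ), 0 < c0 ∧ Cert n p q (aS n) (aS n) cc c0 := by
  have hF := Fs_pos hn
  have hρ := rho_pos hn
  have hn0 : 0 < n := by linarith
  have hn2 : 0 < n - 2 := by linarith
  have hk : 0 < 1 - 1 / n := by
    have : 1 / n < 1 := by rw [div_lt_iff₀ hn0]; linarith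
    linarith
  have hw : 0 < (-(Es n * (3 - aS n)) - (1 - 1 / n) * (Es n * (aS n - 2 - 2 * Es n)))
    + (-(Fs n * (2 - aS n)) + Es n * aS n
      - (1 - 1 / n) * (Es n * (aS n - 2 * Fs n) + Fs n * (aS n - 2 - 2 * Es n)))
    + (-(Fs n * (1 - aS n)) - (1 - 1 / n) * (Fs n * (aS n - 2 * Fs n))) := by
    rw [star_w hn]
    exact div_pos (by linarith) hn2
  have ev1 := det_small (rho n) _ _ _ (-((1 - 1 / n) * Es n ^ 2))
    (-(2 * (1 - 1 / n) * (Es n * Fs n))) (-((1 - 1 / n) * Fs n ^ 2)) hρ hw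
  -- the continuity conditions
  have c1 : Continuous (fun t : ℝ => rho n + t * (-(Es n * (3 - aS n)) - (1 - 1 / n) * (Es n * (aS n - 2 - 2 * Es n)))
      + t ^ 2 * (-((1 - 1 / n) * Es n ^ 2))) := by fun_prop
  have ev2 := ev_of_cont c1 (by simpa using hρ)
  have c3 : Continuous (fun t : ℝ => (1 - t)) := by fun_prop
  have h30 : (0 : ℝ) < (fun t : ℝ => (1 - t)) 0 := by simp
  have ev3 := ev_of_cont c3 h30
  -- the s form
  have c5 : Continuous (fun t : ℝ => ((1 - t) * Fs n) * (g * ((1 - t) * Fs n))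
      - ((2 / n * ((1 - t) * Fs n) - (1 - 1 / n) * p) / 2) ^ 2) := by fun_prop
  have h50 : 0 < (fun t : ℝ => ((1 - t) * Fs n) * (g * ((1 - t) * Fs n))
      - ((2 / n * ((1 - t) * Fs n) - (1 - 1 / n) * p) / 2) ^ 2) 0 := by
    simp only [sub_zero, one_mul]
    have e1 : 2 / n * Fs n - (1 - 1 / n) * p = (1 - 1 / n) * (cS n - p) := by
      rw [star_nuF hn]; ring
    have e2 : Fs n = (1 - 1 / n) * dS n / 2 := by
      have := star_2F hn
      linarith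
    rw [e1, e2]
    have hk2 : 0 < (1 - 1 / n) ^ 2 := by positivity
    have e3 : (1 - 1 / n) * dS n / 2 * (g * ((1 - 1 / n) * dS n / 2)) - ((1 - 1 / n) * (cS n - p) / 2) ^ 2
      = (1 - 1 / n) ^ 2 / 4 * (g * dS n ^ 2 - (p - cS n) ^ 2) := by ring
    rw [e3]
    exact mul_pos (by positivity) (by linarith)
  have ev5 := ev_of_cont c5 h50
  have c6 : Continuous (fun t : ℝ => ((1 - t) * Fs n) * ((1 - t) * Fs n)
      - g * ((2 / n * ((1 - t) * Fs n) - (1 - 1 / n) * q) / 2) ^ 2) := by fun_prop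
  have h60 : 0 < (fun t : ℝ => ((1 - t) * Fs n) * ((1 - t) * Fs n)
      - g * ((2 / n * ((1 - t) * Fs n) - (1 - 1 / n) * q) / 2) ^ 2) 0 := by
    simp only [sub_zero, one_mul]
    have e1 : 2 / n * Fs n - (1 - 1 / n) * q = (1 - 1 / n) * (cS n - q) := by
      rw [star_nuF hn]; ring
    have e2 : Fs n = (1 - 1 / n) * dS n / 2 := by
      have := star_2F hn
      linarith
    rw [e1, e2]
    have hk2 : 0 < (1 - 1 / n) ^ 2 := by positivity
    have e3 : (1 - 1 / n) * dS n / 2 * ((1 - 1 / n) * dS n / 2) - g * ((1 - 1 / n) * (cS n - q) / 2) ^ 2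
      = (1 - 1 / n) ^ 2 / 4 * (dS n ^ 2 - g * (q - cS n) ^ 2) := by ring
    rw [e3]
    exact mul_pos (by positivity) (by linarith)
  have ev6 := ev_of_cont c6 h60
  obtain ⟨t, ht1, ht2, ht3, ht5, ht6⟩ := (ev1.and (ev2.and (ev3.and (ev5.and ev6)))).exists
  have hE : (1 + 2 / n) * ((1 - t) * Es n) = (1 - t) * Fs n := by
    rw [← star_EF hn]; ring
  have hFt : 0 < (1 - t) * Fs n := mul_pos ht3 hF
  obtain ⟨h, c0, hc0, hc⟩ := cert_of_data n p q (aS n) ((1 - t) * Es n) ((1 - t) * Fs n) g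
    (by linarith) hg
    (by rw [A1_expand, star_A1 hn]; exact ht2)
    (by
      rw [A1_expand, A2_expand, A3_expand, star_A1 hn, star_A2 hn, star_A3 hn]
      exact ht1)
    (by rw [hE]; exact hFt)
    (by rw [hE]; linarith)
    hFt
    (by
      rw [hE]
      have e : ((g * (2 / n * ((1 - t) * Fs n) - (1 - 1 / n) * q)) / 2) ^ 2
        = g * (g * ((2 / n * ((1 - t) * Fs n) - (1 - 1 / n) * q) / 2) ^ 2) := by ring
      have e' : (1 - t) * Fs n * (g * ((1 - t) * Fs n)) = g * ((1 - t) * Fs n * ((1 - t) * Fs n)) := by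
        ring
      rw [e, e']
      exact mul_lt_mul_of_pos_left (by linarith) hg)
  exact ⟨_, c0, hc0, hc⟩

/-- The closed form certificate on the hyperbolic region `|p - c| |q - c| < d ^ 2`. -/
theorem cert_closed {n p q : ℝ} (hn : 3 ≤ n) (h : |p - cS n| * |q - cS n| < dS n ^ 2) :
    ∃ (cc : Fin 14 → ℝ) (c0 : ℝ), 0 < c0 ∧ Cert n p q (aS n) (aS n) cc c0 := by
  have hd := dS_pos hn
  have hD : 0 < dS n ^ 2 := by positivity
  by_cases hq : q = cS n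
  · apply cert_closed_g (g := (p - cS n) ^ 2 / dS n ^ 2 + 1) hn (by positivity)
    · have e : ((p - cS n) ^ 2 / dS n ^ 2 + 1) * dS n ^ 2 = (p - cS n) ^ 2 + dS n ^ 2 := by
        field_simp
      rw [e]
      linarith
    · rw [hq]
      simpa using hD
  · have hY : 0 < (q - cS n) ^ 2 := by
      have : q - cS n ≠ 0 := sub_ne_zero.2 hq
      positivity
    have hXY : (p - cS n) ^ 2 * (q - cS n) ^ 2 < dS n ^ 2 * dS n ^ 2 := by
      have e : (p - cS n) ^ 2 * (q - cS n) ^ 2 = (|p - cS n| * |q - cS n|) ^ 2 := by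
        rw [mul_pow, sq_abs, sq_abs]
      rw [e]
      have h0 : 0 ≤ |p - cS n| * |q - cS n| := by positivity
      nlinarith
    have hlt : (p - cS n) ^ 2 / dS n ^ 2 < dS n ^ 2 / (q - cS n) ^ 2 := by
      rw [div_lt_div_iff₀ hD hY]
      exact hXY
    have hgpos : 0 < ((p - cS n) ^ 2 / dS n ^ 2 + dS n ^ 2 / (q - cS n) ^ 2) / 2 := by positivity
    apply cert_closed_g (g := ((p - cS n) ^ 2 / dS n ^ 2 + dS n ^ 2 / (q - cS n) ^ 2) / 2) hn hgpos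
    · have : (p - cS n) ^ 2 / dS n ^ 2 < ((p - cS n) ^ 2 / dS n ^ 2 + dS n ^ 2 / (q - cS n) ^ 2) / 2 := by
        linarith
      rwa [div_lt_iff₀ hD] at this
    · have : ((p - cS n) ^ 2 / dS n ^ 2 + dS n ^ 2 / (q - cS n) ^ 2) / 2 < dS n ^ 2 / (q - cS n) ^ 2 := by
        linarith
      rwa [lt_div_iff₀ hY] at this

/-- The numerology of the weight: `W = u^a v^b = s^lam t^mu` with `lam, mu > 0`, and
`lam + mu > n/2 - 2`, on the hyperbolic region with `p q > 1`. -/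
theorem lam_mu {n p q : ℝ} (hn : 5 ≤ n) (hp : 0 < p) (hq : 0 < q) (hpq : 1 < p * q)
    (h : |p - cS n| * |q - cS n| < dS n ^ 2) :
    0 < (aS n + q * aS n) / (p * q - 1) ∧ 0 < (aS n + p * aS n) / (p * q - 1) ∧
    aS n = (aS n + p * aS n) / (p * q - 1) * q - (aS n + q * aS n) / (p * q - 1) ∧
    aS n = (aS n + q * aS n) / (p * q - 1) * p - (aS n + p * aS n) / (p * q - 1) ∧
    n / 2 - 2 < (aS n + q * aS n) / (p * q - 1) + (aS n + p * aS n) / (p * q - 1) := by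
  have hD : 0 < p * q - 1 := by linarith
  have hn2 : 0 < n - 2 := by linarith
  have hn1 : 0 < n + 1 := by linarith
  have ha : 0 < aS n := by
    unfold aS
    exact div_pos (by linarith) hn2
  have hD' : p * q - 1 ≠ 0 := hD.ne'
  refine ⟨by positivity, by positivity, ?_, ?_, ?_⟩
  · have e : (aS n + p * aS n) / (p * q - 1) * q - (aS n + q * aS n) / (p * q - 1)
        = aS n * (p * q - 1) / (p * q - 1) := by ring
    rw [e, mul_div_cancel_right₀ _ hD']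
  · have e : (aS n + q * aS n) / (p * q - 1) * p - (aS n + p * aS n) / (p * q - 1)
        = aS n * (p * q - 1) / (p * q - 1) := by ring
    rw [e, mul_div_cancel_right₀ _ hD']
  · have hs : 2 < p + q := by nlinarith [sq_nonneg (p - q), sq_nonneg (p + q - 2)]
    have hpr : (p - cS n) * (q - cS n) < dS n ^ 2 :=
      lt_of_le_of_lt (by rw [← abs_mul]; exact le_abs_self _) h
    have hX : 2 * aS n - (n - 4) * cS n = (n ^ 2 - 2 * n + 2) / ((n + 1) * (n - 2)) := by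
      unfold aS cS
      field_simp
      ring
    have hX0 : 0 < 2 * aS n - (n - 4) * cS n := by
      rw [hX]
      apply div_pos _ (by positivity)
      nlinarith
    have hZ : 4 * aS n - (n - 4) * (dS n ^ 2 - cS n ^ 2 - 1) + 2 * (2 * aS n - (n - 4) * cS n)
        = (24 * n - 16) / ((n + 1) * (n - 2) ^ 2) := by
      unfold aS dS cS
      field_simp
      ring
    have hZ0 : 0 < 4 * aS n - (n - 4) * (dS n ^ 2 - cS n ^ 2 - 1) + 2 * (2 * aS n - (n - 4) * cS n) := by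
      rw [hZ]
      apply div_pos (by linarith) (by positivity)
    have hmain : (n - 4) * (p * q - 1) < 2 * (aS n + q * aS n + (aS n + p * aS n)) := by
      have h4 : 0 < n - 4 := by linarith
      have h5 := mul_lt_mul_of_pos_left hpr h4
      have h6 : 0 < (2 * aS n - (n - 4) * cS n) * (p + q - 2) := mul_pos hX0 (by linarith)
      nlinarith
    have e : (aS n + q * aS n) / (p * q - 1) + (aS n + p * aS n) / (p * q - 1)
        = (aS n + q * aS n + (aS n + p * aS n)) / (p * q - 1) := by ring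
    rw [e, lt_div_iff₀ hD]
    nlinarith

end Vale.Agent.Lib.P100.CertA
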