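import Vale.Agent.Lib.P100.Atoms

/-!
# P100: a reflective checker for certificates

A `Cell` holds rational data: `n a b c1 .. c14 c0`, a rectangle in the `(p, q)`-plane, and for each corner a sum of
squares (`SosData`). `Cell.check` is a boolean function. `Cell.sound`: if it returns `true`, then `Cert` holds
in the whole rectangle.

The sum of squares at a corner is
`Q - c0 E = <T, G T> + w^T P w + s (m11 x + 2 m12 z + m22 y) + t (k11 x + 2 k12 z + k22 y) + tau (x y - z^2) + tau2 x y + est s t`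
where `T = (U0, V0, XX0, XY0, YY0)`, `w = (x, z, y, s, t)`. The checker computes `G`, `P` from the data, so that the identity
holds by construction (`sos_identity`), and tests that `G`, `P` are positive definite by the pivots of
a cross-multiplied elimination (`Sym5.pivots`).
-/

noncomputable section

namespace Vale.Agent.Lib.P100

namespace Check

/-- A symmetric `5 × 5` matrix: the upper triangle. -/
structure Sym5 (K : Type) where
  a00 : K
  a01 : K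
  a02 : K
  a03 : K
  a04 : K
  a11 : K
  a12 : K
  a13 : K
  a14 : K
  a22 : K
  a23 : K
  a24 : K
  a33 : K
  a34 : K
  a44 : K

/-- The pivots of the cross-multiplied elimination. -/
def Sym5.pivots {K : Type} [CommRing K] (m : Sym5 K) : K × K × K × K × K :=
  let b11 := m.a00 * m.a11 - m.a01 * m.a01
  let b12 := m.a00 * m.a12 - m.a01 * m.a02
  let b13 := m.a00 * m.a13 - m.a01 * m.a03
  let b14 := m.a00 * m.a14 - m.a01 * m.a04
  let b22 := m.a00 * m.a22 - m.a02 * m.a02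
  let b23 := m.a00 * m.a23 - m.a02 * m.a03
  let b24 := m.a00 * m.a24 - m.a02 * m.a04
  let b33 := m.a00 * m.a33 - m.a03 * m.a03
  let b34 := m.a00 * m.a34 - m.a03 * m.a04
  let b44 := m.a00 * m.a44 - m.a04 * m.a04
  let c22 := b11 * b22 - b12 * b12
  let c23 := b11 * b23 - b12 * b13
  let c24 := b11 * b24 - b12 * b14
  let c33 := b11 * b33 - b13 * b13
  let c34 := b11 * b34 - b13 * b14
  let c44 := b11 * b44 - b14 * b14
  let d33 := c22 * c33 - c23 * c23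
  let d34 := c22 * c34 - c23 * c24
  let d44 := c22 * c44 - c24 * c24
  (m.a00, b11, c22, d33, d33 * d44 - d34 * d34)

/-- All pivots are positive. -/
def Sym5.PD {K : Type} [CommRing K] [LT K] [Zero K] (m : Sym5 K) : Prop :=
  0 < m.pivots.1 ∧ 0 < m.pivots.2.1 ∧ 0 < m.pivots.2.2.1 ∧ 0 < m.pivots.2.2.2.1 ∧ 0 < m.pivots.2.2.2.2

/-- The pairing of two symmetric matrices. -/
def Sym5.frob (m K : Sym5 ℝ) : ℝ :=
  m.a00 * K.a00 + 2 * (m.a01 * K.a01) + 2 * (m.a02 * K.a02) + 2 * (m.a03 * K.a03) + 2 * (m.a04 * K.a04)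
    + m.a11 * K.a11 + 2 * (m.a12 * K.a12) + 2 * (m.a13 * K.a13) + 2 * (m.a14 * K.a14)
    + m.a22 * K.a22 + 2 * (m.a23 * K.a23) + 2 * (m.a24 * K.a24)
    + m.a33 * K.a33 + 2 * (m.a34 * K.a34) + m.a44 * K.a44

/-- The quadratic form of a symmetric matrix. -/
def Sym5.form (K : Sym5 ℝ) (l0 l1 l2 l3 l4 : ℝ) : ℝ :=
  l0 * l0 * K.a00 + 2 * (l0 * l1 * K.a01) + 2 * (l0 * l2 * K.a02) + 2 * (l0 * l3 * K.a03) + 2 * (l0 * l4 * K.a04)
    + l1 * l1 * K.a11 + 2 * (l1 * l2 * K.a12) + 2 * (l1 * l3 * K.a13) + 2 * (l1 * l4 * K.a14)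
    + l2 * l2 * K.a22 + 2 * (l2 * l3 * K.a23) + 2 * (l2 * l4 * K.a24)
    + l3 * l3 * K.a33 + 2 * (l3 * l4 * K.a34) + l4 * l4 * K.a44

/-- A positive definite matrix has a nonnegative pairing with every matrix with a nonnegative
quadratic form. -/
theorem Sym5.frob_nonneg (m K : Sym5 ℝ) (hK : ∀ l0 l1 l2 l3 l4, 0 ≤ K.form l0 l1 l2 l3 l4) (h : m.PD) :
    0 ≤ m.frob K := by
  obtain ⟨h0, h1, h2, h3, h4⟩ := h
  simp only [Sym5.pivots] at h0 h1 h2 h3 h4
  set b11 := m.a00 * m.a11 - m.a01 * m.a01 with hb11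
  set b12 := m.a00 * m.a12 - m.a01 * m.a02 with hb12
  set b13 := m.a00 * m.a13 - m.a01 * m.a03 with hb13
  set b14 := m.a00 * m.a14 - m.a01 * m.a04 with hb14
  set b22 := m.a00 * m.a22 - m.a02 * m.a02 with hb22
  set b23 := m.a00 * m.a23 - m.a02 * m.a03 with hb23
  set b24 := m.a00 * m.a24 - m.a02 * m.a04 with hb24
  set b33 := m.a00 * m.a33 - m.a03 * m.a03 with hb33
  set b34 := m.a00 * m.a34 - m.a03 * m.a04 with hb34
  set b44 := m.a00 * m.a44 - m.a04 * m.a04 with hb44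
  set c22 := b11 * b22 - b12 * b12 with hc22
  set c23 := b11 * b23 - b12 * b13 with hc23
  set c24 := b11 * b24 - b12 * b14 with hc24
  set c33 := b11 * b33 - b13 * b13 with hc33
  set c34 := b11 * b34 - b13 * b14 with hc34
  set c44 := b11 * b44 - b14 * b14 with hc44
  set d33 := c22 * c33 - c23 * c23 with hd33
  set d34 := c22 * c34 - c23 * c24 with hd34
  set d44 := c22 * c44 - c24 * c24 with hd44
  -- last pivot
  have hK44 : 0 ≤ K.a44 := by
    have := hK 0 0 0 0 1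
    simpa [Sym5.form] using this
  have F4 : 0 ≤ (d33 * d44 - d34 * d34) * K.a44 := mul_nonneg h4.le hK44
  -- the block of size two
  have F3 : 0 ≤ d33 * K.a33 + 2 * (d34 * K.a34) + d44 * K.a44 := by
    have h := hK 0 0 0 d33 d34
    have e : d33 * (d33 * K.a33 + 2 * (d34 * K.a34) + d44 * K.a44)
        = K.form 0 0 0 d33 d34 + (d33 * d44 - d34 * d34) * K.a44 := by
      simp only [Sym5.form]; ring
    have : 0 ≤ d33 * (d33 * K.a33 + 2 * (d34 * K.a34) + d44 * K.a44) := by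
      rw [e]; exact add_nonneg h F4
    exact nonneg_of_mul_nonneg_right this h3
  have F2 : 0 ≤ c22 * K.a22 + 2 * (c23 * K.a23) + 2 * (c24 * K.a24) + c33 * K.a33 + 2 * (c34 * K.a34)
      + c44 * K.a44 := by
    have h := hK 0 0 c22 c23 c24
    have e : c22 * (c22 * K.a22 + 2 * (c23 * K.a23) + 2 * (c24 * K.a24) + c33 * K.a33 + 2 * (c34 * K.a34)
        + c44 * K.a44) = K.form 0 0 c22 c23 c24 + (d33 * K.a33 + 2 * (d34 * K.a34) + d44 * K.a44) := by
      simp only [Sym5.form, hd33, hd34, hd44]; ring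
    have : 0 ≤ c22 * (c22 * K.a22 + 2 * (c23 * K.a23) + 2 * (c24 * K.a24) + c33 * K.a33
        + 2 * (c34 * K.a34) + c44 * K.a44) := by
      rw [e]; exact add_nonneg h F3
    exact nonneg_of_mul_nonneg_right this h2
  have F1 : 0 ≤ b11 * K.a11 + 2 * (b12 * K.a12) + 2 * (b13 * K.a13) + 2 * (b14 * K.a14) + b22 * K.a22
      + 2 * (b23 * K.a23) + 2 * (b24 * K.a24) + b33 * K.a33 + 2 * (b34 * K.a34) + b44 * K.a44 := by
    have h := hK 0 b11 b12 b13 b14
    have e : b11 * (b11 * K.a11 + 2 * (b12 * K.a12) + 2 * (b13 * K.a13) + 2 * (b14 * K.a14) + b22 * K.a22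
        + 2 * (b23 * K.a23) + 2 * (b24 * K.a24) + b33 * K.a33 + 2 * (b34 * K.a34) + b44 * K.a44)
        = K.form 0 b11 b12 b13 b14 + (c22 * K.a22 + 2 * (c23 * K.a23) + 2 * (c24 * K.a24) + c33 * K.a33
          + 2 * (c34 * K.a34) + c44 * K.a44) := by
      simp only [Sym5.form, hc22, hc23, hc24, hc33, hc34, hc44]; ring
    have : 0 ≤ b11 * (b11 * K.a11 + 2 * (b12 * K.a12) + 2 * (b13 * K.a13) + 2 * (b14 * K.a14)
        + b22 * K.a22 + 2 * (b23 * K.a23) + 2 * (b24 * K.a24) + b33 * K.a33 + 2 * (b34 * K.a34)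
        + b44 * K.a44) := by
      rw [e]; exact add_nonneg h F2
    exact nonneg_of_mul_nonneg_right this h1
  have h := hK m.a00 m.a01 m.a02 m.a03 m.a04
  have e : m.a00 * m.frob K = K.form m.a00 m.a01 m.a02 m.a03 m.a04
      + (b11 * K.a11 + 2 * (b12 * K.a12) + 2 * (b13 * K.a13) + 2 * (b14 * K.a14) + b22 * K.a22
        + 2 * (b23 * K.a23) + 2 * (b24 * K.a24) + b33 * K.a33 + 2 * (b34 * K.a34) + b44 * K.a44) := by
    simp only [Sym5.form, Sym5.frob, hb11, hb12, hb13, hb14, hb22, hb23, hb24, hb33, hb34, hb44]; ring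
  have : 0 ≤ m.a00 * m.frob K := by
    rw [e]; exact add_nonneg h F1
  exact nonneg_of_mul_nonneg_right this h0

/-- The constants of a cell. -/
structure Base (K : Type) where
  n : K
  a : K
  b : K
  c1 : K
  c2 : K
  c3 : K
  c4 : K
  c5 : K
  c6 : K
  c7 : K
  c8 : K
  c9 : K
  c10 : K
  c11 : K
  c12 : K
  c13 : K
  c14 : K
  c0 : K

/-- The multipliers of the sum of squares at one corner. -/
structure SosData (K : Type) where
  g11 : K
  g12 : K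
  g13 : K
  g22 : K
  g23 : K
  g33 : K
  m11 : K
  m12 : K
  m22 : K
  k11 : K
  k12 : K
  k22 : K
  tau : K
  tau2 : K
  est : K

/-- The matrix on the tensors `U0, V0, XX0, XY0, YY0`. -/
def Gmat {K : Type} [Field K] (B : Base K) (S : SosData K) : Sym5 K where
  a00 := B.c1 - B.c0
  a01 := (B.c2 + B.c3) / 2
  a02 := (B.c1 * (B.a - 2) + 2 * B.c5) / 2
  a03 := (B.c1 * B.b + B.c2 * (B.a - 1) + 2 * B.c6 + B.c7) / 2
  a04 := (B.c2 * (B.b - 1) + B.c8) / 2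
  a11 := B.c4 - B.c0
  a12 := (B.c3 * (B.a - 1) + B.c7) / 2
  a13 := (B.c3 * (B.b - 1) + B.c4 * B.a + B.c8 + 2 * B.c9) / 2
  a14 := (B.c4 * (B.b - 2) + 2 * B.c10) / 2
  a22 := S.g11
  a23 := S.g12
  a24 := S.g13
  a33 := S.g22
  a34 := S.g23
  a44 := S.g33

/-- The matrix on `x, z, y, s, t`. -/
def Pmat {K : Type} [Field K] (B : Base K) (S : SosData K) (p q : K) : Sym5 K where
  a00 := B.c5 * (B.a - 3) - (1 - 1 / B.n) * S.g11 - B.c0
  a01 := (B.c5 * B.b + B.c6 * (B.a - 2) + B.c7 * (B.a - 2) - 2 * (1 - 1 / B.n) * S.g12) / 2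
  a02 := (B.c6 * (B.b - 1) + B.c9 * (B.a - 1) + 2 / B.n * S.g13 - S.g22 / 2 - S.tau - S.tau2) / 2
  a03 := (-(1 + 2 / B.n) * B.c5 + (B.a - 2) * B.c11 - S.m11) / 2
  a04 := (-(1 - 1 / B.n) * q * B.c3 - B.c6 - 1 / B.n * B.c7 + (B.a + q - 1) * B.c13 - S.k11) / 2
  a11 := B.c7 * (B.b - 1) + B.c8 * (B.a - 1) - 2 * S.g13 - S.g22 * (1 / 2 - 1 / B.n) + S.tau
  a12 := (B.c8 * (B.b - 2) + B.c9 * (B.b - 2) + B.c10 * B.a - 2 * (1 - 1 / B.n) * S.g23) / 2
  a13 := (-(1 - 1 / B.n) * p * B.c1 - 2 / B.n * B.c6 - (1 + 1 / B.n) * B.c7 + (B.b + p) * B.c11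
    + (B.a - 1) * B.c12 - 2 * S.m12) / 2
  a14 := (-(1 - 1 / B.n) * q * B.c4 - (1 + 1 / B.n) * B.c8 - 2 / B.n * B.c9 + (B.b - 1) * B.c13
    + (B.a + q) * B.c14 - 2 * S.k12) / 2
  a22 := B.c10 * (B.b - 3) - (1 - 1 / B.n) * S.g33 - B.c0
  a23 := (-(1 - 1 / B.n) * p * B.c2 - 1 / B.n * B.c8 - B.c9 + (B.b + p - 1) * B.c12 - S.m22) / 2
  a24 := (-(1 + 2 / B.n) * B.c10 + (B.b - 2) * B.c14 - S.k22) / 2
  a33 := -B.c11 - B.c0
  a34 := (-(B.c12 + B.c13) - S.est) / 2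
  a44 := -B.c14 - B.c0

/-- The coefficients as a function on `Fin 14`. -/
def Base.cf {K : Type} (B : Base K) : Fin 14 → K :=
  ![B.c1, B.c2, B.c3, B.c4, B.c5, B.c6, B.c7, B.c8, B.c9, B.c10, B.c11, B.c12, B.c13, B.c14]

/-- The Gram matrix of the tensors, in the atoms. -/
def gramS (n : ℝ) (A : Atoms) : Sym5 ℝ where
  a00 := A.UU
  a01 := A.UV
  a02 := A.UXX
  a03 := A.UXY
  a04 := A.UYY
  a11 := A.VV
  a12 := A.VXX
  a13 := A.VXY
  a14 := A.VYY
  a22 := (1 - 1 / n) * A.x ^ 2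
  a23 := (1 - 1 / n) * (A.x * A.z)
  a24 := A.z ^ 2 - A.x * A.y / n
  a33 := (A.x * A.y + A.z ^ 2) / 2 - A.z ^ 2 / n
  a34 := (1 - 1 / n) * (A.y * A.z)
  a44 := (1 - 1 / n) * A.y ^ 2

/-- The square of the vector `x, z, y, s, t`. -/
def sqS (A : Atoms) : Sym5 ℝ where
  a00 := A.x * A.x
  a01 := A.x * A.z
  a02 := A.x * A.y
  a03 := A.x * A.s
  a04 := A.x * A.t
  a11 := A.z * A.z
  a12 := A.z * A.y
  a13 := A.z * A.s
  a14 := A.z * A.t
  a22 := A.y * A.y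
  a23 := A.y * A.s
  a24 := A.y * A.t
  a33 := A.s * A.s
  a34 := A.s * A.t
  a44 := A.t * A.t

/-- **The sum of squares identity.** -/
theorem sos_identity (B : Base ℝ) (S : SosData ℝ) (p q : ℝ) (A : Atoms) :
    Atoms.Q B.n p q B.a B.b B.cf A - B.c0 * A.EE
      = (Gmat B S).frob (gramS B.n A) + (Pmat B S p q).frob (sqS A)
        + A.s * (S.m11 * A.x + 2 * S.m12 * A.z + S.m22 * A.y)
        + A.t * (S.k11 * A.x + 2 * S.k12 * A.z + S.k22 * A.y)
        + S.tau * (A.x * A.y - A.z ^ 2) + S.tau2 * (A.x * A.y) + S.est * (A.s * A.t) := by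
  simp only [Atoms.Q, Atoms.D, Atoms.EE, Base.cf, Fin.sum_univ_succ, Sym5.frob, Gmat, Pmat, gramS, sqS]
  simp
  ring

/-- A positive semidefinite form on the pair of vectors `X, Y`. -/
def MultOK (a b c : ℝ) : Prop := 0 ≤ a ∧ 0 ≤ c ∧ b * b ≤ a * c

theorem mult_nonneg {n : ℝ} {A : Atoms} (hA : Atoms.Realizable n A) {a b c : ℝ} (h : MultOK a b c) :
    0 ≤ a * A.x + 2 * b * A.z + c * A.y := by
  obtain ⟨h1, h2, h3⟩ := h
  rcases h1.eq_or_lt with h0 | h0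
  · have hb : b = 0 := by
      have : b * b ≤ 0 := by rw [← h0] at h3; simpa using h3
      nlinarith
    rw [← h0, hb]
    have := mul_nonneg h2 hA.y_nonneg
    linarith
  · have hf := hA.form_nonneg a b
    have hy := hA.y_nonneg
    have e : a * (a * A.x + 2 * b * A.z + c * A.y)
        = (a ^ 2 * A.x + 2 * a * b * A.z + b ^ 2 * A.y) + (a * c - b * b) * A.y := by ring
    have : 0 ≤ a * (a * A.x + 2 * b * A.z + c * A.y) := by
      rw [e]
      exact add_nonneg hf (mul_nonneg (by linarith) hy)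
    exact nonneg_of_mul_nonneg_right this h0

theorem gram_form_nonneg {n : ℝ} {A : Atoms} (hA : Atoms.Realizable n A) (l0 l1 l2 l3 l4 : ℝ) :
    0 ≤ (gramS n A).form l0 l1 l2 l3 l4 := by
  have h := hA.gram_nonneg ![l0, l1, l2, l3, l4]
  have e : ∑ i, ∑ j, (![l0, l1, l2, l3, l4] : Fin 5 → ℝ) i * (![l0, l1, l2, l3, l4] : Fin 5 → ℝ) j
      * Atoms.gram n A i j = (gramS n A).form l0 l1 l2 l3 l4 := by
    simp only [Atoms.gram, Fin.sum_univ_succ, Sym5.form, gramS]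
    simp
    ring
  rwa [e] at h

theorem sq_form_nonneg (A : Atoms) (l0 l1 l2 l3 l4 : ℝ) : 0 ≤ (sqS A).form l0 l1 l2 l3 l4 := by
  have e : (sqS A).form l0 l1 l2 l3 l4 = (l0 * A.x + l1 * A.z + l2 * A.y + l3 * A.s + l4 * A.t) ^ 2 := by
    simp only [Sym5.form, sqS]
    ring
  rw [e]
  positivity

/-- **A corner, over the reals.** -/
theorem corner_real (B : Base ℝ) (S : SosData ℝ) (p q : ℝ) (hG : (Gmat B S).PD) (hP : (Pmat B S p q).PD)
    (hm : MultOK S.m11 S.m12 S.m22) (hk : MultOK S.k11 S.k12 S.k22) (h1 : 0 ≤ S.tau) (h2 : 0 ≤ S.tau2)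
    (h3 : 0 ≤ S.est) (A : Atoms) (hA : Atoms.Realizable B.n A) :
    B.c0 * A.EE ≤ Atoms.Q B.n p q B.a B.b B.cf A := by
  have e := sos_identity B S p q A
  have t1 := Sym5.frob_nonneg (Gmat B S) (gramS B.n A) (gram_form_nonneg hA) hG
  have t2 := Sym5.frob_nonneg (Pmat B S p q) (sqS A) (sq_form_nonneg A) hP
  have t3 := mul_nonneg hA.s_pos.le (mult_nonneg hA hm)
  have t4 := mul_nonneg hA.t_pos.le (mult_nonneg hA hk)
  have t5 : 0 ≤ S.tau * (A.x * A.y - A.z ^ 2) := mul_nonneg h1 (by linarith [hA.cs])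
  have t6 : 0 ≤ S.tau2 * (A.x * A.y) := mul_nonneg h2 (mul_nonneg hA.x_nonneg hA.y_nonneg)
  have t7 : 0 ≤ S.est * (A.s * A.t) := mul_nonneg h3 (mul_nonneg hA.s_pos.le hA.t_pos.le)
  linarith

/-- **Interpolation in a rectangle.** -/
theorem rect_real (n a b : ℝ) (c : Fin 14 → ℝ) (c0 : ℝ) {p0 p1 q0 q1 p q : ℝ} (hp : p0 < p1) (hq : q0 < q1)
    (hp0 : p0 ≤ p) (hp1 : p ≤ p1) (hq0 : q0 ≤ q) (hq1 : q ≤ q1) (A : Atoms)
    (h00 : c0 * A.EE ≤ Atoms.Q n p0 q0 a b c A) (h10 : c0 * A.EE ≤ Atoms.Q n p1 q0 a b c A)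
    (h01 : c0 * A.EE ≤ Atoms.Q n p0 q1 a b c A) (h11 : c0 * A.EE ≤ Atoms.Q n p1 q1 a b c A) :
    c0 * A.EE ≤ Atoms.Q n p q a b c A := by
  have e : (p1 - p0) * (q1 - q0) * (Atoms.Q n p q a b c A - c0 * A.EE)
      = (p1 - p) * (q1 - q) * (Atoms.Q n p0 q0 a b c A - c0 * A.EE)
        + (p - p0) * (q1 - q) * (Atoms.Q n p1 q0 a b c A - c0 * A.EE)
        + (p1 - p) * (q - q0) * (Atoms.Q n p0 q1 a b c A - c0 * A.EE)
        + (p - p0) * (q - q0) * (Atoms.Q n p1 q1 a b c A - c0 * A.EE) := by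
    simp only [Atoms.Q, Atoms.D, Fin.sum_univ_succ]
    simp
    ring
  have hpos : 0 < (p1 - p0) * (q1 - q0) := mul_pos (by linarith) (by linarith)
  have : 0 ≤ (p1 - p0) * (q1 - q0) * (Atoms.Q n p q a b c A - c0 * A.EE) := by
    rw [e]
    have u1 : 0 ≤ p1 - p := by linarith
    have u2 : 0 ≤ p - p0 := by linarith
    have u3 : 0 ≤ q1 - q := by linarith
    have u4 : 0 ≤ q - q0 := by linarith
    have v1 := mul_nonneg (mul_nonneg u1 u3) (sub_nonneg.2 h00)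
    have v2 := mul_nonneg (mul_nonneg u2 u3) (sub_nonneg.2 h10)
    have v3 := mul_nonneg (mul_nonneg u1 u4) (sub_nonneg.2 h01)
    have v4 := mul_nonneg (mul_nonneg u2 u4) (sub_nonneg.2 h11)
    linarith
  have := nonneg_of_mul_nonneg_right this hpos
  linarith

/-! ### The rational checker -/

/-- The real data of rational data. -/
def Base.toR (B : Base ℚ) : Base ℝ :=
  ⟨B.n, B.a, B.b, B.c1, B.c2, B.c3, B.c4, B.c5, B.c6, B.c7, B.c8, B.c9, B.c10, B.c11, B.c12, B.c13, B.c14, B.c0⟩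

/-- The real data of rational data. -/
def SosData.toR (S : SosData ℚ) : SosData ℝ :=
  ⟨S.g11, S.g12, S.g13, S.g22, S.g23, S.g33, S.m11, S.m12, S.m22, S.k11, S.k12, S.k22, S.tau, S.tau2, S.est⟩

/-- The real matrix of a rational matrix. -/
def Sym5.toR (m : Sym5 ℚ) : Sym5 ℝ :=
  ⟨m.a00, m.a01, m.a02, m.a03, m.a04, m.a11, m.a12, m.a13, m.a14, m.a22, m.a23, m.a24, m.a33, m.a34, m.a44⟩

theorem Sym5.PD.toR {m : Sym5 ℚ} (h : m.PD) : m.toR.PD := by
  obtain ⟨h0, h1, h2, h3, h4⟩ := h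
  simp only [Sym5.pivots] at h0 h1 h2 h3 h4
  refine ⟨?_, ?_, ?_, ?_, ?_⟩ <;> simp only [Sym5.pivots, Sym5.toR]
  · exact_mod_cast h0
  · exact_mod_cast h1
  · exact_mod_cast h2
  · exact_mod_cast h3
  · exact_mod_cast h4

theorem Gmat_toR (B : Base ℚ) (S : SosData ℚ) : Gmat B.toR S.toR = (Gmat B S).toR := by
  simp only [Gmat, Base.toR, SosData.toR, Sym5.toR]
  push_cast
  rfl

theorem Pmat_toR (B : Base ℚ) (S : SosData ℚ) (p q : ℚ) :
    Pmat B.toR S.toR (p : ℝ) (q : ℝ) = (Pmat B S p q).toR := by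
  simp only [Pmat, Base.toR, SosData.toR, Sym5.toR]
  push_cast
  rfl

/-- Test: positive definite. -/
def chkPD (m : Sym5 ℚ) : Bool :=
  let v := m.pivots
  decide (0 < v.1) && decide (0 < v.2.1) && decide (0 < v.2.2.1) && decide (0 < v.2.2.2.1)
    && decide (0 < v.2.2.2.2)

theorem chkPD_sound {m : Sym5 ℚ} (h : chkPD m = true) : m.PD := by
  simp only [chkPD, Bool.and_eq_true, decide_eq_true_eq] at h
  obtain ⟨⟨⟨⟨h0, h1⟩, h2⟩, h3⟩, h4⟩ := h
  exact ⟨h0, h1, h2, h3, h4⟩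

/-- Test: a form on `X, Y`. -/
def chkMult (a b c : ℚ) : Bool := decide (0 ≤ a) && decide (0 ≤ c) && decide (b * b ≤ a * c)

theorem chkMult_sound {a b c : ℚ} (h : chkMult a b c = true) : MultOK a b c := by
  simp only [chkMult, Bool.and_eq_true, decide_eq_true_eq] at h
  obtain ⟨⟨h0, h1⟩, h2⟩ := h
  refine ⟨by exact_mod_cast h0, by exact_mod_cast h1, by exact_mod_cast h2⟩

/-- Test: a corner. -/
def chkCorner (B : Base ℚ) (S : SosData ℚ) (p q : ℚ) : Bool :=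
  chkMult S.m11 S.m12 S.m22 && chkMult S.k11 S.k12 S.k22 && decide (0 ≤ S.tau) && decide (0 ≤ S.tau2)
    && decide (0 ≤ S.est) && chkPD (Gmat B S) && chkPD (Pmat B S p q)

theorem chkCorner_sound {B : Base ℚ} {S : SosData ℚ} {p q : ℚ} (h : chkCorner B S p q = true)
    (A : Atoms) (hA : Atoms.Realizable (B.toR.n) A) :
    B.toR.c0 * A.EE ≤ Atoms.Q B.toR.n (p : ℝ) (q : ℝ) B.toR.a B.toR.b B.toR.cf A := by
  simp only [chkCorner, Bool.and_eq_true, decide_eq_true_eq] at h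
  obtain ⟨⟨⟨⟨⟨⟨h1, h2⟩, h3⟩, h4⟩, h5⟩, h6⟩, h7⟩ := h
  refine corner_real B.toR S.toR p q ?_ ?_ (chkMult_sound h1) (chkMult_sound h2) ?_ ?_ ?_ A hA
  · rw [Gmat_toR]; exact (chkPD_sound h6).toR
  · rw [Pmat_toR]; exact (chkPD_sound h7).toR
  · simp only [SosData.toR]; exact_mod_cast h3
  · simp only [SosData.toR]; exact_mod_cast h4
  · simp only [SosData.toR]; exact_mod_cast h5

/-- A cell: the constants, a rectangle, and the multipliers at the four corners. -/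
structure Cell where
  B : Base ℚ
  p0 : ℚ
  p1 : ℚ
  q0 : ℚ
  q1 : ℚ
  S00 : SosData ℚ
  S10 : SosData ℚ
  S01 : SosData ℚ
  S11 : SosData ℚ

/-- Test: the Liouville condition at a point. -/
def chkD (B : Base ℚ) (p q : ℚ) : Bool :=
  decide ((B.n - 4) * (p * q - 1) < 2 * (B.a * (p + 1) + B.b * (q + 1)))

/-- **The checker.** -/
def Cell.check (C : Cell) : Bool :=
  decide (C.p0 < C.p1) && decide (C.q0 < C.q1) && decide (0 < C.B.c0) && decide (0 ≤ C.B.a)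
    && decide (0 ≤ C.B.b) && chkD C.B C.p0 C.q0 && chkD C.B C.p1 C.q0 && chkD C.B C.p0 C.q1
    && chkD C.B C.p1 C.q1 && chkCorner C.B C.S00 C.p0 C.q0 && chkCorner C.B C.S10 C.p1 C.q0
    && chkCorner C.B C.S01 C.p0 C.q1 && chkCorner C.B C.S11 C.p1 C.q1

/-- What a correct cell gives at a point `(p, q)` of its rectangle. -/
structure CellOK (n a b : ℝ) (c : Fin 14 → ℝ) (c0 p q : ℝ) : Prop where
  cert : Cert n p q a b c c0
  c0_pos : 0 < c0
  a_nonneg : 0 ≤ a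
  b_nonneg : 0 ≤ b
  /-- The Liouville condition `D > n / 2 - 2` multiplied by `2 (p q - 1)`. -/
  liouville : (n - 4) * (p * q - 1) < 2 * (a * (p + 1) + b * (q + 1))

theorem bilinear_pos (n a b : ℝ) {p0 p1 q0 q1 p q : ℝ} (hp : p0 < p1) (hq : q0 < q1)
    (hp0 : p0 ≤ p) (hp1 : p ≤ p1) (hq0 : q0 ≤ q) (hq1 : q ≤ q1)
    (h00 : (n - 4) * (p0 * q0 - 1) < 2 * (a * (p0 + 1) + b * (q0 + 1)))
    (h10 : (n - 4) * (p1 * q0 - 1) < 2 * (a * (p1 + 1) + b * (q0 + 1)))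
    (h01 : (n - 4) * (p0 * q1 - 1) < 2 * (a * (p0 + 1) + b * (q1 + 1)))
    (h11 : (n - 4) * (p1 * q1 - 1) < 2 * (a * (p1 + 1) + b * (q1 + 1))) :
    (n - 4) * (p * q - 1) < 2 * (a * (p + 1) + b * (q + 1)) := by
  set f : ℝ → ℝ → ℝ := fun p q => 2 * (a * (p + 1) + b * (q + 1)) - (n - 4) * (p * q - 1) with hf
  have e : (p1 - p0) * (q1 - q0) * f p q = (p1 - p) * (q1 - q) * f p0 q0 + (p - p0) * (q1 - q) * f p1 q0
      + (p1 - p) * (q - q0) * f p0 q1 + (p - p0) * (q - q0) * f p1 q1 := by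
    simp only [hf]
    ring
  have h1 : 0 < f p0 q0 := by simp only [hf]; linarith
  have h2 : 0 < f p1 q0 := by simp only [hf]; linarith
  have h3 : 0 < f p0 q1 := by simp only [hf]; linarith
  have h4 : 0 < f p1 q1 := by simp only [hf]; linarith
  have hpos : 0 < (p1 - p0) * (q1 - q0) := mul_pos (by linarith) (by linarith)
  have u1 : 0 ≤ p1 - p := by linarith
  have u2 : 0 ≤ p - p0 := by linarith
  have u3 : 0 ≤ q1 - q := by linarith
  have u4 : 0 ≤ q - q0 := by linarith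
  have hsum : 0 < (p1 - p) * (q1 - q) + (p - p0) * (q1 - q) + (p1 - p) * (q - q0) + (p - p0) * (q - q0) := by
    have : (p1 - p) * (q1 - q) + (p - p0) * (q1 - q) + (p1 - p) * (q - q0) + (p - p0) * (q - q0)
        = (p1 - p0) * (q1 - q0) := by ring
    rw [this]; exact hpos
  have v1 := mul_nonneg (mul_nonneg u1 u3) h1.le
  have v2 := mul_nonneg (mul_nonneg u2 u3) h2.le
  have v3 := mul_nonneg (mul_nonneg u1 u4) h3.le
  have v4 := mul_nonneg (mul_nonneg u2 u4) h4.le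
  have key : 0 < (p1 - p0) * (q1 - q0) * f p q := by
    rw [e]
    -- some weight is positive
    by_contra hcon
    have hzero : (p1 - p) * (q1 - q) * f p0 q0 + (p - p0) * (q1 - q) * f p1 q0
        + (p1 - p) * (q - q0) * f p0 q1 + (p - p0) * (q - q0) * f p1 q1 ≤ 0 := not_lt.1 hcon
    have w1 : (p1 - p) * (q1 - q) * f p0 q0 = 0 := by linarith
    have w2 : (p - p0) * (q1 - q) * f p1 q0 = 0 := by linarith
    have w3 : (p1 - p) * (q - q0) * f p0 q1 = 0 := by linarith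
    have w4 : (p - p0) * (q - q0) * f p1 q1 = 0 := by linarith
    have z1 : (p1 - p) * (q1 - q) = 0 := (mul_eq_zero.1 w1).resolve_right h1.ne'
    have z2 : (p - p0) * (q1 - q) = 0 := (mul_eq_zero.1 w2).resolve_right h2.ne'
    have z3 : (p1 - p) * (q - q0) = 0 := (mul_eq_zero.1 w3).resolve_right h3.ne'
    have z4 : (p - p0) * (q - q0) = 0 := (mul_eq_zero.1 w4).resolve_right h4.ne'
    linarith
  have h := (pos_iff_pos_of_mul_pos key).1 hpos
  simp only [hf] at h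
  linarith

/-- **Soundness of the checker.** -/
theorem Cell.sound (C : Cell) (h : C.check = true) {p q : ℝ} (hp0 : (C.p0 : ℝ) ≤ p) (hp1 : p ≤ (C.p1 : ℝ))
    (hq0 : (C.q0 : ℝ) ≤ q) (hq1 : q ≤ (C.q1 : ℝ)) :
    CellOK C.B.toR.n C.B.toR.a C.B.toR.b C.B.toR.cf C.B.toR.c0 p q := by
  simp only [Cell.check, chkD, Bool.and_eq_true, decide_eq_true_eq] at h
  obtain ⟨⟨⟨⟨⟨⟨⟨⟨⟨⟨⟨⟨h1, h2⟩, h3⟩, h4⟩, h5⟩, h6⟩, h7⟩, h8⟩, h9⟩, h10⟩, h11⟩, h12⟩, h13⟩ := h
  have hp : (C.p0 : ℝ) < C.p1 := by exact_mod_cast h1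
  have hq : (C.q0 : ℝ) < C.q1 := by exact_mod_cast h2
  refine ⟨fun A hA => ?_, ?_, ?_, ?_, ?_⟩
  · exact rect_real _ _ _ _ _ hp hq hp0 hp1 hq0 hq1 A (chkCorner_sound h10 A hA) (chkCorner_sound h11 A hA)
      (chkCorner_sound h12 A hA) (chkCorner_sound h13 A hA)
  · simp only [Base.toR]; exact_mod_cast h3
  · simp only [Base.toR]; exact_mod_cast h4
  · simp only [Base.toR]; exact_mod_cast h5
  · refine bilinear_pos _ _ _ hp hq hp0 hp1 hq0 hq1 ?_ ?_ ?_ ?_ <;> simp only [Base.toR]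
    · exact_mod_cast h6
    · exact_mod_cast h7
    · exact_mod_cast h8
    · exact_mod_cast h9

end Check

end Vale.Agent.Lib.P100
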