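import Vale.Agent.Lib.P100.Atoms

/-!
# P100: a closed-form certificate in every dimension.

For real `n > 2`, with `a = (n-3)/(n-2)`, `E0 = n(n-1)/(2(n+1)(n-2))`, `F0 = (n-1)(n+2)/(2(n+1)(n-2))`
and `c = (n+1)(n-2)/(n+2)`, the eight-field certificate
`Z = W [U0 X + g^2 V0 Y - x(E X + F Y) - g^2 y(F X + E Y) - h s X - g^2 h t Y]`
works whenever `|c p - 1| < n g` and `|c q - 1| < n / g`.
-/

noncomputable section

namespace Vale.Agent.Lib.P100
namespace ClosedForm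

open Filter Topology

/-- The coefficient vector of the eight-field certificate. -/
def coef (E F γ h : ℝ) : Fin 14 → ℝ :=
  ![1, 0, 0, γ, -E, -F, 0, 0, -(γ * F), -(γ * E), -h, 0, 0, -(γ * h)]

lemma Q_coef (n p q a E F γ h : ℝ) (A : Atoms) :
    Atoms.Q n p q a a (coef E F γ h) A =
      (A.UU + (a - 2) * A.UXX + a * A.UXY - (1 - 1 / n) * p * (A.s * A.z))
      + γ * (A.VV + (a - 2) * A.VYY + a * A.VXY - (1 - 1 / n) * q * (A.t * A.z))
      - E * (2 * A.UXX + (a - 3) * A.x ^ 2 + a * (A.x * A.z) - (1 + 2 / n) * (A.s * A.x))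
      - F * (2 * A.UXY + (a - 2) * (A.x * A.z) + (a - 1) * (A.x * A.y) - (2 / n) * (A.s * A.z)
          - A.t * A.x)
      - (γ * F) * (2 * A.VXY + (a - 2) * (A.y * A.z) + (a - 1) * (A.x * A.y)
          - (2 / n) * (A.t * A.z) - A.s * A.y)
      - (γ * E) * (2 * A.VYY + (a - 3) * A.y ^ 2 + a * (A.y * A.z) - (1 + 2 / n) * (A.t * A.y))
      - h * ((a - 2) * (A.s * A.x) + (a + p) * (A.s * A.z) - A.s ^ 2)
      - (γ * h) * ((a - 2) * (A.t * A.y) + (a + q) * (A.t * A.z) - A.t ^ 2) := by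
  simp only [Atoms.Q, Atoms.D, coef, Fin.sum_univ_succ, Fin.sum_univ_zero]
  simp
  ring

/-- The value of the Gram form on a vector `![l0, l1, l2, l3, l4]`. -/
lemma gram_sum (n : ℝ) (A : Atoms) (l0 l1 l2 l3 l4 : ℝ) :
    (∑ i, ∑ j, (![l0, l1, l2, l3, l4] : Fin 5 → ℝ) i * (![l0, l1, l2, l3, l4] : Fin 5 → ℝ) j
        * Atoms.gram n A i j)
      = l0 ^ 2 * A.UU + l1 ^ 2 * A.VV + 2 * l0 * l1 * A.UV
        + 2 * l0 * (l2 * A.UXX + l3 * A.UXY + l4 * A.UYY)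
        + 2 * l1 * (l2 * A.VXX + l3 * A.VXY + l4 * A.VYY)
        + l2 ^ 2 * ((1 - 1 / n) * A.x ^ 2)
        + l3 ^ 2 * ((A.x * A.y + A.z ^ 2) / 2 - A.z ^ 2 / n)
        + l4 ^ 2 * ((1 - 1 / n) * A.y ^ 2)
        + 2 * l2 * l3 * ((1 - 1 / n) * (A.x * A.z))
        + 2 * l3 * l4 * ((1 - 1 / n) * (A.y * A.z))
        + 2 * l2 * l4 * (A.z ^ 2 - A.x * A.y / n) := by
  simp only [Fin.sum_univ_succ, Fin.sum_univ_zero, Atoms.gram]
  simp
  ring

lemma form_psd {a' b' c' x z y : ℝ} (ha : 0 < a') (h : b' ^ 2 ≤ 4 * a' * c')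
    (hform : ∀ a b : ℝ, 0 ≤ a ^ 2 * x + 2 * a * b * z + b ^ 2 * y) (hy : 0 ≤ y) :
    0 ≤ a' * x + b' * z + c' * y := by
  have h1 := hform (2 * a') b'
  have h2 : 0 ≤ (4 * a' * c' - b' ^ 2) * y := mul_nonneg (by linarith) hy
  have h3 : 0 ≤ 4 * a' * (a' * x + b' * z + c' * y) := by nlinarith
  have h4 : 0 < 4 * a' := by linarith
  exact nonneg_of_mul_nonneg_right h3 h4

lemma quad_psd {a' b' c' x z : ℝ} (ha : 0 < a') (h : b' ^ 2 ≤ 4 * a' * c') :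
    0 ≤ a' * x ^ 2 + b' * (x * z) + c' * z ^ 2 := by
  have h2 : 0 ≤ (4 * a' * c' - b' ^ 2) * z ^ 2 := mul_nonneg (by linarith) (sq_nonneg z)
  have h3 : 0 ≤ 4 * a' * (a' * x ^ 2 + b' * (x * z) + c' * z ^ 2) := by
    nlinarith [sq_nonneg (2 * a' * x + b' * z)]
  have h4 : 0 < 4 * a' := by linarith
  exact nonneg_of_mul_nonneg_right h3 h4

/-- The algebraic identity behind the certificate. -/
lemma key_identity (n p q a E F γ h c0 r UU VV UV UXX UXY VYY VXY x y z s t : ℝ)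
    (hr : (1 - c0) * r = 1) :
    ((UU + (a - 2) * UXX + a * UXY - (1 - 1 / n) * p * (s * z))
      + γ * (VV + (a - 2) * VYY + a * VXY - (1 - 1 / n) * q * (t * z))
      - E * (2 * UXX + (a - 3) * x ^ 2 + a * (x * z) - (1 + 2 / n) * (s * x))
      - F * (2 * UXY + (a - 2) * (x * z) + (a - 1) * (x * y) - (2 / n) * (s * z) - t * x)
      - (γ * F) * (2 * VXY + (a - 2) * (y * z) + (a - 1) * (x * y) - (2 / n) * (t * z) - s * y)
      - (γ * E) * (2 * VYY + (a - 3) * y ^ 2 + a * (y * z) - (1 + 2 / n) * (t * y))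
      - h * ((a - 2) * (s * x) + (a + p) * (s * z) - s ^ 2)
      - (γ * h) * ((a - 2) * (t * y) + (a + q) * (t * z) - t ^ 2))
      - c0 * (UU + γ * VV + x ^ 2 + γ * y ^ 2 + s ^ 2 + γ * t ^ 2)
    = (1 - c0) * (UU + 2 * (r * (a - 2 - 2 * E) / 2 * UXX + r * (a - 2 * F) / 2 * UXY)
          + (r * (a - 2 - 2 * E) / 2) ^ 2 * ((1 - 1 / n) * x ^ 2)
          + (r * (a - 2 * F) / 2) ^ 2 * ((x * y + z ^ 2) / 2 - z ^ 2 / n)
          + 2 * (r * (a - 2 - 2 * E) / 2) * (r * (a - 2 * F) / 2) * ((1 - 1 / n) * (x * z)))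
        + γ * (1 - c0) * (VV + 2 * (r * (a - 2 * F) / 2 * VXY + r * (a - 2 - 2 * E) / 2 * VYY)
          + (r * (a - 2 - 2 * E) / 2) ^ 2 * ((1 - 1 / n) * y ^ 2)
          + (r * (a - 2 * F) / 2) ^ 2 * ((x * y + z ^ 2) / 2 - z ^ 2 / n)
          + 2 * (r * (a - 2 * F) / 2) * (r * (a - 2 - 2 * E) / 2) * ((1 - 1 / n) * (y * z)))
        + ((E * (3 - a) - c0 - r / 4 * (a - 2 - 2 * E) ^ 2 * (1 - 1 / n)) * x ^ 2
            + (F * (2 - a) - E * a - r / 2 * (a - 2 - 2 * E) * (a - 2 * F) * (1 - 1 / n)) * (x * z)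
            + (F * (1 - a) - r / 4 * (a - 2 * F) ^ 2 * (1 - 1 / n)) * z ^ 2)
        + γ * ((E * (3 - a) - c0 - r / 4 * (a - 2 - 2 * E) ^ 2 * (1 - 1 / n)) * y ^ 2
            + (F * (2 - a) - E * a - r / 2 * (a - 2 - 2 * E) * (a - 2 * F) * (1 - 1 / n)) * (y * z)
            + (F * (1 - a) - r / 4 * (a - 2 * F) ^ 2 * (1 - 1 / n)) * z ^ 2)
        + (1 + γ) * ((F * (1 - a) - r / 8 * (a - 2 * F) ^ 2) * (x * y - z ^ 2))
        + s * ((E * (1 + 2 / n) + h * (2 - a)) * x + (2 * F / n - (1 - 1 / n) * p - h * (a + p)) * z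
            + (γ * F) * y)
        + t * (F * x + (γ * (2 * F / n - (1 - 1 / n) * q - h * (a + q))) * z
            + (γ * (E * (1 + 2 / n) + h * (2 - a))) * y)
        + (h - c0) * (s ^ 2 + γ * t ^ 2) := by
  linear_combination (-((a - 2 - 2 * E) * UXX + (a - 2 * F) * UXY
      + r / 4 * ((a - 2 - 2 * E) ^ 2 * (1 - 1 / n) * x ^ 2 + (a - 2 * F) ^ 2 * ((x * y + z ^ 2) / 2 - z ^ 2 / n)
          + 2 * (a - 2 - 2 * E) * (a - 2 * F) * (1 - 1 / n) * (x * z))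
      + γ * ((a - 2 - 2 * E) * VYY + (a - 2 * F) * VXY)
      + γ * (r / 4) * ((a - 2 - 2 * E) ^ 2 * (1 - 1 / n) * y ^ 2 + (a - 2 * F) ^ 2 * ((x * y + z ^ 2) / 2 - z ^ 2 / n)
          + 2 * (a - 2 - 2 * E) * (a - 2 * F) * (1 - 1 / n) * (y * z)))) * hr

lemma gram_u (n r G H : ℝ) (A : Atoms) (hA : Atoms.Realizable n A) :
    0 ≤ A.UU + 2 * (r * G / 2 * A.UXX + r * H / 2 * A.UXY)
      + (r * G / 2) ^ 2 * ((1 - 1 / n) * A.x ^ 2)
      + (r * H / 2) ^ 2 * ((A.x * A.y + A.z ^ 2) / 2 - A.z ^ 2 / n)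
      + 2 * (r * G / 2) * (r * H / 2) * ((1 - 1 / n) * (A.x * A.z)) := by
  have hgu := hA.gram_nonneg ![1, 0, r * G / 2, r * H / 2, 0]
  rw [gram_sum] at hgu
  linarith

lemma gram_v (n r G H : ℝ) (A : Atoms) (hA : Atoms.Realizable n A) :
    0 ≤ A.VV + 2 * (r * H / 2 * A.VXY + r * G / 2 * A.VYY)
      + (r * G / 2) ^ 2 * ((1 - 1 / n) * A.y ^ 2)
      + (r * H / 2) ^ 2 * ((A.x * A.y + A.z ^ 2) / 2 - A.z ^ 2 / n)
      + 2 * (r * H / 2) * (r * G / 2) * ((1 - 1 / n) * (A.y * A.z)) := by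
  have hgv := hA.gram_nonneg ![0, 1, 0, r * H / 2, r * G / 2]
  rw [gram_sum] at hgv
  linarith

lemma UU_nonneg (n : ℝ) (A : Atoms) (hA : Atoms.Realizable n A) : 0 ≤ A.UU := by
  have h := hA.gram_nonneg ![1, 0, 0, 0, 0]
  rw [gram_sum] at h
  linarith

lemma VV_nonneg (n : ℝ) (A : Atoms) (hA : Atoms.Realizable n A) : 0 ≤ A.VV := by
  have h := hA.gram_nonneg ![0, 1, 0, 0, 0]
  rw [gram_sum] at h
  linarith

lemma EE_le (γ : ℝ) (hγ : 0 < γ) (UU VV x y s t : ℝ) (hU : 0 ≤ UU) (hV : 0 ≤ VV) :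
    min 1 γ * (UU + VV + x ^ 2 + y ^ 2 + s ^ 2 + t ^ 2)
      ≤ UU + γ * VV + x ^ 2 + γ * y ^ 2 + s ^ 2 + γ * t ^ 2 := by
  have hm1 : min 1 γ ≤ 1 := min_le_left _ _
  have hm2 : min 1 γ ≤ γ := min_le_right _ _
  have a1 : min 1 γ * UU ≤ 1 * UU := mul_le_mul_of_nonneg_right hm1 hU
  have a2 : min 1 γ * VV ≤ γ * VV := mul_le_mul_of_nonneg_right hm2 hV
  have a3 : min 1 γ * x ^ 2 ≤ 1 * x ^ 2 := mul_le_mul_of_nonneg_right hm1 (sq_nonneg _)
  have a4 : min 1 γ * y ^ 2 ≤ γ * y ^ 2 := mul_le_mul_of_nonneg_right hm2 (sq_nonneg _)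
  have a5 : min 1 γ * s ^ 2 ≤ 1 * s ^ 2 := mul_le_mul_of_nonneg_right hm1 (sq_nonneg _)
  have a6 : min 1 γ * t ^ 2 ≤ γ * t ^ 2 := mul_le_mul_of_nonneg_right hm2 (sq_nonneg _)
  have e : min 1 γ * (UU + VV + x ^ 2 + y ^ 2 + s ^ 2 + t ^ 2)
      = min 1 γ * UU + min 1 γ * VV + min 1 γ * x ^ 2 + min 1 γ * y ^ 2 + min 1 γ * s ^ 2
        + min 1 γ * t ^ 2 := by ring
  rw [e]
  linarith

/-- Main inequality of the parametric certificate. -/
theorem cert_main (n p q a E F γ h c0 r : ℝ)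
    (hc1 : c0 < 1) (hr : (1 - c0) * r = 1) (hγ : 0 < γ) (hh : c0 ≤ h)
    (hAq : 0 < E * (3 - a) - c0 - r / 4 * (a - 2 - 2 * E) ^ 2 * (1 - 1 / n))
    (hdisc : (F * (2 - a) - E * a - r / 2 * (a - 2 - 2 * E) * (a - 2 * F) * (1 - 1 / n)) ^ 2
      ≤ 4 * (E * (3 - a) - c0 - r / 4 * (a - 2 - 2 * E) ^ 2 * (1 - 1 / n))
        * (F * (1 - a) - r / 4 * (a - 2 * F) ^ 2 * (1 - 1 / n)))
    (hν : 0 ≤ F * (1 - a) - r / 8 * (a - 2 * F) ^ 2)
    (hA1 : 0 < E * (1 + 2 / n) + h * (2 - a))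
    (hL1 : (2 * F / n - (1 - 1 / n) * p - h * (a + p)) ^ 2
      ≤ 4 * (E * (1 + 2 / n) + h * (2 - a)) * (γ * F))
    (hF : 0 < F)
    (hL2 : (γ * (2 * F / n - (1 - 1 / n) * q - h * (a + q))) ^ 2
      ≤ 4 * F * (γ * (E * (1 + 2 / n) + h * (2 - a))))
    (A : Atoms) (hA : Atoms.Realizable n A) :
    c0 * (A.UU + γ * A.VV + A.x ^ 2 + γ * A.y ^ 2 + A.s ^ 2 + γ * A.t ^ 2)
      ≤ Atoms.Q n p q a a (coef E F γ h) A := by
  have hy := hA.y_nonneg
  have hcs := hA.cs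
  have hs := hA.s_pos
  have ht := hA.t_pos
  have hform := hA.form_nonneg
  have q1 := quad_psd (x := A.x) (z := A.z) hAq hdisc
  have q2 := quad_psd (x := A.y) (z := A.z) hAq hdisc
  have l1 := form_psd hA1 hL1 hform hy
  have l2 := form_psd hF hL2 hform hy
  have hw := mul_nonneg hν (show 0 ≤ A.x * A.y - A.z ^ 2 by linarith)
  have hc1' : 0 < 1 - c0 := by linarith
  have t1 := mul_nonneg hc1'.le (gram_u n r (a - 2 - 2 * E) (a - 2 * F) A hA)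
  have t2 := mul_nonneg (mul_nonneg hγ.le hc1'.le) (gram_v n r (a - 2 - 2 * E) (a - 2 * F) A hA)
  have key := key_identity n p q a E F γ h c0 r A.UU A.VV A.UV A.UXX A.UXY A.VYY A.VXY
    A.x A.y A.z A.s A.t hr
  rw [← Q_coef n p q a E F γ h A] at key
  have hs0 := mul_nonneg hs.le l1
  have ht0 := mul_nonneg ht.le l2
  have hq2 := mul_nonneg hγ.le q2
  have hw2 := mul_nonneg (show 0 ≤ 1 + γ by linarith) hw
  have hh2 : 0 ≤ (h - c0) * (A.s ^ 2 + γ * A.t ^ 2) :=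
    mul_nonneg (by linarith) (by positivity)
  have : 0 ≤ Atoms.Q n p q a a (coef E F γ h) A
      - c0 * (A.UU + γ * A.VV + A.x ^ 2 + γ * A.y ^ 2 + A.s ^ 2 + γ * A.t ^ 2) := by
    rw [key]
    exact add_nonneg (add_nonneg (add_nonneg (add_nonneg (add_nonneg (add_nonneg
      (add_nonneg t1 t2) q1) hq2) hw2) hs0) ht0) hh2
  exact sub_nonneg.mp this

/-- Soundness of the parametric certificate. -/
theorem cert_of_params (n p q a E F γ h c0 r : ℝ)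
    (hc0 : 0 < c0) (hc1 : c0 < 1) (hr : (1 - c0) * r = 1) (hγ : 0 < γ) (hh : c0 ≤ h)
    (hAq : 0 < E * (3 - a) - c0 - r / 4 * (a - 2 - 2 * E) ^ 2 * (1 - 1 / n))
    (hdisc : (F * (2 - a) - E * a - r / 2 * (a - 2 - 2 * E) * (a - 2 * F) * (1 - 1 / n)) ^ 2
      ≤ 4 * (E * (3 - a) - c0 - r / 4 * (a - 2 - 2 * E) ^ 2 * (1 - 1 / n))
        * (F * (1 - a) - r / 4 * (a - 2 * F) ^ 2 * (1 - 1 / n)))
    (hν : 0 ≤ F * (1 - a) - r / 8 * (a - 2 * F) ^ 2)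
    (hA1 : 0 < E * (1 + 2 / n) + h * (2 - a))
    (hL1 : (2 * F / n - (1 - 1 / n) * p - h * (a + p)) ^ 2
      ≤ 4 * (E * (1 + 2 / n) + h * (2 - a)) * (γ * F))
    (hF : 0 < F)
    (hL2 : (γ * (2 * F / n - (1 - 1 / n) * q - h * (a + q))) ^ 2
      ≤ 4 * F * (γ * (E * (1 + 2 / n) + h * (2 - a)))) :
    Cert n p q a a (coef E F γ h) (c0 * min 1 γ) := by
  intro A hA
  have main := cert_main n p q a E F γ h c0 r hc1 hr hγ hh hAq hdisc hν hA1 hL1 hF hL2 A hA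
  refine le_trans ?_ main
  unfold Atoms.EE
  rw [mul_assoc]
  exact mul_le_mul_of_nonneg_left
    (EE_le γ hγ _ _ _ _ _ _ (UU_nonneg n A hA) (VV_nonneg n A hA)) hc0.le

/-! ### The closed-form parameters -/

/-- `a = (n-3)/(n-2)`. -/
def aS (n : ℝ) : ℝ := (n - 3) / (n - 2)
/-- `E0`. -/
def E0 (n : ℝ) : ℝ := n * (n - 1) / (2 * (n + 1) * (n - 2))
/-- `F0`. -/
def F0 (n : ℝ) : ℝ := (n - 1) * (n + 2) / (2 * (n + 1) * (n - 2))
/-- The transversal coefficient. -/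
def A0 (n : ℝ) : ℝ := (n - 1) * (2 * n ^ 3 - 3 * n ^ 2 - 2 * n - 1) / (4 * n * (n - 2) ^ 2 * (n + 1) ^ 2)
/-- The slope `c = (n+1)(n-2)/(n+2)` of the explicit curve. -/
def cS (n : ℝ) : ℝ := (n + 1) * (n - 2) / (n + 2)

section identities
variable {n : ℝ} (hn : 2 < n)
include hn

lemma id1 : E0 n * (3 - aS n) - 1 / 4 * (aS n - 2 - 2 * E0 n) ^ 2 * (1 - 1 / n) = A0 n := by
  have h0 : n ≠ 0 := by linarith
  have h1 : n + 1 ≠ 0 := by linarith
  have h2 : n - 2 ≠ 0 := by linarith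
  unfold E0 aS A0
  field_simp
  ring

lemma id2 : F0 n * (2 - aS n) - E0 n * aS n
      - 1 / 2 * (aS n - 2 - 2 * E0 n) * (aS n - 2 * F0 n) * (1 - 1 / n) = -2 * A0 n := by
  have h0 : n ≠ 0 := by linarith
  have h1 : n + 1 ≠ 0 := by linarith
  have h2 : n - 2 ≠ 0 := by linarith
  unfold E0 F0 aS A0
  field_simp
  ring

lemma id3 : F0 n * (1 - aS n) - 1 / 4 * (aS n - 2 * F0 n) ^ 2 * (1 - 1 / n) = A0 n := by
  have h0 : n ≠ 0 := by linarith
  have h1 : n + 1 ≠ 0 := by linarith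
  have h2 : n - 2 ≠ 0 := by linarith
  unfold F0 aS A0
  field_simp
  ring

lemma id_sum : ((aS n - 2 - 2 * E0 n) + (aS n - 2 * F0 n)) ^ 2 / 4
      + ((aS n - 2 - 2 * E0 n) + (aS n - 2 * F0 n)) * (E0 n + F0 n) = - (n / (n - 2)) := by
  have h1 : n + 1 ≠ 0 := by linarith
  have h2 : n - 2 ≠ 0 := by linarith
  unfold E0 F0 aS
  field_simp
  ring

lemma id_theta : E0 n * (1 + 2 / n) = F0 n := by
  have h0 : n ≠ 0 := by linarith
  have h1 : n + 1 ≠ 0 := by linarith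
  have h2 : n - 2 ≠ 0 := by linarith
  unfold E0 F0
  field_simp

lemma id_kappa : (1 - 1 / n) = 2 * F0 n / n * cS n := by
  have h0 : n ≠ 0 := by linarith
  have h1 : n + 1 ≠ 0 := by linarith
  have h2 : n - 2 ≠ 0 := by linarith
  have h3 : n + 2 ≠ 0 := by linarith
  unfold F0 cS
  field_simp

lemma E0_pos : 0 < E0 n := by
  unfold E0
  apply div_pos <;> [apply mul_pos; apply mul_pos] <;> first | linarith | (apply mul_pos <;> linarith)

lemma F0_pos : 0 < F0 n := by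
  unfold F0
  apply div_pos <;> [apply mul_pos; apply mul_pos] <;> first | linarith | (apply mul_pos <;> linarith)

omit hn in
lemma A0_pos (hn : 3 ≤ n) : 0 < A0 n := by
  unfold A0
  have t : 0 ≤ n - 3 := by linarith
  have h : 0 < 2 * n ^ 3 - 3 * n ^ 2 - 2 * n - 1 := by
    have e : 2 * n ^ 3 - 3 * n ^ 2 - 2 * n - 1
        = 2 * (n - 3) ^ 3 + 15 * (n - 3) ^ 2 + 34 * (n - 3) + 20 := by ring
    rw [e]
    positivity
  have h0 : 0 < n := by linarith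
  have h1 : 0 < n + 1 := by linarith
  have h2 : 0 < n - 2 := by linarith
  have h3 : 0 < n - 1 := by linarith
  positivity

omit hn in
lemma nu0_pos (hn : 3 ≤ n) : 0 < F0 n * (1 - aS n) - 1 / 8 * (aS n - 2 * F0 n) ^ 2 := by
  have h0 : n ≠ 0 := by linarith
  have h1 : n + 1 ≠ 0 := by linarith
  have h2 : n - 2 ≠ 0 := by linarith
  have e : F0 n * (1 - aS n) - 1 / 8 * (aS n - 2 * F0 n) ^ 2
      = (4 * (n - 1) * (n + 2) * (n + 1) - (3 * n + 1) ^ 2) / (8 * (n + 1) ^ 2 * (n - 2) ^ 2) := by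
    unfold F0 aS
    field_simp
    ring
  rw [e]
  have p1 : 0 < n - 2 := by linarith
  have p2 : 0 < n + 1 := by linarith
  have t : 0 ≤ n - 3 := by linarith
  have h : 0 < 4 * (n - 1) * (n + 2) * (n + 1) - (3 * n + 1) ^ 2 := by
    have e : 4 * (n - 1) * (n + 2) * (n + 1) - (3 * n + 1) ^ 2
        = 4 * (n - 3) ^ 3 + 35 * (n - 3) ^ 2 + 92 * (n - 3) + 60 := by ring
    rw [e]
    positivity
  positivity

end identities

lemma ev_pos {f : ℝ → ℝ} (hf : ContinuousAt f 0) (h0 : 0 < f 0) :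
    ∀ᶠ δ in 𝓝[>] (0 : ℝ), 0 < f δ :=
  (hf.eventually (lt_mem_nhds h0)).filter_mono nhdsWithin_le_nhds

/-- The discriminant factors through `σ`. -/
lemma disc_factor (a k E F A σ : ℝ)
    (h1 : E * (3 - a) - 1 / 4 * (a - 2 - 2 * E) ^ 2 * k = A)
    (h2 : F * (2 - a) - E * a - 1 / 2 * (a - 2 - 2 * E) * (a - 2 * F) * k = -2 * A)
    (h3 : F * (1 - a) - 1 / 4 * (a - 2 * F) ^ 2 * k = A) :
    4 * (((1 - σ) * E) * (3 - a) - 1 / 4 * (a - 2 - 2 * ((1 - σ) * E)) ^ 2 * k)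
        * (((1 - σ) * F) * (1 - a) - 1 / 4 * (a - 2 * ((1 - σ) * F)) ^ 2 * k)
      - (((1 - σ) * F) * (2 - a) - ((1 - σ) * E) * a
          - 1 / 2 * (a - 2 - 2 * ((1 - σ) * E)) * (a - 2 * ((1 - σ) * F)) * k) ^ 2
    = σ * (4 * (1 - σ) * A * k *
          (-((a - 2 - 2 * E) ^ 2 / 4 + (a - 2 - 2 * E) * E + σ * E ^ 2)
            - ((a - 2 - 2 * E) * (a - 2 * F) / 2 + E * (a - 2 * F) + F * (a - 2 - 2 * E)
                + 2 * σ * E * F)
            - ((a - 2 * F) ^ 2 / 4 + (a - 2 * F) * F + σ * F ^ 2))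
        + σ * k ^ 2 *
          (4 * ((a - 2 - 2 * E) ^ 2 / 4 + (a - 2 - 2 * E) * E + σ * E ^ 2)
              * ((a - 2 * F) ^ 2 / 4 + (a - 2 * F) * F + σ * F ^ 2)
            - ((a - 2 - 2 * E) * (a - 2 * F) / 2 + E * (a - 2 * F) + F * (a - 2 - 2 * E)
                + 2 * σ * E * F) ^ 2)) := by
  have e1 : ((1 - σ) * E) * (3 - a) - 1 / 4 * (a - 2 - 2 * ((1 - σ) * E)) ^ 2 * k
      = (1 - σ) * A - σ * k * ((a - 2 - 2 * E) ^ 2 / 4 + (a - 2 - 2 * E) * E + σ * E ^ 2) := by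
    linear_combination (1 - σ) * h1
  have e2 : ((1 - σ) * F) * (2 - a) - ((1 - σ) * E) * a
        - 1 / 2 * (a - 2 - 2 * ((1 - σ) * E)) * (a - 2 * ((1 - σ) * F)) * k
      = -2 * ((1 - σ) * A) - σ * k * ((a - 2 - 2 * E) * (a - 2 * F) / 2 + E * (a - 2 * F)
          + F * (a - 2 - 2 * E) + 2 * σ * E * F) := by
    linear_combination (1 - σ) * h2
  have e3 : ((1 - σ) * F) * (1 - a) - 1 / 4 * (a - 2 * ((1 - σ) * F)) ^ 2 * k
      = (1 - σ) * A - σ * k * ((a - 2 * F) ^ 2 / 4 + (a - 2 * F) * F + σ * F ^ 2) := by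
    linear_combination (1 - σ) * h3
  rw [e1, e2, e3]
  ring

/-- First stage: the scale `σ`. -/
theorem exists_sigma (n p q g : ℝ) (hn3 : 3 ≤ n) (hg : 0 < g)
    (hP : |cS n * p - 1| < n * g) (hQ : |cS n * q - 1| * g < n) :
    ∃ σ : ℝ, 0 < σ ∧ σ < 1 ∧
      0 < ((1 - σ) * E0 n) * (3 - aS n) - 1 / 4 * (aS n - 2 - 2 * ((1 - σ) * E0 n)) ^ 2 * (1 - 1 / n)
      ∧ 0 < 4 * (((1 - σ) * E0 n) * (3 - aS n)
            - 1 / 4 * (aS n - 2 - 2 * ((1 - σ) * E0 n)) ^ 2 * (1 - 1 / n))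
          * (((1 - σ) * F0 n) * (1 - aS n) - 1 / 4 * (aS n - 2 * ((1 - σ) * F0 n)) ^ 2 * (1 - 1 / n))
        - (((1 - σ) * F0 n) * (2 - aS n) - ((1 - σ) * E0 n) * aS n
            - 1 / 2 * (aS n - 2 - 2 * ((1 - σ) * E0 n)) * (aS n - 2 * ((1 - σ) * F0 n))
              * (1 - 1 / n)) ^ 2
      ∧ 0 < ((1 - σ) * F0 n) * (1 - aS n) - 1 / 8 * (aS n - 2 * ((1 - σ) * F0 n)) ^ 2
      ∧ 0 < 4 * ((1 - σ) * F0 n) * (g ^ 2 * ((1 - σ) * F0 n))
          - (2 * ((1 - σ) * F0 n) / n - (1 - 1 / n) * p) ^ 2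
      ∧ 0 < 4 * ((1 - σ) * F0 n) * (g ^ 2 * ((1 - σ) * F0 n))
          - (g ^ 2 * (2 * ((1 - σ) * F0 n) / n - (1 - 1 / n) * q)) ^ 2 := by
  have hn : 2 < n := by linarith
  have hn0 : 0 < n := by linarith
  have hF := F0_pos hn
  have hA := A0_pos hn3
  have hk : 0 < 1 - 1 / n := by
    have : 1 / n < 1 := by rw [div_lt_one hn0]; linarith
    linarith
  -- the seven eventual facts
  have f1 : ∀ᶠ σ in 𝓝[>] (0 : ℝ), σ < 1 := by
    have := ev_pos (f := fun σ => 1 - σ) (by fun_prop) (by norm_num)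
    exact this.mono fun σ h => by linarith
  have f0 : ∀ᶠ σ in 𝓝[>] (0 : ℝ), 0 < σ := eventually_mem_nhdsWithin
  have f2 := ev_pos (f := fun σ => ((1 - σ) * E0 n) * (3 - aS n)
      - 1 / 4 * (aS n - 2 - 2 * ((1 - σ) * E0 n)) ^ 2 * (1 - 1 / n)) (by fun_prop)
      (by simp only [sub_zero, one_mul]; rw [id1 hn]; exact hA)
  -- the factor of the discriminant
  have f3 := ev_pos (f := fun σ => 4 * (1 - σ) * A0 n * (1 - 1 / n) *
          (-((aS n - 2 - 2 * E0 n) ^ 2 / 4 + (aS n - 2 - 2 * E0 n) * E0 n + σ * E0 n ^ 2)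
            - ((aS n - 2 - 2 * E0 n) * (aS n - 2 * F0 n) / 2 + E0 n * (aS n - 2 * F0 n)
                + F0 n * (aS n - 2 - 2 * E0 n) + 2 * σ * E0 n * F0 n)
            - ((aS n - 2 * F0 n) ^ 2 / 4 + (aS n - 2 * F0 n) * F0 n + σ * F0 n ^ 2))
        + σ * (1 - 1 / n) ^ 2 *
          (4 * ((aS n - 2 - 2 * E0 n) ^ 2 / 4 + (aS n - 2 - 2 * E0 n) * E0 n + σ * E0 n ^ 2)
              * ((aS n - 2 * F0 n) ^ 2 / 4 + (aS n - 2 * F0 n) * F0 n + σ * F0 n ^ 2)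
            - ((aS n - 2 - 2 * E0 n) * (aS n - 2 * F0 n) / 2 + E0 n * (aS n - 2 * F0 n)
                + F0 n * (aS n - 2 - 2 * E0 n) + 2 * σ * E0 n * F0 n) ^ 2)) (by fun_prop)
      (by
        have hs := id_sum hn
        have h2 : 0 < n - 2 := by linarith
        refine lt_of_lt_of_eq (?_ : 0 < 4 * A0 n * (1 - 1 / n) * (n / (n - 2))) ?_
        · have : 0 < n / (n - 2) := div_pos hn0 h2
          positivity
        · linear_combination (4 * A0 n * (1 - 1 / n)) * hs)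
  have f4 := ev_pos (f := fun σ => ((1 - σ) * F0 n) * (1 - aS n)
      - 1 / 8 * (aS n - 2 * ((1 - σ) * F0 n)) ^ 2) (by fun_prop)
      (by simp only [sub_zero, one_mul]; exact nu0_pos hn3)
  have f5 := ev_pos (f := fun σ => 4 * ((1 - σ) * F0 n) * (g ^ 2 * ((1 - σ) * F0 n))
      - (2 * ((1 - σ) * F0 n) / n - (1 - 1 / n) * p) ^ 2) (by fun_prop)
      (by
        simp only [sub_zero, one_mul]
        rw [id_kappa hn]
        have hsq : (cS n * p - 1) ^ 2 < (n * g) ^ 2 := by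
          rw [← sq_abs (cS n * p - 1)]
          exact pow_lt_pow_left₀ hP (abs_nonneg _) two_ne_zero
        have e : 4 * F0 n * (g ^ 2 * F0 n) - (2 * F0 n / n - 2 * F0 n / n * cS n * p) ^ 2
            = (2 * F0 n / n) ^ 2 * ((n * g) ^ 2 - (cS n * p - 1) ^ 2) := by
          field_simp
          ring
        rw [e]
        have : 0 < 2 * F0 n / n := by positivity
        have h3 : 0 < (n * g) ^ 2 - (cS n * p - 1) ^ 2 := by linarith
        positivity)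
  have f6 := ev_pos (f := fun σ => 4 * ((1 - σ) * F0 n) * (g ^ 2 * ((1 - σ) * F0 n))
      - (g ^ 2 * (2 * ((1 - σ) * F0 n) / n - (1 - 1 / n) * q)) ^ 2) (by fun_prop)
      (by
        simp only [sub_zero, one_mul]
        rw [id_kappa hn]
        have hsq : ((cS n * q - 1) * g) ^ 2 < n ^ 2 := by
          rw [← sq_abs ((cS n * q - 1) * g), abs_mul, abs_of_pos hg]
          exact pow_lt_pow_left₀ hQ (by positivity) two_ne_zero
        have e : 4 * F0 n * (g ^ 2 * F0 n) - (g ^ 2 * (2 * F0 n / n - 2 * F0 n / n * cS n * q)) ^ 2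
            = g ^ 2 * (2 * F0 n / n) ^ 2 * (n ^ 2 - ((cS n * q - 1) * g) ^ 2) := by
          field_simp
          ring
        rw [e]
        have : 0 < 2 * F0 n / n := by positivity
        have h3 : 0 < n ^ 2 - ((cS n * q - 1) * g) ^ 2 := by linarith
        positivity)
  obtain ⟨σ, h0, h1, h2, h3, h4, h5, h6⟩ :=
    (f0.and (f1.and (f2.and (f3.and (f4.and (f5.and f6)))))).exists
  refine ⟨σ, h0, h1, h2, ?_, h4, h5, h6⟩
  rw [disc_factor (aS n) (1 - 1 / n) (E0 n) (F0 n) (A0 n) σ (id1 hn) (id2 hn) (id3 hn)]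
  exact mul_pos h0 h3

/-- Second stage: the small parameter `δ`, playing the roles of `c0` and `h`. -/
theorem exists_delta (n p q a E F γ : ℝ) (hγ : 0 < γ) (hF : 0 < F) (hθ : E * (1 + 2 / n) = F)
    (h2 : 0 < E * (3 - a) - 1 / 4 * (a - 2 - 2 * E) ^ 2 * (1 - 1 / n))
    (h3 : 0 < 4 * (E * (3 - a) - 1 / 4 * (a - 2 - 2 * E) ^ 2 * (1 - 1 / n)) * (F * (1 - a) - 1 / 4 * (a - 2 * F) ^ 2 * (1 - 1 / n))
      - (F * (2 - a) - E * a - 1 / 2 * (a - 2 - 2 * E) * (a - 2 * F) * (1 - 1 / n)) ^ 2)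
    (h4 : 0 < F * (1 - a) - 1 / 8 * (a - 2 * F) ^ 2)
    (h5 : 0 < 4 * F * (γ * F) - (2 * F / n - (1 - 1 / n) * p) ^ 2)
    (h6 : 0 < 4 * F * (γ * F) - (γ * (2 * F / n - (1 - 1 / n) * q)) ^ 2) :
    ∃ (c : Fin 14 → ℝ) (c0 : ℝ), 0 < c0 ∧ Cert n p q a a c c0 := by
  have hr : ContinuousAt (fun δ : ℝ => (1 - δ)⁻¹) 0 :=
    ContinuousAt.inv₀ (by fun_prop) (by norm_num)
  have f0 : ∀ᶠ δ in 𝓝[>] (0 : ℝ), 0 < δ := eventually_mem_nhdsWithin
  have f1 : ∀ᶠ δ in 𝓝[>] (0 : ℝ), δ < 1 := by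
    have := ev_pos (f := fun σ => 1 - σ) (by fun_prop) (by norm_num)
    exact this.mono fun σ h => by linarith
  have b2 := ev_pos (f := fun δ => E * (3 - a) - δ - (1 - δ)⁻¹ / 4 * (a - 2 - 2 * E) ^ 2 * (1 - 1 / n))
    (by fun_prop) (by simp only [sub_zero, inv_one]; exact h2)
  have b3 := ev_pos (f := fun δ =>
      4 * (E * (3 - a) - δ - (1 - δ)⁻¹ / 4 * (a - 2 - 2 * E) ^ 2 * (1 - 1 / n))
        * (F * (1 - a) - (1 - δ)⁻¹ / 4 * (a - 2 * F) ^ 2 * (1 - 1 / n))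
      - (F * (2 - a) - E * a - (1 - δ)⁻¹ / 2 * (a - 2 - 2 * E) * (a - 2 * F) * (1 - 1 / n)) ^ 2)
    (by fun_prop) (by simp only [sub_zero, inv_one]; exact h3)
  have b4 := ev_pos (f := fun δ => F * (1 - a) - (1 - δ)⁻¹ / 8 * (a - 2 * F) ^ 2)
    (by fun_prop) (by simp only [sub_zero, inv_one]; exact h4)
  have b5 := ev_pos (f := fun δ => E * (1 + 2 / n) + δ * (2 - a))
    (by fun_prop) (by simp only [zero_mul, add_zero, hθ]; exact hF)
  have b6 := ev_pos (f := fun δ => 4 * (E * (1 + 2 / n) + δ * (2 - a)) * (γ * F)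
      - (2 * F / n - (1 - 1 / n) * p - δ * (a + p)) ^ 2)
    (by fun_prop) (by simp only [zero_mul, add_zero, sub_zero, hθ]; exact h5)
  have b7 := ev_pos (f := fun δ => 4 * F * (γ * (E * (1 + 2 / n) + δ * (2 - a)))
      - (γ * (2 * F / n - (1 - 1 / n) * q - δ * (a + q))) ^ 2)
    (by fun_prop) (by simp only [zero_mul, add_zero, sub_zero, hθ]; exact h6)
  obtain ⟨δ, d0, d1, d2, d3, d4, d5, d6, d7⟩ :=
    (f0.and (f1.and (b2.and (b3.and (b4.and (b5.and (b6.and b7))))))).exists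
  have hne : (1 - δ) ≠ 0 := by linarith
  refine ⟨coef E F γ δ, δ * min 1 γ, mul_pos d0 (lt_min one_pos hγ), ?_⟩
  refine cert_of_params n p q a E F γ δ δ (1 - δ)⁻¹ d0 d1 (mul_inv_cancel₀ hne) hγ le_rfl d2
    (by linarith) d4.le d5 (by linarith) hF (by linarith)

/-- The certificate for a given `g`. -/
theorem exists_cert_g (n p q g : ℝ) (hn3 : 3 ≤ n) (hg : 0 < g)
    (hP : |cS n * p - 1| < n * g) (hQ : |cS n * q - 1| * g < n) :
    ∃ (c : Fin 14 → ℝ) (c0 : ℝ), 0 < c0 ∧ Cert n p q (aS n) (aS n) c c0 := by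
  have hn : 2 < n := by linarith
  obtain ⟨σ, h0, h1, h2, h3, h4, h5, h6⟩ := exists_sigma n p q g hn3 hg hP hQ
  have hF0 := F0_pos hn
  refine exists_delta n p q (aS n) ((1 - σ) * E0 n) ((1 - σ) * F0 n) (g ^ 2) (by positivity)
    (mul_pos (by linarith) hF0) ?_ h2 h3 h4 h5 h6
  rw [mul_assoc, id_theta hn]

/-- **Closed-form certificate.** Whenever `|c p - 1| |c q - 1| < n^2` with
`c = (n+1)(n-2)/(n+2)`, `n ≥ 3`, a certificate exists with `a = b = (n-3)/(n-2)`. -/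
theorem exists_cert (n p q : ℝ) (hn3 : 3 ≤ n)
    (h : |cS n * p - 1| * |cS n * q - 1| < n ^ 2) :
    ∃ (c : Fin 14 → ℝ) (c0 : ℝ), 0 < c0 ∧ Cert n p q (aS n) (aS n) c c0 := by
  have hn0 : 0 < n := by linarith
  set P := |cS n * p - 1| with hP
  set Q := |cS n * q - 1| with hQ
  have hP0 : 0 ≤ P := abs_nonneg _
  have hQ0 : 0 ≤ Q := abs_nonneg _
  have hd : 0 < n - P * Q / n := by
    have : P * Q / n < n := by
      rw [div_lt_iff₀ hn0]
      nlinarith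
    linarith
  set ε := (n - P * Q / n) / (2 * (Q + 1)) with hε
  have hε0 : 0 < ε := by positivity
  have hg : 0 < P / n + ε := by positivity
  refine exists_cert_g n p q (P / n + ε) hn3 hg ?_ ?_
  · have : n * (P / n + ε) = P + n * ε := by
      field_simp
    rw [this]
    nlinarith [mul_pos hn0 hε0]
  · have e1 : Q * ε ≤ (n - P * Q / n) / 2 := by
      rw [hε]
      rw [show Q * ((n - P * Q / n) / (2 * (Q + 1))) = (n - P * Q / n) / 2 * (Q / (Q + 1)) by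
        field_simp]
      have : Q / (Q + 1) ≤ 1 := by
        rw [div_le_one (by linarith)]
        linarith
      nlinarith
    have e2 : Q * (P / n + ε) = P * Q / n + Q * ε := by ring
    rw [e2]
    linarith

/-- The closure inequality: the region lies where the cut-off argument closes. -/
theorem closure_ineq (n p q : ℝ) (hn : 4 ≤ n) (hp : 0 < p) (hq : 0 < q) (hpq : 1 < p * q)
    (h : |cS n * p - 1| * |cS n * q - 1| < n ^ 2) :
    (n - 4) * (p * q - 1) < 2 * aS n * (p + q + 2) := by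
  have h1 : 0 < n + 1 := by linarith
  have h2 : 0 < n - 2 := by linarith
  have h3 : 0 < n + 2 := by linarith
  have hc : 0 < cS n := by unfold cS; positivity
  have hprod : (cS n * p - 1) * (cS n * q - 1) < n ^ 2 := by
    calc (cS n * p - 1) * (cS n * q - 1) ≤ |(cS n * p - 1) * (cS n * q - 1)| := le_abs_self _
      _ = |cS n * p - 1| * |cS n * q - 1| := abs_mul _ _
      _ < n ^ 2 := h
  have hτ : 2 < p + q := by nlinarith [sq_nonneg (p - q)]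
  -- `pi` bound
  have hpi : p * q * cS n ^ 2 < n ^ 2 - 1 + cS n * (p + q) := by nlinarith
  have hcne : cS n ≠ 0 := hc.ne'
  have hpi' : p * q < (n ^ 2 - 1 + cS n * (p + q)) / cS n ^ 2 := by
    rw [lt_div_iff₀ (by positivity)]
    exact hpi
  have hn4 : 0 ≤ n - 4 := by linarith
  have step : (n - 4) * (p * q - 1)
      ≤ (n - 4) * ((n ^ 2 - 1 + cS n * (p + q)) / cS n ^ 2 - 1) :=
    mul_le_mul_of_nonneg_left (by linarith) hn4
  have identity : 2 * aS n * (p + q + 2)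
      - (n - 4) * ((n ^ 2 - 1 + cS n * (p + q)) / cS n ^ 2 - 1)
      = (p + q - 2) * ((n ^ 2 - 2 * n + 2) / ((n + 1) * (n - 2)))
        + (24 * n - 16) / ((n + 1) * (n - 2) ^ 2) := by
    have h1' : n + 1 ≠ 0 := h1.ne'
    have h2' : n - 2 ≠ 0 := h2.ne'
    have h3' : n + 2 ≠ 0 := h3.ne'
    unfold aS cS
    field_simp
    ring
  have pos1 : 0 < (p + q - 2) * ((n ^ 2 - 2 * n + 2) / ((n + 1) * (n - 2))) := by
    have : 0 < n ^ 2 - 2 * n + 2 := by nlinarith [sq_nonneg (n - 1)]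
    have h4 : 0 < p + q - 2 := by linarith
    positivity
  have pos2 : 0 < (24 * n - 16) / ((n + 1) * (n - 2) ^ 2) := by
    have : 0 < 24 * n - 16 := by linarith
    positivity
  linarith

end ClosedForm
end Vale.Agent.Lib.P100
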