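import Vale.Agent.Lib.P100.CertA

/-!
# P100: the general design lemma.

The certificate `Z = W [U0 X + g V0 Y - x (E1 X + F1 Y) - g y (F2 X + E2 Y) + f1 s Y + f2 t X
  - h s X - g h t Y]` with `W = u^a v^b`, for arbitrary real design parameters.
Everything is reduced to a quartic inequality on `(x, z, y)` and to two strictly positive
binary forms.
-/

noncomputable section

namespace Vale.Agent.Lib.P100.Design

open Vale.Agent.Lib.P100 Vale.Agent.Lib.P100.CertA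

/-- The coefficient vector. -/
def cd (E1 F1 E2 F2 f1 f2 h g : ℝ) : Fin 14 → ℝ :=
  ![1, 0, 0, g, -E1, -F1, 0, 0, -(g * F2), -(g * E2), -h, f1, f2, -(g * h)]

/-- The quartic remainder after completing the two tensor squares. -/
def Rf (n a b g E1 F1 E2 F2 x z y : ℝ) : ℝ :=
  E1 * (3 - a) * x ^ 2 + (F1 * (2 - a) - E1 * b) * (x * z) + F1 * (1 - b) * (x * y)
    + g * (E2 * (3 - b) * y ^ 2 + (F2 * (2 - b) - E2 * a) * (y * z) + F2 * (1 - a) * (x * y))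
    - ((1 - 1 / n) * (a - 2 - 2 * E1) ^ 2 * x ^ 2
        + 2 * (1 - 1 / n) * (a - 2 - 2 * E1) * (b - 2 * F1) * (x * z)
        + (b - 2 * F1) ^ 2 * ((x * y + z ^ 2) / 2 - z ^ 2 / n)) / 4
    - g * ((1 - 1 / n) * (b - 2 - 2 * E2) ^ 2 * y ^ 2
        + 2 * (1 - 1 / n) * (b - 2 - 2 * E2) * (a - 2 * F2) * (y * z)
        + (a - 2 * F2) ^ 2 * ((x * y + z ^ 2) / 2 - z ^ 2 / n)) / 4

lemma Q_cd (n p q a b E1 F1 E2 F2 f1 f2 h g : ℝ) (A : Atoms) :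
    Atoms.Q n p q a b (cd E1 F1 E2 F2 f1 f2 h g) A =
      (A.UU + (a - 2 - 2 * E1) * A.UXX + (b - 2 * F1) * A.UXY)
      + g * (A.VV + (b - 2 - 2 * E2) * A.VYY + (a - 2 * F2) * A.VXY)
      + (E1 * (3 - a) * A.x ^ 2 + (F1 * (2 - a) - E1 * b) * (A.x * A.z) + F1 * (1 - b) * (A.x * A.y))
      + g * (E2 * (3 - b) * A.y ^ 2 + (F2 * (2 - b) - E2 * a) * (A.y * A.z)
          + F2 * (1 - a) * (A.x * A.y))
      + A.s * (((1 + 2 / n) * E1 * A.x + (2 / n * F1 - (1 - 1 / n) * p + f1 * (a - 1)) * A.z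
            + (g * F2 + f1 * (b + p - 1)) * A.y)
          + h * ((2 - a) * A.x + (-(b + p)) * A.z))
      + A.t * (((F1 + f2 * (a + q - 1)) * A.x
            + (g * (2 / n * F2 - (1 - 1 / n) * q) + f2 * (b - 1)) * A.z
            + g * (1 + 2 / n) * E2 * A.y)
          + (g * h) * ((2 - b) * A.y + (-(a + q)) * A.z))
      + (-(f1 + f2)) * (A.s * A.t)
      + h * A.s ^ 2 + g * h * A.t ^ 2 := by
  simp [Atoms.Q, Atoms.D, cd, Fin.sum_univ_succ]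
  ring

/-- The general design lemma: given the quartic inequality and two strictly positive binary
forms, there is a certificate. -/
theorem cert_general {n p q a b g E1 F1 E2 F2 f1 f2 m : ℝ} (hn : 2 ≤ n) (hg : 0 < g) (hm : 0 < m)
    (hR : ∀ x z y : ℝ, 0 ≤ x → 0 ≤ y → z ^ 2 ≤ x * y →
      m * (x ^ 2 + y ^ 2) ≤ Rf n a b g E1 F1 E2 F2 x z y)
    (hs0 : 0 < (1 + 2 / n) * E1)
    (hs : ((2 / n * F1 - (1 - 1 / n) * p + f1 * (a - 1)) / 2) ^ 2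
      < ((1 + 2 / n) * E1) * (g * F2 + f1 * (b + p - 1)))
    (ht0 : 0 < F1 + f2 * (a + q - 1))
    (ht : ((g * (2 / n * F2 - (1 - 1 / n) * q) + f2 * (b - 1)) / 2) ^ 2
      < (F1 + f2 * (a + q - 1)) * (g * (1 + 2 / n) * E2))
    (hf : f1 + f2 ≤ 0) :
    ∃ (h c0 : ℝ), 0 < c0 ∧ Cert n p q a b (cd E1 F1 E2 F2 f1 f2 h g) c0 := by
  obtain ⟨μ2, hμ2, hf2⟩ := form_margin hs0 hs
  obtain ⟨μ3, hμ3, hf3⟩ := form_margin ht0 ht
  obtain ⟨Cs, hCs⟩ : ∃ Cs : ℝ, Cs = |2 - a| + |-(b + p)| + 1 := ⟨_, rfl⟩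
  obtain ⟨Ct, hCt⟩ : ∃ Ct : ℝ, Ct = |2 - b| + |-(a + q)| + 1 := ⟨_, rfl⟩
  have hCs0 : 0 < Cs := by rw [hCs]; positivity
  have hCt0 : 0 < Ct := by rw [hCt]; positivity
  obtain ⟨h, hh⟩ : ∃ h : ℝ, h = min (μ2 / Cs) (μ3 / (g * Ct)) := ⟨_, rfl⟩
  have hh0 : 0 < h := by
    rw [hh]; exact lt_min (div_pos hμ2 hCs0) (div_pos hμ3 (mul_pos hg hCt0))
  have hh1 : h * Cs ≤ μ2 := by
    have : h ≤ μ2 / Cs := by rw [hh]; exact min_le_left _ _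
    rwa [le_div_iff₀ hCs0] at this
  have hh2 : h * (g * Ct) ≤ μ3 := by
    have : h ≤ μ3 / (g * Ct) := by rw [hh]; exact min_le_right _ _
    rwa [le_div_iff₀ (mul_pos hg hCt0)] at this
  obtain ⟨Gu, hGu⟩ : ∃ G : ℝ, G = a - 2 - 2 * E1 := ⟨_, rfl⟩
  obtain ⟨Hu, hHu⟩ : ∃ H : ℝ, H = b - 2 * F1 := ⟨_, rfl⟩
  obtain ⟨Gv, hGv⟩ : ∃ G : ℝ, G = b - 2 - 2 * E2 := ⟨_, rfl⟩
  obtain ⟨Hv, hHv⟩ : ∃ H : ℝ, H = a - 2 * F2 := ⟨_, rfl⟩
  obtain ⟨C, hC⟩ : ∃ C : ℝ, C = (Gu ^ 2 + Hu ^ 2 + g * (Gv ^ 2 + Hv ^ 2)) / 2 := ⟨_, rfl⟩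
  have hC0 : 0 ≤ C := by rw [hC]; positivity
  obtain ⟨g0, hg0⟩ : ∃ g0 : ℝ, g0 = min 1 g := ⟨_, rfl⟩
  have hg00 : 0 < g0 := by rw [hg0]; exact lt_min one_pos hg
  have hg01 : g0 ≤ 1 := by rw [hg0]; exact min_le_left _ _
  have hg0g : g0 ≤ g := by rw [hg0]; exact min_le_right _ _
  obtain ⟨c2, hc2⟩ : ∃ c2 : ℝ, c2 = m / (C + 1) := ⟨_, rfl⟩
  have hc20 : 0 < c2 := by rw [hc2]; positivity
  obtain ⟨η, hη⟩ : ∃ η : ℝ, η = min 1 c2 := ⟨_, rfl⟩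
  have hη0 : 0 < η := by rw [hη]; exact lt_min one_pos hc20
  have hη1 : η ≤ 1 := by rw [hη]; exact min_le_left _ _
  have hη2 : η ≤ c2 := by rw [hη]; exact min_le_right _ _
  have hc2C : η * C + c2 ≤ m := by
    have h1 : η * C ≤ c2 * C := mul_le_mul_of_nonneg_right hη2 hC0
    have h2 : c2 * (C + 1) = m := by
      rw [hc2]; field_simp
    have e : c2 * (C + 1) = c2 * C + c2 := by ring
    linarith
  obtain ⟨c0, hc0⟩ : ∃ c0 : ℝ, c0 = min (η * g0 / 2) (min c2 (h * g0)) := ⟨_, rfl⟩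
  have hc00 : 0 < c0 := by
    rw [hc0]; exact lt_min (by positivity) (lt_min hc20 (by positivity))
  have c1 : c0 ≤ η * g0 / 2 := by rw [hc0]; exact min_le_left _ _
  have c3 : c0 ≤ c2 := by rw [hc0]; exact le_trans (min_le_right _ _) (min_le_left _ _)
  have c4 : c0 ≤ h * g0 := by rw [hc0]; exact le_trans (min_le_right _ _) (min_le_right _ _)
  refine ⟨h, c0, hc00, ?_⟩
  intro A hA
  have hx := hA.x_nonneg
  have hy := hA.y_nonneg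
  have hs_pos := hA.s_pos
  have ht_pos := hA.t_pos
  obtain ⟨hz1, hz2⟩ := abs_z n A hA
  have hUU := UU_nonneg n A hA
  have hVV := VV_nonneg n A hA
  obtain ⟨r1, -⟩ := hf2 n A hA
  obtain ⟨t1, -⟩ := hf3 n A hA
  have b1 := lin_bound (2 - a) (-(b + p)) A.x A.y A.z hx hy hz1 hz2
  have b2 := lin_bound (2 - b) (-(a + q)) A.y A.x A.z hy hx (by linarith) (by linarith)
  rw [← hCs] at b1
  rw [← hCt] at b2
  have hxy : 0 ≤ A.x + A.y := by linarith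
  have hS : 0 ≤ A.s * (((1 + 2 / n) * E1 * A.x + (2 / n * F1 - (1 - 1 / n) * p + f1 * (a - 1)) * A.z
            + (g * F2 + f1 * (b + p - 1)) * A.y)
          + h * ((2 - a) * A.x + (-(b + p)) * A.z)) := by
    apply mul_nonneg hs_pos.le
    have e : 2 * ((2 / n * F1 - (1 - 1 / n) * p + f1 * (a - 1)) / 2)
      = 2 / n * F1 - (1 - 1 / n) * p + f1 * (a - 1) := by ring
    rw [e] at r1
    exact comb _ _ μ2 Cs h (A.x + A.y) r1 b1 hh0.le hh1 hxy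
  have hT : 0 ≤ A.t * (((F1 + f2 * (a + q - 1)) * A.x
            + (g * (2 / n * F2 - (1 - 1 / n) * q) + f2 * (b - 1)) * A.z
            + g * (1 + 2 / n) * E2 * A.y)
          + (g * h) * ((2 - b) * A.y + (-(a + q)) * A.z)) := by
    apply mul_nonneg ht_pos.le
    have e : 2 * ((g * (2 / n * F2 - (1 - 1 / n) * q) + f2 * (b - 1)) / 2)
      = g * (2 / n * F2 - (1 - 1 / n) * q) + f2 * (b - 1) := by ring
    rw [e] at t1
    have hh2' : h * g * Ct ≤ μ3 := by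
      have e : h * g * Ct = h * (g * Ct) := by ring
      linarith
    have hh2'' : g * h * Ct ≤ μ3 := by
      have e : g * h * Ct = h * g * Ct := by ring
      linarith
    have b2' : -(Ct * (A.x + A.y)) ≤ (2 - b) * A.y + (-(a + q)) * A.z := by
      have e : A.y + A.x = A.x + A.y := by ring
      rw [e] at b2
      exact b2
    exact comb _ _ μ3 Ct (g * h) (A.x + A.y) t1 b2' (by positivity) hh2'' hxy
  have hst : 0 ≤ (-(f1 + f2)) * (A.s * A.t) :=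
    mul_nonneg (by linarith) (mul_pos hs_pos ht_pos).le
  -- tensor squares
  have u1 := gram_u n Gu Hu (1 / 2) A hA
  have u2 := gram_u n Gu Hu 1 A hA
  have v1 := gram_v n Gv Hv (1 / 2) A hA
  have v2 := gram_v n Gv Hv 1 A hA
  have p1 : 0 ≤ (1 - η) * (A.UU + 2 * (1 / 2) * (Gu * A.UXX + Hu * A.UXY) + (1 / 2) ^ 2 * Wu n Gu Hu A) :=
    mul_nonneg (by linarith) u1
  have p2 : 0 ≤ (η / 2) * (A.UU + 2 * 1 * (Gu * A.UXX + Hu * A.UXY) + 1 ^ 2 * Wu n Gu Hu A) :=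
    mul_nonneg (by linarith) u2
  have p3 : 0 ≤ g * ((1 - η) * (A.VV + 2 * (1 / 2) * (Gv * A.VYY + Hv * A.VXY) + (1 / 2) ^ 2 * Wv n Gv Hv A)) :=
    mul_nonneg hg.le (mul_nonneg (by linarith) v1)
  have p4 : 0 ≤ g * ((η / 2) * (A.VV + 2 * 1 * (Gv * A.VYY + Hv * A.VXY) + 1 ^ 2 * Wv n Gv Hv A)) :=
    mul_nonneg hg.le (mul_nonneg (by linarith) v2)
  have hRA := hR A.x A.z A.y hx hy hA.cs
  have hW1 := Wu_le n Gu Hu (by linarith) A hA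
  have hW2 := Wv_le n Gv Hv (by linarith) A hA
  have hxsq : 0 ≤ A.x ^ 2 + A.y ^ 2 := by positivity
  have hW : (η / 4) * (Wu n Gu Hu A + g * Wv n Gv Hv A) ≤ η * C * (A.x ^ 2 + A.y ^ 2) := by
    have h0 := mul_le_mul_of_nonneg_left hW2 hg.le
    have h1 : Wu n Gu Hu A + g * Wv n Gv Hv A
        ≤ 2 * (Gu ^ 2 + Hu ^ 2) * (A.x ^ 2 + A.y ^ 2) + g * (2 * (Gv ^ 2 + Hv ^ 2) * (A.x ^ 2 + A.y ^ 2)) := by
      linarith
    have h2 := mul_le_mul_of_nonneg_left h1 (by positivity : 0 ≤ η / 4)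
    have e : η / 4 * (2 * (Gu ^ 2 + Hu ^ 2) * (A.x ^ 2 + A.y ^ 2)
        + g * (2 * (Gv ^ 2 + Hv ^ 2) * (A.x ^ 2 + A.y ^ 2)))
        = η * C * (A.x ^ 2 + A.y ^ 2) := by
      rw [hC]; ring
    linarith
  have hQ := Q_cd n p q a b E1 F1 E2 F2 f1 f2 h g A
  have key : (A.UU + (a - 2 - 2 * E1) * A.UXX + (b - 2 * F1) * A.UXY)
      + g * (A.VV + (b - 2 - 2 * E2) * A.VYY + (a - 2 * F2) * A.VXY)
      + (E1 * (3 - a) * A.x ^ 2 + (F1 * (2 - a) - E1 * b) * (A.x * A.z) + F1 * (1 - b) * (A.x * A.y))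
      + g * (E2 * (3 - b) * A.y ^ 2 + (F2 * (2 - b) - E2 * a) * (A.y * A.z)
          + F2 * (1 - a) * (A.x * A.y))
      - ((η / 2) * (A.UU + g * A.VV) - (η / 4) * (Wu n Gu Hu A + g * Wv n Gv Hv A)
        + Rf n a b g E1 F1 E2 F2 A.x A.z A.y)
      = (1 - η) * (A.UU + 2 * (1 / 2) * (Gu * A.UXX + Hu * A.UXY) + (1 / 2) ^ 2 * Wu n Gu Hu A)
        + (η / 2) * (A.UU + 2 * 1 * (Gu * A.UXX + Hu * A.UXY) + 1 ^ 2 * Wu n Gu Hu A)
        + g * ((1 - η) * (A.VV + 2 * (1 / 2) * (Gv * A.VYY + Hv * A.VXY) + (1 / 2) ^ 2 * Wv n Gv Hv A))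
        + g * ((η / 2) * (A.VV + 2 * 1 * (Gv * A.VYY + Hv * A.VXY) + 1 ^ 2 * Wv n Gv Hv A)) := by
    subst hGu hHu hGv hHv
    simp only [Wu, Wv, Rf]
    ring
  have hmain : (η / 2) * (A.UU + g * A.VV) + c2 * (A.x ^ 2 + A.y ^ 2) + h * (A.s ^ 2 + g * A.t ^ 2)
      ≤ Atoms.Q n p q a b (cd E1 F1 E2 F2 f1 f2 h g) A := by
    have e2 : (η * C + c2) * (A.x ^ 2 + A.y ^ 2) ≤ m * (A.x ^ 2 + A.y ^ 2) :=
      mul_le_mul_of_nonneg_right hc2C hxsq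
    have e6 : (η * C + c2) * (A.x ^ 2 + A.y ^ 2)
      = η * C * (A.x ^ 2 + A.y ^ 2) + c2 * (A.x ^ 2 + A.y ^ 2) := by ring
    have e7 : h * (A.s ^ 2 + g * A.t ^ 2) = h * A.s ^ 2 + g * h * A.t ^ 2 := by ring
    rw [hQ]
    linarith
  exact final_c0 η g g0 c2 h c0 _ _ _ _ _ _ _ hg00 hg01 hg0g hη0 hh0 c1 c3 c4 hUU hVV (sq_nonneg _)
    (sq_nonneg _) (sq_nonneg _) (sq_nonneg _) hmain

end Vale.Agent.Lib.P100.Design
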