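import Vale.Agent.Lib.P100.LapForm
import Vale.Agent.Lib.P100.CertCheck

/-!
# P100: from a correct cell to nonexistence.
-/

open scoped BigOperators
open InnerProductSpace Laplacian

noncomputable section

namespace Vale.Agent.Lib.P100

variable {n : ℕ}

/-- A certificate with nonnegative exponents `a, b` and the Liouville inequality excludes solutions
of the exact class of the problem. -/
theorem no_solution_of_cellOK (hn4 : 4 < n) {p q a b c0 : ℝ} {c : Fin 14 → ℝ}
    (hp : 0 < p) (hq : 0 < q) (hpq : 1 < p * q)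
    (h : Check.CellOK (n : ℝ) a b c c0 p q)
    {u v : Eu n → ℝ} (hucont : Continuous u) (hvcont : Continuous v)
    (hupos : ∀ x, 0 < u x) (hvpos : ∀ x, 0 < v x)
    (hu : ContDiffOn ℝ 2 u {0}ᶜ) (hv : ContDiffOn ℝ 2 v {0}ᶜ)
    (hpdeU : ∀ x, x ≠ 0 → - Δ u x = v x ^ p)
    (hpdeV : ∀ x, x ≠ 0 → - Δ v x = u x ^ q) : False := by
  have hw : 0 < p * q - 1 := by linarith
  have hw' : p * q - 1 ≠ 0 := hw.ne'
  have ha := h.a_nonneg
  have hb := h.b_nonneg
  refine no_solution_of_cert_lap hn4 (a := a) (b := b)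
    (lam := (a + q * b) / (p * q - 1)) (mu := (b + p * a) / (p * q - 1))
    h.cert h.c0_pos ?_ ?_ (by positivity) (by positivity) ?_ hucont hvcont hupos hvpos hu hv hpdeU hpdeV
  · have e : (b + p * a) / (p * q - 1) * q - (a + q * b) / (p * q - 1) = a := by
      rw [div_mul_eq_mul_div, ← sub_div, div_eq_iff hw']
      ring
    exact e.symm
  · have e : (a + q * b) / (p * q - 1) * p - (b + p * a) / (p * q - 1) = b := by
      rw [div_mul_eq_mul_div, ← sub_div, div_eq_iff hw']
      ring
    exact e.symm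
  · have hl := h.liouville
    have e : 2 * ((a + q * b) / (p * q - 1) + (b + p * a) / (p * q - 1)) + 4
        = (2 * (a * (p + 1) + b * (q + 1)) + 4 * (p * q - 1)) / (p * q - 1) := by
      have hA : (a + q * b) / (p * q - 1) * (p * q - 1) = a + q * b := div_mul_cancel₀ _ hw'
      have hB : (b + p * a) / (p * q - 1) * (p * q - 1) = b + p * a := div_mul_cancel₀ _ hw'
      rw [eq_div_iff hw']
      linear_combination 2 * hA + 2 * hB
    rw [e, lt_div_iff₀ hw]
    linarith

end Vale.Agent.Lib.P100
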