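import Vale.Agent.Lib.P100.Defs

/-!
# P100: calculus of partial derivatives at a point (the predicate `HG`).
-/

open scoped BigOperators
open Filter Topology

noncomputable section

namespace Vale.Agent.Lib.P100

variable {n : ℕ}

/-- `HG f g x`: `f` is differentiable at `x` with partial derivatives `g`. -/
def HG (f : Eu n → ℝ) (g : Fin n → ℝ) (x : Eu n) : Prop :=
  DifferentiableAt ℝ f x ∧ ∀ i, pd i f x = g i

theorem HG.of_diff {f : Eu n → ℝ} {x : Eu n} (h : DifferentiableAt ℝ f x) :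
    HG f (fun i => pd i f x) x := ⟨h, fun _ => rfl⟩

theorem HG.congr_g {f : Eu n → ℝ} {g g' : Fin n → ℝ} {x : Eu n} (h : HG f g x)
    (hg : ∀ i, g i = g' i) : HG f g' x :=
  ⟨h.1, fun i => (h.2 i).trans (hg i)⟩

theorem HG.congr_f {f f' : Eu n → ℝ} {g : Fin n → ℝ} {x : Eu n} (h : HG f g x)
    (hf : f' =ᶠ[𝓝 x] f) : HG f' g x := by
  have hd : DifferentiableAt ℝ f' x := (Filter.EventuallyEq.differentiableAt_iff hf).2 h.1
  refine ⟨hd, fun i => ?_⟩
  have h2 : fderiv ℝ f' x = fderiv ℝ f x := Filter.EventuallyEq.fderiv_eq hf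
  have h1 := h.2 i
  simp only [pd] at h1 ⊢
  rw [h2, h1]

theorem HG.const (c : ℝ) (x : Eu n) : HG (fun _ => c) (fun _ => 0) x := by
  refine ⟨differentiableAt_const c, fun i => ?_⟩
  simp [pd]

theorem HG.add {f f' : Eu n → ℝ} {g g' : Fin n → ℝ} {x : Eu n} (h : HG f g x) (h' : HG f' g' x) :
    HG (fun y => f y + f' y) (fun i => g i + g' i) x := by
  refine ⟨h.1.add h'.1, fun i => ?_⟩
  have h1 := h.2 i
  have h2 := h'.2 i
  simp only [pd] at h1 h2 ⊢
  rw [fderiv_fun_add h.1 h'.1, add_apply, h1, h2]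

theorem HG.neg {f : Eu n → ℝ} {g : Fin n → ℝ} {x : Eu n} (h : HG f g x) :
    HG (fun y => - f y) (fun i => - g i) x := by
  refine ⟨h.1.neg, fun i => ?_⟩
  have h1 := h.2 i
  simp only [pd] at h1 ⊢
  rw [fderiv_fun_neg, neg_apply, h1]

theorem HG.sub {f f' : Eu n → ℝ} {g g' : Fin n → ℝ} {x : Eu n} (h : HG f g x) (h' : HG f' g' x) :
    HG (fun y => f y - f' y) (fun i => g i - g' i) x := by
  refine ⟨h.1.sub h'.1, fun i => ?_⟩
  have h1 := h.2 i
  have h2 := h'.2 i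
  simp only [pd] at h1 h2 ⊢
  rw [fderiv_fun_sub h.1 h'.1, sub_apply, h1, h2]

theorem HG.mul {f f' : Eu n → ℝ} {g g' : Fin n → ℝ} {x : Eu n} (h : HG f g x) (h' : HG f' g' x) :
    HG (fun y => f y * f' y) (fun i => g i * f' x + f x * g' i) x := by
  refine ⟨h.1.mul h'.1, fun i => ?_⟩
  have h1 := h.2 i
  have h2 := h'.2 i
  simp only [pd] at h1 h2 ⊢
  rw [fderiv_fun_mul h.1 h'.1]
  simp only [add_apply, smul_apply, smul_eq_mul, h1, h2]
  ring

theorem HG.const_mul (c : ℝ) {f : Eu n → ℝ} {g : Fin n → ℝ} {x : Eu n} (h : HG f g x) :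
    HG (fun y => c * f y) (fun i => c * g i) x :=
  ((HG.const c x).mul h).congr_g (fun i => by ring)

theorem HG.sum {ι : Type*} (s : Finset ι) {f : ι → Eu n → ℝ} {g : ι → Fin n → ℝ} {x : Eu n}
    (h : ∀ k ∈ s, HG (f k) (g k) x) :
    HG (fun y => ∑ k ∈ s, f k y) (fun i => ∑ k ∈ s, g k i) x := by
  classical
  induction s using Finset.induction_on with
  | empty => simpa using HG.const (0:ℝ) x
  | insert a s ha ih =>
    have h1 := h a (Finset.mem_insert_self a s)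
    have h2 := ih (fun k hk => h k (Finset.mem_insert_of_mem hk))
    have := h1.add h2
    simpa [Finset.sum_insert ha] using this

theorem HG.comp_real {φ : ℝ → ℝ} {φ' : ℝ} {f : Eu n → ℝ} {g : Fin n → ℝ} {x : Eu n}
    (hφ : HasDerivAt φ φ' (f x)) (h : HG f g x) :
    HG (fun y => φ (f y)) (fun i => φ' * g i) x := by
  have h3 := hφ.comp_hasFDerivAt x h.1.hasFDerivAt
  refine ⟨h3.differentiableAt, fun i => ?_⟩
  have h1 := h.2 i
  simp only [pd] at h1 ⊢
  have h4 : fderiv ℝ (fun y => φ (f y)) x = φ' • fderiv ℝ f x := h3.fderiv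
  rw [h4]
  simp [h1]

theorem HG.inv {f : Eu n → ℝ} {g : Fin n → ℝ} {x : Eu n} (h : HG f g x) (hx : f x ≠ 0) :
    HG (fun y => (f y)⁻¹) (fun i => - g i / (f x) ^ 2) x := by
  have := HG.comp_real (φ := fun t => t⁻¹) (hasDerivAt_inv hx) h
  refine this.congr_g (fun i => ?_)
  ring

theorem HG.div {f f' : Eu n → ℝ} {g g' : Fin n → ℝ} {x : Eu n} (h : HG f g x) (h' : HG f' g' x)
    (hx : f' x ≠ 0) :
    HG (fun y => f y / f' y) (fun i => g i / f' x - f x * g' i / (f' x) ^ 2) x := by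
  have := h.mul (h'.inv hx)
  have h2 : (fun y => f y / f' y) = fun y => f y * (f' y)⁻¹ := by
    funext y; rw [div_eq_mul_inv]
  rw [h2]
  refine (this.congr_g (fun i => ?_))
  ring

theorem HG.rpow {f : Eu n → ℝ} {g : Fin n → ℝ} {x : Eu n} (h : HG f g x) (hx : 0 < f x) (r : ℝ) :
    HG (fun y => f y ^ r) (fun i => (r * f x ^ (r - 1)) * g i) x :=
  HG.comp_real (φ := fun t => t ^ r) (Real.hasDerivAt_rpow_const (Or.inl hx.ne')) h

end Vale.Agent.Lib.P100
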