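import Vale.Agent.Lib.P100.JetCalc
import Vale.Agent.Lib.P100.Atoms

/-!
# P100: first derivatives of the jet quantities at a point of a positive solution.
-/

open scoped BigOperators
open Filter Topology

noncomputable section

namespace Vale.Agent.Lib.P100

variable {n : ℕ}

/-- `X = grad u / u`. -/
def Xf (u : Eu n → ℝ) (i : Fin n) (y : Eu n) : ℝ := pd i u y / u y

/-- `s = v^p / u`; note `t = Sf v u q`. -/
def Sf (u v : Eu n → ℝ) (p : ℝ) (y : Eu n) : ℝ := v y ^ p / u y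

/-- Second partial derivatives. -/
def Hf (u : Eu n → ℝ) (i j : Fin n) (y : Eu n) : ℝ := pd j (pd i u) y

/-- Kronecker delta. -/
def dl (i j : Fin n) : ℝ := if i = j then 1 else 0

/-- `U0 = Hess u / u + (s/n) I`, the traceless part of `Hess u / u`; note `V0 = Uf v u q`. -/
def Uf (u v : Eu n → ℝ) (p : ℝ) (i j : Fin n) (y : Eu n) : ℝ :=
  Hf u i j y / u y + dl i j * (Sf u v p y / n)

/-- The weight `W = u^a v^b`. -/
def Wf (u v : Eu n → ℝ) (a b : ℝ) (y : Eu n) : ℝ := u y ^ a * v y ^ b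

/-- Local hypotheses at `x`: `u, v` are positive and `C^3` near `x` and solve the system near `x`. -/
structure Loc (u v : Eu n → ℝ) (p q : ℝ) (x : Eu n) : Prop where
  cu : ContDiffAt ℝ 3 u x
  cv : ContDiffAt ℝ 3 v x
  upos : 0 < u x
  vpos : 0 < v x
  pdeU : ∀ᶠ y in 𝓝 x, ∑ i, Hf u i i y = - v y ^ p
  pdeV : ∀ᶠ y in 𝓝 x, ∑ i, Hf v i i y = - u y ^ q
  hn : (n : ℝ) ≠ 0

theorem Loc.swap {u v : Eu n → ℝ} {p q : ℝ} {x : Eu n} (h : Loc u v p q x) : Loc v u q p x :=
  ⟨h.cv, h.cu, h.vpos, h.upos, h.pdeV, h.pdeU, h.hn⟩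

theorem cd_pd {f : Eu n → ℝ} {x : Eu n} {k : ℕ} (hf : ContDiffAt ℝ (k + 1 : ℕ) f x) (i : Fin n) :
    ContDiffAt ℝ k (pd i f) x := by
  have h1 : ContDiffAt ℝ k (fderiv ℝ f) x := hf.fderiv_right (by norm_cast)
  exact h1.clm_apply contDiffAt_const

theorem pd_pd {f : Eu n → ℝ} {x : Eu n} (hf : DifferentiableAt ℝ (fderiv ℝ f) x) (i j : Fin n) :
    pd j (pd i f) x = fderiv ℝ (fderiv ℝ f) x (ee j) (ee i) := by
  have h := (hf.hasFDerivAt.clm_apply (hasFDerivAt_const (ee i) x)).fderiv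
  have h2 : pd i f = fun y => fderiv ℝ f y (ee i) := rfl
  simp only [pd] at *
  rw [h2]
  rw [h]
  simp

theorem pd_symm {f : Eu n → ℝ} {x : Eu n} (hf : ContDiffAt ℝ 2 f x) (i j : Fin n) :
    pd j (pd i f) x = pd i (pd j f) x := by
  have h1 : ContDiffAt ℝ 1 (fderiv ℝ f) x := hf.fderiv_right (by norm_num)
  have hd : DifferentiableAt ℝ (fderiv ℝ f) x := h1.differentiableAt (by norm_num)
  rw [pd_pd hd, pd_pd hd]
  have hs : IsSymmSndFDerivAt ℝ f x := hf.isSymmSndFDerivAt (by simp)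
  exact hs.eq _ _

section
variable {u v : Eu n → ℝ} {p q : ℝ} {x : Eu n}

theorem Loc.hg_u (h : Loc u v p q x) : HG u (fun j => pd j u x) x :=
  HG.of_diff (h.cu.differentiableAt (by norm_num))

theorem Loc.cu2 (h : Loc u v p q x) (i : Fin n) : ContDiffAt ℝ 2 (pd i u) x :=
  cd_pd (k := 2) h.cu i

theorem Loc.hg_pd (h : Loc u v p q x) (i : Fin n) : HG (pd i u) (fun j => Hf u i j x) x :=
  ⟨(h.cu2 i).differentiableAt (by norm_num), fun _ => rfl⟩

theorem Loc.cH (h : Loc u v p q x) (i j : Fin n) : ContDiffAt ℝ 1 (Hf u i j) x :=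
  cd_pd (k := 1) (h.cu2 i) j

theorem Loc.hg_H (h : Loc u v p q x) (i j : Fin n) :
    HG (Hf u i j) (fun k => pd k (Hf u i j) x) x :=
  HG.of_diff ((h.cH i j).differentiableAt (by norm_num))

/-- Symmetry of the Hessian near `x`. -/
theorem Loc.H_symm_ev (h : Loc u v p q x) (i j : Fin n) : Hf u i j =ᶠ[𝓝 x] Hf u j i := by
  have hev : ∀ᶠ y in 𝓝 x, ContDiffAt ℝ 3 u y := h.cu.eventually (by simp)
  filter_upwards [hev] with y hy
  exact pd_symm (hy.of_le (by norm_num)) i j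

theorem Loc.H_symm (h : Loc u v p q x) (i j : Fin n) : Hf u i j x = Hf u j i x :=
  (h.H_symm_ev i j).self_of_nhds

/-- The third derivative is symmetric: `d_i (d_j d_i u) = d_j (d_i d_i u)`. -/
theorem Loc.third_symm (h : Loc u v p q x) (i j : Fin n) :
    pd i (Hf u i j) x = pd j (Hf u i i) x := by
  exact pd_symm (h.cu2 i) i j |>.symm ▸ rfl


theorem Loc.H_div (_h : Loc u v p q x) (i j : Fin n) :
    Hf u i j x / u x = Uf u v p i j x - dl i j * (Sf u v p x / n) := by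
  simp [Uf]

/-- Gradient of `X_i`. -/
theorem Loc.hg_X (h : Loc u v p q x) (i : Fin n) :
    HG (Xf u i) (fun j => Uf u v p i j x - dl i j * (Sf u v p x / n) - Xf u i x * Xf u j x) x := by
  have h1 := (h.hg_pd i).div h.hg_u h.upos.ne'
  refine HG.congr_g h1 (fun j => ?_)
  rw [← h.H_div]
  have hu := h.upos.ne'
  simp only [Xf]
  field_simp

/-- Gradient of `s`. -/
theorem Loc.hg_S (h : Loc u v p q x) :
    HG (Sf u v p) (fun j => Sf u v p x * (p * Xf v j x - Xf u j x)) x := by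
  have hv : HG v (fun j => pd j v x) x := h.swap.hg_u
  have h1 := (hv.rpow h.vpos p).div h.hg_u h.upos.ne'
  refine HG.congr_g h1 (fun j => ?_)
  have hu0 := h.upos.ne'
  have hv0 := h.vpos.ne'
  simp only [Xf, Sf]
  rw [Real.rpow_sub_one hv0]
  field_simp

/-- Gradient of a weight `u^a v^b`. -/
theorem Loc.hg_W (h : Loc u v p q x) (a b : ℝ) :
    HG (Wf u v a b) (fun j => Wf u v a b x * (a * Xf u j x + b * Xf v j x)) x := by
  have hv : HG v (fun j => pd j v x) x := h.swap.hg_u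
  have h1 := (h.hg_u.rpow h.upos a).mul (hv.rpow h.vpos b)
  refine HG.congr_g h1 (fun j => ?_)
  have hu0 := h.upos.ne'
  have hv0 := h.vpos.ne'
  simp only [Xf, Wf]
  rw [Real.rpow_sub_one hv0, Real.rpow_sub_one hu0]
  field_simp

/-- Gradient of `U0`. -/
theorem Loc.hg_U (h : Loc u v p q x) (i j : Fin n) :
    HG (Uf u v p i j) (fun k => pd k (Hf u i j) x / u x - Hf u i j x * pd k u x / (u x) ^ 2
      + dl i j * (Sf u v p x * (p * Xf v k x - Xf u k x) / n)) x := by
  have h1 := ((h.hg_H i j).div h.hg_u h.upos.ne').add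
    (HG.const_mul (dl i j) (HG.div h.hg_S (HG.const (n : ℝ) x) h.hn))
  refine HG.congr_g h1 (fun k => ?_)
  simp

/-- The trace of `U0` vanishes. -/
theorem Loc.trU (h : Loc u v p q x) : ∑ i, Uf u v p i i x = 0 := by
  have h1 : ∑ i, Hf u i i x = - v x ^ p := h.pdeU.self_of_nhds
  have hu0 := h.upos.ne'
  have hn := h.hn
  simp only [Uf, dl, if_true, one_mul, Finset.sum_add_distrib, ← Finset.sum_div, h1]
  simp only [Finset.sum_const, Finset.card_univ, Fintype.card_fin, nsmul_eq_mul, Sf]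
  field_simp
  ring

theorem Loc.U_symm (h : Loc u v p q x) (i j : Fin n) : Uf u v p i j x = Uf u v p j i x := by
  simp only [Uf, h.H_symm i j, dl, eq_comm]

/-- The derivative of the Laplacian from the equation. -/
theorem Loc.grad_lap (h : Loc u v p q x) (j : Fin n) :
    ∑ i, pd j (Hf u i i) x = - (p * v x ^ (p - 1) * pd j v x) := by
  have h1 : HG (fun y => ∑ i, Hf u i i y) (fun k => ∑ i, pd k (Hf u i i) x) x :=
    HG.sum Finset.univ (fun i _ => h.hg_H i i)
  have hv : HG v (fun j => pd j v x) x := h.swap.hg_u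
  have h2 : HG (fun y => ∑ i, Hf u i i y) (fun k => - ((p * v x ^ (p - 1)) * pd k v x)) x :=
    HG.congr_f (hv.rpow h.vpos p).neg h.pdeU
  exact (h1.2 j).symm.trans (h2.2 j)

/-- The divergence of `U0`. -/
theorem Loc.div_U (h : Loc u v p q x) (j : Fin n) :
    ∑ i, pd i (Uf u v p i j) x =
      - ((1 - 1 / (n : ℝ)) * p * Sf u v p x * Xf v j x) - ∑ i, Uf u v p i j x * Xf u i x := by
  have hu0 := h.upos.ne'
  have hv0 := h.vpos.ne'
  have hn := h.hn
  have h1 : ∀ i, pd i (Uf u v p i j) x = pd j (Hf u i i) x / u x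
      - (Uf u v p i j x - dl i j * (Sf u v p x / n)) * Xf u i x
      + dl i j * (Sf u v p x * (p * Xf v i x - Xf u i x) / n) := by
    intro i
    rw [(h.hg_U i j).2 i]
    beta_reduce
    rw [h.third_symm i j, ← h.H_div i j]
    simp only [Xf]
    field_simp
  simp_rw [h1]
  rw [Finset.sum_add_distrib, Finset.sum_sub_distrib, ← Finset.sum_div, h.grad_lap j]
  have h2 : ∑ i, (Uf u v p i j x - dl i j * (Sf u v p x / n)) * Xf u i x
      = ∑ i, Uf u v p i j x * Xf u i x - (Sf u v p x / n) * Xf u j x := by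
    simp only [sub_mul, Finset.sum_sub_distrib]
    congr 1
    simp [dl]
  have h3 : ∑ i, dl i j * (Sf u v p x * (p * Xf v i x - Xf u i x) / n)
      = (Sf u v p x * (p * Xf v j x - Xf u j x) / n) := by
    simp [dl]
  rw [h2, h3]
  simp only [Xf, Sf]
  rw [Real.rpow_sub_one hv0]
  field_simp
  ring

end

end Vale.Agent.Lib.P100
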