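import Vale.Agent.Lib.P100.Jets1

/-!
# P100: the generic divergence formulas.
-/

open scoped BigOperators
open Filter Topology

noncomputable section

namespace Vale.Agent.Lib.P100

variable {n : ℕ}

/-- Dot product of real vectors. -/
def dot (Z1 Z2 : Fin n → ℝ) : ℝ := ∑ i, Z1 i * Z2 i

/-- The bilinear form of a matrix. -/
def BB (A : Fin n → Fin n → ℝ) (Z1 Z2 : Fin n → ℝ) : ℝ := ∑ i, ∑ j, A i j * (Z1 i * Z2 j)

/-- Frobenius inner product of matrices. -/
def ip (A B : Fin n → Fin n → ℝ) : ℝ := ∑ i, ∑ j, A i j * B i j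

theorem dot_comm (Z1 Z2 : Fin n → ℝ) : dot Z1 Z2 = dot Z2 Z1 := by
  simp only [dot, mul_comm]

theorem BB_symm {A : Fin n → Fin n → ℝ} (hA : ∀ i j, A i j = A j i) (Z1 Z2 : Fin n → ℝ) :
    BB A Z1 Z2 = BB A Z2 Z1 := by
  simp only [BB]
  rw [Finset.sum_comm]
  refine Finset.sum_congr rfl (fun i _ => Finset.sum_congr rfl (fun j _ => ?_))
  rw [hA j i]
  ring

/-- A vector field `Z` behaving like `grad u / u`: its derivative is `B - c I - Z Z`. -/
structure Sp (Z : Fin n → Eu n → ℝ) (B : Fin n → Fin n → ℝ) (c : ℝ) (x : Eu n) : Prop where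
  grad : ∀ k, HG (Z k) (fun j => B k j - dl k j * c - Z k x * Z j x) x

theorem sum_dl_mul (j : Fin n) (f : Fin n → ℝ) : ∑ i, dl i j * f i = f j := by
  simp [dl]

theorem sum_dl_mul' (j : Fin n) (f : Fin n → ℝ) : ∑ i, dl j i * f i = f j := by
  simp [dl]

/-- Divergence of `W f Z`. -/
theorem div_f_Z {W f : Eu n → ℝ} {gW gf : Fin n → ℝ} {Z : Fin n → Eu n → ℝ}
    {B : Fin n → Fin n → ℝ} {c : ℝ} {x : Eu n} (hW : HG W gW x) (hf : HG f gf x)
    (hZ : Sp Z B c x) :
    ∑ i, pd i (fun y => W y * (f y * Z i y)) x =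
      ∑ i, gW i * (f x * Z i x) + W x * ∑ i, gf i * Z i x
        + W x * f x * (∑ i, B i i - n * c - ∑ i, Z i x * Z i x) := by
  have h1 : ∀ i, pd i (fun y => W y * (f y * Z i y)) x =
      gW i * (f x * Z i x) + W x * (gf i * Z i x)
        + W x * f x * (B i i - c - Z i x * Z i x) := by
    intro i
    have h2 := (hW.mul (hf.mul (hZ.grad i))).2 i
    rw [h2]
    simp only [dl, if_true, one_mul]
    ring
  simp_rw [h1]
  rw [Finset.sum_add_distrib, Finset.sum_add_distrib, ← Finset.mul_sum, ← Finset.mul_sum,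
    Finset.sum_sub_distrib, Finset.sum_sub_distrib]
  simp

/-- Divergence of `W A Z`. -/
theorem div_A_Z {W : Eu n → ℝ} {gW : Fin n → ℝ} {A : Fin n → Fin n → Eu n → ℝ}
    {dA : Fin n → Fin n → Fin n → ℝ} {Z : Fin n → Eu n → ℝ}
    {B : Fin n → Fin n → ℝ} {c : ℝ} {x : Eu n} (hW : HG W gW x)
    (hA : ∀ i j, HG (A i j) (dA i j) x) (hZ : Sp Z B c x) :
    ∑ i, pd i (fun y => W y * ∑ j, A i j y * Z j y) x =
      ∑ i, gW i * (∑ j, A i j x * Z j x) + W x * ∑ j, (∑ i, dA i j i) * Z j x
        + W x * ∑ i, ∑ j, A i j x * (B j i - dl j i * c - Z j x * Z i x) := by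
  have h1 : ∀ i, pd i (fun y => W y * ∑ j, A i j y * Z j y) x =
      gW i * (∑ j, A i j x * Z j x) + W x * (∑ j, dA i j i * Z j x)
        + W x * ∑ j, A i j x * (B j i - dl j i * c - Z j x * Z i x) := by
    intro i
    have h3 : HG (fun y => ∑ j, A i j y * Z j y)
        (fun k => ∑ j, (dA i j k * Z j x + A i j x * (B j k - dl j k * c - Z j x * Z k x))) x :=
      HG.sum Finset.univ (fun j _ => (hA i j).mul (hZ.grad j))
    have h2 := (hW.mul h3).2 i
    rw [h2]
    beta_reduce
    rw [Finset.sum_add_distrib]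
    ring
  simp_rw [h1]
  rw [Finset.sum_add_distrib, Finset.sum_add_distrib, ← Finset.mul_sum, ← Finset.mul_sum]
  congr 2
  congr 1
  rw [Finset.sum_comm]
  simp only [Finset.sum_mul]

/-- Contraction appearing in `div_A_Z`. -/
theorem contr_A (A B : Fin n → Fin n → ℝ) (c : ℝ) (Z : Fin n → ℝ) :
    ∑ i, ∑ j, A i j * (B j i - dl j i * c - Z j * Z i)
      = (∑ i, ∑ j, A i j * B j i) - c * ∑ i, A i i - BB A Z Z := by
  have h1 : ∀ i, ∑ j, A i j * (B j i - dl j i * c - Z j * Z i)
      = ∑ j, A i j * B j i - c * A i i - ∑ j, A i j * (Z i * Z j) := by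
    intro i
    have h2 : ∑ j, A i j * (dl j i * c) = c * A i i := by
      have := sum_dl_mul i (fun j => c * A i j)
      rw [← this]
      exact Finset.sum_congr rfl (fun j _ => by ring)
    rw [← h2, ← Finset.sum_sub_distrib, ← Finset.sum_sub_distrib]
    exact Finset.sum_congr rfl (fun j _ => by ring)
  simp_rw [h1]
  rw [Finset.sum_sub_distrib, Finset.sum_sub_distrib, ← Finset.mul_sum]
  rfl

/-- Contraction for the `W` term of `div_A_Z`. -/
theorem contr_W (A : Fin n → Fin n → ℝ) (w α β : ℝ) (X Y Z : Fin n → ℝ) :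
    ∑ i, (w * (α * X i + β * Y i)) * (∑ j, A i j * Z j) = w * (α * BB A X Z + β * BB A Y Z) := by
  simp only [BB, Finset.mul_sum, ← Finset.sum_add_distrib]
  refine Finset.sum_congr rfl (fun i _ => ?_)
  refine Finset.sum_congr rfl (fun j _ => ?_)
  ring

/-- Contraction for the divergence term of `div_A_Z`. -/
theorem contr_div (A : Fin n → Fin n → ℝ) (e : ℝ) (X Y Z : Fin n → ℝ) :
    ∑ j, (- (e * Y j) - ∑ i, A i j * X i) * Z j = - (e * dot Y Z) - BB A X Z := by
  simp only [BB, dot, sub_mul, Finset.sum_sub_distrib, Finset.sum_mul, neg_mul]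
  rw [Finset.mul_sum, ← Finset.sum_neg_distrib]
  congr 1
  · exact Finset.sum_congr rfl (fun j _ => by ring)
  · rw [Finset.sum_comm]
    refine Finset.sum_congr rfl (fun i _ => Finset.sum_congr rfl (fun j _ => ?_))
    ring

/-- Contraction for the gradient of a dot product. -/
theorem contr_zz (BP BR : Fin n → Fin n → ℝ) (cP cR : ℝ) (P R S : Fin n → ℝ) :
    ∑ j, (∑ k, ((BP k j - dl k j * cP - P k * P j) * R k
        + P k * (BR k j - dl k j * cR - R k * R j))) * S j
      = BB BP R S - cP * dot R S - dot P R * dot P S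
        + (BB BR P S - cR * dot P S - dot P R * dot R S) := by
  have h1 : ∀ j, ∑ k, ((BP k j - dl k j * cP - P k * P j) * R k
        + P k * (BR k j - dl k j * cR - R k * R j))
      = ∑ k, BP k j * R k - cP * R j - dot P R * P j
        + (∑ k, BR k j * P k - cR * P j - dot P R * R j) := by
    intro j
    have h2 : cP * R j = ∑ k, dl k j * (cP * R k) := (sum_dl_mul j (fun k => cP * R k)).symm
    have h3 : cR * P j = ∑ k, dl k j * (cR * P k) := (sum_dl_mul j (fun k => cR * P k)).symm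
    rw [h2, h3]
    simp only [dot, Finset.sum_mul]
    simp only [← Finset.sum_sub_distrib, ← Finset.sum_add_distrib]
    refine Finset.sum_congr rfl (fun k _ => ?_)
    ring
  simp_rw [h1]
  have h4 : ∀ (A : Fin n → Fin n → ℝ) (Z : Fin n → ℝ),
      ∑ j, (∑ k, A k j * Z k) * S j = BB A Z S := by
    intro A Z
    simp only [BB, Finset.sum_mul]
    rw [Finset.sum_comm]
    refine Finset.sum_congr rfl (fun i _ => Finset.sum_congr rfl (fun j _ => ?_))
    ring
  rw [← h4 BP R, ← h4 BR P]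
  simp only [dot, add_mul, sub_mul, Finset.sum_add_distrib, Finset.sum_sub_distrib]
  simp only [Finset.mul_sum, Finset.sum_mul, mul_assoc]

end Vale.Agent.Lib.P100
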