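import Vale.Agent.Lib.P100.Jets3

/-!
# P100: the jet identities for `C²` solutions at a point.

`Loc2` is the `C²` version of `Loc`. The ten fields without Hessian (`d2c4`, ..., `d2c13`) are
classical; for the four Hessian fields there is only the formal divergence (`FormalU`), which the
weak lemma in `WeakU.lean` justifies after integration against a test function.
-/

open scoped BigOperators
open Filter Topology

set_option linter.unusedSimpArgs false

noncomputable section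

namespace Vale.Agent.Lib.P100

variable {n : ℕ}

/-- Local hypotheses at `x`: `u, v` are positive and `C²` near `x` and solve the system at `x`. -/
structure Loc2 (u v : Eu n → ℝ) (p q : ℝ) (x : Eu n) : Prop where
  cu : ContDiffAt ℝ 2 u x
  cv : ContDiffAt ℝ 2 v x
  upos : 0 < u x
  vpos : 0 < v x
  pdeU : ∑ i, Hf u i i x = - v x ^ p
  pdeV : ∑ i, Hf v i i x = - u x ^ q
  hn : (n : ℝ) ≠ 0

section
variable {u v : Eu n → ℝ} {p q : ℝ} {x : Eu n}

theorem Loc2.swap (h : Loc2 u v p q x) : Loc2 v u q p x :=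
  ⟨h.cv, h.cu, h.vpos, h.upos, h.pdeV, h.pdeU, h.hn⟩

theorem Loc2.hg_u (h : Loc2 u v p q x) : HG u (fun j => pd j u x) x :=
  HG.of_diff (h.cu.differentiableAt (by norm_num))

theorem Loc2.cu1 (h : Loc2 u v p q x) (i : Fin n) : ContDiffAt ℝ 1 (pd i u) x :=
  cd_pd (k := 1) h.cu i

theorem Loc2.hg_pd (h : Loc2 u v p q x) (i : Fin n) : HG (pd i u) (fun j => Hf u i j x) x :=
  ⟨(h.cu1 i).differentiableAt (by norm_num), fun _ => rfl⟩

theorem Loc2.H_symm (h : Loc2 u v p q x) (i j : Fin n) : Hf u i j x = Hf u j i x :=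
  pd_symm h.cu i j

theorem Loc2.H_div (_h : Loc2 u v p q x) (i j : Fin n) :
    Hf u i j x / u x = Uf u v p i j x - dl i j * (Sf u v p x / n) := by
  simp [Uf]

/-- Gradient of `X_i`. -/
theorem Loc2.hg_X (h : Loc2 u v p q x) (i : Fin n) :
    HG (Xf u i) (fun j => Uf u v p i j x - dl i j * (Sf u v p x / n) - Xf u i x * Xf u j x) x := by
  have h1 := (h.hg_pd i).div h.hg_u h.upos.ne'
  refine HG.congr_g h1 (fun j => ?_)
  rw [← h.H_div]
  have hu := h.upos.ne'
  simp only [Xf]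
  field_simp

/-- Gradient of `s`. -/
theorem Loc2.hg_S (h : Loc2 u v p q x) :
    HG (Sf u v p) (fun j => Sf u v p x * (p * Xf v j x - Xf u j x)) x := by
  have hv : HG v (fun j => pd j v x) x := h.swap.hg_u
  have h1 := (hv.rpow h.vpos p).div h.hg_u h.upos.ne'
  refine HG.congr_g h1 (fun j => ?_)
  have hu0 := h.upos.ne'
  have hv0 := h.vpos.ne'
  simp only [Xf, Sf]
  rw [Real.rpow_sub_one hv0]
  field_simp

/-- Gradient of a weight `u^a v^b`. -/
theorem Loc2.hg_W (h : Loc2 u v p q x) (a b : ℝ) :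
    HG (Wf u v a b) (fun j => Wf u v a b x * (a * Xf u j x + b * Xf v j x)) x := by
  have hv : HG v (fun j => pd j v x) x := h.swap.hg_u
  have h1 := (h.hg_u.rpow h.upos a).mul (hv.rpow h.vpos b)
  refine HG.congr_g h1 (fun j => ?_)
  have hu0 := h.upos.ne'
  have hv0 := h.vpos.ne'
  simp only [Xf, Wf]
  rw [Real.rpow_sub_one hv0, Real.rpow_sub_one hu0]
  field_simp

/-- The trace of `U0` vanishes. -/
theorem Loc2.trU (h : Loc2 u v p q x) : ∑ i, Uf u v p i i x = 0 := by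
  have h1 : ∑ i, Hf u i i x = - v x ^ p := h.pdeU
  have hu0 := h.upos.ne'
  have hn := h.hn
  simp only [Uf, dl, if_true, one_mul, Finset.sum_add_distrib, ← Finset.sum_div, h1]
  simp only [Finset.sum_const, Finset.card_univ, Fintype.card_fin, nsmul_eq_mul, Sf]
  field_simp
  ring

theorem Loc2.U_symm (h : Loc2 u v p q x) (i j : Fin n) : Uf u v p i j x = Uf u v p j i x := by
  simp only [Uf, h.H_symm i j, dl, eq_comm]

theorem Loc2.spX (h : Loc2 u v p q x) : Sp (Xf u) (Um u v p x) (Sf u v p x / n) x :=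
  ⟨fun k => h.hg_X k⟩

theorem Loc2.spY (h : Loc2 u v p q x) : Sp (Xf v) (Um v u q x) (Sf v u q x / n) x :=
  ⟨fun k => h.swap.hg_X k⟩

theorem Loc2.Um_symm (h : Loc2 u v p q x) (i j : Fin n) : Um u v p x i j = Um u v p x j i :=
  h.U_symm i j

theorem Loc2.trUm (h : Loc2 u v p q x) : ∑ i, Um u v p x i i = 0 := h.trU

theorem Loc2.hW (h : Loc2 u v p q x) (a b : ℝ) :
    HG (Wf u v a b) (fun i => Wf u v a b x * (a * Xv u x i + b * Xv v x i)) x := h.hg_W a b

theorem Loc2.hW' (h : Loc2 u v p q x) (a b : ℝ) :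
    HG (Wf u v a b) (fun i => Wf u v a b x * (b * Xv v x i + a * Xv u x i)) x :=
  (h.hg_W a b).congr_g (fun i => by simp only [Xv]; ring)

theorem Loc2.inner_symm (h : Loc2 u v p q x) (A : Fin n → Fin n → ℝ) :
    ∑ i, ∑ j, A i j * Um u v p x j i = ip A (Um u v p x) := by
  simp only [ip]
  refine Finset.sum_congr rfl (fun i _ => Finset.sum_congr rfl (fun j _ => ?_))
  rw [h.Um_symm j i]

theorem Loc2.n_c (h : Loc2 u v p q x) : (n : ℝ) * (Sf u v p x / n) = Sf u v p x := by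
  have := h.hn
  field_simp

theorem d2c4 (h : Loc2 u v p q x) (a b : ℝ) :
    ∑ i, pd i (fun y => Wf u v a b y * Fz (Xf u) (Xf u) (Xf u) i y) x =
      Wf u v a b x * (2 * (atomsAt u v p q x).UXX + (a - 3) * (atomsAt u v p q x).x ^ 2 + b * ((atomsAt u v p q x).x * (atomsAt u v p q x).z) - (1 + 2 / (n:ℝ)) * ((atomsAt u v p q x).s * (atomsAt u v p q x).x)) := by
  have hs := h.swap
  have bU1 := BB_symm h.Um_symm (Xv u x) (Xv v x)
  have bU2 := BB_symm hs.Um_symm (Xv u x) (Xv v x)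
  have dz := dot_comm (Xv u x) (Xv v x)
  have tr1 := h.trUm
  have tr2 := hs.trUm
  have nc1 := h.n_c
  have nc2 := hs.n_c
  have ip1 := h.inner_symm
  have ip2 := hs.inner_symm
  have ipc := ip_comm (Um u v p x) (Um v u q x)
  have hX : (fun i => Xf u i x) = Xv u x := rfl
  have hY : (fun i => Xf v i x) = Xv v x := rfl
  have d := D_zzS (h.hW a b) h.spX h.spX h.spX
  rw [d]
  simp only [atomsAt, hX, hY, ip1, ip2, tr1, tr2, nc1, nc2, bU2.symm, bU1.symm, dz.symm]
  try rw [ipc]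
  ring

theorem d2c5 (h : Loc2 u v p q x) (a b : ℝ) :
    ∑ i, pd i (fun y => Wf u v a b y * Fz (Xf u) (Xf u) (Xf v) i y) x =
      Wf u v a b x * (2 * (atomsAt u v p q x).UXY + (a - 2) * ((atomsAt u v p q x).x * (atomsAt u v p q x).z) + (b - 1) * ((atomsAt u v p q x).x * (atomsAt u v p q x).y) - (2 / (n:ℝ)) * ((atomsAt u v p q x).s * (atomsAt u v p q x).z) - (atomsAt u v p q x).t * (atomsAt u v p q x).x) := by
  have hs := h.swap
  have bU1 := BB_symm h.Um_symm (Xv u x) (Xv v x)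
  have bU2 := BB_symm hs.Um_symm (Xv u x) (Xv v x)
  have dz := dot_comm (Xv u x) (Xv v x)
  have tr1 := h.trUm
  have tr2 := hs.trUm
  have nc1 := h.n_c
  have nc2 := hs.n_c
  have ip1 := h.inner_symm
  have ip2 := hs.inner_symm
  have ipc := ip_comm (Um u v p x) (Um v u q x)
  have hX : (fun i => Xf u i x) = Xv u x := rfl
  have hY : (fun i => Xf v i x) = Xv v x := rfl
  have d := D_zzS (h.hW a b) h.spX h.spX h.spY
  rw [d]
  simp only [atomsAt, hX, hY, ip1, ip2, tr1, tr2, nc1, nc2, bU2.symm, bU1.symm, dz.symm]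
  try rw [ipc]
  ring

theorem d2c6 (h : Loc2 u v p q x) (a b : ℝ) :
    ∑ i, pd i (fun y => Wf u v a b y * Fz (Xf u) (Xf v) (Xf u) i y) x =
      Wf u v a b x * ((atomsAt u v p q x).UXY + (atomsAt u v p q x).VXX + (a - 2) * ((atomsAt u v p q x).x * (atomsAt u v p q x).z) + (b - 1) * (atomsAt u v p q x).z ^ 2 - (1 + 1 / (n:ℝ)) * ((atomsAt u v p q x).s * (atomsAt u v p q x).z) - (1 / (n:ℝ)) * ((atomsAt u v p q x).t * (atomsAt u v p q x).x)) := by
  have hs := h.swap
  have bU1 := BB_symm h.Um_symm (Xv u x) (Xv v x)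
  have bU2 := BB_symm hs.Um_symm (Xv u x) (Xv v x)
  have dz := dot_comm (Xv u x) (Xv v x)
  have tr1 := h.trUm
  have tr2 := hs.trUm
  have nc1 := h.n_c
  have nc2 := hs.n_c
  have ip1 := h.inner_symm
  have ip2 := hs.inner_symm
  have ipc := ip_comm (Um u v p x) (Um v u q x)
  have hX : (fun i => Xf u i x) = Xv u x := rfl
  have hY : (fun i => Xf v i x) = Xv v x := rfl
  have d := D_zzS (h.hW a b) h.spX h.spY h.spX
  rw [d]
  simp only [atomsAt, hX, hY, ip1, ip2, tr1, tr2, nc1, nc2, bU2.symm, bU1.symm, dz.symm]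
  try rw [ipc]
  ring

theorem d2c7 (h : Loc2 u v p q x) (a b : ℝ) :
    ∑ i, pd i (fun y => Wf u v a b y * Fz (Xf u) (Xf v) (Xf v) i y) x =
      Wf u v a b x * ((atomsAt u v p q x).VXY + (atomsAt u v p q x).UYY + (b - 2) * ((atomsAt u v p q x).y * (atomsAt u v p q x).z) + (a - 1) * (atomsAt u v p q x).z ^ 2 - (1 + 1 / (n:ℝ)) * ((atomsAt u v p q x).t * (atomsAt u v p q x).z) - (1 / (n:ℝ)) * ((atomsAt u v p q x).s * (atomsAt u v p q x).y)) := by
  have hs := h.swap
  have bU1 := BB_symm h.Um_symm (Xv u x) (Xv v x)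
  have bU2 := BB_symm hs.Um_symm (Xv u x) (Xv v x)
  have dz := dot_comm (Xv u x) (Xv v x)
  have tr1 := h.trUm
  have tr2 := hs.trUm
  have nc1 := h.n_c
  have nc2 := hs.n_c
  have ip1 := h.inner_symm
  have ip2 := hs.inner_symm
  have ipc := ip_comm (Um u v p x) (Um v u q x)
  have hX : (fun i => Xf u i x) = Xv u x := rfl
  have hY : (fun i => Xf v i x) = Xv v x := rfl
  have d := D_zzS (h.hW a b) h.spX h.spY h.spY
  rw [d]
  simp only [atomsAt, hX, hY, ip1, ip2, tr1, tr2, nc1, nc2, bU2.symm, bU1.symm, dz.symm]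
  try rw [ipc]
  ring

theorem d2c8 (h : Loc2 u v p q x) (a b : ℝ) :
    ∑ i, pd i (fun y => Wf u v a b y * Fz (Xf v) (Xf v) (Xf u) i y) x =
      Wf u v a b x * (2 * (atomsAt u v p q x).VXY + (b - 2) * ((atomsAt u v p q x).y * (atomsAt u v p q x).z) + (a - 1) * ((atomsAt u v p q x).x * (atomsAt u v p q x).y) - (2 / (n:ℝ)) * ((atomsAt u v p q x).t * (atomsAt u v p q x).z) - (atomsAt u v p q x).s * (atomsAt u v p q x).y) := by
  have hs := h.swap
  have bU1 := BB_symm h.Um_symm (Xv u x) (Xv v x)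
  have bU2 := BB_symm hs.Um_symm (Xv u x) (Xv v x)
  have dz := dot_comm (Xv u x) (Xv v x)
  have tr1 := h.trUm
  have tr2 := hs.trUm
  have nc1 := h.n_c
  have nc2 := hs.n_c
  have ip1 := h.inner_symm
  have ip2 := hs.inner_symm
  have ipc := ip_comm (Um u v p x) (Um v u q x)
  have hX : (fun i => Xf u i x) = Xv u x := rfl
  have hY : (fun i => Xf v i x) = Xv v x := rfl
  have d := D_zzS (h.hW a b) h.spY h.spY h.spX
  rw [d]
  simp only [atomsAt, hX, hY, ip1, ip2, tr1, tr2, nc1, nc2, bU2.symm, bU1.symm, dz.symm]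
  try rw [ipc]
  ring

theorem d2c9 (h : Loc2 u v p q x) (a b : ℝ) :
    ∑ i, pd i (fun y => Wf u v a b y * Fz (Xf v) (Xf v) (Xf v) i y) x =
      Wf u v a b x * (2 * (atomsAt u v p q x).VYY + (b - 3) * (atomsAt u v p q x).y ^ 2 + a * ((atomsAt u v p q x).y * (atomsAt u v p q x).z) - (1 + 2 / (n:ℝ)) * ((atomsAt u v p q x).t * (atomsAt u v p q x).y)) := by
  have hs := h.swap
  have bU1 := BB_symm h.Um_symm (Xv u x) (Xv v x)
  have bU2 := BB_symm hs.Um_symm (Xv u x) (Xv v x)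
  have dz := dot_comm (Xv u x) (Xv v x)
  have tr1 := h.trUm
  have tr2 := hs.trUm
  have nc1 := h.n_c
  have nc2 := hs.n_c
  have ip1 := h.inner_symm
  have ip2 := hs.inner_symm
  have ipc := ip_comm (Um u v p x) (Um v u q x)
  have hX : (fun i => Xf u i x) = Xv u x := rfl
  have hY : (fun i => Xf v i x) = Xv v x := rfl
  have d := D_zzS (h.hW a b) h.spY h.spY h.spY
  rw [d]
  simp only [atomsAt, hX, hY, ip1, ip2, tr1, tr2, nc1, nc2, bU2.symm, bU1.symm, dz.symm]
  try rw [ipc]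
  ring

theorem d2c10 (h : Loc2 u v p q x) (a b : ℝ) :
    ∑ i, pd i (fun y => Wf u v a b y * Fs (Sf u v p) (Xf u) i y) x =
      Wf u v a b x * ((a - 2) * ((atomsAt u v p q x).s * (atomsAt u v p q x).x) + (b + p) * ((atomsAt u v p q x).s * (atomsAt u v p q x).z) - (atomsAt u v p q x).s ^ 2) := by
  have hs := h.swap
  have bU1 := BB_symm h.Um_symm (Xv u x) (Xv v x)
  have bU2 := BB_symm hs.Um_symm (Xv u x) (Xv v x)
  have dz := dot_comm (Xv u x) (Xv v x)
  have tr1 := h.trUm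
  have tr2 := hs.trUm
  have nc1 := h.n_c
  have nc2 := hs.n_c
  have ip1 := h.inner_symm
  have ip2 := hs.inner_symm
  have ipc := ip_comm (Um u v p x) (Um v u q x)
  have hX : (fun i => Xf u i x) = Xv u x := rfl
  have hY : (fun i => Xf v i x) = Xv v x := rfl
  have d := D_fS (h.hW a b) h.hg_S h.spX
  rw [d]
  simp only [atomsAt, hX, hY, ip1, ip2, tr1, tr2, nc1, nc2, bU2.symm, bU1.symm, dz.symm]
  try rw [ipc]
  ring

theorem d2c11 (h : Loc2 u v p q x) (a b : ℝ) :
    ∑ i, pd i (fun y => Wf u v a b y * Fs (Sf u v p) (Xf v) i y) x =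
      Wf u v a b x * ((a - 1) * ((atomsAt u v p q x).s * (atomsAt u v p q x).z) + (b + p - 1) * ((atomsAt u v p q x).s * (atomsAt u v p q x).y) - (atomsAt u v p q x).s * (atomsAt u v p q x).t) := by
  have hs := h.swap
  have bU1 := BB_symm h.Um_symm (Xv u x) (Xv v x)
  have bU2 := BB_symm hs.Um_symm (Xv u x) (Xv v x)
  have dz := dot_comm (Xv u x) (Xv v x)
  have tr1 := h.trUm
  have tr2 := hs.trUm
  have nc1 := h.n_c
  have nc2 := hs.n_c
  have ip1 := h.inner_symm
  have ip2 := hs.inner_symm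
  have ipc := ip_comm (Um u v p x) (Um v u q x)
  have hX : (fun i => Xf u i x) = Xv u x := rfl
  have hY : (fun i => Xf v i x) = Xv v x := rfl
  have d := D_fS (h.hW a b) h.hg_S h.spY
  rw [d]
  simp only [atomsAt, hX, hY, ip1, ip2, tr1, tr2, nc1, nc2, bU2.symm, bU1.symm, dz.symm]
  try rw [ipc]
  ring

theorem d2c12 (h : Loc2 u v p q x) (a b : ℝ) :
    ∑ i, pd i (fun y => Wf u v a b y * Fs (Sf v u q) (Xf u) i y) x =
      Wf u v a b x * ((b - 1) * ((atomsAt u v p q x).t * (atomsAt u v p q x).z) + (a + q - 1) * ((atomsAt u v p q x).t * (atomsAt u v p q x).x) - (atomsAt u v p q x).s * (atomsAt u v p q x).t) := by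
  have hs := h.swap
  have bU1 := BB_symm h.Um_symm (Xv u x) (Xv v x)
  have bU2 := BB_symm hs.Um_symm (Xv u x) (Xv v x)
  have dz := dot_comm (Xv u x) (Xv v x)
  have tr1 := h.trUm
  have tr2 := hs.trUm
  have nc1 := h.n_c
  have nc2 := hs.n_c
  have ip1 := h.inner_symm
  have ip2 := hs.inner_symm
  have ipc := ip_comm (Um u v p x) (Um v u q x)
  have hX : (fun i => Xf u i x) = Xv u x := rfl
  have hY : (fun i => Xf v i x) = Xv v x := rfl
  have d := D_fS (h.hW a b) h.swap.hg_S h.spX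
  rw [d]
  simp only [atomsAt, hX, hY, ip1, ip2, tr1, tr2, nc1, nc2, bU2.symm, bU1.symm, dz.symm]
  try rw [ipc]
  ring

theorem d2c13 (h : Loc2 u v p q x) (a b : ℝ) :
    ∑ i, pd i (fun y => Wf u v a b y * Fs (Sf v u q) (Xf v) i y) x =
      Wf u v a b x * ((b - 2) * ((atomsAt u v p q x).t * (atomsAt u v p q x).y) + (a + q) * ((atomsAt u v p q x).t * (atomsAt u v p q x).z) - (atomsAt u v p q x).t ^ 2) := by
  have hs := h.swap
  have bU1 := BB_symm h.Um_symm (Xv u x) (Xv v x)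
  have bU2 := BB_symm hs.Um_symm (Xv u x) (Xv v x)
  have dz := dot_comm (Xv u x) (Xv v x)
  have tr1 := h.trUm
  have tr2 := hs.trUm
  have nc1 := h.n_c
  have nc2 := hs.n_c
  have ip1 := h.inner_symm
  have ip2 := hs.inner_symm
  have ipc := ip_comm (Um u v p x) (Um v u q x)
  have hX : (fun i => Xf u i x) = Xv u x := rfl
  have hY : (fun i => Xf v i x) = Xv v x := rfl
  have d := D_fS (h.hW a b) h.swap.hg_S h.spY
  rw [d]
  simp only [atomsAt, hX, hY, ip1, ip2, tr1, tr2, nc1, nc2, bU2.symm, bU1.symm, dz.symm]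
  try rw [ipc]
  ring


end

end Vale.Agent.Lib.P100
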