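import Vale.Agent.Lib.P100.Jets2

/-!
# P100: the 14 divergence identities.
-/

open scoped BigOperators
open Filter Topology

set_option linter.unusedSimpArgs false

noncomputable section

namespace Vale.Agent.Lib.P100

variable {n : ℕ}

/-- `X` at the point `x` as a real vector. -/
def Xv (u : Eu n → ℝ) (x : Eu n) : Fin n → ℝ := fun i => Xf u i x

/-- `U0` at the point `x` as a real matrix. -/
def Um (u v : Eu n → ℝ) (p : ℝ) (x : Eu n) : Fin n → Fin n → ℝ := fun i j => Uf u v p i j x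

/-- The atoms of the jet of `(u,v)` at `x`. -/
def atomsAt (u v : Eu n → ℝ) (p q : ℝ) (x : Eu n) : Atoms where
  UU := ip (Um u v p x) (Um u v p x)
  UV := ip (Um u v p x) (Um v u q x)
  VV := ip (Um v u q x) (Um v u q x)
  UXX := BB (Um u v p x) (Xv u x) (Xv u x)
  UXY := BB (Um u v p x) (Xv u x) (Xv v x)
  UYY := BB (Um u v p x) (Xv v x) (Xv v x)
  VXX := BB (Um v u q x) (Xv u x) (Xv u x)
  VXY := BB (Um v u q x) (Xv u x) (Xv v x)
  VYY := BB (Um v u q x) (Xv v x) (Xv v x)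
  x := dot (Xv u x) (Xv u x)
  z := dot (Xv u x) (Xv v x)
  y := dot (Xv v x) (Xv v x)
  s := Sf u v p x
  t := Sf v u q x

/-- The field `U0 Z`. -/
def FU (u v : Eu n → ℝ) (p : ℝ) (Z : Fin n → Eu n → ℝ) (i : Fin n) (y : Eu n) : ℝ :=
  ∑ j, Uf u v p i j y * Z j y

/-- The field `(P.R) S`. -/
def Fz (P R S : Fin n → Eu n → ℝ) (i : Fin n) (y : Eu n) : ℝ :=
  (∑ k, P k y * R k y) * S i y

/-- The field `f S`. -/
def Fs (f : Eu n → ℝ) (S : Fin n → Eu n → ℝ) (i : Fin n) (y : Eu n) : ℝ := f y * S i y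

/-- The 14 vector fields. -/
def Flds (u v : Eu n → ℝ) (p q : ℝ) : Fin 14 → Fin n → Eu n → ℝ :=
  ![FU u v p (Xf u), FU u v p (Xf v), FU v u q (Xf u), FU v u q (Xf v),
    Fz (Xf u) (Xf u) (Xf u), Fz (Xf u) (Xf u) (Xf v), Fz (Xf u) (Xf v) (Xf u),
    Fz (Xf u) (Xf v) (Xf v), Fz (Xf v) (Xf v) (Xf u), Fz (Xf v) (Xf v) (Xf v),
    Fs (Sf u v p) (Xf u), Fs (Sf u v p) (Xf v), Fs (Sf v u q) (Xf u), Fs (Sf v u q) (Xf v)]

section
variable {u v : Eu n → ℝ} {p q : ℝ} {x : Eu n}

theorem Loc.spX (h : Loc u v p q x) : Sp (Xf u) (Um u v p x) (Sf u v p x / n) x :=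
  ⟨fun k => h.hg_X k⟩

theorem Loc.spY (h : Loc u v p q x) : Sp (Xf v) (Um v u q x) (Sf v u q x / n) x :=
  ⟨fun k => h.swap.hg_X k⟩

theorem Loc.Um_symm (h : Loc u v p q x) (i j : Fin n) : Um u v p x i j = Um u v p x j i :=
  h.U_symm i j

theorem Loc.trUm (h : Loc u v p q x) : ∑ i, Um u v p x i i = 0 := h.trU

/-- Generic identity for `W U0 Z`. -/
theorem D_UZ (h : Loc u v p q x) {W : Eu n → ℝ} {α β : ℝ}
    (hW : HG W (fun i => W x * (α * Xf u i x + β * Xf v i x)) x)
    {Z : Fin n → Eu n → ℝ} {B : Fin n → Fin n → ℝ} {c : ℝ} (hZ : Sp Z B c x) :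
    ∑ i, pd i (fun y => W y * FU u v p Z i y) x =
      W x * (α * BB (Um u v p x) (Xv u x) (fun i => Z i x)
        + β * BB (Um u v p x) (Xv v x) (fun i => Z i x)
        + (- ((1 - 1 / (n : ℝ)) * p * Sf u v p x * dot (Xv v x) (fun i => Z i x))
            - BB (Um u v p x) (Xv u x) (fun i => Z i x))
        + ((∑ i, ∑ j, Um u v p x i j * B j i) - BB (Um u v p x) (fun i => Z i x) (fun i => Z i x)))
    := by
  have h1 := div_A_Z (A := Uf u v p) (dA := fun i j k => pd k (Uf u v p i j) x) hW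
    (fun i j => HG.of_diff (h.hg_U i j).1) hZ
  have h2 : ∑ j, (∑ i, pd i (Uf u v p i j) x) * Z j x
      = - ((1 - 1 / (n : ℝ)) * p * Sf u v p x * dot (Xv v x) (fun i => Z i x))
            - BB (Um u v p x) (Xv u x) (fun i => Z i x) := by
    simp_rw [h.div_U]
    exact contr_div (Um u v p x) _ (Xv u x) (Xv v x) (fun i => Z i x)
  have h3 := contr_A (Um u v p x) B c (fun i => Z i x)
  have h4 := contr_W (Um u v p x) (W x) α β (Xv u x) (Xv v x) (fun i => Z i x)
  simp only [FU]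
  rw [h1, h2]
  simp only [Um, Xv] at h3 h4 ⊢
  rw [h3, h4]
  have h5 := h.trU
  rw [h5]
  ring

/-- Generic identity for `W (P.R) S`. -/
theorem D_zzS {W : Eu n → ℝ} {α β : ℝ} {X1 X2 : Fin n → ℝ}
    (hW : HG W (fun i => W x * (α * X1 i + β * X2 i)) x)
    {P R S : Fin n → Eu n → ℝ} {BP BR BS : Fin n → Fin n → ℝ} {cP cR cS : ℝ}
    (hP : Sp P BP cP x) (hR : Sp R BR cR x) (hS : Sp S BS cS x) :
    ∑ i, pd i (fun y => W y * Fz P R S i y) x =
      W x * (dot (fun i => P i x) (fun i => R i x) *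
          (α * dot X1 (fun i => S i x) + β * dot X2 (fun i => S i x))
        + (BB BP (fun i => R i x) (fun i => S i x) - cP * dot (fun i => R i x) (fun i => S i x)
            - dot (fun i => P i x) (fun i => R i x) * dot (fun i => P i x) (fun i => S i x)
          + (BB BR (fun i => P i x) (fun i => S i x) - cR * dot (fun i => P i x) (fun i => S i x)
            - dot (fun i => P i x) (fun i => R i x) * dot (fun i => R i x) (fun i => S i x)))
        + dot (fun i => P i x) (fun i => R i x) *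
            (∑ i, BS i i - n * cS - dot (fun i => S i x) (fun i => S i x))) := by
  have hf : HG (fun y => ∑ k, P k y * R k y) (fun j => ∑ k,
      ((BP k j - dl k j * cP - P k x * P j x) * R k x
        + P k x * (BR k j - dl k j * cR - R k x * R j x))) x :=
    HG.sum Finset.univ (fun k _ => (hP.grad k).mul (hR.grad k))
  have h1 := div_f_Z hW hf hS
  have h2 := contr_zz BP BR cP cR (fun i => P i x) (fun i => R i x) (fun i => S i x)
  simp only [Fz]
  rw [h1]
  rw [h2]
  have h3 : ∑ i, (W x * (α * X1 i + β * X2 i)) * ((∑ k, P k x * R k x) * S i x)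
      = W x * (dot (fun i => P i x) (fun i => R i x) *
          (α * dot X1 (fun i => S i x) + β * dot X2 (fun i => S i x))) := by
    simp only [dot, Finset.mul_sum, ← Finset.sum_add_distrib]
    refine Finset.sum_congr rfl (fun i _ => ?_)
    ring
  rw [h3]
  simp only [dot]
  ring

/-- Generic identity for `W f S` where `grad f = f (g E1 - E2)`. -/
theorem D_fS {W f : Eu n → ℝ} {α β g : ℝ} {X1 X2 E1 E2 : Fin n → ℝ}
    (hW : HG W (fun i => W x * (α * X1 i + β * X2 i)) x)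
    (hf : HG f (fun j => f x * (g * E1 j - E2 j)) x)
    {S : Fin n → Eu n → ℝ} {BS : Fin n → Fin n → ℝ} {cS : ℝ} (hS : Sp S BS cS x) :
    ∑ i, pd i (fun y => W y * Fs f S i y) x =
      W x * (f x * ((α * dot X1 (fun i => S i x) + β * dot X2 (fun i => S i x))
        + (g * dot E1 (fun i => S i x) - dot E2 (fun i => S i x))
        + (∑ i, BS i i - n * cS - dot (fun i => S i x) (fun i => S i x)))) := by
  have h1 := div_f_Z hW hf hS
  simp only [Fs]
  rw [h1]
  have h3 : ∑ i, (W x * (α * X1 i + β * X2 i)) * (f x * S i x)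
      = W x * (f x * (α * dot X1 (fun i => S i x) + β * dot X2 (fun i => S i x))) := by
    simp only [dot, Finset.mul_sum, ← Finset.sum_add_distrib]
    refine Finset.sum_congr rfl (fun i _ => ?_)
    ring
  have h4 : ∑ i, (f x * (g * E1 i - E2 i)) * S i x
      = f x * (g * dot E1 (fun i => S i x) - dot E2 (fun i => S i x)) := by
    simp only [dot, Finset.mul_sum, ← Finset.sum_sub_distrib]
    refine Finset.sum_congr rfl (fun i _ => ?_)
    ring
  rw [h3, h4]
  simp only [dot]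
  ring


/-- The weight with the coefficients in the form used by the generic lemmas (for `u,v`). -/
theorem Loc.hW (h : Loc u v p q x) (a b : ℝ) :
    HG (Wf u v a b) (fun i => Wf u v a b x * (a * Xv u x i + b * Xv v x i)) x := h.hg_W a b

theorem Loc.hW' (h : Loc u v p q x) (a b : ℝ) :
    HG (Wf u v a b) (fun i => Wf u v a b x * (b * Xv v x i + a * Xv u x i)) x :=
  (h.hg_W a b).congr_g (fun i => by simp only [Xv]; ring)

theorem Loc.inner_symm (h : Loc u v p q x) (A : Fin n → Fin n → ℝ) :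
    ∑ i, ∑ j, A i j * Um u v p x j i = ip A (Um u v p x) := by
  simp only [ip]
  refine Finset.sum_congr rfl (fun i _ => Finset.sum_congr rfl (fun j _ => ?_))
  rw [h.Um_symm j i]

theorem ip_comm (A B : Fin n → Fin n → ℝ) : ip A B = ip B A := by
  simp only [ip, mul_comm]

theorem Loc.n_c (h : Loc u v p q x) : (n : ℝ) * (Sf u v p x / n) = Sf u v p x := by
  have := h.hn
  field_simp

theorem d0 (h : Loc u v p q x) (a b : ℝ) :
    ∑ i, pd i (fun y => Wf u v a b y * FU u v p (Xf u) i y) x =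
      Wf u v a b x * ((atomsAt u v p q x).UU + (a - 2) * (atomsAt u v p q x).UXX + b * (atomsAt u v p q x).UXY - (1 - 1 / (n:ℝ)) * p * ((atomsAt u v p q x).s * (atomsAt u v p q x).z)) := by
  have hs := h.swap
  have bU1 := BB_symm h.Um_symm (Xv u x) (Xv v x)
  have bU2 := BB_symm hs.Um_symm (Xv u x) (Xv v x)
  have dz := dot_comm (Xv u x) (Xv v x)
  have tr1 := h.trUm
  have tr2 := hs.trUm
  have nc1 := h.n_c
  have nc2 := hs.n_c
  have ip1 := h.inner_symm
  have ip2 := hs.inner_symm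
  have ipc := ip_comm (Um u v p x) (Um v u q x)
  have hX : (fun i => Xf u i x) = Xv u x := rfl
  have hY : (fun i => Xf v i x) = Xv v x := rfl
  have d := D_UZ h (h.hW a b) h.spX
  rw [d]
  simp only [atomsAt, hX, hY, ip1, ip2, tr1, tr2, nc1, nc2, bU2.symm, bU1.symm, dz.symm]
  try rw [ipc]
  ring

theorem d1 (h : Loc u v p q x) (a b : ℝ) :
    ∑ i, pd i (fun y => Wf u v a b y * FU u v p (Xf v) i y) x =
      Wf u v a b x * ((atomsAt u v p q x).UV + (a - 1) * (atomsAt u v p q x).UXY + (b - 1) * (atomsAt u v p q x).UYY - (1 - 1 / (n:ℝ)) * p * ((atomsAt u v p q x).s * (atomsAt u v p q x).y)) := by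
  have hs := h.swap
  have bU1 := BB_symm h.Um_symm (Xv u x) (Xv v x)
  have bU2 := BB_symm hs.Um_symm (Xv u x) (Xv v x)
  have dz := dot_comm (Xv u x) (Xv v x)
  have tr1 := h.trUm
  have tr2 := hs.trUm
  have nc1 := h.n_c
  have nc2 := hs.n_c
  have ip1 := h.inner_symm
  have ip2 := hs.inner_symm
  have ipc := ip_comm (Um u v p x) (Um v u q x)
  have hX : (fun i => Xf u i x) = Xv u x := rfl
  have hY : (fun i => Xf v i x) = Xv v x := rfl
  have d := D_UZ h (h.hW a b) h.spY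
  rw [d]
  simp only [atomsAt, hX, hY, ip1, ip2, tr1, tr2, nc1, nc2, bU2.symm, bU1.symm, dz.symm]
  try rw [ipc]
  ring

theorem d2 (h : Loc u v p q x) (a b : ℝ) :
    ∑ i, pd i (fun y => Wf u v a b y * FU v u q (Xf u) i y) x =
      Wf u v a b x * ((atomsAt u v p q x).UV + (b - 1) * (atomsAt u v p q x).VXY + (a - 1) * (atomsAt u v p q x).VXX - (1 - 1 / (n:ℝ)) * q * ((atomsAt u v p q x).t * (atomsAt u v p q x).x)) := by
  have hs := h.swap
  have bU1 := BB_symm h.Um_symm (Xv u x) (Xv v x)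
  have bU2 := BB_symm hs.Um_symm (Xv u x) (Xv v x)
  have dz := dot_comm (Xv u x) (Xv v x)
  have tr1 := h.trUm
  have tr2 := hs.trUm
  have nc1 := h.n_c
  have nc2 := hs.n_c
  have ip1 := h.inner_symm
  have ip2 := hs.inner_symm
  have ipc := ip_comm (Um u v p x) (Um v u q x)
  have hX : (fun i => Xf u i x) = Xv u x := rfl
  have hY : (fun i => Xf v i x) = Xv v x := rfl
  have d := D_UZ h.swap (h.hW' a b) h.spX
  rw [d]
  simp only [atomsAt, hX, hY, ip1, ip2, tr1, tr2, nc1, nc2, bU2.symm, bU1.symm, dz.symm]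
  try rw [ipc]
  ring

theorem d3 (h : Loc u v p q x) (a b : ℝ) :
    ∑ i, pd i (fun y => Wf u v a b y * FU v u q (Xf v) i y) x =
      Wf u v a b x * ((atomsAt u v p q x).VV + (b - 2) * (atomsAt u v p q x).VYY + a * (atomsAt u v p q x).VXY - (1 - 1 / (n:ℝ)) * q * ((atomsAt u v p q x).t * (atomsAt u v p q x).z)) := by
  have hs := h.swap
  have bU1 := BB_symm h.Um_symm (Xv u x) (Xv v x)
  have bU2 := BB_symm hs.Um_symm (Xv u x) (Xv v x)
  have dz := dot_comm (Xv u x) (Xv v x)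
  have tr1 := h.trUm
  have tr2 := hs.trUm
  have nc1 := h.n_c
  have nc2 := hs.n_c
  have ip1 := h.inner_symm
  have ip2 := hs.inner_symm
  have ipc := ip_comm (Um u v p x) (Um v u q x)
  have hX : (fun i => Xf u i x) = Xv u x := rfl
  have hY : (fun i => Xf v i x) = Xv v x := rfl
  have d := D_UZ h.swap (h.hW' a b) h.spY
  rw [d]
  simp only [atomsAt, hX, hY, ip1, ip2, tr1, tr2, nc1, nc2, bU2.symm, bU1.symm, dz.symm]
  try rw [ipc]
  ring

theorem d4 (h : Loc u v p q x) (a b : ℝ) :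
    ∑ i, pd i (fun y => Wf u v a b y * Fz (Xf u) (Xf u) (Xf u) i y) x =
      Wf u v a b x * (2 * (atomsAt u v p q x).UXX + (a - 3) * (atomsAt u v p q x).x ^ 2 + b * ((atomsAt u v p q x).x * (atomsAt u v p q x).z) - (1 + 2 / (n:ℝ)) * ((atomsAt u v p q x).s * (atomsAt u v p q x).x)) := by
  have hs := h.swap
  have bU1 := BB_symm h.Um_symm (Xv u x) (Xv v x)
  have bU2 := BB_symm hs.Um_symm (Xv u x) (Xv v x)
  have dz := dot_comm (Xv u x) (Xv v x)
  have tr1 := h.trUm
  have tr2 := hs.trUm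
  have nc1 := h.n_c
  have nc2 := hs.n_c
  have ip1 := h.inner_symm
  have ip2 := hs.inner_symm
  have ipc := ip_comm (Um u v p x) (Um v u q x)
  have hX : (fun i => Xf u i x) = Xv u x := rfl
  have hY : (fun i => Xf v i x) = Xv v x := rfl
  have d := D_zzS (h.hW a b) h.spX h.spX h.spX
  rw [d]
  simp only [atomsAt, hX, hY, ip1, ip2, tr1, tr2, nc1, nc2, bU2.symm, bU1.symm, dz.symm]
  try rw [ipc]
  ring

theorem d5 (h : Loc u v p q x) (a b : ℝ) :
    ∑ i, pd i (fun y => Wf u v a b y * Fz (Xf u) (Xf u) (Xf v) i y) x =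
      Wf u v a b x * (2 * (atomsAt u v p q x).UXY + (a - 2) * ((atomsAt u v p q x).x * (atomsAt u v p q x).z) + (b - 1) * ((atomsAt u v p q x).x * (atomsAt u v p q x).y) - (2 / (n:ℝ)) * ((atomsAt u v p q x).s * (atomsAt u v p q x).z) - (atomsAt u v p q x).t * (atomsAt u v p q x).x) := by
  have hs := h.swap
  have bU1 := BB_symm h.Um_symm (Xv u x) (Xv v x)
  have bU2 := BB_symm hs.Um_symm (Xv u x) (Xv v x)
  have dz := dot_comm (Xv u x) (Xv v x)
  have tr1 := h.trUm
  have tr2 := hs.trUm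
  have nc1 := h.n_c
  have nc2 := hs.n_c
  have ip1 := h.inner_symm
  have ip2 := hs.inner_symm
  have ipc := ip_comm (Um u v p x) (Um v u q x)
  have hX : (fun i => Xf u i x) = Xv u x := rfl
  have hY : (fun i => Xf v i x) = Xv v x := rfl
  have d := D_zzS (h.hW a b) h.spX h.spX h.spY
  rw [d]
  simp only [atomsAt, hX, hY, ip1, ip2, tr1, tr2, nc1, nc2, bU2.symm, bU1.symm, dz.symm]
  try rw [ipc]
  ring

theorem d6 (h : Loc u v p q x) (a b : ℝ) :
    ∑ i, pd i (fun y => Wf u v a b y * Fz (Xf u) (Xf v) (Xf u) i y) x =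
      Wf u v a b x * ((atomsAt u v p q x).UXY + (atomsAt u v p q x).VXX + (a - 2) * ((atomsAt u v p q x).x * (atomsAt u v p q x).z) + (b - 1) * (atomsAt u v p q x).z ^ 2 - (1 + 1 / (n:ℝ)) * ((atomsAt u v p q x).s * (atomsAt u v p q x).z) - (1 / (n:ℝ)) * ((atomsAt u v p q x).t * (atomsAt u v p q x).x)) := by
  have hs := h.swap
  have bU1 := BB_symm h.Um_symm (Xv u x) (Xv v x)
  have bU2 := BB_symm hs.Um_symm (Xv u x) (Xv v x)
  have dz := dot_comm (Xv u x) (Xv v x)
  have tr1 := h.trUm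
  have tr2 := hs.trUm
  have nc1 := h.n_c
  have nc2 := hs.n_c
  have ip1 := h.inner_symm
  have ip2 := hs.inner_symm
  have ipc := ip_comm (Um u v p x) (Um v u q x)
  have hX : (fun i => Xf u i x) = Xv u x := rfl
  have hY : (fun i => Xf v i x) = Xv v x := rfl
  have d := D_zzS (h.hW a b) h.spX h.spY h.spX
  rw [d]
  simp only [atomsAt, hX, hY, ip1, ip2, tr1, tr2, nc1, nc2, bU2.symm, bU1.symm, dz.symm]
  try rw [ipc]
  ring

theorem d7 (h : Loc u v p q x) (a b : ℝ) :
    ∑ i, pd i (fun y => Wf u v a b y * Fz (Xf u) (Xf v) (Xf v) i y) x =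
      Wf u v a b x * ((atomsAt u v p q x).VXY + (atomsAt u v p q x).UYY + (b - 2) * ((atomsAt u v p q x).y * (atomsAt u v p q x).z) + (a - 1) * (atomsAt u v p q x).z ^ 2 - (1 + 1 / (n:ℝ)) * ((atomsAt u v p q x).t * (atomsAt u v p q x).z) - (1 / (n:ℝ)) * ((atomsAt u v p q x).s * (atomsAt u v p q x).y)) := by
  have hs := h.swap
  have bU1 := BB_symm h.Um_symm (Xv u x) (Xv v x)
  have bU2 := BB_symm hs.Um_symm (Xv u x) (Xv v x)
  have dz := dot_comm (Xv u x) (Xv v x)
  have tr1 := h.trUm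
  have tr2 := hs.trUm
  have nc1 := h.n_c
  have nc2 := hs.n_c
  have ip1 := h.inner_symm
  have ip2 := hs.inner_symm
  have ipc := ip_comm (Um u v p x) (Um v u q x)
  have hX : (fun i => Xf u i x) = Xv u x := rfl
  have hY : (fun i => Xf v i x) = Xv v x := rfl
  have d := D_zzS (h.hW a b) h.spX h.spY h.spY
  rw [d]
  simp only [atomsAt, hX, hY, ip1, ip2, tr1, tr2, nc1, nc2, bU2.symm, bU1.symm, dz.symm]
  try rw [ipc]
  ring

theorem d8 (h : Loc u v p q x) (a b : ℝ) :
    ∑ i, pd i (fun y => Wf u v a b y * Fz (Xf v) (Xf v) (Xf u) i y) x =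
      Wf u v a b x * (2 * (atomsAt u v p q x).VXY + (b - 2) * ((atomsAt u v p q x).y * (atomsAt u v p q x).z) + (a - 1) * ((atomsAt u v p q x).x * (atomsAt u v p q x).y) - (2 / (n:ℝ)) * ((atomsAt u v p q x).t * (atomsAt u v p q x).z) - (atomsAt u v p q x).s * (atomsAt u v p q x).y) := by
  have hs := h.swap
  have bU1 := BB_symm h.Um_symm (Xv u x) (Xv v x)
  have bU2 := BB_symm hs.Um_symm (Xv u x) (Xv v x)
  have dz := dot_comm (Xv u x) (Xv v x)
  have tr1 := h.trUm
  have tr2 := hs.trUm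
  have nc1 := h.n_c
  have nc2 := hs.n_c
  have ip1 := h.inner_symm
  have ip2 := hs.inner_symm
  have ipc := ip_comm (Um u v p x) (Um v u q x)
  have hX : (fun i => Xf u i x) = Xv u x := rfl
  have hY : (fun i => Xf v i x) = Xv v x := rfl
  have d := D_zzS (h.hW a b) h.spY h.spY h.spX
  rw [d]
  simp only [atomsAt, hX, hY, ip1, ip2, tr1, tr2, nc1, nc2, bU2.symm, bU1.symm, dz.symm]
  try rw [ipc]
  ring

theorem d9 (h : Loc u v p q x) (a b : ℝ) :
    ∑ i, pd i (fun y => Wf u v a b y * Fz (Xf v) (Xf v) (Xf v) i y) x =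
      Wf u v a b x * (2 * (atomsAt u v p q x).VYY + (b - 3) * (atomsAt u v p q x).y ^ 2 + a * ((atomsAt u v p q x).y * (atomsAt u v p q x).z) - (1 + 2 / (n:ℝ)) * ((atomsAt u v p q x).t * (atomsAt u v p q x).y)) := by
  have hs := h.swap
  have bU1 := BB_symm h.Um_symm (Xv u x) (Xv v x)
  have bU2 := BB_symm hs.Um_symm (Xv u x) (Xv v x)
  have dz := dot_comm (Xv u x) (Xv v x)
  have tr1 := h.trUm
  have tr2 := hs.trUm
  have nc1 := h.n_c
  have nc2 := hs.n_c
  have ip1 := h.inner_symm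
  have ip2 := hs.inner_symm
  have ipc := ip_comm (Um u v p x) (Um v u q x)
  have hX : (fun i => Xf u i x) = Xv u x := rfl
  have hY : (fun i => Xf v i x) = Xv v x := rfl
  have d := D_zzS (h.hW a b) h.spY h.spY h.spY
  rw [d]
  simp only [atomsAt, hX, hY, ip1, ip2, tr1, tr2, nc1, nc2, bU2.symm, bU1.symm, dz.symm]
  try rw [ipc]
  ring

theorem d10 (h : Loc u v p q x) (a b : ℝ) :
    ∑ i, pd i (fun y => Wf u v a b y * Fs (Sf u v p) (Xf u) i y) x =
      Wf u v a b x * ((a - 2) * ((atomsAt u v p q x).s * (atomsAt u v p q x).x) + (b + p) * ((atomsAt u v p q x).s * (atomsAt u v p q x).z) - (atomsAt u v p q x).s ^ 2) := by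
  have hs := h.swap
  have bU1 := BB_symm h.Um_symm (Xv u x) (Xv v x)
  have bU2 := BB_symm hs.Um_symm (Xv u x) (Xv v x)
  have dz := dot_comm (Xv u x) (Xv v x)
  have tr1 := h.trUm
  have tr2 := hs.trUm
  have nc1 := h.n_c
  have nc2 := hs.n_c
  have ip1 := h.inner_symm
  have ip2 := hs.inner_symm
  have ipc := ip_comm (Um u v p x) (Um v u q x)
  have hX : (fun i => Xf u i x) = Xv u x := rfl
  have hY : (fun i => Xf v i x) = Xv v x := rfl
  have d := D_fS (h.hW a b) h.hg_S h.spX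
  rw [d]
  simp only [atomsAt, hX, hY, ip1, ip2, tr1, tr2, nc1, nc2, bU2.symm, bU1.symm, dz.symm]
  try rw [ipc]
  ring

theorem d11 (h : Loc u v p q x) (a b : ℝ) :
    ∑ i, pd i (fun y => Wf u v a b y * Fs (Sf u v p) (Xf v) i y) x =
      Wf u v a b x * ((a - 1) * ((atomsAt u v p q x).s * (atomsAt u v p q x).z) + (b + p - 1) * ((atomsAt u v p q x).s * (atomsAt u v p q x).y) - (atomsAt u v p q x).s * (atomsAt u v p q x).t) := by
  have hs := h.swap
  have bU1 := BB_symm h.Um_symm (Xv u x) (Xv v x)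
  have bU2 := BB_symm hs.Um_symm (Xv u x) (Xv v x)
  have dz := dot_comm (Xv u x) (Xv v x)
  have tr1 := h.trUm
  have tr2 := hs.trUm
  have nc1 := h.n_c
  have nc2 := hs.n_c
  have ip1 := h.inner_symm
  have ip2 := hs.inner_symm
  have ipc := ip_comm (Um u v p x) (Um v u q x)
  have hX : (fun i => Xf u i x) = Xv u x := rfl
  have hY : (fun i => Xf v i x) = Xv v x := rfl
  have d := D_fS (h.hW a b) h.hg_S h.spY
  rw [d]
  simp only [atomsAt, hX, hY, ip1, ip2, tr1, tr2, nc1, nc2, bU2.symm, bU1.symm, dz.symm]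
  try rw [ipc]
  ring

theorem d12 (h : Loc u v p q x) (a b : ℝ) :
    ∑ i, pd i (fun y => Wf u v a b y * Fs (Sf v u q) (Xf u) i y) x =
      Wf u v a b x * ((b - 1) * ((atomsAt u v p q x).t * (atomsAt u v p q x).z) + (a + q - 1) * ((atomsAt u v p q x).t * (atomsAt u v p q x).x) - (atomsAt u v p q x).s * (atomsAt u v p q x).t) := by
  have hs := h.swap
  have bU1 := BB_symm h.Um_symm (Xv u x) (Xv v x)
  have bU2 := BB_symm hs.Um_symm (Xv u x) (Xv v x)
  have dz := dot_comm (Xv u x) (Xv v x)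
  have tr1 := h.trUm
  have tr2 := hs.trUm
  have nc1 := h.n_c
  have nc2 := hs.n_c
  have ip1 := h.inner_symm
  have ip2 := hs.inner_symm
  have ipc := ip_comm (Um u v p x) (Um v u q x)
  have hX : (fun i => Xf u i x) = Xv u x := rfl
  have hY : (fun i => Xf v i x) = Xv v x := rfl
  have d := D_fS (h.hW a b) h.swap.hg_S h.spX
  rw [d]
  simp only [atomsAt, hX, hY, ip1, ip2, tr1, tr2, nc1, nc2, bU2.symm, bU1.symm, dz.symm]
  try rw [ipc]
  ring

theorem d13 (h : Loc u v p q x) (a b : ℝ) :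
    ∑ i, pd i (fun y => Wf u v a b y * Fs (Sf v u q) (Xf v) i y) x =
      Wf u v a b x * ((b - 2) * ((atomsAt u v p q x).t * (atomsAt u v p q x).y) + (a + q) * ((atomsAt u v p q x).t * (atomsAt u v p q x).z) - (atomsAt u v p q x).t ^ 2) := by
  have hs := h.swap
  have bU1 := BB_symm h.Um_symm (Xv u x) (Xv v x)
  have bU2 := BB_symm hs.Um_symm (Xv u x) (Xv v x)
  have dz := dot_comm (Xv u x) (Xv v x)
  have tr1 := h.trUm
  have tr2 := hs.trUm
  have nc1 := h.n_c
  have nc2 := hs.n_c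
  have ip1 := h.inner_symm
  have ip2 := hs.inner_symm
  have ipc := ip_comm (Um u v p x) (Um v u q x)
  have hX : (fun i => Xf u i x) = Xv u x := rfl
  have hY : (fun i => Xf v i x) = Xv v x := rfl
  have d := D_fS (h.hW a b) h.swap.hg_S h.spY
  rw [d]
  simp only [atomsAt, hX, hY, ip1, ip2, tr1, tr2, nc1, nc2, bU2.symm, bU1.symm, dz.symm]
  try rw [ipc]
  ring

/-- The divergence identities for all 14 fields. -/
theorem div_Flds (h : Loc u v p q x) (a b : ℝ) (k : Fin 14) :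
    ∑ i, pd i (fun y => Wf u v a b y * Flds u v p q k i y) x =
      Wf u v a b x * Atoms.D n p q a b (atomsAt u v p q x) k := by
  fin_cases k
  · exact d0 h a b
  · exact d1 h a b
  · exact d2 h a b
  · exact d3 h a b
  · exact d4 h a b
  · exact d5 h a b
  · exact d6 h a b
  · exact d7 h a b
  · exact d8 h a b
  · exact d9 h a b
  · exact d10 h a b
  · exact d11 h a b
  · exact d12 h a b
  · exact d13 h a b

end

end Vale.Agent.Lib.P100
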