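import Vale.Agent.Lib.P100.WeakU
import Vale.Agent.Lib.P100.Num
import Vale.Agent.Lib.P100.CutOff

/-!
# P100: from a pointwise certificate to nonexistence, for the exact solution class of the problem.

`u, v` are positive and continuous on `ℝⁿ`, `C²` away from the origin, and solve
`-Δu = v^p`, `-Δv = u^q` away from the origin. No third derivatives are used.
-/

open scoped BigOperators
open MeasureTheory Filter Topology Set Metric Module

set_option linter.unusedSimpArgs false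

noncomputable section

namespace Vale.Agent.Lib.P100

variable {n : ℕ}

section formal

variable {u v : Eu n → ℝ} {p q : ℝ} {x : Eu n}

/-- The formal divergence of `W U0 Z`, for `Z` behaving like a logarithmic gradient. -/
theorem formal_UZ (h : Loc2 u v p q x) {a b : ℝ}
    {Z : Fin n → Eu n → ℝ} {B : Fin n → Fin n → ℝ} {c : ℝ} (hZ : Sp Z B c x) :
    FormalU u v p a b Z x =
      Wf u v a b x * ((a - 1) * BB (Um u v p x) (Xv u x) (fun l => Z l x)
        + b * BB (Um u v p x) (Xv v x) (fun l => Z l x)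
        - (1 - 1 / (n : ℝ)) * p * Sf u v p x * dot (Xv v x) (fun l => Z l x)
        + ((∑ i, ∑ j, Um u v p x i j * B j i) - BB (Um u v p x) (fun i => Z i x) (fun i => Z i x))) := by
  have h1 : ∑ i, ∑ l, Um u v p x i l * pd i (Z l) x =
      (∑ i, ∑ j, Um u v p x i j * B j i) - BB (Um u v p x) (fun i => Z i x) (fun i => Z i x) := by
    have h2 := contr_A (Um u v p x) B c (fun i => Z i x)
    have h3 : ∀ i l, pd i (Z l) x = B l i - dl l i * c - Z l x * Z i x := fun i l =>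
      (hZ.grad l).2 i
    simp only [h3]
    rw [h2, h.trUm]
    ring
  simp only [FormalU]
  rw [h1]

theorem Wf_swap (u v : Eu n → ℝ) (a b : ℝ) : Wf v u b a = Wf u v a b := by
  funext y
  simp only [Wf, mul_comm]

theorem formal_f0 (h : Loc2 u v p q x) (a b : ℝ) :
    FormalU u v p a b (Xf u) x =
      Wf u v a b x * ((atomsAt u v p q x).UU + (a - 2) * (atomsAt u v p q x).UXX + b * (atomsAt u v p q x).UXY - (1 - 1 / (n:ℝ)) * p * ((atomsAt u v p q x).s * (atomsAt u v p q x).z)) := by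
  have hs := h.swap
  have bU1 := BB_symm h.Um_symm (Xv u x) (Xv v x)
  have bU2 := BB_symm hs.Um_symm (Xv u x) (Xv v x)
  have dz := dot_comm (Xv u x) (Xv v x)
  have tr1 := h.trUm
  have tr2 := hs.trUm
  have nc1 := h.n_c
  have nc2 := hs.n_c
  have ip1 := h.inner_symm
  have ip2 := hs.inner_symm
  have ipc := ip_comm (Um u v p x) (Um v u q x)
  have hX : (fun i => Xf u i x) = Xv u x := rfl
  have hY : (fun i => Xf v i x) = Xv v x := rfl
  have d := formal_UZ (a := a) (b := b) h h.spX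
  rw [d]
  try rw [Wf_swap]
  simp only [atomsAt, hX, hY, ip1, ip2, tr1, tr2, nc1, nc2, bU2.symm, bU1.symm, dz.symm]
  try rw [ipc]
  ring

theorem formal_f1 (h : Loc2 u v p q x) (a b : ℝ) :
    FormalU u v p a b (Xf v) x =
      Wf u v a b x * ((atomsAt u v p q x).UV + (a - 1) * (atomsAt u v p q x).UXY + (b - 1) * (atomsAt u v p q x).UYY - (1 - 1 / (n:ℝ)) * p * ((atomsAt u v p q x).s * (atomsAt u v p q x).y)) := by
  have hs := h.swap
  have bU1 := BB_symm h.Um_symm (Xv u x) (Xv v x)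
  have bU2 := BB_symm hs.Um_symm (Xv u x) (Xv v x)
  have dz := dot_comm (Xv u x) (Xv v x)
  have tr1 := h.trUm
  have tr2 := hs.trUm
  have nc1 := h.n_c
  have nc2 := hs.n_c
  have ip1 := h.inner_symm
  have ip2 := hs.inner_symm
  have ipc := ip_comm (Um u v p x) (Um v u q x)
  have hX : (fun i => Xf u i x) = Xv u x := rfl
  have hY : (fun i => Xf v i x) = Xv v x := rfl
  have d := formal_UZ (a := a) (b := b) h h.spY
  rw [d]
  try rw [Wf_swap]
  simp only [atomsAt, hX, hY, ip1, ip2, tr1, tr2, nc1, nc2, bU2.symm, bU1.symm, dz.symm]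
  try rw [ipc]
  ring

theorem formal_f2 (h : Loc2 u v p q x) (a b : ℝ) :
    FormalU v u q b a (Xf u) x =
      Wf u v a b x * ((atomsAt u v p q x).UV + (b - 1) * (atomsAt u v p q x).VXY + (a - 1) * (atomsAt u v p q x).VXX - (1 - 1 / (n:ℝ)) * q * ((atomsAt u v p q x).t * (atomsAt u v p q x).x)) := by
  have hs := h.swap
  have bU1 := BB_symm h.Um_symm (Xv u x) (Xv v x)
  have bU2 := BB_symm hs.Um_symm (Xv u x) (Xv v x)
  have dz := dot_comm (Xv u x) (Xv v x)
  have tr1 := h.trUm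
  have tr2 := hs.trUm
  have nc1 := h.n_c
  have nc2 := hs.n_c
  have ip1 := h.inner_symm
  have ip2 := hs.inner_symm
  have ipc := ip_comm (Um u v p x) (Um v u q x)
  have hX : (fun i => Xf u i x) = Xv u x := rfl
  have hY : (fun i => Xf v i x) = Xv v x := rfl
  have d := formal_UZ (a := b) (b := a) h.swap h.spX
  rw [d]
  try rw [Wf_swap]
  simp only [atomsAt, hX, hY, ip1, ip2, tr1, tr2, nc1, nc2, bU2.symm, bU1.symm, dz.symm]
  try rw [ipc]
  ring

theorem formal_f3 (h : Loc2 u v p q x) (a b : ℝ) :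
    FormalU v u q b a (Xf v) x =
      Wf u v a b x * ((atomsAt u v p q x).VV + (b - 2) * (atomsAt u v p q x).VYY + a * (atomsAt u v p q x).VXY - (1 - 1 / (n:ℝ)) * q * ((atomsAt u v p q x).t * (atomsAt u v p q x).z)) := by
  have hs := h.swap
  have bU1 := BB_symm h.Um_symm (Xv u x) (Xv v x)
  have bU2 := BB_symm hs.Um_symm (Xv u x) (Xv v x)
  have dz := dot_comm (Xv u x) (Xv v x)
  have tr1 := h.trUm
  have tr2 := hs.trUm
  have nc1 := h.n_c
  have nc2 := hs.n_c
  have ip1 := h.inner_symm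
  have ip2 := hs.inner_symm
  have ipc := ip_comm (Um u v p x) (Um v u q x)
  have hX : (fun i => Xf u i x) = Xv u x := rfl
  have hY : (fun i => Xf v i x) = Xv v x := rfl
  have d := formal_UZ (a := b) (b := a) h.swap h.spY
  rw [d]
  try rw [Wf_swap]
  simp only [atomsAt, hX, hY, ip1, ip2, tr1, tr2, nc1, nc2, bU2.symm, bU1.symm, dz.symm]
  try rw [ipc]
  ring

end formal

/-- Classical integration by parts for a `C¹` field on `Ω`. -/
theorem weak_classical {Ω : Set (Eu n)} (hΩ : IsOpen Ω) {G : Fin n → Eu n → ℝ}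
    (hG : ∀ i, ContDiffOn ℝ 1 (G i) Ω) {R : Eu n → ℝ} (hR : ∀ x ∈ Ω, ∑ i, pd i (G i) x = R x)
    {φ : Eu n → ℝ} (hφ : ContDiff ℝ 1 φ) (hφc : HasCompactSupport φ) (hφΩ : tsupport φ ⊆ Ω) :
    ∑ i, ∫ x, pd i φ x * G i x = - ∫ x, φ x * R x := by
  have h1 : ∀ i, ∫ x, pd i φ x * G i x = - ∫ x, φ x * pd i (G i) x := by
    intro i
    have h2 := weak_parts_on hΩ (hG i) hφ hφc hφΩ i
    have h3 : ∫ x, pd i φ x * G i x = ∫ x, G i x * pd i φ x :=
      integral_congr_ae (Eventually.of_forall fun x => mul_comm _ _)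
    rw [h3, h2]
    congr 1
    exact integral_congr_ae (Eventually.of_forall fun x => mul_comm _ _)
  simp_rw [h1]
  have hint : ∀ i, Integrable fun x => φ x * pd i (G i) x := by
    intro i
    have := integrable_mul_of_tsupport hΩ (contOn_pd hΩ (hG i) i) hφ.continuous hφc hφΩ
    exact this.congr (Eventually.of_forall fun x => mul_comm _ _)
  rw [Finset.sum_neg_distrib, ← integral_finsetSum _ (fun i _ => hint i)]
  congr 1
  refine integral_congr_ae (Eventually.of_forall fun x => ?_)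
  by_cases hx : x ∈ Ω
  · show ∑ i, φ x * pd i (G i) x = φ x * R x
    rw [← hR x hx, Finset.mul_sum]
  · have h0 : φ x = 0 := image_eq_zero_of_notMem_tsupport (fun h => hx (hφΩ h))
    simp [h0]

section fields

variable {Ω : Set (Eu n)} {u v : Eu n → ℝ}

lemma contDiffOn_Fz (hΩ : IsOpen Ω) {P R S : Fin n → Eu n → ℝ} (hP : ∀ i, ContDiffOn ℝ 1 (P i) Ω)
    (hR : ∀ i, ContDiffOn ℝ 1 (R i) Ω) (hS : ∀ i, ContDiffOn ℝ 1 (S i) Ω) (i : Fin n) :
    ContDiffOn ℝ 1 (Fz P R S i) Ω :=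
  (ContDiffOn.sum fun k _ => (hP k).mul (hR k)).mul (hS i)

lemma contDiffOn_Fs {f : Eu n → ℝ} {S : Fin n → Eu n → ℝ} (hf : ContDiffOn ℝ 1 f Ω)
    (hS : ∀ i, ContDiffOn ℝ 1 (S i) Ω) (i : Fin n) : ContDiffOn ℝ 1 (Fs f S i) Ω :=
  hf.mul (hS i)

end fields

/-- The weak divergence of the 14 fields. -/
theorem weak_Flds {Ω : Set (Eu n)} (hΩ : IsOpen Ω) {u v : Eu n → ℝ} {p q : ℝ} (a b : ℝ)
    (hu : ContDiffOn ℝ 2 u Ω) (hv : ContDiffOn ℝ 2 v Ω)
    (hLoc : ∀ x ∈ Ω, Loc2 u v p q x)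
    {φ : Eu n → ℝ} (hφ : ContDiff ℝ 1 φ) (hφc : HasCompactSupport φ) (hφΩ : tsupport φ ⊆ Ω)
    (k : Fin 14) :
    ∑ i, ∫ x, pd i φ x * (Wf u v a b x * Flds u v p q k i x) =
      - ∫ x, φ x * (Wf u v a b x * Atoms.D n p q a b (atomsAt u v p q x) k) := by
  have hupos : ∀ x ∈ Ω, 0 < u x := fun x hx => (hLoc x hx).upos
  have hvpos : ∀ x ∈ Ω, 0 < v x := fun x hx => (hLoc x hx).vpos
  have hX : ∀ i, ContDiffOn ℝ 1 (Xf u i) Ω := contDiffOn_Xf hΩ hu hupos
  have hY : ∀ i, ContDiffOn ℝ 1 (Xf v i) Ω := contDiffOn_Xf hΩ hv hvpos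
  have hS : ContDiffOn ℝ 1 (Sf u v p) Ω :=
    (contDiffOn_Sf hu hv hupos hvpos p).of_le (by norm_num)
  have hT : ContDiffOn ℝ 1 (Sf v u q) Ω :=
    (contDiffOn_Sf hv hu hvpos hupos q).of_le (by norm_num)
  have hW : ContDiffOn ℝ 1 (Wf u v a b) Ω :=
    (contDiffOn_Wf hu hv hupos hvpos a b).of_le (by norm_num)
  have hcl : ∀ (F : Fin n → Eu n → ℝ) (hF : ∀ i, ContDiffOn ℝ 1 (F i) Ω) (D : Eu n → ℝ)
      (hD : ∀ x ∈ Ω, ∑ i, pd i (fun y => Wf u v a b y * F i y) x = Wf u v a b x * D x),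
      ∑ i, ∫ x, pd i φ x * (Wf u v a b x * F i x) = - ∫ x, φ x * (Wf u v a b x * D x) := by
    intro F hF D hD
    exact weak_classical hΩ (G := fun i y => Wf u v a b y * F i y) (fun i => hW.mul (hF i)) hD
      hφ hφc hφΩ
  have hU : ∀ (Z : Fin n → Eu n → ℝ) (hZ : ∀ l, ContDiffOn ℝ 1 (Z l) Ω),
      ∑ i, ∫ x, pd i φ x * (Wf u v a b x * FU u v p Z i x) =
        - ∫ x, φ x * FormalU u v p a b Z x := fun Z hZ =>
    weak_FU hΩ a b hu hv hLoc hZ hφ hφc hφΩ
  have hLoc' : ∀ x ∈ Ω, Loc2 v u q p x := fun x hx => (hLoc x hx).swap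
  have hV : ∀ (Z : Fin n → Eu n → ℝ) (hZ : ∀ l, ContDiffOn ℝ 1 (Z l) Ω),
      ∑ i, ∫ x, pd i φ x * (Wf u v a b x * FU v u q Z i x) =
        - ∫ x, φ x * FormalU v u q b a Z x := by
    intro Z hZ
    have h := weak_FU hΩ b a hv hu hLoc' hZ hφ hφc hφΩ
    rwa [Wf_swap] at h
  have hcongr : ∀ (A B : Eu n → ℝ), (∀ x ∈ Ω, A x = B x) → ∫ x, φ x * A x = ∫ x, φ x * B x := by
    intro A B hAB
    refine integral_congr_ae (Eventually.of_forall fun x => ?_)
    by_cases hx : x ∈ Ω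
    · show φ x * A x = φ x * B x
      rw [hAB x hx]
    · have h0 : φ x = 0 := image_eq_zero_of_notMem_tsupport (fun h => hx (hφΩ h))
      show φ x * A x = φ x * B x
      simp [h0]
  fin_cases k
  · refine (hU (Xf u) hX).trans ?_
    congr 1
    exact hcongr _ _ fun x hx => formal_f0 (hLoc x hx) a b
  · refine (hU (Xf v) hY).trans ?_
    congr 1
    exact hcongr _ _ fun x hx => formal_f1 (hLoc x hx) a b
  · refine (hV (Xf u) hX).trans ?_
    congr 1
    exact hcongr _ _ fun x hx => formal_f2 (hLoc x hx) a b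
  · refine (hV (Xf v) hY).trans ?_
    congr 1
    exact hcongr _ _ fun x hx => formal_f3 (hLoc x hx) a b
  · exact hcl _ (contDiffOn_Fz hΩ hX hX hX) _ fun x hx => d2c4 (hLoc x hx) a b
  · exact hcl _ (contDiffOn_Fz hΩ hX hX hY) _ fun x hx => d2c5 (hLoc x hx) a b
  · exact hcl _ (contDiffOn_Fz hΩ hX hY hX) _ fun x hx => d2c6 (hLoc x hx) a b
  · exact hcl _ (contDiffOn_Fz hΩ hX hY hY) _ fun x hx => d2c7 (hLoc x hx) a b
  · exact hcl _ (contDiffOn_Fz hΩ hY hY hX) _ fun x hx => d2c8 (hLoc x hx) a b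
  · exact hcl _ (contDiffOn_Fz hΩ hY hY hY) _ fun x hx => d2c9 (hLoc x hx) a b
  · exact hcl _ (contDiffOn_Fs hS hX) _ fun x hx => d2c10 (hLoc x hx) a b
  · exact hcl _ (contDiffOn_Fs hS hY) _ fun x hx => d2c11 (hLoc x hx) a b
  · exact hcl _ (contDiffOn_Fs hT hX) _ fun x hx => d2c12 (hLoc x hx) a b
  · exact hcl _ (contDiffOn_Fs hT hY) _ fun x hx => d2c13 (hLoc x hx) a b

section continuity

variable {Ω : Set (Eu n)} {u v : Eu n → ℝ}

lemma contOn_Uf (hΩ : IsOpen Ω) (hu : ContDiffOn ℝ 2 u Ω) (hv : ContDiffOn ℝ 2 v Ω)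
    (hupos : ∀ x ∈ Ω, 0 < u x) (hvpos : ∀ x ∈ Ω, 0 < v x) (hn : (n : ℝ) ≠ 0) (p : ℝ) (i j : Fin n) :
    ContinuousOn (Uf u v p i j) Ω :=
  ((contOn_pd hΩ (contDiffOn_pd hΩ hu i) j).div hu.continuousOn fun x hx => (hupos x hx).ne').add
    (continuousOn_const.mul
      ((contDiffOn_Sf hu hv hupos hvpos p).continuousOn.div continuousOn_const fun _ _ => hn))

lemma contOn_Flds (hΩ : IsOpen Ω) (hu : ContDiffOn ℝ 2 u Ω) (hv : ContDiffOn ℝ 2 v Ω)
    (hupos : ∀ x ∈ Ω, 0 < u x) (hvpos : ∀ x ∈ Ω, 0 < v x) (hn : (n : ℝ) ≠ 0) (p q : ℝ)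
    (k : Fin 14) (i : Fin n) : ContinuousOn (Flds u v p q k i) Ω := by
  have hX : ∀ i, ContDiffOn ℝ 1 (Xf u i) Ω := contDiffOn_Xf hΩ hu hupos
  have hY : ∀ i, ContDiffOn ℝ 1 (Xf v i) Ω := contDiffOn_Xf hΩ hv hvpos
  have hS : ContDiffOn ℝ 1 (Sf u v p) Ω :=
    (contDiffOn_Sf hu hv hupos hvpos p).of_le (by norm_num)
  have hT : ContDiffOn ℝ 1 (Sf v u q) Ω :=
    (contDiffOn_Sf hv hu hvpos hupos q).of_le (by norm_num)
  have hU : ∀ Z : Fin n → Eu n → ℝ, (∀ i, ContDiffOn ℝ 1 (Z i) Ω) →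
      ContinuousOn (FU u v p Z i) Ω := fun Z hZ =>
    continuousOn_finsetSum _ fun j _ =>
      (contOn_Uf hΩ hu hv hupos hvpos hn p i j).mul (hZ j).continuousOn
  have hV : ∀ Z : Fin n → Eu n → ℝ, (∀ i, ContDiffOn ℝ 1 (Z i) Ω) →
      ContinuousOn (FU v u q Z i) Ω := fun Z hZ =>
    continuousOn_finsetSum _ fun j _ =>
      (contOn_Uf hΩ hv hu hvpos hupos hn q i j).mul (hZ j).continuousOn
  fin_cases k
  · exact hU _ hX
  · exact hU _ hY
  · exact hV _ hX
  · exact hV _ hY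
  · exact (contDiffOn_Fz hΩ hX hX hX i).continuousOn
  · exact (contDiffOn_Fz hΩ hX hX hY i).continuousOn
  · exact (contDiffOn_Fz hΩ hX hY hX i).continuousOn
  · exact (contDiffOn_Fz hΩ hX hY hY i).continuousOn
  · exact (contDiffOn_Fz hΩ hY hY hX i).continuousOn
  · exact (contDiffOn_Fz hΩ hY hY hY i).continuousOn
  · exact (contDiffOn_Fs hS hX i).continuousOn
  · exact (contDiffOn_Fs hS hY i).continuousOn
  · exact (contDiffOn_Fs hT hX i).continuousOn
  · exact (contDiffOn_Fs hT hY i).continuousOn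

lemma continuousOn_D_aux {f1 f2 f3 f4 f5 f6 f7 f8 f9 f10 f11 f12 f13 f14 : Eu n → ℝ}
    (h1 : ContinuousOn f1 Ω) (h2 : ContinuousOn f2 Ω) (h3 : ContinuousOn f3 Ω)
    (h4 : ContinuousOn f4 Ω) (h5 : ContinuousOn f5 Ω) (h6 : ContinuousOn f6 Ω)
    (h7 : ContinuousOn f7 Ω) (h8 : ContinuousOn f8 Ω) (h9 : ContinuousOn f9 Ω)
    (h10 : ContinuousOn f10 Ω) (h11 : ContinuousOn f11 Ω) (h12 : ContinuousOn f12 Ω)
    (h13 : ContinuousOn f13 Ω) (h14 : ContinuousOn f14 Ω) (N P Q A B : ℝ) (k : Fin 14) :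
    ContinuousOn (fun x => Atoms.D N P Q A B
      ⟨f1 x, f2 x, f3 x, f4 x, f5 x, f6 x, f7 x, f8 x, f9 x, f10 x, f11 x, f12 x, f13 x, f14 x⟩ k) Ω := by
  fin_cases k <;> simp only [Atoms.D] <;> simp <;> fun_prop

end continuity

/-- **Certificate implies nonexistence**, for the exact class of solutions of the problem. -/
theorem no_solution_of_cert (hn4 : 4 < n) {p q a b lam mu c0 : ℝ} {c : Fin 14 → ℝ}
    (hcert : Cert n p q a b c c0) (hc0 : 0 < c0)
    (ha : a = mu * q - lam) (hb : b = lam * p - mu) (hlam : 0 ≤ lam) (hmu : 0 ≤ mu)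
    (hD : (n : ℝ) < 2 * (lam + mu) + 4)
    {u v : Eu n → ℝ} (hucont : Continuous u) (hvcont : Continuous v)
    (hupos : ∀ x, 0 < u x) (hvpos : ∀ x, 0 < v x)
    (hu : ContDiffOn ℝ 2 u {0}ᶜ) (hv : ContDiffOn ℝ 2 v {0}ᶜ)
    (hpdeU : ∀ x, x ≠ 0 → ∑ i, Hf u i i x = - v x ^ p)
    (hpdeV : ∀ x, x ≠ 0 → ∑ i, Hf v i i x = - u x ^ q) : False := by
  have hn4R : (4 : ℝ) < n := by exact_mod_cast hn4
  have hn : (n : ℝ) ≠ 0 := by linarith
  have hDpos : 0 < lam + mu := by linarith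
  obtain ⟨Ω, hΩdef⟩ : ∃ Ω : Set (Eu n), Ω = {0}ᶜ := ⟨_, rfl⟩
  have hΩ : IsOpen Ω := by rw [hΩdef]; exact isOpen_compl_singleton
  rw [← hΩdef] at hu hv
  have hΩne : ∀ x ∈ Ω, x ≠ 0 := fun x hx => by rwa [hΩdef] at hx
  have hneΩ : ∀ x : Eu n, x ≠ 0 → x ∈ Ω := fun x hx => by rwa [hΩdef]
  have hLoc : ∀ x ∈ Ω, Loc2 u v p q x := fun x hx =>
    ⟨hu.contDiffAt (hΩ.mem_nhds hx), hv.contDiffAt (hΩ.mem_nhds hx), hupos x, hvpos x,
      hpdeU x (hΩne x hx), hpdeV x (hΩne x hx), hn⟩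
  have huposΩ : ∀ x ∈ Ω, 0 < u x := fun x _ => hupos x
  have hvposΩ : ∀ x ∈ Ω, 0 < v x := fun x _ => hvpos x
  -- the weight
  have hWcont : Continuous (Wf u v a b) :=
    (hucont.rpow_const fun x => Or.inl (hupos x).ne').mul
      (hvcont.rpow_const fun x => Or.inl (hvpos x).ne')
  have hWpos : ∀ x, 0 < Wf u v a b x := fun x =>
    mul_pos (Real.rpow_pos_of_pos (hupos x) a) (Real.rpow_pos_of_pos (hvpos x) b)
  obtain ⟨Wm, hWm⟩ := (isCompact_closedBall (0 : Eu n) 1).bddAbove_image hWcont.continuousOn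
  have hWm' : ∀ x : Eu n, x ≠ 0 → ‖x‖ ≤ 1 → Wf u v a b x ≤ Wm := fun x _ hx =>
    hWm ⟨x, by simpa using hx, rfl⟩
  have hSpos : ∀ x, 0 < Sf u v p x := fun x =>
    div_pos (Real.rpow_pos_of_pos (hvpos x) p) (hupos x)
  have hTpos : ∀ x, 0 < Sf v u q x := fun x =>
    div_pos (Real.rpow_pos_of_pos (hupos x) q) (hvpos x)
  have hWst : ∀ x, Wf u v a b x = Sf u v p x ^ lam * Sf v u q x ^ mu := by
    intro x
    have h1 := hupos x
    have h2 := hvpos x
    simp only [Wf, Sf]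
    rw [Real.div_rpow (Real.rpow_nonneg h2.le _) h1.le, Real.div_rpow (Real.rpow_nonneg h1.le _) h2.le,
      ← Real.rpow_mul h2.le, ← Real.rpow_mul h1.le, ha, hb, Real.rpow_sub h1, Real.rpow_sub h2,
      mul_comm mu q, mul_comm lam p]
    field_simp
  -- atoms
  have hat : ∀ x, atomsAt u v p q x =
      atomsOf (Um u v p x) (Um v u q x) (Xv u x) (Xv v x) (Sf u v p x) (Sf v u q x) := fun x => rfl
  have hreal : ∀ x ∈ Ω, Atoms.Realizable n (atomsAt u v p q x) := by
    intro x hx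
    rw [hat]
    exact atomsOf_realizable hn (hLoc x hx).Um_symm (hLoc x hx).swap.Um_symm (hLoc x hx).trUm
      (hLoc x hx).swap.trUm (hSpos x) (hTpos x)
  have hU1 : ∀ i j, ContinuousOn (Uf u v p i j) Ω :=
    contOn_Uf hΩ hu hv huposΩ hvposΩ hn p
  have hV1 : ∀ i j, ContinuousOn (Uf v u q i j) Ω :=
    contOn_Uf hΩ hv hu hvposΩ huposΩ hn q
  have hX1 : ∀ i, ContinuousOn (Xf u i) Ω := fun i => (contDiffOn_Xf hΩ hu huposΩ i).continuousOn
  have hY1 : ∀ i, ContinuousOn (Xf v i) Ω := fun i => (contDiffOn_Xf hΩ hv hvposΩ i).continuousOn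
  have hs1 : ContinuousOn (Sf u v p) Ω := (contDiffOn_Sf hu hv huposΩ hvposΩ p).continuousOn
  have ht1 : ContinuousOn (Sf v u q) Ω := (contDiffOn_Sf hv hu hvposΩ huposΩ q).continuousOn
  have hip : ∀ {A B : Fin n → Fin n → Eu n → ℝ}, (∀ i j, ContinuousOn (A i j) Ω) →
      (∀ i j, ContinuousOn (B i j) Ω) →
      ContinuousOn (fun x => ip (fun i j => A i j x) (fun i j => B i j x)) Ω :=
    fun hA hB => continuousOn_finsetSum _ fun i _ => continuousOn_finsetSum _ fun j _ =>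
      (hA i j).mul (hB i j)
  have hBB : ∀ {A : Fin n → Fin n → Eu n → ℝ} {P R : Fin n → Eu n → ℝ},
      (∀ i j, ContinuousOn (A i j) Ω) → (∀ i, ContinuousOn (P i) Ω) → (∀ i, ContinuousOn (R i) Ω) →
      ContinuousOn (fun x => BB (fun i j => A i j x) (fun i => P i x) (fun i => R i x)) Ω :=
    fun hA hP hR => continuousOn_finsetSum _ fun i _ => continuousOn_finsetSum _ fun j _ =>
      (hA i j).mul ((hP i).mul (hR j))
  have hdot : ∀ {P R : Fin n → Eu n → ℝ}, (∀ i, ContinuousOn (P i) Ω) →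
      (∀ i, ContinuousOn (R i) Ω) → ContinuousOn (fun x => dot (fun i => P i x) (fun i => R i x)) Ω :=
    fun hP hR => continuousOn_finsetSum _ fun i _ => (hP i).mul (hR i)
  have a1 := hip hU1 hU1
  have a2 := hip hU1 hV1
  have a3 := hip hV1 hV1
  have a4 := hBB hU1 hX1 hX1
  have a5 := hBB hU1 hX1 hY1
  have a6 := hBB hU1 hY1 hY1
  have a7 := hBB hV1 hX1 hX1
  have a8 := hBB hV1 hX1 hY1
  have a9 := hBB hV1 hY1 hY1
  have a10 := hdot hX1 hX1
  have a11 := hdot hX1 hY1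
  have a12 := hdot hY1 hY1
  have hDc : ∀ k, ContinuousOn (fun x => Atoms.D n p q a b (atomsAt u v p q x) k) Ω := fun k =>
    continuousOn_D_aux a1 a2 a3 a4 a5 a6 a7 a8 a9 a10 a11 a12 hs1 ht1 n p q a b k
  have hEc : ContinuousOn (fun x => (atomsAt u v p q x).EE) Ω :=
    (((((a1.add a3).add (a10.pow 2)).add (a12.pow 2)).add (hs1.pow 2)).add (ht1.pow 2))
  have hE0 : ∀ x, 0 ≤ (atomsAt u v p q x).EE := fun x => by
    rw [hat]
    exact EE_nonneg
  -- the field
  obtain ⟨Z, hZdef⟩ : ∃ Z : Fin n → Eu n → ℝ, Z = fun i y =>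
      Wf u v a b y * ∑ k, c k * Flds u v p q k i y := ⟨_, rfl⟩
  have hFc := contOn_Flds hΩ hu hv huposΩ hvposΩ hn p q
  have hZc : ∀ i, ContinuousOn (Z i) Ω := by
    intro i
    rw [hZdef]
    exact hWcont.continuousOn.mul (continuousOn_finsetSum _ fun k _ =>
      continuousOn_const.mul (hFc k i))
  have hFnum : ∀ k i x, Flds u v p q k i x =
      numF (Um u v p x) (Um v u q x) (Xv u x) (Xv v x) (Sf u v p x) (Sf v u q x) k i := by
    intro k i x
    fin_cases k <;> rfl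
  have hZb : ∀ i x, x ≠ 0 → |Z i x| ≤ (∑ k, |c k|) *
      (Wf u v a b x * (atomsAt u v p q x).EE ^ (3 / 4 : ℝ)) := by
    intro i x _
    rw [hZdef]
    simp only
    rw [abs_mul, abs_of_pos (hWpos x)]
    have h1 : |∑ k, c k * Flds u v p q k i x| ≤
        (∑ k, |c k|) * (atomsAt u v p q x).EE ^ (3 / 4 : ℝ) := by
      refine (Finset.abs_sum_le_sum_abs _ _).trans ?_
      rw [Finset.sum_mul]
      refine Finset.sum_le_sum fun k _ => ?_
      rw [abs_mul, hFnum]
      exact mul_le_mul_of_nonneg_left (abs_numF_le k i) (abs_nonneg _)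
    have h2 := mul_le_mul_of_nonneg_left h1 (hWpos x).le
    linarith
  have hWE : ∀ x, x ≠ 0 → Wf u v a b x ≤ 1 * (atomsAt u v p q x).EE ^ ((lam + mu) / 2) := by
    intro x _
    rw [one_mul, hWst, hat]
    exact st_pow_le (hSpos x) (hTpos x) hlam hmu
  -- the weak inequality
  have hweak : ∀ φ : Eu n → ℝ, ContDiff ℝ 1 φ → HasCompactSupport φ → (∀ x, 0 ≤ φ x) →
      0 ∉ tsupport φ →
      c0 * ∫ x, φ x * (Wf u v a b x * (atomsAt u v p q x).EE) ≤
        - ∑ i, ∫ x, fderiv ℝ φ x (ee i) * Z i x := by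
    intro φ hφ hφc hφ0 h0
    have hφΩ : tsupport φ ⊆ Ω := by
      intro y hy
      refine hneΩ y ?_
      rintro rfl
      exact h0 hy
    have hdφ : ∀ i, Continuous (pd i φ) := fun i =>
      (hφ.continuous_fderiv one_ne_zero).clm_apply continuous_const
    have hdφs : ∀ i, HasCompactSupport (pd i φ) := fun i => hφc.fderiv_apply (𝕜 := ℝ) (ee i)
    have hdφΩ : ∀ i, tsupport (pd i φ) ⊆ Ω := fun i =>
      (tsupport_fderiv_apply_subset ℝ (ee i)).trans hφΩ
    have hint : ∀ k i, Integrable fun x => pd i φ x * (Wf u v a b x * Flds u v p q k i x) := by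
      intro k i
      have := integrable_mul_of_tsupport hΩ (hWcont.continuousOn.mul (hFc k i)) (hdφ i) (hdφs i)
        (hdφΩ i)
      exact this.congr (Eventually.of_forall fun x => by simp only [Pi.mul_apply]; ring)
    have h1 : ∀ i, ∫ x, fderiv ℝ φ x (ee i) * Z i x =
        ∑ k, c k * ∫ x, pd i φ x * (Wf u v a b x * Flds u v p q k i x) := by
      intro i
      simp_rw [← integral_const_mul]
      rw [← integral_finsetSum _ (fun k _ => (hint k i).const_mul _)]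
      refine integral_congr_ae (Eventually.of_forall fun x => ?_)
      rw [hZdef]
      show fderiv ℝ φ x (ee i) * (Wf u v a b x * ∑ k, c k * Flds u v p q k i x) =
        ∑ k, c k * (pd i φ x * (Wf u v a b x * Flds u v p q k i x))
      rw [Finset.mul_sum, Finset.mul_sum]
      refine Finset.sum_congr rfl fun k _ => ?_
      simp only [pd]
      ring
    simp_rw [h1]
    rw [Finset.sum_comm]
    simp_rw [← Finset.mul_sum]
    simp_rw [weak_Flds hΩ a b hu hv hLoc hφ hφc hφΩ]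
    have hintD : ∀ k, Integrable fun x =>
        φ x * (Wf u v a b x * Atoms.D n p q a b (atomsAt u v p q x) k) := by
      intro k
      have := integrable_mul_of_tsupport hΩ (hWcont.continuousOn.mul (hDc k)) hφ.continuous hφc hφΩ
      exact this.congr (Eventually.of_forall fun x => mul_comm _ _)
    have hintE : Integrable fun x => φ x * (Wf u v a b x * (atomsAt u v p q x).EE) := by
      have := integrable_mul_of_tsupport hΩ (hWcont.continuousOn.mul hEc) hφ.continuous hφc hφΩ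
      exact this.congr (Eventually.of_forall fun x => mul_comm _ _)
    have h2 : - ∑ k, c k * - ∫ x, φ x * (Wf u v a b x * Atoms.D n p q a b (atomsAt u v p q x) k) =
        ∫ x, φ x * (Wf u v a b x * Atoms.Q n p q a b c (atomsAt u v p q x)) := by
      simp only [mul_neg, Finset.sum_neg_distrib, neg_neg]
      simp_rw [← integral_const_mul]
      rw [← integral_finsetSum _ (fun k _ => (hintD k).const_mul _)]
      refine integral_congr_ae (Eventually.of_forall fun x => ?_)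
      show ∑ k, c k * (φ x * (Wf u v a b x * Atoms.D n p q a b (atomsAt u v p q x) k)) =
        φ x * (Wf u v a b x * Atoms.Q n p q a b c (atomsAt u v p q x))
      simp only [Atoms.Q]
      rw [Finset.mul_sum, Finset.mul_sum]
      refine Finset.sum_congr rfl fun k _ => ?_
      ring
    rw [h2, ← integral_const_mul]
    refine integral_mono (hintE.const_mul _) ?_ ?_
    · have hQc : ContinuousOn (fun x => Atoms.Q n p q a b c (atomsAt u v p q x)) Ω :=
        continuousOn_finsetSum Finset.univ fun k _ => continuousOn_const.mul (hDc k)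
      have := integrable_mul_of_tsupport hΩ (hWcont.continuousOn.mul hQc) hφ.continuous hφc hφΩ
      exact this.congr (Eventually.of_forall fun x => mul_comm _ _)
    · intro x
      by_cases hx : x ∈ Ω
      · have h3 := hcert _ (hreal x hx)
        have h4 : 0 ≤ φ x * Wf u v a b x := mul_nonneg (hφ0 x) (hWpos x).le
        have h5 := mul_le_mul_of_nonneg_left h3 h4
        show c0 * (φ x * (Wf u v a b x * (atomsAt u v p q x).EE)) ≤
          φ x * (Wf u v a b x * Atoms.Q n p q a b c (atomsAt u v p q x))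
        linarith
      · have h0' : φ x = 0 := image_eq_zero_of_notMem_tsupport (fun h => hx (hφΩ h))
        show c0 * (φ x * (Wf u v a b x * (atomsAt u v p q x).EE)) ≤
          φ x * (Wf u v a b x * Atoms.Q n p q a b c (atomsAt u v p q x))
        simp [h0']
  have hfr : finrank ℝ (Eu n) = n := finrank_euclideanSpace_fin
  refine cutoff_false (V := Eu n) (fun i : Fin n => ee i) Z (Wf u v a b)
    (fun x => (atomsAt u v p q x).EE) (c0 := c0) (C := ∑ k, |c k|) (K := 1) (D := lam + mu) (Wm := Wm)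
    ?_ ?_ ?_ ?_ ?_ hc0 ?_ zero_le_one hDpos hWm' ?_ ?_ hZb hWE hweak
  · intro i
    rw [← hΩdef]
    exact hZc i
  · exact hWcont.continuousOn
  · rw [← hΩdef]
    exact hEc
  · exact fun x _ => hWpos x
  · exact fun x _ => hE0 x
  · exact Finset.sum_nonneg fun k _ => abs_nonneg _
  · rw [hfr]
    exact hn4
  · rw [hfr]
    exact hD

end Vale.Agent.Lib.P100
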