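import Vale.Agent.Lib.P100.UAlg
import Vale.Agent.Lib.P100.Design
import Vale.Agent.Lib.P100.LapForm

/-!
# P100: a strip of width `1/8` below the critical line, uniform in `n >= 9` (helper13).

With `alpha = 2 (p+1)/(p q - 1)`, `beta = 2 (q+1)/(p q - 1)`:  if `alpha, beta <= n - 3` and
`alpha + beta >= n - 2 + 1/8` there is no positive solution.  The family of designs is `UAlg`, a
low-degree form of the `a != b` family of helper78.  Parameters: `d = 1/(n-2)`, `w = beta/alpha`.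
-/

open InnerProductSpace Laplacian

noncomputable section

namespace Vale.Agent.Lib.P100.US

open Vale.Agent.Lib.P100 Vale.Agent.Lib.P100.Design

/-- A convex quadratic below an affine function at both ends of an interval. -/
theorem conv_disc {X0 X1 Y0 Y1 P p : ℝ} (hp : 0 ≤ p) (hpP : p ≤ P)
    (h0 : (X0 / 2) ^ 2 < Y0) (h1 : ((X0 + X1 * P) / 2) ^ 2 < Y0 + Y1 * P) :
    ((X0 + X1 * p) / 2) ^ 2 < Y0 + Y1 * p := by
  rcases eq_or_lt_of_le hp with hp0 | hp0
  · subst hp0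
    simpa using h0
  · have hP : 0 < P := lt_of_lt_of_le hp0 hpP
    have key : P * (((X0 + X1 * p) / 2) ^ 2 - (Y0 + Y1 * p)) =
        (P - p) * ((X0 / 2) ^ 2 - Y0) + p * (((X0 + X1 * P) / 2) ^ 2 - (Y0 + Y1 * P))
          - X1 ^ 2 / 4 * P * p * (P - p) := by ring
    have h2 : (P - p) * ((X0 / 2) ^ 2 - Y0) ≤ 0 :=
      mul_nonpos_of_nonneg_of_nonpos (by linarith) (by linarith)
    have h3 : p * (((X0 + X1 * P) / 2) ^ 2 - (Y0 + Y1 * P)) < 0 :=
      mul_neg_of_pos_of_neg hp0 (by linarith)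
    have h4 : 0 ≤ X1 ^ 2 / 4 * P * p * (P - p) := by
      have : 0 ≤ P - p := by linarith
      positivity
    have h5 : P * (((X0 + X1 * p) / 2) ^ 2 - (Y0 + Y1 * p)) < 0 := by
      rw [key]; linarith
    have h6 : ((X0 + X1 * p) / 2) ^ 2 - (Y0 + Y1 * p) < 0 := by
      by_contra hc
      push Not at hc
      have := mul_nonneg hP.le hc
      linarith
    linarith

/-- The decomposition of the quartic remainder. -/
theorem Rf_decomp {n a b E1 F1 E2 F2 K0 H0 ρ w x z y : ℝ} (hK : 1 - 1 / n = K0) (hH : 1 / n = H0)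
    (hxz : F1 * (2 - a) - E1 * b - K0 * (a - 2 - 2 * E1) * (b - 2 * F1) / 2 =
      -2 * ρ * (E1 * (3 - a) - K0 * (a - 2 - 2 * E1) ^ 2 / 4))
    (hyz : F2 * (2 - b) - E2 * a - K0 * (b - 2 - 2 * E2) * (a - 2 * F2) / 2 =
      -2 * w * (E2 * (3 - b) - K0 * (b - 2 - 2 * E2) ^ 2 / 4)) :
    Rf n a b 1 E1 F1 E2 F2 x z y =
      (E1 * (3 - a) - K0 * (a - 2 - 2 * E1) ^ 2 / 4) * (x - ρ * z) ^ 2
      + (E2 * (3 - b) - K0 * (b - 2 - 2 * E2) ^ 2 / 4) * (y - w * z) ^ 2
      + (F1 * (1 - b) + F2 * (1 - a) - ((b - 2 * F1) ^ 2 + (a - 2 * F2) ^ 2) / 8) * (x * y - z ^ 2)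
      + ((F1 * (1 - b) + F2 * (1 - a) - ((b - 2 * F1) ^ 2 + (a - 2 * F2) ^ 2) / 8)
          + (-(((b - 2 * F1) ^ 2 + (a - 2 * F2) ^ 2) * (1 / 2 - H0) / 4))
          - (E1 * (3 - a) - K0 * (a - 2 - 2 * E1) ^ 2 / 4) * ρ ^ 2
          - (E2 * (3 - b) - K0 * (b - 2 - 2 * E2) ^ 2 / 4) * w ^ 2) * z ^ 2 := by
  have e : z ^ 2 / n = z ^ 2 * H0 := by rw [← hH]; ring
  unfold Rf
  rw [hK, e]
  linear_combination (x * z) * hxz + (y * z) * hyz

/-- A positive definite form with a `z^2 <= x y` term. -/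
theorem form_bound {r1 r6 r3 δ ρ w : ℝ} (h1 : 0 < r1) (h6 : 0 < r6) (h3 : 0 ≤ r3) (hδ : 0 < δ) :
    ∃ m : ℝ, 0 < m ∧ ∀ x z y : ℝ, z ^ 2 ≤ x * y →
      m * (x ^ 2 + y ^ 2) ≤ r1 * (x - ρ * z) ^ 2 + r6 * (y - w * z) ^ 2 + r3 * (x * y - z ^ 2)
        + δ * z ^ 2 := by
  have hC : 0 < 2 * (ρ ^ 2 + w ^ 2) + 2 := by positivity
  refine ⟨min (min (r1 / 2) (r6 / 2)) (δ / (2 * (ρ ^ 2 + w ^ 2) + 2)), ?_, ?_⟩
  · exact lt_min (lt_min (by positivity) (by positivity)) (by positivity)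
  · intro x z y hz
    set m := min (min (r1 / 2) (r6 / 2)) (δ / (2 * (ρ ^ 2 + w ^ 2) + 2)) with hm
    have hm0 : 0 < m := lt_min (lt_min (by positivity) (by positivity)) (by positivity)
    have m1 : m ≤ r1 / 2 := (min_le_left _ _).trans (min_le_left _ _)
    have m2 : m ≤ r6 / 2 := (min_le_left _ _).trans (min_le_right _ _)
    have m3 : m ≤ δ / (2 * (ρ ^ 2 + w ^ 2) + 2) := min_le_right _ _
    have m3' : m * (2 * (ρ ^ 2 + w ^ 2) + 2) ≤ δ := (le_div_iff₀ hC).mp m3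
    have a1 : x ^ 2 ≤ 2 * (x - ρ * z) ^ 2 + 2 * ρ ^ 2 * z ^ 2 := by
      nlinarith [sq_nonneg (x - 2 * ρ * z)]
    have a2 : y ^ 2 ≤ 2 * (y - w * z) ^ 2 + 2 * w ^ 2 * z ^ 2 := by
      nlinarith [sq_nonneg (y - 2 * w * z)]
    have b1 : m * x ^ 2 ≤ m * (2 * (x - ρ * z) ^ 2 + 2 * ρ ^ 2 * z ^ 2) :=
      mul_le_mul_of_nonneg_left a1 hm0.le
    have b2 : m * y ^ 2 ≤ m * (2 * (y - w * z) ^ 2 + 2 * w ^ 2 * z ^ 2) :=
      mul_le_mul_of_nonneg_left a2 hm0.le
    have c1 : (2 * m) * (x - ρ * z) ^ 2 ≤ r1 * (x - ρ * z) ^ 2 :=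
      mul_le_mul_of_nonneg_right (by linarith) (sq_nonneg _)
    have c2 : (2 * m) * (y - w * z) ^ 2 ≤ r6 * (y - w * z) ^ 2 :=
      mul_le_mul_of_nonneg_right (by linarith) (sq_nonneg _)
    have c3 : m * (2 * (ρ ^ 2 + w ^ 2) + 2) * z ^ 2 ≤ δ * z ^ 2 :=
      mul_le_mul_of_nonneg_right m3' (sq_nonneg _)
    have c4 : 0 ≤ r3 * (x * y - z ^ 2) := mul_nonneg h3 (by linarith)
    have c5 : 0 ≤ m * z ^ 2 := by positivity
    nlinarith

section cert
variable {d w : ℝ}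

theorem uT_pos (w : ℝ) : 0 < uT w := by unfold uT; positivity
theorem uK_pos (hd : 0 < d) : 0 < uK d := by unfold uK; positivity
theorem uH_pos (hd : 0 < d) : 0 < uH d := by unfold uH; positivity
theorem uL_pos (hd : 0 < d) : 0 < uL d := by unfold uL; positivity

theorem uM1_pos (hd : 0 < d) (hd7 : d ≤ 1 / 7) (hw0 : 0 < w) (hw1 : w ≤ 1) : 0 < uM1 d w := by
  unfold uM1
  have h1 : 0 ≤ 1 - w ^ 2 := by nlinarith
  positivity

theorem uM2_pos (hd : 0 < d) (hd7 : d ≤ 1 / 7) (hw0 : 0 < w) (hw1 : w ≤ 1) : 0 < uM2 d w := by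
  unfold uM2
  have h1 : 0 ≤ 1 - w ^ 2 := by nlinarith
  have h2 : 1 - w ^ 2 ≤ 1 := by nlinarith [sq_nonneg w]
  have h3 : d * (1 - w ^ 2) ≤ d * 1 := mul_le_mul_of_nonneg_left h2 hd.le
  nlinarith [sq_nonneg w]

/-- The certificate of the family at any point of the corner box. -/
theorem ustrip_cert (hd : 0 < d) (hd7 : d ≤ 1 / 7) (hw : 9 / 8 * d ≤ w) (hw1 : w ≤ 1) {p q : ℝ}
    (hp : 0 ≤ p) (hpP : p ≤ uP d w) (hq : 0 ≤ q) (hqQ : q ≤ uQ d w) :
    ∃ (h c0 : ℝ), 0 < c0 ∧ Cert (2 + 1 / d) p q (ua d w) (ub d w)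
      (cd (uE1 d w) (uF1 d w) (uE2 d w) (uF2 d w) (uf d w) (-uf d w) h 1) c0 := by
  have hw0 : 0 < w := by linarith
  have pT := uT_pos w
  have pK := uK_pos hd
  have pH := uH_pos hd
  have pL := uL_pos hd
  have pM1 := uM1_pos hd hd7 hw0 hw1
  have pM2 := uM2_pos hd hd7 hw0 hw1
  have nw := hw0.ne'
  have nT := pT.ne'
  have nK := pK.ne'
  have nH := pH.ne'
  have nL := pL.ne'
  have nM1 := pM1.ne'
  have nM2 := pM2.ne'
  have nd := hd.ne'
  -- the numerators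
  have qE1 := pE1_pos hd hd7 hw hw1
  have qE2 := pE2_pos hd hd7 hw hw1
  have qR1 := pR1_pos hd hd7 hw hw1
  have qR6 := pR6_pos hd hd7 hw hw1
  have qR3 := pR3_pos hd hd7 hw hw1
  have qDE := pDE_pos hd hd7 hw hw1
  have qLP := pLP_pos hd hd7 hw hw1
  have qLY := pLY_pos hd hd7 hw hw1
  have qLQ := pLQ_pos hd hd7 hw hw1
  have qLZ := pLZ_pos hd hd7 hw hw1
  have sE1 : 0 < uE1 d w := by rw [E1_eq]; positivity
  have sE2 : 0 < uE2 d w := by rw [E2_eq]; positivity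
  have sR1 : 0 < uR1 d w := by rw [R1_eq nw nT nK nH nM1 nM2 nL]; positivity
  have sR6 : 0 < uR6 d w := by rw [R6_eq nw nT nK nH nM1 nM2 nL]; positivity
  have sR3 : 0 < uR3 d w := by rw [R3_eq nw nT nK nH nM1 nM2 nL]; positivity
  have sDE : 0 < uDE d w := by rw [DE_eq nw nT nK nH nM1 nM2 nL]; positivity
  have sLP : 0 < uL1 d w (uP d w) := by rw [LP_eq nw nT nK nH nM1 nM2 nL]; positivity
  have sLY : 0 < uL1 d w 0 := by rw [LY_eq nw nT nK nH nM1 nM2 nL]; positivity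
  have sLQ : 0 < uL2 d w (uQ d w) := by rw [LQ_eq nw nT nK nH nM1 nM2 nL]; positivity
  have sLZ : 0 < uL2 d w 0 := by rw [LZ_eq nw nT nK nH nM1 nM2 nL]; positivity
  have sth : 0 < uth d := by
    unfold uth
    positivity
  -- the dimension
  have h1n : 1 / (2 + 1 / d) = uhh d := by
    unfold uhh uH
    field_simp
    ring
  have hka : 1 - 1 / (2 + 1 / d) = uka d := by
    rw [h1n]
    unfold uhh uka uK
    field_simp
    unfold uH
    ring
  have h2n : 2 / (2 + 1 / d) = 2 * uhh d := by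
    rw [← h1n]
    ring
  have hth : 1 + 2 / (2 + 1 / d) = uth d := by
    rw [h2n]
    unfold uhh uth
    field_simp
    unfold uH
    ring
  have hn2 : (2 : ℝ) ≤ 2 + 1 / d := by
    have : 0 < 1 / d := by positivity
    linarith
  -- the quartic
  obtain ⟨m, hm, hform⟩ := form_bound (ρ := 1 / w) (w := w) sR1 sR6 sR3.le sDE
  have hR : ∀ x z y : ℝ, 0 ≤ x → 0 ≤ y → z ^ 2 ≤ x * y →
      m * (x ^ 2 + y ^ 2) ≤ Rf (2 + 1 / d) (ua d w) (ub d w) 1 (uE1 d w) (uF1 d w) (uE2 d w) (uF2 d w) x z y := by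
    intro x z y _ _ hz
    have h := hform x z y hz
    have e := Rf_decomp (n := 2 + 1 / d) (a := ua d w) (b := ub d w) (E1 := uE1 d w) (F1 := uF1 d w)
      (E2 := uE2 d w) (F2 := uF2 d w) (ρ := 1 / w) (w := w) (x := x) (z := z) (y := y) hka h1n
      (rel_xz nw nT nK nH nM1 nM2 nL) (rel_yz nw nT nK nH nM1 nM2 nL)
    rw [e]
    exact h
  -- the form in `s`
  have hs : ((2 / (2 + 1 / d) * uF1 d w - (1 - 1 / (2 + 1 / d)) * p + uf d w * (ua d w - 1)) / 2) ^ 2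
      < ((1 + 2 / (2 + 1 / d)) * uE1 d w) * (1 * uF2 d w + uf d w * (ub d w + p - 1)) := by
    rw [hth, h2n, hka]
    have e0 : uL1 d w 0 = (uth d * uE1 d w * (uF2 d w + uf d w * (ub d w - 1)))
        - ((2 * uhh d * uF1 d w + uf d w * (ua d w - 1)) / 2) ^ 2 := by
      unfold uL1; ring
    have e1 : uL1 d w (uP d w) = (uth d * uE1 d w * (uF2 d w + uf d w * (ub d w - 1))
          + (uth d * uE1 d w * uf d w) * uP d w)
        - ((2 * uhh d * uF1 d w + uf d w * (ua d w - 1) + (-uka d) * uP d w) / 2) ^ 2 := by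
      unfold uL1; ring
    have := conv_disc (X0 := 2 * uhh d * uF1 d w + uf d w * (ua d w - 1)) (X1 := -uka d)
      (Y0 := uth d * uE1 d w * (uF2 d w + uf d w * (ub d w - 1))) (Y1 := uth d * uE1 d w * uf d w)
      hp hpP (by rw [e0] at sLY; linarith) (by rw [e1] at sLP; linarith)
    have e2 : 2 * uhh d * uF1 d w - uka d * p + uf d w * (ua d w - 1)
        = 2 * uhh d * uF1 d w + uf d w * (ua d w - 1) + -uka d * p := by ring
    have e3 : uth d * uE1 d w * (1 * uF2 d w + uf d w * (ub d w + p - 1))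
        = uth d * uE1 d w * (uF2 d w + uf d w * (ub d w - 1)) + uth d * uE1 d w * uf d w * p := by ring
    rw [e2, e3]
    exact this
  -- the form in `t`
  have ht : ((1 * (2 / (2 + 1 / d) * uF2 d w - (1 - 1 / (2 + 1 / d)) * q) + (-uf d w) * (ub d w - 1)) / 2) ^ 2
      < (uF1 d w + (-uf d w) * (ua d w + q - 1)) * (1 * (1 + 2 / (2 + 1 / d)) * uE2 d w) := by
    rw [hth, h2n, hka]
    have e0 : uL2 d w 0 = ((uF1 d w + (-uf d w) * (ua d w - 1)) * (uth d * uE2 d w))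
        - ((2 * uhh d * uF2 d w + (-uf d w) * (ub d w - 1)) / 2) ^ 2 := by
      unfold uL2; ring
    have e1 : uL2 d w (uQ d w) = ((uF1 d w + (-uf d w) * (ua d w - 1)) * (uth d * uE2 d w)
          + ((-uf d w) * (uth d * uE2 d w)) * uQ d w)
        - ((2 * uhh d * uF2 d w + (-uf d w) * (ub d w - 1) + (-uka d) * uQ d w) / 2) ^ 2 := by
      unfold uL2; ring
    have := conv_disc (X0 := 2 * uhh d * uF2 d w + (-uf d w) * (ub d w - 1)) (X1 := -uka d)
      (Y0 := (uF1 d w + (-uf d w) * (ua d w - 1)) * (uth d * uE2 d w))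
      (Y1 := (-uf d w) * (uth d * uE2 d w))
      hq hqQ (by rw [e0] at sLZ; linarith) (by rw [e1] at sLQ; linarith)
    have e2 : 1 * (2 * uhh d * uF2 d w - uka d * q) + -uf d w * (ub d w - 1)
        = 2 * uhh d * uF2 d w + (-uf d w) * (ub d w - 1) + -uka d * q := by ring
    have e3 : (uF1 d w + -uf d w * (ua d w + q - 1)) * (1 * uth d * uE2 d w)
        = (uF1 d w + (-uf d w) * (ua d w - 1)) * (uth d * uE2 d w)
          + (-uf d w) * (uth d * uE2 d w) * q := by ring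
    rw [e2, e3]
    exact this
  have ht0 : 0 < uF1 d w + (-uf d w) * (ua d w + q - 1) := by
    have h1 : 0 < (uF1 d w + (-uf d w) * (ua d w + q - 1)) * (1 * (1 + 2 / (2 + 1 / d)) * uE2 d w) :=
      lt_of_le_of_lt (sq_nonneg _) ht
    have h2 : 0 < 1 * (1 + 2 / (2 + 1 / d)) * uE2 d w := by
      rw [hth]; positivity
    exact (pos_iff_pos_of_mul_pos h1).mpr h2
  have hs0 : 0 < (1 + 2 / (2 + 1 / d)) * uE1 d w := by
    rw [hth]; positivity
  exact cert_general (g := 1) hn2 one_pos hm hR hs0 hs ht0 ht (by simp)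

end cert

section final

set_option maxHeartbeats 4000000 in
/-- the exponent condition and the corner, case `q <= p`. -/
theorem core {n : ℕ} (hn : 9 ≤ n) {p q : ℝ} (hp : 0 < p) (hq : 0 < q) (hqp : q ≤ p) (hpq : 1 < p * q)
    (halpha : 2 * (p + 1) / (p * q - 1) ≤ (n : ℝ) - 3)
    (hsum : (n : ℝ) - 2 + 1 / 8 ≤ 2 * (p + 1) / (p * q - 1) + 2 * (q + 1) / (p * q - 1))
    {u v : Eu n → ℝ} (hucont : Continuous u) (hvcont : Continuous v)
    (hupos : ∀ x, 0 < u x) (hvpos : ∀ x, 0 < v x)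
    (hu : ContDiffOn ℝ 2 u {0}ᶜ) (hv : ContDiffOn ℝ 2 v {0}ᶜ)
    (hpdeU : ∀ x, x ≠ 0 → - Δ u x = v x ^ p)
    (hpdeV : ∀ x, x ≠ 0 → - Δ v x = u x ^ q) : False := by
  have hnR : (9 : ℝ) ≤ n := by exact_mod_cast hn
  have hn2 : 0 < (n : ℝ) - 2 := by linarith
  obtain ⟨d, hd'⟩ : ∃ d : ℝ, d = 1 / ((n : ℝ) - 2) := ⟨_, rfl⟩
  have hd : 0 < d := by rw [hd']; positivity
  have hd7 : d ≤ 1 / 7 := by
    rw [hd', div_le_div_iff₀ hn2 (by norm_num)]
    linarith
  have hdn : (n : ℝ) = 2 + 1 / d := by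
    rw [hd']
    field_simp
    ring
  have hD : 0 < p * q - 1 := by linarith
  have hp1 : 0 < p + 1 := by linarith
  have hq1 : 0 < q + 1 := by linarith
  obtain ⟨w, hw'⟩ : ∃ w : ℝ, w = (q + 1) / (p + 1) := ⟨_, rfl⟩
  have hw0 : 0 < w := by rw [hw']; positivity
  have hw1 : w ≤ 1 := by
    rw [hw', div_le_one hp1]
    linarith
  obtain ⟨α, hα⟩ : ∃ α : ℝ, α = 2 * (p + 1) / (p * q - 1) := ⟨_, rfl⟩
  obtain ⟨β, hβ⟩ : ∃ β : ℝ, β = 2 * (q + 1) / (p * q - 1) := ⟨_, rfl⟩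
  rw [← hα] at halpha hsum
  rw [← hβ] at hsum
  have hα0 : 0 < α := by rw [hα]; positivity
  have hβ0 : 0 < β := by rw [hβ]; positivity
  have hβw : β = w * α := by
    rw [hα, hβ, hw']
    field_simp
  have hnd : (n : ℝ) - 2 = 1 / d := by rw [hdn]; ring
  have h1d : d * (1 / d) = 1 := by field_simp
  -- `9/8 d <= w`
  have hw : 9 / 8 * d ≤ w := by
    have h1 : 9 / 8 ≤ β := by linarith
    have h2 : α ≤ 1 / d := by linarith
    have h3 : d * α ≤ 1 := by
      calc d * α ≤ d * (1 / d) := mul_le_mul_of_nonneg_left h2 hd.le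
        _ = 1 := h1d
    have h4 : d * β ≤ w := by
      rw [hβw]
      have : d * (w * α) = w * (d * α) := by ring
      rw [this]
      calc w * (d * α) ≤ w * 1 := mul_le_mul_of_nonneg_left h3 hw0.le
        _ = w := mul_one w
    nlinarith
  -- the corner
  obtain ⟨σ, hσ⟩ : ∃ σ : ℝ, σ = (p * q - 1) / (p + q + 2) := ⟨_, rfl⟩
  have hS : 0 < p + q + 2 := by linarith
  have hσ0 : 0 < σ := by rw [hσ]; positivity
  have hαβ : α + β = 2 / σ := by
    rw [hα, hβ, hσ]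
    field_simp
    ring
  have hσle : σ ≤ 16 * d / (8 + d) := by
    have h1 : 1 / d + 1 / 8 ≤ 2 / σ := by
      rw [← hαβ, ← hnd]
      exact hsum
    have h2 : (1 / d + 1 / 8) * σ ≤ 2 := by
      have := mul_le_mul_of_nonneg_right h1 hσ0.le
      have e : 2 / σ * σ = 2 := by field_simp
      rw [e] at this
      exact this
    have h3 : (8 + d) * σ ≤ 16 * d := by
      have e : (8 + d) * σ = 8 * d * ((1 / d + 1 / 8) * σ) := by
        field_simp
      rw [e]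
      nlinarith
    rw [le_div_iff₀ (by positivity)]
    linarith
  have hqeq : q = w + σ * (1 + w) := by
    rw [hw', hσ]
    field_simp
    ring
  have hpeq : p = (1 + σ * (1 + w)) / w := by
    rw [hw', hσ]
    field_simp
    ring
  have hw1' : 0 < 1 + w := by linarith
  have hqQ : q ≤ uQ d w := by
    have e : uQ d w = w + 16 * d / (8 + d) * (1 + w) := by
      unfold uQ uL
      have : 8 + d ≠ 0 := by positivity
      field_simp
      ring
    rw [e, hqeq]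
    have := mul_le_mul_of_nonneg_right hσle hw1'.le
    linarith
  have hpP : p ≤ uP d w := by
    have e : uP d w = (1 + 16 * d / (8 + d) * (1 + w)) / w := by
      unfold uP uL
      have : 8 + d ≠ 0 := by positivity
      field_simp
      ring
    rw [e, hpeq]
    have := mul_le_mul_of_nonneg_right hσle hw1'.le
    exact div_le_div_of_nonneg_right (by linarith) hw0.le
  obtain ⟨h, c0, hc0, hc⟩ := ustrip_cert hd hd7 hw hw1 hp.le hpP hq.le hqQ
  rw [← hdn] at hc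
  -- `a, b > 0`
  have pT := uT_pos w
  have ha0 : 0 < ua d w := by
    unfold ua
    have h1 : d ^ 2 ≤ 1 / 49 := by nlinarith
    have h2 : w * (1 + w ^ 2) ≤ 2 := by nlinarith [sq_nonneg w]
    have h3 : d ^ 2 * (w * (1 + w ^ 2)) ≤ 1 / 49 * 2 :=
      mul_le_mul h1 h2 (by positivity) (by norm_num)
    have h4 : 0 < 20 + 20 * w ^ 2 - 40 * d - 9 * d ^ 2 * w - 9 * d ^ 2 * w ^ 3 := by
      nlinarith [sq_nonneg w]
    positivity
  have hb0 : 0 < ub d w := by
    unfold ub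
    have h4 : 0 < 1 + w ^ 2 - 2 * d * w ^ 2 := by
      have h5 : 0 ≤ w ^ 2 * (1 - 2 * d) := mul_nonneg (sq_nonneg w) (by linarith)
      nlinarith
    positivity
  -- the exponents
  have hEX : 0 < uEX d w := by
    have qEX := pEX_pos hd hd7 hw hw1
    have nd := hd.ne'
    rw [EX_eq nd hw0.ne' (uT_pos w).ne' (uK_pos hd).ne' (uH_pos hd).ne'
      (uM1_pos hd hd7 hw0 hw1).ne' (uM2_pos hd hd7 hw0 hw1).ne' (uL_pos hd).ne']
    positivity
  have hEX' : 8 * (1 - 2 * d) * (1 + w) < (8 + d) * (ua d w + ub d w * w) := by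
    unfold uEX at hEX
    have := (div_pos_iff_of_pos_right hd).mp hEX
    linarith
  have hD' := hD.ne'
  obtain ⟨A, hA⟩ : ∃ A : ℝ, A = ua d w := ⟨_, rfl⟩
  obtain ⟨B, hB⟩ : ∃ B : ℝ, B = ub d w := ⟨_, rfl⟩
  rw [← hA, ← hB] at hc hEX'
  rw [← hA] at ha0
  rw [← hB] at hb0
  have hl : 0 < (A + B * q) / (p * q - 1) := by positivity
  have hm : 0 < (B + A * p) / (p * q - 1) := by positivity
  have hn4 : 4 < n := by omega
  refine no_solution_of_cert_lap (lam := (A + B * q) / (p * q - 1)) (mu := (B + A * p) / (p * q - 1))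
    hn4 hc hc0 ?_ ?_ hl.le hm.le ?_ hucont hvcont hupos hvpos hu hv hpdeU hpdeV
  · have e : (B + A * p) / (p * q - 1) * q - (A + B * q) / (p * q - 1) =
        A * ((p * q - 1) / (p * q - 1)) := by ring
    rw [e, div_self hD', mul_one]
  · have e : (A + B * q) / (p * q - 1) * p - (B + A * p) / (p * q - 1) =
        B * ((p * q - 1) / (p * q - 1)) := by ring
    rw [e, div_self hD', mul_one]
  · -- `n < 2 (lam + mu) + 4`
    have e : 2 * ((A + B * q) / (p * q - 1) + (B + A * p) / (p * q - 1)) = α * (A + B * w) := by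
      rw [hα, hw']
      field_simp
      ring
    have h1 : α * (1 + w) = 2 / σ := by
      rw [← hαβ, hβw]
      ring
    have h2 : (8 + d) / (8 * d) ≤ α * (1 + w) := by
      rw [h1, ← hαβ]
      have e2 : (8 + d) / (8 * d) = 1 / d + 1 / 8 := by
        field_simp
      rw [e2, ← hnd]
      exact hsum
    have hAB : 0 < A + B * w := by positivity
    have h3 : (8 + d) / (8 * d) * (A + B * w) ≤ α * (1 + w) * (A + B * w) :=
      mul_le_mul_of_nonneg_right h2 hAB.le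
    have h4 : (1 - 2 * d) / d * (1 + w) < (8 + d) / (8 * d) * (A + B * w) := by
      have e3 : (1 - 2 * d) / d * (1 + w) = (8 * (1 - 2 * d) * (1 + w)) / (8 * d) := by
        field_simp
      have e4 : (8 + d) / (8 * d) * (A + B * w) = ((8 + d) * (A + B * w)) / (8 * d) := by ring
      rw [e3, e4]
      exact div_lt_div_of_pos_right hEX' (by positivity)
    have h5 : (1 - 2 * d) / d < α * (A + B * w) := by
      have h6 : (1 - 2 * d) / d * (1 + w) < α * (A + B * w) * (1 + w) := by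
        calc (1 - 2 * d) / d * (1 + w) < (8 + d) / (8 * d) * (A + B * w) := h4
          _ ≤ α * (1 + w) * (A + B * w) := h3
          _ = α * (A + B * w) * (1 + w) := by ring
      exact lt_of_mul_lt_mul_right h6 hw1'.le
    have e5 : (1 - 2 * d) / d = (n : ℝ) - 4 := by
      rw [hdn]
      field_simp
      ring
    rw [e]
    rw [e5] at h5
    linarith

/-- **The uniform strip.** For `n >= 9`, `p, q > 0`, `p q > 1`, with
`alpha = 2 (p + 1) / (p q - 1)`, `beta = 2 (q + 1) / (p q - 1)`: if `alpha, beta <= n - 3` and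
`alpha + beta >= n - 2 + 1/8` then the Lane-Emden system has no solution of the exact class of the
problem. -/
theorem no_solution_ustrip {n : ℕ} (hn : 9 ≤ n) {p q : ℝ} (hp : 0 < p) (hq : 0 < q) (hpq : 1 < p * q)
    (halpha : 2 * (p + 1) / (p * q - 1) ≤ (n : ℝ) - 3)
    (hbeta : 2 * (q + 1) / (p * q - 1) ≤ (n : ℝ) - 3)
    (hsum : (n : ℝ) - 2 + 1 / 8 ≤ 2 * (p + 1) / (p * q - 1) + 2 * (q + 1) / (p * q - 1))
    {u v : Eu n → ℝ} (hucont : Continuous u) (hvcont : Continuous v)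
    (hupos : ∀ x, 0 < u x) (hvpos : ∀ x, 0 < v x)
    (hu : ContDiffOn ℝ 2 u {0}ᶜ) (hv : ContDiffOn ℝ 2 v {0}ᶜ)
    (hpdeU : ∀ x, x ≠ 0 → - Δ u x = v x ^ p)
    (hpdeV : ∀ x, x ≠ 0 → - Δ v x = u x ^ q) : False := by
  rcases le_total q p with hqp | hqp
  · exact core hn hp hq hqp hpq halpha hsum hucont hvcont hupos hvpos hu hv hpdeU hpdeV
  · have e : q * p = p * q := mul_comm q p
    refine core hn hq hp hqp (by rw [e]; exact hpq) (by rw [e]; exact hbeta) ?_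
      hvcont hucont hvpos hupos hv hu hpdeV hpdeU
    rw [e]
    linarith

end final

end Vale.Agent.Lib.P100.US
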