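import Vale.Agent.Lib.P100.NABAlg
import Vale.Agent.Lib.P100.UStrip

/-!
# P100: equal negative weights, the uniform strip of width `1/8` in the effective dimension
`m = 2 (n + A) / (2 + A) ≥ 9`, lift of helper13's `UStrip`.
-/

open InnerProductSpace Laplacian

noncomputable section

namespace Vale.Agent.Lib.P100.US

open Vale.Agent.Lib.P100 Vale.Agent.Lib.P100.Design

section cert
variable {d w : ℝ}

/-- The certificate of the family at any point of the corner box. -/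
theorem ustrip_cert_lift {n Aw : ℝ} (hn : 2 < n) (hnc : 0 < n - 4 + -Aw) (hA : Aw < 0)
    (hA2 : -2 < Aw) (hm : 2 + 1 / d = 2 * (n + Aw) / (2 + Aw))
    (hd : 0 < d) (hd7 : d ≤ 1 / 7) (hw : 9 / 8 * d ≤ w) (hw1 : w ≤ 1) {p q : ℝ}
    (hp : 0 ≤ p) (hpP : p ≤ uP d w) (hq : 0 ≤ q) (hqQ : q ≤ uQ d w)
    (ha0 : 0 ≤ ua d w) (hb0 : 0 ≤ ub d w) :
    ∃ (co : Fin 13 → ℝ) (c0 : ℝ), 0 < c0 ∧ ∀ A : NAtoms, A.Realizable n →
      c0 * A.EW ≤ ∑ k, co k * NAtoms.DB n p q (ua d w) (ub d w) (-Aw) Aw Aw A k := by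
  have hw0 : 0 < w := by linarith
  have pT := uT_pos w
  have pK := uK_pos hd
  have pH := uH_pos hd
  have pL := uL_pos hd
  have pM1 := uM1_pos hd hd7 hw0 hw1
  have pM2 := uM2_pos hd hd7 hw0 hw1
  have nw := hw0.ne'
  have nT := pT.ne'
  have nK := pK.ne'
  have nH := pH.ne'
  have nL := pL.ne'
  have nM1 := pM1.ne'
  have nM2 := pM2.ne'
  have nd := hd.ne'
  -- the numerators
  have qE1 := pE1_pos hd hd7 hw hw1
  have qE2 := pE2_pos hd hd7 hw hw1
  have qR1 := pR1_pos hd hd7 hw hw1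
  have qR6 := pR6_pos hd hd7 hw hw1
  have qR3 := pR3_pos hd hd7 hw hw1
  have qDE := pDE_pos hd hd7 hw hw1
  have qLP := pLP_pos hd hd7 hw hw1
  have qLY := pLY_pos hd hd7 hw hw1
  have qLQ := pLQ_pos hd hd7 hw hw1
  have qLZ := pLZ_pos hd hd7 hw hw1
  have sE1 : 0 < uE1 d w := by rw [E1_eq]; positivity
  have sE2 : 0 < uE2 d w := by rw [E2_eq]; positivity
  have sR1 : 0 < uR1 d w := by rw [R1_eq nw nT nK nH nM1 nM2 nL]; positivity
  have sR6 : 0 < uR6 d w := by rw [R6_eq nw nT nK nH nM1 nM2 nL]; positivity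
  have sR3 : 0 < uR3 d w := by rw [R3_eq nw nT nK nH nM1 nM2 nL]; positivity
  have sDE : 0 < uDE d w := by rw [DE_eq nw nT nK nH nM1 nM2 nL]; positivity
  have sLP : 0 < uL1 d w (uP d w) := by rw [LP_eq nw nT nK nH nM1 nM2 nL]; positivity
  have sLY : 0 < uL1 d w 0 := by rw [LY_eq nw nT nK nH nM1 nM2 nL]; positivity
  have sLQ : 0 < uL2 d w (uQ d w) := by rw [LQ_eq nw nT nK nH nM1 nM2 nL]; positivity
  have sLZ : 0 < uL2 d w 0 := by rw [LZ_eq nw nT nK nH nM1 nM2 nL]; positivity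
  have sth : 0 < uth d := by
    unfold uth
    positivity
  -- the dimension
  have h1n : 1 / (2 + 1 / d) = uhh d := by
    unfold uhh uH
    field_simp
    ring
  have hka : 1 - 1 / (2 + 1 / d) = uka d := by
    rw [h1n]
    unfold uhh uka uK
    field_simp
    unfold uH
    ring
  have h2n : 2 / (2 + 1 / d) = 2 * uhh d := by
    rw [← h1n]
    ring
  have hth : 1 + 2 / (2 + 1 / d) = uth d := by
    rw [h2n]
    unfold uhh uth
    field_simp
    unfold uH
    ring
  have hn2 : (2 : ℝ) ≤ 2 + 1 / d := by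
    have : 0 < 1 / d := by positivity
    linarith
  -- the form in `s`
  have hs : ((2 / (2 + 1 / d) * uF1 d w - (1 - 1 / (2 + 1 / d)) * p + uf d w * (ua d w - 1)) / 2) ^ 2
      < ((1 + 2 / (2 + 1 / d)) * uE1 d w) * (1 * uF2 d w + uf d w * (ub d w + p - 1)) := by
    rw [hth, h2n, hka]
    have e0 : uL1 d w 0 = (uth d * uE1 d w * (uF2 d w + uf d w * (ub d w - 1)))
        - ((2 * uhh d * uF1 d w + uf d w * (ua d w - 1)) / 2) ^ 2 := by
      unfold uL1; ring
    have e1 : uL1 d w (uP d w) = (uth d * uE1 d w * (uF2 d w + uf d w * (ub d w - 1))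
          + (uth d * uE1 d w * uf d w) * uP d w)
        - ((2 * uhh d * uF1 d w + uf d w * (ua d w - 1) + (-uka d) * uP d w) / 2) ^ 2 := by
      unfold uL1; ring
    have := conv_disc (X0 := 2 * uhh d * uF1 d w + uf d w * (ua d w - 1)) (X1 := -uka d)
      (Y0 := uth d * uE1 d w * (uF2 d w + uf d w * (ub d w - 1))) (Y1 := uth d * uE1 d w * uf d w)
      hp hpP (by rw [e0] at sLY; linarith) (by rw [e1] at sLP; linarith)
    have e2 : 2 * uhh d * uF1 d w - uka d * p + uf d w * (ua d w - 1)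
        = 2 * uhh d * uF1 d w + uf d w * (ua d w - 1) + -uka d * p := by ring
    have e3 : uth d * uE1 d w * (1 * uF2 d w + uf d w * (ub d w + p - 1))
        = uth d * uE1 d w * (uF2 d w + uf d w * (ub d w - 1)) + uth d * uE1 d w * uf d w * p := by ring
    rw [e2, e3]
    exact this
  -- the form in `t`
  have ht : ((1 * (2 / (2 + 1 / d) * uF2 d w - (1 - 1 / (2 + 1 / d)) * q) + (-uf d w) * (ub d w - 1)) / 2) ^ 2
      < (uF1 d w + (-uf d w) * (ua d w + q - 1)) * (1 * (1 + 2 / (2 + 1 / d)) * uE2 d w) := by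
    rw [hth, h2n, hka]
    have e0 : uL2 d w 0 = ((uF1 d w + (-uf d w) * (ua d w - 1)) * (uth d * uE2 d w))
        - ((2 * uhh d * uF2 d w + (-uf d w) * (ub d w - 1)) / 2) ^ 2 := by
      unfold uL2; ring
    have e1 : uL2 d w (uQ d w) = ((uF1 d w + (-uf d w) * (ua d w - 1)) * (uth d * uE2 d w)
          + ((-uf d w) * (uth d * uE2 d w)) * uQ d w)
        - ((2 * uhh d * uF2 d w + (-uf d w) * (ub d w - 1) + (-uka d) * uQ d w) / 2) ^ 2 := by
      unfold uL2; ring
    have := conv_disc (X0 := 2 * uhh d * uF2 d w + (-uf d w) * (ub d w - 1)) (X1 := -uka d)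
      (Y0 := (uF1 d w + (-uf d w) * (ua d w - 1)) * (uth d * uE2 d w))
      (Y1 := (-uf d w) * (uth d * uE2 d w))
      hq hqQ (by rw [e0] at sLZ; linarith) (by rw [e1] at sLQ; linarith)
    have e2 : 1 * (2 * uhh d * uF2 d w - uka d * q) + -uf d w * (ub d w - 1)
        = 2 * uhh d * uF2 d w + (-uf d w) * (ub d w - 1) + -uka d * q := by ring
    have e3 : (uF1 d w + -uf d w * (ua d w + q - 1)) * (1 * uth d * uE2 d w)
        = (uF1 d w + (-uf d w) * (ua d w - 1)) * (uth d * uE2 d w)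
          + (-uf d w) * (uth d * uE2 d w) * q := by ring
    rw [e2, e3]
    exact this
  have ht0 : 0 < uF1 d w + (-uf d w) * (ua d w + q - 1) := by
    have h1 : 0 < (uF1 d w + (-uf d w) * (ua d w + q - 1)) * (1 * (1 + 2 / (2 + 1 / d)) * uE2 d w) :=
      lt_of_le_of_lt (sq_nonneg _) ht
    have h2 : 0 < 1 * (1 + 2 / (2 + 1 / d)) * uE2 d w := by
      rw [hth]; positivity
    exact (pos_iff_pos_of_mul_pos h1).mpr h2
  have hk1 : uka d = 1 - uhh d := by
    unfold uka uhh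
    field_simp
    unfold uK uH
    ring
  have eA1 : qA (uka d) (ua d w) (uE1 d w) = uR1 d w := by
    simp only [qA, uR1]; ring
  have eA2 : qA (uka d) (ub d w) (uE2 d w) = uR6 d w := by
    simp only [qA, uR6]; ring
  have eB1 : qB (uka d) (ua d w) (ub d w) (uE1 d w) (uF1 d w) = -2 * (1 / w) * uR1 d w := by
    have := rel_xz nw nT nK nH nM1 nM2 nL
    simp only [qB]
    linear_combination this
  have eB2 : qB (uka d) (ub d w) (ua d w) (uE2 d w) (uF2 d w) = -2 * w * uR6 d w := by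
    have := rel_yz nw nT nK nH nM1 nM2 nL
    simp only [qB]
    linear_combination this
  have eC : qC (uka d) (ua d w) (ub d w) (uF1 d w) (uF2 d w) = uR3 d w + uR4 d w := by
    simp only [qC, uR3, uR4]
    rw [hk1]
    ring
  obtain ⟨Γ, η, c0, hc0, h⟩ := exists_nbcert0 (n := n) (n' := 2 + 1 / d) (p := p) (q := q)
    (a := ua d w) (b := ub d w) (Aw := Aw) (E1 := uE1 d w) (F1 := uF1 d w) (E2 := uE2 d w)
    (F2 := uF2 d w) (f := uf d w) hn hnc hA hA2 hm ha0 hb0 sE1 sE2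
    (by rw [hka, eA1]; exact sR1) (by rw [hka, eA2]; exact sR6)
    (by
      rw [hka, eA1, eA2, eB1, eB2, eC]
      have h5 := mul_pos (mul_pos sR1 sR6) sDE
      unfold uDE at h5
      linear_combination 4 * h5)
    (by linear_combination 4 * hs)
    (by linear_combination 4 * ht)
  exact ⟨_, c0, hc0, h⟩

end cert

set_option maxHeartbeats 4000000 in
/-- the exponent condition and the corner, case `q <= p`. -/
theorem core_lift {n : ℕ} (hn3 : 3 ≤ n) {Aw m p q : ℝ} (hA : Aw < 0) (hA2 : -2 < Aw)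
    (hmdef : m = 2 * ((n : ℝ) + Aw) / (2 + Aw)) (hm9 : 9 ≤ m)
    (hp : 0 < p) (hq : 0 < q) (hqp : q ≤ p) (hpq : 1 < p * q)
    (halpha : 2 * (p + 1) / (p * q - 1) ≤ m - 3)
    (hsum : m - 2 + 1 / 8 ≤ 2 * (p + 1) / (p * q - 1) + 2 * (q + 1) / (p * q - 1))
    {u v : Eu n → ℝ} (hucont : Continuous u) (hvcont : Continuous v)
    (hupos : ∀ x, 0 < u x) (hvpos : ∀ x, 0 < v x)
    (hu : ContDiffOn ℝ 2 u {0}ᶜ) (hv : ContDiffOn ℝ 2 v {0}ᶜ)
    (hpdeU : ∀ x, x ≠ 0 → - Δ u x = ‖x‖ ^ Aw * v x ^ p)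
    (hpdeV : ∀ x, x ≠ 0 → - Δ v x = ‖x‖ ^ Aw * u x ^ q) : False := by
  have h2w : 0 < 2 + Aw := by linarith
  have hmw : (2 + Aw) * m = 2 * ((n : ℝ) + Aw) := by
    rw [hmdef]; field_simp
  have hnR3 : (3 : ℝ) ≤ n := by exact_mod_cast hn3
  have hm4 : 0 < m - 4 := by linarith
  have hm24 := mul_pos h2w hm4
  have hnc : 0 < (n : ℝ) - 4 + -Aw := by nlinarith
  have hn2 : 0 < m - 2 := by linarith
  obtain ⟨d, hd'⟩ : ∃ d : ℝ, d = 1 / (m - 2) := ⟨_, rfl⟩
  have hd : 0 < d := by rw [hd']; positivity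
  have hd7 : d ≤ 1 / 7 := by
    rw [hd', div_le_div_iff₀ hn2 (by norm_num)]
    linarith
  have hdn : m = 2 + 1 / d := by
    rw [hd']
    field_simp
    ring
  have hD : 0 < p * q - 1 := by linarith
  have hp1 : 0 < p + 1 := by linarith
  have hq1 : 0 < q + 1 := by linarith
  obtain ⟨w, hw'⟩ : ∃ w : ℝ, w = (q + 1) / (p + 1) := ⟨_, rfl⟩
  have hw0 : 0 < w := by rw [hw']; positivity
  have hw1 : w ≤ 1 := by
    rw [hw', div_le_one hp1]
    linarith
  obtain ⟨α, hα⟩ : ∃ α : ℝ, α = 2 * (p + 1) / (p * q - 1) := ⟨_, rfl⟩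
  obtain ⟨β, hβ⟩ : ∃ β : ℝ, β = 2 * (q + 1) / (p * q - 1) := ⟨_, rfl⟩
  rw [← hα] at halpha hsum
  rw [← hβ] at hsum
  have hα0 : 0 < α := by rw [hα]; positivity
  have hβ0 : 0 < β := by rw [hβ]; positivity
  have hβw : β = w * α := by
    rw [hα, hβ, hw']
    field_simp
  have hnd : m - 2 = 1 / d := by rw [hdn]; ring
  have h1d : d * (1 / d) = 1 := by field_simp
  -- `9/8 d <= w`
  have hw : 9 / 8 * d ≤ w := by
    have h1 : 9 / 8 ≤ β := by linarith
    have h2 : α ≤ 1 / d := by linarith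
    have h3 : d * α ≤ 1 := by
      calc d * α ≤ d * (1 / d) := mul_le_mul_of_nonneg_left h2 hd.le
        _ = 1 := h1d
    have h4 : d * β ≤ w := by
      rw [hβw]
      have : d * (w * α) = w * (d * α) := by ring
      rw [this]
      calc w * (d * α) ≤ w * 1 := mul_le_mul_of_nonneg_left h3 hw0.le
        _ = w := mul_one w
    nlinarith
  -- the corner
  obtain ⟨σ, hσ⟩ : ∃ σ : ℝ, σ = (p * q - 1) / (p + q + 2) := ⟨_, rfl⟩
  have hS : 0 < p + q + 2 := by linarith
  have hσ0 : 0 < σ := by rw [hσ]; positivity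
  have hαβ : α + β = 2 / σ := by
    rw [hα, hβ, hσ]
    field_simp
    ring
  have hσle : σ ≤ 16 * d / (8 + d) := by
    have h1 : 1 / d + 1 / 8 ≤ 2 / σ := by
      rw [← hαβ, ← hnd]
      exact hsum
    have h2 : (1 / d + 1 / 8) * σ ≤ 2 := by
      have := mul_le_mul_of_nonneg_right h1 hσ0.le
      have e : 2 / σ * σ = 2 := by field_simp
      rw [e] at this
      exact this
    have h3 : (8 + d) * σ ≤ 16 * d := by
      have e : (8 + d) * σ = 8 * d * ((1 / d + 1 / 8) * σ) := by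
        field_simp
      rw [e]
      nlinarith
    rw [le_div_iff₀ (by positivity)]
    linarith
  have hqeq : q = w + σ * (1 + w) := by
    rw [hw', hσ]
    field_simp
    ring
  have hpeq : p = (1 + σ * (1 + w)) / w := by
    rw [hw', hσ]
    field_simp
    ring
  have hw1' : 0 < 1 + w := by linarith
  have hqQ : q ≤ uQ d w := by
    have e : uQ d w = w + 16 * d / (8 + d) * (1 + w) := by
      unfold uQ uL
      have : 8 + d ≠ 0 := by positivity
      field_simp
      ring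
    rw [e, hqeq]
    have := mul_le_mul_of_nonneg_right hσle hw1'.le
    linarith
  have hpP : p ≤ uP d w := by
    have e : uP d w = (1 + 16 * d / (8 + d) * (1 + w)) / w := by
      unfold uP uL
      have : 8 + d ≠ 0 := by positivity
      field_simp
      ring
    rw [e, hpeq]
    have := mul_le_mul_of_nonneg_right hσle hw1'.le
    exact div_le_div_of_nonneg_right (by linarith) hw0.le
  -- `a, b > 0`
  have pT := uT_pos w
  have ha0 : 0 < ua d w := by
    unfold ua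
    have h1 : d ^ 2 ≤ 1 / 49 := by nlinarith
    have h2 : w * (1 + w ^ 2) ≤ 2 := by nlinarith [sq_nonneg w]
    have h3 : d ^ 2 * (w * (1 + w ^ 2)) ≤ 1 / 49 * 2 :=
      mul_le_mul h1 h2 (by positivity) (by norm_num)
    have h4 : 0 < 20 + 20 * w ^ 2 - 40 * d - 9 * d ^ 2 * w - 9 * d ^ 2 * w ^ 3 := by
      nlinarith [sq_nonneg w]
    positivity
  have hb0 : 0 < ub d w := by
    unfold ub
    have h4 : 0 < 1 + w ^ 2 - 2 * d * w ^ 2 := by
      have h5 : 0 ≤ w ^ 2 * (1 - 2 * d) := mul_nonneg (sq_nonneg w) (by linarith)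
      nlinarith
    positivity
  obtain ⟨co, c0, hc0, hc⟩ := ustrip_cert_lift (n := (n : ℝ)) (Aw := Aw) (by linarith) hnc hA hA2
    (by rw [← hdn]; exact hmdef) hd hd7 hw hw1 hp.le hpP hq.le hqQ ha0.le hb0.le
  -- the exponents
  have hEX : 0 < uEX d w := by
    have qEX := pEX_pos hd hd7 hw hw1
    have nd := hd.ne'
    rw [EX_eq nd hw0.ne' (uT_pos w).ne' (uK_pos hd).ne' (uH_pos hd).ne'
      (uM1_pos hd hd7 hw0 hw1).ne' (uM2_pos hd hd7 hw0 hw1).ne' (uL_pos hd).ne']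
    positivity
  have hEX' : 8 * (1 - 2 * d) * (1 + w) < (8 + d) * (ua d w + ub d w * w) := by
    unfold uEX at hEX
    have := (div_pos_iff_of_pos_right hd).mp hEX
    linarith
  have hD' := hD.ne'
  obtain ⟨A, hA⟩ : ∃ A : ℝ, A = ua d w := ⟨_, rfl⟩
  obtain ⟨B, hB⟩ : ∃ B : ℝ, B = ub d w := ⟨_, rfl⟩
  rw [← hA, ← hB] at hc hEX'
  rw [← hA] at ha0
  rw [← hB] at hb0
  have hl : 0 < (A + B * q) / (p * q - 1) := by positivity
  have hm : 0 < (B + A * p) / (p * q - 1) := by positivity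
  obtain ⟨lam, hlamd⟩ : ∃ lam : ℝ, lam = (A + B * q) / (p * q - 1) := ⟨_, rfl⟩
  obtain ⟨mu, hmud⟩ : ∃ mu : ℝ, mu = (B + A * p) / (p * q - 1) := ⟨_, rfl⟩
  rw [← hlamd] at hl
  rw [← hmud] at hm
  have hsumL : m - 4 < 2 * (lam + mu) := by
    have e : 2 * (lam + mu) = α * (A + B * w) := by
      rw [hlamd, hmud, hα, hw']
      field_simp
      ring
    have h1 : α * (1 + w) = 2 / σ := by
      rw [← hαβ, hβw]
      ring
    have h2 : (8 + d) / (8 * d) ≤ α * (1 + w) := by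
      rw [h1, ← hαβ]
      have e2 : (8 + d) / (8 * d) = 1 / d + 1 / 8 := by
        field_simp
      rw [e2, ← hnd]
      exact hsum
    have hAB : 0 < A + B * w := by positivity
    have h3 : (8 + d) / (8 * d) * (A + B * w) ≤ α * (1 + w) * (A + B * w) :=
      mul_le_mul_of_nonneg_right h2 hAB.le
    have h4 : (1 - 2 * d) / d * (1 + w) < (8 + d) / (8 * d) * (A + B * w) := by
      have e3 : (1 - 2 * d) / d * (1 + w) = (8 * (1 - 2 * d) * (1 + w)) / (8 * d) := by
        field_simp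
      have e4 : (8 + d) / (8 * d) * (A + B * w) = ((8 + d) * (A + B * w)) / (8 * d) := by ring
      rw [e3, e4]
      exact div_lt_div_of_pos_right hEX' (by positivity)
    have h5 : (1 - 2 * d) / d < α * (A + B * w) := by
      have h6 : (1 - 2 * d) / d * (1 + w) < α * (A + B * w) * (1 + w) := by
        calc (1 - 2 * d) / d * (1 + w) < (8 + d) / (8 * d) * (A + B * w) := h4
          _ ≤ α * (1 + w) * (A + B * w) := h3
          _ = α * (A + B * w) * (1 + w) := by ring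
      exact lt_of_mul_lt_mul_right h6 hw1'.le
    have e5 : (1 - 2 * d) / d = m - 4 := by
      rw [hdn]
      field_simp
      ring
    rw [e]
    rw [e5] at h5
    exact h5
  have hfin : (n : ℝ) < 2 * (lam + mu) + 4 + (Aw * lam + Aw * mu - -Aw) := by
    have h4 := mul_lt_mul_of_pos_left hsumL h2w
    have e : (2 + Aw) * (2 * (lam + mu))
        = 2 * (2 * (lam + mu) + 4 + (Aw * lam + Aw * mu - -Aw)) - 8 - 2 * Aw := by ring
    have e2 : (2 + Aw) * (m - 4) = (2 + Aw) * m - 4 * (2 + Aw) := by ring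
    linarith only [h4, hmw, e, e2]
  refine no_solution_of_nbcert_lap hn3 (a := A) (b := B) (c := -Aw) (lam := lam) (mu := mu)
    hc hc0 (by linarith) ?_ ?_ hl.le hm.le hfin (by linarith) (by linarith)
    hucont hvcont hupos hvpos hu hv hpdeU hpdeV
  · rw [hlamd, hmud]
    have e : (B + A * p) / (p * q - 1) * q - (A + B * q) / (p * q - 1) =
        A * ((p * q - 1) / (p * q - 1)) := by ring
    rw [e, div_self hD', mul_one]
  · rw [hlamd, hmud]
    have e : (A + B * q) / (p * q - 1) * p - (B + A * p) / (p * q - 1) =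
        B * ((p * q - 1) / (p * q - 1)) := by ring
    rw [e, div_self hD', mul_one]

/-- **Equal negative weights: the uniform strip.** `A` in `(-2, 0)`, `m = 2 (n + A) / (2 + A) ≥ 9`,
`alpha = 2 (p + 1) / (p q - 1)`, `beta = 2 (q + 1) / (p q - 1)`: if `alpha, beta ≤ m - 3` and
`alpha + beta ≥ m - 2 + 1/8` there is no solution. -/
theorem no_solution_nabu {n : ℕ} {Aw m p q : ℝ} (hA : Aw < 0) (hA2 : -2 < Aw)
    (hmdef : m = 2 * ((n : ℝ) + Aw) / (2 + Aw)) (hm9 : 9 ≤ m)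
    (hp : 0 < p) (hq : 0 < q) (hpq : 1 < p * q)
    (halpha : 2 * (p + 1) / (p * q - 1) ≤ m - 3)
    (hbeta : 2 * (q + 1) / (p * q - 1) ≤ m - 3)
    (hsum : m - 2 + 1 / 8 ≤ 2 * (p + 1) / (p * q - 1) + 2 * (q + 1) / (p * q - 1))
    {u v : Eu n → ℝ} (hucont : Continuous u) (hvcont : Continuous v)
    (hupos : ∀ x, 0 < u x) (hvpos : ∀ x, 0 < v x)
    (hu : ContDiffOn ℝ 2 u {0}ᶜ) (hv : ContDiffOn ℝ 2 v {0}ᶜ)
    (hpdeU : ∀ x, x ≠ 0 → - Δ u x = ‖x‖ ^ Aw * v x ^ p)
    (hpdeV : ∀ x, x ≠ 0 → - Δ v x = ‖x‖ ^ Aw * u x ^ q) : False := by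
  have h2w : 0 < 2 + Aw := by linarith
  have hmw : (2 + Aw) * m = 2 * ((n : ℝ) + Aw) := by
    rw [hmdef]; field_simp
  have hn3 : 3 ≤ n := by
    by_contra hcon
    have h2 : n ≤ 2 := by omega
    have h2R : (n : ℝ) ≤ 2 := by exact_mod_cast h2
    nlinarith
  rcases le_total q p with hqp | hqp
  · exact core_lift hn3 hA hA2 hmdef hm9 hp hq hqp hpq halpha hsum hucont hvcont hupos hvpos hu hv
      hpdeU hpdeV
  · have e : q * p = p * q := mul_comm q p
    refine core_lift hn3 hA hA2 hmdef hm9 hq hp hqp (by rw [e]; exact hpq) (by rw [e]; exact hbeta) ?_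
      hvcont hucont hvpos hupos hv hu hpdeV hpdeU
    rw [e]
    linarith

end Vale.Agent.Lib.P100.US
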