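import Vale.Agent.Lib.P100.Neg4

/-!
# P100: weights `A ≠ B`, weight `|x|^c u^a v^a`: the analytic part.

The thirteen fields `U0 X, V0 Y, x X, x Y, y X, y Y, s X, t Y, w ξ, x ξ, y ξ, s ξ, t ξ`.
-/

open scoped BigOperators
open MeasureTheory Filter Topology Set Metric Module InnerProductSpace Laplacian

set_option linter.unusedSimpArgs false

noncomputable section

namespace Vale.Agent.Lib.P100

variable {n : ℕ}

/-- The polynomials: `div (W F_k) / W` for `W = |x|^c u^a v^a` and the thirteen fields. -/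
def NAtoms.DG (n p q a c Aw Bw : ℝ) (A : NAtoms) : Fin 13 → ℝ :=
  let k := 1 - 1 / n
  ![A.UU + (a - 2) * A.UXX + a * A.UXY + c * A.uxz - k * p * (A.s * A.z) - k * Aw * (A.s * A.tx),
    A.VV + (a - 2) * A.VYY + a * A.VXY + c * A.vyz - k * q * (A.t * A.z) - k * Bw * (A.t * A.ty),
    2 * A.UXX + (a - 3) * A.x ^ 2 + a * (A.x * A.z) + c * (A.x * A.tx) - (1 + 2 / n) * (A.s * A.x),
    2 * A.UXY + (a - 2) * (A.x * A.z) + (a - 1) * (A.x * A.y) + c * (A.x * A.ty)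
      - (2 / n) * (A.s * A.z) - A.t * A.x,
    2 * A.VXY + (a - 2) * (A.y * A.z) + (a - 1) * (A.x * A.y) + c * (A.y * A.tx)
      - (2 / n) * (A.t * A.z) - A.s * A.y,
    2 * A.VYY + (a - 3) * A.y ^ 2 + a * (A.y * A.z) + c * (A.y * A.ty) - (1 + 2 / n) * (A.t * A.y),
    (a - 2) * (A.s * A.x) + (a + p) * (A.s * A.z) - A.s ^ 2 + (Aw + c) * (A.s * A.tx),
    (a - 2) * (A.t * A.y) + (a + q) * (A.t * A.z) - A.t ^ 2 + (Bw + c) * (A.t * A.ty),
    A.w * (a * A.tx + a * A.ty) + (n - 4 + c) * A.w ^ 2,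
    2 * A.uxz + (a - 2) * (A.x * A.tx) + a * (A.x * A.ty) + (n - 2 + c) * (A.x * A.w)
      - (2 / n) * (A.s * A.tx),
    2 * A.vyz + (a - 2) * (A.y * A.ty) + a * (A.y * A.tx) + (n - 2 + c) * (A.y * A.w)
      - (2 / n) * (A.t * A.ty),
    A.s * ((a - 1) * A.tx + (a + p) * A.ty + (Aw + c + n - 2) * A.w),
    A.t * ((a + q) * A.tx + (a - 1) * A.ty + (Bw + c + n - 2) * A.w)]

/-- The contractions of the fields with `ξ`. -/
def NAtoms.PG (A : NAtoms) : Fin 13 → ℝ :=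
  ![A.uxz, A.vyz, A.x * A.tx, A.x * A.ty, A.y * A.tx, A.y * A.ty, A.s * A.tx, A.t * A.ty,
    A.w ^ 2, A.x * A.w, A.y * A.w, A.s * A.w, A.t * A.w]

theorem DG_eq_zero_add (N P Q a c Aw Bw : ℝ) (A : NAtoms) (k : Fin 13) :
    NAtoms.DG N P Q a c Aw Bw A k = NAtoms.DG N P Q a 0 Aw Bw A k + c * A.PG k := by
  fin_cases k <;> simp [NAtoms.DG, NAtoms.PG] <;> ring

theorem DG_zero_D (N P Q a Aw Bw : ℝ) (A : NAtoms) :
    NAtoms.DG N P Q a 0 Aw Bw A 0 = WAtoms.D N P Q a a Aw Bw A.toWAtoms 0 ∧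
    NAtoms.DG N P Q a 0 Aw Bw A 1 = WAtoms.D N P Q a a Aw Bw A.toWAtoms 3 ∧
    NAtoms.DG N P Q a 0 Aw Bw A 2 = WAtoms.D N P Q a a Aw Bw A.toWAtoms 4 ∧
    NAtoms.DG N P Q a 0 Aw Bw A 3 = WAtoms.D N P Q a a Aw Bw A.toWAtoms 5 ∧
    NAtoms.DG N P Q a 0 Aw Bw A 4 = WAtoms.D N P Q a a Aw Bw A.toWAtoms 8 ∧
    NAtoms.DG N P Q a 0 Aw Bw A 5 = WAtoms.D N P Q a a Aw Bw A.toWAtoms 9 ∧
    NAtoms.DG N P Q a 0 Aw Bw A 6 = WAtoms.D N P Q a a Aw Bw A.toWAtoms 10 ∧
    NAtoms.DG N P Q a 0 Aw Bw A 7 = WAtoms.D N P Q a a Aw Bw A.toWAtoms 13 ∧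
    NAtoms.DG N P Q a 0 Aw Bw A 8 = WAtoms.D N P Q a a Aw Bw A.toWAtoms 16 ∧
    NAtoms.DG N P Q a 0 Aw Bw A 11 = WAtoms.D N P Q a a Aw Bw A.toWAtoms 14 ∧
    NAtoms.DG N P Q a 0 Aw Bw A 12 = WAtoms.D N P Q a a Aw Bw A.toWAtoms 15 := by
  refine ⟨?_, ?_, ?_, ?_, ?_, ?_, ?_, ?_, ?_, ?_, ?_⟩ <;> simp [NAtoms.DG, WAtoms.D]

/-- The atoms of `(u,v)` at `x`, with the weight `Aw` in both equations. -/
def natAtG (u v : Eu n → ℝ) (Aw Bw p q : ℝ) (x : Eu n) : NAtoms :=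
  natomsOf (fun i j => Ug u (Sr Aw p v) i j x) (fun i j => Ug v (Sr Bw q u) i j x)
    (fun i => Xf u i x) (fun i => Xf v i x) (fun i => Xi i x)
    (Sr Aw p v x / u x) (Sr Bw q u x / v x)

theorem natAtG_toW (u v : Eu n → ℝ) (Aw Bw p q : ℝ) (x : Eu n) :
    (natAtG u v Aw Bw p q x).toWAtoms = watAt u v Aw Bw p q x := rfl

/-- The thirteen vector fields. -/
def NGFlds (u v : Eu n → ℝ) (Aw Bw p q : ℝ) : Fin 13 → Fin n → Eu n → ℝ :=
  ![FUg u (Sr Aw p v) (Xf u), FUg v (Sr Bw q u) (Xf v),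
    Fz (Xf u) (Xf u) (Xf u), Fz (Xf u) (Xf u) (Xf v),
    Fz (Xf v) (Xf v) (Xf u), Fz (Xf v) (Xf v) (Xf v),
    Fs (fun y => Sr Aw p v y / u y) (Xf u), Fs (fun y => Sr Bw q u y / v y) (Xf v),
    Fz Xi Xi Xi, Fz (Xf u) (Xf u) Xi, Fz (Xf v) (Xf v) Xi,
    Fs (fun y => Sr Aw p v y / u y) Xi, Fs (fun y => Sr Bw q u y / v y) Xi]

/-- The weak divergence of the thirteen fields, for `W = u^a v^a`. -/
theorem weak_NGFlds {Ω : Set (Eu n)} (hΩ : IsOpen Ω) (hΩ0 : ∀ x ∈ Ω, x ≠ 0)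
    {u v : Eu n → ℝ} {Aw Bw p q : ℝ} (a : ℝ)
    (hu : ContDiffOn ℝ 2 u Ω) (hv : ContDiffOn ℝ 2 v Ω)
    (hLoc : ∀ x ∈ Ω, LocW u v Aw Bw p q x)
    (hn : (n : ℝ) ≠ 0)
    {φ : Eu n → ℝ} (hφ : ContDiff ℝ 1 φ) (hφc : HasCompactSupport φ) (hφΩ : tsupport φ ⊆ Ω)
    (k : Fin 13) :
    ∑ i, ∫ x, pd i φ x * (Wf u v a a x * NGFlds u v Aw Bw p q k i x) =
      - ∫ x, φ x * (Wf u v a a x * NAtoms.DG n p q a 0 Aw Bw (natAtG u v Aw Bw p q x) k) := by
  have hupos : ∀ x ∈ Ω, 0 < u x := fun x hx => (hLoc x hx).upos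
  have hvpos : ∀ x ∈ Ω, 0 < v x := fun x hx => (hLoc x hx).vpos
  have hX : ∀ i, ContDiffOn ℝ 1 (Xf u i) Ω := contDiffOn_Xf hΩ hu hupos
  have hY : ∀ i, ContDiffOn ℝ 1 (Xf v i) Ω := contDiffOn_Xf hΩ hv hvpos
  have hZ : ∀ i, ContDiffOn ℝ 1 (Xi (n := n) i) Ω := contDiffOn_Xi hΩ0
  have hW : ContDiffOn ℝ 1 (Wf u v a a) Ω :=
    (contDiffOn_Wf hu hv hupos hvpos a a).of_le (by norm_num)
  have hcl : ∀ (F : Fin n → Eu n → ℝ) (hF : ∀ i, ContDiffOn ℝ 1 (F i) Ω) (D : Eu n → ℝ)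
      (hD : ∀ x ∈ Ω, ∑ i, pd i (fun y => Wf u v a a y * F i y) x = Wf u v a a x * D x),
      ∑ i, ∫ x, pd i φ x * (Wf u v a a x * F i x) = - ∫ x, φ x * (Wf u v a a x * D x) := by
    intro F hF D hD
    exact weak_classical hΩ (G := fun i y => Wf u v a a y * F i y) (fun i => hW.mul (hF i)) hD
      hφ hφc hφΩ
  have hcongr : ∀ (A B : Eu n → ℝ), (∀ x ∈ Ω, A x = B x) → ∫ x, φ x * A x = ∫ x, φ x * B x := by
    intro A B hAB
    refine integral_congr_ae (Eventually.of_forall fun x => ?_)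
    by_cases hx : x ∈ Ω
    · show φ x * A x = φ x * B x
      rw [hAB x hx]
    · have h0 : φ x = 0 := image_eq_zero_of_notMem_tsupport (fun h => hx (hφΩ h))
      show φ x * A x = φ x * B x
      simp [h0]
  have base := fun k' : Fin 17 => weak_WFlds (A := Aw) (B := Bw) (p := p) (q := q) hΩ hΩ0 a a hu hv
    hLoc hn hφ hφc hφΩ k'
  have hDD := fun x => DG_zero_D (n : ℝ) p q a Aw Bw (natAtG u v Aw Bw p q x)
  fin_cases k
  · refine (base 0).trans ?_
    simp only [← natAtG_toW, ← (fun x => (hDD x).1)]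
    rfl
  · refine (base 3).trans ?_
    simp only [← natAtG_toW, ← (fun x => (hDD x).2.1)]
    rfl
  · refine (base 4).trans ?_
    simp only [← natAtG_toW, ← (fun x => (hDD x).2.2.1)]
    rfl
  · refine (base 5).trans ?_
    simp only [← natAtG_toW, ← (fun x => (hDD x).2.2.2.1)]
    rfl
  · refine (base 8).trans ?_
    simp only [← natAtG_toW, ← (fun x => (hDD x).2.2.2.2.1)]
    rfl
  · refine (base 9).trans ?_
    simp only [← natAtG_toW, ← (fun x => (hDD x).2.2.2.2.2.1)]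
    rfl
  · refine (base 10).trans ?_
    simp only [← natAtG_toW, ← (fun x => (hDD x).2.2.2.2.2.2.1)]
    rfl
  · refine (base 13).trans ?_
    simp only [← natAtG_toW, ← (fun x => (hDD x).2.2.2.2.2.2.2.1)]
    rfl
  · refine (base 16).trans ?_
    simp only [← natAtG_toW, ← (fun x => (hDD x).2.2.2.2.2.2.2.2.1)]
    rfl
  · refine hcl _ (contDiffOn_Fz hΩ hX hX hZ) _ fun x hx => ?_
    refine (((hLoc x hx).jet a a).dxxi).trans ?_
    congr 1
    simp [NAtoms.DG, natAtG, natomsOf, watomsOf, atomsOf]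
  · refine hcl _ (contDiffOn_Fz hΩ hY hY hZ) _ fun x hx => ?_
    refine (((hLoc x hx).jet a a).dyyi).trans ?_
    congr 1
    simp [NAtoms.DG, natAtG, natomsOf, watomsOf, atomsOf]
  · refine (base 14).trans ?_
    simp only [← natAtG_toW, ← (fun x => (hDD x).2.2.2.2.2.2.2.2.2.1)]
    rfl
  · refine (base 15).trans ?_
    simp only [← natAtG_toW, ← (fun x => (hDD x).2.2.2.2.2.2.2.2.2.2)]
    rfl


section weight

variable {u v : Eu n → ℝ} {Aw Bw p q a c : ℝ}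

/-- The contraction of the fields with `ξ`. -/
theorem NGFlds_contract (x : Eu n) (hUs : ∀ i j, Ug u (Sr Aw p v) i j x = Ug u (Sr Aw p v) j i x)
    (hVs : ∀ i j, Ug v (Sr Bw q u) i j x = Ug v (Sr Bw q u) j i x) (k : Fin 13) :
    ∑ i, Xi i x * NGFlds u v Aw Bw p q k i x = (natAtG u v Aw Bw p q x).PG k := by
  have hz : ∀ (P R S : Fin n → Eu n → ℝ),
      ∑ i, Xi i x * Fz P R S i x
        = dot (fun i => P i x) (fun i => R i x) * dot (fun i => S i x) (fun i => Xi i x) := by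
    intro P R S
    simp only [Fz, dot, Finset.mul_sum]
    refine Finset.sum_congr rfl fun i _ => ?_
    ring_nf
  have hs : ∀ (f : Eu n → ℝ) (S : Fin n → Eu n → ℝ),
      ∑ i, Xi i x * Fs f S i x = f x * dot (fun i => S i x) (fun i => Xi i x) := by
    intro f S
    simp only [Fs, dot, Finset.mul_sum]
    refine Finset.sum_congr rfl fun i _ => ?_
    ring
  have hU' : ∀ (g f : Eu n → ℝ) (hs : ∀ i j, Ug g f i j x = Ug g f j i x),
      ∑ i, Xi i x * FUg g f (Xf g) i x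
        = BB (fun i j => Ug g f i j x) (fun i => Xf g i x) (fun i => Xi i x) := by
    intro g f hs
    have h1 := BB_symm hs (fun i => Xf g i x) (fun i => Xi i x)
    rw [h1]
    simp only [FUg, BB, Finset.mul_sum]
    refine Finset.sum_congr rfl fun i _ => Finset.sum_congr rfl fun j _ => ?_
    ring
  fin_cases k
  · exact hU' u _ hUs
  · exact hU' v _ hVs
  · exact hz _ _ _
  · exact hz _ _ _
  · exact hz _ _ _
  · exact hz _ _ _
  · exact hs (fun y => Sr Aw p v y / u y) (Xf u)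
  · exact hs (fun y => Sr Bw q u y / v y) (Xf v)
  · refine (hz _ _ _).trans ?_
    simp only [NAtoms.PG, natAtG, natomsOf, watomsOf]
    simp [pow_two]
  · exact hz _ _ _
  · exact hz _ _ _
  · exact hs (fun y => Sr Aw p v y / u y) Xi
  · exact hs (fun y => Sr Bw q u y / v y) Xi

end weight

/-- **The weak divergence of the thirteen fields, with the factor `|x|^c` in the weight.** -/
theorem weak_NGFlds_c {Ω : Set (Eu n)} (hΩ : IsOpen Ω) (hΩ0 : ∀ x ∈ Ω, x ≠ 0)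
    {u v : Eu n → ℝ} {Aw Bw p q : ℝ} (a c : ℝ)
    (hu : ContDiffOn ℝ 2 u Ω) (hv : ContDiffOn ℝ 2 v Ω)
    (hLoc : ∀ x ∈ Ω, LocW u v Aw Bw p q x) (hn : (n : ℝ) ≠ 0)
    (hFc : ∀ k i, ContinuousOn (NGFlds u v Aw Bw p q k i) Ω)
    (hWfc : ContinuousOn (Wf u v a a) Ω)
    (hDc : ∀ k, ContinuousOn (fun x => NAtoms.DG n p q a 0 Aw Bw (natAtG u v Aw Bw p q x) k) Ω)
    {φ : Eu n → ℝ} (hφ : ContDiff ℝ 1 φ) (hφc : HasCompactSupport φ) (hφΩ : tsupport φ ⊆ Ω)
    (k : Fin 13) :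
    ∑ i, ∫ x, pd i φ x * (Wt u v a c x * NGFlds u v Aw Bw p q k i x) =
      - ∫ x, φ x * (Wt u v a c x * NAtoms.DG n p q a c Aw Bw (natAtG u v Aw Bw p q x) k) := by
  have h0 : (0 : Eu n) ∉ tsupport φ := fun h => hΩ0 0 (hφΩ h) rfl
  have hψ := contDiff_mul_normpow hφ h0 c
  have hψc : HasCompactSupport (fun x => φ x * ‖x‖ ^ c) := hφc.mul_right
  have hψΩ : tsupport (fun x => φ x * ‖x‖ ^ c) ⊆ Ω :=
    (closure_mono (Function.support_mul_subset_left _ _)).trans hφΩ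
  have key := weak_NGFlds hΩ hΩ0 a (Aw := Aw) (Bw := Bw) (p := p) (q := q) hu hv hLoc hn hψ hψc hψΩ k
  have hNc : ContinuousOn (fun y : Eu n => ‖y‖ ^ c) Ω := (contDiffOn_normpow hΩ0 c).continuousOn
  have hWc : ContinuousOn (Wt u v a c) Ω := hNc.mul hWfc
  have hdφ : ∀ i, Continuous (pd i φ) := fun i =>
    (hφ.continuous_fderiv one_ne_zero).clm_apply continuous_const
  have hdφs : ∀ i, HasCompactSupport (pd i φ) := fun i => hφc.fderiv_apply (𝕜 := ℝ) (ee i)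
  have hdφΩ : ∀ i, tsupport (pd i φ) ⊆ Ω := fun i =>
    (tsupport_fderiv_apply_subset ℝ (ee i)).trans hφΩ
  have hZc : ∀ i, ContinuousOn (Xi (n := n) i) Ω := fun i => (contDiffOn_Xi hΩ0 i).continuousOn
  have hint1 : ∀ i, Integrable fun x => pd i φ x * (Wt u v a c x * NGFlds u v Aw Bw p q k i x) := by
    intro i
    have := integrable_mul_of_tsupport hΩ (hWc.mul (hFc k i)) (hdφ i) (hdφs i) (hdφΩ i)
    exact this.congr (Eventually.of_forall fun x => by simp only [Pi.mul_apply]; ring)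
  have hint2 : ∀ i, Integrable fun x =>
      φ x * (Wt u v a c x * (c * (Xi i x * NGFlds u v Aw Bw p q k i x))) := by
    intro i
    have h5 : ContinuousOn (fun x => c * (Xi i x * NGFlds u v Aw Bw p q k i x)) Ω :=
      continuousOn_const.mul ((hZc i).mul (hFc k i))
    have := integrable_mul_of_tsupport hΩ (hWc.mul h5) hφ.continuous hφc hφΩ
    exact this.congr (Eventually.of_forall fun x => by simp only [Pi.mul_apply]; ring)
  have step : ∀ i, ∫ x, pd i (fun x => φ x * ‖x‖ ^ c) x * (Wf u v a a x * NGFlds u v Aw Bw p q k i x)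
      = (∫ x, pd i φ x * (Wt u v a c x * NGFlds u v Aw Bw p q k i x))
        + ∫ x, φ x * (Wt u v a c x * (c * (Xi i x * NGFlds u v Aw Bw p q k i x))) := by
    intro i
    rw [← integral_add (hint1 i) (hint2 i)]
    refine integral_congr_ae (Eventually.of_forall fun x => ?_)
    show pd i (fun x => φ x * ‖x‖ ^ c) x * (Wf u v a a x * NGFlds u v Aw Bw p q k i x)
      = pd i φ x * (Wt u v a c x * NGFlds u v Aw Bw p q k i x)
        + φ x * (Wt u v a c x * (c * (Xi i x * NGFlds u v Aw Bw p q k i x)))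
    rw [pd_mul_normpow hφ h0 c i x]
    simp only [Wt]
    ring
  simp_rw [step] at key
  rw [Finset.sum_add_distrib] at key
  have hpt : ∀ x, ∑ i, φ x * (Wt u v a c x * (c * (Xi i x * NGFlds u v Aw Bw p q k i x)))
      = φ x * (Wt u v a c x * (c * (natAtG u v Aw Bw p q x).PG k)) := by
    intro x
    by_cases hx : x ∈ Ω
    · rw [← NGFlds_contract x (hLoc x hx).U_symm (hLoc x hx).swap.U_symm k]
      simp only [Finset.mul_sum]
    · have h0' : φ x = 0 := image_eq_zero_of_notMem_tsupport (fun h => hx (hφΩ h))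
      simp [h0']
  have hintP : Integrable fun x => φ x * (Wt u v a c x * (c * (natAtG u v Aw Bw p q x).PG k)) :=
    (integrable_finsetSum _ (fun i _ => hint2 i)).congr (Eventually.of_forall fun x => by
      simp only [Finset.sum_apply]
      exact hpt x)
  have hintD : Integrable fun x =>
      φ x * (Wt u v a c x * NAtoms.DG n p q a 0 Aw Bw (natAtG u v Aw Bw p q x) k) := by
    have := integrable_mul_of_tsupport hΩ (hWc.mul (hDc k)) hφ.continuous hφc hφΩ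
    exact this.congr (Eventually.of_forall fun x => by simp only [Pi.mul_apply]; ring)
  have h2 : ∑ i, ∫ x, φ x * (Wt u v a c x * (c * (Xi i x * NGFlds u v Aw Bw p q k i x)))
      = ∫ x, φ x * (Wt u v a c x * (c * (natAtG u v Aw Bw p q x).PG k)) := by
    rw [← integral_finsetSum _ (fun i _ => hint2 i)]
    exact integral_congr_ae (Eventually.of_forall hpt)
  have h3 : ∫ x, (φ x * ‖x‖ ^ c) * (Wf u v a a x * NAtoms.DG n p q a 0 Aw Bw (natAtG u v Aw Bw p q x) k)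
      = ∫ x, φ x * (Wt u v a c x * NAtoms.DG n p q a 0 Aw Bw (natAtG u v Aw Bw p q x) k) := by
    refine integral_congr_ae (Eventually.of_forall fun x => ?_)
    show (φ x * ‖x‖ ^ c) * (Wf u v a a x * NAtoms.DG n p q a 0 Aw Bw (natAtG u v Aw Bw p q x) k)
      = φ x * (Wt u v a c x * NAtoms.DG n p q a 0 Aw Bw (natAtG u v Aw Bw p q x) k)
    simp only [Wt]
    ring
  have h4 : ∫ x, φ x * (Wt u v a c x * NAtoms.DG n p q a c Aw Bw (natAtG u v Aw Bw p q x) k)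
      = (∫ x, φ x * (Wt u v a c x * NAtoms.DG n p q a 0 Aw Bw (natAtG u v Aw Bw p q x) k))
        + ∫ x, φ x * (Wt u v a c x * (c * (natAtG u v Aw Bw p q x).PG k)) := by
    rw [← integral_add hintD hintP]
    refine integral_congr_ae (Eventually.of_forall fun x => ?_)
    show φ x * (Wt u v a c x * NAtoms.DG n p q a c Aw Bw (natAtG u v Aw Bw p q x) k)
      = φ x * (Wt u v a c x * NAtoms.DG n p q a 0 Aw Bw (natAtG u v Aw Bw p q x) k)
        + φ x * (Wt u v a c x * (c * (natAtG u v Aw Bw p q x).PG k))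
    rw [DG_eq_zero_add (n : ℝ) p q a c Aw Bw (natAtG u v Aw Bw p q x) k]
    ring
  rw [h2, h3] at key
  rw [h4]
  linarith

theorem abs_NGF_le {u v : Eu n → ℝ} {Aw Bw p q : ℝ} (k : Fin 13) (i : Fin n) (x : Eu n) :
    |NGFlds u v Aw Bw p q k i x| ≤ (natAtG u v Aw Bw p q x).EW ^ ((3 : ℝ) / 4) := by
  have base := fun k' : Fin 17 => abs_WF_le (u := u) (v := v) (A := Aw) (B := Bw) (p := p) (q := q)
    k' i x
  have hnew := abs_xZ_le (U := fun i j => Ug u (Sr Aw p v) i j x)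
    (V := fun i j => Ug v (Sr Bw q u) i j x) (X := fun i => Xf u i x) (Y := fun i => Xf v i x)
    (Z := fun i => Xi i x) (s := Sr Aw p v x / u x) (t := Sr Bw q u x / v x) i
  fin_cases k
  · exact base 0
  · exact base 3
  · exact base 4
  · exact base 5
  · exact base 8
  · exact base 9
  · exact base 10
  · exact base 13
  · exact base 16
  · exact hnew.1
  · exact hnew.2
  · exact base 14
  · exact base 15

lemma contOn_NGFlds {Ω : Set (Eu n)} {u v : Eu n → ℝ} {Aw Bw p q : ℝ} (hΩ : IsOpen Ω)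
    (hΩ0 : ∀ x ∈ Ω, x ≠ 0)
    (hu : ContDiffOn ℝ 2 u Ω) (hv : ContDiffOn ℝ 2 v Ω)
    (hupos : ∀ x ∈ Ω, 0 < u x) (hvpos : ∀ x ∈ Ω, 0 < v x) (hn : (n : ℝ) ≠ 0)
    (k : Fin 13) (i : Fin n) : ContinuousOn (NGFlds u v Aw Bw p q k i) Ω := by
  have base := fun k' : Fin 17 => contOn_WFlds (A := Aw) (B := Bw) (p := p) (q := q) hΩ hΩ0 hu hv
    hupos hvpos hn k' i
  have hX : ∀ i, ContDiffOn ℝ 1 (Xf u i) Ω := contDiffOn_Xf hΩ hu hupos
  have hY : ∀ i, ContDiffOn ℝ 1 (Xf v i) Ω := contDiffOn_Xf hΩ hv hvpos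
  have hZ : ∀ i, ContDiffOn ℝ 1 (Xi (n := n) i) Ω := contDiffOn_Xi hΩ0
  fin_cases k
  · exact base 0
  · exact base 3
  · exact base 4
  · exact base 5
  · exact base 8
  · exact base 9
  · exact base 10
  · exact base 13
  · exact base 16
  · exact (contDiffOn_Fz hΩ hX hX hZ i).continuousOn
  · exact (contDiffOn_Fz hΩ hY hY hZ i).continuousOn
  · exact base 14
  · exact base 15

lemma continuousOn_DG_aux {Ω : Set (Eu n)}
    {f1 f2 f3 f4 f5 f6 f7 f8 f9 f10 f11 f12 f13 f14 f15 f16 f17 f18 f19 : Eu n → ℝ}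
    (h1 : ContinuousOn f1 Ω) (h2 : ContinuousOn f2 Ω) (h3 : ContinuousOn f3 Ω)
    (h4 : ContinuousOn f4 Ω) (h5 : ContinuousOn f5 Ω) (h6 : ContinuousOn f6 Ω)
    (h7 : ContinuousOn f7 Ω) (h8 : ContinuousOn f8 Ω) (h9 : ContinuousOn f9 Ω)
    (h10 : ContinuousOn f10 Ω) (h11 : ContinuousOn f11 Ω) (h12 : ContinuousOn f12 Ω)
    (h13 : ContinuousOn f13 Ω) (h14 : ContinuousOn f14 Ω) (h15 : ContinuousOn f15 Ω)
    (h16 : ContinuousOn f16 Ω) (h17 : ContinuousOn f17 Ω) (h18 : ContinuousOn f18 Ω)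
    (h19 : ContinuousOn f19 Ω) (N P Q a c Aw Bw : ℝ) (k : Fin 13) :
    ContinuousOn (fun x => NAtoms.DG N P Q a c Aw Bw
      ⟨⟨⟨f1 x, f2 x, f3 x, f4 x, f5 x, f6 x, f7 x, f8 x, f9 x, f10 x, f11 x, f12 x, f13 x, f14 x⟩,
        f15 x, f16 x, f17 x⟩, f18 x, f19 x⟩ k) Ω := by
  fin_cases k <;> simp only [NAtoms.DG] <;> simp <;> fun_prop

/-- The weight in terms of `s, t, |x|`. -/
theorem Wt_eq_stwG {u v : Eu n → ℝ} {Aw Bw p q a c lam mu : ℝ} {x : Eu n} (hx : x ≠ 0)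
    (hu : 0 < u x) (hv : 0 < v x) (ha : a = mu * q - lam) (hb : a = lam * p - mu) :
    Wt u v a c x = (Sr Aw p v x / u x) ^ lam * (Sr Bw q u x / v x) ^ mu *
      ‖x‖ ^ (c - (Aw * lam + Bw * mu)) := by
  have hR : 0 < ‖x‖ := norm_pos_iff.2 hx
  have hA : 0 < ‖x‖ ^ Aw := Real.rpow_pos_of_pos hR _
  have hB : 0 < ‖x‖ ^ Bw := Real.rpow_pos_of_pos hR _
  have hp : 0 < v x ^ p := Real.rpow_pos_of_pos hv _
  have hq : 0 < u x ^ q := Real.rpow_pos_of_pos hu _
  have hs : 0 < Sr Aw p v x / u x := div_pos (mul_pos hA hp) hu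
  have ht : 0 < Sr Bw q u x / v x := div_pos (mul_pos hB hq) hv
  have ls : Real.log (Sr Aw p v x / u x) = Aw * Real.log ‖x‖ + p * Real.log (v x) - Real.log (u x) := by
    simp only [Sr]
    rw [Real.log_div (mul_pos hA hp).ne' hu.ne', Real.log_mul hA.ne' hp.ne', Real.log_rpow hR,
      Real.log_rpow hv]
  have lt : Real.log (Sr Bw q u x / v x) = Bw * Real.log ‖x‖ + q * Real.log (u x) - Real.log (v x) := by
    simp only [Sr]
    rw [Real.log_div (mul_pos hB hq).ne' hv.ne', Real.log_mul hB.ne' hq.ne', Real.log_rpow hR,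
      Real.log_rpow hu]
  simp only [Wt, Wf]
  rw [Real.rpow_def_of_pos hu, Real.rpow_def_of_pos hv, Real.rpow_def_of_pos hR,
    Real.rpow_def_of_pos hs, Real.rpow_def_of_pos ht, Real.rpow_def_of_pos hR, ls, lt,
    ← Real.exp_add, ← Real.exp_add, ← Real.exp_add, ← Real.exp_add]
  congr 1
  linear_combination (Real.log (u x)) * ha + (Real.log (v x)) * hb

/-- **Certificate implies nonexistence for the system with weights `Aw`, `Bw`**, with the weight
`|x|^c u^a v^a`, in the literal class of the problem. -/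
theorem no_solution_of_ngcert (hn3 : 3 ≤ n) {p q a c Aw Bw lam mu c0 : ℝ} {co : Fin 13 → ℝ}
    (hcert : ∀ A : NAtoms, A.Realizable n → c0 * A.EW ≤ ∑ k, co k * NAtoms.DG n p q a c Aw Bw A k)
    (hc0 : 0 < c0) (hc : 0 ≤ c)
    (ha : a = mu * q - lam) (hb : a = lam * p - mu) (hlam : 0 ≤ lam) (hmu : 0 ≤ mu)
    (hD : (n : ℝ) < 2 * (lam + mu) + 4 + (Aw * lam + Bw * mu - c))
    (hnc : 4 < (n : ℝ) + c) (hDpos0 : 0 < lam + mu)
    {u v : Eu n → ℝ} (hucont : Continuous u) (hvcont : Continuous v)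
    (hupos : ∀ x, 0 < u x) (hvpos : ∀ x, 0 < v x)
    (hu : ContDiffOn ℝ 2 u {0}ᶜ) (hv : ContDiffOn ℝ 2 v {0}ᶜ)
    (hpdeU : ∀ x, x ≠ 0 → ∑ i, Hf u i i x = - (‖x‖ ^ Aw * v x ^ p))
    (hpdeV : ∀ x, x ≠ 0 → ∑ i, Hf v i i x = - (‖x‖ ^ Bw * u x ^ q)) : False := by
  have hn4R : (3 : ℝ) ≤ n := by exact_mod_cast hn3
  have hn : (n : ℝ) ≠ 0 := by linarith
  obtain ⟨sg, hsg⟩ : ∃ sg, sg = Aw * lam + Bw * mu - c := ⟨_, rfl⟩
  obtain ⟨D, hDdef⟩ : ∃ D, D = lam + mu + max 0 sg / 2 := ⟨_, rfl⟩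
  obtain ⟨κ, hκdef⟩ : ∃ κ, κ = max 0 (-sg) := ⟨_, rfl⟩
  have hκ0 : 0 ≤ κ := by rw [hκdef]; exact le_max_left _ _
  have hmax : max 0 sg - max 0 (-sg) = sg := by
    rcases le_total 0 sg with h | h
    · rw [max_eq_right h, max_eq_left (by linarith)]; ring
    · rw [max_eq_left h, max_eq_right (by linarith)]; ring
  have hD' : (n : ℝ) < 2 * D + 4 - κ := by
    rw [hDdef, hκdef]
    have : 2 * (lam + mu + max 0 sg / 2) + 4 - max 0 (-sg) = 2 * (lam + mu) + sg + 4 := by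
      linarith
    rw [this, hsg]
    linarith
  have hDpos : 0 < D := by
    rw [hDdef]
    have : 0 ≤ max 0 sg := le_max_left _ _
    linarith
  obtain ⟨Ω, hΩdef⟩ : ∃ Ω : Set (Eu n), Ω = {0}ᶜ := ⟨_, rfl⟩
  have hΩ : IsOpen Ω := by rw [hΩdef]; exact isOpen_compl_singleton
  rw [← hΩdef] at hu hv
  have hΩne : ∀ x ∈ Ω, x ≠ 0 := fun x hx => by rwa [hΩdef] at hx
  have hneΩ : ∀ x : Eu n, x ≠ 0 → x ∈ Ω := fun x hx => by rwa [hΩdef]
  have hLoc : ∀ x ∈ Ω, LocW u v Aw Bw p q x := fun x hx =>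
    ⟨hu.contDiffAt (hΩ.mem_nhds hx), hv.contDiffAt (hΩ.mem_nhds hx), hupos x, hvpos x,
      hΩne x hx, hpdeU x (hΩne x hx), hpdeV x (hΩne x hx), hn⟩
  have huposΩ : ∀ x ∈ Ω, 0 < u x := fun x _ => hupos x
  have hvposΩ : ∀ x ∈ Ω, 0 < v x := fun x _ => hvpos x
  -- the weight
  have hWfcont : Continuous (Wf u v a a) :=
    (hucont.rpow_const fun x => Or.inl (hupos x).ne').mul
      (hvcont.rpow_const fun x => Or.inl (hvpos x).ne')
  have hWfpos : ∀ x, 0 < Wf u v a a x := fun x =>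
    mul_pos (Real.rpow_pos_of_pos (hupos x) a) (Real.rpow_pos_of_pos (hvpos x) a)
  have hNc : ContinuousOn (fun y : Eu n => ‖y‖ ^ c) Ω := (contDiffOn_normpow hΩne c).continuousOn
  have hWc : ContinuousOn (Wt u v a c) Ω := hNc.mul hWfcont.continuousOn
  have hWpos : ∀ x, x ≠ 0 → 0 < Wt u v a c x := fun x hx =>
    mul_pos (Real.rpow_pos_of_pos (norm_pos_iff.2 hx) c) (hWfpos x)
  obtain ⟨Wm, hWm⟩ := (isCompact_closedBall (0 : Eu n) 1).bddAbove_image hWfcont.continuousOn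
  have hWm' : ∀ x : Eu n, x ≠ 0 → ‖x‖ ≤ 1 → Wt u v a c x ≤ Wm * ‖x‖ ^ c := fun x _ hx => by
    have h1 : Wf u v a a x ≤ Wm := hWm ⟨x, by simpa using hx, rfl⟩
    have h2 : 0 ≤ ‖x‖ ^ c := Real.rpow_nonneg (norm_nonneg _) _
    have h3 := mul_le_mul_of_nonneg_left h1 h2
    simp only [Wt]
    linarith
  have hSpos : ∀ x : Eu n, x ≠ 0 → 0 < Sr Aw p v x / u x := fun x hx =>
    div_pos (mul_pos (Real.rpow_pos_of_pos (norm_pos_iff.2 hx) _)
      (Real.rpow_pos_of_pos (hvpos x) p)) (hupos x)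
  have hTpos : ∀ x : Eu n, x ≠ 0 → 0 < Sr Bw q u x / v x := fun x hx =>
    div_pos (mul_pos (Real.rpow_pos_of_pos (norm_pos_iff.2 hx) _)
      (Real.rpow_pos_of_pos (hupos x) q)) (hvpos x)
  have hwpos : ∀ x : Eu n, x ≠ 0 → 0 < dot (fun i => Xi i x) (fun i => Xi i x) := fun x hx => by
    rw [dot_Xi x hx]
    have : 0 < ‖x‖ := norm_pos_iff.2 hx
    positivity
  have hreal : ∀ x ∈ Ω, NAtoms.Realizable n (natAtG u v Aw Bw p q x) := by
    intro x hx
    have hJ := (hLoc x hx).jet a a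
    exact natomsOf_realizable (by linarith) hJ.Usymm hJ.Vsymm hJ.trU hJ.trV (hSpos x (hΩne x hx))
      (hTpos x (hΩne x hx))
  have hfu : ContinuousOn (Sr Aw p v) Ω := (contDiffOn_Sr hΩne hv hvposΩ Aw p).continuousOn
  have hfv : ContinuousOn (Sr Bw q u) Ω := (contDiffOn_Sr hΩne hu huposΩ Bw q).continuousOn
  have hU1 : ∀ i j, ContinuousOn (Ug u (Sr Aw p v) i j) Ω :=
    contOn_Ug hΩ hu huposΩ hn hfu
  have hV1 : ∀ i j, ContinuousOn (Ug v (Sr Bw q u) i j) Ω :=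
    contOn_Ug hΩ hv hvposΩ hn hfv
  have hX1 : ∀ i, ContinuousOn (Xf u i) Ω := fun i => (contDiffOn_Xf hΩ hu huposΩ i).continuousOn
  have hY1 : ∀ i, ContinuousOn (Xf v i) Ω := fun i => (contDiffOn_Xf hΩ hv hvposΩ i).continuousOn
  have hZ1 : ∀ i, ContinuousOn (Xi (n := n) i) Ω := fun i => (contDiffOn_Xi hΩne i).continuousOn
  have hs1 : ContinuousOn (fun y => Sr Aw p v y / u y) Ω :=
    hfu.div hu.continuousOn fun x hx => (hupos x).ne'
  have ht1 : ContinuousOn (fun y => Sr Bw q u y / v y) Ω :=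
    hfv.div hv.continuousOn fun x hx => (hvpos x).ne'
  have hip : ∀ {A B : Fin n → Fin n → Eu n → ℝ}, (∀ i j, ContinuousOn (A i j) Ω) →
      (∀ i j, ContinuousOn (B i j) Ω) →
      ContinuousOn (fun x => ip (fun i j => A i j x) (fun i j => B i j x)) Ω :=
    fun hA hB => continuousOn_finsetSum _ fun i _ => continuousOn_finsetSum _ fun j _ =>
      (hA i j).mul (hB i j)
  have hBB : ∀ {A : Fin n → Fin n → Eu n → ℝ} {P R : Fin n → Eu n → ℝ},
      (∀ i j, ContinuousOn (A i j) Ω) → (∀ i, ContinuousOn (P i) Ω) → (∀ i, ContinuousOn (R i) Ω) →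
      ContinuousOn (fun x => BB (fun i j => A i j x) (fun i => P i x) (fun i => R i x)) Ω :=
    fun hA hP hR => continuousOn_finsetSum _ fun i _ => continuousOn_finsetSum _ fun j _ =>
      (hA i j).mul ((hP i).mul (hR j))
  have hdot : ∀ {P R : Fin n → Eu n → ℝ}, (∀ i, ContinuousOn (P i) Ω) →
      (∀ i, ContinuousOn (R i) Ω) → ContinuousOn (fun x => dot (fun i => P i x) (fun i => R i x)) Ω :=
    fun hP hR => continuousOn_finsetSum _ fun i _ => (hP i).mul (hR i)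
  have a1 := hip hU1 hU1
  have a2 := hip hU1 hV1
  have a3 := hip hV1 hV1
  have a4 := hBB hU1 hX1 hX1
  have a5 := hBB hU1 hX1 hY1
  have a6 := hBB hU1 hY1 hY1
  have a7 := hBB hV1 hX1 hX1
  have a8 := hBB hV1 hX1 hY1
  have a9 := hBB hV1 hY1 hY1
  have a10 := hdot hX1 hX1
  have a11 := hdot hX1 hY1
  have a12 := hdot hY1 hY1
  have a15 := hdot hX1 hZ1
  have a16 := hdot hY1 hZ1
  have a17 := hdot hZ1 hZ1
  have a18 := hBB hU1 hX1 hZ1
  have a19 := hBB hV1 hY1 hZ1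
  have hDc : ∀ c' k, ContinuousOn (fun x => NAtoms.DG n p q a c' Aw Bw (natAtG u v Aw Bw p q x) k) Ω :=
    fun c' k => continuousOn_DG_aux a1 a2 a3 a4 a5 a6 a7 a8 a9 a10 a11 a12 hs1 ht1 a15 a16 a17 a18
      a19 n p q a c' Aw Bw k
  have hEc : ContinuousOn (fun x => (natAtG u v Aw Bw p q x).EW) Ω :=
    ((((((a1.add a3).add (a10.pow 2)).add (a12.pow 2)).add (hs1.pow 2)).add (ht1.pow 2))).add
      (a17.pow 2)
  have hE0 : ∀ x, 0 ≤ (natAtG u v Aw Bw p q x).EW := fun x => EW_nonneg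
  -- the field
  obtain ⟨Z, hZdef⟩ : ∃ Z : Fin n → Eu n → ℝ, Z = fun i y =>
      Wt u v a c y * ∑ k, co k * NGFlds u v Aw Bw p q k i y := ⟨_, rfl⟩
  have hFc := contOn_NGFlds (Aw := Aw) (Bw := Bw) (p := p) (q := q) hΩ hΩne hu hv huposΩ hvposΩ hn
  have hZc : ∀ i, ContinuousOn (Z i) Ω := by
    intro i
    rw [hZdef]
    exact hWc.mul (continuousOn_finsetSum _ fun k _ => continuousOn_const.mul (hFc k i))
  have hZb : ∀ i x, x ≠ 0 → |Z i x| ≤ (∑ k, |co k|) *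
      (Wt u v a c x * (natAtG u v Aw Bw p q x).EW ^ (3 / 4 : ℝ)) := by
    intro i x hx
    rw [hZdef]
    simp only
    rw [abs_mul, abs_of_pos (hWpos x hx)]
    have h1 : |∑ k, co k * NGFlds u v Aw Bw p q k i x| ≤
        (∑ k, |co k|) * (natAtG u v Aw Bw p q x).EW ^ (3 / 4 : ℝ) := by
      refine (Finset.abs_sum_le_sum_abs _ _).trans ?_
      rw [Finset.sum_mul]
      refine Finset.sum_le_sum fun k _ => ?_
      rw [abs_mul]
      exact mul_le_mul_of_nonneg_left (abs_NGF_le k i x) (abs_nonneg _)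
    have h2 := mul_le_mul_of_nonneg_left h1 (hWpos x hx).le
    linarith
  have hWE : ∀ x, x ≠ 0 → Wt u v a c x ≤ 1 * ‖x‖ ^ κ * (natAtG u v Aw Bw p q x).EW ^ (D / 2) := by
    intro x hx
    have hxn : 0 < ‖x‖ := norm_pos_iff.2 hx
    have hw1 := hwpos x hx
    have hsplit : ‖x‖ ^ (c - (Aw * lam + Bw * mu))
        = ‖x‖ ^ κ * (dot (fun i => Xi i x) (fun i => Xi i x)) ^ (max 0 sg / 2) := by
      have e1 : (dot (fun i => Xi i x) (fun i => Xi i x)) ^ (max 0 sg / 2) = ‖x‖ ^ (-(max 0 sg)) := by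
        rw [dot_Xi x hx, one_div, Real.inv_rpow (by positivity), ← Real.rpow_natCast,
          ← Real.rpow_mul hxn.le, ← Real.rpow_neg hxn.le]
        congr 1
        push_cast
        ring
      rw [e1, ← Real.rpow_add hxn]
      congr 1
      rw [hκdef]
      linarith
    rw [one_mul, Wt_eq_stwG hx (hupos x) (hvpos x) ha hb, hsplit]
    have h6 := stw_pow_le (U := fun i j => Ug u (Sr Aw p v) i j x)
      (V := fun i j => Ug v (Sr Bw q u) i j x) (X := fun i => Xf u i x) (Y := fun i => Xf v i x)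
      (Z := fun i => Xi i x)
      (hSpos x hx) (hTpos x hx) (hwpos x hx) hlam hmu (div_nonneg (le_max_left 0 sg) zero_le_two)
    have hk : 0 < ‖x‖ ^ κ := Real.rpow_pos_of_pos hxn _
    have e2 : (lam + mu + max 0 sg / 2) / 2 = D / 2 := by rw [hDdef]
    rw [e2] at h6
    have e : (natAtG u v Aw Bw p q x).EW = (watAt u v Aw Bw p q x).EW := rfl
    rw [e]
    calc (Sr Aw p v x / u x) ^ lam * (Sr Bw q u x / v x) ^ mu *
          (‖x‖ ^ κ * (dot (fun i => Xi i x) (fun i => Xi i x)) ^ (max 0 sg / 2))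
        = ‖x‖ ^ κ * ((Sr Aw p v x / u x) ^ lam * (Sr Bw q u x / v x) ^ mu *
          (dot (fun i => Xi i x) (fun i => Xi i x)) ^ (max 0 sg / 2)) := by ring
      _ ≤ ‖x‖ ^ κ * (watAt u v Aw Bw p q x).EW ^ (D / 2) :=
          mul_le_mul_of_nonneg_left h6 hk.le
  -- the weak inequality
  have hweak : ∀ φ : Eu n → ℝ, ContDiff ℝ 1 φ → HasCompactSupport φ → (∀ x, 0 ≤ φ x) →
      0 ∉ tsupport φ →
      c0 * ∫ x, φ x * (Wt u v a c x * (natAtG u v Aw Bw p q x).EW) ≤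
        - ∑ i, ∫ x, fderiv ℝ φ x (ee i) * Z i x := by
    intro φ hφ hφc hφ0 h0
    have hφΩ : tsupport φ ⊆ Ω := by
      intro y hy
      refine hneΩ y ?_
      rintro rfl
      exact h0 hy
    have hdφ : ∀ i, Continuous (pd i φ) := fun i =>
      (hφ.continuous_fderiv one_ne_zero).clm_apply continuous_const
    have hdφs : ∀ i, HasCompactSupport (pd i φ) := fun i => hφc.fderiv_apply (𝕜 := ℝ) (ee i)
    have hdφΩ : ∀ i, tsupport (pd i φ) ⊆ Ω := fun i =>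
      (tsupport_fderiv_apply_subset ℝ (ee i)).trans hφΩ
    have hint : ∀ k i, Integrable fun x => pd i φ x * (Wt u v a c x * NGFlds u v Aw Bw p q k i x) := by
      intro k i
      have := integrable_mul_of_tsupport hΩ (hWc.mul (hFc k i)) (hdφ i) (hdφs i) (hdφΩ i)
      exact this.congr (Eventually.of_forall fun x => by simp only [Pi.mul_apply]; ring)
    have h1 : ∀ i, ∫ x, fderiv ℝ φ x (ee i) * Z i x =
        ∑ k, co k * ∫ x, pd i φ x * (Wt u v a c x * NGFlds u v Aw Bw p q k i x) := by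
      intro i
      simp_rw [← integral_const_mul]
      rw [← integral_finsetSum _ (fun k _ => (hint k i).const_mul _)]
      refine integral_congr_ae (Eventually.of_forall fun x => ?_)
      rw [hZdef]
      show fderiv ℝ φ x (ee i) * (Wt u v a c x * ∑ k, co k * NGFlds u v Aw Bw p q k i x) =
        ∑ k, co k * (pd i φ x * (Wt u v a c x * NGFlds u v Aw Bw p q k i x))
      rw [Finset.mul_sum, Finset.mul_sum]
      refine Finset.sum_congr rfl fun k _ => ?_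
      simp only [pd]
      ring
    simp_rw [h1]
    rw [Finset.sum_comm]
    simp_rw [← Finset.mul_sum]
    simp_rw [weak_NGFlds_c hΩ hΩne a c hu hv hLoc hn hFc hWfcont.continuousOn (hDc 0) hφ hφc hφΩ]
    have hintD : ∀ k, Integrable fun x =>
        φ x * (Wt u v a c x * NAtoms.DG n p q a c Aw Bw (natAtG u v Aw Bw p q x) k) := by
      intro k
      have := integrable_mul_of_tsupport hΩ (hWc.mul (hDc c k)) hφ.continuous hφc hφΩ
      exact this.congr (Eventually.of_forall fun x => mul_comm _ _)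
    have hintE : Integrable fun x => φ x * (Wt u v a c x * (natAtG u v Aw Bw p q x).EW) := by
      have := integrable_mul_of_tsupport hΩ (hWc.mul hEc) hφ.continuous hφc hφΩ
      exact this.congr (Eventually.of_forall fun x => mul_comm _ _)
    have h2 : - ∑ k, co k * - ∫ x, φ x * (Wt u v a c x * NAtoms.DG n p q a c Aw Bw (natAtG u v Aw Bw p q x) k) =
        ∫ x, φ x * (Wt u v a c x * ∑ k, co k * NAtoms.DG n p q a c Aw Bw (natAtG u v Aw Bw p q x) k) := by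
      simp only [mul_neg, Finset.sum_neg_distrib, neg_neg]
      simp_rw [← integral_const_mul]
      rw [← integral_finsetSum _ (fun k _ => (hintD k).const_mul _)]
      refine integral_congr_ae (Eventually.of_forall fun x => ?_)
      show ∑ k, co k * (φ x * (Wt u v a c x * NAtoms.DG n p q a c Aw Bw (natAtG u v Aw Bw p q x) k)) =
        φ x * (Wt u v a c x * ∑ k, co k * NAtoms.DG n p q a c Aw Bw (natAtG u v Aw Bw p q x) k)
      rw [Finset.mul_sum, Finset.mul_sum]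
      refine Finset.sum_congr rfl fun k _ => ?_
      ring
    rw [h2, ← integral_const_mul]
    refine integral_mono (hintE.const_mul _) ?_ ?_
    · have hQc : ContinuousOn (fun x => ∑ k, co k * NAtoms.DG n p q a c Aw Bw (natAtG u v Aw Bw p q x) k) Ω :=
        continuousOn_finsetSum Finset.univ fun k _ => continuousOn_const.mul (hDc c k)
      have := integrable_mul_of_tsupport hΩ (hWc.mul hQc) hφ.continuous hφc hφΩ
      exact this.congr (Eventually.of_forall fun x => mul_comm _ _)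
    · intro x
      by_cases hx : x ∈ Ω
      · have h3 := hcert _ (hreal x hx)
        have h4 : 0 ≤ φ x * Wt u v a c x := mul_nonneg (hφ0 x) (hWpos x (hΩne x hx)).le
        have h5 := mul_le_mul_of_nonneg_left h3 h4
        show c0 * (φ x * (Wt u v a c x * (natAtG u v Aw Bw p q x).EW)) ≤
          φ x * (Wt u v a c x * ∑ k, co k * NAtoms.DG n p q a c Aw Bw (natAtG u v Aw Bw p q x) k)
        linarith
      · have h0' : φ x = 0 := image_eq_zero_of_notMem_tsupport (fun h => hx (hφΩ h))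
        show c0 * (φ x * (Wt u v a c x * (natAtG u v Aw Bw p q x).EW)) ≤
          φ x * (Wt u v a c x * ∑ k, co k * NAtoms.DG n p q a c Aw Bw (natAtG u v Aw Bw p q x) k)
        simp [h0']
  have hfr : finrank ℝ (Eu n) = n := finrank_euclideanSpace_fin
  refine cutoff_false_poly0 (V := Eu n) (fun i : Fin n => ee i) Z (Wt u v a c)
    (fun x => (natAtG u v Aw Bw p q x).EW) (c0 := c0) (C := ∑ k, |co k|) (K := 1)
    (D := D) (κ := κ) (Wm := Wm) (e0 := c)
    ?_ ?_ ?_ hWpos ?_ hc0 ?_ zero_le_one hDpos hκ0 hc hWm' ?_ ?_ ?_ hZb hWE hweak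
  · intro i
    rw [← hΩdef]
    exact hZc i
  · rw [← hΩdef]
    exact hWc
  · rw [← hΩdef]
    exact hEc
  · exact fun x _ => hE0 x
  · exact Finset.sum_nonneg fun k _ => abs_nonneg _
  · rw [hfr]
    omega
  · rw [hfr]
    exact hnc
  · rw [hfr]
    exact hD'

/-- The same, with Mathlib's Laplacian. -/
theorem no_solution_of_ngcert_lap (hn3 : 3 ≤ n) {p q a c Aw Bw lam mu c0 : ℝ} {co : Fin 13 → ℝ}
    (hcert : ∀ A : NAtoms, A.Realizable n → c0 * A.EW ≤ ∑ k, co k * NAtoms.DG n p q a c Aw Bw A k)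
    (hc0 : 0 < c0) (hc : 0 ≤ c)
    (ha : a = mu * q - lam) (hb : a = lam * p - mu) (hlam : 0 ≤ lam) (hmu : 0 ≤ mu)
    (hD : (n : ℝ) < 2 * (lam + mu) + 4 + (Aw * lam + Bw * mu - c))
    (hnc : 4 < (n : ℝ) + c) (hDpos : 0 < lam + mu)
    {u v : Eu n → ℝ} (hucont : Continuous u) (hvcont : Continuous v)
    (hupos : ∀ x, 0 < u x) (hvpos : ∀ x, 0 < v x)
    (hu : ContDiffOn ℝ 2 u {0}ᶜ) (hv : ContDiffOn ℝ 2 v {0}ᶜ)
    (hpdeU : ∀ x, x ≠ 0 → - Δ u x = ‖x‖ ^ Aw * v x ^ p)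
    (hpdeV : ∀ x, x ≠ 0 → - Δ v x = ‖x‖ ^ Bw * u x ^ q) : False := by
  have hc' : ∀ {f : Eu n → ℝ}, ContDiffOn ℝ 2 f {0}ᶜ → ∀ x : Eu n, x ≠ 0 → ContDiffAt ℝ 2 f x :=
    fun hf x hx => hf.contDiffAt (isOpen_compl_singleton.mem_nhds hx)
  refine no_solution_of_ngcert hn3 hcert hc0 hc ha hb hlam hmu hD hnc hDpos hucont hvcont hupos
    hvpos hu hv ?_ ?_
  · intro x hx
    rw [← laplacian_eq_sum_Hf (hc' hu x hx), ← hpdeU x hx, neg_neg]
  · intro x hx
    rw [← laplacian_eq_sum_Hf (hc' hv x hx), ← hpdeV x hx, neg_neg]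


end Vale.Agent.Lib.P100
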