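import Vale.Agent.Lib.P100.ClosedForm

/-!
# P100: the closed-form certificate for the weighted system.

For the system `-Δu = |x|^A v^p`, `-Δv = |x|^B u^q`, put `ξ = x/|x|^2`. The jet now has the extra
scalars `ξX = ξ.X`, `ξY = ξ.Y`, `ξξ = |ξ|^2`. `WQ` is the divergence (divided by `W`) of
`U0 X + γ V0 Y - x(E X + F Y) - γ y(F X + E Y) - h s X - γ h t Y + g1 s ξ + g2 t ξ + η |ξ|^2 ξ`.
-/

noncomputable section

namespace Vale.Agent.Lib.P100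
namespace WCert

open ClosedForm Filter Topology

/-- The weighted polynomial. -/
def WQ (n p q a E F γ h g1 g2 η Aw Bw : ℝ) (A : Atoms) (ξX ξY ξξ : ℝ) : ℝ :=
  Atoms.Q n p q a a (coef E F γ h) A
    - (1 - 1 / n) * Aw * (A.s * ξX) - γ * ((1 - 1 / n) * Bw * (A.t * ξY))
    - h * (Aw * (A.s * ξX)) - (γ * h) * (Bw * (A.t * ξY))
    + g1 * (A.s * ((a - 1) * ξX + (a + p) * ξY + (Aw + n - 2) * ξξ))
    + g2 * (A.t * ((a - 1) * ξY + (a + q) * ξX + (Bw + n - 2) * ξξ))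
    + η * ((n - 4) * ξξ ^ 2 + ξξ * (a * ξX + a * ξY))

/-- The Gram constraints on `(X, Y, ξ)`. -/
structure XiReal (A : Atoms) (ξX ξY ξξ : ℝ) : Prop where
  xx_nonneg : 0 ≤ ξξ
  form : ∀ l1 l2 l3 : ℝ, 0 ≤ l1 ^ 2 * A.x + 2 * l1 * l2 * A.z + l2 ^ 2 * A.y
    + 2 * l1 * l3 * ξX + 2 * l2 * l3 * ξY + l3 ^ 2 * ξξ

/-- Determinant of a symmetric `3 × 3` matrix. -/
def det3 (a11 a12 a13 a22 a23 a33 : ℝ) : ℝ :=
  a11 * a22 * a33 + 2 * a12 * a13 * a23 - a13 ^ 2 * a22 - a23 ^ 2 * a11 - a12 ^ 2 * a33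

lemma form3_psd {a11 a12 a13 a22 a23 a33 x z y p1 p2 r : ℝ}
    (G : ∀ l1 l2 l3 : ℝ, 0 ≤ l1 ^ 2 * x + 2 * l1 * l2 * z + l2 ^ 2 * y
      + 2 * l1 * l3 * p1 + 2 * l2 * l3 * p2 + l3 ^ 2 * r)
    (hr : 0 ≤ r) (h1 : 0 < a11) (h2 : 0 < a11 * a22 - a12 ^ 2)
    (h3 : 0 ≤ det3 a11 a12 a13 a22 a23 a33) :
    0 ≤ a11 * x + 2 * a12 * z + a22 * y + 2 * a13 * p1 + 2 * a23 * p2 + a33 * r := by
  have key : a11 * (a11 * a22 - a12 ^ 2) *
        (a11 * x + 2 * a12 * z + a22 * y + 2 * a13 * p1 + 2 * a23 * p2 + a33 * r)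
      = (a11 * a22 - a12 ^ 2) * (a11 ^ 2 * x + 2 * a11 * a12 * z + a12 ^ 2 * y
            + 2 * a11 * a13 * p1 + 2 * a12 * a13 * p2 + a13 ^ 2 * r)
        + (0 ^ 2 * x + 2 * 0 * (a11 * a22 - a12 ^ 2) * z + (a11 * a22 - a12 ^ 2) ^ 2 * y
            + 2 * 0 * (a11 * a23 - a12 * a13) * p1
            + 2 * (a11 * a22 - a12 ^ 2) * (a11 * a23 - a12 * a13) * p2
            + (a11 * a23 - a12 * a13) ^ 2 * r)
        + a11 * det3 a11 a12 a13 a22 a23 a33 * r := by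
    unfold det3
    ring
  have g1 := G a11 a12 a13
  have g2 := G 0 (a11 * a22 - a12 ^ 2) (a11 * a23 - a12 * a13)
  have h4 : 0 ≤ a11 * (a11 * a22 - a12 ^ 2) *
      (a11 * x + 2 * a12 * z + a22 * y + 2 * a13 * p1 + 2 * a23 * p2 + a33 * r) := by
    rw [key]
    exact add_nonneg (add_nonneg (mul_nonneg h2.le g1) g2) (mul_nonneg (mul_nonneg h1.le h3) hr)
  exact nonneg_of_mul_nonneg_right h4 (mul_pos h1 h2)

/-- The `s`-block of the certificate (the `t`-block is the same after swapping). -/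
structure Blk (n p Aw a E F γ h g1 : ℝ) : Prop where
  pos1 : 0 < E * (1 + 2 / n) + h * (2 - a)
  pos2 : 0 < (E * (1 + 2 / n) + h * (2 - a)) * (γ * F)
    - ((2 * F / n - (1 - 1 / n) * p - h * (a + p)) / 2) ^ 2
  det : 0 ≤ det3 (E * (1 + 2 / n) + h * (2 - a))
    ((2 * F / n - (1 - 1 / n) * p - h * (a + p)) / 2)
    ((g1 * (a - 1) - (1 - 1 / n) * Aw - h * Aw) / 2)
    (γ * F) (g1 * (a + p) / 2) (g1 * (Aw + n - 2))

lemma Blk.form {n p Aw a E F γ h g1 x z y p1 p2 r : ℝ} (B : Blk n p Aw a E F γ h g1)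
    (G : ∀ l1 l2 l3 : ℝ, 0 ≤ l1 ^ 2 * x + 2 * l1 * l2 * z + l2 ^ 2 * y
      + 2 * l1 * l3 * p1 + 2 * l2 * l3 * p2 + l3 ^ 2 * r) (hr : 0 ≤ r) :
    0 ≤ (E * (1 + 2 / n) + h * (2 - a)) * x + (2 * F / n - (1 - 1 / n) * p - h * (a + p)) * z
      + (γ * F) * y + (g1 * (a - 1) - (1 - 1 / n) * Aw - h * Aw) * p1
      + (g1 * (a + p)) * p2 + (g1 * (Aw + n - 2)) * r := by
  have := form3_psd G hr B.pos1 B.pos2 B.det
  have e : (E * (1 + 2 / n) + h * (2 - a)) * x + 2 * ((2 * F / n - (1 - 1 / n) * p - h * (a + p)) / 2) * z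
      + (γ * F) * y + 2 * ((g1 * (a - 1) - (1 - 1 / n) * Aw - h * Aw) / 2) * p1
      + 2 * (g1 * (a + p) / 2) * p2 + (g1 * (Aw + n - 2)) * r
      = (E * (1 + 2 / n) + h * (2 - a)) * x + (2 * F / n - (1 - 1 / n) * p - h * (a + p)) * z
      + (γ * F) * y + (g1 * (a - 1) - (1 - 1 / n) * Aw - h * Aw) * p1
      + (g1 * (a + p)) * p2 + (g1 * (Aw + n - 2)) * r := by ring
  linarith

/-- The main inequality. -/
theorem wcert_main (n p q a E F γ γi h g1 g2 η Aw Bw c0 r : ℝ)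
    (hc1 : c0 < 1) (hr : (1 - c0) * r = 1) (hγ : 0 < γ) (hγi : γ * γi = 1) (hh : c0 ≤ h)
    (hAq : 0 < E * (3 - a) - c0 - r / 4 * (a - 2 - 2 * E) ^ 2 * (1 - 1 / n))
    (hdisc : (F * (2 - a) - E * a - r / 2 * (a - 2 - 2 * E) * (a - 2 * F) * (1 - 1 / n)) ^ 2
      ≤ 4 * (E * (3 - a) - c0 - r / 4 * (a - 2 - 2 * E) ^ 2 * (1 - 1 / n))
        * (F * (1 - a) - r / 4 * (a - 2 * F) ^ 2 * (1 - 1 / n)))
    (hν : 0 ≤ F * (1 - a) - r / 8 * (a - 2 * F) ^ 2)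
    (hS : Blk n p Aw a E F γ h g1) (hT : Blk n q Bw a E F γi h g2)
    (A : Atoms) (hA : Atoms.Realizable n A) (ξX ξY ξξ : ℝ) (hX : XiReal A ξX ξY ξξ) :
    c0 * (A.UU + γ * A.VV + A.x ^ 2 + γ * A.y ^ 2 + A.s ^ 2 + γ * A.t ^ 2)
        + η * ((n - 4) * ξξ ^ 2 + ξξ * (a * ξX + a * ξY))
      ≤ WQ n p q a E F γ h g1 (γ * g2) η Aw Bw A ξX ξY ξξ := by
  have hy := hA.y_nonneg
  have hcs := hA.cs
  have hs := hA.s_pos
  have ht := hA.t_pos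
  have q1 := quad_psd (x := A.x) (z := A.z) hAq hdisc
  have q2 := quad_psd (x := A.y) (z := A.z) hAq hdisc
  have l1 := hS.form (x := A.x) (z := A.z) (y := A.y) (p1 := ξX) (p2 := ξY) (r := ξξ) hX.form
    hX.xx_nonneg
  have l2 := hT.form (x := A.y) (z := A.z) (y := A.x) (p1 := ξY) (p2 := ξX) (r := ξξ)
    (fun l1 l2 l3 => by
      have := hX.form l2 l1 l3
      linarith)
    hX.xx_nonneg
  have hw := mul_nonneg hν (show 0 ≤ A.x * A.y - A.z ^ 2 by linarith)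
  have hc1' : 0 < 1 - c0 := by linarith
  have t1 := mul_nonneg hc1'.le (gram_u n r (a - 2 - 2 * E) (a - 2 * F) A hA)
  have t2 := mul_nonneg (mul_nonneg hγ.le hc1'.le) (gram_v n r (a - 2 - 2 * E) (a - 2 * F) A hA)
  have key := key_identity n p q a E F γ h c0 r A.UU A.VV A.UV A.UXX A.UXY A.VYY A.VXY
    A.x A.y A.z A.s A.t hr
  rw [← Q_coef n p q a E F γ h A] at key
  have hs0 := mul_nonneg hs.le l1
  have ht0 := mul_nonneg (mul_nonneg ht.le hγ.le) l2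
  have hq2 := mul_nonneg hγ.le q2
  have hw2 := mul_nonneg (show 0 ≤ 1 + γ by linarith) hw
  have hh2 : 0 ≤ (h - c0) * (A.s ^ 2 + γ * A.t ^ 2) :=
    mul_nonneg (by linarith) (by positivity)
  refine sub_nonneg.mp ?_
  have e : WQ n p q a E F γ h g1 (γ * g2) η Aw Bw A ξX ξY ξξ
        - (c0 * (A.UU + γ * A.VV + A.x ^ 2 + γ * A.y ^ 2 + A.s ^ 2 + γ * A.t ^ 2)
          + η * ((n - 4) * ξξ ^ 2 + ξξ * (a * ξX + a * ξY)))
      = (1 - c0) * (A.UU + 2 * (r * (a - 2 - 2 * E) / 2 * A.UXX + r * (a - 2 * F) / 2 * A.UXY)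
          + (r * (a - 2 - 2 * E) / 2) ^ 2 * ((1 - 1 / n) * A.x ^ 2)
          + (r * (a - 2 * F) / 2) ^ 2 * ((A.x * A.y + A.z ^ 2) / 2 - A.z ^ 2 / n)
          + 2 * (r * (a - 2 - 2 * E) / 2) * (r * (a - 2 * F) / 2) * ((1 - 1 / n) * (A.x * A.z)))
        + γ * (1 - c0) * (A.VV + 2 * (r * (a - 2 * F) / 2 * A.VXY + r * (a - 2 - 2 * E) / 2 * A.VYY)
          + (r * (a - 2 - 2 * E) / 2) ^ 2 * ((1 - 1 / n) * A.y ^ 2)
          + (r * (a - 2 * F) / 2) ^ 2 * ((A.x * A.y + A.z ^ 2) / 2 - A.z ^ 2 / n)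
          + 2 * (r * (a - 2 * F) / 2) * (r * (a - 2 - 2 * E) / 2) * ((1 - 1 / n) * (A.y * A.z)))
        + ((E * (3 - a) - c0 - r / 4 * (a - 2 - 2 * E) ^ 2 * (1 - 1 / n)) * A.x ^ 2
            + (F * (2 - a) - E * a - r / 2 * (a - 2 - 2 * E) * (a - 2 * F) * (1 - 1 / n)) * (A.x * A.z)
            + (F * (1 - a) - r / 4 * (a - 2 * F) ^ 2 * (1 - 1 / n)) * A.z ^ 2)
        + γ * ((E * (3 - a) - c0 - r / 4 * (a - 2 - 2 * E) ^ 2 * (1 - 1 / n)) * A.y ^ 2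
            + (F * (2 - a) - E * a - r / 2 * (a - 2 - 2 * E) * (a - 2 * F) * (1 - 1 / n)) * (A.y * A.z)
            + (F * (1 - a) - r / 4 * (a - 2 * F) ^ 2 * (1 - 1 / n)) * A.z ^ 2)
        + (1 + γ) * ((F * (1 - a) - r / 8 * (a - 2 * F) ^ 2) * (A.x * A.y - A.z ^ 2))
        + A.s * ((E * (1 + 2 / n) + h * (2 - a)) * A.x + (2 * F / n - (1 - 1 / n) * p - h * (a + p)) * A.z
            + (γ * F) * A.y + (g1 * (a - 1) - (1 - 1 / n) * Aw - h * Aw) * ξX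
            + (g1 * (a + p)) * ξY + (g1 * (Aw + n - 2)) * ξξ)
        + A.t * γ * ((E * (1 + 2 / n) + h * (2 - a)) * A.y + (2 * F / n - (1 - 1 / n) * q - h * (a + q)) * A.z
            + (γi * F) * A.x + (g2 * (a - 1) - (1 - 1 / n) * Bw - h * Bw) * ξY
            + (g2 * (a + q)) * ξX + (g2 * (Bw + n - 2)) * ξξ)
        + (h - c0) * (A.s ^ 2 + γ * A.t ^ 2) := by
    unfold WQ
    linear_combination key - (A.t * F * A.x) * hγi
  rw [e]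
  exact add_nonneg (add_nonneg (add_nonneg (add_nonneg (add_nonneg (add_nonneg (add_nonneg
    t1 t2) q1) hq2) hw2) hs0) ht0) hh2

/-- The term coming from `|ξ|^2 ξ`. -/
lemma xi_term {a n x y z ξX ξY ξξ : ℝ} (hn : 5 ≤ n) (ha0 : 0 ≤ a) (ha1 : a ≤ 1)
    (hx : 0 ≤ x) (hy : 0 ≤ y) (hr : 0 ≤ ξξ)
    (G : ∀ l1 l2 l3 : ℝ, 0 ≤ l1 ^ 2 * x + 2 * l1 * l2 * z + l2 ^ 2 * y
      + 2 * l1 * l3 * ξX + 2 * l2 * l3 * ξY + l3 ^ 2 * ξξ) :
    (1 / 2) * ξξ ^ 2 - 16 * (x ^ 2 + y ^ 2) ≤ (n - 4) * ξξ ^ 2 + ξξ * (a * ξX + a * ξY) := by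
  have g1 := G 1 0 (-(1 / 4))
  have g2 := G 0 1 (-(1 / 4))
  have g3 := G 1 0 (1 / 4)
  have g4 := G 0 1 (1 / 4)
  have bX1 : ξX ≤ 2 * x + ξξ / 8 := by nlinarith
  have bY1 : ξY ≤ 2 * y + ξξ / 8 := by nlinarith
  have bX2 : -ξX ≤ 2 * x + ξξ / 8 := by nlinarith
  have bY2 : -ξY ≤ 2 * y + ξξ / 8 := by nlinarith
  have hX : -(2 * x + ξξ / 8) ≤ a * ξX := by
    have h1 : 0 ≤ (1 - a) * (2 * x + ξξ / 8) := mul_nonneg (by linarith) (by positivity)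
    have h2 : 0 ≤ a * (2 * x + ξξ / 8 + ξX) := mul_nonneg ha0 (by linarith)
    nlinarith
  have hY : -(2 * y + ξξ / 8) ≤ a * ξY := by
    have h1 : 0 ≤ (1 - a) * (2 * y + ξξ / 8) := mul_nonneg (by linarith) (by positivity)
    have h2 : 0 ≤ a * (2 * y + ξξ / 8 + ξY) := mul_nonneg ha0 (by linarith)
    nlinarith
  have h3 : ξξ * (-(2 * x + ξξ / 8) - (2 * y + ξξ / 8)) ≤ ξξ * (a * ξX + a * ξY) :=
    mul_le_mul_of_nonneg_left (by linarith) hr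
  have h4 : 0 ≤ (n - 5) * ξξ ^ 2 := mul_nonneg (by linarith) (sq_nonneg _)
  nlinarith [sq_nonneg (ξξ / 4 - 4 * x), sq_nonneg (ξξ / 4 - 4 * y)]

/-! ### The closed-form parameters -/

/-- The coefficient of the field `s ξ`. -/
def g1Of (n p Aw g : ℝ) : ℝ := (1 - 1 / n) * Aw / ((aS n + p) / g - (1 - aS n))

lemma det_formula (F ρ g G w A' : ℝ) :
    det3 F (-(F * ρ * g)) (-(G * w) / 2) (g ^ 2 * F) (G * w * g / 2) (G * A')
      = g ^ 2 * F * (1 - ρ) * G * (F * (1 + ρ) * A' - G * w ^ 2 / 2) := by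
  unfold det3
  ring

/-- The block at `σ = h = 0`. -/
lemma blk0 (n p Aw g : ℝ) (hn : 3 ≤ n) (hg : 0 < g) (hAw : 0 ≤ Aw)
    (hP : |cS n * p - 1| < n * g) (hw : 1 - aS n < (aS n + p) / g)
    (hB : Aw * ((aS n + p) / g) ^ 2
      < ((n + (cS n * p - 1) / g) / cS n) * ((aS n + p) / g - (1 - aS n)) * (Aw + n - 2)) :
    0 < E0 n * (1 + 2 / n) * (g ^ 2 * F0 n) - ((2 * F0 n / n - (1 - 1 / n) * p) / 2) ^ 2
    ∧ (Aw = 0 ∨ 0 < det3 (E0 n * (1 + 2 / n)) ((2 * F0 n / n - (1 - 1 / n) * p) / 2)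
        ((g1Of n p Aw g * (aS n - 1) - (1 - 1 / n) * Aw) / 2)
        (g ^ 2 * F0 n) (g1Of n p Aw g * (aS n + p) / 2) (g1Of n p Aw g * (Aw + n - 2))) := by
  have hn2 : 2 < n := by linarith
  have hn0 : 0 < n := by linarith
  have hF : 0 < F0 n := F0_pos hn2
  have hθ := id_theta hn2
  have hκ := id_kappa hn2
  have h1 : 0 < n + 1 := by linarith
  have h2 : 0 < n - 2 := by linarith
  have h3 : 0 < n + 2 := by linarith
  have hc : 0 < cS n := by unfold cS; positivity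
  obtain ⟨ρ, hρ⟩ : ∃ ρ, ρ = (cS n * p - 1) / (n * g) := ⟨_, rfl⟩
  have hng : 0 < n * g := mul_pos hn0 hg
  have hρ1 : ρ < 1 := by
    rw [hρ, div_lt_one hng]
    exact lt_of_le_of_lt (le_abs_self _) hP
  have hρ2 : -1 < ρ := by
    rw [hρ, lt_div_iff₀ hng]
    have := neg_abs_le (cS n * p - 1)
    linarith
  have e12 : (2 * F0 n / n - (1 - 1 / n) * p) / 2 = -(F0 n * ρ * g) := by
    rw [hκ, hρ]
    field_simp
    ring
  rw [hθ, e12]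
  constructor
  · have : F0 n * (g ^ 2 * F0 n) - (-(F0 n * ρ * g)) ^ 2 = F0 n ^ 2 * g ^ 2 * (1 - ρ) * (1 + ρ) := by
      ring
    rw [this]
    have a1 : 0 < 1 - ρ := by linarith
    have a2 : 0 < 1 + ρ := by linarith
    positivity
  · rcases hAw.eq_or_lt with h0 | hApos
    · exact Or.inl h0.symm
    · right
      obtain ⟨w, hwd⟩ : ∃ w, w = (aS n + p) / g := ⟨_, rfl⟩
      obtain ⟨κ, hκd⟩ : ∃ κ, κ = 1 - 1 / n := ⟨_, rfl⟩
      have hκ0 : 0 < κ := by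
        rw [hκd]
        have : 1 / n < 1 := by rw [div_lt_one hn0]; linarith
        linarith
      rw [← hwd] at hw hB
      have hd : 0 < w - (1 - aS n) := by linarith
      obtain ⟨G, hG⟩ : ∃ G, G = g1Of n p Aw g := ⟨_, rfl⟩
      have hGd : G = κ * Aw / (w - (1 - aS n)) := by
        rw [hG, g1Of, hwd, hκd]
      have hG0 : 0 < G := by rw [hGd]; positivity
      have hGw : G * (w - (1 - aS n)) = κ * Aw := by
        rw [hGd]
        field_simp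
      rw [← hG, ← hκd]
      have e13 : (G * (aS n - 1) - κ * Aw) / 2 = -(G * w) / 2 := by
        rw [← hGw]
        ring
      have e23 : G * (aS n + p) / 2 = G * w * g / 2 := by
        rw [hwd]
        field_simp
      rw [e13, e23, det_formula]
      have a1 : 0 < 1 - ρ := by linarith
      -- the main positivity
      have hFκ : F0 n * (1 + ρ) = κ / 2 * ((n + (cS n * p - 1) / g) / cS n) := by
        have hκ' : κ = 2 * F0 n / n * cS n := by rw [hκd]; exact hκ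
        rw [hκ', hρ]
        field_simp
      have hmain : 0 < F0 n * (1 + ρ) * (Aw + n - 2) - G * w ^ 2 / 2 := by
        rw [hFκ, hGd]
        have : κ / 2 * ((n + (cS n * p - 1) / g) / cS n) * (Aw + n - 2)
            - κ * Aw / (w - (1 - aS n)) * w ^ 2 / 2
            = κ / (2 * (w - (1 - aS n))) *
              (((n + (cS n * p - 1) / g) / cS n) * (w - (1 - aS n)) * (Aw + n - 2) - Aw * w ^ 2) := by
          field_simp
        rw [this]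
        have : 0 < ((n + (cS n * p - 1) / g) / cS n) * (w - (1 - aS n)) * (Aw + n - 2) - Aw * w ^ 2 := by
          linarith
        positivity
      positivity

/-- The parameter `σ`: the quartic part. -/
lemma ev_sigma (n : ℝ) (hn3 : 3 ≤ n) :
    ∀ᶠ σ in 𝓝[>] (0 : ℝ), 0 < σ ∧ σ < 1 ∧
      0 < ((1 - σ) * E0 n) * (3 - aS n) - 1 / 4 * (aS n - 2 - 2 * ((1 - σ) * E0 n)) ^ 2 * (1 - 1 / n)
      ∧ 0 < 4 * (((1 - σ) * E0 n) * (3 - aS n)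
            - 1 / 4 * (aS n - 2 - 2 * ((1 - σ) * E0 n)) ^ 2 * (1 - 1 / n))
          * (((1 - σ) * F0 n) * (1 - aS n) - 1 / 4 * (aS n - 2 * ((1 - σ) * F0 n)) ^ 2 * (1 - 1 / n))
        - (((1 - σ) * F0 n) * (2 - aS n) - ((1 - σ) * E0 n) * aS n
            - 1 / 2 * (aS n - 2 - 2 * ((1 - σ) * E0 n)) * (aS n - 2 * ((1 - σ) * F0 n))
              * (1 - 1 / n)) ^ 2
      ∧ 0 < ((1 - σ) * F0 n) * (1 - aS n) - 1 / 8 * (aS n - 2 * ((1 - σ) * F0 n)) ^ 2 := by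
  have hn : 2 < n := by linarith
  have hn0 : 0 < n := by linarith
  have hA := A0_pos hn3
  have hk : 0 < 1 - 1 / n := by
    have : 1 / n < 1 := by rw [div_lt_one hn0]; linarith
    linarith
  have f1 : ∀ᶠ σ in 𝓝[>] (0 : ℝ), σ < 1 := by
    have := ev_pos (f := fun σ => 1 - σ) (by fun_prop) (by norm_num)
    exact this.mono fun σ h => by linarith
  have f0 : ∀ᶠ σ in 𝓝[>] (0 : ℝ), 0 < σ := eventually_mem_nhdsWithin
  have f2 := ev_pos (f := fun σ => ((1 - σ) * E0 n) * (3 - aS n)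
      - 1 / 4 * (aS n - 2 - 2 * ((1 - σ) * E0 n)) ^ 2 * (1 - 1 / n)) (by fun_prop)
      (by simp only [sub_zero, one_mul]; rw [id1 hn]; exact hA)
  have f3 := ev_pos (f := fun σ => 4 * (1 - σ) * A0 n * (1 - 1 / n) *
          (-((aS n - 2 - 2 * E0 n) ^ 2 / 4 + (aS n - 2 - 2 * E0 n) * E0 n + σ * E0 n ^ 2)
            - ((aS n - 2 - 2 * E0 n) * (aS n - 2 * F0 n) / 2 + E0 n * (aS n - 2 * F0 n)
                + F0 n * (aS n - 2 - 2 * E0 n) + 2 * σ * E0 n * F0 n)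
            - ((aS n - 2 * F0 n) ^ 2 / 4 + (aS n - 2 * F0 n) * F0 n + σ * F0 n ^ 2))
        + σ * (1 - 1 / n) ^ 2 *
          (4 * ((aS n - 2 - 2 * E0 n) ^ 2 / 4 + (aS n - 2 - 2 * E0 n) * E0 n + σ * E0 n ^ 2)
              * ((aS n - 2 * F0 n) ^ 2 / 4 + (aS n - 2 * F0 n) * F0 n + σ * F0 n ^ 2)
            - ((aS n - 2 - 2 * E0 n) * (aS n - 2 * F0 n) / 2 + E0 n * (aS n - 2 * F0 n)
                + F0 n * (aS n - 2 - 2 * E0 n) + 2 * σ * E0 n * F0 n) ^ 2)) (by fun_prop)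
      (by
        have hs := id_sum hn
        have h2 : 0 < n - 2 := by linarith
        refine lt_of_lt_of_eq (?_ : 0 < 4 * A0 n * (1 - 1 / n) * (n / (n - 2))) ?_
        · have : 0 < n / (n - 2) := div_pos hn0 h2
          positivity
        · linear_combination (4 * A0 n * (1 - 1 / n)) * hs)
  have f4 := ev_pos (f := fun σ => ((1 - σ) * F0 n) * (1 - aS n)
      - 1 / 8 * (aS n - 2 * ((1 - σ) * F0 n)) ^ 2) (by fun_prop)
      (by simp only [sub_zero, one_mul]; exact nu0_pos hn3)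
  filter_upwards [f0, f1, f2, f3, f4] with σ h0 h1 h2 h3 h4
  refine ⟨h0, h1, h2, ?_, h4⟩
  rw [disc_factor (aS n) (1 - 1 / n) (E0 n) (F0 n) (A0 n) σ (id1 hn) (id2 hn) (id3 hn)]
  exact mul_pos h0 h3

/-- The block for small `σ` (with `h = 0`). -/
lemma ev_blk_sigma (n p Aw g : ℝ) (hn : 3 ≤ n) (hg : 0 < g) (hAw : 0 ≤ Aw)
    (hP : |cS n * p - 1| < n * g) (hw : 1 - aS n < (aS n + p) / g)
    (hB : Aw * ((aS n + p) / g) ^ 2
      < ((n + (cS n * p - 1) / g) / cS n) * ((aS n + p) / g - (1 - aS n)) * (Aw + n - 2)) :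
    ∀ᶠ σ in 𝓝[>] (0 : ℝ),
      0 < ((1 - σ) * E0 n) * (1 + 2 / n) * (g ^ 2 * ((1 - σ) * F0 n))
        - ((2 * ((1 - σ) * F0 n) / n - (1 - 1 / n) * p) / 2) ^ 2
      ∧ (Aw = 0 ∨ 0 < det3 (((1 - σ) * E0 n) * (1 + 2 / n))
          ((2 * ((1 - σ) * F0 n) / n - (1 - 1 / n) * p) / 2)
          ((g1Of n p Aw g * (aS n - 1) - (1 - 1 / n) * Aw) / 2)
          (g ^ 2 * ((1 - σ) * F0 n)) (g1Of n p Aw g * (aS n + p) / 2)
          (g1Of n p Aw g * (Aw + n - 2))) := by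
  obtain ⟨h1, h2⟩ := blk0 n p Aw g hn hg hAw hP hw hB
  have b1 := ev_pos (f := fun σ => ((1 - σ) * E0 n) * (1 + 2 / n) * (g ^ 2 * ((1 - σ) * F0 n))
        - ((2 * ((1 - σ) * F0 n) / n - (1 - 1 / n) * p) / 2) ^ 2) (by fun_prop)
      (by simp only [sub_zero, one_mul]; exact h1)
  rcases h2 with h0 | h2
  · filter_upwards [b1] with σ h
    exact ⟨h, Or.inl h0⟩
  · have b2 := ev_pos (f := fun σ => det3 (((1 - σ) * E0 n) * (1 + 2 / n))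
          ((2 * ((1 - σ) * F0 n) / n - (1 - 1 / n) * p) / 2)
          ((g1Of n p Aw g * (aS n - 1) - (1 - 1 / n) * Aw) / 2)
          (g ^ 2 * ((1 - σ) * F0 n)) (g1Of n p Aw g * (aS n + p) / 2)
          (g1Of n p Aw g * (Aw + n - 2))) (by unfold det3; fun_prop)
        (by simp only [sub_zero, one_mul]; exact h2)
    filter_upwards [b1, b2] with σ h h'
    exact ⟨h, Or.inr h'⟩

/-- The block for small `h`. -/
lemma ev_blk_delta (n p Aw a E F γ g1 : ℝ) (hE : 0 < E * (1 + 2 / n))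
    (h1 : 0 < E * (1 + 2 / n) * (γ * F) - ((2 * F / n - (1 - 1 / n) * p) / 2) ^ 2)
    (h2 : (Aw = 0 ∧ g1 = 0) ∨ 0 < det3 (E * (1 + 2 / n)) ((2 * F / n - (1 - 1 / n) * p) / 2)
        ((g1 * (a - 1) - (1 - 1 / n) * Aw) / 2) (γ * F) (g1 * (a + p) / 2) (g1 * (Aw + n - 2))) :
    ∀ᶠ δ in 𝓝[>] (0 : ℝ), Blk n p Aw a E F γ δ g1 := by
  have b0 := ev_pos (f := fun δ => E * (1 + 2 / n) + δ * (2 - a)) (by fun_prop)
    (by simp only [zero_mul, add_zero]; exact hE)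
  have b1 := ev_pos (f := fun δ => (E * (1 + 2 / n) + δ * (2 - a)) * (γ * F)
      - ((2 * F / n - (1 - 1 / n) * p - δ * (a + p)) / 2) ^ 2) (by fun_prop)
    (by simp only [zero_mul, add_zero, sub_zero]; exact h1)
  rcases h2 with ⟨h0, h3⟩ | h2
  · filter_upwards [b0, b1] with δ h h'
    refine ⟨h, h', ?_⟩
    subst h0 h3
    simp [det3]
  · have b2 := ev_pos (f := fun δ => det3 (E * (1 + 2 / n) + δ * (2 - a))
        ((2 * F / n - (1 - 1 / n) * p - δ * (a + p)) / 2)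
        ((g1 * (a - 1) - (1 - 1 / n) * Aw - δ * Aw) / 2)
        (γ * F) (g1 * (a + p) / 2) (g1 * (Aw + n - 2))) (by unfold det3; fun_prop)
      (by simp only [zero_mul, add_zero, sub_zero]; exact h2)
    filter_upwards [b0, b1, b2] with δ h h' h''
    exact ⟨h, h', h''.le⟩

lemma g1Of_zero (n p g : ℝ) : g1Of n p 0 g = 0 := by simp [g1Of]

lemma aS_bounds {n : ℝ} (hn : 5 ≤ n) : 0 ≤ aS n ∧ aS n ≤ 1 := by
  have h2 : 0 < n - 2 := by linarith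
  unfold aS
  constructor
  · exact div_nonneg (by linarith) h2.le
  · rw [div_le_one h2]; linarith

/-- Bookkeeping of the final constants. -/
lemma final_ineq {δ m γ UU VV x y s t ξξ T WQv : ℝ} (d0 : 0 < δ) (hγ : 0 < γ) (hm0 : 0 < m)
    (hm1 : m ≤ 1) (hm2 : m ≤ γ) (hUU : 0 ≤ UU) (hVV : 0 ≤ VV)
    (main : δ * (UU + γ * VV + x ^ 2 + γ * y ^ 2 + s ^ 2 + γ * t ^ 2) + δ * m / 32 * T ≤ WQv)
    (hterm : (1 / 2) * ξξ ^ 2 - 16 * (x ^ 2 + y ^ 2) ≤ T) :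
    δ * m / 64 * (UU + VV + x ^ 2 + y ^ 2 + s ^ 2 + t ^ 2 + ξξ ^ 2) ≤ WQv := by
  have hη : 0 < δ * m / 32 := by positivity
  have h5 := mul_le_mul_of_nonneg_left hterm hη.le
  have hδm : δ * m ≤ δ := by nlinarith
  have hδγ : δ * m ≤ δ * γ := by nlinarith
  have hδm0 : 0 < δ * m := by positivity
  have c1 : δ * m / 64 * UU ≤ δ * UU :=
    mul_le_mul_of_nonneg_right (by linarith) hUU
  have c2 : δ * m / 64 * VV ≤ δ * γ * VV :=
    mul_le_mul_of_nonneg_right (by linarith) hVV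
  have c3 : (δ * m / 64 + 16 * (δ * m / 32)) * x ^ 2 ≤ δ * x ^ 2 :=
    mul_le_mul_of_nonneg_right (by linarith) (sq_nonneg _)
  have c4 : (δ * m / 64 + 16 * (δ * m / 32)) * y ^ 2 ≤ δ * γ * y ^ 2 :=
    mul_le_mul_of_nonneg_right (by linarith) (sq_nonneg _)
  have c5 : δ * m / 64 * s ^ 2 ≤ δ * s ^ 2 :=
    mul_le_mul_of_nonneg_right (by linarith) (sq_nonneg _)
  have c6 : δ * m / 64 * t ^ 2 ≤ δ * γ * t ^ 2 :=
    mul_le_mul_of_nonneg_right (by linarith) (sq_nonneg _)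
  have e : δ * m / 32 * ((1 / 2) * ξξ ^ 2 - 16 * (x ^ 2 + y ^ 2))
      = δ * m / 64 * ξξ ^ 2 - 16 * (δ * m / 32) * x ^ 2 - 16 * (δ * m / 32) * y ^ 2 := by ring
  rw [e] at h5
  have e2 : δ * (UU + γ * VV + x ^ 2 + γ * y ^ 2 + s ^ 2 + γ * t ^ 2)
      = δ * UU + δ * γ * VV + δ * x ^ 2 + δ * γ * y ^ 2 + δ * s ^ 2 + δ * γ * t ^ 2 := by ring
  rw [e2] at main
  have e3 : δ * m / 64 * (UU + VV + x ^ 2 + y ^ 2 + s ^ 2 + t ^ 2 + ξξ ^ 2)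
      = δ * m / 64 * UU + δ * m / 64 * VV + δ * m / 64 * x ^ 2 + δ * m / 64 * y ^ 2
        + δ * m / 64 * s ^ 2 + δ * m / 64 * t ^ 2 + δ * m / 64 * ξξ ^ 2 := by ring
  rw [e3]
  have c3' : δ * m / 64 * x ^ 2 + 16 * (δ * m / 32) * x ^ 2 ≤ δ * x ^ 2 := by
    have : (δ * m / 64 + 16 * (δ * m / 32)) * x ^ 2
        = δ * m / 64 * x ^ 2 + 16 * (δ * m / 32) * x ^ 2 := by ring
    linarith
  have c4' : δ * m / 64 * y ^ 2 + 16 * (δ * m / 32) * y ^ 2 ≤ δ * γ * y ^ 2 := by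
    have : (δ * m / 64 + 16 * (δ * m / 32)) * y ^ 2
        = δ * m / 64 * y ^ 2 + 16 * (δ * m / 32) * y ^ 2 := by ring
    linarith
  linarith

/-- Second stage: the small parameter. -/
theorem wcert_stage2 (n p q Aw Bw E F γ γi g1 g2 : ℝ) (hn : 5 ≤ n) (hγ : 0 < γ)
    (hγi : γ * γi = 1)
    (h2 : 0 < E * (3 - aS n) - 1 / 4 * (aS n - 2 - 2 * E) ^ 2 * (1 - 1 / n))
    (h3 : 0 < 4 * (E * (3 - aS n) - 1 / 4 * (aS n - 2 - 2 * E) ^ 2 * (1 - 1 / n))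
          * (F * (1 - aS n) - 1 / 4 * (aS n - 2 * F) ^ 2 * (1 - 1 / n))
        - (F * (2 - aS n) - E * aS n
            - 1 / 2 * (aS n - 2 - 2 * E) * (aS n - 2 * F) * (1 - 1 / n)) ^ 2)
    (h4 : 0 < F * (1 - aS n) - 1 / 8 * (aS n - 2 * F) ^ 2)
    (S : ∀ᶠ δ in 𝓝[>] (0 : ℝ), Blk n p Aw (aS n) E F γ δ g1)
    (T : ∀ᶠ δ in 𝓝[>] (0 : ℝ), Blk n q Bw (aS n) E F γi δ g2) :
    ∃ E F γ h g1 g2 η c0 : ℝ, 0 < γ ∧ 0 < c0 ∧ ∀ (A : Atoms) (ξX ξY ξξ : ℝ),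
      Atoms.Realizable n A → XiReal A ξX ξY ξξ →
      c0 * (A.EE + ξξ ^ 2) ≤ WQ n p q (aS n) E F γ h g1 g2 η Aw Bw A ξX ξY ξξ := by
  have hr : ContinuousAt (fun δ : ℝ => (1 - δ)⁻¹) 0 :=
    ContinuousAt.inv₀ (by fun_prop) (by norm_num)
  have f0 : ∀ᶠ δ in 𝓝[>] (0 : ℝ), 0 < δ := eventually_mem_nhdsWithin
  have f1 : ∀ᶠ δ in 𝓝[>] (0 : ℝ), δ < 1 := by
    have := ev_pos (f := fun σ => 1 - σ) (by fun_prop) (by norm_num)
    exact this.mono fun σ h => by linarith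
  have b2 := ev_pos (f := fun δ => E * (3 - aS n) - δ
      - (1 - δ)⁻¹ / 4 * (aS n - 2 - 2 * E) ^ 2 * (1 - 1 / n))
    (by fun_prop) (by simp only [sub_zero, inv_one]; exact h2)
  have b3 := ev_pos (f := fun δ =>
      4 * (E * (3 - aS n) - δ - (1 - δ)⁻¹ / 4 * (aS n - 2 - 2 * E) ^ 2 * (1 - 1 / n))
        * (F * (1 - aS n) - (1 - δ)⁻¹ / 4 * (aS n - 2 * F) ^ 2 * (1 - 1 / n))
      - (F * (2 - aS n) - E * aS n - (1 - δ)⁻¹ / 2 * (aS n - 2 - 2 * E) * (aS n - 2 * F)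
          * (1 - 1 / n)) ^ 2)
    (by fun_prop) (by simp only [sub_zero, inv_one]; exact h3)
  have b4 := ev_pos (f := fun δ => F * (1 - aS n) - (1 - δ)⁻¹ / 8 * (aS n - 2 * F) ^ 2)
    (by fun_prop) (by simp only [sub_zero, inv_one]; exact h4)
  obtain ⟨δ, d0, d1, d2, d3, d4, dS, dT⟩ :=
    (f0.and (f1.and (b2.and (b3.and (b4.and (S.and T)))))).exists
  have hne : (1 - δ) ≠ 0 := by linarith
  obtain ⟨m, hm⟩ : ∃ m, m = min 1 γ := ⟨_, rfl⟩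
  have hm0 : 0 < m := by rw [hm]; exact lt_min one_pos hγ
  have hm1 : m ≤ 1 := by rw [hm]; exact min_le_left _ _
  have hm2 : m ≤ γ := by rw [hm]; exact min_le_right _ _
  refine ⟨E, F, γ, δ, g1, γ * g2, δ * m / 32, δ * m / 64, hγ, by positivity, ?_⟩
  intro A ξX ξY ξξ hA hX
  have main := wcert_main n p q (aS n) E F γ γi δ g1 g2 (δ * m / 32) Aw Bw δ (1 - δ)⁻¹ d1
    (mul_inv_cancel₀ hne) hγ hγi le_rfl d2 (by linarith) d4.le dS dT A hA ξX ξY ξξ hX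
  obtain ⟨ha0, ha1⟩ := aS_bounds hn
  have hterm := xi_term (a := aS n) (n := n) (x := A.x) (y := A.y) (z := A.z) hn ha0 ha1
    hA.x_nonneg hA.y_nonneg hX.xx_nonneg hX.form
  unfold Atoms.EE
  have := final_ineq d0 hγ hm0 hm1 hm2 (UU_nonneg n A hA) (VV_nonneg n A hA) main hterm
  linarith

/-- The weighted certificate, in closed form. -/
theorem exists_wcert (n p q Aw Bw g : ℝ) (hn : 5 ≤ n) (hg : 0 < g) (hAw : 0 ≤ Aw) (hBw : 0 ≤ Bw)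
    (hP : |cS n * p - 1| < n * g) (hQ : |cS n * q - 1| * g < n)
    (hw1 : 1 - aS n < (aS n + p) / g) (hw2 : 1 - aS n < (aS n + q) * g)
    (hB1 : Aw * ((aS n + p) / g) ^ 2
      < ((n + (cS n * p - 1) / g) / cS n) * ((aS n + p) / g - (1 - aS n)) * (Aw + n - 2))
    (hB2 : Bw * ((aS n + q) * g) ^ 2
      < ((n + (cS n * q - 1) * g) / cS n) * ((aS n + q) * g - (1 - aS n)) * (Bw + n - 2)) :
    ∃ E F γ h g1 g2 η c0 : ℝ, 0 < γ ∧ 0 < c0 ∧ ∀ (A : Atoms) (ξX ξY ξξ : ℝ),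
      Atoms.Realizable n A → XiReal A ξX ξY ξξ →
      c0 * (A.EE + ξξ ^ 2) ≤ WQ n p q (aS n) E F γ h g1 g2 η Aw Bw A ξX ξY ξξ := by
  have hn3 : 3 ≤ n := by linarith
  have hn2 : 2 < n := by linarith
  have hn0 : 0 < n := by linarith
  have hgi : 0 < g⁻¹ := inv_pos.mpr hg
  have hPi : |cS n * q - 1| < n * g⁻¹ := by
    rw [← div_eq_mul_inv, lt_div_iff₀ hg]
    exact hQ
  have hwi : 1 - aS n < (aS n + q) / g⁻¹ := by
    rw [div_inv_eq_mul]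
    exact hw2
  have hBi : Bw * ((aS n + q) / g⁻¹) ^ 2
      < ((n + (cS n * q - 1) / g⁻¹) / cS n) * ((aS n + q) / g⁻¹ - (1 - aS n)) * (Bw + n - 2) := by
    simp only [div_inv_eq_mul]
    exact hB2
  obtain ⟨σ, ⟨h0, h1, h2, h3, h4⟩, ⟨s1, s2⟩, ⟨t1, t2⟩⟩ :=
    ((ev_sigma n hn3).and ((ev_blk_sigma n p Aw g hn3 hg hAw hP hw1 hB1).and
      (ev_blk_sigma n q Bw g⁻¹ hn3 hgi hBw hPi hwi hBi))).exists
  have hF0 := F0_pos hn2
  have hE0 := E0_pos hn2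
  obtain ⟨E, hE⟩ : ∃ E, E = (1 - σ) * E0 n := ⟨_, rfl⟩
  obtain ⟨F, hF⟩ : ∃ F, F = (1 - σ) * F0 n := ⟨_, rfl⟩
  simp only [← hE, ← hF] at h2 h3 h4 s1 s2 t1 t2
  have hσ : 0 < 1 - σ := by linarith
  have hEp : 0 < E := by rw [hE]; exact mul_pos hσ hE0
  have hθ : 0 < E * (1 + 2 / n) := by positivity
  have hγ : 0 < g ^ 2 := by positivity
  have hγi : g ^ 2 * (g⁻¹) ^ 2 = 1 := by
    field_simp
  refine wcert_stage2 n p q Aw Bw E F (g ^ 2) ((g⁻¹) ^ 2) (g1Of n p Aw g) (g1Of n q Bw g⁻¹) hn hγ hγi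
    h2 h3 h4 ?_ ?_
  · refine ev_blk_delta n p Aw (aS n) E F (g ^ 2) (g1Of n p Aw g) hθ s1 ?_
    rcases s2 with h | h
    · exact Or.inl ⟨h, by rw [h, g1Of_zero]⟩
    · exact Or.inr h
  · refine ev_blk_delta n q Bw (aS n) E F ((g⁻¹) ^ 2) (g1Of n q Bw g⁻¹) hθ t1 ?_
    rcases t2 with h | h
    · exact Or.inl ⟨h, by rw [h, g1Of_zero]⟩
    · exact Or.inr h

end WCert
end Vale.Agent.Lib.P100
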