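import Vale.Agent.Lib.P100.NG
import Vale.Agent.Lib.P100.WCert

/-!
# P100: weights `A ≠ B`, weight `|x|^ω u^a v^a`: the certificate.

For `A = -ω + A'`, `B = -ω + B'`: the quartic part of the certificate is the one of `Neg4` for the
weight `-ω`; the terms `A'`, `B'` are absorbed in the `s`- and `t`-forms with the fields `s ξ`, `t ξ`.
-/

noncomputable section

namespace Vale.Agent.Lib.P100

open WCert Filter Topology

/-- The coefficient vector. -/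
def coefG (g E1 F1 E2 F2 Γ η β K1 K2 : ℝ) : Fin 13 → ℝ :=
  ![1, g, -E1, -F1, -(g * F2), -(g * E2), -Γ, -(g * Γ), η, β, g * β, K1, g * K2]

/-- The expansion of the divergence. -/
lemma QG_expand (n p q a c Aw Bw g E1 F1 E2 F2 Γ η β K1 K2 : ℝ) (A : NAtoms) :
    ∑ k, coefG g E1 F1 E2 F2 Γ η β K1 K2 k * NAtoms.DG n p q a c Aw Bw A k =
      (A.UU + (a - 2 - 2 * E1) * A.UXX + (a - 2 * F1) * A.UXY + (c + 2 * β) * A.uxz)
      + g * (A.VV + (a - 2 - 2 * E2) * A.VYY + (a - 2 * F2) * A.VXY + (c + 2 * β) * A.vyz)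
      + A.x * (E1 * (3 - a) * A.x + ((2 - a) * F1 - a * E1) * A.z + (1 - a) * F1 * A.y
          + (-(E1 * c) + β * (a - 2)) * A.tx + (-(F1 * c) + β * a) * A.ty
          + β * (n - 2 + c) * A.w)
      + g * (A.y * (E2 * (3 - a) * A.y + ((2 - a) * F2 - a * E2) * A.z + (1 - a) * F2 * A.x
          + (-(E2 * c) + β * (a - 2)) * A.ty + (-(F2 * c) + β * a) * A.tx
          + β * (n - 2 + c) * A.w))
      + A.s * (((1 + 2 / n) * E1 - Γ * (a - 2)) * A.x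
          + ((2 / n) * F1 - (1 - 1 / n) * p - Γ * (a + p)) * A.z + g * F2 * A.y
          + (-(1 - 1 / n) * Aw - (2 / n) * β - Γ * (Aw + c) + K1 * (a - 1)) * A.tx
          + K1 * (a + p) * A.ty + K1 * (Aw + c + n - 2) * A.w)
      + A.t * (F1 * A.x
          + g * ((2 / n) * F2 - (1 - 1 / n) * q - Γ * (a + q)) * A.z
          + g * ((1 + 2 / n) * E2 - Γ * (a - 2)) * A.y
          + g * (-(1 - 1 / n) * Bw - (2 / n) * β - Γ * (Bw + c) + K2 * (a - 1)) * A.ty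
          + g * (K2 * (a + q)) * A.tx + g * (K2 * (Bw + c + n - 2)) * A.w)
      + Γ * A.s ^ 2 + g * Γ * A.t ^ 2
      + η * (A.w * (a * A.tx + a * A.ty) + (n - 4 + c) * A.w ^ 2) := by
  simp [coefG, NAtoms.DG, Fin.sum_univ_succ]
  ring

/-- The coefficient of `x` in the linear form (after the square). -/
def LxG (n a E Γ γ v1 : ℝ) : ℝ := (1 + 2 / n) * E - Γ * (a - 2) - 2 * γ * v1

/-- The coefficient of `z` in the linear form. -/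
def ZzG (n p a F Γ γ v2 : ℝ) : ℝ := (2 / n) * F - (1 - 1 / n) * p - Γ * (a + p) - 2 * γ * v2

/-- The coefficient of `X.ξ` in the linear form. -/
def T1G (n a Aw c β Γ K γ m : ℝ) : ℝ :=
  -(1 - 1 / n) * Aw - (2 / n) * β - Γ * (Aw + c) + K * (a - 1) - 2 * γ * m

/-- A positive block: a nonnegative form on the Gram cone of `(X, Y, ξ)`. -/
structure BlkG (L Z Y T1 T2 T3 : ℝ) : Prop where
  pos1 : 0 < L
  pos2 : 0 < L * Y - (Z / 2) ^ 2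
  det : 0 ≤ det3 L (Z / 2) (T1 / 2) Y (T2 / 2) T3

lemma BlkG.form {L Z Y T1 T2 T3 x z y p1 p2 r : ℝ} (B : BlkG L Z Y T1 T2 T3)
    (G : ∀ l1 l2 l3 : ℝ, 0 ≤ l1 ^ 2 * x + 2 * l1 * l2 * z + l2 ^ 2 * y
      + 2 * l1 * l3 * p1 + 2 * l2 * l3 * p2 + l3 ^ 2 * r) (hr : 0 ≤ r) :
    0 ≤ L * x + Z * z + Y * y + T1 * p1 + T2 * p2 + T3 * r := by
  have h := form3_psd G hr B.pos1 B.pos2 B.det
  have e : L * x + 2 * (Z / 2) * z + Y * y + 2 * (T1 / 2) * p1 + 2 * (T2 / 2) * p2 + T3 * r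
      = L * x + Z * z + Y * y + T1 * p1 + T2 * p2 + T3 * r := by ring
  linarith

/-- **The certificate for weights `Aw`, `Bw`, in terms of its parameters.** -/
theorem ngcert_of_params {n p q a c Aw Bw g gi E1 F1 E2 F2 Γ η β K1 K2 r γ m v1 v2 v1' v2' μ c0 θ : ℝ}
    (hr : 0 < r) (hg : 0 < g) (hgi : g * gi = 1) (hγ : 0 ≤ γ) (hη : 0 ≤ η)
    (ha : 0 ≤ a) (hθ : 0 < θ) (he : 0 < n - 4 + c - a / θ)
    (hv1 : -(E1 * c) + β * (a - 2) - (r * (1 - 1 / n)) / 2 * ((a - 2 - 2 * E1) * (c + 2 * β))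
      = 2 * γ * m * v1)
    (hv2 : -(F1 * c) + β * a - (r * (1 - 1 / n)) / 2 * ((a - 2 * F1) * (c + 2 * β))
      = 2 * γ * m * v2)
    (hv1' : -(E2 * c) + β * (a - 2) - (r * (1 - 1 / n)) / 2 * ((a - 2 - 2 * E2) * (c + 2 * β))
      = 2 * γ * m * v1')
    (hv2' : -(F2 * c) + β * a - (r * (1 - 1 / n)) / 2 * ((a - 2 * F2) * (c + 2 * β))
      = 2 * γ * m * v2')
    (hF : γ * m ^ 2 ≤ β * (n - 2 + c) - (r * (1 - 1 / n)) / 4 * (c + 2 * β) ^ 2)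
    (h1A : 0 < pA (r * (1 - 1 / n)) a E1 - γ * v1 ^ 2 - μ)
    (h1B : (pB (r * (1 - 1 / n)) a E1 F1 - 2 * γ * v1 * v2) ^ 2
      ≤ 4 * (pA (r * (1 - 1 / n)) a E1 - γ * v1 ^ 2 - μ) * (pC (r * (1 - 1 / n)) a F1 - γ * v2 ^ 2))
    (h2A : 0 < pA (r * (1 - 1 / n)) a E2 - γ * v1' ^ 2 - μ)
    (h2B : (pB (r * (1 - 1 / n)) a E2 F2 - 2 * γ * v1' * v2') ^ 2
      ≤ 4 * (pA (r * (1 - 1 / n)) a E2 - γ * v1' ^ 2 - μ) * (pC (r * (1 - 1 / n)) a F2 - γ * v2' ^ 2))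
    (hS : BlkG (LxG n a E1 Γ γ v1) (ZzG n p a F1 Γ γ v2) (g * F2) (T1G n a Aw c β Γ K1 γ m)
      (K1 * (a + p)) (K1 * (Aw + c + n - 2)))
    (hT : BlkG (LxG n a E2 Γ γ v1') (ZzG n q a F2 Γ γ v2') (gi * F1) (T1G n a Bw c β Γ K2 γ m)
      (K2 * (a + q)) (K2 * (Bw + c + n - 2)))
    (hc1 : c0 ≤ 1 - 1 / r) (hc2 : c0 ≤ g * (1 - 1 / r))
    (hc3 : c0 + η * ((a * θ) ^ 2 / (4 * (n - 4 + c - a / θ))) ≤ μ)
    (hc4 : c0 + η * ((a * θ) ^ 2 / (4 * (n - 4 + c - a / θ))) ≤ g * μ)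
    (hc5 : c0 ≤ Γ - γ) (hc6 : c0 ≤ g * (Γ - γ))
    (hc7 : c0 ≤ η * ((n - 4 + c - a / θ) / 2)) (A : NAtoms) (hA : A.Realizable n) :
    c0 * A.EW ≤ ∑ k, coefG g E1 F1 E2 F2 Γ η β K1 K2 k * NAtoms.DG n p q a c Aw Bw A k := by
  rw [QG_expand]
  have hb := hA.base.base
  have hx := hb.x_nonneg
  have hy := hb.y_nonneg
  have hs := hb.s_pos
  have ht := hb.t_pos
  have hw := hA.base.w_nonneg
  have hUU : 0 ≤ A.UU := by
    have := hb.gram_nonneg ![1, 0, 0, 0, 0]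
    simpa [Fin.sum_univ_five, Atoms.gram] using this
  have hVV : 0 ≤ A.VV := by
    have := hb.gram_nonneg ![0, 1, 0, 0, 0]
    simpa [Fin.sum_univ_five, Atoms.gram] using this
  have tU := tensU_slack hA hr (a - 2 - 2 * E1) (a - 2 * F1) (c + 2 * β)
  have tV := mul_le_mul_of_nonneg_left (tensV_slack hA hr (a - 2 - 2 * E2) (a - 2 * F2) (c + 2 * β)) hg.le
  have sq1 := square_s (s := A.s) hγ (hA.csX v1 v2 m)
  have sq2 := mul_nonneg hg.le (square_s (s := A.t) hγ (hA.csY v1' v2' m))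
  have f1 := mul_nonneg hx (form_nn hb h1A h1B)
  have f2 := mul_nonneg (mul_nonneg hg.le hy) (form_nn' hb h2A h2B)
  have G1 : ∀ l1 l2 l3 : ℝ, 0 ≤ l1 ^ 2 * A.x + 2 * l1 * l2 * A.z + l2 ^ 2 * A.y
      + 2 * l1 * l3 * A.tx + 2 * l2 * l3 * A.ty + l3 ^ 2 * A.w := fun l1 l2 l3 => by
    have h := hA.base.form3 l1 l2 l3
    linarith only [h]
  have G2 : ∀ l1 l2 l3 : ℝ, 0 ≤ l1 ^ 2 * A.y + 2 * l1 * l2 * A.z + l2 ^ 2 * A.x
      + 2 * l1 * l3 * A.ty + 2 * l2 * l3 * A.tx + l3 ^ 2 * A.w := fun l1 l2 l3 => by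
    have h := hA.base.form3 l2 l1 l3
    linarith only [h]
  have b1 := mul_nonneg hs.le (hS.form G1 hw)
  have b2 := mul_nonneg (mul_nonneg hg.le ht.le) (hT.form G2 hw)
  have hFF := sub_nonneg.mpr hF
  have F1' := mul_nonneg (mul_nonneg hx hw) hFF
  have F2' := mul_nonneg (mul_nonneg (mul_nonneg hg.le hy) hw) hFF
  have e3 := congrArg (fun w => w * (A.x * A.tx)) hv1
  have e4 := congrArg (fun w => w * (A.x * A.ty)) hv2
  have e5 := congrArg (fun w => w * (g * (A.y * A.ty))) hv1'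
  have e6 := congrArg (fun w => w * (g * (A.y * A.tx))) hv2'
  -- the `w ξ` part
  have t1 : 0 ≤ θ ^ 2 * A.x + A.w + 2 * θ * A.tx := by
    have h := hA.base.form3 θ 0 1
    linarith only [h]
  have t2 : 0 ≤ θ ^ 2 * A.y + A.w + 2 * θ * A.ty := by
    have h := hA.base.form3 0 θ 1
    linarith only [h]
  have wl := wxi_lower0 (e := n - 4 + c) (x := A.x) (y := A.y) ha hθ he hx hy hw t1 t2
  have wl2 := mul_le_mul_of_nonneg_left wl hη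
  have c1 := mul_le_mul_of_nonneg_right hc1 hUU
  have c2 := mul_le_mul_of_nonneg_right hc2 hVV
  have c3 := mul_le_mul_of_nonneg_right hc3 (sq_nonneg A.x)
  have c4 := mul_le_mul_of_nonneg_right hc4 (sq_nonneg A.y)
  have c5 := mul_le_mul_of_nonneg_right hc5 (sq_nonneg A.s)
  have c6 := mul_le_mul_of_nonneg_right hc6 (sq_nonneg A.t)
  have c7 := mul_le_mul_of_nonneg_right hc7 (sq_nonneg A.w)
  simp only [pA, pB, pC] at f1 f2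
  simp only [LxG, ZzG, T1G] at b1 b2
  have eEW : A.EW = A.UU + A.VV + A.x ^ 2 + A.y ^ 2 + A.s ^ 2 + A.t ^ 2 + A.w ^ 2 := rfl
  rw [eEW]
  linear_combination tU + tV + sq1 + sq2 + f1 + f2 + b1 + b2 + F1' + F2' + wl2 + c1 + c2 + c3 + c4
    + c5 + c6 + c7 - e3 - e4 - e5 - e6 + (A.t * (F1 * A.x)) * hgi




open Filter Topology in
lemma ev_blkG {L Z T1 : ℝ → ℝ} {Y T2 T3 : ℝ} (hL : Continuous L) (hZ : Continuous Z)
    (hT : Continuous T1) (h1 : 0 < L 0) (h2 : 0 < L 0 * Y - (Z 0 / 2) ^ 2)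
    (h3 : ((∀ δ, T1 δ = 0) ∧ T2 = 0 ∧ T3 = 0) ∨ 0 < det3 (L 0) (Z 0 / 2) (T1 0 / 2) Y (T2 / 2) T3) :
    ∀ᶠ δ in 𝓝 (0 : ℝ), BlkG (L δ) (Z δ) Y (T1 δ) T2 T3 := by
  have e1 : ∀ᶠ δ in 𝓝 (0 : ℝ), 0 < L δ :=
    ContinuousAt.eventually_lt continuousAt_const hL.continuousAt h1
  have e2 : ∀ᶠ δ in 𝓝 (0 : ℝ), 0 < L δ * Y - (Z δ / 2) ^ 2 :=
    ContinuousAt.eventually_lt continuousAt_const
      (Continuous.continuousAt (by fun_prop)) h2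
  rcases h3 with ⟨h0, h4, h5⟩ | h3
  · filter_upwards [e1, e2] with δ h h'
    refine ⟨h, h', ?_⟩
    rw [h0 δ, h4, h5]
    simp [det3]
  · have e3 : ∀ᶠ δ in 𝓝 (0 : ℝ), 0 < det3 (L δ) (Z δ / 2) (T1 δ / 2) Y (T2 / 2) T3 :=
      ContinuousAt.eventually_lt continuousAt_const
        (Continuous.continuousAt (by unfold det3; fun_prop)) h3
    filter_upwards [e1, e2, e3] with δ h h' h''
    exact ⟨h, h', h''.le⟩

/-- The choice of the numbers, once `δ` is small. -/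
lemma ngcert_at {n p q a Aw A1 B1 g gi E1 F1 E2 F2 K1 K2 γ0 κ S ρ τ δ θ : ℝ}
    (hn0 : 0 < n) (hθ : 0 < θ) (hd : 0 < n - 4 + -Aw - a / θ)
    (hA : Aw < 0) (ha0 : 0 ≤ a) (hg : 0 < g) (hgi : g * gi = 1)
    (hκd : κ = 1 - 1 / n) (hSd : S = 1 - 2 / n) (hκ : 0 < κ) (hS : 0 < S) (hγ0pos : 0 < γ0)
    (hbase : Aw ^ 2 * S ^ 2 / (4 * γ0) = (-Aw / 2) * (n - 2 + -Aw) - κ * Aw ^ 2)
    (hρ : ρ = S ^ 2 / (4 * γ0 * (γ0 + 1) * κ)) (hτ : τ = (1 / 2 - (1 + ρ * δ) * κ) / S)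
    (hδ : 0 < δ) (hδ1 : δ ≤ 1)
    (h11 : 0 < pA ((1 + ρ * δ) * κ + 4 * (γ0 + δ) * τ ^ 2) a E1 - δ)
    (h12 : pB ((1 + ρ * δ) * κ + 4 * (γ0 + δ) * τ ^ 2) a E1 F1 ^ 2
      < 4 * (pA ((1 + ρ * δ) * κ + 4 * (γ0 + δ) * τ ^ 2) a E1 - δ)
        * pC ((1 + ρ * δ) * κ + 4 * (γ0 + δ) * τ ^ 2) a F1)
    (h21 : 0 < pA ((1 + ρ * δ) * κ + 4 * (γ0 + δ) * τ ^ 2) a E2 - δ)
    (h22 : pB ((1 + ρ * δ) * κ + 4 * (γ0 + δ) * τ ^ 2) a E2 F2 ^ 2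
      < 4 * (pA ((1 + ρ * δ) * κ + 4 * (γ0 + δ) * τ ^ 2) a E2 - δ)
        * pC ((1 + ρ * δ) * κ + 4 * (γ0 + δ) * τ ^ 2) a F2)
    (hS : BlkG ((1 + 2 / n) * E1 - (γ0 + 2 * δ) * (a - 2) - 2 * (γ0 + δ) * (τ * (a - 2 - 2 * E1)))
      ((2 / n) * F1 - (1 - 1 / n) * p - (γ0 + 2 * δ) * (a + p) - 2 * (γ0 + δ) * (τ * (a - 2 * F1)))
      (g * F2) (-(1 - 1 / n + (γ0 + 2 * δ)) * A1 + K1 * (a - 1)) (K1 * (a + p)) (K1 * (A1 + n - 2)))
    (hT : BlkG ((1 + 2 / n) * E2 - (γ0 + 2 * δ) * (a - 2) - 2 * (γ0 + δ) * (τ * (a - 2 - 2 * E2)))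
      ((2 / n) * F2 - (1 - 1 / n) * q - (γ0 + 2 * δ) * (a + q) - 2 * (γ0 + δ) * (τ * (a - 2 * F2)))
      (gi * F1) (-(1 - 1 / n + (γ0 + 2 * δ)) * B1 + K2 * (a - 1)) (K2 * (a + q)) (K2 * (B1 + n - 2))) :
    ∃ Γ η c0 : ℝ, 0 < c0 ∧ ∀ A : NAtoms, A.Realizable n →
      c0 * A.EW ≤ ∑ k, coefG g E1 F1 E2 F2 Γ η (-Aw / 2) K1 K2 k *
        NAtoms.DG n p q a (-Aw) (Aw + A1) (Aw + B1) A k := by
  have hρ0 : 0 < ρ := by rw [hρ]; positivity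
  have hr : 0 < 1 + ρ * δ := by positivity
  have hr1 : 0 < 1 - 1 / (1 + ρ * δ) := by
    have h0 := mul_pos hρ0 hδ
    have : 1 / (1 + ρ * δ) < 1 := by
      rw [div_lt_one hr]
      linarith only [h0]
    linarith only [this]
  obtain ⟨lam, hlam⟩ : ∃ lam : ℝ, lam = (a * θ) ^ 2 / (4 * (n - 4 + -Aw - a / θ)) := ⟨_, rfl⟩
  have hlam0 : 0 ≤ lam := by rw [hlam]; positivity
  obtain ⟨b, hb⟩ : ∃ b : ℝ, b = min δ (g * δ) / 2 := ⟨_, rfl⟩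
  have hb0 : 0 < b := by
    rw [hb]
    have := lt_min hδ (mul_pos hg hδ)
    linarith only [this]
  have hb1 : b + b ≤ δ := by
    have := min_le_left δ (g * δ)
    rw [hb]; linarith only [this]
  have hb2 : b + b ≤ g * δ := by
    have := min_le_right δ (g * δ)
    rw [hb]; linarith only [this]
  obtain ⟨η, hη⟩ : ∃ η : ℝ, η = b / (lam + 1) := ⟨_, rfl⟩
  have hη0 : 0 < η := by rw [hη]; positivity
  have hηlam : η * lam ≤ b := by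
    rw [hη, div_mul_eq_mul_div, div_le_iff₀ (by linarith only [hlam0])]
    nlinarith only [hb0, hlam0, mul_nonneg hb0.le hlam0]
  have hcd : 0 < η * ((n - 4 + -Aw - a / θ) / 2) := by positivity
  obtain ⟨c0, hc0⟩ : ∃ c0 : ℝ, c0 = min (1 - 1 / (1 + ρ * δ)) (min (g * (1 - 1 / (1 + ρ * δ))) (min b
      (min (g * δ) (min δ (η * ((n - 4 + -Aw - a / θ) / 2)))))) := ⟨_, rfl⟩
  have hc1 : c0 ≤ 1 - 1 / (1 + ρ * δ) := by rw [hc0]; exact min_le_left _ _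
  have hc2 : c0 ≤ min (g * (1 - 1 / (1 + ρ * δ))) (min b
      (min (g * δ) (min δ (η * ((n - 4 + -Aw - a / θ) / 2))))) := by rw [hc0]; exact min_le_right _ _
  have hc3 := hc2.trans (min_le_right _ _)
  have hc4 := hc3.trans (min_le_right _ _)
  have hc5 := hc4.trans (min_le_right _ _)
  have c2 := hc2.trans (min_le_left _ _)
  have cb := hc3.trans (min_le_left _ _)
  have cg := hc4.trans (min_le_left _ _)
  have cd := hc5.trans (min_le_left _ _)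
  have cη := hc5.trans (min_le_right _ _)
  have hc0pos : 0 < c0 := by
    rw [hc0]
    exact lt_min hr1 (lt_min (mul_pos hg hr1) (lt_min hb0 (lt_min (mul_pos hg hδ) (lt_min hδ hcd))))
  refine ⟨γ0 + 2 * δ, η, c0, hc0pos, ?_⟩
  intro A hAr
  have hγpos : 0 < γ0 + δ := by linarith only [hγ0pos, hδ]
  have hSτ : S * τ = 1 / 2 - (1 + ρ * δ) * κ := by
    rw [hτ]
    field_simp
  have hm2 : 2 * (γ0 + δ) * (-Aw * S / (2 * (γ0 + δ))) = -Aw * S := by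
    field_simp
  have hm0 : -(1 - 1 / n) * Aw - (2 / n) * (-Aw / 2) = 2 * (γ0 + δ) * (-Aw * S / (2 * (γ0 + δ))) := by
    rw [hm2, hSd]
    field_simp
    ring
  have eT1 : T1G n a (Aw + A1) (-Aw) (-Aw / 2) (γ0 + 2 * δ) K1 (γ0 + δ) (-Aw * S / (2 * (γ0 + δ)))
      = -(1 - 1 / n + (γ0 + 2 * δ)) * A1 + K1 * (a - 1) := by
    unfold T1G
    linear_combination hm0
  have eT2 : T1G n a (Aw + B1) (-Aw) (-Aw / 2) (γ0 + 2 * δ) K2 (γ0 + δ) (-Aw * S / (2 * (γ0 + δ)))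
      = -(1 - 1 / n + (γ0 + 2 * δ)) * B1 + K2 * (a - 1) := by
    unfold T1G
    linear_combination hm0
  have eK1 : K1 * (Aw + A1 + -Aw + n - 2) = K1 * (A1 + n - 2) := by ring
  have eK2 : K2 * (Aw + B1 + -Aw + n - 2) = K2 * (B1 + n - 2) := by ring
  have hS' : BlkG (LxG n a E1 (γ0 + 2 * δ) (γ0 + δ) (τ * (a - 2 - 2 * E1)))
      (ZzG n p a F1 (γ0 + 2 * δ) (γ0 + δ) (τ * (a - 2 * F1))) (g * F2)
      (T1G n a (Aw + A1) (-Aw) (-Aw / 2) (γ0 + 2 * δ) K1 (γ0 + δ) (-Aw * S / (2 * (γ0 + δ))))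
      (K1 * (a + p)) (K1 * (Aw + A1 + -Aw + n - 2)) := by
    rw [eT1, eK1]
    exact hS
  have hT' : BlkG (LxG n a E2 (γ0 + 2 * δ) (γ0 + δ) (τ * (a - 2 - 2 * E2)))
      (ZzG n q a F2 (γ0 + 2 * δ) (γ0 + δ) (τ * (a - 2 * F2))) (gi * F1)
      (T1G n a (Aw + B1) (-Aw) (-Aw / 2) (γ0 + 2 * δ) K2 (γ0 + δ) (-Aw * S / (2 * (γ0 + δ))))
      (K2 * (a + q)) (K2 * (Aw + B1 + -Aw + n - 2)) := by
    rw [eT2, eK2]
    exact hT
  refine ngcert_of_params (θ := θ) (r := 1 + ρ * δ) (γ := γ0 + δ) (m := -Aw * S / (2 * (γ0 + δ)))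
    (v1 := τ * (a - 2 - 2 * E1)) (v2 := τ * (a - 2 * F1))
    (v1' := τ * (a - 2 - 2 * E2)) (v2' := τ * (a - 2 * F2)) (μ := δ)
    hr hg hgi hγpos.le hη0.le ha0 hθ hd ?_ ?_ ?_ ?_ ?_ ?_ ?_ ?_ ?_ hS' hT' hc1 c2 ?_ ?_ ?_ ?_ cη A hAr
  · rw [← hκd, hm2]
    linear_combination (Aw * (a - 2 - 2 * E1)) * hSτ
  · rw [← hκd, hm2]
    linear_combination (Aw * (a - 2 * F1)) * hSτ
  · rw [← hκd, hm2]
    linear_combination (Aw * (a - 2 - 2 * E2)) * hSτ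
  · rw [← hκd, hm2]
    linear_combination (Aw * (a - 2 * F2)) * hSτ
  · rw [← hκd]
    rw [hρ]
    exact hF_defect hγ0pos hκ hδ hδ1 hbase
  · rw [← hκd, pA_shift]; exact h11
  · rw [← hκd, pA_shift, pB_shift, pC_shift]; exact h12.le
  · rw [← hκd, pA_shift]; exact h21
  · rw [← hκd, pA_shift, pB_shift, pC_shift]; exact h22.le
  · rw [← hlam]; linarith only [cb, hηlam, hb1]
  · rw [← hlam]; linarith only [cb, hηlam, hb2]
  · linarith only [cd]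
  · have e : g * (γ0 + 2 * δ - (γ0 + δ)) = g * δ := by ring
    rw [e]; exact cg


open Filter Topology in
/-- **The certificate exists as soon as the conditions hold strictly in the effective
dimension `n' = 2 (n + Aw) / (2 + Aw)`.** Here the weights are `Aw + A1`, `Aw + B1`. -/
theorem exists_ngcert {n n' p q a Aw A1 B1 g gi E1 F1 E2 F2 K1 K2 : ℝ} (hn : 2 < n)
    (hnc : 0 < n - 4 + -Aw) (hA : Aw < 0) (hA2 : -2 < Aw)
    (hn' : n' = 2 * (n + Aw) / (2 + Aw)) (ha0 : 0 ≤ a) (hg : 0 < g) (hgi : g * gi = 1)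
    (h1A : 0 < pA (1 - 1 / n') a E1)
    (h1B : pB (1 - 1 / n') a E1 F1 ^ 2 < 4 * pA (1 - 1 / n') a E1 * pC (1 - 1 / n') a F1)
    (h2A : 0 < pA (1 - 1 / n') a E2)
    (h2B : pB (1 - 1 / n') a E2 F2 ^ 2 < 4 * pA (1 - 1 / n') a E2 * pC (1 - 1 / n') a F2)
    (hS1 : 0 < (1 + 2 / n') * E1)
    (hS2 : 0 < (1 + 2 / n') * E1 * (g * F2) - (((2 / n') * F1 - (1 - 1 / n') * p) / 2) ^ 2)
    (hS3 : (A1 = 0 ∧ K1 = 0) ∨ 0 < det3 ((1 + 2 / n') * E1) (((2 / n') * F1 - (1 - 1 / n') * p) / 2)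
      ((-(1 - 1 / n') * A1 + K1 * (a - 1)) / 2) (g * F2) (K1 * (a + p) / 2) (K1 * (A1 + n - 2)))
    (hT1 : 0 < (1 + 2 / n') * E2)
    (hT2 : 0 < (1 + 2 / n') * E2 * (gi * F1) - (((2 / n') * F2 - (1 - 1 / n') * q) / 2) ^ 2)
    (hT3 : (B1 = 0 ∧ K2 = 0) ∨ 0 < det3 ((1 + 2 / n') * E2) (((2 / n') * F2 - (1 - 1 / n') * q) / 2)
      ((-(1 - 1 / n') * B1 + K2 * (a - 1)) / 2) (gi * F1) (K2 * (a + q) / 2) (K2 * (B1 + n - 2))) :
    ∃ Γ η c0 : ℝ, 0 < c0 ∧ ∀ A : NAtoms, A.Realizable n →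
      c0 * A.EW ≤ ∑ k, coefG g E1 F1 E2 F2 Γ η (-Aw / 2) K1 K2 k *
        NAtoms.DG n p q a (-Aw) (Aw + A1) (Aw + B1) A k := by
  have hn0 : (0 : ℝ) < n := by linarith
  have h2w : 0 < 2 + Aw := by linarith
  have hnA : 0 < n + Aw := by linarith
  have hn'0 : 0 < n' := by rw [hn']; positivity
  have hn2 : 0 < n - 2 := by linarith
  obtain ⟨γ0, hγ0⟩ : ∃ γ0 : ℝ, γ0 = 1 / n - 1 / n' := ⟨_, rfl⟩
  have hγ0f : γ0 = -Aw * (n - 2) / (2 * n * (n + Aw)) := by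
    rw [hγ0, hn']
    field_simp
    ring
  have hγ0pos : 0 < γ0 := by
    rw [hγ0f]
    exact div_pos (mul_pos (neg_pos.2 hA) hn2) (by positivity)
  obtain ⟨κ, hκd⟩ : ∃ κ : ℝ, κ = 1 - 1 / n := ⟨_, rfl⟩
  have hκ : 0 < κ := by
    rw [hκd]
    have : 1 / n < 1 := by rw [div_lt_one hn0]; linarith
    linarith
  obtain ⟨S, hSd⟩ : ∃ S : ℝ, S = 1 - 2 / n := ⟨_, rfl⟩
  have hS : 0 < S := by
    rw [hSd]
    have : 2 / n < 1 := by rw [div_lt_one hn0]; linarith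
    linarith
  have hbase : Aw ^ 2 * S ^ 2 / (4 * γ0) = (-Aw / 2) * (n - 2 + -Aw) - κ * Aw ^ 2 := by
    have hA0 : Aw ≠ 0 := hA.ne
    have hn20 : n - 2 ≠ 0 := hn2.ne'
    rw [hγ0f, hSd, hκd]
    field_simp
    ring
  obtain ⟨ρ, hρ⟩ : ∃ ρ : ℝ, ρ = S ^ 2 / (4 * γ0 * (γ0 + 1) * κ) := ⟨_, rfl⟩
  -- the functions of `δ`
  obtain ⟨τ, hτ⟩ : ∃ τ : ℝ → ℝ, τ = fun δ => (1 / 2 - (1 + ρ * δ) * κ) / S := ⟨_, rfl⟩
  obtain ⟨Kt, hKt⟩ : ∃ Kt : ℝ → ℝ, Kt = fun δ => (1 + ρ * δ) * κ + 4 * (γ0 + δ) * τ δ ^ 2 := ⟨_, rfl⟩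
  have hτc : Continuous τ := by rw [hτ]; fun_prop
  have hKtc : Continuous Kt := by rw [hKt]; fun_prop
  have hτ0 : τ 0 = -1 / 2 := by
    rw [hτ]
    simp only [mul_zero, add_zero, one_mul]
    rw [hκd, hSd]
    have : 1 - 2 / n ≠ 0 := by rw [← hSd]; exact hS.ne'
    field_simp
    ring
  have hKt0 : Kt 0 = 1 - 1 / n' := by
    rw [hKt]
    simp only [mul_zero, add_zero, one_mul]
    rw [hτ0, hκd, hγ0]
    ring
  have b1 := ev_block hKtc hKt0 h1A h1B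
  have b2 := ev_block hKtc hKt0 h2A h2B
  -- the linear forms
  have evS := ev_blkG (L := fun δ => (1 + 2 / n) * E1 - (γ0 + 2 * δ) * (a - 2) - 2 * (γ0 + δ) * (τ δ * (a - 2 - 2 * E1)))
    (Z := fun δ => (2 / n) * F1 - (1 - 1 / n) * p - (γ0 + 2 * δ) * (a + p) - 2 * (γ0 + δ) * (τ δ * (a - 2 * F1)))
    (T1 := fun δ => -(1 - 1 / n + (γ0 + 2 * δ)) * A1 + K1 * (a - 1))
    (Y := g * F2) (T2 := K1 * (a + p)) (T3 := K1 * (A1 + n - 2))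
    (by fun_prop) (by fun_prop) (by fun_prop)
    (by
      simp only [mul_zero, add_zero]
      rw [hτ0]
      have e : (1 + 2 / n) * E1 - γ0 * (a - 2) - 2 * γ0 * (-1 / 2 * (a - 2 - 2 * E1))
          = (1 + 2 / n') * E1 := by rw [hγ0]; ring
      rw [e]
      exact hS1)
    (by
      simp only [mul_zero, add_zero]
      rw [hτ0]
      have e : (1 + 2 / n) * E1 - γ0 * (a - 2) - 2 * γ0 * (-1 / 2 * (a - 2 - 2 * E1))
          = (1 + 2 / n') * E1 := by rw [hγ0]; ring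
      have e2 : (2 / n) * F1 - (1 - 1 / n) * p - γ0 * (a + p) - 2 * γ0 * (-1 / 2 * (a - 2 * F1))
          = (2 / n') * F1 - (1 - 1 / n') * p := by rw [hγ0]; ring
      rw [e, e2]
      exact hS2)
    (by
      rcases hS3 with ⟨h0, h1⟩ | h3
      · left
        subst h0 h1
        simp
      · right
        simp only [mul_zero, add_zero]
        rw [hτ0]
        have e : (1 + 2 / n) * E1 - γ0 * (a - 2) - 2 * γ0 * (-1 / 2 * (a - 2 - 2 * E1))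
            = (1 + 2 / n') * E1 := by rw [hγ0]; ring
        have e2 : (2 / n) * F1 - (1 - 1 / n) * p - γ0 * (a + p) - 2 * γ0 * (-1 / 2 * (a - 2 * F1))
            = (2 / n') * F1 - (1 - 1 / n') * p := by rw [hγ0]; ring
        have e3 : 1 - 1 / n + γ0 = 1 - 1 / n' := by rw [hγ0]; ring
        rw [e, e2, e3]
        have e4 : K1 * (a + p) / 2 = K1 * (a + p) / 2 := rfl
        exact h3)
  have evT := ev_blkG (L := fun δ => (1 + 2 / n) * E2 - (γ0 + 2 * δ) * (a - 2) - 2 * (γ0 + δ) * (τ δ * (a - 2 - 2 * E2)))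
    (Z := fun δ => (2 / n) * F2 - (1 - 1 / n) * q - (γ0 + 2 * δ) * (a + q) - 2 * (γ0 + δ) * (τ δ * (a - 2 * F2)))
    (T1 := fun δ => -(1 - 1 / n + (γ0 + 2 * δ)) * B1 + K2 * (a - 1))
    (Y := gi * F1) (T2 := K2 * (a + q)) (T3 := K2 * (B1 + n - 2))
    (by fun_prop) (by fun_prop) (by fun_prop)
    (by
      simp only [mul_zero, add_zero]
      rw [hτ0]
      have e : (1 + 2 / n) * E2 - γ0 * (a - 2) - 2 * γ0 * (-1 / 2 * (a - 2 - 2 * E2))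
          = (1 + 2 / n') * E2 := by rw [hγ0]; ring
      rw [e]
      exact hT1)
    (by
      simp only [mul_zero, add_zero]
      rw [hτ0]
      have e : (1 + 2 / n) * E2 - γ0 * (a - 2) - 2 * γ0 * (-1 / 2 * (a - 2 - 2 * E2))
          = (1 + 2 / n') * E2 := by rw [hγ0]; ring
      have e2 : (2 / n) * F2 - (1 - 1 / n) * q - γ0 * (a + q) - 2 * γ0 * (-1 / 2 * (a - 2 * F2))
          = (2 / n') * F2 - (1 - 1 / n') * q := by rw [hγ0]; ring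
      rw [e, e2]
      exact hT2)
    (by
      rcases hT3 with ⟨h0, h1⟩ | h3
      · left
        subst h0 h1
        simp
      · right
        simp only [mul_zero, add_zero]
        rw [hτ0]
        have e : (1 + 2 / n) * E2 - γ0 * (a - 2) - 2 * γ0 * (-1 / 2 * (a - 2 - 2 * E2))
            = (1 + 2 / n') * E2 := by rw [hγ0]; ring
        have e2 : (2 / n) * F2 - (1 - 1 / n) * q - γ0 * (a + q) - 2 * γ0 * (-1 / 2 * (a - 2 * F2))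
            = (2 / n') * F2 - (1 - 1 / n') * q := by rw [hγ0]; ring
        have e3 : 1 - 1 / n + γ0 = 1 - 1 / n' := by rw [hγ0]; ring
        rw [e, e2, e3]
        exact h3)
  have ev1 : ∀ᶠ δ in 𝓝 (0 : ℝ), δ ≤ 1 := ge_mem_nhds (by norm_num)
  have ev := b1.and (b2.and (evS.and (evT.and ev1)))
  have ev' : ∀ᶠ δ in 𝓝[>] (0 : ℝ), 0 < δ := eventually_mem_nhdsWithin
  obtain ⟨δ, ⟨⟨h11, h12⟩, ⟨h21, h22⟩, hSδ, hTδ, hδ1⟩, hδ⟩ :=
    ((ev.filter_mono nhdsWithin_le_nhds).and ev').exists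
  have hKtδ : Kt δ = (1 + ρ * δ) * κ + 4 * (γ0 + δ) * τ δ ^ 2 := by rw [hKt]
  rw [hKtδ] at h11 h12 h21 h22
  have hτδ : τ δ = (1 / 2 - (1 + ρ * δ) * κ) / S := by rw [hτ]
  obtain ⟨θ, hθ, hd⟩ := exists_theta ha0 hnc
  exact ngcert_at hn0 hθ hd hA ha0 hg hgi hκd hSd hκ hS hγ0pos hbase hρ hτδ hδ hδ1 h11 h12 h21 h22
    hSδ hTδ


end Vale.Agent.Lib.P100
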