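import Vale.Agent.Lib.P100.WCert2

/-!
# P100: the weighted certificate for weights of any sign.
-/

noncomputable section

namespace Vale.Agent.Lib.P100
namespace WCert

open ClosedForm Filter Topology

lemma det_formula_neg (F ρ g G w A' : ℝ) :
    det3 F (-(F * ρ * g)) (G * w / 2) (g ^ 2 * F) (G * w * g / 2) (G * A')
      = g ^ 2 * F * (1 + ρ) * G * (F * (1 - ρ) * A' - G * w ^ 2 / 2) := by
  unfold det3
  ring

/-- The condition on one equation, for a weight of any sign: `w = (a+p)/g`, `τ = 1-a`,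
`R± = (n ± (c p - 1)/g)/c`; for `A ≥ 0`: `τ < w`, `A w² < R₊ (w-τ) (A+n-2)`; for `A < 0`:
`|A| w² < R₋ (w+τ) (A+n-2)`. -/
def Cond (n p Aw g : ℝ) : Prop :=
  |cS n * p - 1| < n * g ∧
    ((0 ≤ Aw ∧ 1 - aS n < (aS n + p) / g ∧ Aw * ((aS n + p) / g) ^ 2
        < ((n + (cS n * p - 1) / g) / cS n) * ((aS n + p) / g - (1 - aS n)) * (Aw + n - 2))
      ∨ (Aw < 0 ∧ (-Aw) * ((aS n + p) / g) ^ 2
        < ((n - (cS n * p - 1) / g) / cS n) * ((aS n + p) / g + (1 - aS n)) * (Aw + n - 2)))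

/-- The block at `σ = h = 0`, for a negative weight. -/
lemma blk0_neg (n p b g : ℝ) (hn : 5 ≤ n) (hg : 0 < g) (hp : 0 < p) (hb : 0 < b)
    (hP : |cS n * p - 1| < n * g)
    (hB : b * ((aS n + p) / g) ^ 2
      < ((n - (cS n * p - 1) / g) / cS n) * ((aS n + p) / g + (1 - aS n)) * (-b + n - 2)) :
    0 < det3 (E0 n * (1 + 2 / n)) ((2 * F0 n / n - (1 - 1 / n) * p) / 2)
        (((1 - 1 / n) * b / ((aS n + p) / g + (1 - aS n)) * (aS n - 1) - (1 - 1 / n) * (-b)) / 2)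
        (g ^ 2 * F0 n) ((1 - 1 / n) * b / ((aS n + p) / g + (1 - aS n)) * (aS n + p) / 2)
        ((1 - 1 / n) * b / ((aS n + p) / g + (1 - aS n)) * (-b + n - 2)) := by
  have hn2 : 2 < n := by linarith
  have hn0 : 0 < n := by linarith
  have hF : 0 < F0 n := F0_pos hn2
  have hθ := id_theta hn2
  have hκ := id_kappa hn2
  have hc := cS_pos hn2
  obtain ⟨ha0, ha1⟩ := aS_bounds hn
  obtain ⟨ρ, hρ⟩ : ∃ ρ, ρ = (cS n * p - 1) / (n * g) := ⟨_, rfl⟩
  have hng : 0 < n * g := mul_pos hn0 hg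
  have hρ1 : ρ < 1 := by
    rw [hρ, div_lt_one hng]
    exact lt_of_le_of_lt (le_abs_self _) hP
  have hρ2 : -1 < ρ := by
    rw [hρ, lt_div_iff₀ hng]
    have := neg_abs_le (cS n * p - 1)
    linarith
  have e12 : (2 * F0 n / n - (1 - 1 / n) * p) / 2 = -(F0 n * ρ * g) := by
    rw [hκ, hρ]
    field_simp
    ring
  rw [hθ, e12]
  obtain ⟨w, hwd⟩ : ∃ w, w = (aS n + p) / g := ⟨_, rfl⟩
  have hw0 : 0 < w := by rw [hwd]; positivity
  obtain ⟨κ, hκd⟩ : ∃ κ, κ = 1 - 1 / n := ⟨_, rfl⟩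
  have hκ0 : 0 < κ := by
    rw [hκd]
    have : 1 / n < 1 := by rw [div_lt_one hn0]; linarith
    linarith
  rw [← hwd] at hB ⊢
  rw [← hκd]
  have hd : 0 < w + (1 - aS n) := by linarith
  obtain ⟨G, hGd⟩ : ∃ G, G = κ * b / (w + (1 - aS n)) := ⟨_, rfl⟩
  have hG0 : 0 < G := by rw [hGd]; positivity
  have hGw : G * (w + (1 - aS n)) = κ * b := by
    rw [hGd]
    field_simp
  rw [← hGd]
  have e13 : (G * (aS n - 1) - κ * (-b)) / 2 = G * w / 2 := by
    rw [show κ * (-b) = -(κ * b) by ring, ← hGw]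
    ring
  have e23 : G * (aS n + p) / 2 = G * w * g / 2 := by
    rw [hwd]
    field_simp
  rw [e13, e23, det_formula_neg]
  have a1 : 0 < 1 + ρ := by linarith
  have hFκ : F0 n * (1 - ρ) = κ / 2 * ((n - (cS n * p - 1) / g) / cS n) := by
    have hκ' : κ = 2 * F0 n / n * cS n := by rw [hκd]; exact hκ
    rw [hκ', hρ]
    field_simp
  have hmain : 0 < F0 n * (1 - ρ) * (-b + n - 2) - G * w ^ 2 / 2 := by
    rw [hFκ, hGd]
    have : κ / 2 * ((n - (cS n * p - 1) / g) / cS n) * (-b + n - 2)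
        - κ * b / (w + (1 - aS n)) * w ^ 2 / 2
        = κ / (2 * (w + (1 - aS n))) *
          (((n - (cS n * p - 1) / g) / cS n) * (w + (1 - aS n)) * (-b + n - 2) - b * w ^ 2) := by
      field_simp
    rw [this]
    have : 0 < ((n - (cS n * p - 1) / g) / cS n) * (w + (1 - aS n)) * (-b + n - 2) - b * w ^ 2 := by
      linarith
    positivity
  positivity

lemma pos2_of (n p g : ℝ) (hn : 3 ≤ n) (hg : 0 < g) (hP : |cS n * p - 1| < n * g) :
    0 < E0 n * (1 + 2 / n) * (g ^ 2 * F0 n) - ((2 * F0 n / n - (1 - 1 / n) * p) / 2) ^ 2 := by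
  have hn2 : 2 < n := by linarith
  have hn0 : 0 < n := by linarith
  have hF : 0 < F0 n := F0_pos hn2
  have hθ := id_theta hn2
  have hκ := id_kappa hn2
  obtain ⟨ρ, hρ⟩ : ∃ ρ, ρ = (cS n * p - 1) / (n * g) := ⟨_, rfl⟩
  have hng : 0 < n * g := mul_pos hn0 hg
  have hρ1 : ρ < 1 := by
    rw [hρ, div_lt_one hng]
    exact lt_of_le_of_lt (le_abs_self _) hP
  have hρ2 : -1 < ρ := by
    rw [hρ, lt_div_iff₀ hng]
    have := neg_abs_le (cS n * p - 1)
    linarith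
  have e12 : (2 * F0 n / n - (1 - 1 / n) * p) / 2 = -(F0 n * ρ * g) := by
    rw [hκ, hρ]
    field_simp
    ring
  rw [hθ, e12]
  have : F0 n * (g ^ 2 * F0 n) - (-(F0 n * ρ * g)) ^ 2 = F0 n ^ 2 * g ^ 2 * (1 - ρ) * (1 + ρ) := by
    ring
  rw [this]
  have a1 : 0 < 1 - ρ := by linarith
  have a2 : 0 < 1 + ρ := by linarith
  positivity

/-- The coefficient of `s ξ`, for a weight of any sign. -/
def GOf (n p Aw g : ℝ) : ℝ :=
  if 0 ≤ Aw then g1Of n p Aw g else (1 - 1 / n) * (-Aw) / ((aS n + p) / g + (1 - aS n))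

lemma GOf_zero (n p g : ℝ) : GOf n p 0 g = 0 := by
  simp [GOf, g1Of_zero]

/-- The block at `σ = h = 0`, from `Cond`. -/
lemma blk_cond (n p Aw g : ℝ) (hn : 5 ≤ n) (hg : 0 < g) (hp : 0 < p) (hC : Cond n p Aw g) :
    Aw = 0 ∨ 0 < det3 (E0 n * (1 + 2 / n)) ((2 * F0 n / n - (1 - 1 / n) * p) / 2)
        ((GOf n p Aw g * (aS n - 1) - (1 - 1 / n) * Aw) / 2)
        (g ^ 2 * F0 n) (GOf n p Aw g * (aS n + p) / 2) (GOf n p Aw g * (Aw + n - 2)) := by
  obtain ⟨hP, h⟩ := hC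
  rcases h with ⟨h0, hw, hB⟩ | ⟨h0, hB⟩
  · have := (blk0 n p Aw g (by linarith) hg h0 hP hw hB).2
    simpa only [GOf, if_pos h0] using this
  · right
    have hb : 0 < -Aw := by linarith
    have := blk0_neg n p (-Aw) g hn hg hp hb hP (by simpa using hB)
    simp only [GOf, if_neg (not_le.mpr h0)]
    simpa using this

/-- The block for small `σ`. -/
lemma ev_blk_sigma_cond (n p Aw g : ℝ) (hn : 5 ≤ n) (hg : 0 < g) (hp : 0 < p)
    (hC : Cond n p Aw g) :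
    ∀ᶠ σ in 𝓝[>] (0 : ℝ),
      0 < ((1 - σ) * E0 n) * (1 + 2 / n) * (g ^ 2 * ((1 - σ) * F0 n))
        - ((2 * ((1 - σ) * F0 n) / n - (1 - 1 / n) * p) / 2) ^ 2
      ∧ (Aw = 0 ∨ 0 < det3 (((1 - σ) * E0 n) * (1 + 2 / n))
          ((2 * ((1 - σ) * F0 n) / n - (1 - 1 / n) * p) / 2)
          ((GOf n p Aw g * (aS n - 1) - (1 - 1 / n) * Aw) / 2)
          (g ^ 2 * ((1 - σ) * F0 n)) (GOf n p Aw g * (aS n + p) / 2)
          (GOf n p Aw g * (Aw + n - 2))) := by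
  have h1 := pos2_of n p g (by linarith) hg hC.1
  have h2 := blk_cond n p Aw g hn hg hp hC
  have b1 := ev_pos (f := fun σ => ((1 - σ) * E0 n) * (1 + 2 / n) * (g ^ 2 * ((1 - σ) * F0 n))
        - ((2 * ((1 - σ) * F0 n) / n - (1 - 1 / n) * p) / 2) ^ 2) (by fun_prop)
      (by simp only [sub_zero, one_mul]; exact h1)
  rcases h2 with h0 | h2
  · filter_upwards [b1] with σ h
    exact ⟨h, Or.inl h0⟩
  · have b2 := ev_pos (f := fun σ => det3 (((1 - σ) * E0 n) * (1 + 2 / n))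
          ((2 * ((1 - σ) * F0 n) / n - (1 - 1 / n) * p) / 2)
          ((GOf n p Aw g * (aS n - 1) - (1 - 1 / n) * Aw) / 2)
          (g ^ 2 * ((1 - σ) * F0 n)) (GOf n p Aw g * (aS n + p) / 2)
          (GOf n p Aw g * (Aw + n - 2))) (by unfold det3; fun_prop)
        (by simp only [sub_zero, one_mul]; exact h2)
    filter_upwards [b1, b2] with σ h h'
    exact ⟨h, Or.inr h'⟩

/-- **The weighted certificate for weights of any sign.** -/
theorem exists_wcertif_gen (n p q Aw Bw g : ℝ) (hn : 5 ≤ n) (hg : 0 < g) (hp : 0 < p) (hq : 0 < q)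
    (h1 : Cond n p Aw g) (h2 : Cond n q Bw g⁻¹) :
    ∃ (c : Fin 17 → ℝ) (c0 : ℝ), 0 < c0 ∧ WCertif n p q (aS n) (aS n) Aw Bw c c0 := by
  have hn3 : 3 ≤ n := by linarith
  have hn2 : 2 < n := by linarith
  have hn0 : 0 < n := by linarith
  have hgi : 0 < g⁻¹ := inv_pos.mpr hg
  obtain ⟨σ, ⟨h0, h1', h2', h3, h4⟩, ⟨s1, s2⟩, ⟨t1, t2⟩⟩ :=
    ((ev_sigma n hn3).and ((ev_blk_sigma_cond n p Aw g hn hg hp h1).and
      (ev_blk_sigma_cond n q Bw g⁻¹ hn hgi hq h2))).exists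
  have hF0 := F0_pos hn2
  have hE0 := E0_pos hn2
  obtain ⟨E, hE⟩ : ∃ E, E = (1 - σ) * E0 n := ⟨_, rfl⟩
  obtain ⟨F, hF⟩ : ∃ F, F = (1 - σ) * F0 n := ⟨_, rfl⟩
  simp only [← hE, ← hF] at h2' h3 h4 s1 s2 t1 t2
  have hσ : 0 < 1 - σ := by linarith
  have hEp : 0 < E := by rw [hE]; exact mul_pos hσ hE0
  have hθ : 0 < E * (1 + 2 / n) := by positivity
  have hγ : 0 < g ^ 2 := by positivity
  have hγi : g ^ 2 * (g⁻¹) ^ 2 = 1 := by
    field_simp
  obtain ⟨E', F', γ, h, g1', g2', η, c0, -, hc0, H⟩ :=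
    wcert_stage2 n p q Aw Bw E F (g ^ 2) ((g⁻¹) ^ 2) (GOf n p Aw g) (GOf n q Bw g⁻¹) hn hγ hγi
    h2' h3 h4
    (ev_blk_delta n p Aw (aS n) E F (g ^ 2) (GOf n p Aw g) hθ s1 (by
      rcases s2 with h | h
      · exact Or.inl ⟨h, by rw [h, GOf_zero]⟩
      · exact Or.inr h))
    (ev_blk_delta n q Bw (aS n) E F ((g⁻¹) ^ 2) (GOf n q Bw g⁻¹) hθ t1 (by
      rcases t2 with h | h
      · exact Or.inl ⟨h, by rw [h, GOf_zero]⟩
      · exact Or.inr h))
  refine ⟨wcoef E' F' γ h g1' g2' η, c0, hc0, fun A hA => ?_⟩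
  rw [Q_wcoef]
  exact H A.toAtoms A.tx A.ty A.w hA.base (xiReal_of n A hA)

/-- The exponents of the cut-off argument, for subcritical parameters. -/
theorem lam_mu_gen (n p q Aw Bw : ℝ) (hn : 5 ≤ n) (hp : 0 < p) (hq : 0 < q) (hpq : 1 < p * q)
    (hsub : n - 2 < (n + Aw) / (p + 1) + (n + Bw) / (q + 1)) :
    ∃ lam mu : ℝ, 0 ≤ lam ∧ 0 ≤ mu ∧ aS n = mu * q - lam ∧ aS n = lam * p - mu
      ∧ n < 2 * (lam + mu) + Aw * lam + Bw * mu + 4 := by
  have hd : 0 < p * q - 1 := by linarith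
  obtain ⟨ha0, -⟩ := aS_bounds hn
  have hp1 : 0 < p + 1 := by linarith
  have hq1 : 0 < q + 1 := by linarith
  have h2 : 0 < n - 2 := by linarith
  have hsub' : (n - 2) * (p * q - 1) < 2 * (p + q + 2) + Aw * (1 + q) + Bw * (1 + p) := by
    have e : (n + Aw) / (p + 1) + (n + Bw) / (q + 1)
        = ((n + Aw) * (q + 1) + (n + Bw) * (p + 1)) / ((p + 1) * (q + 1)) := by
      field_simp
    rw [e, lt_div_iff₀ (by positivity)] at hsub
    nlinarith
  have haS : aS n * (n - 2) = n - 3 := by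
    unfold aS
    field_simp
  refine ⟨aS n * (1 + q) / (p * q - 1), aS n * (1 + p) / (p * q - 1), by positivity, by positivity,
    ?_, ?_, ?_⟩
  · have e : aS n * (1 + p) / (p * q - 1) * q - aS n * (1 + q) / (p * q - 1)
        = aS n * ((p * q - 1) / (p * q - 1)) := by ring
    rw [e, div_self hd.ne', mul_one]
  · have e : aS n * (1 + q) / (p * q - 1) * p - aS n * (1 + p) / (p * q - 1)
        = aS n * ((p * q - 1) / (p * q - 1)) := by ring
    rw [e, div_self hd.ne', mul_one]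
  · have e : 2 * (aS n * (1 + q) / (p * q - 1) + aS n * (1 + p) / (p * q - 1))
          + Aw * (aS n * (1 + q) / (p * q - 1)) + Bw * (aS n * (1 + p) / (p * q - 1))
        = aS n * ((2 * (p + q + 2) + Aw * (1 + q) + Bw * (1 + p)) / (p * q - 1)) := by ring
    rw [e]
    have h5 : n - 2 < (2 * (p + q + 2) + Aw * (1 + q) + Bw * (1 + p)) / (p * q - 1) := by
      rw [lt_div_iff₀ hd]
      exact hsub'
    have ha1 : 0 < aS n := by
      unfold aS
      exact div_pos (by linarith) h2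
    have h6 := mul_lt_mul_of_pos_left h5 ha1
    have hfin : n - 3 < aS n * ((2 * (p + q + 2) + Aw * (1 + q) + Bw * (1 + p)) / (p * q - 1)) := by
      rw [← haS]
      exact h6
    linarith

end WCert
end Vale.Agent.Lib.P100
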