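import Vale.Agent.Lib.P100.WFinal2
import Vale.Agent.Lib.P100.WCert3

/-!
# P100: the clean region for weights of any sign.
`p < (n+2+3 min(A,0))/(n-2)` gives `Cond n p A 1`; and the subcritical inequality follows.
-/

noncomputable section

namespace Vale.Agent.Lib.P100
namespace WCert

open ClosedForm

/-- The clean bound implies `Cond` at `g = 1`, negative weight. -/
lemma cond_neg_clean (n p A : ℝ) (hn : 5 ≤ n) (hp : 0 < p) (hA : A < 0)
    (hp2 : p < (n + 2 + 3 * A) / (n - 2)) : Cond n p A 1 := by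
  have h2 : 0 < n - 2 := by linarith
  have hn2 : 2 < n := by linarith
  have hc := cS_pos hn2
  have hn1 : 0 < n + 1 := by linarith
  have hn3 : 0 < n + 2 := by linarith
  have hlt : (n + 2 + 3 * A) / (n - 2) < (n + 2) / (n - 2) :=
    div_lt_div_of_pos_right (by linarith) h2
  have hp3 : p < (n + 2) / (n - 2) := lt_trans hp2 hlt
  have e : cS n * ((n + 2) / (n - 2)) = n + 1 := by
    unfold cS
    field_simp
  have h4 : cS n * p < n + 1 := by
    rw [← e]
    exact mul_lt_mul_of_pos_left hp3 hc
  have h5 : 0 < cS n * p := mul_pos hc hp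
  refine ⟨?_, Or.inr ⟨hA, ?_⟩⟩
  · rw [abs_lt]
    constructor <;> linarith
  · simp only [div_one]
    -- reduce to `d = 1/(n-2)`
    obtain ⟨d, hd⟩ : ∃ d, d = 1 / (n - 2) := ⟨_, rfl⟩
    obtain ⟨b, hb⟩ : ∃ b, b = -A := ⟨_, rfl⟩
    have hb0 : 0 < b := by rw [hb]; linarith
    have hd0 : 0 < d := by rw [hd]; positivity
    have hd3 : d ≤ 1 / 3 := by
      rw [hd]
      exact one_div_le_one_div_of_le (by norm_num) (by linarith)
    have hnd : (n - 2) * d = 1 := by
      rw [hd]
      field_simp
    have ea : aS n = 1 - d := by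
      unfold aS
      rw [hd]
      field_simp
      ring
    have eR : (n - (cS n * p - 1)) / cS n = 1 + 4 * d - p := by
      have h6 : (n - (cS n * p - 1)) / cS n = (n + 1) / cS n - p := by
        field_simp
        ring
      have h7 : (n + 1) / cS n = 1 + 4 * d := by
        unfold cS
        rw [hd]
        field_simp
        ring
      rw [h6, h7]
    have hp4 : p < 1 + 4 * d - 3 * (b * d) := by
      have : (n + 2 + 3 * A) / (n - 2) = 1 + 4 * d - 3 * (b * d) := by
        rw [hb, hd]
        field_simp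
        ring
      rw [← this]
      exact hp2
    rw [ea, eR]
    obtain ⟨e', he'⟩ : ∃ e', e' = b * d := ⟨_, rfl⟩
    rw [← he'] at hp4
    have he0 : 0 < e' := by rw [he']; positivity
    have he1 : 3 * e' < 1 + 4 * d := by linarith
    have hAn : A + n - 2 = (n - 2) * (1 - e') := by
      rw [he', show A = -b by rw [hb]; ring]
      have : (n - 2) * (b * d) = b := by
        calc (n - 2) * (b * d) = b * ((n - 2) * d) := by ring
          _ = b := by rw [hnd, mul_one]
      linarith
    rw [hAn]
    have hR : 3 * (b * d) < 1 + 4 * d - p := by rw [← he']; linarith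
    have hP : 0 < p + 1 := by linarith
    have he2 : 0 < 1 - e' := by
      nlinarith
    -- the key polynomial inequality
    have key : (1 - d + p) ^ 2 ≤ 3 * (p + 1) * (1 - e') := by
      obtain ⟨P, hPd⟩ : ∃ P, P = p + 1 := ⟨_, rfl⟩
      have hP1 : 1 < P := by rw [hPd]; linarith
      have hP2 : P < 2 + 4 * d - 3 * e' := by rw [hPd]; linarith
      have e1 : 1 - d + p = P - d := by rw [hPd]; ring
      rw [e1, ← hPd]
      -- convexity in `P`: endpoints
      have end1 : (1 - d) ^ 2 ≤ 3 * 1 * (1 - e') := by nlinarith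
      have end2 : (2 + 4 * d - 3 * e' - d) ^ 2 ≤ 3 * (2 + 4 * d - 3 * e') * (1 - e') := by
        nlinarith [mul_pos hd0 he0, mul_nonneg (sub_nonneg.2 hd3) he0.le, sq_nonneg d]
      have hgap : 0 < 2 + 4 * d - 3 * e' - 1 := by linarith
      nlinarith [mul_pos (sub_pos.2 hP1) (sub_pos.2 hP2)]
    have e3 : 1 - d + p + (1 - (1 - d)) = p + 1 := by ring
    rw [e3]
    have e4 : (-A) = b := by rw [hb]
    rw [e4]
    -- `R > 3 b d` and `(n-2) d = 1`
    have h8 : 0 < (p + 1) * ((n - 2) * (1 - e')) := by positivity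
    have h9 : 3 * (b * d) * ((p + 1) * ((n - 2) * (1 - e')))
        < (1 + 4 * d - p) * ((p + 1) * ((n - 2) * (1 - e'))) :=
      mul_lt_mul_of_pos_right hR h8
    have h10 : 3 * (b * d) * ((p + 1) * ((n - 2) * (1 - e')))
        = b * (3 * (p + 1) * (1 - e')) * ((n - 2) * d) := by ring
    rw [h10, hnd, mul_one] at h9
    have h11 : b * (1 - d + p) ^ 2 ≤ b * (3 * (p + 1) * (1 - e')) :=
      mul_le_mul_of_nonneg_left key hb0.le
    calc b * (1 - d + p) ^ 2 ≤ b * (3 * (p + 1) * (1 - e')) := h11
      _ < (1 + 4 * d - p) * ((p + 1) * ((n - 2) * (1 - e'))) := h9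
      _ = (1 + 4 * d - p) * (p + 1) * ((n - 2) * (1 - e')) := by ring

/-- The clean bound implies `Cond` at `g = 1`, any weight. -/
lemma cond_clean (n p A : ℝ) (hn : 5 ≤ n) (hp : 0 < p)
    (hp2 : p < (n + 2 + 3 * min A 0) / (n - 2)) : Cond n p A 1 := by
  rcases lt_or_ge A 0 with hA | hA
  · rw [min_eq_left hA.le] at hp2
    exact cond_neg_clean n p A hn hp hA hp2
  · rw [min_eq_right hA] at hp2
    have hp3 : p < (n + 2) / (n - 2) := by simpa using hp2
    have h2 : 0 < n - 2 := by linarith
    have hn2 : 2 < n := by linarith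
    have hc := cS_pos hn2
    have e : cS n * ((n + 2) / (n - 2)) = n + 1 := by
      unfold cS
      field_simp
    have h4 : cS n * p < n + 1 := by
      rw [← e]
      exact mul_lt_mul_of_pos_left hp3 hc
    have h5 : 0 < cS n * p := mul_pos hc hp
    obtain ⟨a1, a2⟩ := free_at_one n p hn hp
    have hA2 : 0 < A + n - 2 := by linarith
    have hy : 0 < aS n + p - (1 - aS n) := by linarith
    have hR : 0 < (n + (cS n * p - 1)) / cS n := by
      apply div_pos _ hc
      linarith
    refine ⟨?_, Or.inl ⟨hA, ?_, ?_⟩⟩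
    · rw [abs_lt]
      constructor <;> linarith
    · simpa using a1
    · simp only [div_one]
      -- `A y² ≤ A R (y-τ) < R (y-τ) (A+n-2)`
      have h6 : A * (aS n + p) ^ 2 ≤ A * ((n + (cS n * p - 1)) / cS n * (aS n + p - (1 - aS n))) :=
        mul_le_mul_of_nonneg_left a2 hA
      have h7 : 0 < (n + (cS n * p - 1)) / cS n * (aS n + p - (1 - aS n)) := mul_pos hR hy
      have h8 : (n - 2) * ((n + (cS n * p - 1)) / cS n * (aS n + p - (1 - aS n))) > 0 :=
        mul_pos h2 h7
      nlinarith

/-- The clean bound implies the subcritical inequality. -/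
lemma subcritical_clean (n p q A B : ℝ) (hn : 5 ≤ n) (hp : 0 < p) (hq : 0 < q)
    (hp2 : p < (n + 2 + 3 * min A 0) / (n - 2)) (hq2 : q < (n + 2 + 3 * min B 0) / (n - 2)) :
    n - 2 < (n + A) / (p + 1) + (n + B) / (q + 1) := by
  have h2 : 0 < n - 2 := by linarith
  have one : ∀ r C : ℝ, 0 < r → r < (n + 2 + 3 * min C 0) / (n - 2) →
      (n - 2) / 2 < (n + C) / (r + 1) := by
    intro r C hr hr2
    have hr1 : 0 < r + 1 := by linarith
    rw [div_lt_div_iff₀ (by norm_num) hr1]
    rw [lt_div_iff₀ h2] at hr2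
    rcases lt_or_ge C 0 with hC | hC
    · rw [min_eq_left hC.le] at hr2
      nlinarith
    · rw [min_eq_right hC] at hr2
      nlinarith
  have a1 := one p A hp hp2
  have a2 := one q B hq hq2
  linarith

end WCert
end Vale.Agent.Lib.P100
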