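import Vale.Agent.Lib.P100.NGAlg
import Vale.Agent.Lib.P100.WCert3
import Vale.Agent.Lib.P100.WClean

/-!
# P100: weights `A, B` of any sign, with the weight `|x|^ω u^a v^a`, `a = aS m`,
`m = 2 (n - ω) / (2 - ω)`; every dimension with `n + ω > 4`.
-/

open scoped BigOperators
open InnerProductSpace Laplacian

noncomputable section

namespace Vale.Agent.Lib.P100

open ClosedForm WCert Filter Topology

/-- The condition on one equation: dimension `m`, excess weight `A1`, constant `N = A1 + n - 2`. -/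
def CondN (m p A1 g N : ℝ) : Prop :=
  |cS m * p - 1| < m * g ∧
    (A1 = 0 ∨ (0 ≤ A1 ∧ 1 - aS m < (aS m + p) / g ∧ A1 * ((aS m + p) / g) ^ 2
        < ((m + (cS m * p - 1) / g) / cS m) * ((aS m + p) / g - (1 - aS m)) * N)
      ∨ (A1 < 0 ∧ (-A1) * ((aS m + p) / g) ^ 2
        < ((m - (cS m * p - 1) / g) / cS m) * ((aS m + p) / g + (1 - aS m)) * N))

/-- The coefficient of `s ξ`. -/
def KOf (m p A1 g : ℝ) : ℝ :=
  if 0 ≤ A1 then (1 - 1 / m) * A1 / ((aS m + p) / g - (1 - aS m))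
  else (1 - 1 / m) * (-A1) / ((aS m + p) / g + (1 - aS m))

lemma KOf_zero (m p g : ℝ) : KOf m p 0 g = 0 := by
  simp [KOf]

/-- The block at `σ = 0`, from `CondN`. -/
lemma blkN (m p A1 g N : ℝ) (hm : 3 ≤ m) (hg : 0 < g) (hp : 0 < p) (hC : CondN m p A1 g N) :
    (A1 = 0 ∧ KOf m p A1 g = 0) ∨ 0 < det3 (E0 m * (1 + 2 / m)) ((2 * F0 m / m - (1 - 1 / m) * p) / 2)
        ((-(1 - 1 / m) * A1 + KOf m p A1 g * (aS m - 1)) / 2)
        (g ^ 2 * F0 m) (KOf m p A1 g * (aS m + p) / 2) (KOf m p A1 g * N) := by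
  have hn2 : 2 < m := by linarith
  have hn0 : 0 < m := by linarith
  have hF : 0 < F0 m := F0_pos hn2
  have hθ := id_theta hn2
  have hκ := id_kappa hn2
  have hc : 0 < cS m := cS_pos hn2
  obtain ⟨hP, h⟩ := hC
  obtain ⟨ρ, hρ⟩ : ∃ ρ, ρ = (cS m * p - 1) / (m * g) := ⟨_, rfl⟩
  have hng : 0 < m * g := mul_pos hn0 hg
  have hρ1 : ρ < 1 := by
    rw [hρ, div_lt_one hng]
    exact lt_of_le_of_lt (le_abs_self _) hP
  have hρ2 : -1 < ρ := by
    rw [hρ, lt_div_iff₀ hng]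
    have := neg_abs_le (cS m * p - 1)
    linarith
  have e12 : (2 * F0 m / m - (1 - 1 / m) * p) / 2 = -(F0 m * ρ * g) := by
    rw [hκ, hρ]
    field_simp
    ring
  obtain ⟨κ, hκd⟩ : ∃ κ, κ = 1 - 1 / m := ⟨_, rfl⟩
  have hκ0 : 0 < κ := by
    rw [hκd]
    have : 1 / m < 1 := by rw [div_lt_one hn0]; linarith
    linarith
  obtain ⟨w, hwd⟩ : ∃ w, w = (aS m + p) / g := ⟨_, rfl⟩
  have h20 : 0 < m - 2 := by linarith
  have haS : 0 ≤ aS m := by
    unfold aS
    exact div_nonneg (by linarith) h20.le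
  have haS1 : aS m < 1 := by
    unfold aS
    rw [div_lt_one h20]
    linarith
  rcases h with h00' | ⟨h0, hw, hB⟩ | ⟨h0, hB⟩
  · left
    subst h00'
    exact ⟨rfl, KOf_zero m p g⟩
  · rcases h0.eq_or_lt with h00 | hApos
    · left
      subst h00
      exact ⟨rfl, KOf_zero m p g⟩
    · right
      simp only [KOf, if_pos h0]
      rw [hθ, e12, ← hwd, ← hκd]
      rw [← hwd] at hw hB
      have hd : 0 < w - (1 - aS m) := by linarith
      obtain ⟨G, hGd⟩ : ∃ G, G = κ * A1 / (w - (1 - aS m)) := ⟨_, rfl⟩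
      have hG0 : 0 < G := by rw [hGd]; positivity
      have hGw : G * (w - (1 - aS m)) = κ * A1 := by
        rw [hGd]
        field_simp
      rw [← hGd]
      have e13 : (-κ * A1 + G * (aS m - 1)) / 2 = -(G * w) / 2 := by
        rw [show -κ * A1 = -(κ * A1) by ring, ← hGw]
        ring
      have e23 : G * (aS m + p) / 2 = G * w * g / 2 := by
        rw [hwd]
        field_simp
      rw [e13, e23, det_formula]
      have a1 : 0 < 1 - ρ := by linarith
      have hFκ : F0 m * (1 + ρ) = κ / 2 * ((m + (cS m * p - 1) / g) / cS m) := by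
        have hκ' : κ = 2 * F0 m / m * cS m := by rw [hκd]; exact hκ
        rw [hκ', hρ]
        field_simp
      have hmain : 0 < F0 m * (1 + ρ) * N - G * w ^ 2 / 2 := by
        rw [hFκ, hGd]
        have : κ / 2 * ((m + (cS m * p - 1) / g) / cS m) * N
            - κ * A1 / (w - (1 - aS m)) * w ^ 2 / 2
            = κ / (2 * (w - (1 - aS m))) *
              (((m + (cS m * p - 1) / g) / cS m) * (w - (1 - aS m)) * N - A1 * w ^ 2) := by
          field_simp
        rw [this]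
        have : 0 < ((m + (cS m * p - 1) / g) / cS m) * (w - (1 - aS m)) * N - A1 * w ^ 2 := by
          linarith
        positivity
      positivity
  · right
    simp only [KOf, if_neg (not_le.mpr h0)]
    rw [hθ, e12, ← hwd, ← hκd]
    rw [← hwd] at hB
    have hb : 0 < -A1 := by linarith
    have hw0 : 0 < w := by rw [hwd]; positivity
    have hd : 0 < w + (1 - aS m) := by linarith
    obtain ⟨G, hGd⟩ : ∃ G, G = κ * (-A1) / (w + (1 - aS m)) := ⟨_, rfl⟩
    have hG0 : 0 < G := by rw [hGd]; positivity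
    have hGw : G * (w + (1 - aS m)) = κ * (-A1) := by
      rw [hGd]
      field_simp
    rw [← hGd]
    have e13 : (-κ * A1 + G * (aS m - 1)) / 2 = G * w / 2 := by
      rw [show -κ * A1 = κ * (-A1) by ring, ← hGw]
      ring
    have e23 : G * (aS m + p) / 2 = G * w * g / 2 := by
      rw [hwd]
      field_simp
    rw [e13, e23, det_formula_neg]
    have a1 : 0 < 1 + ρ := by linarith
    have hFκ : F0 m * (1 - ρ) = κ / 2 * ((m - (cS m * p - 1) / g) / cS m) := by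
      have hκ' : κ = 2 * F0 m / m * cS m := by rw [hκd]; exact hκ
      rw [hκ', hρ]
      field_simp
    have hmain : 0 < F0 m * (1 - ρ) * N - G * w ^ 2 / 2 := by
      rw [hFκ, hGd]
      have : κ / 2 * ((m - (cS m * p - 1) / g) / cS m) * N
          - κ * (-A1) / (w + (1 - aS m)) * w ^ 2 / 2
          = κ / (2 * (w + (1 - aS m))) *
            (((m - (cS m * p - 1) / g) / cS m) * (w + (1 - aS m)) * N - (-A1) * w ^ 2) := by
        field_simp
      rw [this]
      have : 0 < ((m - (cS m * p - 1) / g) / cS m) * (w + (1 - aS m)) * N - (-A1) * w ^ 2 := by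
        linarith
      positivity
    positivity

/-- The block for small `σ`. -/
lemma ev_blk_sigma_N (m p A1 g N : ℝ) (hm : 3 ≤ m) (hg : 0 < g) (hp : 0 < p)
    (hC : CondN m p A1 g N) :
    ∀ᶠ σ in 𝓝[>] (0 : ℝ),
      0 < ((1 - σ) * E0 m) * (1 + 2 / m) * (g ^ 2 * ((1 - σ) * F0 m))
        - ((2 * ((1 - σ) * F0 m) / m - (1 - 1 / m) * p) / 2) ^ 2
      ∧ ((A1 = 0 ∧ KOf m p A1 g = 0) ∨ 0 < det3 (((1 - σ) * E0 m) * (1 + 2 / m))
          ((2 * ((1 - σ) * F0 m) / m - (1 - 1 / m) * p) / 2)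
          ((-(1 - 1 / m) * A1 + KOf m p A1 g * (aS m - 1)) / 2)
          (g ^ 2 * ((1 - σ) * F0 m)) (KOf m p A1 g * (aS m + p) / 2)
          (KOf m p A1 g * N)) := by
  have h1 := pos2_of m p g hm hg hC.1
  have h2 := blkN m p A1 g N hm hg hp hC
  have b1 := ev_pos (f := fun σ => ((1 - σ) * E0 m) * (1 + 2 / m) * (g ^ 2 * ((1 - σ) * F0 m))
        - ((2 * ((1 - σ) * F0 m) / m - (1 - 1 / m) * p) / 2) ^ 2) (by fun_prop)
      (by simp only [sub_zero, one_mul]; exact h1)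
  rcases h2 with h0 | h2
  · filter_upwards [b1] with σ h
    exact ⟨h, Or.inl h0⟩
  · have b2 := ev_pos (f := fun σ => det3 (((1 - σ) * E0 m) * (1 + 2 / m))
          ((2 * ((1 - σ) * F0 m) / m - (1 - 1 / m) * p) / 2)
          ((-(1 - 1 / m) * A1 + KOf m p A1 g * (aS m - 1)) / 2)
          (g ^ 2 * ((1 - σ) * F0 m)) (KOf m p A1 g * (aS m + p) / 2)
          (KOf m p A1 g * N)) (by unfold det3; fun_prop)
        (by simp only [sub_zero, one_mul]; exact h2)
    filter_upwards [b1, b2] with σ h h'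
    exact ⟨h, Or.inr h'⟩

lemma aS_eff {n ω m : ℝ} (hn : 3 ≤ n) (hω2 : ω < 2) (hm : m = 2 * (n - ω) / (2 - ω)) :
    aS m * (2 * (n - 2)) = 2 * n - 6 + ω := by
  have h2w : 2 - ω ≠ 0 := by
    have : 0 < 2 - ω := by linarith
    exact this.ne'
  have e1 : m - 2 = 2 * (n - 2) / (2 - ω) := by
    rw [hm]; field_simp; ring
  have e2 : m - 3 = (2 * n - 6 + ω) / (2 - ω) := by
    rw [hm]; field_simp; ring
  have h3 : 2 * (n - 2) ≠ 0 := by
    have : 0 < 2 * (n - 2) := by linarith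
    exact this.ne'
  have h4 : n - 2 ≠ 0 := by
    have : 0 < n - 2 := by linarith
    exact this.ne'
  unfold aS
  rw [e1, e2]
  field_simp

/-- The exponents of the cut-off argument. -/
lemma lam_mu_ng {n a A B p q ω : ℝ} (hn : 3 ≤ n) (hω2 : ω < 2) (hp : 0 < p) (hq : 0 < q)
    (hpq : 1 < p * q) (hsub : n - 2 < (n + A) / (p + 1) + (n + B) / (q + 1))
    (haS : a * (2 * (n - 2)) = 2 * n - 6 + ω) (hnω : 4 < n + ω) :
    ∃ lam mu : ℝ, 0 ≤ lam ∧ 0 ≤ mu ∧ a = mu * q - lam ∧ a = lam * p - mu ∧ 0 < lam + mu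
      ∧ n < 2 * (lam + mu) + 4 + (A * lam + B * mu - ω) := by
  have hd : 0 < p * q - 1 := by linarith
  have hp1 : 0 < p + 1 := by linarith
  have hq1 : 0 < q + 1 := by linarith
  have h2n : 0 < n - 2 := by linarith
  have ha1 : 0 < a := by
    have h5 : 0 < a * (2 * (n - 2)) := by rw [haS]; linarith
    exact (mul_pos_iff_of_pos_right (by linarith : 0 < 2 * (n - 2))).1 h5
  have hsub' : (n - 2) * (p * q - 1) < 2 * (p + q + 2) + A * (1 + q) + B * (1 + p) := by
    have e : (n + A) / (p + 1) + (n + B) / (q + 1)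
        = ((n + A) * (q + 1) + (n + B) * (p + 1)) / ((p + 1) * (q + 1)) := by
      field_simp
    rw [e, lt_div_iff₀ (by positivity)] at hsub
    nlinarith
  refine ⟨a * (1 + q) / (p * q - 1), a * (1 + p) / (p * q - 1), by positivity, by positivity,
    ?_, ?_, ?_, ?_⟩
  · have e : a * (1 + p) / (p * q - 1) * q - a * (1 + q) / (p * q - 1)
        = a * ((p * q - 1) / (p * q - 1)) := by ring
    rw [e, div_self hd.ne', mul_one]
  · have e : a * (1 + q) / (p * q - 1) * p - a * (1 + p) / (p * q - 1)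
        = a * ((p * q - 1) / (p * q - 1)) := by ring
    rw [e, div_self hd.ne', mul_one]
  · have : 0 < a * (1 + q) + a * (1 + p) := by positivity
    rw [← add_div]
    positivity
  · have hsum : 2 * (a * (1 + q) / (p * q - 1) + a * (1 + p) / (p * q - 1)) + 4
        + (A * (a * (1 + q) / (p * q - 1)) + B * (a * (1 + p) / (p * q - 1)) - ω) =
        a * ((2 * (p + q + 2) + A * (1 + q) + B * (1 + p)) / (p * q - 1)) + 4 - ω := by
      ring
    rw [hsum]
    have h5 : n - 2 < (2 * (p + q + 2) + A * (1 + q) + B * (1 + p)) / (p * q - 1) := by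
      rw [lt_div_iff₀ hd]
      exact hsub'
    have h6 := mul_lt_mul_of_pos_left h5 ha1
    have h7 : a * (n - 2) = n - 3 + ω / 2 := by linarith
    linarith

/-- The certificate from the conditions in the dimension `m`. -/
theorem exists_ng_of_cond {n ω A B p q g m : ℝ} (hn : 3 ≤ n) (hω : 0 < ω) (hω2 : ω < 2)
    (hnω : 4 < n + ω) (hm : m = 2 * (n - ω) / (2 - ω))
    (hp : 0 < p) (hq : 0 < q) (hg : 0 < g)
    (hC1 : CondN m p (A + ω) g (A + ω + n - 2)) (hC2 : CondN m q (B + ω) g⁻¹ (B + ω + n - 2)) :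
    ∃ (co : Fin 13 → ℝ) (c0 : ℝ), 0 < c0 ∧ ∀ X : NAtoms, X.Realizable n →
      c0 * X.EW ≤ ∑ k, co k * NAtoms.DG n p q (aS m) ω A B X k := by
  have h2w : 0 < 2 - ω := by linarith
  have hmd : (m - 2) * (2 - ω) = 2 * (n - 2) := by
    rw [hm]; field_simp; ring
  have hm3 : 3 ≤ m := by
    have h1 : 0 < m - 2 := by
      by_contra hneg
      have : (m - 2) * (2 - ω) ≤ 0 := mul_nonpos_of_nonpos_of_nonneg (not_lt.mp hneg) h2w.le
      linarith
    by_contra hneg
    have h3 : m - 2 < 1 := by linarith [not_le.mp hneg]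
    have h4 : (m - 2) * (2 - ω) < 1 * (2 - ω) := mul_lt_mul_of_pos_right h3 h2w
    linarith
  have hn2 : 2 < m := by linarith
  have hn0 : 0 < m := by linarith
  have hgi : 0 < g⁻¹ := inv_pos.mpr hg
  obtain ⟨σ, ⟨h0, h1', h2', h3, h4⟩, ⟨s1, s2⟩, ⟨t1, t2⟩⟩ :=
    ((ev_sigma m hm3).and ((ev_blk_sigma_N m p (A + ω) g (A + ω + n - 2) hm3 hg hp hC1).and
      (ev_blk_sigma_N m q (B + ω) g⁻¹ (B + ω + n - 2) hm3 hgi hq hC2))).exists
  have hF0 := F0_pos hn2
  have hE0 := E0_pos hn2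
  obtain ⟨E, hE⟩ : ∃ E, E = (1 - σ) * E0 m := ⟨_, rfl⟩
  obtain ⟨F, hF⟩ : ∃ F, F = (1 - σ) * F0 m := ⟨_, rfl⟩
  simp only [← hE, ← hF] at h2' h3 h4 s1 s2 t1 t2
  have hσ : 0 < 1 - σ := by linarith
  have hEp : 0 < E := by rw [hE]; exact mul_pos hσ hE0
  have hθ : 0 < (1 + 2 / m) * E := by positivity
  have hγ : 0 < g ^ 2 := by positivity
  have hγi : g ^ 2 * (g⁻¹) ^ 2 = 1 := by
    field_simp
  have ha0 : 0 ≤ aS m := by
    unfold aS
    exact div_nonneg (by linarith) (by linarith)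
  have h1A : 0 < pA (1 - 1 / m) (aS m) E := by
    have e : pA (1 - 1 / m) (aS m) E
        = E * (3 - aS m) - 1 / 4 * (aS m - 2 - 2 * E) ^ 2 * (1 - 1 / m) := by
      unfold pA; ring
    rw [e]; exact h2'
  have h1B : pB (1 - 1 / m) (aS m) E F ^ 2
      < 4 * pA (1 - 1 / m) (aS m) E * pC (1 - 1 / m) (aS m) F := by
    have e1 : pA (1 - 1 / m) (aS m) E
        = E * (3 - aS m) - 1 / 4 * (aS m - 2 - 2 * E) ^ 2 * (1 - 1 / m) := by
      unfold pA; ring
    have e2 : pC (1 - 1 / m) (aS m) F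
        = F * (1 - aS m) - 1 / 4 * (aS m - 2 * F) ^ 2 * (1 - 1 / m) := by
      unfold pC; ring
    have e3 : pB (1 - 1 / m) (aS m) E F
        = F * (2 - aS m) - E * aS m
          - 1 / 2 * (aS m - 2 - 2 * E) * (aS m - 2 * F) * (1 - 1 / m) := by
      unfold pB; ring
    rw [e1, e2, e3]
    linarith only [h3]
  have eL : E * (1 + 2 / m) = (1 + 2 / m) * E := by ring
  have eZ1 : 2 * F / m - (1 - 1 / m) * p = (2 / m) * F - (1 - 1 / m) * p := by ring
  have eZ2 : 2 * F / m - (1 - 1 / m) * q = (2 / m) * F - (1 - 1 / m) * q := by ring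
  rw [eL, eZ1] at s1 s2
  rw [eL, eZ2] at t1 t2
  have hm' : m = 2 * (n + -ω) / (2 + -ω) := by rw [hm]; ring_nf
  obtain ⟨Γ, η, c0, hc0, hcert⟩ := exists_ngcert (n := n) (n' := m) (p := p) (q := q) (a := aS m)
    (Aw := -ω) (A1 := A + ω) (B1 := B + ω) (g := g ^ 2) (gi := (g⁻¹) ^ 2) (E1 := E) (F1 := F)
    (E2 := E) (F2 := F) (K1 := KOf m p (A + ω) g) (K2 := KOf m q (B + ω) g⁻¹)
    (by linarith) (by linarith) (by linarith) (by linarith)
    hm' ha0 hγ hγi h1A h1B h1A h1B hθ s1 s2 hθ t1 t2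
  have eA : -ω + (A + ω) = A := by ring
  have eB : -ω + (B + ω) = B := by ring
  rw [eA, eB] at hcert
  simp only [neg_neg] at hcert
  exact ⟨_, c0, hc0, hcert⟩

/-- **Nonexistence for weights of any sign**, from the conditions in the dimension `m`. -/
theorem no_solution_ng {n : ℕ} (hn : 3 ≤ n) {ω A B p q g m : ℝ} (hω : 0 < ω) (hω2 : ω < 2)
    (hnω : 4 < (n : ℝ) + ω) (hm : m = 2 * ((n : ℝ) - ω) / (2 - ω))
    (hp : 0 < p) (hq : 0 < q) (hpq : 1 < p * q) (hg : 0 < g)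
    (hsub : (n : ℝ) - 2 < ((n : ℝ) + A) / (p + 1) + ((n : ℝ) + B) / (q + 1))
    (hC1 : CondN m p (A + ω) g (A + ω + n - 2)) (hC2 : CondN m q (B + ω) g⁻¹ (B + ω + n - 2))
    {u v : Eu n → ℝ} (hucont : Continuous u) (hvcont : Continuous v)
    (hupos : ∀ x, 0 < u x) (hvpos : ∀ x, 0 < v x)
    (hu : ContDiffOn ℝ 2 u {0}ᶜ) (hv : ContDiffOn ℝ 2 v {0}ᶜ)
    (hpdeU : ∀ x, x ≠ 0 → - Laplacian.laplacian u x = ‖x‖ ^ A * v x ^ p)
    (hpdeV : ∀ x, x ≠ 0 → - Laplacian.laplacian v x = ‖x‖ ^ B * u x ^ q) : False := by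
  have hnR : (3 : ℝ) ≤ n := by exact_mod_cast hn
  obtain ⟨co, c0, hc0, hcert⟩ := exists_ng_of_cond hnR hω hω2 hnω hm hp hq hg hC1 hC2
  have haS := aS_eff hnR hω2 hm
  obtain ⟨lam, mu, hlam0, hmu0, e1, e2, hDpos, hcl⟩ := lam_mu_ng hnR hω2 hp hq hpq hsub haS hnω
  exact no_solution_of_ngcert_lap (n := n) hn (c := ω) (lam := lam) (mu := mu) hcert hc0
    hω.le e1 e2 hlam0 hmu0 hcl hnω hDpos hucont hvcont hupos hvpos hu hv hpdeU hpdeV

end Vale.Agent.Lib.P100
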