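import Vale.Agent.Lib.P100.NHPoly
import Vale.Agent.Lib.P100.NHAlg
import Vale.Agent.Lib.P100.AB.W5

/-!
# P100: unequal weights near the diagonal: the corners of the blocks.
-/

set_option linter.unusedSimpArgs false

noncomputable section

namespace Vale.Agent.Lib.P100.AB.NHF

open Vale.Agent.Lib.P100 Vale.Agent.Lib.P100.AB Vale.Agent.Lib.P100.AB.V1 Vale.Agent.Lib.P100.AB.W5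
open WCert

def hh (d : ℝ) : ℝ := d / (1 + 2 * d)
def eta2 (d : ℝ) : ℝ := d / (1 + (1/2) * d)
def ff (d t : ℝ) : ℝ := fh5 d t / (1 + 2 * d)
def LS (d t : ℝ) : ℝ := (1 + 2 * hh d) * (1 / 2 + X d t)
def LT (d t : ℝ) : ℝ := (1 + 2 * hh d) * (1 / 2 + X2 d t)
def zS0 (d t : ℝ) : ℝ := (2 * hh d * (1 / 2 - Y5 d t) - ff d t * ab d t) / 2
def zT0 (d t : ℝ) : ℝ := (2 * hh d * (1 / 2 - Y5 d t) + ff d t * bb d t) / 2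
def z1 (d : ℝ) : ℝ := -(1 - hh d) / 2
def uS0 (d t : ℝ) : ℝ := -((d / 40) * ab d t) / 2
def uT0 (d t : ℝ) : ℝ := -((d / (20 * t)) * bb d t) / 2
def yS0 (d t : ℝ) : ℝ := (1 / 2 - Y5 d t) - ff d t * bb d t
def yT0 (d t : ℝ) : ℝ := (1 / 2 - Y5 d t) + ff d t * ab d t
def wS0 (d t : ℝ) : ℝ := (d / 40) * (1 - bb d t) / 2
def wT0 (d t : ℝ) : ℝ := (d / (20 * t)) * (1 - ab d t) / 2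
def rS0 : ℝ := 1 / 80
def rT0 (t : ℝ) : ℝ := 1 / (40 * t)


lemma c_SP0 (d t : ℝ) (hd : 0 < d) (hd1 : d ≤ (1/2)) (ht : 0 < t) (ht1 : t ≤ 1) :
    0 < det3 (LS d t) (zS0 d t + z1 d * (1 / t)) (uS0 d t + z1 d * ((1/10) * d)) (yS0 d t + ff d t * (1 / t)) (wS0 d t + (ff d t / 2) * ((1/10) * d) + ((d / 40) / 2) * (1 / t)) (rS0 + (d / 40) * ((1/10) * d)) := by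
  have h1 : (1 + 2 * d) ≠ 0 := by positivity
  have h2 : (1 + t ^ 2) ≠ 0 := by positivity
  have ht0 : t ≠ 0 := ht.ne'
  have hW : (1 + (1/2) * d) ≠ 0 := by positivity
  have hp := pos_cSP0 d t hd.le hd1 ht.le ht1
  have key : det3 (LS d t) (zS0 d t + z1 d * (1 / t)) (uS0 d t + z1 d * ((1/10) * d)) (yS0 d t + ff d t * (1 / t)) (wS0 d t + (ff d t / 2) * ((1/10) * d) + ((d / 40) / 2) * (1 / t)) (rS0 + (d / 40) * ((1/10) * d))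
      = (d ^ (1:ℕ) * t ^ (0:ℕ) * ((1/160) + (1/160)*t + (1/32)*t^(2:ℕ) + (1/32)*t^(3:ℕ) + (1/16)*t^(4:ℕ) + (1/16)*t^(5:ℕ) + (1/16)*t^(6:ℕ) + (1/16)*t^(7:ℕ) + (1/32)*t^(8:ℕ) + (1/32)*t^(9:ℕ) + (1/160)*t^(10:ℕ) + (1/160)*t^(11:ℕ) + (319/12800)*d + (161/6400)*d*t + (1911/12800)*d*t^(2:ℕ) + (483/3200)*d*t^(3:ℕ) + (413/1280)*d*t^(4:ℕ) + (1047/3200)*d*t^(5:ℕ) + (411/1280)*d*t^(6:ℕ) + (131/400)*d*t^(7:ℕ) + (75/512)*d*t^(8:ℕ) + (969/6400)*d*t^(9:ℕ) + (299/12800)*d*t^(10:ℕ) + (81/3200)*d*t^(11:ℕ) + (-1/3200)*d*t^(12:ℕ) + (161/6400)*d^(2:ℕ) + (19/800)*d^(2:ℕ)*t + (1771/6400)*d^(2:ℕ)*t^(2:ℕ) + (9/32)*d^(2:ℕ)*t^(3:ℕ) + (457/640)*d^(2:ℕ)*t^(4:ℕ) + (939/1600)*d^(2:ℕ)*t^(5:ℕ) + (2053/3200)*d^(2:ℕ)*t^(6:ℕ)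 + (631/1600)*d^(2:ℕ)*t^(7:ℕ) + (1097/6400)*d^(2:ℕ)*t^(8:ℕ) + (11/320)*d^(2:ℕ)*t^(9:ℕ) + (-53/6400)*d^(2:ℕ)*t^(10:ℕ) + (-49/1600)*d^(2:ℕ)*t^(11:ℕ) + (-1/1600)*d^(2:ℕ)*t^(12:ℕ) + (-13/3200)*d^(3:ℕ)*t + (679/3200)*d^(3:ℕ)*t^(2:ℕ) + (4313/16000)*d^(3:ℕ)*t^(3:ℕ) + (13707/16000)*d^(3:ℕ)*t^(4:ℕ) + (391/1600)*d^(3:ℕ)*t^(5:ℕ) + (10831/16000)*d^(3:ℕ)*t^(6:ℕ) + (-3279/8000)*d^(3:ℕ)*t^(7:ℕ) + (11/16000)*d^(3:ℕ)*t^(8:ℕ) + (-8349/16000)*d^(3:ℕ)*t^(9:ℕ) + (-229/8000)*d^(3:ℕ)*t^(10:ℕ) + (-2259/16000)*d^(3:ℕ)*t^(11:ℕ) + (1/320)*d^(3:ℕ)*t^(12:ℕ) + (1/1600)*d^(4:ℕ) + (-1/160)*d^(4:ℕ)*t + (97/2000)*d^(4:ℕ)*t^(2:ℕ) + (-9/320)*d^(4:ℕ)*t^(3:ℕ) + (127/160)*d^(4:ℕ)*t^(4:ℕ) + (-307/500)*d^(4:ℕ)*t^(5:ℕ)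 + (5409/8000)*d^(4:ℕ)*t^(6:ℕ) + (-7237/8000)*d^(4:ℕ)*t^(7:ℕ) + (-7/64)*d^(4:ℕ)*t^(8:ℕ) + (-1409/4000)*d^(4:ℕ)*t^(9:ℕ) + (-297/8000)*d^(4:ℕ)*t^(10:ℕ) + (-159/4000)*d^(4:ℕ)*t^(11:ℕ) + (1/400)*d^(4:ℕ)*t^(12:ℕ) + (-1/800)*d^(5:ℕ) + (-3/800)*d^(5:ℕ)*t + (941/16000)*d^(5:ℕ)*t^(2:ℕ) + (-871/3200)*d^(5:ℕ)*t^(3:ℕ) + (5801/8000)*d^(5:ℕ)*t^(4:ℕ) + (-2543/3200)*d^(5:ℕ)*t^(5:ℕ) + (54791/80000)*d^(5:ℕ)*t^(6:ℕ) + (-2873/8000)*d^(5:ℕ)*t^(7:ℕ) + (-4637/20000)*d^(5:ℕ)*t^(8:ℕ) + (1251/4000)*d^(5:ℕ)*t^(9:ℕ) + (-27549/80000)*d^(5:ℕ)*t^(10:ℕ) + (233/1600)*d^(5:ℕ)*t^(11:ℕ) + (-9/3200)*d^(5:ℕ)*t^(12:ℕ) + (-33/4000)*d^(6:ℕ)*t^(2:ℕ) + (-9/4000)*d^(6:ℕ)*t^(3:ℕ) + (157/4000)*d^(6:ℕ)*t^(4:ℕ) + (-411/20000)*d^(6:ℕ)*t^(5:ℕ)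 + (-573/10000)*d^(6:ℕ)*t^(6:ℕ) + (-59/2500)*d^(6:ℕ)*t^(7:ℕ) + (-1751/10000)*d^(6:ℕ)*t^(8:ℕ) + (4579/20000)*d^(6:ℕ)*t^(9:ℕ) + (-13957/40000)*d^(6:ℕ)*t^(10:ℕ) + (937/4000)*d^(6:ℕ)*t^(11:ℕ) + (-19/1600)*d^(6:ℕ)*t^(12:ℕ) + (33/4000)*d^(7:ℕ)*t^(2:ℕ) + (-197/4000)*d^(7:ℕ)*t^(3:ℕ) + (-487/20000)*d^(7:ℕ)*t^(4:ℕ) + (1711/8000)*d^(7:ℕ)*t^(5:ℕ) + (-763/2000)*d^(7:ℕ)*t^(6:ℕ) + (13619/40000)*d^(7:ℕ)*t^(7:ℕ) + (-1991/10000)*d^(7:ℕ)*t^(8:ℕ) + (2217/20000)*d^(7:ℕ)*t^(9:ℕ) + (-1069/20000)*d^(7:ℕ)*t^(10:ℕ) + (67/2000)*d^(7:ℕ)*t^(11:ℕ) + (-1/800)*d^(7:ℕ)*t^(12:ℕ) + (9/1000)*d^(8:ℕ)*t^(3:ℕ) + (-889/20000)*d^(8:ℕ)*t^(4:ℕ) + (93/1000)*d^(8:ℕ)*t^(5:ℕ) + (-279/2500)*d^(8:ℕ)*t^(6:ℕ) + (699/10000)*d^(8:ℕ)*t^(7:ℕ)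 + (-69/20000)*d^(8:ℕ)*t^(8:ℕ) + (-151/10000)*d^(8:ℕ)*t^(9:ℕ) + (41/5000)*d^(8:ℕ)*t^(10:ℕ) + (-1/1000)*d^(8:ℕ)*t^(11:ℕ) + (3/400)*d^(8:ℕ)*t^(12:ℕ) + (-23/2000)*d^(9:ℕ)*t^(4:ℕ) + (331/10000)*d^(9:ℕ)*t^(5:ℕ) + (-209/5000)*d^(9:ℕ)*t^(6:ℕ) + (191/10000)*d^(9:ℕ)*t^(7:ℕ) + (183/10000)*d^(9:ℕ)*t^(8:ℕ) + (-21/500)*d^(9:ℕ)*t^(9:ℕ) + (223/5000)*d^(9:ℕ)*t^(10:ℕ) + (-7/250)*d^(9:ℕ)*t^(11:ℕ) + (1/100)*d^(9:ℕ)*t^(12:ℕ))) / ((1 + t ^ 2) ^ (4:ℕ) * (1 + 2 * d) ^ (3:ℕ) * t ^ (2:ℕ)) := by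
    simp only [det3, LS, LT, zS0, zT0, z1, uS0, uT0, yS0, yT0, wS0, wT0, rS0, rT0, hh, eta2, ff, ab, bb, X, X2, Y5, fh5, sg]
    field_simp
    ring
  rw [key]
  exact div_pos (mul_pos (by positivity) hp) (by positivity)

set_option maxHeartbeats 1600000 in
lemma c_SPe (d t : ℝ) (hd : 0 < d) (hd1 : d ≤ (1/2)) (ht : 0 < t) (ht1 : t ≤ 1) :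
    0 < det3 (LS d t) (zS0 d t + z1 d * ((1 + 2 * (1 + t) * eta2 d) / t)) (uS0 d t + z1 d * ((1/10) * d)) (yS0 d t + ff d t * ((1 + 2 * (1 + t) * eta2 d) / t)) (wS0 d t + (ff d t / 2) * ((1/10) * d) + ((d / 40) / 2) * ((1 + 2 * (1 + t) * eta2 d) / t)) (rS0 + (d / 40) * ((1/10) * d)) := by
  have h1 : (1 + 2 * d) ≠ 0 := by positivity
  have h2 : (1 + t ^ 2) ≠ 0 := by positivity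
  have ht0 : t ≠ 0 := ht.ne'
  have hW : (1 + (1/2) * d) ≠ 0 := by positivity
  have hp := pos_cSPe d t hd.le hd1 ht.le ht1
  have key : det3 (LS d t) (zS0 d t + z1 d * ((1 + 2 * (1 + t) * eta2 d) / t)) (uS0 d t + z1 d * ((1/10) * d)) (yS0 d t + ff d t * ((1 + 2 * (1 + t) * eta2 d) / t)) (wS0 d t + (ff d t / 2) * ((1/10) * d) + ((d / 40) / 2) * ((1 + 2 * (1 + t) * eta2 d) / t)) (rS0 + (d / 40) * ((1/10) * d))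
      = (d ^ (2:ℕ) * t ^ (0:ℕ) * ((39/12800) + (21/6400)*t + (191/12800)*t^(2:ℕ) + (53/3200)*t^(3:ℕ) + (37/1280)*t^(4:ℕ) + (107/3200)*t^(5:ℕ) + (7/256)*t^(6:ℕ) + (27/800)*t^(7:ℕ) + (31/2560)*t^(8:ℕ) + (109/6400)*t^(9:ℕ) + (19/12800)*t^(10:ℕ) + (11/3200)*t^(11:ℕ) + (-1/3200)*t^(12:ℕ) + (53/2560)*d + (91/6400)*d*t + (1733/12800)*d*t^(2:ℕ) + (187/1600)*d*t^(3:ℕ) + (2219/6400)*d*t^(4:ℕ) + (627/3200)*d*t^(5:ℕ) + (2193/6400)*d*t^(6:ℕ) + (9/80)*d*t^(7:ℕ) + (1693/12800)*d*t^(8:ℕ) + (43/1280)*d*t^(9:ℕ) + (53/2560)*d*t^(10:ℕ) + (23/1600)*d*t^(11:ℕ) + (-3/3200)*d*t^(12:ℕ) + (1631/51200)*d^(2:ℕ) + (297/25600)*d^(2:ℕ)*t + (18231/51200)*d^(2:ℕ)*t^(2:ℕ) + (22287/64000)*d^(2:ℕ)*t^(3:ℕ)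 + (159741/128000)*d^(2:ℕ)*t^(4:ℕ) + (5071/12800)*d^(2:ℕ)*t^(5:ℕ) + (151243/128000)*d^(2:ℕ)*t^(6:ℕ) + (-1229/8000)*d^(2:ℕ)*t^(7:ℕ) + (77231/256000)*d^(2:ℕ)*t^(8:ℕ) + (-29227/128000)*d^(2:ℕ)*t^(9:ℕ) + (11847/256000)*d^(2:ℕ)*t^(10:ℕ) + (-971/64000)*d^(2:ℕ)*t^(11:ℕ) + (31/12800)*d^(2:ℕ)*t^(12:ℕ) + (137/25600)*d^(3:ℕ) + (-11/640)*d^(3:ℕ)*t + (55263/128000)*d^(3:ℕ)*t^(2:ℕ) + (2347/8000)*d^(3:ℕ)*t^(3:ℕ) + (137077/64000)*d^(3:ℕ)*t^(4:ℕ) + (-2577/32000)*d^(3:ℕ)*t^(5:ℕ) + (118413/64000)*d^(3:ℕ)*t^(6:ℕ) + (-26613/32000)*d^(3:ℕ)*t^(7:ℕ) + (10797/128000)*d^(3:ℕ)*t^(8:ℕ) + (-17073/32000)*d^(3:ℕ)*t^(9:ℕ) + (-5753/128000)*d^(3:ℕ)*t^(10:ℕ) + (-119/1280)*d^(3:ℕ)*t^(11:ℕ) + (7/1280)*d^(3:ℕ)*t^(12:ℕ)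 + (-13/1600)*d^(4:ℕ) + (-421/12800)*d^(4:ℕ)*t + (5039/12800)*d^(4:ℕ)*t^(2:ℕ) + (-19259/64000)*d^(4:ℕ)*t^(3:ℕ) + (133487/64000)*d^(4:ℕ)*t^(4:ℕ) + (-34501/32000)*d^(4:ℕ)*t^(5:ℕ) + (503299/320000)*d^(4:ℕ)*t^(6:ℕ) + (-26657/32000)*d^(4:ℕ)*t^(7:ℕ) + (-109837/320000)*d^(4:ℕ)*t^(8:ℕ) + (-4769/64000)*d^(4:ℕ)*t^(9:ℕ) + (-51443/160000)*d^(4:ℕ)*t^(10:ℕ) + (-3303/64000)*d^(4:ℕ)*t^(11:ℕ) + (3/6400)*d^(4:ℕ)*t^(12:ℕ) + (-19/1280)*d^(5:ℕ) + (-133/3200)*d^(5:ℕ)*t + (4217/16000)*d^(5:ℕ)*t^(2:ℕ) + (-13331/32000)*d^(5:ℕ)*t^(3:ℕ) + (3523/3200)*d^(5:ℕ)*t^(4:ℕ) + (-59319/80000)*d^(5:ℕ)*t^(5:ℕ) + (84759/160000)*d^(5:ℕ)*t^(6:ℕ) + (-25941/160000)*d^(5:ℕ)*t^(7:ℕ) + (-82027/160000)*d^(5:ℕ)*t^(8:ℕ)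 + (24691/80000)*d^(5:ℕ)*t^(9:ℕ) + (-94491/160000)*d^(5:ℕ)*t^(10:ℕ) + (1669/16000)*d^(5:ℕ)*t^(11:ℕ) + (-9/640)*d^(5:ℕ)*t^(12:ℕ) + (-1/128)*d^(6:ℕ) + (-59/3200)*d^(6:ℕ)*t + (5001/64000)*d^(6:ℕ)*t^(2:ℕ) + (-10423/64000)*d^(6:ℕ)*t^(3:ℕ) + (38189/160000)*d^(6:ℕ)*t^(4:ℕ) + (33889/320000)*d^(6:ℕ)*t^(5:ℕ) + (-23113/64000)*d^(6:ℕ)*t^(6:ℕ) + (2461/6400)*d^(6:ℕ)*t^(7:ℕ) + (-37343/80000)*d^(6:ℕ)*t^(8:ℕ) + (25969/80000)*d^(6:ℕ)*t^(9:ℕ) + (-146549/320000)*d^(6:ℕ)*t^(10:ℕ) + (6093/32000)*d^(6:ℕ)*t^(11:ℕ) + (-177/12800)*d^(6:ℕ)*t^(12:ℕ) + (403/16000)*d^(7:ℕ)*t^(2:ℕ) + (-781/16000)*d^(7:ℕ)*t^(3:ℕ) + (-4899/80000)*d^(7:ℕ)*t^(4:ℕ) + (25279/80000)*d^(7:ℕ)*t^(5:ℕ) + (-22117/40000)*d^(7:ℕ)*t^(6:ℕ)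 + (16579/40000)*d^(7:ℕ)*t^(7:ℕ) + (-10783/40000)*d^(7:ℕ)*t^(8:ℕ) + (9059/80000)*d^(7:ℕ)*t^(9:ℕ) + (-21037/160000)*d^(7:ℕ)*t^(10:ℕ) + (1017/16000)*d^(7:ℕ)*t^(11:ℕ) + (21/6400)*d^(7:ℕ)*t^(12:ℕ) + (33/3200)*d^(8:ℕ)*t^(2:ℕ) + (-113/16000)*d^(8:ℕ)*t^(3:ℕ) + (-5003/80000)*d^(8:ℕ)*t^(4:ℕ) + (29771/160000)*d^(8:ℕ)*t^(5:ℕ) + (-10621/40000)*d^(8:ℕ)*t^(6:ℕ) + (29339/160000)*d^(8:ℕ)*t^(7:ℕ) + (-1557/40000)*d^(8:ℕ)*t^(8:ℕ) + (-3231/80000)*d^(8:ℕ)*t^(9:ℕ) + (139/3200)*d^(8:ℕ)*t^(10:ℕ) + (-49/1600)*d^(8:ℕ)*t^(11:ℕ) + (11/640)*d^(8:ℕ)*t^(12:ℕ) + (9/4000)*d^(9:ℕ)*t^(3:ℕ) + (-1809/80000)*d^(9:ℕ)*t^(4:ℕ) + (1127/20000)*d^(9:ℕ)*t^(5:ℕ) + (-697/10000)*d^(9:ℕ)*t^(6:ℕ) + (1463/40000)*d^(9:ℕ)*t^(7:ℕ)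 + (279/16000)*d^(9:ℕ)*t^(8:ℕ) + (-1831/40000)*d^(9:ℕ)*t^(9:ℕ) + (933/20000)*d^(9:ℕ)*t^(10:ℕ) + (-113/4000)*d^(9:ℕ)*t^(11:ℕ) + (19/1600)*d^(9:ℕ)*t^(12:ℕ) + (-23/8000)*d^(10:ℕ)*t^(4:ℕ) + (331/40000)*d^(10:ℕ)*t^(5:ℕ) + (-209/20000)*d^(10:ℕ)*t^(6:ℕ) + (191/40000)*d^(10:ℕ)*t^(7:ℕ) + (183/40000)*d^(10:ℕ)*t^(8:ℕ) + (-21/2000)*d^(10:ℕ)*t^(9:ℕ) + (223/20000)*d^(10:ℕ)*t^(10:ℕ) + (-7/1000)*d^(10:ℕ)*t^(11:ℕ) + (1/400)*d^(10:ℕ)*t^(12:ℕ))) / ((1 + 2 * d) ^ (3:ℕ) * t ^ (2:ℕ) * (1 + t ^ 2) ^ (4:ℕ) * (1 + (1/2) * d) ^ (2:ℕ)) := by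
    simp only [det3, LS, LT, zS0, zT0, z1, uS0, uT0, yS0, yT0, wS0, wT0, rS0, rT0, hh, eta2, ff, ab, bb, X, X2, Y5, fh5, sg]
    field_simp
    ring
  rw [key]
  exact div_pos (mul_pos (by positivity) hp) (by positivity)

lemma c_TP0 (d t : ℝ) (hd : 0 < d) (hd1 : d ≤ (1/2)) (ht : 0 < t) (ht1 : t ≤ 1) :
    0 < det3 (LT d t) (zT0 d t + z1 d * (t)) (uT0 d t + z1 d * ((1/10) * d)) (yT0 d t + (-ff d t) * (t)) (wT0 d t + (-ff d t / 2) * ((1/10) * d) + ((d / (20 * t)) / 2) * (t)) (rT0 t + (d / (20 * t)) * ((1/10) * d)) := by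
  have h1 : (1 + 2 * d) ≠ 0 := by positivity
  have h2 : (1 + t ^ 2) ≠ 0 := by positivity
  have ht0 : t ≠ 0 := ht.ne'
  have hW : (1 + (1/2) * d) ≠ 0 := by positivity
  have hp := pos_cTP0 d t hd.le hd1 ht.le ht1
  have key : det3 (LT d t) (zT0 d t + z1 d * (t)) (uT0 d t + z1 d * ((1/10) * d)) (yT0 d t + (-ff d t) * (t)) (wT0 d t + (-ff d t / 2) * ((1/10) * d) + ((d / (20 * t)) / 2) * (t)) (rT0 t + (d / (20 * t)) * ((1/10) * d))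
      = (d ^ (1:ℕ) * t ^ (0:ℕ) * ((1/80) + (1/80)*t + (1/16)*t^(2:ℕ) + (1/16)*t^(3:ℕ) + (1/8)*t^(4:ℕ) + (1/8)*t^(5:ℕ) + (1/8)*t^(6:ℕ) + (1/8)*t^(7:ℕ) + (1/16)*t^(8:ℕ) + (1/16)*t^(9:ℕ) + (1/80)*t^(10:ℕ) + (1/80)*t^(11:ℕ) + (1/20)*d + (7/160)*d*t + (987/3200)*d*t^(2:ℕ) + (449/1600)*d*t^(3:ℕ) + (2187/3200)*d*t^(4:ℕ) + (49/80)*d*t^(5:ℕ) + (1119/1600)*d*t^(6:ℕ) + (473/800)*d*t^(7:ℕ) + (531/1600)*d*t^(8:ℕ) + (199/800)*d*t^(9:ℕ) + (183/3200)*d*t^(10:ℕ) + (53/1600)*d*t^(11:ℕ) + (-1/3200)*d*t^(12:ℕ) + (-1/40)*d^(2:ℕ) + (-1/25)*d^(2:ℕ)*t + (347/1600)*d^(2:ℕ)*t^(2:ℕ) + (181/800)*d^(2:ℕ)*t^(3:ℕ) + (347/320)*d^(2:ℕ)*t^(4:ℕ) + (97/100)*d^(2:ℕ)*t^(5:ℕ) + (1227/800)*d^(2:ℕ)*t^(6:ℕ) +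 (187/200)*d^(2:ℕ)*t^(7:ℕ) + (129/160)*d^(2:ℕ)*t^(8:ℕ) + (33/200)*d^(2:ℕ)*t^(9:ℕ) + (183/1600)*d^(2:ℕ)*t^(10:ℕ) + (-53/800)*d^(2:ℕ)*t^(11:ℕ) + (-1/1600)*d^(2:ℕ)*t^(12:ℕ) + (-11/200)*d^(3:ℕ) + (-47/800)*d^(3:ℕ)*t + (-4529/16000)*d^(3:ℕ)*t^(2:ℕ) + (-23/100)*d^(3:ℕ)*t^(3:ℕ) + (681/3200)*d^(3:ℕ)*t^(4:ℕ) + (2459/8000)*d^(3:ℕ)*t^(5:ℕ) + (5457/4000)*d^(3:ℕ)*t^(6:ℕ) + (1617/8000)*d^(3:ℕ)*t^(7:ℕ) + (4391/4000)*d^(3:ℕ)*t^(8:ℕ) + (-4033/8000)*d^(3:ℕ)*t^(9:ℕ) + (2789/16000)*d^(3:ℕ)*t^(10:ℕ) + (-1821/8000)*d^(3:ℕ)*t^(11:ℕ) + (-1/16000)*d^(3:ℕ)*t^(12:ℕ) + (349/2000)*d^(4:ℕ) + (369/2000)*d^(4:ℕ)*t + (847/2000)*d^(4:ℕ)*t^(2:ℕ) + (-167/4000)*d^(4:ℕ)*t^(3:ℕ) + (-69/800)*d^(4:ℕ)*t^(4:ℕ) +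 (-587/2000)*d^(4:ℕ)*t^(5:ℕ) + (-3/100)*d^(4:ℕ)*t^(6:ℕ) + (-1259/2000)*d^(4:ℕ)*t^(7:ℕ) + (21/50)*d^(4:ℕ)*t^(8:ℕ) + (-17/25)*d^(4:ℕ)*t^(9:ℕ) + (239/2000)*d^(4:ℕ)*t^(10:ℕ) + (-471/4000)*d^(4:ℕ)*t^(11:ℕ) + (19/4000)*d^(4:ℕ)*t^(12:ℕ) + (-9/500)*d^(5:ℕ) + (-27/2000)*d^(5:ℕ)*t + (2327/5000)*d^(5:ℕ)*t^(2:ℕ) + (687/1600)*d^(5:ℕ)*t^(3:ℕ) + (48963/80000)*d^(5:ℕ)*t^(4:ℕ) + (-1911/5000)*d^(5:ℕ)*t^(5:ℕ) + (2297/16000)*d^(5:ℕ)*t^(6:ℕ) + (-1693/2500)*d^(5:ℕ)*t^(7:ℕ) + (-5683/40000)*d^(5:ℕ)*t^(8:ℕ) + (657/10000)*d^(5:ℕ)*t^(9:ℕ) + (-507/3200)*d^(5:ℕ)*t^(10:ℕ) + (4003/40000)*d^(5:ℕ)*t^(11:ℕ) + (57/16000)*d^(5:ℕ)*t^(12:ℕ) + (13/500)*d^(6:ℕ) + (23/1000)*d^(6:ℕ)*t + (-3943/10000)*d^(6:ℕ)*t^(2:ℕ)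 + (943/2500)*d^(6:ℕ)*t^(3:ℕ) + (247/40000)*d^(6:ℕ)*t^(4:ℕ) + (-1161/1250)*d^(6:ℕ)*t^(5:ℕ) + (27509/40000)*d^(6:ℕ)*t^(6:ℕ) + (-7903/10000)*d^(6:ℕ)*t^(7:ℕ) + (883/5000)*d^(6:ℕ)*t^(8:ℕ) + (859/10000)*d^(6:ℕ)*t^(9:ℕ) + (-5131/40000)*d^(6:ℕ)*t^(10:ℕ) + (1467/10000)*d^(6:ℕ)*t^(11:ℕ) + (-29/8000)*d^(6:ℕ)*t^(12:ℕ) + (31/1000)*d^(7:ℕ) + (9/250)*d^(7:ℕ)*t + (991/2000)*d^(7:ℕ)*t^(2:ℕ) + (-6781/20000)*d^(7:ℕ)*t^(3:ℕ) + (7071/16000)*d^(7:ℕ)*t^(4:ℕ) + (4823/40000)*d^(7:ℕ)*t^(5:ℕ) + (-371491/400000)*d^(7:ℕ)*t^(6:ℕ) + (35217/40000)*d^(7:ℕ)*t^(7:ℕ) + (-6453/10000)*d^(7:ℕ)*t^(8:ℕ) + (-4267/40000)*d^(7:ℕ)*t^(9:ℕ) + (58971/400000)*d^(7:ℕ)*t^(10:ℕ) + (-1499/40000)*d^(7:ℕ)*t^(11:ℕ) + (-43/3200)*d^(7:ℕ)*t^(12:ℕ)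 + (-9/250)*d^(8:ℕ) + (-353/5000)*d^(8:ℕ)*t^(2:ℕ) + (509/10000)*d^(8:ℕ)*t^(3:ℕ) + (871/10000)*d^(8:ℕ)*t^(4:ℕ) + (-1273/10000)*d^(8:ℕ)*t^(5:ℕ) + (4399/50000)*d^(8:ℕ)*t^(6:ℕ) + (-1149/10000)*d^(8:ℕ)*t^(7:ℕ) + (1277/10000)*d^(8:ℕ)*t^(8:ℕ) + (-1263/10000)*d^(8:ℕ)*t^(9:ℕ) + (3921/50000)*d^(8:ℕ)*t^(10:ℕ) + (-59/2500)*d^(8:ℕ)*t^(11:ℕ) + (-3/1000)*d^(8:ℕ)*t^(12:ℕ) + (9/250)*d^(9:ℕ)*t^(2:ℕ) + (-63/1250)*d^(9:ℕ)*t^(3:ℕ) + (139/4000)*d^(9:ℕ)*t^(4:ℕ) + (33/2000)*d^(9:ℕ)*t^(5:ℕ) + (-1483/20000)*d^(9:ℕ)*t^(6:ℕ) + (939/10000)*d^(9:ℕ)*t^(7:ℕ) + (-247/5000)*d^(9:ℕ)*t^(8:ℕ) + (-37/2000)*d^(9:ℕ)*t^(9:ℕ) + (119/4000)*d^(9:ℕ)*t^(10:ℕ) + (-7/400)*d^(9:ℕ)*t^(11:ℕ) + (1/160)*d^(9:ℕ)*t^(12:ℕ) +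 (-9/1000)*d^(10:ℕ)*t^(4:ℕ) + (63/2500)*d^(10:ℕ)*t^(5:ℕ) + (-891/25000)*d^(10:ℕ)*t^(6:ℕ) + (63/2500)*d^(10:ℕ)*t^(7:ℕ) + (-63/2500)*d^(10:ℕ)*t^(9:ℕ) + (891/25000)*d^(10:ℕ)*t^(10:ℕ) + (-63/2500)*d^(10:ℕ)*t^(11:ℕ) + (9/1000)*d^(10:ℕ)*t^(12:ℕ))) / ((1 + t ^ 2) ^ (4:ℕ) * (1 + 2 * d) ^ (3:ℕ) * t ^ (2:ℕ)) := by
    simp only [det3, LS, LT, zS0, zT0, z1, uS0, uT0, yS0, yT0, wS0, wT0, rS0, rT0, hh, eta2, ff, ab, bb, X, X2, Y5, fh5, sg]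
    field_simp
    ring
  rw [key]
  exact div_pos (mul_pos (by positivity) hp) (by positivity)

set_option maxHeartbeats 1600000 in
lemma c_TPe (d t : ℝ) (hd : 0 < d) (hd1 : d ≤ (1/2)) (ht : 0 < t) (ht1 : t ≤ 1) :
    0 < det3 (LT d t) (zT0 d t + z1 d * (t + 2 * (1 + t) * eta2 d)) (uT0 d t + z1 d * ((1/10) * d)) (yT0 d t + (-ff d t) * (t + 2 * (1 + t) * eta2 d)) (wT0 d t + (-ff d t / 2) * ((1/10) * d) + ((d / (20 * t)) / 2) * (t + 2 * (1 + t) * eta2 d)) (rT0 t + (d / (20 * t)) * ((1/10) * d)) := by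
  have h1 : (1 + 2 * d) ≠ 0 := by positivity
  have h2 : (1 + t ^ 2) ≠ 0 := by positivity
  have ht0 : t ≠ 0 := ht.ne'
  have hW : (1 + (1/2) * d) ≠ 0 := by positivity
  have hp := pos_cTPe d t hd.le hd1 ht.le ht1
  have key : det3 (LT d t) (zT0 d t + z1 d * (t + 2 * (1 + t) * eta2 d)) (uT0 d t + z1 d * ((1/10) * d)) (yT0 d t + (-ff d t) * (t + 2 * (1 + t) * eta2 d)) (wT0 d t + (-ff d t / 2) * ((1/10) * d) + ((d / (20 * t)) / 2) * (t + 2 * (1 + t) * eta2 d)) (rT0 t + (d / (20 * t)) * ((1/10) * d))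
      = (d ^ (2:ℕ) * t ^ (0:ℕ) * ((1/160) + (127/3200)*t^(2:ℕ) + (19/1600)*t^(3:ℕ) + (307/3200)*t^(4:ℕ) + (1/40)*t^(5:ℕ) + (179/1600)*t^(6:ℕ) + (3/800)*t^(7:ℕ) + (101/1600)*t^(8:ℕ) + (-1/50)*t^(9:ℕ) + (43/3200)*t^(10:ℕ) + (-17/1600)*t^(11:ℕ) + (-1/3200)*t^(12:ℕ) + (9/320)*d + (-7/1600)*d*t + (19/128)*d*t^(2:ℕ) + (91/800)*d*t^(3:ℕ) + (1701/3200)*d*t^(4:ℕ) + (287/800)*d*t^(5:ℕ) + (1307/1600)*d*t^(6:ℕ) + (53/400)*d*t^(7:ℕ) + (393/800)*d*t^(8:ℕ) + (-15/64)*d*t^(9:ℕ) + (271/3200)*d*t^(10:ℕ) + (-101/800)*d*t^(11:ℕ) + (-3/3200)*d*t^(12:ℕ) + (-1/800)*d^(2:ℕ) + (-191/3200)*d^(2:ℕ)*t + (-2821/64000)*d^(2:ℕ)*t^(2:ℕ) + (741/6400)*d^(2:ℕ)*t^(3:ℕ) + (10743/12800)*d^(2:ℕ)*t^(4:ℕ) + (549/500)*d^(2:ℕ)*t^(5:ℕ)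 + (67651/32000)*d^(2:ℕ)*t^(6:ℕ) + (5399/16000)*d^(2:ℕ)*t^(7:ℕ) + (44943/32000)*d^(2:ℕ)*t^(8:ℕ) + (-17881/16000)*d^(2:ℕ)*t^(9:ℕ) + (10991/64000)*d^(2:ℕ)*t^(10:ℕ) + (-17039/32000)*d^(2:ℕ)*t^(11:ℕ) + (-49/64000)*d^(2:ℕ)*t^(12:ℕ) + (-29/800)*d^(3:ℕ) + (-147/2000)*d^(3:ℕ)*t + (-2499/32000)*d^(3:ℕ)*t^(2:ℕ) + (-1431/16000)*d^(3:ℕ)*t^(3:ℕ) + (11469/32000)*d^(3:ℕ)*t^(4:ℕ) + (9301/8000)*d^(3:ℕ)*t^(5:ℕ) + (1111/640)*d^(3:ℕ)*t^(6:ℕ) + (-851/8000)*d^(3:ℕ)*t^(7:ℕ) + (24481/16000)*d^(3:ℕ)*t^(8:ℕ) + (-17903/8000)*d^(3:ℕ)*t^(9:ℕ) + (1273/6400)*d^(3:ℕ)*t^(10:ℕ) + (-15247/16000)*d^(3:ℕ)*t^(11:ℕ) + (29/6400)*d^(3:ℕ)*t^(12:ℕ) + (67/800)*d^(4:ℕ) + (267/3200)*d^(4:ℕ)*t + (239363/320000)*d^(4:ℕ)*t^(2:ℕ)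 + (1831/4000)*d^(4:ℕ)*t^(3:ℕ) + (105797/320000)*d^(4:ℕ)*t^(4:ℕ) + (4923/160000)*d^(4:ℕ)*t^(5:ℕ) + (63/4000)*d^(4:ℕ)*t^(6:ℕ) + (-198447/160000)*d^(4:ℕ)*t^(7:ℕ) + (34739/80000)*d^(4:ℕ)*t^(8:ℕ) + (-275613/160000)*d^(4:ℕ)*t^(9:ℕ) + (5641/64000)*d^(4:ℕ)*t^(10:ℕ) + (-102973/160000)*d^(4:ℕ)*t^(11:ℕ) + (531/64000)*d^(4:ℕ)*t^(12:ℕ) + (53/1600)*d^(5:ℕ) + (261/8000)*d^(5:ℕ)*t + (7229/40000)*d^(5:ℕ)*t^(2:ℕ) + (72063/80000)*d^(5:ℕ)*t^(3:ℕ) + (13131/20000)*d^(5:ℕ)*t^(4:ℕ) + (-46339/40000)*d^(5:ℕ)*t^(5:ℕ) + (13971/16000)*d^(5:ℕ)*t^(6:ℕ) + (-64811/40000)*d^(5:ℕ)*t^(7:ℕ) + (1249/8000)*d^(5:ℕ)*t^(8:ℕ) + (-1633/10000)*d^(5:ℕ)*t^(9:ℕ) + (-20159/80000)*d^(5:ℕ)*t^(10:ℕ) + (13287/80000)*d^(5:ℕ)*t^(11:ℕ)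 + (9/8000)*d^(5:ℕ)*t^(12:ℕ) + (-1/500)*d^(6:ℕ) + (-379/8000)*d^(6:ℕ)*t + (-11933/40000)*d^(6:ℕ)*t^(2:ℕ) + (22023/160000)*d^(6:ℕ)*t^(3:ℕ) + (109327/320000)*d^(6:ℕ)*t^(4:ℕ) + (-2129/2000)*d^(6:ℕ)*t^(5:ℕ) + (879061/1600000)*d^(6:ℕ)*t^(6:ℕ) + (-6779/20000)*d^(6:ℕ)*t^(7:ℕ) + (-8439/160000)*d^(6:ℕ)*t^(8:ℕ) + (127/320)*d^(6:ℕ)*t^(9:ℕ) + (-194571/1600000)*d^(6:ℕ)*t^(10:ℕ) + (86299/160000)*d^(6:ℕ)*t^(11:ℕ) + (-207/12800)*d^(6:ℕ)*t^(12:ℕ) + (49/2000)*d^(7:ℕ) + (43/4000)*d^(7:ℕ)*t + (1833/40000)*d^(7:ℕ)*t^(2:ℕ) + (-199/800)*d^(7:ℕ)*t^(3:ℕ) + (30029/160000)*d^(7:ℕ)*t^(4:ℕ) + (-18913/40000)*d^(7:ℕ)*t^(5:ℕ) + (-309373/800000)*d^(7:ℕ)*t^(6:ℕ) + (7997/20000)*d^(7:ℕ)*t^(7:ℕ) + (-3551/20000)*d^(7:ℕ)*t^(8:ℕ)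 + (147/5000)*d^(7:ℕ)*t^(9:ℕ) + (134543/800000)*d^(7:ℕ)*t^(10:ℕ) + (873/5000)*d^(7:ℕ)*t^(11:ℕ) + (-111/6400)*d^(7:ℕ)*t^(12:ℕ) + (31/4000)*d^(8:ℕ) + (9/200)*d^(8:ℕ)*t + (3471/40000)*d^(8:ℕ)*t^(2:ℕ) + (-1589/80000)*d^(8:ℕ)*t^(3:ℕ) + (11279/64000)*d^(8:ℕ)*t^(4:ℕ) + (-22041/160000)*d^(8:ℕ)*t^(5:ℕ) + (-285523/1600000)*d^(8:ℕ)*t^(6:ℕ) + (16673/160000)*d^(8:ℕ)*t^(7:ℕ) + (-1797/40000)*d^(8:ℕ)*t^(8:ℕ) + (-21179/160000)*d^(8:ℕ)*t^(9:ℕ) + (201003/1600000)*d^(8:ℕ)*t^(10:ℕ) + (-63/32000)*d^(8:ℕ)*t^(11:ℕ) + (-7/64000)*d^(8:ℕ)*t^(12:ℕ) + (-9/1000)*d^(9:ℕ) + (7/20000)*d^(9:ℕ)*t^(2:ℕ) + (-1219/40000)*d^(9:ℕ)*t^(3:ℕ) + (1469/40000)*d^(9:ℕ)*t^(4:ℕ) + (-37/40000)*d^(9:ℕ)*t^(5:ℕ) + (-12519/200000)*d^(9:ℕ)*t^(6:ℕ)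 + (2607/40000)*d^(9:ℕ)*t^(7:ℕ) + (-267/40000)*d^(9:ℕ)*t^(8:ℕ) + (-2579/40000)*d^(9:ℕ)*t^(9:ℕ) + (15559/200000)*d^(9:ℕ)*t^(10:ℕ) + (-153/5000)*d^(9:ℕ)*t^(11:ℕ) + (29/2000)*d^(9:ℕ)*t^(12:ℕ) + (9/1000)*d^(10:ℕ)*t^(2:ℕ) + (-63/5000)*d^(10:ℕ)*t^(3:ℕ) + (-1/3200)*d^(10:ℕ)*t^(4:ℕ) + (1173/40000)*d^(10:ℕ)*t^(5:ℕ) + (-21671/400000)*d^(10:ℕ)*t^(6:ℕ) + (1947/40000)*d^(10:ℕ)*t^(7:ℕ) + (-247/20000)*d^(10:ℕ)*t^(8:ℕ) + (-1193/40000)*d^(10:ℕ)*t^(9:ℕ) + (17231/400000)*d^(10:ℕ)*t^(10:ℕ) + (-1183/40000)*d^(10:ℕ)*t^(11:ℕ) + (169/16000)*d^(10:ℕ)*t^(12:ℕ) + (-9/4000)*d^(11:ℕ)*t^(4:ℕ) + (63/10000)*d^(11:ℕ)*t^(5:ℕ) + (-891/100000)*d^(11:ℕ)*t^(6:ℕ) + (63/10000)*d^(11:ℕ)*t^(7:ℕ) + (-63/10000)*d^(11:ℕ)*t^(9:ℕ)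 + (891/100000)*d^(11:ℕ)*t^(10:ℕ) + (-63/10000)*d^(11:ℕ)*t^(11:ℕ) + (9/4000)*d^(11:ℕ)*t^(12:ℕ))) / ((1 + 2 * d) ^ (3:ℕ) * t ^ (2:ℕ) * (1 + t ^ 2) ^ (4:ℕ) * (1 + (1/2) * d) ^ (2:ℕ)) := by
    simp only [det3, LS, LT, zS0, zT0, z1, uS0, uT0, yS0, yT0, wS0, wT0, rS0, rT0, hh, eta2, ff, ab, bb, X, X2, Y5, fh5, sg]
    field_simp
    ring
  rw [key]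
  exact div_pos (mul_pos (by positivity) hp) (by positivity)

lemma c_SM0 (d t : ℝ) (hd : 0 < d) (hd1 : d ≤ (1/2)) (ht : 0 < t) (ht1 : t ≤ 1) :
    0 < det3 (LS d t) (zS0 d t + z1 d * (1 / t)) (uS0 d t + z1 d * (-((1/10) * d))) (yS0 d t + ff d t * (1 / t)) (wS0 d t + (ff d t / 2) * (-((1/10) * d)) + ((d / 40) / 2) * (1 / t)) (rS0 + (d / 40) * (-((1/10) * d))) := by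
  have h1 : (1 + 2 * d) ≠ 0 := by positivity
  have h2 : (1 + t ^ 2) ≠ 0 := by positivity
  have ht0 : t ≠ 0 := ht.ne'
  have hW : (1 + (1/2) * d) ≠ 0 := by positivity
  have hp := pos_cSM0 d t hd.le hd1 ht.le ht1
  have key : det3 (LS d t) (zS0 d t + z1 d * (1 / t)) (uS0 d t + z1 d * (-((1/10) * d))) (yS0 d t + ff d t * (1 / t)) (wS0 d t + (ff d t / 2) * (-((1/10) * d)) + ((d / 40) / 2) * (1 / t)) (rS0 + (d / 40) * (-((1/10) * d)))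
      = (d ^ (1:ℕ) * t ^ (0:ℕ) * ((1/160) + (1/160)*t + (1/32)*t^(2:ℕ) + (1/32)*t^(3:ℕ) + (1/16)*t^(4:ℕ) + (1/16)*t^(5:ℕ) + (1/16)*t^(6:ℕ) + (1/16)*t^(7:ℕ) + (1/32)*t^(8:ℕ) + (1/32)*t^(9:ℕ) + (1/160)*t^(10:ℕ) + (1/160)*t^(11:ℕ) + (311/12800)*d + (157/6400)*d*t + (1871/12800)*d*t^(2:ℕ) + (473/3200)*d*t^(3:ℕ) + (81/256)*d*t^(4:ℕ) + (1027/3200)*d*t^(5:ℕ) + (403/1280)*d*t^(6:ℕ) + (257/800)*d*t^(7:ℕ) + (367/2560)*d*t^(8:ℕ) + (949/6400)*d*t^(9:ℕ) + (291/12800)*d*t^(10:ℕ) + (79/3200)*d*t^(11:ℕ) + (-1/3200)*d*t^(12:ℕ) + (29/1280)*d^(2:ℕ) + (17/800)*d^(2:ℕ)*t + (1667/6400)*d^(2:ℕ)*t^(2:ℕ) + (53/200)*d^(2:ℕ)*t^(3:ℕ) + (433/640)*d^(2:ℕ)*t^(4:ℕ) + (879/1600)*d^(2:ℕ)*t^(5:ℕ) + (77/128)*d^(2:ℕ)*t^(6:ℕ)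 + (567/1600)*d^(2:ℕ)*t^(7:ℕ) + (969/6400)*d^(2:ℕ)*t^(8:ℕ) + (23/1600)*d^(2:ℕ)*t^(9:ℕ) + (-77/6400)*d^(2:ℕ)*t^(10:ℕ) + (-11/320)*d^(2:ℕ)*t^(11:ℕ) + (-1/1600)*d^(2:ℕ)*t^(12:ℕ) + (-1/200)*d^(3:ℕ) + (-21/3200)*d^(3:ℕ)*t + (549/3200)*d^(3:ℕ)*t^(2:ℕ) + (3669/16000)*d^(3:ℕ)*t^(3:ℕ) + (12053/16000)*d^(3:ℕ)*t^(4:ℕ) + (567/4000)*d^(3:ℕ)*t^(5:ℕ) + (9049/16000)*d^(3:ℕ)*t^(6:ℕ) + (-81/160)*d^(3:ℕ)*t^(7:ℕ) + (-791/16000)*d^(3:ℕ)*t^(8:ℕ) + (-8883/16000)*d^(3:ℕ)*t^(9:ℕ) + (-281/8000)*d^(3:ℕ)*t^(10:ℕ) + (-2289/16000)*d^(3:ℕ)*t^(11:ℕ) + (1/320)*d^(3:ℕ)*t^(12:ℕ) + (-7/1600)*d^(4:ℕ) + (-1/160)*d^(4:ℕ)*t + (-17/1000)*d^(4:ℕ)*t^(2:ℕ) + (-761/8000)*d^(4:ℕ)*t^(3:ℕ) + (609/1000)*d^(4:ℕ)*t^(4:ℕ)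 + (-1483/2000)*d^(4:ℕ)*t^(5:ℕ) + (3999/8000)*d^(4:ℕ)*t^(6:ℕ) + (-7509/8000)*d^(4:ℕ)*t^(7:ℕ) + (-1237/8000)*d^(4:ℕ)*t^(8:ℕ) + (-1223/4000)*d^(4:ℕ)*t^(9:ℕ) + (-243/8000)*d^(4:ℕ)*t^(10:ℕ) + (-79/4000)*d^(4:ℕ)*t^(11:ℕ) + (1/400)*d^(4:ℕ)*t^(12:ℕ) + (-1/800)*d^(5:ℕ) + (-3/800)*d^(5:ℕ)*t + (189/16000)*d^(5:ℕ)*t^(2:ℕ) + (-5519/16000)*d^(5:ℕ)*t^(3:ℕ) + (4193/8000)*d^(5:ℕ)*t^(4:ℕ) + (-2579/3200)*d^(5:ℕ)*t^(5:ℕ) + (43111/80000)*d^(5:ℕ)*t^(6:ℕ) + (-1147/8000)*d^(5:ℕ)*t^(7:ℕ) + (-4107/20000)*d^(5:ℕ)*t^(8:ℕ) + (497/1000)*d^(5:ℕ)*t^(9:ℕ) + (-26069/80000)*d^(5:ℕ)*t^(10:ℕ) + (281/1600)*d^(5:ℕ)*t^(11:ℕ) + (-9/3200)*d^(5:ℕ)*t^(12:ℕ) + (-41/4000)*d^(6:ℕ)*t^(2:ℕ) + (37/4000)*d^(6:ℕ)*t^(3:ℕ)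 + (-123/800)*d^(6:ℕ)*t^(4:ℕ) + (2959/20000)*d^(6:ℕ)*t^(5:ℕ) + (-98/625)*d^(6:ℕ)*t^(6:ℕ) + (2019/10000)*d^(6:ℕ)*t^(7:ℕ) + (-273/5000)*d^(6:ℕ)*t^(8:ℕ) + (5749/20000)*d^(6:ℕ)*t^(9:ℕ) + (-12797/40000)*d^(6:ℕ)*t^(10:ℕ) + (897/4000)*d^(6:ℕ)*t^(11:ℕ) + (-19/1600)*d^(6:ℕ)*t^(12:ℕ) + (-7/4000)*d^(7:ℕ)*t^(2:ℕ) + (211/4000)*d^(7:ℕ)*t^(3:ℕ) + (-4573/20000)*d^(7:ℕ)*t^(4:ℕ) + (16453/40000)*d^(7:ℕ)*t^(5:ℕ) + (-4951/10000)*d^(7:ℕ)*t^(6:ℕ) + (12277/40000)*d^(7:ℕ)*t^(7:ℕ) + (-277/5000)*d^(7:ℕ)*t^(8:ℕ) + (-1363/20000)*d^(7:ℕ)*t^(9:ℕ) + (731/20000)*d^(7:ℕ)*t^(10:ℕ) + (-33/2000)*d^(7:ℕ)*t^(11:ℕ) + (-1/800)*d^(7:ℕ)*t^(12:ℕ) + (9/1000)*d^(8:ℕ)*t^(3:ℕ) + (-691/20000)*d^(8:ℕ)*t^(4:ℕ) + (38/625)*d^(8:ℕ)*t^(5:ℕ)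 + (-329/5000)*d^(8:ℕ)*t^(6:ℕ) + (277/10000)*d^(8:ℕ)*t^(7:ℕ) + (409/20000)*d^(8:ℕ)*t^(8:ℕ) + (-651/10000)*d^(8:ℕ)*t^(9:ℕ) + (321/5000)*d^(8:ℕ)*t^(10:ℕ) + (-41/1000)*d^(8:ℕ)*t^(11:ℕ) + (3/400)*d^(8:ℕ)*t^(12:ℕ) + (3/2000)*d^(9:ℕ)*t^(4:ℕ) + (-51/10000)*d^(9:ℕ)*t^(5:ℕ) + (61/5000)*d^(9:ℕ)*t^(6:ℕ) + (-191/10000)*d^(9:ℕ)*t^(7:ℕ) + (313/10000)*d^(9:ℕ)*t^(8:ℕ) + (-21/500)*d^(9:ℕ)*t^(9:ℕ) + (223/5000)*d^(9:ℕ)*t^(10:ℕ) + (-7/250)*d^(9:ℕ)*t^(11:ℕ) + (1/100)*d^(9:ℕ)*t^(12:ℕ))) / ((1 + t ^ 2) ^ (4:ℕ) * (1 + 2 * d) ^ (3:ℕ) * t ^ (2:ℕ)) := by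
    simp only [det3, LS, LT, zS0, zT0, z1, uS0, uT0, yS0, yT0, wS0, wT0, rS0, rT0, hh, eta2, ff, ab, bb, X, X2, Y5, fh5, sg]
    field_simp
    ring
  rw [key]
  exact div_pos (mul_pos (by positivity) hp) (by positivity)

set_option maxHeartbeats 1600000 in
lemma c_SMe (d t : ℝ) (hd : 0 < d) (hd1 : d ≤ (1/2)) (ht : 0 < t) (ht1 : t ≤ 1) :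
    0 < det3 (LS d t) (zS0 d t + z1 d * ((1 + 2 * (1 + t) * eta2 d) / t)) (uS0 d t + z1 d * (-((1/10) * d))) (yS0 d t + ff d t * ((1 + 2 * (1 + t) * eta2 d) / t)) (wS0 d t + (ff d t / 2) * (-((1/10) * d)) + ((d / 40) / 2) * ((1 + 2 * (1 + t) * eta2 d) / t)) (rS0 + (d / 40) * (-((1/10) * d))) := by
  have h1 : (1 + 2 * d) ≠ 0 := by positivity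
  have h2 : (1 + t ^ 2) ≠ 0 := by positivity
  have ht0 : t ≠ 0 := ht.ne'
  have hW : (1 + (1/2) * d) ≠ 0 := by positivity
  have hp := pos_cSMe d t hd.le hd1 ht.le ht1
  have key : det3 (LS d t) (zS0 d t + z1 d * ((1 + 2 * (1 + t) * eta2 d) / t)) (uS0 d t + z1 d * (-((1/10) * d))) (yS0 d t + ff d t * ((1 + 2 * (1 + t) * eta2 d) / t)) (wS0 d t + (ff d t / 2) * (-((1/10) * d)) + ((d / 40) / 2) * ((1 + 2 * (1 + t) * eta2 d) / t)) (rS0 + (d / 40) * (-((1/10) * d)))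
      = (d ^ (2:ℕ) * t ^ (0:ℕ) * ((31/12800) + (17/6400)*t + (151/12800)*t^(2:ℕ) + (43/3200)*t^(3:ℕ) + (29/1280)*t^(4:ℕ) + (87/3200)*t^(5:ℕ) + (27/1280)*t^(6:ℕ) + (11/400)*t^(7:ℕ) + (23/2560)*t^(8:ℕ) + (89/6400)*t^(9:ℕ) + (11/12800)*t^(10:ℕ) + (9/3200)*t^(11:ℕ) + (-1/3200)*t^(12:ℕ) + (209/12800)*d + (47/6400)*d*t + (281/2560)*d*t^(2:ℕ) + (67/800)*d*t^(3:ℕ) + (1859/6400)*d*t^(4:ℕ) + (431/3200)*d*t^(5:ℕ) + (1817/6400)*d*t^(6:ℕ) + (47/800)*d*t^(7:ℕ) + (1317/12800)*d*t^(8:ℕ) + (3/256)*d*t^(9:ℕ) + (193/12800)*d*t^(10:ℕ) + (9/800)*d*t^(11:ℕ) + (-3/3200)*d*t^(12:ℕ) + (951/51200)*d^(2:ℕ) + (-331/25600)*d^(2:ℕ)*t + (13711/51200)*d^(2:ℕ)*t^(2:ℕ) + (14341/64000)*d^(2:ℕ)*t^(3:ℕ) +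 (133669/128000)*d^(2:ℕ)*t^(4:ℕ) + (11247/64000)*d^(2:ℕ)*t^(5:ℕ) + (124467/128000)*d^(2:ℕ)*t^(6:ℕ) + (-41/128)*d^(2:ℕ)*t^(7:ℕ) + (53159/256000)*d^(2:ℕ)*t^(8:ℕ) + (-35119/128000)*d^(2:ℕ)*t^(9:ℕ) + (8383/256000)*d^(2:ℕ)*t^(10:ℕ) + (-981/64000)*d^(2:ℕ)*t^(11:ℕ) + (31/12800)*d^(2:ℕ)*t^(12:ℕ) + (-91/5120)*d^(3:ℕ) + (-189/3200)*d^(3:ℕ)*t + (33479/128000)*d^(3:ℕ)*t^(2:ℕ) + (1081/16000)*d^(3:ℕ)*t^(3:ℕ) + (110949/64000)*d^(3:ℕ)*t^(4:ℕ) + (-13913/32000)*d^(3:ℕ)*t^(5:ℕ) + (93141/64000)*d^(3:ℕ)*t^(6:ℕ) + (-32537/32000)*d^(3:ℕ)*t^(7:ℕ) + (-7139/128000)*d^(3:ℕ)*t^(8:ℕ) + (-17117/32000)*d^(3:ℕ)*t^(9:ℕ) + (-6577/128000)*d^(3:ℕ)*t^(10:ℕ) + (-509/6400)*d^(3:ℕ)*t^(11:ℕ) + (7/1280)*d^(3:ℕ)*t^(12:ℕ)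 + (-47/1600)*d^(4:ℕ) + (-877/12800)*d^(4:ℕ)*t + (13241/64000)*d^(4:ℕ)*t^(2:ℕ) + (-34463/64000)*d^(4:ℕ)*t^(3:ℕ) + (99681/64000)*d^(4:ℕ)*t^(4:ℕ) + (-21063/16000)*d^(4:ℕ)*t^(5:ℕ) + (357629/320000)*d^(4:ℕ)*t^(6:ℕ) + (-1461/2000)*d^(4:ℕ)*t^(7:ℕ) + (-133247/320000)*d^(4:ℕ)*t^(8:ℕ) + (5329/64000)*d^(4:ℕ)*t^(9:ℕ) + (-48343/160000)*d^(4:ℕ)*t^(10:ℕ) + (-2093/64000)*d^(4:ℕ)*t^(11:ℕ) + (3/6400)*d^(4:ℕ)*t^(12:ℕ) + (-27/1280)*d^(5:ℕ) + (-33/640)*d^(5:ℕ)*t + (503/3200)*d^(5:ℕ)*t^(2:ℕ) + (-3391/6400)*d^(5:ℕ)*t^(3:ℕ) + (2259/4000)*d^(5:ℕ)*t^(4:ℕ) + (-53329/80000)*d^(5:ℕ)*t^(5:ℕ) + (25949/160000)*d^(5:ℕ)*t^(6:ℕ) + (34659/160000)*d^(5:ℕ)*t^(7:ℕ) + (-61437/160000)*d^(5:ℕ)*t^(8:ℕ) + (41241/80000)*d^(5:ℕ)*t^(9:ℕ)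 + (-84861/160000)*d^(5:ℕ)*t^(10:ℕ) + (1769/16000)*d^(5:ℕ)*t^(11:ℕ) + (-9/640)*d^(5:ℕ)*t^(12:ℕ) + (-1/128)*d^(6:ℕ) + (-59/3200)*d^(6:ℕ)*t + (1737/64000)*d^(6:ℕ)*t^(2:ℕ) + (-4403/64000)*d^(6:ℕ)*t^(3:ℕ) + (-37939/160000)*d^(6:ℕ)*t^(4:ℕ) + (138653/320000)*d^(6:ℕ)*t^(5:ℕ) + (-189277/320000)*d^(6:ℕ)*t^(6:ℕ) + (94427/160000)*d^(6:ℕ)*t^(7:ℕ) + (-14537/80000)*d^(6:ℕ)*t^(8:ℕ) + (10877/40000)*d^(6:ℕ)*t^(9:ℕ) + (-108909/320000)*d^(6:ℕ)*t^(10:ℕ) + (5293/32000)*d^(6:ℕ)*t^(11:ℕ) + (-177/12800)*d^(6:ℕ)*t^(12:ℕ) + (-221/16000)*d^(7:ℕ)*t^(2:ℕ) + (213/3200)*d^(7:ℕ)*t^(3:ℕ) + (-23631/80000)*d^(7:ℕ)*t^(4:ℕ) + (39509/80000)*d^(7:ℕ)*t^(5:ℕ) + (-5651/10000)*d^(7:ℕ)*t^(6:ℕ) + (899/2500)*d^(7:ℕ)*t^(7:ℕ)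 + (-1007/20000)*d^(7:ℕ)*t^(8:ℕ) + (-3331/80000)*d^(7:ℕ)*t^(9:ℕ) + (-37/160000)*d^(7:ℕ)*t^(10:ℕ) + (417/16000)*d^(7:ℕ)*t^(11:ℕ) + (21/6400)*d^(7:ℕ)*t^(12:ℕ) + (-7/3200)*d^(8:ℕ)*t^(2:ℕ) + (359/16000)*d^(8:ℕ)*t^(3:ℕ) + (-6937/80000)*d^(8:ℕ)*t^(4:ℕ) + (4961/32000)*d^(8:ℕ)*t^(5:ℕ) + (-1313/8000)*d^(8:ℕ)*t^(6:ℕ) + (13213/160000)*d^(8:ℕ)*t^(7:ℕ) + (419/10000)*d^(8:ℕ)*t^(8:ℕ) + (-9051/80000)*d^(8:ℕ)*t^(9:ℕ) + (1823/16000)*d^(8:ℕ)*t^(10:ℕ) + (-101/1600)*d^(8:ℕ)*t^(11:ℕ) + (11/640)*d^(8:ℕ)*t^(12:ℕ) + (9/4000)*d^(9:ℕ)*t^(3:ℕ) + (-571/80000)*d^(9:ℕ)*t^(4:ℕ) + (101/10000)*d^(9:ℕ)*t^(5:ℕ) + (-17/4000)*d^(9:ℕ)*t^(6:ℕ) + (-487/40000)*d^(9:ℕ)*t^(7:ℕ) + (2913/80000)*d^(9:ℕ)*t^(8:ℕ) + (-2331/40000)*d^(9:ℕ)*t^(9:ℕ)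 + (1213/20000)*d^(9:ℕ)*t^(10:ℕ) + (-153/4000)*d^(9:ℕ)*t^(11:ℕ) + (19/1600)*d^(9:ℕ)*t^(12:ℕ) + (3/8000)*d^(10:ℕ)*t^(4:ℕ) + (-51/40000)*d^(10:ℕ)*t^(5:ℕ) + (61/20000)*d^(10:ℕ)*t^(6:ℕ) + (-191/40000)*d^(10:ℕ)*t^(7:ℕ) + (313/40000)*d^(10:ℕ)*t^(8:ℕ) + (-21/2000)*d^(10:ℕ)*t^(9:ℕ) + (223/20000)*d^(10:ℕ)*t^(10:ℕ) + (-7/1000)*d^(10:ℕ)*t^(11:ℕ) + (1/400)*d^(10:ℕ)*t^(12:ℕ))) / ((1 + 2 * d) ^ (3:ℕ) * t ^ (2:ℕ) * (1 + t ^ 2) ^ (4:ℕ) * (1 + (1/2) * d) ^ (2:ℕ)) := by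
    simp only [det3, LS, LT, zS0, zT0, z1, uS0, uT0, yS0, yT0, wS0, wT0, rS0, rT0, hh, eta2, ff, ab, bb, X, X2, Y5, fh5, sg]
    field_simp
    ring
  rw [key]
  exact div_pos (mul_pos (by positivity) hp) (by positivity)

lemma c_TM0 (d t : ℝ) (hd : 0 < d) (hd1 : d ≤ (1/2)) (ht : 0 < t) (ht1 : t ≤ 1) :
    0 < det3 (LT d t) (zT0 d t + z1 d * (t)) (uT0 d t + z1 d * (-((1/10) * d))) (yT0 d t + (-ff d t) * (t)) (wT0 d t + (-ff d t / 2) * (-((1/10) * d)) + ((d / (20 * t)) / 2) * (t)) (rT0 t + (d / (20 * t)) * (-((1/10) * d))) := by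
  have h1 : (1 + 2 * d) ≠ 0 := by positivity
  have h2 : (1 + t ^ 2) ≠ 0 := by positivity
  have ht0 : t ≠ 0 := ht.ne'
  have hW : (1 + (1/2) * d) ≠ 0 := by positivity
  have hp := pos_cTM0 d t hd.le hd1 ht.le ht1
  have key : det3 (LT d t) (zT0 d t + z1 d * (t)) (uT0 d t + z1 d * (-((1/10) * d))) (yT0 d t + (-ff d t) * (t)) (wT0 d t + (-ff d t / 2) * (-((1/10) * d)) + ((d / (20 * t)) / 2) * (t)) (rT0 t + (d / (20 * t)) * (-((1/10) * d)))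
      = (d ^ (1:ℕ) * t ^ (0:ℕ) * ((1/80) + (1/80)*t + (1/16)*t^(2:ℕ) + (1/16)*t^(3:ℕ) + (1/8)*t^(4:ℕ) + (1/8)*t^(5:ℕ) + (1/8)*t^(6:ℕ) + (1/8)*t^(7:ℕ) + (1/16)*t^(8:ℕ) + (1/16)*t^(9:ℕ) + (1/80)*t^(10:ℕ) + (1/80)*t^(11:ℕ) + (39/800)*d + (17/400)*d*t + (967/3200)*d*t^(2:ℕ) + (439/1600)*d*t^(3:ℕ) + (2147/3200)*d*t^(4:ℕ) + (3/5)*d*t^(5:ℕ) + (1099/1600)*d*t^(6:ℕ) + (463/800)*d*t^(7:ℕ) + (521/1600)*d*t^(8:ℕ) + (97/400)*d*t^(9:ℕ) + (179/3200)*d*t^(10:ℕ) + (51/1600)*d*t^(11:ℕ) + (-1/3200)*d*t^(12:ℕ) + (-13/400)*d^(2:ℕ) + (-19/400)*d^(2:ℕ)*t + (283/1600)*d^(2:ℕ)*t^(2:ℕ) + (149/800)*d^(2:ℕ)*t^(3:ℕ) + (1607/1600)*d^(2:ℕ)*t^(4:ℕ) + (89/100)*d^(2:ℕ)*t^(5:ℕ) + (1167/800)*d^(2:ℕ)*t^(6:ℕ)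 + (43/50)*d^(2:ℕ)*t^(7:ℕ) + (619/800)*d^(2:ℕ)*t^(8:ℕ) + (53/400)*d^(2:ℕ)*t^(9:ℕ) + (7/64)*d^(2:ℕ)*t^(10:ℕ) + (-57/800)*d^(2:ℕ)*t^(11:ℕ) + (-1/1600)*d^(2:ℕ)*t^(12:ℕ) + (-249/4000)*d^(3:ℕ) + (-71/1000)*d^(3:ℕ)*t + (-5761/16000)*d^(3:ℕ)*t^(2:ℕ) + (-259/800)*d^(3:ℕ)*t^(3:ℕ) + (81/16000)*d^(3:ℕ)*t^(4:ℕ) + (33/320)*d^(3:ℕ)*t^(5:ℕ) + (2281/2000)*d^(3:ℕ)*t^(6:ℕ) + (31/1600)*d^(3:ℕ)*t^(7:ℕ) + (4007/4000)*d^(3:ℕ)*t^(8:ℕ) + (-913/1600)*d^(3:ℕ)*t^(9:ℕ) + (21/128)*d^(3:ℕ)*t^(10:ℕ) + (-1873/8000)*d^(3:ℕ)*t^(11:ℕ) + (-1/16000)*d^(3:ℕ)*t^(12:ℕ) + (373/2000)*d^(4:ℕ) + (197/1000)*d^(4:ℕ)*t + (849/2000)*d^(4:ℕ)*t^(2:ℕ) + (-389/4000)*d^(4:ℕ)*t^(3:ℕ) + (-1113/4000)*d^(4:ℕ)*t^(4:ℕ) + (-257/500)*d^(4:ℕ)*t^(5:ℕ)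 + (-403/1000)*d^(4:ℕ)*t^(6:ℕ) + (-823/1000)*d^(4:ℕ)*t^(7:ℕ) + (97/500)*d^(4:ℕ)*t^(8:ℕ) + (-71/100)*d^(4:ℕ)*t^(9:ℕ) + (171/2000)*d^(4:ℕ)*t^(10:ℕ) + (-427/4000)*d^(4:ℕ)*t^(11:ℕ) + (19/4000)*d^(4:ℕ)*t^(12:ℕ) + (-23/1000)*d^(5:ℕ) + (-31/2000)*d^(5:ℕ)*t + (11187/20000)*d^(5:ℕ)*t^(2:ℕ) + (19231/40000)*d^(5:ℕ)*t^(3:ℕ) + (55167/80000)*d^(5:ℕ)*t^(4:ℕ) + (-7371/20000)*d^(5:ℕ)*t^(5:ℕ) + (-7503/80000)*d^(5:ℕ)*t^(6:ℕ) + (-12387/20000)*d^(5:ℕ)*t^(7:ℕ) + (-3429/8000)*d^(5:ℕ)*t^(8:ℕ) + (3981/20000)*d^(5:ℕ)*t^(9:ℕ) + (-18323/80000)*d^(5:ℕ)*t^(10:ℕ) + (5433/40000)*d^(5:ℕ)*t^(11:ℕ) + (57/16000)*d^(5:ℕ)*t^(12:ℕ) + (-1/100)*d^(6:ℕ) + (-49/1000)*d^(6:ℕ)*t + (-337/625)*d^(6:ℕ)*t^(2:ℕ) + (3487/10000)*d^(6:ℕ)*t^(3:ℕ)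 + (2483/40000)*d^(6:ℕ)*t^(4:ℕ) + (-4293/5000)*d^(6:ℕ)*t^(5:ℕ) + (36697/40000)*d^(6:ℕ)*t^(6:ℕ) + (-383/625)*d^(6:ℕ)*t^(7:ℕ) + (2027/10000)*d^(6:ℕ)*t^(8:ℕ) + (2487/10000)*d^(6:ℕ)*t^(9:ℕ) + (-6683/40000)*d^(6:ℕ)*t^(10:ℕ) + (1587/10000)*d^(6:ℕ)*t^(11:ℕ) + (-29/8000)*d^(6:ℕ)*t^(12:ℕ) + (31/1000)*d^(7:ℕ) + (9/250)*d^(7:ℕ)*t + (557/2000)*d^(7:ℕ)*t^(2:ℕ) + (-2111/4000)*d^(7:ℕ)*t^(3:ℕ) + (4399/16000)*d^(7:ℕ)*t^(4:ℕ) + (679/8000)*d^(7:ℕ)*t^(5:ℕ) + (-278651/400000)*d^(7:ℕ)*t^(6:ℕ) + (37317/40000)*d^(7:ℕ)*t^(7:ℕ) + (-252/625)*d^(7:ℕ)*t^(8:ℕ) + (-7127/40000)*d^(7:ℕ)*t^(9:ℕ) + (82971/400000)*d^(7:ℕ)*t^(10:ℕ) + (-2499/40000)*d^(7:ℕ)*t^(11:ℕ) + (-43/3200)*d^(7:ℕ)*t^(12:ℕ) + (-9/250)*d^(8:ℕ)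 + (353/5000)*d^(8:ℕ)*t^(2:ℕ) + (-1029/10000)*d^(8:ℕ)*t^(3:ℕ) + (579/10000)*d^(8:ℕ)*t^(4:ℕ) + (1287/10000)*d^(8:ℕ)*t^(5:ℕ) + (-9161/50000)*d^(8:ℕ)*t^(6:ℕ) + (173/2000)*d^(8:ℕ)*t^(7:ℕ) + (1133/10000)*d^(8:ℕ)*t^(8:ℕ) + (-2347/10000)*d^(8:ℕ)*t^(9:ℕ) + (8241/50000)*d^(8:ℕ)*t^(10:ℕ) + (-149/2500)*d^(8:ℕ)*t^(11:ℕ) + (-3/1000)*d^(8:ℕ)*t^(12:ℕ) + (-9/250)*d^(9:ℕ)*t^(2:ℕ) + (63/1250)*d^(9:ℕ)*t^(3:ℕ) + (-149/4000)*d^(9:ℕ)*t^(4:ℕ) + (-19/2000)*d^(9:ℕ)*t^(5:ℕ) + (297/4000)*d^(9:ℕ)*t^(6:ℕ) + (-1149/10000)*d^(9:ℕ)*t^(7:ℕ) + (99/1000)*d^(9:ℕ)*t^(8:ℕ) + (-89/2000)*d^(9:ℕ)*t^(9:ℕ) + (119/4000)*d^(9:ℕ)*t^(10:ℕ) + (-7/400)*d^(9:ℕ)*t^(11:ℕ) + (1/160)*d^(9:ℕ)*t^(12:ℕ) + (-9/1000)*d^(10:ℕ)*t^(4:ℕ)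 + (63/2500)*d^(10:ℕ)*t^(5:ℕ) + (-891/25000)*d^(10:ℕ)*t^(6:ℕ) + (63/2500)*d^(10:ℕ)*t^(7:ℕ) + (-63/2500)*d^(10:ℕ)*t^(9:ℕ) + (891/25000)*d^(10:ℕ)*t^(10:ℕ) + (-63/2500)*d^(10:ℕ)*t^(11:ℕ) + (9/1000)*d^(10:ℕ)*t^(12:ℕ))) / ((1 + t ^ 2) ^ (4:ℕ) * (1 + 2 * d) ^ (3:ℕ) * t ^ (2:ℕ)) := by
    simp only [det3, LS, LT, zS0, zT0, z1, uS0, uT0, yS0, yT0, wS0, wT0, rS0, rT0, hh, eta2, ff, ab, bb, X, X2, Y5, fh5, sg]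
    field_simp
    ring
  rw [key]
  exact div_pos (mul_pos (by positivity) hp) (by positivity)

set_option maxHeartbeats 1600000 in
lemma c_TMe (d t : ℝ) (hd : 0 < d) (hd1 : d ≤ (1/2)) (ht : 0 < t) (ht1 : t ≤ 1) :
    0 < det3 (LT d t) (zT0 d t + z1 d * (t + 2 * (1 + t) * eta2 d)) (uT0 d t + z1 d * (-((1/10) * d))) (yT0 d t + (-ff d t) * (t + 2 * (1 + t) * eta2 d)) (wT0 d t + (-ff d t / 2) * (-((1/10) * d)) + ((d / (20 * t)) / 2) * (t + 2 * (1 + t) * eta2 d)) (rT0 t + (d / (20 * t)) * (-((1/10) * d))) := by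
  have h1 : (1 + 2 * d) ≠ 0 := by positivity
  have h2 : (1 + t ^ 2) ≠ 0 := by positivity
  have ht0 : t ≠ 0 := ht.ne'
  have hW : (1 + (1/2) * d) ≠ 0 := by positivity
  have hp := pos_cTMe d t hd.le hd1 ht.le ht1
  have key : det3 (LT d t) (zT0 d t + z1 d * (t + 2 * (1 + t) * eta2 d)) (uT0 d t + z1 d * (-((1/10) * d))) (yT0 d t + (-ff d t) * (t + 2 * (1 + t) * eta2 d)) (wT0 d t + (-ff d t / 2) * (-((1/10) * d)) + ((d / (20 * t)) / 2) * (t + 2 * (1 + t) * eta2 d)) (rT0 t + (d / (20 * t)) * (-((1/10) * d)))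
      = (d ^ (2:ℕ) * t ^ (0:ℕ) * ((1/200) + (-1/800)*t + (107/3200)*t^(2:ℕ) + (9/1600)*t^(3:ℕ) + (267/3200)*t^(4:ℕ) + (1/80)*t^(5:ℕ) + (159/1600)*t^(6:ℕ) + (-7/800)*t^(7:ℕ) + (91/1600)*t^(8:ℕ) + (-21/800)*t^(9:ℕ) + (39/3200)*t^(10:ℕ) + (-19/1600)*t^(11:ℕ) + (-1/3200)*t^(12:ℕ) + (7/320)*d + (-1/64)*d*t + (67/640)*d*t^(2:ℕ) + (11/200)*d*t^(3:ℕ) + (1357/3200)*d*t^(4:ℕ) + (193/800)*d*t^(5:ℕ) + (1111/1600)*d*t^(6:ℕ) + (1/50)*d*t^(7:ℕ) + (17/40)*d*t^(8:ℕ) + (-457/1600)*d*t^(9:ℕ) + (227/3200)*d*t^(10:ℕ) + (-27/200)*d*t^(11:ℕ) + (-3/3200)*d*t^(12:ℕ) + (-81/16000)*d^(2:ℕ) + (-43/500)*d^(2:ℕ)*t + (-9369/64000)*d^(2:ℕ)*t^(2:ℕ) + (-421/6400)*d^(2:ℕ)*t^(3:ℕ) + (31419/64000)*d^(2:ℕ)*t^(4:ℕ)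 + (1117/1600)*d^(2:ℕ)*t^(5:ℕ) + (52951/32000)*d^(2:ℕ)*t^(6:ℕ) + (-147/3200)*d^(2:ℕ)*t^(7:ℕ) + (36501/32000)*d^(2:ℕ)*t^(8:ℕ) + (-2047/1600)*d^(2:ℕ)*t^(9:ℕ) + (1503/12800)*d^(2:ℕ)*t^(10:ℕ) + (-17777/32000)*d^(2:ℕ)*t^(11:ℕ) + (-49/64000)*d^(2:ℕ)*t^(12:ℕ) + (-271/8000)*d^(3:ℕ) + (-133/1600)*d^(3:ℕ)*t + (-5427/32000)*d^(3:ℕ)*t^(2:ℕ) + (-5203/16000)*d^(3:ℕ)*t^(3:ℕ) + (-4763/32000)*d^(3:ℕ)*t^(4:ℕ) + (4147/8000)*d^(3:ℕ)*t^(5:ℕ) + (567/640)*d^(3:ℕ)*t^(6:ℕ) + (-5767/8000)*d^(3:ℕ)*t^(7:ℕ) + (15583/16000)*d^(3:ℕ)*t^(8:ℕ) + (-2449/1000)*d^(3:ℕ)*t^(9:ℕ) + (2541/32000)*d^(3:ℕ)*t^(10:ℕ) + (-15483/16000)*d^(3:ℕ)*t^(11:ℕ) + (29/6400)*d^(3:ℕ)*t^(12:ℕ) + (1171/16000)*d^(4:ℕ) + (841/8000)*d^(4:ℕ)*t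 + (250307/320000)*d^(4:ℕ)*t^(2:ℕ) + (29277/80000)*d^(4:ℕ)*t^(3:ℕ) + (21433/320000)*d^(4:ℕ)*t^(4:ℕ) + (-75183/160000)*d^(4:ℕ)*t^(5:ℕ) + (-66463/80000)*d^(4:ℕ)*t^(6:ℕ) + (-262701/160000)*d^(4:ℕ)*t^(7:ℕ) + (-4133/16000)*d^(4:ℕ)*t^(8:ℕ) + (-268217/160000)*d^(4:ℕ)*t^(9:ℕ) + (-21207/320000)*d^(4:ℕ)*t^(10:ℕ) + (-93273/160000)*d^(4:ℕ)*t^(11:ℕ) + (531/64000)*d^(4:ℕ)*t^(12:ℕ) + (197/8000)*d^(5:ℕ) + (21/800)*d^(5:ℕ)*t + (7281/40000)*d^(5:ℕ)*t^(2:ℕ) + (73681/80000)*d^(5:ℕ)*t^(3:ℕ) + (6927/10000)*d^(5:ℕ)*t^(4:ℕ) + (-27201/20000)*d^(5:ℕ)*t^(5:ℕ) + (51839/80000)*d^(5:ℕ)*t^(6:ℕ) + (-1587/1000)*d^(5:ℕ)*t^(7:ℕ) + (-8041/40000)*d^(5:ℕ)*t^(8:ℕ) + (4623/20000)*d^(5:ℕ)*t^(9:ℕ) + (-28607/80000)*d^(5:ℕ)*t^(10:ℕ)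 + (23927/80000)*d^(5:ℕ)*t^(11:ℕ) + (9/8000)*d^(5:ℕ)*t^(12:ℕ) + (-17/800)*d^(6:ℕ) + (-147/1600)*d^(6:ℕ)*t + (-47999/80000)*d^(6:ℕ)*t^(2:ℕ) + (-9041/160000)*d^(6:ℕ)*t^(3:ℕ) + (84923/320000)*d^(6:ℕ)*t^(4:ℕ) + (-89291/80000)*d^(6:ℕ)*t^(5:ℕ) + (1513321/1600000)*d^(6:ℕ)*t^(6:ℕ) + (-2119/16000)*d^(6:ℕ)*t^(7:ℕ) + (22779/160000)*d^(6:ℕ)*t^(8:ℕ) + (9841/16000)*d^(6:ℕ)*t^(9:ℕ) + (-186811/1600000)*d^(6:ℕ)*t^(10:ℕ) + (95209/160000)*d^(6:ℕ)*t^(11:ℕ) + (-207/12800)*d^(6:ℕ)*t^(12:ℕ) + (31/2000)*d^(7:ℕ) + (-29/4000)*d^(7:ℕ)*t + (-69/1250)*d^(7:ℕ)*t^(2:ℕ) + (-24183/40000)*d^(7:ℕ)*t^(3:ℕ) + (-2679/160000)*d^(7:ℕ)*t^(4:ℕ) + (-8847/40000)*d^(7:ℕ)*t^(5:ℕ) + (-344473/800000)*d^(7:ℕ)*t^(6:ℕ)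 + (28253/40000)*d^(7:ℕ)*t^(7:ℕ) + (343/8000)*d^(7:ℕ)*t^(8:ℕ) + (-399/2500)*d^(7:ℕ)*t^(9:ℕ) + (256063/800000)*d^(7:ℕ)*t^(10:ℕ) + (393/5000)*d^(7:ℕ)*t^(11:ℕ) + (-111/6400)*d^(7:ℕ)*t^(12:ℕ) + (31/4000)*d^(8:ℕ) + (9/200)*d^(8:ℕ)*t + (7149/40000)*d^(8:ℕ)*t^(2:ℕ) + (-12067/80000)*d^(8:ℕ)*t^(3:ℕ) + (3807/64000)*d^(8:ℕ)*t^(4:ℕ) + (22003/160000)*d^(8:ℕ)*t^(5:ℕ) + (-612843/1600000)*d^(8:ℕ)*t^(6:ℕ) + (34197/160000)*d^(8:ℕ)*t^(7:ℕ) + (497/5000)*d^(8:ℕ)*t^(8:ℕ) + (-11611/32000)*d^(8:ℕ)*t^(9:ℕ) + (425323/1600000)*d^(8:ℕ)*t^(10:ℕ) + (-4519/32000)*d^(8:ℕ)*t^(11:ℕ) + (-7/64000)*d^(8:ℕ)*t^(12:ℕ) + (-9/1000)*d^(9:ℕ) + (-7/20000)*d^(9:ℕ)*t^(2:ℕ) + (699/40000)*d^(9:ℕ)*t^(3:ℕ) + (-839/40000)*d^(9:ℕ)*t^(4:ℕ)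 + (2347/40000)*d^(9:ℕ)*t^(5:ℕ) + (-6479/200000)*d^(9:ℕ)*t^(6:ℕ) + (-343/8000)*d^(9:ℕ)*t^(7:ℕ) + (4661/40000)*d^(9:ℕ)*t^(8:ℕ) + (-5567/40000)*d^(9:ℕ)*t^(9:ℕ) + (22759/200000)*d^(9:ℕ)*t^(10:ℕ) + (-189/2500)*d^(9:ℕ)*t^(11:ℕ) + (29/2000)*d^(9:ℕ)*t^(12:ℕ) + (-9/1000)*d^(10:ℕ)*t^(2:ℕ) + (63/5000)*d^(10:ℕ)*t^(3:ℕ) + (-293/16000)*d^(10:ℕ)*t^(4:ℕ) + (913/40000)*d^(10:ℕ)*t^(5:ℕ) + (-6831/400000)*d^(10:ℕ)*t^(6:ℕ) + (-141/40000)*d^(10:ℕ)*t^(7:ℕ) + (99/4000)*d^(10:ℕ)*t^(8:ℕ) + (-1453/40000)*d^(10:ℕ)*t^(9:ℕ) + (17231/400000)*d^(10:ℕ)*t^(10:ℕ) + (-1183/40000)*d^(10:ℕ)*t^(11:ℕ) + (169/16000)*d^(10:ℕ)*t^(12:ℕ) + (-9/4000)*d^(11:ℕ)*t^(4:ℕ) + (63/10000)*d^(11:ℕ)*t^(5:ℕ) + (-891/100000)*d^(11:ℕ)*t^(6:ℕ)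 + (63/10000)*d^(11:ℕ)*t^(7:ℕ) + (-63/10000)*d^(11:ℕ)*t^(9:ℕ) + (891/100000)*d^(11:ℕ)*t^(10:ℕ) + (-63/10000)*d^(11:ℕ)*t^(11:ℕ) + (9/4000)*d^(11:ℕ)*t^(12:ℕ))) / ((1 + 2 * d) ^ (3:ℕ) * t ^ (2:ℕ) * (1 + t ^ 2) ^ (4:ℕ) * (1 + (1/2) * d) ^ (2:ℕ)) := by
    simp only [det3, LS, LT, zS0, zT0, z1, uS0, uT0, yS0, yT0, wS0, wT0, rS0, rT0, hh, eta2, ff, ab, bb, X, X2, Y5, fh5, sg]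
    field_simp
    ring
  rw [key]
  exact div_pos (mul_pos (by positivity) hp) (by positivity)

end Vale.Agent.Lib.P100.AB.NHF
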