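import Vale.Agent.Lib.P100.NHCorner
import Vale.Agent.Lib.P100.AB.W5Main

/-!
# P100: unequal weights near the diagonal.

For `W ∈ (-2, 0)`, `m = 2 (n + W) / (2 + W) > 4`, and weights `A`, `B` with
`|A - W|, |B - W| ≤ (2 + W) / (10 (m - 2))`, the system has no positive solution as soon as
`2 (p + 1) / (p q - 1) + 2 (q + 1) / (p q - 1) ≥ m - 2 + 1 / 2`.
-/

open InnerProductSpace Laplacian

noncomputable section

namespace Vale.Agent.Lib.P100.AB.NHF

open Vale.Agent.Lib.P100 Vale.Agent.Lib.P100.AB Vale.Agent.Lib.P100.AB.V1 Vale.Agent.Lib.P100.AB.W5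
open WCert

lemma h1m {d : ℝ} (hd : 0 < d) : 1 / (2 + 1 / d) = hh d := by
  have he : (1 + 2 * d) ≠ 0 := by positivity
  unfold hh
  field_simp
  ring

lemma h2m {d : ℝ} (hd : 0 < d) : 2 / (2 + 1 / d) = 2 * hh d := by
  have e := h1m hd
  rw [← e]
  ring

lemma eta2_le {d : ℝ} (hd : 0 < d) : eta2 d ≤ eta1 d := by
  unfold eta2 eta1
  exact div_le_div_of_nonneg_left hd.le (by positivity) (by linarith)

lemma hh_pos {d : ℝ} (hd : 0 < d) : 0 < hh d := by
  unfold hh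
  positivity

lemma deltaS_pos {d t p : ℝ} (hd : 0 < d) (hd1 : d ≤ (1/2)) (ht : 0 < t) (ht1 : t ≤ 1)
    (hp0 : 1 / t ≤ p) (hp1 : p ≤ (1 + 2 * (1 + t) * eta1 d) / t) :
    0 < LS d t * (yS0 d t + ff d t * p) - (zS0 d t + z1 d * p) ^ 2 := by
  have hq := quad_between (A := -2 * d * (1 / 2 - Y5 d t) + ab d t * fh5 d t) (B := 1 + d)
      (C := 4 * (1 + 4 * d) * (1 / 2 + X d t) * ((1 + 2 * d) * (1 / 2 - Y5 d t) - bb d t * fh5 d t))
      (E := 4 * (1 + 4 * d) * (1 / 2 + X d t) * fh5 d t) hp0 hp1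
      (L10_ok d t hd hd1 ht ht1) (L1e_ok d t hd hd1 ht ht1)
  have h := L_scaled hd rfl hq
  rw [h2m hd, h1m hd] at h
  have e : LS d t * (yS0 d t + ff d t * p) - (zS0 d t + z1 d * p) ^ 2
      = ((1 + 2 * hh d) * (1 / 2 + X d t)) * (1 / 2 - Y5 d t + fh5 d t / (1 + 2 * d) * (p - bb d t))
        - ((2 * hh d * (1 / 2 - Y5 d t) - (1 - hh d) * p - fh5 d t / (1 + 2 * d) * ab d t) / 2) ^ 2 := by
    simp only [LS, yS0, zS0, z1, ff]
    ring
  rw [e]
  exact sub_pos.2 h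

lemma deltaT_pos {d t q : ℝ} (hd : 0 < d) (hd1 : d ≤ (1/2)) (ht : 0 < t) (ht1 : t ≤ 1)
    (hq0 : t ≤ q) (hq1 : q ≤ t + 2 * (1 + t) * eta1 d) :
    0 < LT d t * (yT0 d t + (-ff d t) * q) - (zT0 d t + z1 d * q) ^ 2 := by
  have hq' := quad_between (A := -2 * d * (1 / 2 - Y5 d t) + bb d t * (-fh5 d t)) (B := 1 + d)
      (C := 4 * (1 + 4 * d) * (1 / 2 + X2 d t) * ((1 + 2 * d) * (1 / 2 - Y5 d t) - ab d t * (-fh5 d t)))
      (E := 4 * (1 + 4 * d) * (1 / 2 + X2 d t) * (-fh5 d t)) hq0 hq1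
      (L20_ok d t hd hd1 ht ht1) (L2e_ok d t hd hd1 ht ht1)
  have h := L_scaled (F := 1 / 2 - Y5 d t) (E := 1 / 2 + X2 d t) (a' := bb d t) (b' := ab d t)
      (fh := -fh5 d t) (p := q) hd rfl hq'
  rw [h2m hd, h1m hd] at h
  have e : LT d t * (yT0 d t + (-ff d t) * q) - (zT0 d t + z1 d * q) ^ 2
      = ((1 + 2 * hh d) * (1 / 2 + X2 d t)) * (1 / 2 - Y5 d t + -fh5 d t / (1 + 2 * d) * (q - ab d t))
        - ((2 * hh d * (1 / 2 - Y5 d t) - (1 - hh d) * q - -fh5 d t / (1 + 2 * d) * bb d t) / 2) ^ 2 := by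
    simp only [LT, yT0, zT0, z1, ff]
    ring
  rw [e]
  exact sub_pos.2 h

lemma LS_pos {d t : ℝ} (hd : 0 < d) (ht : 0 < t) (ht1 : t ≤ 1) : 0 < LS d t := by
  have h1 := X_nonneg d t hd ht ht1
  have h2 := hh_pos hd
  unfold LS
  have : 0 < 1 / 2 + X d t := by linarith
  positivity

lemma LT_pos {d t : ℝ} (hd : 0 < d) (hd1 : d ≤ (1/2)) (ht : 0 < t) (ht1 : t ≤ 1) : 0 < LT d t := by
  have h1 := X2_gt d t hd hd1 ht ht1
  have h2 := hh_pos hd
  unfold LT
  positivity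

lemma blockS {d t p α : ℝ} (hd : 0 < d) (hd1 : d ≤ (1/2)) (ht : 0 < t) (ht1 : t ≤ 1)
    (hp0 : 1 / t ≤ p) (hp1 : p ≤ (1 + 2 * (1 + t) * eta2 d) / t)
    (ha0 : -((1/10) * d) ≤ α) (ha1 : α ≤ (1/10) * d) :
    0 < det3 (LS d t) (zS0 d t + z1 d * p) (uS0 d t + z1 d * α) (yS0 d t + ff d t * p)
      (wS0 d t + (ff d t / 2) * α + ((d / 40) / 2) * p) (rS0 + (d / 40) * α) := by
  have he := eta2_le hd
  have het : 0 ≤ eta2 d := by unfold eta2; positivity
  have h1t : 0 ≤ 2 * (1 + t) := by positivity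
  have hm : (1 + 2 * (1 + t) * eta2 d) / t ≤ (1 + 2 * (1 + t) * eta1 d) / t :=
    div_le_div_of_nonneg_right (by nlinarith [mul_le_mul_of_nonneg_left he h1t]) ht.le
  have hm0 : 1 / t ≤ (1 + 2 * (1 + t) * eta2 d) / t :=
    div_le_div_of_nonneg_right (by nlinarith [mul_nonneg h1t het]) ht.le
  have hm1 : 1 / t ≤ (1 + 2 * (1 + t) * eta1 d) / t := hm0.trans hm
  exact det3_rect (LS_pos hd ht ht1)
    (deltaS_pos hd hd1 ht ht1 le_rfl hm1)
    (deltaS_pos hd hd1 ht ht1 hm0 hm)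
    (deltaS_pos hd hd1 ht ht1 hp0 (hp1.trans hm))
    ha0 ha1 hp0 hp1
    (c_SM0 d t hd hd1 ht ht1) (c_SMe d t hd hd1 ht ht1) (c_SP0 d t hd hd1 ht ht1)
    (c_SPe d t hd hd1 ht ht1)

lemma blockT {d t q α : ℝ} (hd : 0 < d) (hd1 : d ≤ (1/2)) (ht : 0 < t) (ht1 : t ≤ 1)
    (hq0 : t ≤ q) (hq1 : q ≤ t + 2 * (1 + t) * eta2 d)
    (ha0 : -((1/10) * d) ≤ α) (ha1 : α ≤ (1/10) * d) :
    0 < det3 (LT d t) (zT0 d t + z1 d * q) (uT0 d t + z1 d * α) (yT0 d t + (-ff d t) * q)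
      (wT0 d t + (-ff d t / 2) * α + ((d / (20 * t)) / 2) * q) (rT0 t + (d / (20 * t)) * α) := by
  have he := eta2_le hd
  have het : 0 ≤ eta2 d := by unfold eta2; positivity
  have h1t : 0 ≤ 2 * (1 + t) := by positivity
  have hm : t + 2 * (1 + t) * eta2 d ≤ t + 2 * (1 + t) * eta1 d := by
    nlinarith [mul_le_mul_of_nonneg_left he h1t]
  have hm0 : t ≤ t + 2 * (1 + t) * eta2 d := by nlinarith [mul_nonneg h1t het]
  have hm1 : t ≤ t + 2 * (1 + t) * eta1 d := hm0.trans hm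
  exact det3_rect (LT_pos hd hd1 ht ht1)
    (deltaT_pos hd hd1 ht ht1 le_rfl hm1)
    (deltaT_pos hd hd1 ht ht1 hm0 hm)
    (deltaT_pos hd hd1 ht ht1 hq0 (hq1.trans hm))
    ha0 ha1 hq0 hq1
    (c_TM0 d t hd hd1 ht ht1) (c_TMe d t hd hd1 ht ht1) (c_TP0 d t hd hd1 ht ht1)
    (c_TPe d t hd hd1 ht ht1)

/-- the certificate for the weights `Aw + A1`, `Aw + B1` -/
theorem design_cert_near {n Aw d t p q A1 B1 : ℝ} (hn : 2 < n) (hnc : 0 < n - 4 + -Aw) (hA : Aw < 0)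
    (hA2 : -2 < Aw) (hm : 2 + 1 / d = 2 * (n + Aw) / (2 + Aw))
    (hd : 0 < d) (hd1 : d ≤ (1/2)) (ht : 0 < t) (ht1 : t ≤ 1)
    (hp0 : 1 / t ≤ p) (hp1 : p ≤ (1 + 2 * (1 + t) * eta2 d) / t)
    (hq0 : t ≤ q) (hq1 : q ≤ t + 2 * (1 + t) * eta2 d)
    (ha0 : 0 ≤ 1 - ab d t) (hb0 : 0 ≤ 1 - bb d t)
    (hA1 : |A1| ≤ (2 + Aw) * ((1/10) * d)) (hB1 : |B1| ≤ (2 + Aw) * ((1/10) * d)) :
    ∃ (co : Fin 15 → ℝ) (c0 : ℝ), 0 < c0 ∧ ∀ A : NAtoms, A.Realizable n →
      c0 * A.EW ≤ ∑ k, co k * NAtoms.DH n p q (1 - ab d t) (1 - bb d t) (-Aw) (Aw + A1) (Aw + B1) A k := by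
  have hd0 : d ≠ 0 := hd.ne'
  have he : (1 + 2 * d) ≠ 0 := by positivity
  have hh' : 1 / (2 + 1 / d) = d / (1 + 2 * d) := by
    field_simp; ring
  obtain ⟨σ, hσ⟩ : ∃ σ : ℝ, σ = 2 + Aw := ⟨_, rfl⟩
  have hσ0 : 0 < σ := by rw [hσ]; linarith
  rw [← hσ] at hA1 hB1 hm
  have hn2 : n - 2 = σ * (1 / (2 * d)) := by
    have h := (eq_div_iff hσ0.ne').1 hm
    have e : (2 + 1 / d) * σ = 2 * σ + σ * (1 / d) := by ring
    have e2 : σ * (1 / (2 * d)) = σ * (1 / d) / 2 := by field_simp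
    rw [e2]
    rw [e, hσ] at h
    rw [hσ]
    linarith
  obtain ⟨α1, hα1⟩ : ∃ α1 : ℝ, A1 = σ * α1 := ⟨A1 / σ, by field_simp⟩
  obtain ⟨α2, hα2⟩ : ∃ α2 : ℝ, B1 = σ * α2 := ⟨B1 / σ, by field_simp⟩
  have bd : ∀ {x : ℝ}, |σ * x| ≤ σ * ((1/10) * d) → -((1/10) * d) ≤ x ∧ x ≤ (1/10) * d := by
    intro x hx
    rw [abs_mul, abs_of_pos hσ0] at hx
    have := le_of_mul_le_mul_left hx hσ0
    exact abs_le.1 this
  rw [hα1] at hA1
  rw [hα2] at hB1
  obtain ⟨a10, a11⟩ := bd hA1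
  obtain ⟨a20, a21⟩ := bd hB1
  have he2 := eta2_le hd
  have het : 0 ≤ eta2 d := by unfold eta2; positivity
  have h1t : 0 ≤ 2 * (1 + t) := by positivity
  have hp1' : p ≤ (1 + 2 * (1 + t) * eta1 d) / t :=
    hp1.trans (div_le_div_of_nonneg_right
      (by nlinarith [mul_le_mul_of_nonneg_left he2 h1t]) ht.le)
  have hq1' : q ≤ t + 2 * (1 + t) * eta1 d :=
    hq1.trans (by nlinarith [mul_le_mul_of_nonneg_left he2 h1t])
  have hE1 : 0 < 1 / 2 + X d t := by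
    have := X_nonneg d t hd ht ht1
    linarith
  have hE2 : 0 < 1 / 2 + X2 d t := X2_gt d t hd hd1 ht ht1
  have h2pos : 0 < 1 + 2 / (2 + 1 / d) := by
    have : 0 < 2 / (2 + 1 / d) := by positivity
    linarith
  have hS3 := blockS hd hd1 ht ht1 hp0 hp1 a10 a11
  have hT3 := blockT hd hd1 ht ht1 hq0 hq1 a20 a21
  rw [hα1, hα2]
  apply nhcert_of_R (m := 2 + 1 / d) (X1 := X d t) (X2 := X2 d t) (Y1 := Y5 d t) (Y2 := Y5 d t)
    (f := fh5 d t / (1 + 2 * d)) (K1 := σ * (d / 40)) (K2 := σ * (d / (20 * t))) hn hnc hA hA2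
    (by rw [← hσ]; exact hm) ha0 hb0
  · rw [hh']; exact r1_pos d t hd hd1 ht ht1
  · rw [hh']; exact r6_pos d t hd hd1 ht ht1
  · rw [hh']; exact hD_ok d t hd hd1 ht ht1
  · positivity
  · positivity
  · -- first discriminant
    have hq := quad_between (A := -2 * d * (1 / 2 - Y5 d t) + ab d t * fh5 d t) (B := 1 + d)
      (C := 4 * (1 + 4 * d) * (1 / 2 + X d t) * ((1 + 2 * d) * (1 / 2 - Y5 d t) - bb d t * fh5 d t))
      (E := 4 * (1 + 4 * d) * (1 / 2 + X d t) * fh5 d t) hp0 hp1'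
      (L10_ok d t hd hd1 ht ht1) (L1e_ok d t hd hd1 ht ht1)
    exact L_scaled hd rfl hq
  · -- second discriminant
    have hq' := quad_between (A := -2 * d * (1 / 2 - Y5 d t) + bb d t * (-fh5 d t)) (B := 1 + d)
      (C := 4 * (1 + 4 * d) * (1 / 2 + X2 d t) * ((1 + 2 * d) * (1 / 2 - Y5 d t) - ab d t * (-fh5 d t)))
      (E := 4 * (1 + 4 * d) * (1 / 2 + X2 d t) * (-fh5 d t)) hq0 hq1'
      (L20_ok d t hd hd1 ht ht1) (L2e_ok d t hd hd1 ht ht1)
    have h := L_scaled (F := 1 / 2 - Y5 d t) (E := 1 / 2 + X2 d t) (a' := bb d t) (b' := ab d t)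
      (fh := -fh5 d t) (p := q) hd rfl hq'
    have e1 : (2 / (2 + 1 / d) * (1 / 2 - Y5 d t) - (1 - 1 / (2 + 1 / d)) * q
          - (-fh5 d t / (1 + 2 * d)) * bb d t) / 2
        = (2 / (2 + 1 / d) * (1 / 2 - Y5 d t) - (1 - 1 / (2 + 1 / d)) * q
          + (fh5 d t / (1 + 2 * d)) * bb d t) / 2 := by
      ring
    have e2 : (1 / 2 - Y5 d t) + (-fh5 d t / (1 + 2 * d)) * (q - ab d t)
        = (1 / 2 - Y5 d t) - (fh5 d t / (1 + 2 * d)) * (q - ab d t) := by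
      ring
    rw [e1, e2] at h
    exact h
  · -- the block of `s`
    have e1 : (1 + 2 / (2 + 1 / d)) * (1 / 2 + X d t) = LS d t := by
      rw [h2m hd]; rfl
    have e2 : (2 / (2 + 1 / d) * (1 / 2 - Y5 d t) - (1 - 1 / (2 + 1 / d)) * p
        - fh5 d t / (1 + 2 * d) * ab d t) / 2 = zS0 d t + z1 d * p := by
      rw [h2m hd, h1m hd]
      simp only [zS0, z1, ff]
      ring
    have e3 : (-(1 - 1 / (2 + 1 / d)) * (σ * α1) + σ * (d / 40) * -ab d t) / 2
        = σ * (uS0 d t + z1 d * α1) := by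
      rw [h1m hd]
      simp only [uS0, z1]
      ring
    have e4 : 1 / 2 - Y5 d t + fh5 d t / (1 + 2 * d) * (p - bb d t) = yS0 d t + ff d t * p := by
      simp only [yS0, ff]
      ring
    have e5 : (fh5 d t / (1 + 2 * d) * (σ * α1) + σ * (d / 40) * (1 - bb d t + p)) / 2
        = σ * (wS0 d t + (ff d t / 2) * α1 + ((d / 40) / 2) * p) := by
      simp only [wS0, ff]
      ring
    have e6 : σ * (d / 40) * (σ * α1 + n - 2) = σ ^ 2 * (rS0 + (d / 40) * α1) := by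
      have e7 : σ * α1 + n - 2 = σ * α1 + σ * (1 / (2 * d)) := by linarith only [hn2]
      rw [e7]
      simp only [rS0]
      field_simp
      ring
    rw [e1, e2, e3, e4, e5, e6, det3_scale]
    positivity
  · -- the block of `t`
    have e1 : (1 + 2 / (2 + 1 / d)) * (1 / 2 + X2 d t) = LT d t := by
      rw [h2m hd]; rfl
    have e2 : (2 / (2 + 1 / d) * (1 / 2 - Y5 d t) - (1 - 1 / (2 + 1 / d)) * q
        + fh5 d t / (1 + 2 * d) * bb d t) / 2 = zT0 d t + z1 d * q := by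
      rw [h2m hd, h1m hd]
      simp only [zT0, z1, ff]
      ring
    have e3 : (-(1 - 1 / (2 + 1 / d)) * (σ * α2) + σ * (d / (20 * t)) * -bb d t) / 2
        = σ * (uT0 d t + z1 d * α2) := by
      rw [h1m hd]
      simp only [uT0, z1]
      ring
    have e4 : 1 / 2 - Y5 d t - fh5 d t / (1 + 2 * d) * (q - ab d t) = yT0 d t + (-ff d t) * q := by
      simp only [yT0, ff]
      ring
    have e5 : (-(fh5 d t / (1 + 2 * d)) * (σ * α2) + σ * (d / (20 * t)) * (1 - ab d t + q)) / 2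
        = σ * (wT0 d t + (-ff d t / 2) * α2 + ((d / (20 * t)) / 2) * q) := by
      simp only [wT0, ff]
      ring
    have e6 : σ * (d / (20 * t)) * (σ * α2 + n - 2) = σ ^ 2 * (rT0 t + (d / (20 * t)) * α2) := by
      have e7 : σ * α2 + n - 2 = σ * α2 + σ * (1 / (2 * d)) := by linarith only [hn2]
      rw [e7]
      simp only [rT0]
      field_simp
      ring
    rw [e1, e2, e3, e4, e5, e6, det3_scale]
    positivity

/-- the core case `q <= p` -/
theorem no_solution_near_core {n : ℕ} (hn3 : 3 ≤ n) {W m A B p q : ℝ} (hW : W < 0) (hW2 : -2 < W)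
    (hm : m = 2 * ((n : ℝ) + W) / (2 + W)) (hm9 : 4 < m)
    (hAb : |A - W| ≤ (2 + W) / (10 * (m - 2))) (hBb : |B - W| ≤ (2 + W) / (10 * (m - 2)))
    (hp : 0 < p) (hq : 0 < q) (hqp : q ≤ p) (hpq : 1 < p * q)
    (hsum : (m - 2 + (1/2)) * (p * q - 1) ≤ 2 * (p + q + 2))
    {u v : Eu n → ℝ} (hucont : Continuous u) (hvcont : Continuous v)
    (hupos : ∀ x, 0 < u x) (hvpos : ∀ x, 0 < v x)
    (hu : ContDiffOn ℝ 2 u {0}ᶜ) (hv : ContDiffOn ℝ 2 v {0}ᶜ)
    (hpdeU : ∀ x, x ≠ 0 → - Δ u x = ‖x‖ ^ A * v x ^ p)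
    (hpdeV : ∀ x, x ≠ 0 → - Δ v x = ‖x‖ ^ B * u x ^ q) : False := by
  have h2w : 0 < 2 + W := by linarith
  have hmw : (2 + W) * m = 2 * ((n : ℝ) + W) := by
    rw [hm]; field_simp
  have hnR3 : (3 : ℝ) ≤ n := by exact_mod_cast hn3
  have hm4 : 0 < m - 4 := by linarith
  have hm24 := mul_pos h2w hm4
  have hnc : 0 < (n : ℝ) - 4 + -W := by nlinarith
  have hm20 : 0 < m - 2 := by linarith
  obtain ⟨d, hdd⟩ : ∃ d : ℝ, d = 1 / (m - 2) := ⟨_, rfl⟩
  have hd : 0 < d := by rw [hdd]; positivity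
  have hd1 : d ≤ (1/2) := by
    rw [hdd, div_le_iff₀ hm20]
    linarith
  have hd2 : d < 1 / 2 := by
    rw [hdd, div_lt_iff₀ hm20]
    linarith
  have hnd : m = 2 + 1 / d := by
    rw [hdd]; field_simp; ring
  have hp1 : 0 < p + 1 := by linarith
  have hq1 : 0 < q + 1 := by linarith
  obtain ⟨t, htt⟩ : ∃ t : ℝ, t = (q + 1) / (p + 1) := ⟨_, rfl⟩
  have ht : 0 < t := by rw [htt]; positivity
  have ht1 : t ≤ 1 := by
    rw [htt, div_le_one hp1]; linarith
  have hqt : q + 1 = t * (p + 1) := by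
    rw [htt]; field_simp
  have hS : 0 < p + q + 2 := by linarith
  have hw : 0 < p * q - 1 := by linarith
  obtain ⟨η, hη⟩ : ∃ η : ℝ, η = (p * q - 1) / (2 * (p + q + 2)) := ⟨_, rfl⟩
  have hη0 : 0 < η := by rw [hη]; positivity
  have hηS : 2 * (p + q + 2) * η = p * q - 1 := by
    rw [hη]; field_simp
  have h1t : p + q + 2 = (p + 1) * (1 + t) := by
    have : q = t * (p + 1) - 1 := by linarith
    rw [this]; ring
  -- the two formulas
  have hqf : q = t + 2 * (1 + t) * η := by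
    have e : (p + 1) * q = (p + 1) * (t + 2 * (1 + t) * η) := by
      have h2 : (p + 1) * (2 * (1 + t) * η) = p * q - 1 := by
        rw [← hηS, h1t]; ring
      have h3 : (p + 1) * t = q + 1 := by linarith
      have : (p + 1) * (t + 2 * (1 + t) * η) = (p + 1) * t + (p + 1) * (2 * (1 + t) * η) := by ring
      rw [this, h2, h3]
      ring
    exact mul_left_cancel₀ hp1.ne' e
  have hpf : p = (1 + 2 * (1 + t) * η) / t := by
    rw [eq_div_iff ht.ne']
    have : q = t + 2 * (1 + t) * η := hqf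
    have e : (p + 1) * (p * t) = (p + 1) * (1 + 2 * (1 + t) * η) := by
      have h2 : (p + 1) * (2 * (1 + t) * η) = p * q - 1 := by
        rw [← hηS, h1t]; ring
      have h3 : (p + 1) * t = q + 1 := by linarith
      have e2 : (p + 1) * (1 + 2 * (1 + t) * η) = (p + 1) + (p + 1) * (2 * (1 + t) * η) := by ring
      rw [e2, h2]
      have e3 : (p + 1) * (p * t) = p * ((p + 1) * t) := by ring
      rw [e3, h3]
      ring
    exact mul_left_cancel₀ hp1.ne' e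
  have hηle : η ≤ eta2 d := by
    unfold eta2
    have hW : 0 < 1 + (1/2) * d := by positivity
    rw [le_div_iff₀ hW, hη, div_mul_eq_mul_div, div_le_iff₀ (by positivity)]
    have h5 : (m - 2) * d = 1 := by
      rw [hdd]; field_simp
    have h6 : (m - 2 + (1/2)) * d = 1 + (1/2) * d := by
      nlinarith
    have h7 := mul_le_mul_of_nonneg_right hsum hd.le
    nlinarith
  have hη2 : 2 * (1 + t) * η ≤ 2 * (1 + t) * eta2 d := by
    apply mul_le_mul_of_nonneg_left hηle (by positivity)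
  have hη3 : 0 ≤ 2 * (1 + t) * η := by positivity
  have hab := ab_le d t hd
  have hbb := bb_le d t hd ht ht1
  have hab0 := ab_nonneg d t hd
  have hbb0 := bb_nonneg d t hd
  have hd27 : 2 * d < 1 := by
    have : d < 1 / 2 := hd2
    linarith
  have hdenom : (2 + W) / (10 * (m - 2)) = (2 + W) * ((1/10) * d) := by
    rw [hdd]
    field_simp
  rw [hdenom] at hAb hBb
  obtain ⟨co, c0, hc0, hc⟩ := design_cert_near (n := (n : ℝ)) (Aw := W) (A1 := A - W) (B1 := B - W)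
    (p := p) (q := q) (by linarith)
    hnc hW hW2 (by rw [← hnd]; exact hm) hd hd1 ht ht1
    (by rw [hpf]; exact div_le_div_of_nonneg_right (by linarith) ht.le)
    (by rw [hpf]; exact div_le_div_of_nonneg_right (by linarith) ht.le)
    (by rw [hqf]; linarith)
    (by rw [hqf]; linarith)
    (by linarith) (by linarith) hAb hBb
  have eA : W + (A - W) = A := by ring
  have eB : W + (B - W) = B := by ring
  rw [eA, eB] at hc
  obtain ⟨a, ha⟩ : ∃ a : ℝ, a = 1 - ab d t := ⟨_, rfl⟩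
  obtain ⟨b, hb⟩ : ∃ b : ℝ, b = 1 - bb d t := ⟨_, rfl⟩
  rw [← ha, ← hb] at hc
  have ha0 : 0 < a := by rw [ha]; linarith
  have hb0 : 0 < b := by rw [hb]; linarith
  have hw' : p * q - 1 ≠ 0 := hw.ne'
  obtain ⟨lam, hlamd⟩ : ∃ lam : ℝ, lam = (a + q * b) / (p * q - 1) := ⟨_, rfl⟩
  obtain ⟨mu, hmud⟩ : ∃ mu : ℝ, mu = (b + p * a) / (p * q - 1) := ⟨_, rfl⟩
  have hlam0 : 0 < lam := by rw [hlamd]; positivity
  have hmu0 : 0 < mu := by rw [hmud]; positivity
  have hlamw : lam * (p * q - 1) = a + q * b := by rw [hlamd]; exact div_mul_cancel₀ _ hw'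
  have hmuw : mu * (p * q - 1) = b + p * a := by rw [hmud]; exact div_mul_cancel₀ _ hw'
  -- the exponent condition
  obtain ⟨Sg, hSg⟩ : ∃ Sg : ℝ, Sg = lam + mu := ⟨_, rfl⟩
  have hSg0 : 0 < Sg := by rw [hSg]; linarith
  have hSη : 1 - 2 * d ≤ Sg * (2 * η) := by
    have h2 : p * q - 1 = 2 * ((p + 1) * (1 + t)) * η := by
      rw [← hηS, h1t]
    have h3 : a * (p + 1) + b * (q + 1) = (p + 1) * (a + b * t) := by
      rw [hqt]; ring
    have hlow : (1 - 2 * d) * (1 + t) ≤ a + b * t := by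
      rw [ha, hb]
      exact low_bound d t hd ht
    have h4 : Sg * (p * q - 1) = a * (p + 1) + b * (q + 1) := by
      rw [hSg]
      linear_combination hlamw + hmuw
    have hpt : 0 < (p + 1) * (1 + t) := by positivity
    have h5 : ((p + 1) * (1 + t)) * (Sg * (2 * η)) = (p + 1) * (a + b * t) := by
      rw [← h3, ← h4, h2]
      ring
    have h6 : ((p + 1) * (1 + t)) * (1 - 2 * d) ≤ ((p + 1) * (1 + t)) * (Sg * (2 * η)) := by
      rw [h5]
      have := mul_le_mul_of_nonneg_left hlow hp1.le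
      linarith only [this]
    exact le_of_mul_le_mul_left h6 hpt
  have hηd : η * (1 + (1/2) * d) ≤ d := by
    have hW : 0 < 1 + (1/2) * d := by positivity
    have := (le_div_iff₀ hW).1 hηle
    exact this
  have hG : 1 - 2 * d < (1 - d / 10) * Sg * (2 * d) := by
    have h1 : Sg * (2 * η) * (1 + (1/2) * d) ≤ Sg * (2 * d) := by
      have := mul_le_mul_of_nonneg_left hηd (by positivity : 0 ≤ Sg * 2)
      linarith only [this]
    have h2 : (1 - 2 * d) * (1 + (1/2) * d) ≤ Sg * (2 * η) * (1 + (1/2) * d) :=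
      mul_le_mul_of_nonneg_right hSη (by positivity)
    have h3 : 0 < 1 - d / 10 := by linarith
    have h4 := mul_le_mul_of_nonneg_left (h2.trans h1) h3.le
    have h5 : 0 < (1 - 2 * d) * (d * (2 / 5 - d / 20)) := by
      have : 0 < 2 / 5 - d / 20 := by linarith
      have h6 : 0 < 1 - 2 * d := by linarith
      positivity
    have e : (1 - d / 10) * ((1 - 2 * d) * (1 + (1/2) * d))
        = 1 - 2 * d + (1 - 2 * d) * (d * (2 / 5 - d / 20)) := by ring
    have e2 : (1 - d / 10) * (Sg * (2 * d)) = (1 - d / 10) * Sg * (2 * d) := by ring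
    linarith only [h4, h5, e, e2]
  have hn2 : (n : ℝ) - 2 = (2 + W) * (1 / (2 * d)) := by
    have e : m - 2 = 1 / d := by rw [hnd]; ring
    have e2 : (2 + W) * (1 / (2 * d)) = (2 + W) * (1 / d) / 2 := by field_simp
    rw [e2, ← e]
    linarith only [hmw]
  -- the weights
  have hA1 : -((2 + W) * ((1/10) * d)) * lam ≤ (A - W) * lam :=
    mul_le_mul_of_nonneg_right (abs_le.1 hAb).1 hlam0.le
  have hB1 : -((2 + W) * ((1/10) * d)) * mu ≤ (B - W) * mu :=
    mul_le_mul_of_nonneg_right (abs_le.1 hBb).1 hmu0.le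
  have hfin : (n : ℝ) < 2 * (lam + mu) + 4 + (A * lam + B * mu - -W) := by
    have h1 : (2 + W) * ((1 - 2 * d) * (1 / (2 * d))) < (2 + W) * ((1 - d / 10) * Sg) := by
      apply mul_lt_mul_of_pos_left _ h2w
      have h2d : 0 < 2 * d := by positivity
      rw [← div_eq_mul_one_div, div_lt_iff₀ h2d]
      exact hG
    have e1 : (1 - 2 * d) * (1 / (2 * d)) = 1 / (2 * d) - 1 := by
      field_simp
    rw [e1] at h1
    have e2 : (2 + W) * (1 / (2 * d) - 1) = ((n : ℝ) - 2) - (2 + W) := by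
      rw [hn2]; ring
    rw [e2] at h1
    have e3 : (2 + W) * ((1 - d / 10) * Sg)
        = (2 + W) * Sg - (2 + W) * ((1/10) * d) * lam - (2 + W) * ((1/10) * d) * mu := by
      rw [hSg]; ring
    rw [e3] at h1
    rw [hSg] at h1
    have e4 : (A - W) * lam = A * lam - W * lam := by ring
    have e5 : (B - W) * mu = B * mu - W * mu := by ring
    have e6 : (2 + W) * (lam + mu) = 2 * (lam + mu) + W * lam + W * mu := by ring
    have e7 : -((2 + W) * ((1/10) * d)) * lam = -((2 + W) * ((1/10) * d) * lam) := by ring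
    have e8 : -((2 + W) * ((1/10) * d)) * mu = -((2 + W) * ((1/10) * d) * mu) := by ring
    rw [e7, e4] at hA1
    rw [e8, e5] at hB1
    linarith only [h1, hA1, hB1, e6]
  refine no_solution_of_nhcert_lap hn3 (a := a) (b := b) (c := -W) (lam := lam) (mu := mu)
    hc hc0 (by linarith) ?_ ?_ hlam0.le hmu0.le hfin (by linarith) (by linarith)
    hucont hvcont hupos hvpos hu hv hpdeU hpdeV
  · rw [hlamd, hmud]
    have e : (b + p * a) / (p * q - 1) * q - (a + q * b) / (p * q - 1) = a := by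
      rw [div_mul_eq_mul_div, ← sub_div, div_eq_iff hw']
      ring
    exact e.symm
  · rw [hlamd, hmud]
    have e : (a + q * b) / (p * q - 1) * p - (b + p * a) / (p * q - 1) = b := by
      rw [div_mul_eq_mul_div, ← sub_div, div_eq_iff hw']
      ring
    exact e.symm

/-- **Unequal weights near the diagonal, all ratios of `p, q`.**  For `W ∈ (-2, 0)`, effective
dimension `m = 2 (n + W) / (2 + W) > 4`, and weights with
`|A - W|, |B - W| ≤ (2 + W) / (10 (m - 2))`: no positive solution as soon as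
`2 (p + 1) / (p q - 1) + 2 (q + 1) / (p q - 1) ≥ m - 2 + 1 / 2`. -/
theorem no_solution_near {n : ℕ} {W m A B p q : ℝ} (hW : W < 0) (hW2 : -2 < W)
    (hm : m = 2 * ((n : ℝ) + W) / (2 + W)) (hm9 : 4 < m)
    (hAb : |A - W| ≤ (2 + W) / (10 * (m - 2))) (hBb : |B - W| ≤ (2 + W) / (10 * (m - 2)))
    (hp : 0 < p) (hq : 0 < q) (hpq : 1 < p * q)
    (hsum : m - 2 + 1 / 2 ≤ 2 * (p + 1) / (p * q - 1) + 2 * (q + 1) / (p * q - 1))
    {u v : Eu n → ℝ} (hucont : Continuous u) (hvcont : Continuous v)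
    (hupos : ∀ x, 0 < u x) (hvpos : ∀ x, 0 < v x)
    (hu : ContDiffOn ℝ 2 u {0}ᶜ) (hv : ContDiffOn ℝ 2 v {0}ᶜ)
    (hpdeU : ∀ x, x ≠ 0 → - Δ u x = ‖x‖ ^ A * v x ^ p)
    (hpdeV : ∀ x, x ≠ 0 → - Δ v x = ‖x‖ ^ B * u x ^ q) : False := by
  have h2w : 0 < 2 + W := by linarith
  have hmw : (2 + W) * m = 2 * ((n : ℝ) + W) := by
    rw [hm]; field_simp
  have hn3 : 3 ≤ n := by
    by_contra hcon
    have h2 : n ≤ 2 := by omega
    have h2R : (n : ℝ) ≤ 2 := by exact_mod_cast h2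
    nlinarith
  have hw : 0 < p * q - 1 := by linarith
  have h3 : (m - 2 + (1/2)) * (p * q - 1) ≤ 2 * (p + q + 2) := by
    have e : 2 * (p + 1) / (p * q - 1) + 2 * (q + 1) / (p * q - 1)
        = 2 * (p + q + 2) / (p * q - 1) := by
      rw [← add_div]; ring
    rw [e, le_div_iff₀ hw] at hsum
    have e2 : m - 2 + (1/2) = m - 2 + 1 / 2 := by norm_num
    rw [e2]
    exact hsum
  rcases le_total q p with hqp | hpq'
  · exact no_solution_near_core hn3 hW hW2 hm hm9 hAb hBb hp hq hqp hpq h3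
      hucont hvcont hupos hvpos hu hv hpdeU hpdeV
  · refine no_solution_near_core hn3 hW hW2 hm hm9 hBb hAb hq hp hpq' (by linarith) ?_
      hvcont hucont hvpos hupos hv hu hpdeV hpdeU
    have e : q * p - 1 = p * q - 1 := by ring
    rw [e]
    linarith

end Vale.Agent.Lib.P100.AB.NHF
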