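import Mathlib

/-!
# P100: polynomial inequalities for unequal weights near the diagonal
(Bernstein coefficients on `[0,1/2] × [0,1]`).
-/

namespace Vale.Agent.Lib.P100.AB.NHF

lemma pos_cSP0_b0 (t : ℝ) (h3 : 0 ≤ t) (h4 : t ≤ 1) :
    0 ≤ (3/1280) + (1/160)*t + (1/32)*t^(2:ℕ) + (1/32)*t^(3:ℕ) + (1/16)*t^(4:ℕ) + (1/16)*t^(5:ℕ) + (1/16)*t^(6:ℕ) + (1/16)*t^(7:ℕ) + (1/32)*t^(8:ℕ) + (1/32)*t^(9:ℕ) + (1/160)*t^(10:ℕ) + (1/160)*t^(11:ℕ) := by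
  obtain ⟨t2, ht2⟩ : ∃ t2 : ℝ, t2 = 1 - t := ⟨_, rfl⟩
  have a4 : 0 ≤ t2 := by rw [ht2]; linarith
  have e : (3/1280) + (1/160)*t + (1/32)*t^(2:ℕ) + (1/32)*t^(3:ℕ) + (1/16)*t^(4:ℕ) + (1/16)*t^(5:ℕ) + (1/16)*t^(6:ℕ) + (1/16)*t^(7:ℕ) + (1/32)*t^(8:ℕ) + (1/32)*t^(9:ℕ) + (1/160)*t^(10:ℕ) + (1/160)*t^(11:ℕ) = (3/1280)*t2^(12:ℕ) + (11/320)*t^(1:ℕ)*t2^(11:ℕ) + (163/640)*t^(2:ℕ)*t2^(10:ℕ) + (77/64)*t^(3:ℕ)*t2^(9:ℕ) + (1009/256)*t^(4:ℕ)*t2^(8:ℕ) + (1497/160)*t^(5:ℕ)*t2^(7:ℕ) + (5277/320)*t^(6:ℕ)*t2^(6:ℕ) + (3489/160)*t^(7:ℕ)*t2^(5:ℕ) + (5521/256)*t^(8:ℕ)*t2^(4:ℕ) + (1001/64)*t^(9:ℕ)*t2^(3:ℕ) + (5083/640)*t^(10:ℕ)*t2^(2:ℕ) + (817/320)*t^(11:ℕ)*t2^(1:ℕ) + (507/1280)*t^(12:ℕ) := by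
    rw [ht2]; ring
  rw [e]
  positivity

lemma pos_cSP0_b1 (t : ℝ) (h3 : 0 ≤ t) (h4 : t ≤ 1) :
    0 ≤ (859/230400) + (881/115200)*t + (3037/76800)*t^(2:ℕ) + (761/19200)*t^(3:ℕ) + (1853/23040)*t^(4:ℕ) + (1549/19200)*t^(5:ℕ) + (617/7680)*t^(6:ℕ) + (581/7200)*t^(7:ℕ) + (121/3072)*t^(8:ℕ) + (1523/38400)*t^(9:ℕ) + (1739/230400)*t^(10:ℕ) + (49/6400)*t^(11:ℕ) + (-1/57600)*t^(12:ℕ) := by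
  obtain ⟨t2, ht2⟩ : ∃ t2 : ℝ, t2 = 1 - t := ⟨_, rfl⟩
  have a4 : 0 ≤ t2 := by rw [ht2]; linarith
  have e : (859/230400) + (881/115200)*t + (3037/76800)*t^(2:ℕ) + (761/19200)*t^(3:ℕ) + (1853/23040)*t^(4:ℕ) + (1549/19200)*t^(5:ℕ) + (617/7680)*t^(6:ℕ) + (581/7200)*t^(7:ℕ) + (121/3072)*t^(8:ℕ) + (1523/38400)*t^(9:ℕ) + (1739/230400)*t^(10:ℕ) + (49/6400)*t^(11:ℕ) + (-1/57600)*t^(12:ℕ) = (859/230400)*t2^(12:ℕ) + (1207/23040)*t^(1:ℕ)*t2^(11:ℕ) + (85187/230400)*t^(2:ℕ)*t2^(10:ℕ) + (96533/57600)*t^(3:ℕ)*t2^(9:ℕ) + (153331/28800)*t^(4:ℕ)*t2^(8:ℕ) + (22271/1800)*t^(5:ℕ)*t2^(7:ℕ) + (619453/28800)*t^(6:ℕ)*t2^(6:ℕ) + (203083/7200)*t^(7:ℕ)*t2^(5:ℕ) + (1599493/57600)*t^(8:ℕ)*t2^(4:ℕ) + (96457/4800)*t^(9:ℕ)*t2^(3:ℕ) + (32621/3200)*t^(10:ℕ)*t2^(2:ℕ)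 + (3143/960)*t^(11:ℕ)*t2^(1:ℕ) + (9733/19200)*t^(12:ℕ) := by
    rw [ht2]; ring
  rw [e]
  positivity

lemma pos_cSP0_b2 (t : ℝ) (h3 : 0 ≤ t) (h4 : t ≤ 1) :
    0 ≤ (4873/921600) + (1061/115200)*t + (45859/921600)*t^(2:ℕ) + (1919/38400)*t^(3:ℕ) + (9521/92160)*t^(4:ℕ) + (527/5120)*t^(5:ℕ) + (47293/460800)*t^(6:ℕ) + (1561/15360)*t^(7:ℕ) + (44897/921600)*t^(8:ℕ) + (11131/230400)*t^(9:ℕ) + (8099/921600)*t^(10:ℕ) + (2039/230400)*t^(11:ℕ) + (-1/25600)*t^(12:ℕ) := by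
  obtain ⟨t2, ht2⟩ : ∃ t2 : ℝ, t2 = 1 - t := ⟨_, rfl⟩
  have a4 : 0 ≤ t2 := by rw [ht2]; linarith
  have e : (4873/921600) + (1061/115200)*t + (45859/921600)*t^(2:ℕ) + (1919/38400)*t^(3:ℕ) + (9521/92160)*t^(4:ℕ) + (527/5120)*t^(5:ℕ) + (47293/460800)*t^(6:ℕ) + (1561/15360)*t^(7:ℕ) + (44897/921600)*t^(8:ℕ) + (11131/230400)*t^(9:ℕ) + (8099/921600)*t^(10:ℕ) + (2039/230400)*t^(11:ℕ) + (-1/25600)*t^(12:ℕ) = (4873/921600)*t2^(12:ℕ) + (16741/230400)*t^(1:ℕ)*t2^(11:ℕ) + (10241/20480)*t^(2:ℕ)*t2^(10:ℕ) + (340591/153600)*t^(3:ℕ)*t2^(9:ℕ) + (798253/115200)*t^(4:ℕ)*t2^(8:ℕ) + (3669523/230400)*t^(5:ℕ)*t2^(7:ℕ) + (3168461/115200)*t^(6:ℕ)*t2^(6:ℕ) + (2070337/57600)*t^(7:ℕ)*t2^(5:ℕ) + (2035213/57600)*t^(8:ℕ)*t2^(4:ℕ) + (490597/19200)*t^(9:ℕ)*t2^(3:ℕ)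 + (745907/57600)*t^(10:ℕ)*t2^(2:ℕ) + (39833/9600)*t^(11:ℕ)*t2^(1:ℕ) + (36827/57600)*t^(12:ℕ) := by
    rw [ht2]; ring
  rw [e]
  positivity

lemma pos_cSP0_b3 (t : ℝ) (h3 : 0 ≤ t) (h4 : t ≤ 1) :
    0 ≤ (719/102400) + (23507/2150400)*t + (2389/38400)*t^(2:ℕ) + (673793/10752000)*t^(3:ℕ) + (474619/3584000)*t^(4:ℕ) + (139369/1075200)*t^(5:ℕ) + (1401941/10752000)*t^(6:ℕ) + (670331/5376000)*t^(7:ℕ) + (106151/1792000)*t^(8:ℕ) + (606671/10752000)*t^(9:ℕ) + (106747/10752000)*t^(10:ℕ) + (103441/10752000)*t^(11:ℕ) + (-13/215040)*t^(12:ℕ) := by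
  obtain ⟨t2, ht2⟩ : ∃ t2 : ℝ, t2 = 1 - t := ⟨_, rfl⟩
  have a4 : 0 ≤ t2 := by rw [ht2]; linarith
  have e : (719/102400) + (23507/2150400)*t + (2389/38400)*t^(2:ℕ) + (673793/10752000)*t^(3:ℕ) + (474619/3584000)*t^(4:ℕ) + (139369/1075200)*t^(5:ℕ) + (1401941/10752000)*t^(6:ℕ) + (670331/5376000)*t^(7:ℕ) + (106151/1792000)*t^(8:ℕ) + (606671/10752000)*t^(9:ℕ) + (106747/10752000)*t^(10:ℕ) + (103441/10752000)*t^(11:ℕ) + (-13/215040)*t^(12:ℕ) = (719/102400)*t2^(12:ℕ) + (40939/430080)*t^(1:ℕ)*t2^(11:ℕ) + (92593/143360)*t^(2:ℕ)*t2^(10:ℕ) + (15218159/5376000)*t^(3:ℕ)*t2^(9:ℕ) + (15725449/1792000)*t^(4:ℕ)*t2^(8:ℕ) + (53972521/2688000)*t^(5:ℕ)*t2^(7:ℕ) + (124052043/3584000)*t^(6:ℕ)*t2^(6:ℕ) + (243157379/5376000)*t^(7:ℕ)*t2^(5:ℕ)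 + (119586541/2688000)*t^(8:ℕ)*t2^(4:ℕ) + (7208043/224000)*t^(9:ℕ)*t2^(3:ℕ) + (416963/25600)*t^(10:ℕ)*t2^(2:ℕ) + (2329099/448000)*t^(11:ℕ)*t2^(1:ℕ) + (534313/672000)*t^(12:ℕ) := by
    rw [ht2]; ring
  rw [e]
  positivity

lemma pos_cSP0_b4 (t : ℝ) (h3 : 0 ≤ t) (h4 : t ≤ 1) :
    0 ≤ (4801/537600) + (2581/201600)*t + (1245793/16128000)*t^(2:ℕ) + (139957/1792000)*t^(3:ℕ) + (195203/1152000)*t^(4:ℕ) + (81049/504000)*t^(5:ℕ) + (35471/215040)*t^(6:ℕ) + (22859/153600)*t^(7:ℕ) + (71461/1008000)*t^(8:ℕ) + (254207/4032000)*t^(9:ℕ) + (2513/230400)*t^(10:ℕ) + (4363/448000)*t^(11:ℕ) + (-61/806400)*t^(12:ℕ) := by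
  obtain ⟨t2, ht2⟩ : ∃ t2 : ℝ, t2 = 1 - t := ⟨_, rfl⟩
  have a4 : 0 ≤ t2 := by rw [ht2]; linarith
  have e : (4801/537600) + (2581/201600)*t + (1245793/16128000)*t^(2:ℕ) + (139957/1792000)*t^(3:ℕ) + (195203/1152000)*t^(4:ℕ) + (81049/504000)*t^(5:ℕ) + (35471/215040)*t^(6:ℕ) + (22859/153600)*t^(7:ℕ) + (71461/1008000)*t^(8:ℕ) + (254207/4032000)*t^(9:ℕ) + (2513/230400)*t^(10:ℕ) + (4363/448000)*t^(11:ℕ) + (-61/806400)*t^(12:ℕ) = (4801/537600)*t2^(12:ℕ) + (48371/403200)*t^(1:ℕ)*t2^(11:ℕ) + (13023053/16128000)*t^(2:ℕ)*t2^(10:ℕ) + (900961/256000)*t^(3:ℕ)*t2^(9:ℕ) + (87747047/8064000)*t^(4:ℕ)*t2^(8:ℕ) + (100376923/4032000)*t^(5:ℕ)*t2^(7:ℕ) + (231078793/5376000)*t^(6:ℕ)*t2^(6:ℕ) + (907982819/16128000)*t^(7:ℕ)*t2^(5:ℕ) +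 (9321709/168000)*t^(8:ℕ)*t2^(4:ℕ) + (35981737/896000)*t^(9:ℕ)*t2^(3:ℕ) + (40905889/2016000)*t^(10:ℕ)*t2^(2:ℕ) + (259769/40320)*t^(11:ℕ)*t2^(1:ℕ) + (218539/224000)*t^(12:ℕ) := by
    rw [ht2]; ring
  rw [e]
  positivity

lemma pos_cSP0_b5 (t : ℝ) (h3 : 0 ≤ t) (h4 : t ≤ 1) :
    0 ≤ (11843/1075200) + (1327/89600)*t + (877643/9216000)*t^(2:ℕ) + (249229/2580480)*t^(3:ℕ) + (6987011/32256000)*t^(4:ℕ) + (843203/4300800)*t^(5:ℕ) + (22381997/107520000)*t^(6:ℕ) + (1853939/10752000)*t^(7:ℕ) + (374191/4480000)*t^(8:ℕ) + (541363/8064000)*t^(9:ℕ) + (532693/46080000)*t^(10:ℕ) + (58003/6451200)*t^(11:ℕ) + (-1009/12902400)*t^(12:ℕ) := by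
  obtain ⟨t2, ht2⟩ : ∃ t2 : ℝ, t2 = 1 - t := ⟨_, rfl⟩
  have a4 : 0 ≤ t2 := by rw [ht2]; linarith
  have e : (11843/1075200) + (1327/89600)*t + (877643/9216000)*t^(2:ℕ) + (249229/2580480)*t^(3:ℕ) + (6987011/32256000)*t^(4:ℕ) + (843203/4300800)*t^(5:ℕ) + (22381997/107520000)*t^(6:ℕ) + (1853939/10752000)*t^(7:ℕ) + (374191/4480000)*t^(8:ℕ) + (541363/8064000)*t^(9:ℕ) + (532693/46080000)*t^(10:ℕ) + (58003/6451200)*t^(11:ℕ) + (-1009/12902400)*t^(12:ℕ) = (11843/1075200)*t2^(12:ℕ) + (1317/8960)*t^(1:ℕ)*t2^(11:ℕ) + (9078803/9216000)*t^(2:ℕ)*t2^(10:ℕ) + (18436169/4300800)*t^(3:ℕ)*t2^(9:ℕ) + (106986599/8064000)*t^(4:ℕ)*t2^(8:ℕ) + (1964041001/64512000)*t^(5:ℕ)*t2^(7:ℕ) + (4255929299/80640000)*t^(6:ℕ)*t2^(6:ℕ) + (22386396211/322560000)*t^(7:ℕ)*t2^(5:ℕ)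 + (11063866171/161280000)*t^(8:ℕ)*t2^(4:ℕ) + (16027538183/322560000)*t^(9:ℕ)*t2^(3:ℕ) + (192361379/7680000)*t^(10:ℕ)*t2^(2:ℕ) + (424739891/53760000)*t^(11:ℕ)*t2^(1:ℕ) + (190637887/161280000)*t^(12:ℕ) := by
    rw [ht2]; ring
  rw [e]
  positivity

lemma pos_cSP0_b6 (t : ℝ) (h3 : 0 ≤ t) (h4 : t ≤ 1) :
    0 ≤ (1903/143360) + (607/35840)*t + (2507419/21504000)*t^(2:ℕ) + (2543221/21504000)*t^(3:ℕ) + (5954941/21504000)*t^(4:ℕ) + (8394213/35840000)*t^(5:ℕ) + (7057259/26880000)*t^(6:ℕ) + (2597671/13440000)*t^(7:ℕ) + (2600963/26880000)*t^(8:ℕ) + (7274419/107520000)*t^(9:ℕ) + (822049/71680000)*t^(10:ℕ) + (52039/7168000)*t^(11:ℕ) + (-551/8601600)*t^(12:ℕ) := by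
  obtain ⟨t2, ht2⟩ : ∃ t2 : ℝ, t2 = 1 - t := ⟨_, rfl⟩
  have a4 : 0 ≤ t2 := by rw [ht2]; linarith
  have e : (1903/143360) + (607/35840)*t + (2507419/21504000)*t^(2:ℕ) + (2543221/21504000)*t^(3:ℕ) + (5954941/21504000)*t^(4:ℕ) + (8394213/35840000)*t^(5:ℕ) + (7057259/26880000)*t^(6:ℕ) + (2597671/13440000)*t^(7:ℕ) + (2600963/26880000)*t^(8:ℕ) + (7274419/107520000)*t^(9:ℕ) + (822049/71680000)*t^(10:ℕ) + (52039/7168000)*t^(11:ℕ) + (-551/8601600)*t^(12:ℕ) = (1903/143360)*t2^(12:ℕ) + (1579/8960)*t^(1:ℕ)*t2^(11:ℕ) + (25353319/21504000)*t^(2:ℕ)*t2^(10:ℕ) + (110447411/21504000)*t^(3:ℕ)*t2^(9:ℕ) + (68613707/4300800)*t^(4:ℕ)*t2^(8:ℕ) + (3956923459/107520000)*t^(5:ℕ)*t2^(7:ℕ) + (6899223019/107520000)*t^(6:ℕ)*t2^(6:ℕ) + (3039878551/35840000)*t^(7:ℕ)*t2^(5:ℕ)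 + (9045805877/107520000)*t^(8:ℕ)*t2^(4:ℕ) + (1639281073/26880000)*t^(9:ℕ)*t2^(3:ℕ) + (6591116753/215040000)*t^(10:ℕ)*t2^(2:ℕ) + (343805487/35840000)*t^(11:ℕ)*t2^(1:ℕ) + (11321/8000)*t^(12:ℕ) := by
    rw [ht2]; ring
  rw [e]
  positivity

lemma pos_cSP0_b7 (t : ℝ) (h3 : 0 ≤ t) (h4 : t ≤ 1) :
    0 ≤ (14477/921600) + (1177/61440)*t + (2614681/18432000)*t^(2:ℕ) + (2637319/18432000)*t^(3:ℕ) + (32655383/92160000)*t^(4:ℕ) + (50369923/184320000)*t^(5:ℕ) + (1526797/4608000)*t^(6:ℕ) + (853991/4096000)*t^(7:ℕ) + (5062859/46080000)*t^(8:ℕ) + (5879911/92160000)*t^(9:ℕ) + (448433/46080000)*t^(10:ℕ) + (21449/4608000)*t^(11:ℕ) + (-17/460800)*t^(12:ℕ) := by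
  obtain ⟨t2, ht2⟩ : ∃ t2 : ℝ, t2 = 1 - t := ⟨_, rfl⟩
  have a4 : 0 ≤ t2 := by rw [ht2]; linarith
  have e : (14477/921600) + (1177/61440)*t + (2614681/18432000)*t^(2:ℕ) + (2637319/18432000)*t^(3:ℕ) + (32655383/92160000)*t^(4:ℕ) + (50369923/184320000)*t^(5:ℕ) + (1526797/4608000)*t^(6:ℕ) + (853991/4096000)*t^(7:ℕ) + (5062859/46080000)*t^(8:ℕ) + (5879911/92160000)*t^(9:ℕ) + (448433/46080000)*t^(10:ℕ) + (21449/4608000)*t^(11:ℕ) + (-17/460800)*t^(12:ℕ) = (14477/921600)*t2^(12:ℕ) + (63793/307200)*t^(1:ℕ)*t2^(11:ℕ) + (25608421/18432000)*t^(2:ℕ)*t2^(10:ℕ) + (37301143/6144000)*t^(3:ℕ)*t2^(9:ℕ) + (1747556963/92160000)*t^(4:ℕ)*t2^(8:ℕ) + (2706098297/61440000)*t^(5:ℕ)*t2^(7:ℕ) + (4751737483/61440000)*t^(6:ℕ)*t2^(6:ℕ) + (9478264507/92160000)*t^(7:ℕ)*t2^(5:ℕ)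 + (2359435447/23040000)*t^(8:ℕ)*t2^(4:ℕ) + (13691417477/184320000)*t^(9:ℕ)*t2^(3:ℕ) + (152372633/4096000)*t^(10:ℕ)*t2^(2:ℕ) + (88616587/7680000)*t^(11:ℕ)*t2^(1:ℕ) + (51464119/30720000)*t^(12:ℕ) := by
    rw [ht2]; ring
  rw [e]
  positivity

lemma pos_cSP0_b8 (t : ℝ) (h3 : 0 ≤ t) (h4 : t ≤ 1) :
    0 ≤ (211/11520) + (247/11520)*t + (65881/384000)*t^(2:ℕ) + (131047/768000)*t^(3:ℕ) + (20916343/46080000)*t^(4:ℕ) + (7150319/23040000)*t^(5:ℕ) + (2409683/5760000)*t^(6:ℕ) + (2473153/11520000)*t^(7:ℕ) + (1119407/9216000)*t^(8:ℕ) + (1272557/23040000)*t^(9:ℕ) + (107317/23040000)*t^(10:ℕ) + (979/576000)*t^(11:ℕ) + (-1/76800)*t^(12:ℕ) := by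
  obtain ⟨t2, ht2⟩ : ∃ t2 : ℝ, t2 = 1 - t := ⟨_, rfl⟩
  have a4 : 0 ≤ t2 := by rw [ht2]; linarith
  have e : (211/11520) + (247/11520)*t + (65881/384000)*t^(2:ℕ) + (131047/768000)*t^(3:ℕ) + (20916343/46080000)*t^(4:ℕ) + (7150319/23040000)*t^(5:ℕ) + (2409683/5760000)*t^(6:ℕ) + (2473153/11520000)*t^(7:ℕ) + (1119407/9216000)*t^(8:ℕ) + (1272557/23040000)*t^(9:ℕ) + (107317/23040000)*t^(10:ℕ) + (979/576000)*t^(11:ℕ) + (-1/76800)*t^(12:ℕ) = (211/11520)*t2^(12:ℕ) + (2779/11520)*t^(1:ℕ)*t2^(11:ℕ) + (1861943/1152000)*t^(2:ℕ)*t2^(10:ℕ) + (16347001/2304000)*t^(3:ℕ)*t2^(9:ℕ) + (1028239123/46080000)*t^(4:ℕ)*t2^(8:ℕ) + (401311217/7680000)*t^(5:ℕ)*t2^(7:ℕ) + (236779423/2560000)*t^(6:ℕ)*t2^(6:ℕ) + (950841127/7680000)*t^(7:ℕ)*t2^(5:ℕ)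 + (380241661/3072000)*t^(8:ℕ)*t2^(4:ℕ) + (129347171/1440000)*t^(9:ℕ)*t2^(3:ℕ) + (516088547/11520000)*t^(10:ℕ)*t2^(2:ℕ) + (4952443/360000)*t^(11:ℕ)*t2^(1:ℕ) + (100469/51200)*t^(12:ℕ) := by
    rw [ht2]; ring
  rw [e]
  positivity

lemma pos_cSP0_b9 (t : ℝ) (h3 : 0 ≤ t) (h4 : t ≤ 1) :
    0 ≤ (27/1280) + (19/800)*t + (1321/6400)*t^(2:ℕ) + (2561/12800)*t^(3:ℕ) + (1489731/2560000)*t^(4:ℕ) + (109417/320000)*t^(5:ℕ) + (168743/320000)*t^(6:ℕ) + (53363/256000)*t^(7:ℕ) + (330443/2560000)*t^(8:ℕ) + (54247/1280000)*t^(9:ℕ) + (-1677/256000)*t^(10:ℕ) + (-3/6400)*t^(11:ℕ) := by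
  obtain ⟨t2, ht2⟩ : ∃ t2 : ℝ, t2 = 1 - t := ⟨_, rfl⟩
  have a4 : 0 ≤ t2 := by rw [ht2]; linarith
  have e : (27/1280) + (19/800)*t + (1321/6400)*t^(2:ℕ) + (2561/12800)*t^(3:ℕ) + (1489731/2560000)*t^(4:ℕ) + (109417/320000)*t^(5:ℕ) + (168743/320000)*t^(6:ℕ) + (53363/256000)*t^(7:ℕ) + (330443/2560000)*t^(8:ℕ) + (54247/1280000)*t^(9:ℕ) + (-1677/256000)*t^(10:ℕ) + (-3/6400)*t^(11:ℕ) = (27/1280)*t2^(12:ℕ) + (443/1600)*t^(1:ℕ)*t2^(11:ℕ) + (11903/6400)*t^(2:ℕ)*t2^(10:ℕ) + (105101/12800)*t^(3:ℕ)*t2^(9:ℕ) + (66639531/2560000)*t^(4:ℕ)*t2^(8:ℕ) + (1230253/20000)*t^(5:ℕ)*t2^(7:ℕ) + (70291041/640000)*t^(6:ℕ)*t2^(6:ℕ) + (189495943/1280000)*t^(7:ℕ)*t2^(5:ℕ) + (380460883/2560000)*t^(8:ℕ)*t2^(4:ℕ) + (138085971/1280000)*t^(9:ℕ)*t2^(3:ℕ)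 + (68548277/1280000)*t^(10:ℕ)*t2^(2:ℕ) + (1301129/80000)*t^(11:ℕ)*t2^(1:ℕ) + (364063/160000)*t^(12:ℕ) := by
    rw [ht2]; ring
  rw [e]
  positivity

lemma pos_cSP0_id (d C0 C1 C2 C3 C4 C5 C6 C7 C8 C9 : ℝ) (h1 : 0 ≤ d) (h2 : d ≤ (1/2))
    (b0 : 0 ≤ 1*C0 - (1/256))
    (b1 : 0 ≤ 1*C0 + (1/18)*C1 - (1/256))
    (b2 : 0 ≤ 1*C0 + (1/9)*C1 + (1/144)*C2 - (1/256))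
    (b3 : 0 ≤ 1*C0 + (1/6)*C1 + (1/48)*C2 + (1/672)*C3 - (1/256))
    (b4 : 0 ≤ 1*C0 + (2/9)*C1 + (1/24)*C2 + (1/168)*C3 + (1/2016)*C4 - (1/256))
    (b5 : 0 ≤ 1*C0 + (5/18)*C1 + (5/72)*C2 + (5/336)*C3 + (5/2016)*C4 + (1/4032)*C5 - (1/256))
    (b6 : 0 ≤ 1*C0 + (1/3)*C1 + (5/48)*C2 + (5/168)*C3 + (5/672)*C4 + (1/672)*C5 + (1/5376)*C6 - (1/256))
    (b7 : 0 ≤ 1*C0 + (7/18)*C1 + (7/48)*C2 + (5/96)*C3 + (5/288)*C4 + (1/192)*C5 + (1/768)*C6 + (1/4608)*C7 - (1/256))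
    (b8 : 0 ≤ 1*C0 + (4/9)*C1 + (7/36)*C2 + (1/12)*C3 + (5/144)*C4 + (1/72)*C5 + (1/192)*C6 + (1/576)*C7 + (1/2304)*C8 - (1/256))
    (b9 : 0 ≤ 1*C0 + (1/2)*C1 + (1/4)*C2 + (1/8)*C3 + (1/16)*C4 + (1/32)*C5 + (1/64)*C6 + (1/128)*C7 + (1/256)*C8 + (1/512)*C9 - (1/256))
    : 0 < C0 + d*C1 + d^(2:ℕ)*C2 + d^(3:ℕ)*C3 + d^(4:ℕ)*C4 + d^(5:ℕ)*C5 + d^(6:ℕ)*C6 + d^(7:ℕ)*C7 + d^(8:ℕ)*C8 + d^(9:ℕ)*C9 := by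
  obtain ⟨d2, hd2⟩ : ∃ d2 : ℝ, d2 = (1/2) - d := ⟨_, rfl⟩
  have a2 : 0 ≤ d2 := by rw [hd2]; linarith
  obtain ⟨B0, hB0⟩ : ∃ B : ℝ, B = 1*C0 - (1/256) := ⟨_, rfl⟩
  rw [← hB0] at b0
  obtain ⟨B1, hB1⟩ : ∃ B : ℝ, B = 1*C0 + (1/18)*C1 - (1/256) := ⟨_, rfl⟩
  rw [← hB1] at b1
  obtain ⟨B2, hB2⟩ : ∃ B : ℝ, B = 1*C0 + (1/9)*C1 + (1/144)*C2 - (1/256) := ⟨_, rfl⟩
  rw [← hB2] at b2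
  obtain ⟨B3, hB3⟩ : ∃ B : ℝ, B = 1*C0 + (1/6)*C1 + (1/48)*C2 + (1/672)*C3 - (1/256) := ⟨_, rfl⟩
  rw [← hB3] at b3
  obtain ⟨B4, hB4⟩ : ∃ B : ℝ, B = 1*C0 + (2/9)*C1 + (1/24)*C2 + (1/168)*C3 + (1/2016)*C4 - (1/256) := ⟨_, rfl⟩
  rw [← hB4] at b4
  obtain ⟨B5, hB5⟩ : ∃ B : ℝ, B = 1*C0 + (5/18)*C1 + (5/72)*C2 + (5/336)*C3 + (5/2016)*C4 + (1/4032)*C5 - (1/256) := ⟨_, rfl⟩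
  rw [← hB5] at b5
  obtain ⟨B6, hB6⟩ : ∃ B : ℝ, B = 1*C0 + (1/3)*C1 + (5/48)*C2 + (5/168)*C3 + (5/672)*C4 + (1/672)*C5 + (1/5376)*C6 - (1/256) := ⟨_, rfl⟩
  rw [← hB6] at b6
  obtain ⟨B7, hB7⟩ : ∃ B : ℝ, B = 1*C0 + (7/18)*C1 + (7/48)*C2 + (5/96)*C3 + (5/288)*C4 + (1/192)*C5 + (1/768)*C6 + (1/4608)*C7 - (1/256) := ⟨_, rfl⟩
  rw [← hB7] at b7
  obtain ⟨B8, hB8⟩ : ∃ B : ℝ, B = 1*C0 + (4/9)*C1 + (7/36)*C2 + (1/12)*C3 + (5/144)*C4 + (1/72)*C5 + (1/192)*C6 + (1/576)*C7 + (1/2304)*C8 - (1/256) := ⟨_, rfl⟩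
  rw [← hB8] at b8
  obtain ⟨B9, hB9⟩ : ∃ B : ℝ, B = 1*C0 + (1/2)*C1 + (1/4)*C2 + (1/8)*C3 + (1/16)*C4 + (1/32)*C5 + (1/64)*C6 + (1/128)*C7 + (1/256)*C8 + (1/512)*C9 - (1/256) := ⟨_, rfl⟩
  rw [← hB9] at b9
  have e : C0 + d*C1 + d^(2:ℕ)*C2 + d^(3:ℕ)*C3 + d^(4:ℕ)*C4 + d^(5:ℕ)*C5 + d^(6:ℕ)*C6 + d^(7:ℕ)*C7 + d^(8:ℕ)*C8 + d^(9:ℕ)*C9 = (1/256) + (512*d2^(9:ℕ)*B0 + 4608*d^(1:ℕ)*d2^(8:ℕ)*B1 + 18432*d^(2:ℕ)*d2^(7:ℕ)*B2 + 43008*d^(3:ℕ)*d2^(6:ℕ)*B3 + 64512*d^(4:ℕ)*d2^(5:ℕ)*B4 + 64512*d^(5:ℕ)*d2^(4:ℕ)*B5 + 43008*d^(6:ℕ)*d2^(3:ℕ)*B6 + 18432*d^(7:ℕ)*d2^(2:ℕ)*B7 + 4608*d^(8:ℕ)*d2^(1:ℕ)*B8 + 512*d^(9:ℕ)*B9) := by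
    rw [hB0, hB1, hB2, hB3, hB4, hB5, hB6, hB7, hB8, hB9, hd2]; ring
  rw [e]
  positivity

lemma pos_cSP0 (d t : ℝ) (h1 : 0 ≤ d) (h2 : d ≤ (1/2)) (h3 : 0 ≤ t) (h4 : t ≤ 1) :
    0 < (1/160) + (1/160)*t + (1/32)*t^(2:ℕ) + (1/32)*t^(3:ℕ) + (1/16)*t^(4:ℕ) + (1/16)*t^(5:ℕ) + (1/16)*t^(6:ℕ) + (1/16)*t^(7:ℕ) + (1/32)*t^(8:ℕ) + (1/32)*t^(9:ℕ) + (1/160)*t^(10:ℕ) + (1/160)*t^(11:ℕ) + (319/12800)*d + (161/6400)*d*t + (1911/12800)*d*t^(2:ℕ) + (483/3200)*d*t^(3:ℕ) + (413/1280)*d*t^(4:ℕ) + (1047/3200)*d*t^(5:ℕ) + (411/1280)*d*t^(6:ℕ) + (131/400)*d*t^(7:ℕ) + (75/512)*d*t^(8:ℕ) + (969/6400)*d*t^(9:ℕ) + (299/12800)*d*t^(10:ℕ) + (81/3200)*d*t^(11:ℕ) + (-1/3200)*d*t^(12:ℕ) + (161/6400)*d^(2:ℕ) + (19/800)*d^(2:ℕ)*t + (1771/6400)*d^(2:ℕ)*t^(2:ℕ)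 + (9/32)*d^(2:ℕ)*t^(3:ℕ) + (457/640)*d^(2:ℕ)*t^(4:ℕ) + (939/1600)*d^(2:ℕ)*t^(5:ℕ) + (2053/3200)*d^(2:ℕ)*t^(6:ℕ) + (631/1600)*d^(2:ℕ)*t^(7:ℕ) + (1097/6400)*d^(2:ℕ)*t^(8:ℕ) + (11/320)*d^(2:ℕ)*t^(9:ℕ) + (-53/6400)*d^(2:ℕ)*t^(10:ℕ) + (-49/1600)*d^(2:ℕ)*t^(11:ℕ) + (-1/1600)*d^(2:ℕ)*t^(12:ℕ) + (-13/3200)*d^(3:ℕ)*t + (679/3200)*d^(3:ℕ)*t^(2:ℕ) + (4313/16000)*d^(3:ℕ)*t^(3:ℕ) + (13707/16000)*d^(3:ℕ)*t^(4:ℕ) + (391/1600)*d^(3:ℕ)*t^(5:ℕ) + (10831/16000)*d^(3:ℕ)*t^(6:ℕ) + (-3279/8000)*d^(3:ℕ)*t^(7:ℕ) + (11/16000)*d^(3:ℕ)*t^(8:ℕ) + (-8349/16000)*d^(3:ℕ)*t^(9:ℕ) + (-229/8000)*d^(3:ℕ)*t^(10:ℕ) + (-2259/16000)*d^(3:ℕ)*t^(11:ℕ) + (1/320)*d^(3:ℕ)*t^(12:ℕ) + (1/1600)*d^(4:ℕ) + (-1/160)*d^(4:ℕ)*t + (97/2000)*d^(4:ℕ)*t^(2:ℕ) + (-9/320)*d^(4:ℕ)*t^(3:ℕ)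 + (127/160)*d^(4:ℕ)*t^(4:ℕ) + (-307/500)*d^(4:ℕ)*t^(5:ℕ) + (5409/8000)*d^(4:ℕ)*t^(6:ℕ) + (-7237/8000)*d^(4:ℕ)*t^(7:ℕ) + (-7/64)*d^(4:ℕ)*t^(8:ℕ) + (-1409/4000)*d^(4:ℕ)*t^(9:ℕ) + (-297/8000)*d^(4:ℕ)*t^(10:ℕ) + (-159/4000)*d^(4:ℕ)*t^(11:ℕ) + (1/400)*d^(4:ℕ)*t^(12:ℕ) + (-1/800)*d^(5:ℕ) + (-3/800)*d^(5:ℕ)*t + (941/16000)*d^(5:ℕ)*t^(2:ℕ) + (-871/3200)*d^(5:ℕ)*t^(3:ℕ) + (5801/8000)*d^(5:ℕ)*t^(4:ℕ) + (-2543/3200)*d^(5:ℕ)*t^(5:ℕ) + (54791/80000)*d^(5:ℕ)*t^(6:ℕ) + (-2873/8000)*d^(5:ℕ)*t^(7:ℕ) + (-4637/20000)*d^(5:ℕ)*t^(8:ℕ) + (1251/4000)*d^(5:ℕ)*t^(9:ℕ) + (-27549/80000)*d^(5:ℕ)*t^(10:ℕ) + (233/1600)*d^(5:ℕ)*t^(11:ℕ) + (-9/3200)*d^(5:ℕ)*t^(12:ℕ) + (-33/4000)*d^(6:ℕ)*t^(2:ℕ) + (-9/4000)*d^(6:ℕ)*t^(3:ℕ) + (157/4000)*d^(6:ℕ)*t^(4:ℕ)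 + (-411/20000)*d^(6:ℕ)*t^(5:ℕ) + (-573/10000)*d^(6:ℕ)*t^(6:ℕ) + (-59/2500)*d^(6:ℕ)*t^(7:ℕ) + (-1751/10000)*d^(6:ℕ)*t^(8:ℕ) + (4579/20000)*d^(6:ℕ)*t^(9:ℕ) + (-13957/40000)*d^(6:ℕ)*t^(10:ℕ) + (937/4000)*d^(6:ℕ)*t^(11:ℕ) + (-19/1600)*d^(6:ℕ)*t^(12:ℕ) + (33/4000)*d^(7:ℕ)*t^(2:ℕ) + (-197/4000)*d^(7:ℕ)*t^(3:ℕ) + (-487/20000)*d^(7:ℕ)*t^(4:ℕ) + (1711/8000)*d^(7:ℕ)*t^(5:ℕ) + (-763/2000)*d^(7:ℕ)*t^(6:ℕ) + (13619/40000)*d^(7:ℕ)*t^(7:ℕ) + (-1991/10000)*d^(7:ℕ)*t^(8:ℕ) + (2217/20000)*d^(7:ℕ)*t^(9:ℕ) + (-1069/20000)*d^(7:ℕ)*t^(10:ℕ) + (67/2000)*d^(7:ℕ)*t^(11:ℕ) + (-1/800)*d^(7:ℕ)*t^(12:ℕ) + (9/1000)*d^(8:ℕ)*t^(3:ℕ) + (-889/20000)*d^(8:ℕ)*t^(4:ℕ) + (93/1000)*d^(8:ℕ)*t^(5:ℕ) + (-279/2500)*d^(8:ℕ)*t^(6:ℕ) + (699/10000)*d^(8:ℕ)*t^(7:ℕ)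 + (-69/20000)*d^(8:ℕ)*t^(8:ℕ) + (-151/10000)*d^(8:ℕ)*t^(9:ℕ) + (41/5000)*d^(8:ℕ)*t^(10:ℕ) + (-1/1000)*d^(8:ℕ)*t^(11:ℕ) + (3/400)*d^(8:ℕ)*t^(12:ℕ) + (-23/2000)*d^(9:ℕ)*t^(4:ℕ) + (331/10000)*d^(9:ℕ)*t^(5:ℕ) + (-209/5000)*d^(9:ℕ)*t^(6:ℕ) + (191/10000)*d^(9:ℕ)*t^(7:ℕ) + (183/10000)*d^(9:ℕ)*t^(8:ℕ) + (-21/500)*d^(9:ℕ)*t^(9:ℕ) + (223/5000)*d^(9:ℕ)*t^(10:ℕ) + (-7/250)*d^(9:ℕ)*t^(11:ℕ) + (1/100)*d^(9:ℕ)*t^(12:ℕ) := by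
  have e0 : (1/160) + (1/160)*t + (1/32)*t^(2:ℕ) + (1/32)*t^(3:ℕ) + (1/16)*t^(4:ℕ) + (1/16)*t^(5:ℕ) + (1/16)*t^(6:ℕ) + (1/16)*t^(7:ℕ) + (1/32)*t^(8:ℕ) + (1/32)*t^(9:ℕ) + (1/160)*t^(10:ℕ) + (1/160)*t^(11:ℕ) + (319/12800)*d + (161/6400)*d*t + (1911/12800)*d*t^(2:ℕ) + (483/3200)*d*t^(3:ℕ) + (413/1280)*d*t^(4:ℕ) + (1047/3200)*d*t^(5:ℕ) + (411/1280)*d*t^(6:ℕ) + (131/400)*d*t^(7:ℕ) + (75/512)*d*t^(8:ℕ) + (969/6400)*d*t^(9:ℕ) + (299/12800)*d*t^(10:ℕ) + (81/3200)*d*t^(11:ℕ) + (-1/3200)*d*t^(12:ℕ) + (161/6400)*d^(2:ℕ) + (19/800)*d^(2:ℕ)*t + (1771/6400)*d^(2:ℕ)*t^(2:ℕ) + (9/32)*d^(2:ℕ)*t^(3:ℕ) + (457/640)*d^(2:ℕ)*t^(4:ℕ) + (939/1600)*d^(2:ℕ)*t^(5:ℕ) + (2053/3200)*d^(2:ℕ)*t^(6:ℕ) + (631/1600)*d^(2:ℕ)*t^(7:ℕ) + (1097/6400)*d^(2:ℕ)*t^(8:ℕ)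 + (11/320)*d^(2:ℕ)*t^(9:ℕ) + (-53/6400)*d^(2:ℕ)*t^(10:ℕ) + (-49/1600)*d^(2:ℕ)*t^(11:ℕ) + (-1/1600)*d^(2:ℕ)*t^(12:ℕ) + (-13/3200)*d^(3:ℕ)*t + (679/3200)*d^(3:ℕ)*t^(2:ℕ) + (4313/16000)*d^(3:ℕ)*t^(3:ℕ) + (13707/16000)*d^(3:ℕ)*t^(4:ℕ) + (391/1600)*d^(3:ℕ)*t^(5:ℕ) + (10831/16000)*d^(3:ℕ)*t^(6:ℕ) + (-3279/8000)*d^(3:ℕ)*t^(7:ℕ) + (11/16000)*d^(3:ℕ)*t^(8:ℕ) + (-8349/16000)*d^(3:ℕ)*t^(9:ℕ) + (-229/8000)*d^(3:ℕ)*t^(10:ℕ) + (-2259/16000)*d^(3:ℕ)*t^(11:ℕ) + (1/320)*d^(3:ℕ)*t^(12:ℕ) + (1/1600)*d^(4:ℕ) + (-1/160)*d^(4:ℕ)*t + (97/2000)*d^(4:ℕ)*t^(2:ℕ) + (-9/320)*d^(4:ℕ)*t^(3:ℕ) + (127/160)*d^(4:ℕ)*t^(4:ℕ) + (-307/500)*d^(4:ℕ)*t^(5:ℕ) + (5409/8000)*d^(4:ℕ)*t^(6:ℕ) + (-7237/8000)*d^(4:ℕ)*t^(7:ℕ) + (-7/64)*d^(4:ℕ)*t^(8:ℕ) + (-1409/4000)*d^(4:ℕ)*t^(9:ℕ)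 + (-297/8000)*d^(4:ℕ)*t^(10:ℕ) + (-159/4000)*d^(4:ℕ)*t^(11:ℕ) + (1/400)*d^(4:ℕ)*t^(12:ℕ) + (-1/800)*d^(5:ℕ) + (-3/800)*d^(5:ℕ)*t + (941/16000)*d^(5:ℕ)*t^(2:ℕ) + (-871/3200)*d^(5:ℕ)*t^(3:ℕ) + (5801/8000)*d^(5:ℕ)*t^(4:ℕ) + (-2543/3200)*d^(5:ℕ)*t^(5:ℕ) + (54791/80000)*d^(5:ℕ)*t^(6:ℕ) + (-2873/8000)*d^(5:ℕ)*t^(7:ℕ) + (-4637/20000)*d^(5:ℕ)*t^(8:ℕ) + (1251/4000)*d^(5:ℕ)*t^(9:ℕ) + (-27549/80000)*d^(5:ℕ)*t^(10:ℕ) + (233/1600)*d^(5:ℕ)*t^(11:ℕ) + (-9/3200)*d^(5:ℕ)*t^(12:ℕ) + (-33/4000)*d^(6:ℕ)*t^(2:ℕ) + (-9/4000)*d^(6:ℕ)*t^(3:ℕ) + (157/4000)*d^(6:ℕ)*t^(4:ℕ) + (-411/20000)*d^(6:ℕ)*t^(5:ℕ) + (-573/10000)*d^(6:ℕ)*t^(6:ℕ) + (-59/2500)*d^(6:ℕ)*t^(7:ℕ) + (-1751/10000)*d^(6:ℕ)*t^(8:ℕ) + (4579/20000)*d^(6:ℕ)*t^(9:ℕ) + (-13957/40000)*d^(6:ℕ)*t^(10:ℕ)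 + (937/4000)*d^(6:ℕ)*t^(11:ℕ) + (-19/1600)*d^(6:ℕ)*t^(12:ℕ) + (33/4000)*d^(7:ℕ)*t^(2:ℕ) + (-197/4000)*d^(7:ℕ)*t^(3:ℕ) + (-487/20000)*d^(7:ℕ)*t^(4:ℕ) + (1711/8000)*d^(7:ℕ)*t^(5:ℕ) + (-763/2000)*d^(7:ℕ)*t^(6:ℕ) + (13619/40000)*d^(7:ℕ)*t^(7:ℕ) + (-1991/10000)*d^(7:ℕ)*t^(8:ℕ) + (2217/20000)*d^(7:ℕ)*t^(9:ℕ) + (-1069/20000)*d^(7:ℕ)*t^(10:ℕ) + (67/2000)*d^(7:ℕ)*t^(11:ℕ) + (-1/800)*d^(7:ℕ)*t^(12:ℕ) + (9/1000)*d^(8:ℕ)*t^(3:ℕ) + (-889/20000)*d^(8:ℕ)*t^(4:ℕ) + (93/1000)*d^(8:ℕ)*t^(5:ℕ) + (-279/2500)*d^(8:ℕ)*t^(6:ℕ) + (699/10000)*d^(8:ℕ)*t^(7:ℕ) + (-69/20000)*d^(8:ℕ)*t^(8:ℕ) + (-151/10000)*d^(8:ℕ)*t^(9:ℕ) + (41/5000)*d^(8:ℕ)*t^(10:ℕ) + (-1/1000)*d^(8:ℕ)*t^(11:ℕ) + (3/400)*d^(8:ℕ)*t^(12:ℕ) + (-23/2000)*d^(9:ℕ)*t^(4:ℕ) + (331/10000)*d^(9:ℕ)*t^(5:ℕ)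 + (-209/5000)*d^(9:ℕ)*t^(6:ℕ) + (191/10000)*d^(9:ℕ)*t^(7:ℕ) + (183/10000)*d^(9:ℕ)*t^(8:ℕ) + (-21/500)*d^(9:ℕ)*t^(9:ℕ) + (223/5000)*d^(9:ℕ)*t^(10:ℕ) + (-7/250)*d^(9:ℕ)*t^(11:ℕ) + (1/100)*d^(9:ℕ)*t^(12:ℕ) = ((1/160) + (1/160)*t + (1/32)*t^(2:ℕ) + (1/32)*t^(3:ℕ) + (1/16)*t^(4:ℕ) + (1/16)*t^(5:ℕ) + (1/16)*t^(6:ℕ) + (1/16)*t^(7:ℕ) + (1/32)*t^(8:ℕ) + (1/32)*t^(9:ℕ) + (1/160)*t^(10:ℕ) + (1/160)*t^(11:ℕ)) + d*((319/12800) + (161/6400)*t + (1911/12800)*t^(2:ℕ) + (483/3200)*t^(3:ℕ) + (413/1280)*t^(4:ℕ) + (1047/3200)*t^(5:ℕ) + (411/1280)*t^(6:ℕ) + (131/400)*t^(7:ℕ) + (75/512)*t^(8:ℕ) + (969/6400)*t^(9:ℕ) + (299/12800)*t^(10:ℕ) + (81/3200)*t^(11:ℕ) + (-1/3200)*t^(12:ℕ)) + d^(2:ℕ)*((161/6400) + (19/800)*t + (1771/6400)*t^(2:ℕ)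 + (9/32)*t^(3:ℕ) + (457/640)*t^(4:ℕ) + (939/1600)*t^(5:ℕ) + (2053/3200)*t^(6:ℕ) + (631/1600)*t^(7:ℕ) + (1097/6400)*t^(8:ℕ) + (11/320)*t^(9:ℕ) + (-53/6400)*t^(10:ℕ) + (-49/1600)*t^(11:ℕ) + (-1/1600)*t^(12:ℕ)) + d^(3:ℕ)*((-13/3200)*t + (679/3200)*t^(2:ℕ) + (4313/16000)*t^(3:ℕ) + (13707/16000)*t^(4:ℕ) + (391/1600)*t^(5:ℕ) + (10831/16000)*t^(6:ℕ) + (-3279/8000)*t^(7:ℕ) + (11/16000)*t^(8:ℕ) + (-8349/16000)*t^(9:ℕ) + (-229/8000)*t^(10:ℕ) + (-2259/16000)*t^(11:ℕ) + (1/320)*t^(12:ℕ)) + d^(4:ℕ)*((1/1600) + (-1/160)*t + (97/2000)*t^(2:ℕ) + (-9/320)*t^(3:ℕ) + (127/160)*t^(4:ℕ) + (-307/500)*t^(5:ℕ) + (5409/8000)*t^(6:ℕ) + (-7237/8000)*t^(7:ℕ) + (-7/64)*t^(8:ℕ) + (-1409/4000)*t^(9:ℕ) + (-297/8000)*t^(10:ℕ) + (-159/4000)*t^(11:ℕ)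 + (1/400)*t^(12:ℕ)) + d^(5:ℕ)*((-1/800) + (-3/800)*t + (941/16000)*t^(2:ℕ) + (-871/3200)*t^(3:ℕ) + (5801/8000)*t^(4:ℕ) + (-2543/3200)*t^(5:ℕ) + (54791/80000)*t^(6:ℕ) + (-2873/8000)*t^(7:ℕ) + (-4637/20000)*t^(8:ℕ) + (1251/4000)*t^(9:ℕ) + (-27549/80000)*t^(10:ℕ) + (233/1600)*t^(11:ℕ) + (-9/3200)*t^(12:ℕ)) + d^(6:ℕ)*((-33/4000)*t^(2:ℕ) + (-9/4000)*t^(3:ℕ) + (157/4000)*t^(4:ℕ) + (-411/20000)*t^(5:ℕ) + (-573/10000)*t^(6:ℕ) + (-59/2500)*t^(7:ℕ) + (-1751/10000)*t^(8:ℕ) + (4579/20000)*t^(9:ℕ) + (-13957/40000)*t^(10:ℕ) + (937/4000)*t^(11:ℕ) + (-19/1600)*t^(12:ℕ)) + d^(7:ℕ)*((33/4000)*t^(2:ℕ) + (-197/4000)*t^(3:ℕ) + (-487/20000)*t^(4:ℕ) + (1711/8000)*t^(5:ℕ) + (-763/2000)*t^(6:ℕ) + (13619/40000)*t^(7:ℕ) + (-1991/10000)*t^(8:ℕ)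 + (2217/20000)*t^(9:ℕ) + (-1069/20000)*t^(10:ℕ) + (67/2000)*t^(11:ℕ) + (-1/800)*t^(12:ℕ)) + d^(8:ℕ)*((9/1000)*t^(3:ℕ) + (-889/20000)*t^(4:ℕ) + (93/1000)*t^(5:ℕ) + (-279/2500)*t^(6:ℕ) + (699/10000)*t^(7:ℕ) + (-69/20000)*t^(8:ℕ) + (-151/10000)*t^(9:ℕ) + (41/5000)*t^(10:ℕ) + (-1/1000)*t^(11:ℕ) + (3/400)*t^(12:ℕ)) + d^(9:ℕ)*((-23/2000)*t^(4:ℕ) + (331/10000)*t^(5:ℕ) + (-209/5000)*t^(6:ℕ) + (191/10000)*t^(7:ℕ) + (183/10000)*t^(8:ℕ) + (-21/500)*t^(9:ℕ) + (223/5000)*t^(10:ℕ) + (-7/250)*t^(11:ℕ) + (1/100)*t^(12:ℕ)) := by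
    ring
  rw [e0]
  exact pos_cSP0_id d ((1/160) + (1/160)*t + (1/32)*t^(2:ℕ) + (1/32)*t^(3:ℕ) + (1/16)*t^(4:ℕ) + (1/16)*t^(5:ℕ) + (1/16)*t^(6:ℕ) + (1/16)*t^(7:ℕ) + (1/32)*t^(8:ℕ) + (1/32)*t^(9:ℕ) + (1/160)*t^(10:ℕ) + (1/160)*t^(11:ℕ)) ((319/12800) + (161/6400)*t + (1911/12800)*t^(2:ℕ) + (483/3200)*t^(3:ℕ) + (413/1280)*t^(4:ℕ) + (1047/3200)*t^(5:ℕ) + (411/1280)*t^(6:ℕ) + (131/400)*t^(7:ℕ) + (75/512)*t^(8:ℕ) + (969/6400)*t^(9:ℕ) + (299/12800)*t^(10:ℕ) + (81/3200)*t^(11:ℕ) + (-1/3200)*t^(12:ℕ)) ((161/6400) + (19/800)*t + (1771/6400)*t^(2:ℕ) + (9/32)*t^(3:ℕ) + (457/640)*t^(4:ℕ) + (939/1600)*t^(5:ℕ) + (2053/3200)*t^(6:ℕ) + (631/1600)*t^(7:ℕ) + (1097/6400)*t^(8:ℕ) + (11/320)*t^(9:ℕ) + (-53/6400)*t^(10:ℕ) + (-49/1600)*t^(11:ℕ)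 + (-1/1600)*t^(12:ℕ)) ((-13/3200)*t + (679/3200)*t^(2:ℕ) + (4313/16000)*t^(3:ℕ) + (13707/16000)*t^(4:ℕ) + (391/1600)*t^(5:ℕ) + (10831/16000)*t^(6:ℕ) + (-3279/8000)*t^(7:ℕ) + (11/16000)*t^(8:ℕ) + (-8349/16000)*t^(9:ℕ) + (-229/8000)*t^(10:ℕ) + (-2259/16000)*t^(11:ℕ) + (1/320)*t^(12:ℕ)) ((1/1600) + (-1/160)*t + (97/2000)*t^(2:ℕ) + (-9/320)*t^(3:ℕ) + (127/160)*t^(4:ℕ) + (-307/500)*t^(5:ℕ) + (5409/8000)*t^(6:ℕ) + (-7237/8000)*t^(7:ℕ) + (-7/64)*t^(8:ℕ) + (-1409/4000)*t^(9:ℕ) + (-297/8000)*t^(10:ℕ) + (-159/4000)*t^(11:ℕ) + (1/400)*t^(12:ℕ)) ((-1/800) + (-3/800)*t + (941/16000)*t^(2:ℕ) + (-871/3200)*t^(3:ℕ) + (5801/8000)*t^(4:ℕ) + (-2543/3200)*t^(5:ℕ) + (54791/80000)*t^(6:ℕ) + (-2873/8000)*t^(7:ℕ) + (-4637/20000)*t^(8:ℕ)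 + (1251/4000)*t^(9:ℕ) + (-27549/80000)*t^(10:ℕ) + (233/1600)*t^(11:ℕ) + (-9/3200)*t^(12:ℕ)) ((-33/4000)*t^(2:ℕ) + (-9/4000)*t^(3:ℕ) + (157/4000)*t^(4:ℕ) + (-411/20000)*t^(5:ℕ) + (-573/10000)*t^(6:ℕ) + (-59/2500)*t^(7:ℕ) + (-1751/10000)*t^(8:ℕ) + (4579/20000)*t^(9:ℕ) + (-13957/40000)*t^(10:ℕ) + (937/4000)*t^(11:ℕ) + (-19/1600)*t^(12:ℕ)) ((33/4000)*t^(2:ℕ) + (-197/4000)*t^(3:ℕ) + (-487/20000)*t^(4:ℕ) + (1711/8000)*t^(5:ℕ) + (-763/2000)*t^(6:ℕ) + (13619/40000)*t^(7:ℕ) + (-1991/10000)*t^(8:ℕ) + (2217/20000)*t^(9:ℕ) + (-1069/20000)*t^(10:ℕ) + (67/2000)*t^(11:ℕ) + (-1/800)*t^(12:ℕ)) ((9/1000)*t^(3:ℕ) + (-889/20000)*t^(4:ℕ) + (93/1000)*t^(5:ℕ) + (-279/2500)*t^(6:ℕ) + (699/10000)*t^(7:ℕ) + (-69/20000)*t^(8:ℕ) + (-151/10000)*t^(9:ℕ)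 + (41/5000)*t^(10:ℕ) + (-1/1000)*t^(11:ℕ) + (3/400)*t^(12:ℕ)) ((-23/2000)*t^(4:ℕ) + (331/10000)*t^(5:ℕ) + (-209/5000)*t^(6:ℕ) + (191/10000)*t^(7:ℕ) + (183/10000)*t^(8:ℕ) + (-21/500)*t^(9:ℕ) + (223/5000)*t^(10:ℕ) + (-7/250)*t^(11:ℕ) + (1/100)*t^(12:ℕ)) h1 h2 ((pos_cSP0_b0 t h3 h4).trans_eq (by ring)) ((pos_cSP0_b1 t h3 h4).trans_eq (by ring)) ((pos_cSP0_b2 t h3 h4).trans_eq (by ring)) ((pos_cSP0_b3 t h3 h4).trans_eq (by ring)) ((pos_cSP0_b4 t h3 h4).trans_eq (by ring)) ((pos_cSP0_b5 t h3 h4).trans_eq (by ring)) ((pos_cSP0_b6 t h3 h4).trans_eq (by ring)) ((pos_cSP0_b7 t h3 h4).trans_eq (by ring)) ((pos_cSP0_b8 t h3 h4).trans_eq (by ring)) ((pos_cSP0_b9 t h3 h4).trans_eq (by ring))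

lemma pos_cSPe_b0 (t : ℝ) (h3 : 0 ≤ t) (h4 : t ≤ 1) :
    0 ≤ (7/6400) + (21/6400)*t + (191/12800)*t^(2:ℕ) + (53/3200)*t^(3:ℕ) + (37/1280)*t^(4:ℕ) + (107/3200)*t^(5:ℕ) + (7/256)*t^(6:ℕ) + (27/800)*t^(7:ℕ) + (31/2560)*t^(8:ℕ) + (109/6400)*t^(9:ℕ) + (19/12800)*t^(10:ℕ) + (11/3200)*t^(11:ℕ) + (-1/3200)*t^(12:ℕ) := by
  obtain ⟨t2, ht2⟩ : ∃ t2 : ℝ, t2 = 1 - t := ⟨_, rfl⟩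
  have a4 : 0 ≤ t2 := by rw [ht2]; linarith
  have e : (7/6400) + (21/6400)*t + (191/12800)*t^(2:ℕ) + (53/3200)*t^(3:ℕ) + (37/1280)*t^(4:ℕ) + (107/3200)*t^(5:ℕ) + (7/256)*t^(6:ℕ) + (27/800)*t^(7:ℕ) + (31/2560)*t^(8:ℕ) + (109/6400)*t^(9:ℕ) + (19/12800)*t^(10:ℕ) + (11/3200)*t^(11:ℕ) + (-1/3200)*t^(12:ℕ) = (7/6400)*t2^(12:ℕ) + (21/1280)*t^(1:ℕ)*t2^(11:ℕ) + (1577/12800)*t^(2:ℕ)*t2^(10:ℕ) + (939/1600)*t^(3:ℕ)*t2^(9:ℕ) + (24733/12800)*t^(4:ℕ)*t2^(8:ℕ) + (7361/1600)*t^(5:ℕ)*t2^(7:ℕ) + (25991/3200)*t^(6:ℕ)*t2^(6:ℕ) + (17197/1600)*t^(7:ℕ)*t2^(5:ℕ) + (136057/12800)*t^(8:ℕ)*t2^(4:ℕ) + (24649/3200)*t^(9:ℕ)*t2^(3:ℕ) + (24991/6400)*t^(10:ℕ)*t2^(2:ℕ) + (801/640)*t^(11:ℕ)*t2^(1:ℕ) + (2471/12800)*t^(12:ℕ) := by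
    rw [ht2]; ring
  rw [e]
  positivity

lemma pos_cSPe_b1 (t : ℝ) (h3 : 0 ≤ t) (h4 : t ≤ 1) :
    0 ≤ (109/51200) + (511/128000)*t + (5553/256000)*t^(2:ℕ) + (717/32000)*t^(3:ℕ) + (5919/128000)*t^(4:ℕ) + (2767/64000)*t^(5:ℕ) + (5693/128000)*t^(6:ℕ) + (63/1600)*t^(7:ℕ) + (4793/256000)*t^(8:ℕ) + (479/25600)*t^(9:ℕ) + (129/51200)*t^(10:ℕ) + (133/32000)*t^(11:ℕ) + (-23/64000)*t^(12:ℕ) := by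
  obtain ⟨t2, ht2⟩ : ∃ t2 : ℝ, t2 = 1 - t := ⟨_, rfl⟩
  have a4 : 0 ≤ t2 := by rw [ht2]; linarith
  have e : (109/51200) + (511/128000)*t + (5553/256000)*t^(2:ℕ) + (717/32000)*t^(3:ℕ) + (5919/128000)*t^(4:ℕ) + (2767/64000)*t^(5:ℕ) + (5693/128000)*t^(6:ℕ) + (63/1600)*t^(7:ℕ) + (4793/256000)*t^(8:ℕ) + (479/25600)*t^(9:ℕ) + (129/51200)*t^(10:ℕ) + (133/32000)*t^(11:ℕ) + (-23/64000)*t^(12:ℕ) = (109/51200)*t2^(12:ℕ) + (3781/128000)*t^(1:ℕ)*t2^(11:ℕ) + (10553/51200)*t^(2:ℕ)*t2^(10:ℕ) + (3709/4000)*t^(3:ℕ)*t2^(9:ℕ) + (93969/32000)*t^(4:ℕ)*t2^(8:ℕ) + (218441/32000)*t^(5:ℕ)*t2^(7:ℕ) + (380503/32000)*t^(6:ℕ)*t2^(6:ℕ) + (124989/8000)*t^(7:ℕ)*t2^(5:ℕ) + (984481/64000)*t^(8:ℕ)*t2^(4:ℕ) + (177469/16000)*t^(9:ℕ)*t2^(3:ℕ) + (178477/32000)*t^(10:ℕ)*t2^(2:ℕ)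 + (28233/16000)*t^(11:ℕ)*t2^(1:ℕ) + (17107/64000)*t^(12:ℕ) := by
    rw [ht2]; ring
  rw [e]
  positivity

lemma pos_cSPe_b2 (t : ℝ) (h3 : 0 ≤ t) (h4 : t ≤ 1) :
    0 ≤ (30791/9216000) + (2441/512000)*t + (93509/3072000)*t^(2:ℕ) + (115909/3840000)*t^(3:ℕ) + (180509/2560000)*t^(4:ℕ) + (25451/460800)*t^(5:ℕ) + (1570723/23040000)*t^(6:ℕ) + (63571/1440000)*t^(7:ℕ) + (1244711/46080000)*t^(8:ℕ) + (440573/23040000)*t^(9:ℕ) + (58549/15360000)*t^(10:ℕ) + (55189/11520000)*t^(11:ℕ) + (-181/460800)*t^(12:ℕ) := by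
  obtain ⟨t2, ht2⟩ : ∃ t2 : ℝ, t2 = 1 - t := ⟨_, rfl⟩
  have a4 : 0 ≤ t2 := by rw [ht2]; linarith
  have e : (30791/9216000) + (2441/512000)*t + (93509/3072000)*t^(2:ℕ) + (115909/3840000)*t^(3:ℕ) + (180509/2560000)*t^(4:ℕ) + (25451/460800)*t^(5:ℕ) + (1570723/23040000)*t^(6:ℕ) + (63571/1440000)*t^(7:ℕ) + (1244711/46080000)*t^(8:ℕ) + (440573/23040000)*t^(9:ℕ) + (58549/15360000)*t^(10:ℕ) + (55189/11520000)*t^(11:ℕ) + (-181/460800)*t^(12:ℕ) = (30791/9216000)*t2^(12:ℕ) + (13781/307200)*t^(1:ℕ)*t2^(11:ℕ) + (932017/3072000)*t^(2:ℕ)*t2^(10:ℕ) + (15342577/11520000)*t^(3:ℕ)*t2^(9:ℕ) + (5315069/1280000)*t^(4:ℕ)*t2^(8:ℕ) + (13792417/1440000)*t^(5:ℕ)*t2^(7:ℕ) + (95884313/5760000)*t^(6:ℕ)*t2^(6:ℕ) + (31513459/1440000)*t^(7:ℕ)*t2^(5:ℕ)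 + (31049087/1440000)*t^(8:ℕ)*t2^(4:ℕ) + (22354207/1440000)*t^(9:ℕ)*t2^(3:ℕ) + (4470133/576000)*t^(10:ℕ)*t2^(2:ℕ) + (291229/120000)*t^(11:ℕ)*t2^(1:ℕ) + (1040083/2880000)*t^(12:ℕ) := by
    rw [ht2]; ring
  rw [e]
  positivity

lemma pos_cSPe_b3 (t : ℝ) (h3 : 0 ≤ t) (h4 : t ≤ 1) :
    0 ≤ (7759/1638400) + (17171/3072000)*t + (1704541/40960000)*t^(2:ℕ) + (308761/7680000)*t^(3:ℕ) + (1277273/12288000)*t^(4:ℕ) + (2130343/30720000)*t^(5:ℕ) + (6166277/61440000)*t^(6:ℕ) + (1449931/30720000)*t^(7:ℕ) + (910913/24576000)*t^(8:ℕ) + (544019/30720000)*t^(9:ℕ) + (653023/122880000)*t^(10:ℕ) + (53699/10240000)*t^(11:ℕ) + (-2501/6144000)*t^(12:ℕ) := by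
  obtain ⟨t2, ht2⟩ : ∃ t2 : ℝ, t2 = 1 - t := ⟨_, rfl⟩
  have a4 : 0 ≤ t2 := by rw [ht2]; linarith
  have e : (7759/1638400) + (17171/3072000)*t + (1704541/40960000)*t^(2:ℕ) + (308761/7680000)*t^(3:ℕ) + (1277273/12288000)*t^(4:ℕ) + (2130343/30720000)*t^(5:ℕ) + (6166277/61440000)*t^(6:ℕ) + (1449931/30720000)*t^(7:ℕ) + (910913/24576000)*t^(8:ℕ) + (544019/30720000)*t^(9:ℕ) + (653023/122880000)*t^(10:ℕ) + (53699/10240000)*t^(11:ℕ) + (-2501/6144000)*t^(12:ℕ) = (7759/1638400)*t2^(12:ℕ) + (383497/6144000)*t^(1:ℕ)*t2^(11:ℕ) + (51075913/122880000)*t^(2:ℕ)*t2^(10:ℕ) + (36979351/20480000)*t^(3:ℕ)*t2^(9:ℕ) + (86091103/15360000)*t^(4:ℕ)*t2^(8:ℕ) + (397431527/30720000)*t^(5:ℕ)*t2^(7:ℕ) + (86671031/3840000)*t^(6:ℕ)*t2^(6:ℕ) +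 (228957287/7680000)*t^(7:ℕ)*t2^(5:ℕ) + (113184803/3840000)*t^(8:ℕ)*t2^(4:ℕ) + (2173771/102400)*t^(9:ℕ)*t2^(3:ℕ) + (27046293/2560000)*t^(10:ℕ)*t2^(2:ℕ) + (12551827/3840000)*t^(11:ℕ)*t2^(1:ℕ) + (917609/1920000)*t^(12:ℕ) := by
    rw [ht2]; ring
  rw [e]
  positivity

lemma pos_cSPe_b4 (t : ℝ) (h3 : 0 ≤ t) (h4 : t ≤ 1) :
    0 ≤ (271643/43008000) + (18437/2867200)*t + (1499507/26880000)*t^(2:ℕ) + (11327909/215040000)*t^(3:ℕ) + (32125741/215040000)*t^(4:ℕ) + (3052647/35840000)*t^(5:ℕ) + (154225049/1075200000)*t^(6:ℕ) + (5098169/107520000)*t^(7:ℕ) + (1251019/25600000)*t^(8:ℕ) + (119507/8601600)*t^(9:ℕ) + (1057477/153600000)*t^(10:ℕ) + (232417/43008000)*t^(11:ℕ) + (-2841/7168000)*t^(12:ℕ) := by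
  obtain ⟨t2, ht2⟩ : ∃ t2 : ℝ, t2 = 1 - t := ⟨_, rfl⟩
  have a4 : 0 ≤ t2 := by rw [ht2]; linarith
  have e : (271643/43008000) + (18437/2867200)*t + (1499507/26880000)*t^(2:ℕ) + (11327909/215040000)*t^(3:ℕ) + (32125741/215040000)*t^(4:ℕ) + (3052647/35840000)*t^(5:ℕ) + (154225049/1075200000)*t^(6:ℕ) + (5098169/107520000)*t^(7:ℕ) + (1251019/25600000)*t^(8:ℕ) + (119507/8601600)*t^(9:ℕ) + (1057477/153600000)*t^(10:ℕ) + (232417/43008000)*t^(11:ℕ) + (-2841/7168000)*t^(12:ℕ) = (271643/43008000)*t2^(12:ℕ) + (1178757/14336000)*t^(1:ℕ)*t2^(11:ℕ) + (116848771/215040000)*t^(2:ℕ)*t2^(10:ℕ) + (253074197/107520000)*t^(3:ℕ)*t2^(9:ℕ) + (787186871/107520000)*t^(4:ℕ)*t2^(8:ℕ) + (913668821/53760000)*t^(5:ℕ)*t2^(7:ℕ) + (32115628789/1075200000)*t^(6:ℕ)*t2^(6:ℕ)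 + (7119843659/179200000)*t^(7:ℕ)*t2^(5:ℕ) + (505306167/12800000)*t^(8:ℕ)*t2^(4:ℕ) + (7652523883/268800000)*t^(9:ℕ)*t2^(3:ℕ) + (3794512133/268800000)*t^(10:ℕ)*t2^(2:ℕ) + (290565619/67200000)*t^(11:ℕ)*t2^(1:ℕ) + (83500927/134400000)*t^(12:ℕ) := by
    rw [ht2]; ring
  rw [e]
  positivity

lemma pos_cSPe_b5 (t : ℝ) (h3 : 0 ≤ t) (h4 : t ≤ 1) :
    0 ≤ (208531/25804800) + (23377/3225600)*t + (19009687/258048000)*t^(2:ℕ) + (3493151/51609600)*t^(3:ℕ) + (27155549/129024000)*t^(4:ℕ) + (65735281/645120000)*t^(5:ℕ) + (258474563/1290240000)*t^(6:ℕ) + (56018939/1290240000)*t^(7:ℕ) + (20076229/322560000)*t^(8:ℕ) + (109273/15360000)*t^(9:ℕ) + (441437/53760000)*t^(10:ℕ) + (332629/64512000)*t^(11:ℕ) + (-9197/25804800)*t^(12:ℕ)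 := by
  obtain ⟨t2, ht2⟩ : ∃ t2 : ℝ, t2 = 1 - t := ⟨_, rfl⟩
  have a4 : 0 ≤ t2 := by rw [ht2]; linarith
  have e : (208531/25804800) + (23377/3225600)*t + (19009687/258048000)*t^(2:ℕ) + (3493151/51609600)*t^(3:ℕ) + (27155549/129024000)*t^(4:ℕ) + (65735281/645120000)*t^(5:ℕ) + (258474563/1290240000)*t^(6:ℕ) + (56018939/1290240000)*t^(7:ℕ) + (20076229/322560000)*t^(8:ℕ) + (109273/15360000)*t^(9:ℕ) + (441437/53760000)*t^(10:ℕ) + (332629/64512000)*t^(11:ℕ) + (-9197/25804800)*t^(12:ℕ) = (208531/25804800)*t2^(12:ℕ) + (672347/6451200)*t^(1:ℕ)*t2^(11:ℕ) + (177211907/258048000)*t^(2:ℕ)*t2^(10:ℕ) + (6153517/2064384)*t^(3:ℕ)*t2^(9:ℕ) + (1203871829/129024000)*t^(4:ℕ)*t2^(8:ℕ) + (4699525697/215040000)*t^(5:ℕ)*t2^(7:ℕ) + (16677437489/430080000)*t^(6:ℕ)*t2^(6:ℕ)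 + (22369461343/430080000)*t^(7:ℕ)*t2^(5:ℕ) + (16764593819/322560000)*t^(8:ℕ)*t2^(4:ℕ) + (3027925541/80640000)*t^(9:ℕ)*t2^(3:ℕ) + (2993145739/161280000)*t^(10:ℕ)*t2^(2:ℕ) + (1816174667/322560000)*t^(11:ℕ)*t2^(1:ℕ) + (51297259/64512000)*t^(12:ℕ) := by
    rw [ht2]; ring
  rw [e]
  positivity

lemma pos_cSPe_b6 (t : ℝ) (h3 : 0 ≤ t) (h4 : t ≤ 1) :
    0 ≤ (86213/8601600) + (85763/10752000)*t + (82718081/860160000)*t^(2:ℕ) + (24397299/286720000)*t^(3:ℕ) + (627249239/2150400000)*t^(4:ℕ) + (72621047/614400000)*t^(5:ℕ) + (236148991/860160000)*t^(6:ℕ) + (4811281/143360000)*t^(7:ℕ) + (6875741/89600000)*t^(8:ℕ) + (-836699/268800000)*t^(9:ℕ) + (37445171/4300800000)*t^(10:ℕ) + (1896743/430080000)*t^(11:ℕ) + (-7063/24576000)*t^(12:ℕ)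 := by
  obtain ⟨t2, ht2⟩ : ∃ t2 : ℝ, t2 = 1 - t := ⟨_, rfl⟩
  have a4 : 0 ≤ t2 := by rw [ht2]; linarith
  have e : (86213/8601600) + (85763/10752000)*t + (82718081/860160000)*t^(2:ℕ) + (24397299/286720000)*t^(3:ℕ) + (627249239/2150400000)*t^(4:ℕ) + (72621047/614400000)*t^(5:ℕ) + (236148991/860160000)*t^(6:ℕ) + (4811281/143360000)*t^(7:ℕ) + (6875741/89600000)*t^(8:ℕ) + (-836699/268800000)*t^(9:ℕ) + (37445171/4300800000)*t^(10:ℕ) + (1896743/430080000)*t^(11:ℕ) + (-7063/24576000)*t^(12:ℕ) = (86213/8601600)*t2^(12:ℕ) + (98497/768000)*t^(1:ℕ)*t2^(11:ℕ) + (727195321/860160000)*t^(2:ℕ)*t2^(10:ℕ) + (3174415907/860160000)*t^(3:ℕ)*t2^(9:ℕ) + (1567430549/134400000)*t^(4:ℕ)*t2^(8:ℕ) + (118810789213/4300800000)*t^(5:ℕ)*t2^(7:ℕ)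 + (26642390479/537600000)*t^(6:ℕ)*t2^(6:ℕ) + (288481044407/4300800000)*t^(7:ℕ)*t2^(5:ℕ) + (144996632839/2150400000)*t^(8:ℕ)*t2^(4:ℕ) + (9996397291/204800000)*t^(9:ℕ)*t2^(3:ℕ) + (10345123163/430080000)*t^(10:ℕ)*t2^(2:ℕ) + (740442717/102400000)*t^(11:ℕ)*t2^(1:ℕ) + (2158357871/2150400000)*t^(12:ℕ) := by
    rw [ht2]; ring
  rw [e]
  positivity

lemma pos_cSPe_b7 (t : ℝ) (h3 : 0 ≤ t) (h4 : t ≤ 1) :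
    0 ≤ (297961/24576000) + (52373/6144000)*t + (6115523/49152000)*t^(2:ℕ) + (25678129/245760000)*t^(3:ℕ) + (489868877/1228800000)*t^(4:ℕ) + (54154699/409600000)*t^(5:ℕ) + (113700659/307200000)*t^(6:ℕ) + (9835879/614400000)*t^(7:ℕ) + (5621939/61440000)*t^(8:ℕ) + (-7003263/409600000)*t^(9:ℕ) + (18079787/2457600000)*t^(10:ℕ) + (257767/81920000)*t^(11:ℕ) + (-6469/32768000)*t^(12:ℕ) := by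
  obtain ⟨t2, ht2⟩ : ∃ t2 : ℝ, t2 = 1 - t := ⟨_, rfl⟩
  have a4 : 0 ≤ t2 := by rw [ht2]; linarith
  have e : (297961/24576000) + (52373/6144000)*t + (6115523/49152000)*t^(2:ℕ) + (25678129/245760000)*t^(3:ℕ) + (489868877/1228800000)*t^(4:ℕ) + (54154699/409600000)*t^(5:ℕ) + (113700659/307200000)*t^(6:ℕ) + (9835879/614400000)*t^(7:ℕ) + (5621939/61440000)*t^(8:ℕ) + (-7003263/409600000)*t^(9:ℕ) + (18079787/2457600000)*t^(10:ℕ) + (257767/81920000)*t^(11:ℕ) + (-6469/32768000)*t^(12:ℕ) = (297961/24576000)*t2^(12:ℕ) + (59141/384000)*t^(1:ℕ)*t2^(11:ℕ) + (50055199/49152000)*t^(2:ℕ)*t2^(10:ℕ) + (1102189079/245760000)*t^(3:ℕ)*t2^(9:ℕ) + (17628191807/1228800000)*t^(4:ℕ)*t2^(8:ℕ) + (42305920933/1228800000)*t^(5:ℕ)*t2^(7:ℕ) +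 (76804753201/1228800000)*t^(6:ℕ)*t2^(6:ℕ) + (34978809231/409600000)*t^(7:ℕ)*t2^(5:ℕ) + (21224954333/245760000)*t^(8:ℕ)*t2^(4:ℕ) + (38488839659/614400000)*t^(9:ℕ)*t2^(3:ℕ) + (25219250543/819200000)*t^(10:ℕ)*t2^(2:ℕ) + (3756813367/409600000)*t^(11:ℕ)*t2^(1:ℕ) + (25625859/20480000)*t^(12:ℕ) := by
    rw [ht2]; ring
  rw [e]
  positivity

lemma pos_cSPe_b8 (t : ℝ) (h3 : 0 ≤ t) (h4 : t ≤ 1) :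
    0 ≤ (8819/614400) + (80719/9216000)*t + (29465581/184320000)*t^(2:ℕ) + (23052587/184320000)*t^(3:ℕ) + (165341657/307200000)*t^(4:ℕ) + (260872027/1843200000)*t^(5:ℕ) + (28311509/57600000)*t^(6:ℕ) + (-4094977/368640000)*t^(7:ℕ) + (16133743/153600000)*t^(8:ℕ) + (-32117921/921600000)*t^(9:ℕ) + (232633/92160000)*t^(10:ℕ) + (2729/1843200)*t^(11:ℕ) + (-97/921600)*t^(12:ℕ) := by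
  obtain ⟨t2, ht2⟩ : ∃ t2 : ℝ, t2 = 1 - t := ⟨_, rfl⟩
  have a4 : 0 ≤ t2 := by rw [ht2]; linarith
  have e : (8819/614400) + (80719/9216000)*t + (29465581/184320000)*t^(2:ℕ) + (23052587/184320000)*t^(3:ℕ) + (165341657/307200000)*t^(4:ℕ) + (260872027/1843200000)*t^(5:ℕ) + (28311509/57600000)*t^(6:ℕ) + (-4094977/368640000)*t^(7:ℕ) + (16133743/153600000)*t^(8:ℕ) + (-32117921/921600000)*t^(9:ℕ) + (232633/92160000)*t^(10:ℕ) + (2729/1843200)*t^(11:ℕ) + (-97/921600)*t^(12:ℕ) = (8819/614400)*t2^(12:ℕ) + (1668139/9216000)*t^(1:ℕ)*t2^(11:ℕ) + (221839961/184320000)*t^(2:ℕ)*t2^(10:ℕ) + (988553297/184320000)*t^(3:ℕ)*t2^(9:ℕ) + (1782568679/102400000)*t^(4:ℕ)*t2^(8:ℕ) + (78136298083/1843200000)*t^(5:ℕ)*t2^(7:ℕ) + (143656067633/1843200000)*t^(6:ℕ)*t2^(6:ℕ)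 + (99080173751/921600000)*t^(7:ℕ)*t2^(5:ℕ) + (3150037819/28800000)*t^(8:ℕ)*t2^(4:ℕ) + (146517255709/1843200000)*t^(9:ℕ)*t2^(3:ℕ) + (71806574813/1843200000)*t^(10:ℕ)*t2^(2:ℕ) + (2650755277/230400000)*t^(11:ℕ)*t2^(1:ℕ) + (473792431/307200000)*t^(12:ℕ) := by
    rw [ht2]; ring
  rw [e]
  positivity

lemma pos_cSPe_b9 (t : ℝ) (h3 : 0 ≤ t) (h4 : t ≤ 1) :
    0 ≤ (2133/128000) + (4351/512000)*t + (2091789/10240000)*t^(2:ℕ) + (596141/4096000)*t^(3:ℕ) + (58871571/81920000)*t^(4:ℕ) + (5871187/40960000)*t^(5:ℕ) + (6586701/10240000)*t^(6:ℕ) + (-1011031/20480000)*t^(7:ℕ) + (9411639/81920000)*t^(8:ℕ) + (-2290519/40960000)*t^(9:ℕ) + (-67899/8192000)*t^(10:ℕ) + (-53/204800)*t^(11:ℕ) + (-3/81920)*t^(12:ℕ) := by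
  obtain ⟨t2, ht2⟩ : ∃ t2 : ℝ, t2 = 1 - t := ⟨_, rfl⟩
  have a4 : 0 ≤ t2 := by rw [ht2]; linarith
  have e : (2133/128000) + (4351/512000)*t + (2091789/10240000)*t^(2:ℕ) + (596141/4096000)*t^(3:ℕ) + (58871571/81920000)*t^(4:ℕ) + (5871187/40960000)*t^(5:ℕ) + (6586701/10240000)*t^(6:ℕ) + (-1011031/20480000)*t^(7:ℕ) + (9411639/81920000)*t^(8:ℕ) + (-2290519/40960000)*t^(9:ℕ) + (-67899/8192000)*t^(10:ℕ) + (-53/204800)*t^(11:ℕ) + (-3/81920)*t^(12:ℕ) = (2133/128000)*t2^(12:ℕ) + (21347/102400)*t^(1:ℕ)*t2^(11:ℕ) + (14311249/10240000)*t^(2:ℕ)*t2^(10:ℕ) + (25894057/4096000)*t^(3:ℕ)*t2^(9:ℕ) + (1709821791/81920000)*t^(4:ℕ)*t2^(8:ℕ) + (2115480871/40960000)*t^(5:ℕ)*t2^(7:ℕ) + (3941006707/40960000)*t^(6:ℕ)*t2^(6:ℕ) + (5488819129/40960000)*t^(7:ℕ)*t2^(5:ℕ)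 + (11233536239/81920000)*t^(8:ℕ)*t2^(4:ℕ) + (63899333/640000)*t^(9:ℕ)*t2^(3:ℕ) + (999414183/20480000)*t^(10:ℕ)*t2^(2:ℕ) + (4571571/320000)*t^(11:ℕ)*t2^(1:ℕ) + (38527313/20480000)*t^(12:ℕ) := by
    rw [ht2]; ring
  rw [e]
  positivity

lemma pos_cSPe_b10 (t : ℝ) (h3 : 0 ≤ t) (h4 : t ≤ 1) :
    0 ≤ (243/12800) + (3/400)*t + (13307/51200)*t^(2:ℕ) + (16789/102400)*t^(3:ℕ) + (778003/819200)*t^(4:ℕ) + (13803/102400)*t^(5:ℕ) + (16979/20480)*t^(6:ℕ) + (-40737/409600)*t^(7:ℕ) + (96027/819200)*t^(8:ℕ) + (-6493/81920)*t^(9:ℕ) + (-2349/81920)*t^(10:ℕ) + (-3/2048)*t^(11:ℕ) := by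
  obtain ⟨t2, ht2⟩ : ∃ t2 : ℝ, t2 = 1 - t := ⟨_, rfl⟩
  have a4 : 0 ≤ t2 := by rw [ht2]; linarith
  have e : (243/12800) + (3/400)*t + (13307/51200)*t^(2:ℕ) + (16789/102400)*t^(3:ℕ) + (778003/819200)*t^(4:ℕ) + (13803/102400)*t^(5:ℕ) + (16979/20480)*t^(6:ℕ) + (-40737/409600)*t^(7:ℕ) + (96027/819200)*t^(8:ℕ) + (-6493/81920)*t^(9:ℕ) + (-2349/81920)*t^(10:ℕ) + (-3/2048)*t^(11:ℕ) = (243/12800)*t2^(12:ℕ) + (753/3200)*t^(1:ℕ)*t2^(11:ℕ) + (81683/51200)*t^(2:ℕ)*t2^(10:ℕ) + (752849/102400)*t^(3:ℕ)*t2^(9:ℕ) + (20279851/819200)*t^(4:ℕ)*t2^(8:ℕ) + (3191489/51200)*t^(5:ℕ)*t2^(7:ℕ) + (24109629/204800)*t^(6:ℕ)*t2^(6:ℕ) + (67806703/409600)*t^(7:ℕ)*t2^(5:ℕ) + (139561699/819200)*t^(8:ℕ)*t2^(4:ℕ) + (50893747/409600)*t^(9:ℕ)*t2^(3:ℕ)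 + (24807077/409600)*t^(10:ℕ)*t2^(2:ℕ) + (449933/25600)*t^(11:ℕ)*t2^(1:ℕ) + (5817/2560)*t^(12:ℕ) := by
    rw [ht2]; ring
  rw [e]
  positivity

lemma pos_cSPe_id (d C0 C1 C2 C3 C4 C5 C6 C7 C8 C9 C10 : ℝ) (h1 : 0 ≤ d) (h2 : d ≤ (1/2))
    (b0 : 0 ≤ 1*C0 - (1/512))
    (b1 : 0 ≤ 1*C0 + (1/20)*C1 - (1/512))
    (b2 : 0 ≤ 1*C0 + (1/10)*C1 + (1/180)*C2 - (1/512))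
    (b3 : 0 ≤ 1*C0 + (3/20)*C1 + (1/60)*C2 + (1/960)*C3 - (1/512))
    (b4 : 0 ≤ 1*C0 + (1/5)*C1 + (1/30)*C2 + (1/240)*C3 + (1/3360)*C4 - (1/512))
    (b5 : 0 ≤ 1*C0 + (1/4)*C1 + (1/18)*C2 + (1/96)*C3 + (1/672)*C4 + (1/8064)*C5 - (1/512))
    (b6 : 0 ≤ 1*C0 + (3/10)*C1 + (1/12)*C2 + (1/48)*C3 + (1/224)*C4 + (1/1344)*C5 + (1/13440)*C6 - (1/512))
    (b7 : 0 ≤ 1*C0 + (7/20)*C1 + (7/60)*C2 + (7/192)*C3 + (1/96)*C4 + (1/384)*C5 + (1/1920)*C6 + (1/15360)*C7 - (1/512))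
    (b8 : 0 ≤ 1*C0 + (2/5)*C1 + (7/45)*C2 + (7/120)*C3 + (1/48)*C4 + (1/144)*C5 + (1/480)*C6 + (1/1920)*C7 + (1/11520)*C8 - (1/512))
    (b9 : 0 ≤ 1*C0 + (9/20)*C1 + (1/5)*C2 + (7/80)*C3 + (3/80)*C4 + (1/64)*C5 + (1/160)*C6 + (3/1280)*C7 + (1/1280)*C8 + (1/5120)*C9 - (1/512))
    (b10 : 0 ≤ 1*C0 + (1/2)*C1 + (1/4)*C2 + (1/8)*C3 + (1/16)*C4 + (1/32)*C5 + (1/64)*C6 + (1/128)*C7 + (1/256)*C8 + (1/512)*C9 + (1/1024)*C10 - (1/512))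
    : 0 < C0 + d*C1 + d^(2:ℕ)*C2 + d^(3:ℕ)*C3 + d^(4:ℕ)*C4 + d^(5:ℕ)*C5 + d^(6:ℕ)*C6 + d^(7:ℕ)*C7 + d^(8:ℕ)*C8 + d^(9:ℕ)*C9 + d^(10:ℕ)*C10 := by
  obtain ⟨d2, hd2⟩ : ∃ d2 : ℝ, d2 = (1/2) - d := ⟨_, rfl⟩
  have a2 : 0 ≤ d2 := by rw [hd2]; linarith
  obtain ⟨B0, hB0⟩ : ∃ B : ℝ, B = 1*C0 - (1/512) := ⟨_, rfl⟩
  rw [← hB0] at b0
  obtain ⟨B1, hB1⟩ : ∃ B : ℝ, B = 1*C0 + (1/20)*C1 - (1/512) := ⟨_, rfl⟩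
  rw [← hB1] at b1
  obtain ⟨B2, hB2⟩ : ∃ B : ℝ, B = 1*C0 + (1/10)*C1 + (1/180)*C2 - (1/512) := ⟨_, rfl⟩
  rw [← hB2] at b2
  obtain ⟨B3, hB3⟩ : ∃ B : ℝ, B = 1*C0 + (3/20)*C1 + (1/60)*C2 + (1/960)*C3 - (1/512) := ⟨_, rfl⟩
  rw [← hB3] at b3
  obtain ⟨B4, hB4⟩ : ∃ B : ℝ, B = 1*C0 + (1/5)*C1 + (1/30)*C2 + (1/240)*C3 + (1/3360)*C4 - (1/512) := ⟨_, rfl⟩
  rw [← hB4] at b4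
  obtain ⟨B5, hB5⟩ : ∃ B : ℝ, B = 1*C0 + (1/4)*C1 + (1/18)*C2 + (1/96)*C3 + (1/672)*C4 + (1/8064)*C5 - (1/512) := ⟨_, rfl⟩
  rw [← hB5] at b5
  obtain ⟨B6, hB6⟩ : ∃ B : ℝ, B = 1*C0 + (3/10)*C1 + (1/12)*C2 + (1/48)*C3 + (1/224)*C4 + (1/1344)*C5 + (1/13440)*C6 - (1/512) := ⟨_, rfl⟩
  rw [← hB6] at b6
  obtain ⟨B7, hB7⟩ : ∃ B : ℝ, B = 1*C0 + (7/20)*C1 + (7/60)*C2 + (7/192)*C3 + (1/96)*C4 + (1/384)*C5 + (1/1920)*C6 + (1/15360)*C7 - (1/512) := ⟨_, rfl⟩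
  rw [← hB7] at b7
  obtain ⟨B8, hB8⟩ : ∃ B : ℝ, B = 1*C0 + (2/5)*C1 + (7/45)*C2 + (7/120)*C3 + (1/48)*C4 + (1/144)*C5 + (1/480)*C6 + (1/1920)*C7 + (1/11520)*C8 - (1/512) := ⟨_, rfl⟩
  rw [← hB8] at b8
  obtain ⟨B9, hB9⟩ : ∃ B : ℝ, B = 1*C0 + (9/20)*C1 + (1/5)*C2 + (7/80)*C3 + (3/80)*C4 + (1/64)*C5 + (1/160)*C6 + (3/1280)*C7 + (1/1280)*C8 + (1/5120)*C9 - (1/512) := ⟨_, rfl⟩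
  rw [← hB9] at b9
  obtain ⟨B10, hB10⟩ : ∃ B : ℝ, B = 1*C0 + (1/2)*C1 + (1/4)*C2 + (1/8)*C3 + (1/16)*C4 + (1/32)*C5 + (1/64)*C6 + (1/128)*C7 + (1/256)*C8 + (1/512)*C9 + (1/1024)*C10 - (1/512) := ⟨_, rfl⟩
  rw [← hB10] at b10
  have e : C0 + d*C1 + d^(2:ℕ)*C2 + d^(3:ℕ)*C3 + d^(4:ℕ)*C4 + d^(5:ℕ)*C5 + d^(6:ℕ)*C6 + d^(7:ℕ)*C7 + d^(8:ℕ)*C8 + d^(9:ℕ)*C9 + d^(10:ℕ)*C10 = (1/512) + (1024*d2^(10:ℕ)*B0 + 10240*d^(1:ℕ)*d2^(9:ℕ)*B1 + 46080*d^(2:ℕ)*d2^(8:ℕ)*B2 + 122880*d^(3:ℕ)*d2^(7:ℕ)*B3 + 215040*d^(4:ℕ)*d2^(6:ℕ)*B4 + 258048*d^(5:ℕ)*d2^(5:ℕ)*B5 + 215040*d^(6:ℕ)*d2^(4:ℕ)*B6 + 122880*d^(7:ℕ)*d2^(3:ℕ)*B7 + 46080*d^(8:ℕ)*d2^(2:ℕ)*B8 + 10240*d^(9:ℕ)*d2^(1:ℕ)*B9 + 1024*d^(10:ℕ)*B10) := by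
    rw [hB0, hB1, hB2, hB3, hB4, hB5, hB6, hB7, hB8, hB9, hB10, hd2]; ring
  rw [e]
  positivity

lemma pos_cSPe (d t : ℝ) (h1 : 0 ≤ d) (h2 : d ≤ (1/2)) (h3 : 0 ≤ t) (h4 : t ≤ 1) :
    0 < (39/12800) + (21/6400)*t + (191/12800)*t^(2:ℕ) + (53/3200)*t^(3:ℕ) + (37/1280)*t^(4:ℕ) + (107/3200)*t^(5:ℕ) + (7/256)*t^(6:ℕ) + (27/800)*t^(7:ℕ) + (31/2560)*t^(8:ℕ) + (109/6400)*t^(9:ℕ) + (19/12800)*t^(10:ℕ) + (11/3200)*t^(11:ℕ) + (-1/3200)*t^(12:ℕ) + (53/2560)*d + (91/6400)*d*t + (1733/12800)*d*t^(2:ℕ) + (187/1600)*d*t^(3:ℕ) + (2219/6400)*d*t^(4:ℕ) + (627/3200)*d*t^(5:ℕ) + (2193/6400)*d*t^(6:ℕ) + (9/80)*d*t^(7:ℕ) + (1693/12800)*d*t^(8:ℕ) + (43/1280)*d*t^(9:ℕ) + (53/2560)*d*t^(10:ℕ) + (23/1600)*d*t^(11:ℕ) + (-3/3200)*d*t^(12:ℕ)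 + (1631/51200)*d^(2:ℕ) + (297/25600)*d^(2:ℕ)*t + (18231/51200)*d^(2:ℕ)*t^(2:ℕ) + (22287/64000)*d^(2:ℕ)*t^(3:ℕ) + (159741/128000)*d^(2:ℕ)*t^(4:ℕ) + (5071/12800)*d^(2:ℕ)*t^(5:ℕ) + (151243/128000)*d^(2:ℕ)*t^(6:ℕ) + (-1229/8000)*d^(2:ℕ)*t^(7:ℕ) + (77231/256000)*d^(2:ℕ)*t^(8:ℕ) + (-29227/128000)*d^(2:ℕ)*t^(9:ℕ) + (11847/256000)*d^(2:ℕ)*t^(10:ℕ) + (-971/64000)*d^(2:ℕ)*t^(11:ℕ) + (31/12800)*d^(2:ℕ)*t^(12:ℕ) + (137/25600)*d^(3:ℕ) + (-11/640)*d^(3:ℕ)*t + (55263/128000)*d^(3:ℕ)*t^(2:ℕ) + (2347/8000)*d^(3:ℕ)*t^(3:ℕ) + (137077/64000)*d^(3:ℕ)*t^(4:ℕ) + (-2577/32000)*d^(3:ℕ)*t^(5:ℕ) + (118413/64000)*d^(3:ℕ)*t^(6:ℕ) + (-26613/32000)*d^(3:ℕ)*t^(7:ℕ) + (10797/128000)*d^(3:ℕ)*t^(8:ℕ) + (-17073/32000)*d^(3:ℕ)*t^(9:ℕ) + (-5753/128000)*d^(3:ℕ)*t^(10:ℕ)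 + (-119/1280)*d^(3:ℕ)*t^(11:ℕ) + (7/1280)*d^(3:ℕ)*t^(12:ℕ) + (-13/1600)*d^(4:ℕ) + (-421/12800)*d^(4:ℕ)*t + (5039/12800)*d^(4:ℕ)*t^(2:ℕ) + (-19259/64000)*d^(4:ℕ)*t^(3:ℕ) + (133487/64000)*d^(4:ℕ)*t^(4:ℕ) + (-34501/32000)*d^(4:ℕ)*t^(5:ℕ) + (503299/320000)*d^(4:ℕ)*t^(6:ℕ) + (-26657/32000)*d^(4:ℕ)*t^(7:ℕ) + (-109837/320000)*d^(4:ℕ)*t^(8:ℕ) + (-4769/64000)*d^(4:ℕ)*t^(9:ℕ) + (-51443/160000)*d^(4:ℕ)*t^(10:ℕ) + (-3303/64000)*d^(4:ℕ)*t^(11:ℕ) + (3/6400)*d^(4:ℕ)*t^(12:ℕ) + (-19/1280)*d^(5:ℕ) + (-133/3200)*d^(5:ℕ)*t + (4217/16000)*d^(5:ℕ)*t^(2:ℕ) + (-13331/32000)*d^(5:ℕ)*t^(3:ℕ) + (3523/3200)*d^(5:ℕ)*t^(4:ℕ) + (-59319/80000)*d^(5:ℕ)*t^(5:ℕ) + (84759/160000)*d^(5:ℕ)*t^(6:ℕ) + (-25941/160000)*d^(5:ℕ)*t^(7:ℕ) + (-82027/160000)*d^(5:ℕ)*t^(8:ℕ)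 + (24691/80000)*d^(5:ℕ)*t^(9:ℕ) + (-94491/160000)*d^(5:ℕ)*t^(10:ℕ) + (1669/16000)*d^(5:ℕ)*t^(11:ℕ) + (-9/640)*d^(5:ℕ)*t^(12:ℕ) + (-1/128)*d^(6:ℕ) + (-59/3200)*d^(6:ℕ)*t + (5001/64000)*d^(6:ℕ)*t^(2:ℕ) + (-10423/64000)*d^(6:ℕ)*t^(3:ℕ) + (38189/160000)*d^(6:ℕ)*t^(4:ℕ) + (33889/320000)*d^(6:ℕ)*t^(5:ℕ) + (-23113/64000)*d^(6:ℕ)*t^(6:ℕ) + (2461/6400)*d^(6:ℕ)*t^(7:ℕ) + (-37343/80000)*d^(6:ℕ)*t^(8:ℕ) + (25969/80000)*d^(6:ℕ)*t^(9:ℕ) + (-146549/320000)*d^(6:ℕ)*t^(10:ℕ) + (6093/32000)*d^(6:ℕ)*t^(11:ℕ) + (-177/12800)*d^(6:ℕ)*t^(12:ℕ) + (403/16000)*d^(7:ℕ)*t^(2:ℕ) + (-781/16000)*d^(7:ℕ)*t^(3:ℕ) + (-4899/80000)*d^(7:ℕ)*t^(4:ℕ) + (25279/80000)*d^(7:ℕ)*t^(5:ℕ) + (-22117/40000)*d^(7:ℕ)*t^(6:ℕ) + (16579/40000)*d^(7:ℕ)*t^(7:ℕ) + (-10783/40000)*d^(7:ℕ)*t^(8:ℕ)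 + (9059/80000)*d^(7:ℕ)*t^(9:ℕ) + (-21037/160000)*d^(7:ℕ)*t^(10:ℕ) + (1017/16000)*d^(7:ℕ)*t^(11:ℕ) + (21/6400)*d^(7:ℕ)*t^(12:ℕ) + (33/3200)*d^(8:ℕ)*t^(2:ℕ) + (-113/16000)*d^(8:ℕ)*t^(3:ℕ) + (-5003/80000)*d^(8:ℕ)*t^(4:ℕ) + (29771/160000)*d^(8:ℕ)*t^(5:ℕ) + (-10621/40000)*d^(8:ℕ)*t^(6:ℕ) + (29339/160000)*d^(8:ℕ)*t^(7:ℕ) + (-1557/40000)*d^(8:ℕ)*t^(8:ℕ) + (-3231/80000)*d^(8:ℕ)*t^(9:ℕ) + (139/3200)*d^(8:ℕ)*t^(10:ℕ) + (-49/1600)*d^(8:ℕ)*t^(11:ℕ) + (11/640)*d^(8:ℕ)*t^(12:ℕ) + (9/4000)*d^(9:ℕ)*t^(3:ℕ) + (-1809/80000)*d^(9:ℕ)*t^(4:ℕ) + (1127/20000)*d^(9:ℕ)*t^(5:ℕ) + (-697/10000)*d^(9:ℕ)*t^(6:ℕ) + (1463/40000)*d^(9:ℕ)*t^(7:ℕ) + (279/16000)*d^(9:ℕ)*t^(8:ℕ) + (-1831/40000)*d^(9:ℕ)*t^(9:ℕ) + (933/20000)*d^(9:ℕ)*t^(10:ℕ) + (-113/4000)*d^(9:ℕ)*t^(11:ℕ)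 + (19/1600)*d^(9:ℕ)*t^(12:ℕ) + (-23/8000)*d^(10:ℕ)*t^(4:ℕ) + (331/40000)*d^(10:ℕ)*t^(5:ℕ) + (-209/20000)*d^(10:ℕ)*t^(6:ℕ) + (191/40000)*d^(10:ℕ)*t^(7:ℕ) + (183/40000)*d^(10:ℕ)*t^(8:ℕ) + (-21/2000)*d^(10:ℕ)*t^(9:ℕ) + (223/20000)*d^(10:ℕ)*t^(10:ℕ) + (-7/1000)*d^(10:ℕ)*t^(11:ℕ) + (1/400)*d^(10:ℕ)*t^(12:ℕ) := by
  have e0 : (39/12800) + (21/6400)*t + (191/12800)*t^(2:ℕ) + (53/3200)*t^(3:ℕ) + (37/1280)*t^(4:ℕ) + (107/3200)*t^(5:ℕ) + (7/256)*t^(6:ℕ) + (27/800)*t^(7:ℕ) + (31/2560)*t^(8:ℕ) + (109/6400)*t^(9:ℕ) + (19/12800)*t^(10:ℕ) + (11/3200)*t^(11:ℕ) + (-1/3200)*t^(12:ℕ) + (53/2560)*d + (91/6400)*d*t + (1733/12800)*d*t^(2:ℕ) + (187/1600)*d*t^(3:ℕ) + (2219/6400)*d*t^(4:ℕ) + (627/3200)*d*t^(5:ℕ) + (2193/6400)*d*t^(6:ℕ)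 + (9/80)*d*t^(7:ℕ) + (1693/12800)*d*t^(8:ℕ) + (43/1280)*d*t^(9:ℕ) + (53/2560)*d*t^(10:ℕ) + (23/1600)*d*t^(11:ℕ) + (-3/3200)*d*t^(12:ℕ) + (1631/51200)*d^(2:ℕ) + (297/25600)*d^(2:ℕ)*t + (18231/51200)*d^(2:ℕ)*t^(2:ℕ) + (22287/64000)*d^(2:ℕ)*t^(3:ℕ) + (159741/128000)*d^(2:ℕ)*t^(4:ℕ) + (5071/12800)*d^(2:ℕ)*t^(5:ℕ) + (151243/128000)*d^(2:ℕ)*t^(6:ℕ) + (-1229/8000)*d^(2:ℕ)*t^(7:ℕ) + (77231/256000)*d^(2:ℕ)*t^(8:ℕ) + (-29227/128000)*d^(2:ℕ)*t^(9:ℕ) + (11847/256000)*d^(2:ℕ)*t^(10:ℕ) + (-971/64000)*d^(2:ℕ)*t^(11:ℕ) + (31/12800)*d^(2:ℕ)*t^(12:ℕ) + (137/25600)*d^(3:ℕ) + (-11/640)*d^(3:ℕ)*t + (55263/128000)*d^(3:ℕ)*t^(2:ℕ) + (2347/8000)*d^(3:ℕ)*t^(3:ℕ) + (137077/64000)*d^(3:ℕ)*t^(4:ℕ) + (-2577/32000)*d^(3:ℕ)*t^(5:ℕ) + (118413/64000)*d^(3:ℕ)*t^(6:ℕ)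 + (-26613/32000)*d^(3:ℕ)*t^(7:ℕ) + (10797/128000)*d^(3:ℕ)*t^(8:ℕ) + (-17073/32000)*d^(3:ℕ)*t^(9:ℕ) + (-5753/128000)*d^(3:ℕ)*t^(10:ℕ) + (-119/1280)*d^(3:ℕ)*t^(11:ℕ) + (7/1280)*d^(3:ℕ)*t^(12:ℕ) + (-13/1600)*d^(4:ℕ) + (-421/12800)*d^(4:ℕ)*t + (5039/12800)*d^(4:ℕ)*t^(2:ℕ) + (-19259/64000)*d^(4:ℕ)*t^(3:ℕ) + (133487/64000)*d^(4:ℕ)*t^(4:ℕ) + (-34501/32000)*d^(4:ℕ)*t^(5:ℕ) + (503299/320000)*d^(4:ℕ)*t^(6:ℕ) + (-26657/32000)*d^(4:ℕ)*t^(7:ℕ) + (-109837/320000)*d^(4:ℕ)*t^(8:ℕ) + (-4769/64000)*d^(4:ℕ)*t^(9:ℕ) + (-51443/160000)*d^(4:ℕ)*t^(10:ℕ) + (-3303/64000)*d^(4:ℕ)*t^(11:ℕ) + (3/6400)*d^(4:ℕ)*t^(12:ℕ) + (-19/1280)*d^(5:ℕ) + (-133/3200)*d^(5:ℕ)*t + (4217/16000)*d^(5:ℕ)*t^(2:ℕ) + (-13331/32000)*d^(5:ℕ)*t^(3:ℕ) + (3523/3200)*d^(5:ℕ)*t^(4:ℕ)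 + (-59319/80000)*d^(5:ℕ)*t^(5:ℕ) + (84759/160000)*d^(5:ℕ)*t^(6:ℕ) + (-25941/160000)*d^(5:ℕ)*t^(7:ℕ) + (-82027/160000)*d^(5:ℕ)*t^(8:ℕ) + (24691/80000)*d^(5:ℕ)*t^(9:ℕ) + (-94491/160000)*d^(5:ℕ)*t^(10:ℕ) + (1669/16000)*d^(5:ℕ)*t^(11:ℕ) + (-9/640)*d^(5:ℕ)*t^(12:ℕ) + (-1/128)*d^(6:ℕ) + (-59/3200)*d^(6:ℕ)*t + (5001/64000)*d^(6:ℕ)*t^(2:ℕ) + (-10423/64000)*d^(6:ℕ)*t^(3:ℕ) + (38189/160000)*d^(6:ℕ)*t^(4:ℕ) + (33889/320000)*d^(6:ℕ)*t^(5:ℕ) + (-23113/64000)*d^(6:ℕ)*t^(6:ℕ) + (2461/6400)*d^(6:ℕ)*t^(7:ℕ) + (-37343/80000)*d^(6:ℕ)*t^(8:ℕ) + (25969/80000)*d^(6:ℕ)*t^(9:ℕ) + (-146549/320000)*d^(6:ℕ)*t^(10:ℕ) + (6093/32000)*d^(6:ℕ)*t^(11:ℕ) + (-177/12800)*d^(6:ℕ)*t^(12:ℕ) + (403/16000)*d^(7:ℕ)*t^(2:ℕ) + (-781/16000)*d^(7:ℕ)*t^(3:ℕ)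 + (-4899/80000)*d^(7:ℕ)*t^(4:ℕ) + (25279/80000)*d^(7:ℕ)*t^(5:ℕ) + (-22117/40000)*d^(7:ℕ)*t^(6:ℕ) + (16579/40000)*d^(7:ℕ)*t^(7:ℕ) + (-10783/40000)*d^(7:ℕ)*t^(8:ℕ) + (9059/80000)*d^(7:ℕ)*t^(9:ℕ) + (-21037/160000)*d^(7:ℕ)*t^(10:ℕ) + (1017/16000)*d^(7:ℕ)*t^(11:ℕ) + (21/6400)*d^(7:ℕ)*t^(12:ℕ) + (33/3200)*d^(8:ℕ)*t^(2:ℕ) + (-113/16000)*d^(8:ℕ)*t^(3:ℕ) + (-5003/80000)*d^(8:ℕ)*t^(4:ℕ) + (29771/160000)*d^(8:ℕ)*t^(5:ℕ) + (-10621/40000)*d^(8:ℕ)*t^(6:ℕ) + (29339/160000)*d^(8:ℕ)*t^(7:ℕ) + (-1557/40000)*d^(8:ℕ)*t^(8:ℕ) + (-3231/80000)*d^(8:ℕ)*t^(9:ℕ) + (139/3200)*d^(8:ℕ)*t^(10:ℕ) + (-49/1600)*d^(8:ℕ)*t^(11:ℕ) + (11/640)*d^(8:ℕ)*t^(12:ℕ) + (9/4000)*d^(9:ℕ)*t^(3:ℕ) + (-1809/80000)*d^(9:ℕ)*t^(4:ℕ) + (1127/20000)*d^(9:ℕ)*t^(5:ℕ)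 + (-697/10000)*d^(9:ℕ)*t^(6:ℕ) + (1463/40000)*d^(9:ℕ)*t^(7:ℕ) + (279/16000)*d^(9:ℕ)*t^(8:ℕ) + (-1831/40000)*d^(9:ℕ)*t^(9:ℕ) + (933/20000)*d^(9:ℕ)*t^(10:ℕ) + (-113/4000)*d^(9:ℕ)*t^(11:ℕ) + (19/1600)*d^(9:ℕ)*t^(12:ℕ) + (-23/8000)*d^(10:ℕ)*t^(4:ℕ) + (331/40000)*d^(10:ℕ)*t^(5:ℕ) + (-209/20000)*d^(10:ℕ)*t^(6:ℕ) + (191/40000)*d^(10:ℕ)*t^(7:ℕ) + (183/40000)*d^(10:ℕ)*t^(8:ℕ) + (-21/2000)*d^(10:ℕ)*t^(9:ℕ) + (223/20000)*d^(10:ℕ)*t^(10:ℕ) + (-7/1000)*d^(10:ℕ)*t^(11:ℕ) + (1/400)*d^(10:ℕ)*t^(12:ℕ) = ((39/12800) + (21/6400)*t + (191/12800)*t^(2:ℕ) + (53/3200)*t^(3:ℕ) + (37/1280)*t^(4:ℕ) + (107/3200)*t^(5:ℕ) + (7/256)*t^(6:ℕ) + (27/800)*t^(7:ℕ) + (31/2560)*t^(8:ℕ) + (109/6400)*t^(9:ℕ) + (19/12800)*t^(10:ℕ) + (11/3200)*t^(11:ℕ)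 + (-1/3200)*t^(12:ℕ)) + d*((53/2560) + (91/6400)*t + (1733/12800)*t^(2:ℕ) + (187/1600)*t^(3:ℕ) + (2219/6400)*t^(4:ℕ) + (627/3200)*t^(5:ℕ) + (2193/6400)*t^(6:ℕ) + (9/80)*t^(7:ℕ) + (1693/12800)*t^(8:ℕ) + (43/1280)*t^(9:ℕ) + (53/2560)*t^(10:ℕ) + (23/1600)*t^(11:ℕ) + (-3/3200)*t^(12:ℕ)) + d^(2:ℕ)*((1631/51200) + (297/25600)*t + (18231/51200)*t^(2:ℕ) + (22287/64000)*t^(3:ℕ) + (159741/128000)*t^(4:ℕ) + (5071/12800)*t^(5:ℕ) + (151243/128000)*t^(6:ℕ) + (-1229/8000)*t^(7:ℕ) + (77231/256000)*t^(8:ℕ) + (-29227/128000)*t^(9:ℕ) + (11847/256000)*t^(10:ℕ) + (-971/64000)*t^(11:ℕ) + (31/12800)*t^(12:ℕ)) + d^(3:ℕ)*((137/25600) + (-11/640)*t + (55263/128000)*t^(2:ℕ) + (2347/8000)*t^(3:ℕ) + (137077/64000)*t^(4:ℕ) + (-2577/32000)*t^(5:ℕ)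 + (118413/64000)*t^(6:ℕ) + (-26613/32000)*t^(7:ℕ) + (10797/128000)*t^(8:ℕ) + (-17073/32000)*t^(9:ℕ) + (-5753/128000)*t^(10:ℕ) + (-119/1280)*t^(11:ℕ) + (7/1280)*t^(12:ℕ)) + d^(4:ℕ)*((-13/1600) + (-421/12800)*t + (5039/12800)*t^(2:ℕ) + (-19259/64000)*t^(3:ℕ) + (133487/64000)*t^(4:ℕ) + (-34501/32000)*t^(5:ℕ) + (503299/320000)*t^(6:ℕ) + (-26657/32000)*t^(7:ℕ) + (-109837/320000)*t^(8:ℕ) + (-4769/64000)*t^(9:ℕ) + (-51443/160000)*t^(10:ℕ) + (-3303/64000)*t^(11:ℕ) + (3/6400)*t^(12:ℕ)) + d^(5:ℕ)*((-19/1280) + (-133/3200)*t + (4217/16000)*t^(2:ℕ) + (-13331/32000)*t^(3:ℕ) + (3523/3200)*t^(4:ℕ) + (-59319/80000)*t^(5:ℕ) + (84759/160000)*t^(6:ℕ) + (-25941/160000)*t^(7:ℕ) + (-82027/160000)*t^(8:ℕ) + (24691/80000)*t^(9:ℕ) + (-94491/160000)*t^(10:ℕ)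 + (1669/16000)*t^(11:ℕ) + (-9/640)*t^(12:ℕ)) + d^(6:ℕ)*((-1/128) + (-59/3200)*t + (5001/64000)*t^(2:ℕ) + (-10423/64000)*t^(3:ℕ) + (38189/160000)*t^(4:ℕ) + (33889/320000)*t^(5:ℕ) + (-23113/64000)*t^(6:ℕ) + (2461/6400)*t^(7:ℕ) + (-37343/80000)*t^(8:ℕ) + (25969/80000)*t^(9:ℕ) + (-146549/320000)*t^(10:ℕ) + (6093/32000)*t^(11:ℕ) + (-177/12800)*t^(12:ℕ)) + d^(7:ℕ)*((403/16000)*t^(2:ℕ) + (-781/16000)*t^(3:ℕ) + (-4899/80000)*t^(4:ℕ) + (25279/80000)*t^(5:ℕ) + (-22117/40000)*t^(6:ℕ) + (16579/40000)*t^(7:ℕ) + (-10783/40000)*t^(8:ℕ) + (9059/80000)*t^(9:ℕ) + (-21037/160000)*t^(10:ℕ) + (1017/16000)*t^(11:ℕ) + (21/6400)*t^(12:ℕ)) + d^(8:ℕ)*((33/3200)*t^(2:ℕ) + (-113/16000)*t^(3:ℕ) + (-5003/80000)*t^(4:ℕ) + (29771/160000)*t^(5:ℕ)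 + (-10621/40000)*t^(6:ℕ) + (29339/160000)*t^(7:ℕ) + (-1557/40000)*t^(8:ℕ) + (-3231/80000)*t^(9:ℕ) + (139/3200)*t^(10:ℕ) + (-49/1600)*t^(11:ℕ) + (11/640)*t^(12:ℕ)) + d^(9:ℕ)*((9/4000)*t^(3:ℕ) + (-1809/80000)*t^(4:ℕ) + (1127/20000)*t^(5:ℕ) + (-697/10000)*t^(6:ℕ) + (1463/40000)*t^(7:ℕ) + (279/16000)*t^(8:ℕ) + (-1831/40000)*t^(9:ℕ) + (933/20000)*t^(10:ℕ) + (-113/4000)*t^(11:ℕ) + (19/1600)*t^(12:ℕ)) + d^(10:ℕ)*((-23/8000)*t^(4:ℕ) + (331/40000)*t^(5:ℕ) + (-209/20000)*t^(6:ℕ) + (191/40000)*t^(7:ℕ) + (183/40000)*t^(8:ℕ) + (-21/2000)*t^(9:ℕ) + (223/20000)*t^(10:ℕ) + (-7/1000)*t^(11:ℕ) + (1/400)*t^(12:ℕ)) := by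
    ring
  rw [e0]
  exact pos_cSPe_id d ((39/12800) + (21/6400)*t + (191/12800)*t^(2:ℕ) + (53/3200)*t^(3:ℕ) + (37/1280)*t^(4:ℕ) + (107/3200)*t^(5:ℕ) + (7/256)*t^(6:ℕ) + (27/800)*t^(7:ℕ) + (31/2560)*t^(8:ℕ) + (109/6400)*t^(9:ℕ) + (19/12800)*t^(10:ℕ) + (11/3200)*t^(11:ℕ) + (-1/3200)*t^(12:ℕ)) ((53/2560) + (91/6400)*t + (1733/12800)*t^(2:ℕ) + (187/1600)*t^(3:ℕ) + (2219/6400)*t^(4:ℕ) + (627/3200)*t^(5:ℕ) + (2193/6400)*t^(6:ℕ) + (9/80)*t^(7:ℕ) + (1693/12800)*t^(8:ℕ) + (43/1280)*t^(9:ℕ) + (53/2560)*t^(10:ℕ) + (23/1600)*t^(11:ℕ) + (-3/3200)*t^(12:ℕ)) ((1631/51200) + (297/25600)*t + (18231/51200)*t^(2:ℕ) + (22287/64000)*t^(3:ℕ) + (159741/128000)*t^(4:ℕ) + (5071/12800)*t^(5:ℕ) + (151243/128000)*t^(6:ℕ) + (-1229/8000)*t^(7:ℕ)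 + (77231/256000)*t^(8:ℕ) + (-29227/128000)*t^(9:ℕ) + (11847/256000)*t^(10:ℕ) + (-971/64000)*t^(11:ℕ) + (31/12800)*t^(12:ℕ)) ((137/25600) + (-11/640)*t + (55263/128000)*t^(2:ℕ) + (2347/8000)*t^(3:ℕ) + (137077/64000)*t^(4:ℕ) + (-2577/32000)*t^(5:ℕ) + (118413/64000)*t^(6:ℕ) + (-26613/32000)*t^(7:ℕ) + (10797/128000)*t^(8:ℕ) + (-17073/32000)*t^(9:ℕ) + (-5753/128000)*t^(10:ℕ) + (-119/1280)*t^(11:ℕ) + (7/1280)*t^(12:ℕ)) ((-13/1600) + (-421/12800)*t + (5039/12800)*t^(2:ℕ) + (-19259/64000)*t^(3:ℕ) + (133487/64000)*t^(4:ℕ) + (-34501/32000)*t^(5:ℕ) + (503299/320000)*t^(6:ℕ) + (-26657/32000)*t^(7:ℕ) + (-109837/320000)*t^(8:ℕ) + (-4769/64000)*t^(9:ℕ) + (-51443/160000)*t^(10:ℕ) + (-3303/64000)*t^(11:ℕ) + (3/6400)*t^(12:ℕ)) ((-19/1280)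 + (-133/3200)*t + (4217/16000)*t^(2:ℕ) + (-13331/32000)*t^(3:ℕ) + (3523/3200)*t^(4:ℕ) + (-59319/80000)*t^(5:ℕ) + (84759/160000)*t^(6:ℕ) + (-25941/160000)*t^(7:ℕ) + (-82027/160000)*t^(8:ℕ) + (24691/80000)*t^(9:ℕ) + (-94491/160000)*t^(10:ℕ) + (1669/16000)*t^(11:ℕ) + (-9/640)*t^(12:ℕ)) ((-1/128) + (-59/3200)*t + (5001/64000)*t^(2:ℕ) + (-10423/64000)*t^(3:ℕ) + (38189/160000)*t^(4:ℕ) + (33889/320000)*t^(5:ℕ) + (-23113/64000)*t^(6:ℕ) + (2461/6400)*t^(7:ℕ) + (-37343/80000)*t^(8:ℕ) + (25969/80000)*t^(9:ℕ) + (-146549/320000)*t^(10:ℕ) + (6093/32000)*t^(11:ℕ) + (-177/12800)*t^(12:ℕ)) ((403/16000)*t^(2:ℕ) + (-781/16000)*t^(3:ℕ) + (-4899/80000)*t^(4:ℕ) + (25279/80000)*t^(5:ℕ) + (-22117/40000)*t^(6:ℕ) + (16579/40000)*t^(7:ℕ)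 + (-10783/40000)*t^(8:ℕ) + (9059/80000)*t^(9:ℕ) + (-21037/160000)*t^(10:ℕ) + (1017/16000)*t^(11:ℕ) + (21/6400)*t^(12:ℕ)) ((33/3200)*t^(2:ℕ) + (-113/16000)*t^(3:ℕ) + (-5003/80000)*t^(4:ℕ) + (29771/160000)*t^(5:ℕ) + (-10621/40000)*t^(6:ℕ) + (29339/160000)*t^(7:ℕ) + (-1557/40000)*t^(8:ℕ) + (-3231/80000)*t^(9:ℕ) + (139/3200)*t^(10:ℕ) + (-49/1600)*t^(11:ℕ) + (11/640)*t^(12:ℕ)) ((9/4000)*t^(3:ℕ) + (-1809/80000)*t^(4:ℕ) + (1127/20000)*t^(5:ℕ) + (-697/10000)*t^(6:ℕ) + (1463/40000)*t^(7:ℕ) + (279/16000)*t^(8:ℕ) + (-1831/40000)*t^(9:ℕ) + (933/20000)*t^(10:ℕ) + (-113/4000)*t^(11:ℕ) + (19/1600)*t^(12:ℕ)) ((-23/8000)*t^(4:ℕ) + (331/40000)*t^(5:ℕ) + (-209/20000)*t^(6:ℕ) + (191/40000)*t^(7:ℕ) + (183/40000)*t^(8:ℕ) + (-21/2000)*t^(9:ℕ)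 + (223/20000)*t^(10:ℕ) + (-7/1000)*t^(11:ℕ) + (1/400)*t^(12:ℕ)) h1 h2 ((pos_cSPe_b0 t h3 h4).trans_eq (by ring)) ((pos_cSPe_b1 t h3 h4).trans_eq (by ring)) ((pos_cSPe_b2 t h3 h4).trans_eq (by ring)) ((pos_cSPe_b3 t h3 h4).trans_eq (by ring)) ((pos_cSPe_b4 t h3 h4).trans_eq (by ring)) ((pos_cSPe_b5 t h3 h4).trans_eq (by ring)) ((pos_cSPe_b6 t h3 h4).trans_eq (by ring)) ((pos_cSPe_b7 t h3 h4).trans_eq (by ring)) ((pos_cSPe_b8 t h3 h4).trans_eq (by ring)) ((pos_cSPe_b9 t h3 h4).trans_eq (by ring)) ((pos_cSPe_b10 t h3 h4).trans_eq (by ring))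

lemma pos_cTP0_b0 (t : ℝ) (h3 : 0 ≤ t) (h4 : t ≤ 1) :
    0 ≤ (3/640) + (1/80)*t + (1/16)*t^(2:ℕ) + (1/16)*t^(3:ℕ) + (1/8)*t^(4:ℕ) + (1/8)*t^(5:ℕ) + (1/8)*t^(6:ℕ) + (1/8)*t^(7:ℕ) + (1/16)*t^(8:ℕ) + (1/16)*t^(9:ℕ) + (1/80)*t^(10:ℕ) + (1/80)*t^(11:ℕ) := by
  obtain ⟨t2, ht2⟩ : ∃ t2 : ℝ, t2 = 1 - t := ⟨_, rfl⟩
  have a4 : 0 ≤ t2 := by rw [ht2]; linarith
  have e : (3/640) + (1/80)*t + (1/16)*t^(2:ℕ) + (1/16)*t^(3:ℕ) + (1/8)*t^(4:ℕ) + (1/8)*t^(5:ℕ) + (1/8)*t^(6:ℕ) + (1/8)*t^(7:ℕ) + (1/16)*t^(8:ℕ) + (1/16)*t^(9:ℕ) + (1/80)*t^(10:ℕ) + (1/80)*t^(11:ℕ) = (3/640)*t2^(12:ℕ) + (11/160)*t^(1:ℕ)*t2^(11:ℕ) + (163/320)*t^(2:ℕ)*t2^(10:ℕ) + (77/32)*t^(3:ℕ)*t2^(9:ℕ) + (1009/128)*t^(4:ℕ)*t2^(8:ℕ) + (1497/80)*t^(5:ℕ)*t2^(7:ℕ) + (5277/160)*t^(6:ℕ)*t2^(6:ℕ)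 + (3489/80)*t^(7:ℕ)*t2^(5:ℕ) + (5521/128)*t^(8:ℕ)*t2^(4:ℕ) + (1001/32)*t^(9:ℕ)*t2^(3:ℕ) + (5083/320)*t^(10:ℕ)*t2^(2:ℕ) + (817/160)*t^(11:ℕ)*t2^(1:ℕ) + (507/640)*t^(12:ℕ) := by
    rw [ht2]; ring
  rw [e]
  positivity

lemma pos_cTP0_b1 (t : ℝ) (h3 : 0 ≤ t) (h4 : t ≤ 1) :
    0 ≤ (23/3200) + (47/3200)*t + (4987/64000)*t^(2:ℕ) + (2449/32000)*t^(3:ℕ) + (10187/64000)*t^(4:ℕ) + (249/1600)*t^(5:ℕ) + (5119/32000)*t^(6:ℕ) + (2473/16000)*t^(7:ℕ) + (2531/32000)*t^(8:ℕ) + (1199/16000)*t^(9:ℕ) + (983/64000)*t^(10:ℕ) + (453/32000)*t^(11:ℕ) + (-1/64000)*t^(12:ℕ) := by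
  obtain ⟨t2, ht2⟩ : ∃ t2 : ℝ, t2 = 1 - t := ⟨_, rfl⟩
  have a4 : 0 ≤ t2 := by rw [ht2]; linarith
  have e : (23/3200) + (47/3200)*t + (4987/64000)*t^(2:ℕ) + (2449/32000)*t^(3:ℕ) + (10187/64000)*t^(4:ℕ) + (249/1600)*t^(5:ℕ) + (5119/32000)*t^(6:ℕ) + (2473/16000)*t^(7:ℕ) + (2531/32000)*t^(8:ℕ) + (1199/16000)*t^(9:ℕ) + (983/64000)*t^(10:ℕ) + (453/32000)*t^(11:ℕ) + (-1/64000)*t^(12:ℕ) = (23/3200)*t2^(12:ℕ) + (323/3200)*t^(1:ℕ)*t2^(11:ℕ) + (45687/64000)*t^(2:ℕ)*t2^(10:ℕ) + (51917/16000)*t^(3:ℕ)*t2^(9:ℕ) + (165371/16000)*t^(4:ℕ)*t2^(8:ℕ) + (192593/8000)*t^(5:ℕ)*t2^(7:ℕ) + (167701/4000)*t^(6:ℕ)*t2^(6:ℕ) + (110107/2000)*t^(7:ℕ)*t2^(5:ℕ) + (34721/640)*t^(8:ℕ)*t2^(4:ℕ) + (157123/4000)*t^(9:ℕ)*t2^(3:ℕ) + (159429/8000)*t^(10:ℕ)*t2^(2:ℕ)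 + (25589/4000)*t^(11:ℕ)*t2^(1:ℕ) + (15827/16000)*t^(12:ℕ) := by
    rw [ht2]; ring
  rw [e]
  positivity

lemma pos_cTP0_b2 (t : ℝ) (h3 : 0 ≤ t) (h4 : t ≤ 1) :
    0 ≤ (11/1152) + (1199/72000)*t + (2723/28800)*t^(2:ℕ) + (6611/72000)*t^(3:ℕ) + (28709/144000)*t^(4:ℕ) + (6899/36000)*t^(5:ℕ) + (4883/24000)*t^(6:ℕ) + (13631/72000)*t^(7:ℕ) + (601/6000)*t^(8:ℕ) + (2119/24000)*t^(9:ℕ) + (181/9600)*t^(10:ℕ) + (139/9000)*t^(11:ℕ) + (-1/28800)*t^(12:ℕ) := by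
  obtain ⟨t2, ht2⟩ : ∃ t2 : ℝ, t2 = 1 - t := ⟨_, rfl⟩
  have a4 : 0 ≤ t2 := by rw [ht2]; linarith
  have e : (11/1152) + (1199/72000)*t + (2723/28800)*t^(2:ℕ) + (6611/72000)*t^(3:ℕ) + (28709/144000)*t^(4:ℕ) + (6899/36000)*t^(5:ℕ) + (4883/24000)*t^(6:ℕ) + (13631/72000)*t^(7:ℕ) + (601/6000)*t^(8:ℕ) + (2119/24000)*t^(9:ℕ) + (181/9600)*t^(10:ℕ) + (139/9000)*t^(11:ℕ) + (-1/28800)*t^(12:ℕ) = (11/1152)*t2^(12:ℕ) + (9449/72000)*t^(1:ℕ)*t2^(11:ℕ) + (14527/16000)*t^(2:ℕ)*t2^(10:ℕ) + (291881/72000)*t^(3:ℕ)*t2^(9:ℕ) + (1836677/144000)*t^(4:ℕ)*t2^(8:ℕ) + (7079/240)*t^(5:ℕ)*t2^(7:ℕ) + (230453/4500)*t^(6:ℕ)*t2^(6:ℕ) + (4842049/72000)*t^(7:ℕ)*t2^(5:ℕ) + (9562781/144000)*t^(8:ℕ)*t2^(4:ℕ) + (1736293/36000)*t^(9:ℕ)*t2^(3:ℕ) + (1767083/72000)*t^(10:ℕ)*t2^(2:ℕ)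 + (18941/2400)*t^(11:ℕ)*t2^(1:ℕ) + (175547/144000)*t^(12:ℕ) := by
    rw [ht2]; ring
  rw [e]
  positivity

lemma pos_cTP0_b3 (t : ℝ) (h3 : 0 ≤ t) (h4 : t ≤ 1) :
    0 ≤ (2249/192000) + (14081/768000)*t + (573877/5120000)*t^(2:ℕ) + (173/1600)*t^(3:ℕ) + (755129/3072000)*t^(4:ℕ) + (1792219/7680000)*t^(5:ℕ) + (328819/1280000)*t^(6:ℕ) + (1762417/7680000)*t^(7:ℕ) + (487151/3840000)*t^(8:ℕ) + (783647/7680000)*t^(9:ℕ) + (355829/15360000)*t^(10:ℕ) + (123859/7680000)*t^(11:ℕ) + (-881/15360000)*t^(12:ℕ) := by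
  obtain ⟨t2, ht2⟩ : ∃ t2 : ℝ, t2 = 1 - t := ⟨_, rfl⟩
  have a4 : 0 ≤ t2 := by rw [ht2]; linarith
  have e : (2249/192000) + (14081/768000)*t + (573877/5120000)*t^(2:ℕ) + (173/1600)*t^(3:ℕ) + (755129/3072000)*t^(4:ℕ) + (1792219/7680000)*t^(5:ℕ) + (328819/1280000)*t^(6:ℕ) + (1762417/7680000)*t^(7:ℕ) + (487151/3840000)*t^(8:ℕ) + (783647/7680000)*t^(9:ℕ) + (355829/15360000)*t^(10:ℕ) + (123859/7680000)*t^(11:ℕ) + (-881/15360000)*t^(12:ℕ) = (2249/192000)*t2^(12:ℕ) + (122033/768000)*t^(1:ℕ)*t2^(11:ℕ) + (16694171/15360000)*t^(2:ℕ)*t2^(10:ℕ) + (7394861/1536000)*t^(3:ℕ)*t2^(9:ℕ) + (11586197/768000)*t^(4:ℕ)*t2^(8:ℕ) + (267802679/7680000)*t^(5:ℕ)*t2^(7:ℕ) + (19419983/320000)*t^(6:ℕ)*t2^(6:ℕ) + (307406503/3840000)*t^(7:ℕ)*t2^(5:ℕ)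 + (152663623/1920000)*t^(8:ℕ)*t2^(4:ℕ) + (7438089/128000)*t^(9:ℕ)*t2^(3:ℕ) + (2379179/80000)*t^(10:ℕ)*t2^(2:ℕ) + (3072321/320000)*t^(11:ℕ)*t2^(1:ℕ) + (23743/16000)*t^(12:ℕ) := by
    rw [ht2]; ring
  rw [e]
  positivity

lemma pos_cTP0_b4 (t : ℝ) (h3 : 0 ≤ t) (h4 : t ≤ 1) :
    0 ≤ (91909/6720000) + (11047/560000)*t + (33373/256000)*t^(2:ℕ) + (1682633/13440000)*t^(3:ℕ) + (1605781/5376000)*t^(4:ℕ) + (3776999/13440000)*t^(5:ℕ) + (720553/2240000)*t^(6:ℕ) + (3696961/13440000)*t^(7:ℕ) + (154031/960000)*t^(8:ℕ) + (517203/4480000)*t^(9:ℕ) + (766399/26880000)*t^(10:ℕ) + (107071/6720000)*t^(11:ℕ) + (-2209/26880000)*t^(12:ℕ) := by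
  obtain ⟨t2, ht2⟩ : ∃ t2 : ℝ, t2 = 1 - t := ⟨_, rfl⟩
  have a4 : 0 ≤ t2 := by rw [ht2]; linarith
  have e : (91909/6720000) + (11047/560000)*t + (33373/256000)*t^(2:ℕ) + (1682633/13440000)*t^(3:ℕ) + (1605781/5376000)*t^(4:ℕ) + (3776999/13440000)*t^(5:ℕ) + (720553/2240000)*t^(6:ℕ) + (3696961/13440000)*t^(7:ℕ) + (154031/960000)*t^(8:ℕ) + (517203/4480000)*t^(9:ℕ) + (766399/26880000)*t^(10:ℕ) + (107071/6720000)*t^(11:ℕ) + (-2209/26880000)*t^(12:ℕ) = (91909/6720000)*t2^(12:ℕ) + (3677/20000)*t^(1:ℕ)*t2^(11:ℕ) + (11200319/8960000)*t^(2:ℕ)*t2^(10:ℕ) + (37112729/6720000)*t^(3:ℕ)*t2^(9:ℕ) + (58184473/3360000)*t^(4:ℕ)*t2^(8:ℕ) + (539793403/13440000)*t^(5:ℕ)*t2^(7:ℕ) + (157463741/2240000)*t^(6:ℕ)*t2^(6:ℕ) + (52307197/560000)*t^(7:ℕ)*t2^(5:ℕ)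 + (628564441/6720000)*t^(8:ℕ)*t2^(4:ℕ) + (231598693/3360000)*t^(9:ℕ)*t2^(3:ℕ) + (119412547/3360000)*t^(10:ℕ)*t2^(2:ℕ) + (19378397/1680000)*t^(11:ℕ)*t2^(1:ℕ) + (2999959/1680000)*t^(12:ℕ) := by
    rw [ht2]; ring
  rw [e]
  positivity

lemma pos_cTP0_b5 (t : ℝ) (h3 : 0 ≤ t) (h4 : t ≤ 1) :
    0 ≤ (15607/1008000) + (336691/16128000)*t + (8031601/53760000)*t^(2:ℕ) + (9213667/64512000)*t^(3:ℕ) + (231125063/645120000)*t^(4:ℕ) + (26992753/80640000)*t^(5:ℕ) + (51511049/129024000)*t^(6:ℕ) + (26275873/80640000)*t^(7:ℕ) + (65254757/322560000)*t^(8:ℕ) + (142911/1120000)*t^(9:ℕ) + (302131/8601600)*t^(10:ℕ) + (1566221/107520000)*t^(11:ℕ) + (-547/5160960)*t^(12:ℕ) := by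
  obtain ⟨t2, ht2⟩ : ∃ t2 : ℝ, t2 = 1 - t := ⟨_, rfl⟩
  have a4 : 0 ≤ t2 := by rw [ht2]; linarith
  have e : (15607/1008000) + (336691/16128000)*t + (8031601/53760000)*t^(2:ℕ) + (9213667/64512000)*t^(3:ℕ) + (231125063/645120000)*t^(4:ℕ) + (26992753/80640000)*t^(5:ℕ) + (51511049/129024000)*t^(6:ℕ) + (26275873/80640000)*t^(7:ℕ) + (65254757/322560000)*t^(8:ℕ) + (142911/1120000)*t^(9:ℕ) + (302131/8601600)*t^(10:ℕ) + (1566221/107520000)*t^(11:ℕ) + (-547/5160960)*t^(12:ℕ) = (15607/1008000)*t2^(12:ℕ) + (666647/3225600)*t^(1:ℕ)*t2^(11:ℕ) + (225940733/161280000)*t^(2:ℕ)*t2^(10:ℕ) + (44379051/7168000)*t^(3:ℕ)*t2^(9:ℕ) + (12563877833/645120000)*t^(4:ℕ)*t2^(8:ℕ) + (1220940227/26880000)*t^(5:ℕ)*t2^(7:ℕ) + (51671171177/645120000)*t^(6:ℕ)*t2^(6:ℕ)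 + (2308767739/21504000)*t^(7:ℕ)*t2^(5:ℕ) + (70019072099/645120000)*t^(8:ℕ)*t2^(4:ℕ) + (2604155791/32256000)*t^(9:ℕ)*t2^(3:ℕ) + (676957361/16128000)*t^(10:ℕ)*t2^(2:ℕ) + (2210423563/161280000)*t^(11:ℕ)*t2^(1:ℕ) + (2721461/1280000)*t^(12:ℕ) := by
    rw [ht2]; ring
  rw [e]
  positivity

lemma pos_cTP0_b6 (t : ℝ) (h3 : 0 ≤ t) (h4 : t ≤ 1) :
    0 ≤ (19293/1120000) + (24509/1120000)*t + (3794887/22400000)*t^(2:ℕ) + (43252919/268800000)*t^(3:ℕ) + (114213181/268800000)*t^(4:ℕ) + (3785503/9600000)*t^(5:ℕ) + (131999867/268800000)*t^(6:ℕ) + (17074609/44800000)*t^(7:ℕ) + (22749639/89600000)*t^(8:ℕ) + (18465479/134400000)*t^(9:ℕ) + (11618897/268800000)*t^(10:ℕ) + (1051383/89600000)*t^(11:ℕ) + (-1107/8960000)*t^(12:ℕ) := by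
  obtain ⟨t2, ht2⟩ : ∃ t2 : ℝ, t2 = 1 - t := ⟨_, rfl⟩
  have a4 : 0 ≤ t2 := by rw [ht2]; linarith
  have e : (19293/1120000) + (24509/1120000)*t + (3794887/22400000)*t^(2:ℕ) + (43252919/268800000)*t^(3:ℕ) + (114213181/268800000)*t^(4:ℕ) + (3785503/9600000)*t^(5:ℕ) + (131999867/268800000)*t^(6:ℕ) + (17074609/44800000)*t^(7:ℕ) + (22749639/89600000)*t^(8:ℕ) + (18465479/134400000)*t^(9:ℕ) + (11618897/268800000)*t^(10:ℕ) + (1051383/89600000)*t^(11:ℕ) + (-1107/8960000)*t^(12:ℕ) = (19293/1120000)*t2^(12:ℕ) + (1463/6400)*t^(1:ℕ)*t2^(11:ℕ) + (34653627/22400000)*t^(2:ℕ)*t2^(10:ℕ) + (1840828559/268800000)*t^(3:ℕ)*t2^(9:ℕ) + (51922261/2400000)*t^(4:ℕ)*t2^(8:ℕ) + (568740339/11200000)*t^(5:ℕ)*t2^(7:ℕ) + (24264261559/268800000)*t^(6:ℕ)*t2^(6:ℕ)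 + (16413319099/134400000)*t^(7:ℕ)*t2^(5:ℕ) + (2792608753/22400000)*t^(8:ℕ)*t2^(4:ℕ) + (4194540143/44800000)*t^(9:ℕ)*t2^(3:ℕ) + (2199281439/44800000)*t^(10:ℕ)*t2^(2:ℕ) + (38705467/2400000)*t^(11:ℕ)*t2^(1:ℕ) + (11231309/4480000)*t^(12:ℕ) := by
    rw [ht2]; ring
  rw [e]
  positivity

lemma pos_cTP0_b7 (t : ℝ) (h3 : 0 ≤ t) (h4 : t ≤ 1) :
    0 ≤ (292639/15360000) + (17591/768000)*t + (29320021/153600000)*t^(2:ℕ) + (55169071/307200000)*t^(3:ℕ) + (204472209/409600000)*t^(4:ℕ) + (282144487/614400000)*t^(5:ℕ) + (3679126229/6144000000)*t^(6:ℕ) + (270160801/614400000)*t^(7:ℕ) + (9731969/30720000)*t^(8:ℕ) + (88202341/614400000)*t^(9:ℕ) + (108522497/2048000000)*t^(10:ℕ) + (881513/122880000)*t^(11:ℕ) + (-10533/81920000)*t^(12:ℕ)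 := by
  obtain ⟨t2, ht2⟩ : ∃ t2 : ℝ, t2 = 1 - t := ⟨_, rfl⟩
  have a4 : 0 ≤ t2 := by rw [ht2]; linarith
  have e : (292639/15360000) + (17591/768000)*t + (29320021/153600000)*t^(2:ℕ) + (55169071/307200000)*t^(3:ℕ) + (204472209/409600000)*t^(4:ℕ) + (282144487/614400000)*t^(5:ℕ) + (3679126229/6144000000)*t^(6:ℕ) + (270160801/614400000)*t^(7:ℕ) + (9731969/30720000)*t^(8:ℕ) + (88202341/614400000)*t^(9:ℕ) + (108522497/2048000000)*t^(10:ℕ) + (881513/122880000)*t^(11:ℕ) + (-10533/81920000)*t^(12:ℕ) = (292639/15360000)*t2^(12:ℕ) + (60367/240000)*t^(1:ℕ)*t2^(11:ℕ) + (87053987/51200000)*t^(2:ℕ)*t2^(10:ℕ) + (2316183091/307200000)*t^(3:ℕ)*t2^(9:ℕ) + (9795746381/409600000)*t^(4:ℕ)*t2^(8:ℕ) + (34696421707/614400000)*t^(5:ℕ)*t2^(7:ℕ)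 + (207151831393/2048000000)*t^(6:ℕ)*t2^(6:ℕ) + (424039802507/3072000000)*t^(7:ℕ)*t2^(5:ℕ) + (174756942901/1228800000)*t^(8:ℕ)*t2^(4:ℕ) + (33108296069/307200000)*t^(9:ℕ)*t2^(3:ℕ) + (174972561313/3072000000)*t^(10:ℕ)*t2^(2:ℕ) + (28901887259/1536000000)*t^(11:ℕ)*t2^(1:ℕ) + (75002077/25600000)*t^(12:ℕ) := by
    rw [ht2]; ring
  rw [e]
  positivity

lemma pos_cTP0_b8 (t : ℝ) (h3 : 0 ≤ t) (h4 : t ≤ 1) :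
    0 ≤ (121927/5760000) + (34801/1440000)*t + (2060011/9600000)*t^(2:ℕ) + (11476997/57600000)*t^(3:ℕ) + (268265597/460800000)*t^(4:ℕ) + (40563233/76800000)*t^(5:ℕ) + (185406267/256000000)*t^(6:ℕ) + (38378483/76800000)*t^(7:ℕ) + (5024107/12800000)*t^(8:ℕ) + (2221999/15360000)*t^(9:ℕ) + (49567159/768000000)*t^(10:ℕ) + (159487/230400000)*t^(11:ℕ) + (-10781/92160000)*t^(12:ℕ) := by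
  obtain ⟨t2, ht2⟩ : ∃ t2 : ℝ, t2 = 1 - t := ⟨_, rfl⟩
  have a4 : 0 ≤ t2 := by rw [ht2]; linarith
  have e : (121927/5760000) + (34801/1440000)*t + (2060011/9600000)*t^(2:ℕ) + (11476997/57600000)*t^(3:ℕ) + (268265597/460800000)*t^(4:ℕ) + (40563233/76800000)*t^(5:ℕ) + (185406267/256000000)*t^(6:ℕ) + (38378483/76800000)*t^(7:ℕ) + (5024107/12800000)*t^(8:ℕ) + (2221999/15360000)*t^(9:ℕ) + (49567159/768000000)*t^(10:ℕ) + (159487/230400000)*t^(11:ℕ) + (-10781/92160000)*t^(12:ℕ) = (121927/5760000)*t2^(12:ℕ) + (200291/720000)*t^(1:ℕ)*t2^(11:ℕ) + (54072163/28800000)*t^(2:ℕ)*t2^(10:ℕ) + (479879257/57600000)*t^(3:ℕ)*t2^(9:ℕ) + (12210035141/460800000)*t^(4:ℕ)*t2^(8:ℕ) + (2896082299/46080000)*t^(5:ℕ)*t2^(7:ℕ) + (260920501633/2304000000)*t^(6:ℕ)*t2^(6:ℕ)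 + (179308699909/1152000000)*t^(7:ℕ)*t2^(5:ℕ) + (74472080927/460800000)*t^(8:ℕ)*t2^(4:ℕ) + (4739185973/38400000)*t^(9:ℕ)*t2^(3:ℕ) + (75643201591/1152000000)*t^(10:ℕ)*t2^(2:ℕ) + (12551840153/576000000)*t^(11:ℕ)*t2^(1:ℕ) + (97797959/28800000)*t^(12:ℕ) := by
    rw [ht2]; ring
  rw [e]
  positivity

lemma pos_cTP0_b9 (t : ℝ) (h3 : 0 ≤ t) (h4 : t ≤ 1) :
    0 ≤ (30521/1280000) + (16629/640000)*t + (618767/2560000)*t^(2:ℕ) + (1129689/5120000)*t^(3:ℕ) + (3458667/5120000)*t^(4:ℕ) + (15332443/25600000)*t^(5:ℕ) + (111249231/128000000)*t^(6:ℕ) + (14300509/25600000)*t^(7:ℕ) + (98787/204800)*t^(8:ℕ) + (711873/5120000)*t^(9:ℕ) + (9981219/128000000)*t^(10:ℕ) + (-99913/12800000)*t^(11:ℕ) + (-237/2560000)*t^(12:ℕ) := by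
  obtain ⟨t2, ht2⟩ : ∃ t2 : ℝ, t2 = 1 - t := ⟨_, rfl⟩
  have a4 : 0 ≤ t2 := by rw [ht2]; linarith
  have e : (30521/1280000) + (16629/640000)*t + (618767/2560000)*t^(2:ℕ) + (1129689/5120000)*t^(3:ℕ) + (3458667/5120000)*t^(4:ℕ) + (15332443/25600000)*t^(5:ℕ) + (111249231/128000000)*t^(6:ℕ) + (14300509/25600000)*t^(7:ℕ) + (98787/204800)*t^(8:ℕ) + (711873/5120000)*t^(9:ℕ) + (9981219/128000000)*t^(10:ℕ) + (-99913/12800000)*t^(11:ℕ) + (-237/2560000)*t^(12:ℕ) = (30521/1280000)*t2^(12:ℕ) + (39951/128000)*t^(1:ℕ)*t2^(11:ℕ) + (1075843/512000)*t^(2:ℕ)*t2^(10:ℕ) + (47680269/5120000)*t^(3:ℕ)*t2^(9:ℕ) + (75848379/2560000)*t^(4:ℕ)*t2^(8:ℕ) + (1802498983/25600000)*t^(5:ℕ)*t2^(7:ℕ) + (4073753009/32000000)*t^(6:ℕ)*t2^(6:ℕ) + (5624951399/32000000)*t^(7:ℕ)*t2^(5:ℕ)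 + (2348771519/12800000)*t^(8:ℕ)*t2^(4:ℕ) + (901762681/6400000)*t^(9:ℕ)*t2^(3:ℕ) + (2410465931/32000000)*t^(10:ℕ)*t2^(2:ℕ) + (401183853/16000000)*t^(11:ℕ)*t2^(1:ℕ) + (6249351/1600000)*t^(12:ℕ) := by
    rw [ht2]; ring
  rw [e]
  positivity

lemma pos_cTP0_b10 (t : ℝ) (h3 : 0 ≤ t) (h4 : t ≤ 1) :
    0 ≤ (3509/128000) + (921/32000)*t + (87703/320000)*t^(2:ℕ) + (313317/1280000)*t^(3:ℕ) + (2002171/2560000)*t^(4:ℕ) + (427439/640000)*t^(5:ℕ) + (13246997/12800000)*t^(6:ℕ) + (392591/640000)*t^(7:ℕ) + (751551/1280000)*t^(8:ℕ) + (15951/128000)*t^(9:ℕ) + (1197323/12800000)*t^(10:ℕ) + (-23471/1280000)*t^(11:ℕ) + (-33/512000)*t^(12:ℕ) := by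
  obtain ⟨t2, ht2⟩ : ∃ t2 : ℝ, t2 = 1 - t := ⟨_, rfl⟩
  have a4 : 0 ≤ t2 := by rw [ht2]; linarith
  have e : (3509/128000) + (921/32000)*t + (87703/320000)*t^(2:ℕ) + (313317/1280000)*t^(3:ℕ) + (2002171/2560000)*t^(4:ℕ) + (427439/640000)*t^(5:ℕ) + (13246997/12800000)*t^(6:ℕ) + (392591/640000)*t^(7:ℕ) + (751551/1280000)*t^(8:ℕ) + (15951/128000)*t^(9:ℕ) + (1197323/12800000)*t^(10:ℕ) + (-23471/1280000)*t^(11:ℕ) + (-33/512000)*t^(12:ℕ) = (3509/128000)*t2^(12:ℕ) + (1431/4000)*t^(1:ℕ)*t2^(11:ℕ) + (383999/160000)*t^(2:ℕ)*t2^(10:ℕ) + (13567437/1280000)*t^(3:ℕ)*t2^(9:ℕ) + (86111257/2560000)*t^(4:ℕ)*t2^(8:ℕ) + (51094447/640000)*t^(5:ℕ)*t2^(7:ℕ) + (1847716277/12800000)*t^(6:ℕ)*t2^(6:ℕ) + (1277202661/6400000)*t^(7:ℕ)*t2^(5:ℕ)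 + (534439767/2560000)*t^(8:ℕ)*t2^(4:ℕ) + (102853757/640000)*t^(9:ℕ)*t2^(3:ℕ) + (551104039/6400000)*t^(10:ℕ)*t2^(2:ℕ) + (91804897/3200000)*t^(11:ℕ)*t2^(1:ℕ) + (713643/160000)*t^(12:ℕ) := by
    rw [ht2]; ring
  rw [e]
  positivity

lemma pos_cTP0_id (d C0 C1 C2 C3 C4 C5 C6 C7 C8 C9 C10 : ℝ) (h1 : 0 ≤ d) (h2 : d ≤ (1/2))
    (b0 : 0 ≤ 1*C0 - (1/128))
    (b1 : 0 ≤ 1*C0 + (1/20)*C1 - (1/128))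
    (b2 : 0 ≤ 1*C0 + (1/10)*C1 + (1/180)*C2 - (1/128))
    (b3 : 0 ≤ 1*C0 + (3/20)*C1 + (1/60)*C2 + (1/960)*C3 - (1/128))
    (b4 : 0 ≤ 1*C0 + (1/5)*C1 + (1/30)*C2 + (1/240)*C3 + (1/3360)*C4 - (1/128))
    (b5 : 0 ≤ 1*C0 + (1/4)*C1 + (1/18)*C2 + (1/96)*C3 + (1/672)*C4 + (1/8064)*C5 - (1/128))
    (b6 : 0 ≤ 1*C0 + (3/10)*C1 + (1/12)*C2 + (1/48)*C3 + (1/224)*C4 + (1/1344)*C5 + (1/13440)*C6 - (1/128))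
    (b7 : 0 ≤ 1*C0 + (7/20)*C1 + (7/60)*C2 + (7/192)*C3 + (1/96)*C4 + (1/384)*C5 + (1/1920)*C6 + (1/15360)*C7 - (1/128))
    (b8 : 0 ≤ 1*C0 + (2/5)*C1 + (7/45)*C2 + (7/120)*C3 + (1/48)*C4 + (1/144)*C5 + (1/480)*C6 + (1/1920)*C7 + (1/11520)*C8 - (1/128))
    (b9 : 0 ≤ 1*C0 + (9/20)*C1 + (1/5)*C2 + (7/80)*C3 + (3/80)*C4 + (1/64)*C5 + (1/160)*C6 + (3/1280)*C7 + (1/1280)*C8 + (1/5120)*C9 - (1/128))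
    (b10 : 0 ≤ 1*C0 + (1/2)*C1 + (1/4)*C2 + (1/8)*C3 + (1/16)*C4 + (1/32)*C5 + (1/64)*C6 + (1/128)*C7 + (1/256)*C8 + (1/512)*C9 + (1/1024)*C10 - (1/128))
    : 0 < C0 + d*C1 + d^(2:ℕ)*C2 + d^(3:ℕ)*C3 + d^(4:ℕ)*C4 + d^(5:ℕ)*C5 + d^(6:ℕ)*C6 + d^(7:ℕ)*C7 + d^(8:ℕ)*C8 + d^(9:ℕ)*C9 + d^(10:ℕ)*C10 := by
  obtain ⟨d2, hd2⟩ : ∃ d2 : ℝ, d2 = (1/2) - d := ⟨_, rfl⟩
  have a2 : 0 ≤ d2 := by rw [hd2]; linarith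
  obtain ⟨B0, hB0⟩ : ∃ B : ℝ, B = 1*C0 - (1/128) := ⟨_, rfl⟩
  rw [← hB0] at b0
  obtain ⟨B1, hB1⟩ : ∃ B : ℝ, B = 1*C0 + (1/20)*C1 - (1/128) := ⟨_, rfl⟩
  rw [← hB1] at b1
  obtain ⟨B2, hB2⟩ : ∃ B : ℝ, B = 1*C0 + (1/10)*C1 + (1/180)*C2 - (1/128) := ⟨_, rfl⟩
  rw [← hB2] at b2
  obtain ⟨B3, hB3⟩ : ∃ B : ℝ, B = 1*C0 + (3/20)*C1 + (1/60)*C2 + (1/960)*C3 - (1/128) := ⟨_, rfl⟩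
  rw [← hB3] at b3
  obtain ⟨B4, hB4⟩ : ∃ B : ℝ, B = 1*C0 + (1/5)*C1 + (1/30)*C2 + (1/240)*C3 + (1/3360)*C4 - (1/128) := ⟨_, rfl⟩
  rw [← hB4] at b4
  obtain ⟨B5, hB5⟩ : ∃ B : ℝ, B = 1*C0 + (1/4)*C1 + (1/18)*C2 + (1/96)*C3 + (1/672)*C4 + (1/8064)*C5 - (1/128) := ⟨_, rfl⟩
  rw [← hB5] at b5
  obtain ⟨B6, hB6⟩ : ∃ B : ℝ, B = 1*C0 + (3/10)*C1 + (1/12)*C2 + (1/48)*C3 + (1/224)*C4 + (1/1344)*C5 + (1/13440)*C6 - (1/128) := ⟨_, rfl⟩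
  rw [← hB6] at b6
  obtain ⟨B7, hB7⟩ : ∃ B : ℝ, B = 1*C0 + (7/20)*C1 + (7/60)*C2 + (7/192)*C3 + (1/96)*C4 + (1/384)*C5 + (1/1920)*C6 + (1/15360)*C7 - (1/128) := ⟨_, rfl⟩
  rw [← hB7] at b7
  obtain ⟨B8, hB8⟩ : ∃ B : ℝ, B = 1*C0 + (2/5)*C1 + (7/45)*C2 + (7/120)*C3 + (1/48)*C4 + (1/144)*C5 + (1/480)*C6 + (1/1920)*C7 + (1/11520)*C8 - (1/128) := ⟨_, rfl⟩
  rw [← hB8] at b8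
  obtain ⟨B9, hB9⟩ : ∃ B : ℝ, B = 1*C0 + (9/20)*C1 + (1/5)*C2 + (7/80)*C3 + (3/80)*C4 + (1/64)*C5 + (1/160)*C6 + (3/1280)*C7 + (1/1280)*C8 + (1/5120)*C9 - (1/128) := ⟨_, rfl⟩
  rw [← hB9] at b9
  obtain ⟨B10, hB10⟩ : ∃ B : ℝ, B = 1*C0 + (1/2)*C1 + (1/4)*C2 + (1/8)*C3 + (1/16)*C4 + (1/32)*C5 + (1/64)*C6 + (1/128)*C7 + (1/256)*C8 + (1/512)*C9 + (1/1024)*C10 - (1/128) := ⟨_, rfl⟩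
  rw [← hB10] at b10
  have e : C0 + d*C1 + d^(2:ℕ)*C2 + d^(3:ℕ)*C3 + d^(4:ℕ)*C4 + d^(5:ℕ)*C5 + d^(6:ℕ)*C6 + d^(7:ℕ)*C7 + d^(8:ℕ)*C8 + d^(9:ℕ)*C9 + d^(10:ℕ)*C10 = (1/128) + (1024*d2^(10:ℕ)*B0 + 10240*d^(1:ℕ)*d2^(9:ℕ)*B1 + 46080*d^(2:ℕ)*d2^(8:ℕ)*B2 + 122880*d^(3:ℕ)*d2^(7:ℕ)*B3 + 215040*d^(4:ℕ)*d2^(6:ℕ)*B4 + 258048*d^(5:ℕ)*d2^(5:ℕ)*B5 + 215040*d^(6:ℕ)*d2^(4:ℕ)*B6 + 122880*d^(7:ℕ)*d2^(3:ℕ)*B7 + 46080*d^(8:ℕ)*d2^(2:ℕ)*B8 + 10240*d^(9:ℕ)*d2^(1:ℕ)*B9 + 1024*d^(10:ℕ)*B10) := by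
    rw [hB0, hB1, hB2, hB3, hB4, hB5, hB6, hB7, hB8, hB9, hB10, hd2]; ring
  rw [e]
  positivity

lemma pos_cTP0 (d t : ℝ) (h1 : 0 ≤ d) (h2 : d ≤ (1/2)) (h3 : 0 ≤ t) (h4 : t ≤ 1) :
    0 < (1/80) + (1/80)*t + (1/16)*t^(2:ℕ) + (1/16)*t^(3:ℕ) + (1/8)*t^(4:ℕ) + (1/8)*t^(5:ℕ) + (1/8)*t^(6:ℕ) + (1/8)*t^(7:ℕ) + (1/16)*t^(8:ℕ) + (1/16)*t^(9:ℕ) + (1/80)*t^(10:ℕ) + (1/80)*t^(11:ℕ) + (1/20)*d + (7/160)*d*t + (987/3200)*d*t^(2:ℕ) + (449/1600)*d*t^(3:ℕ) + (2187/3200)*d*t^(4:ℕ) + (49/80)*d*t^(5:ℕ) + (1119/1600)*d*t^(6:ℕ) + (473/800)*d*t^(7:ℕ) + (531/1600)*d*t^(8:ℕ) + (199/800)*d*t^(9:ℕ) + (183/3200)*d*t^(10:ℕ) + (53/1600)*d*t^(11:ℕ) + (-1/3200)*d*t^(12:ℕ) + (-1/40)*d^(2:ℕ) + (-1/25)*d^(2:ℕ)*t + (347/1600)*d^(2:ℕ)*t^(2:ℕ) +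 (181/800)*d^(2:ℕ)*t^(3:ℕ) + (347/320)*d^(2:ℕ)*t^(4:ℕ) + (97/100)*d^(2:ℕ)*t^(5:ℕ) + (1227/800)*d^(2:ℕ)*t^(6:ℕ) + (187/200)*d^(2:ℕ)*t^(7:ℕ) + (129/160)*d^(2:ℕ)*t^(8:ℕ) + (33/200)*d^(2:ℕ)*t^(9:ℕ) + (183/1600)*d^(2:ℕ)*t^(10:ℕ) + (-53/800)*d^(2:ℕ)*t^(11:ℕ) + (-1/1600)*d^(2:ℕ)*t^(12:ℕ) + (-11/200)*d^(3:ℕ) + (-47/800)*d^(3:ℕ)*t + (-4529/16000)*d^(3:ℕ)*t^(2:ℕ) + (-23/100)*d^(3:ℕ)*t^(3:ℕ) + (681/3200)*d^(3:ℕ)*t^(4:ℕ) + (2459/8000)*d^(3:ℕ)*t^(5:ℕ) + (5457/4000)*d^(3:ℕ)*t^(6:ℕ) + (1617/8000)*d^(3:ℕ)*t^(7:ℕ) + (4391/4000)*d^(3:ℕ)*t^(8:ℕ) + (-4033/8000)*d^(3:ℕ)*t^(9:ℕ) + (2789/16000)*d^(3:ℕ)*t^(10:ℕ) + (-1821/8000)*d^(3:ℕ)*t^(11:ℕ) + (-1/16000)*d^(3:ℕ)*t^(12:ℕ) + (349/2000)*d^(4:ℕ) + (369/2000)*d^(4:ℕ)*t + (847/2000)*d^(4:ℕ)*t^(2:ℕ)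 + (-167/4000)*d^(4:ℕ)*t^(3:ℕ) + (-69/800)*d^(4:ℕ)*t^(4:ℕ) + (-587/2000)*d^(4:ℕ)*t^(5:ℕ) + (-3/100)*d^(4:ℕ)*t^(6:ℕ) + (-1259/2000)*d^(4:ℕ)*t^(7:ℕ) + (21/50)*d^(4:ℕ)*t^(8:ℕ) + (-17/25)*d^(4:ℕ)*t^(9:ℕ) + (239/2000)*d^(4:ℕ)*t^(10:ℕ) + (-471/4000)*d^(4:ℕ)*t^(11:ℕ) + (19/4000)*d^(4:ℕ)*t^(12:ℕ) + (-9/500)*d^(5:ℕ) + (-27/2000)*d^(5:ℕ)*t + (2327/5000)*d^(5:ℕ)*t^(2:ℕ) + (687/1600)*d^(5:ℕ)*t^(3:ℕ) + (48963/80000)*d^(5:ℕ)*t^(4:ℕ) + (-1911/5000)*d^(5:ℕ)*t^(5:ℕ) + (2297/16000)*d^(5:ℕ)*t^(6:ℕ) + (-1693/2500)*d^(5:ℕ)*t^(7:ℕ) + (-5683/40000)*d^(5:ℕ)*t^(8:ℕ) + (657/10000)*d^(5:ℕ)*t^(9:ℕ) + (-507/3200)*d^(5:ℕ)*t^(10:ℕ) + (4003/40000)*d^(5:ℕ)*t^(11:ℕ) + (57/16000)*d^(5:ℕ)*t^(12:ℕ) + (13/500)*d^(6:ℕ) + (23/1000)*d^(6:ℕ)*t + (-3943/10000)*d^(6:ℕ)*t^(2:ℕ)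 + (943/2500)*d^(6:ℕ)*t^(3:ℕ) + (247/40000)*d^(6:ℕ)*t^(4:ℕ) + (-1161/1250)*d^(6:ℕ)*t^(5:ℕ) + (27509/40000)*d^(6:ℕ)*t^(6:ℕ) + (-7903/10000)*d^(6:ℕ)*t^(7:ℕ) + (883/5000)*d^(6:ℕ)*t^(8:ℕ) + (859/10000)*d^(6:ℕ)*t^(9:ℕ) + (-5131/40000)*d^(6:ℕ)*t^(10:ℕ) + (1467/10000)*d^(6:ℕ)*t^(11:ℕ) + (-29/8000)*d^(6:ℕ)*t^(12:ℕ) + (31/1000)*d^(7:ℕ) + (9/250)*d^(7:ℕ)*t + (991/2000)*d^(7:ℕ)*t^(2:ℕ) + (-6781/20000)*d^(7:ℕ)*t^(3:ℕ) + (7071/16000)*d^(7:ℕ)*t^(4:ℕ) + (4823/40000)*d^(7:ℕ)*t^(5:ℕ) + (-371491/400000)*d^(7:ℕ)*t^(6:ℕ) + (35217/40000)*d^(7:ℕ)*t^(7:ℕ) + (-6453/10000)*d^(7:ℕ)*t^(8:ℕ) + (-4267/40000)*d^(7:ℕ)*t^(9:ℕ) + (58971/400000)*d^(7:ℕ)*t^(10:ℕ) + (-1499/40000)*d^(7:ℕ)*t^(11:ℕ) + (-43/3200)*d^(7:ℕ)*t^(12:ℕ) + (-9/250)*d^(8:ℕ) +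 (-353/5000)*d^(8:ℕ)*t^(2:ℕ) + (509/10000)*d^(8:ℕ)*t^(3:ℕ) + (871/10000)*d^(8:ℕ)*t^(4:ℕ) + (-1273/10000)*d^(8:ℕ)*t^(5:ℕ) + (4399/50000)*d^(8:ℕ)*t^(6:ℕ) + (-1149/10000)*d^(8:ℕ)*t^(7:ℕ) + (1277/10000)*d^(8:ℕ)*t^(8:ℕ) + (-1263/10000)*d^(8:ℕ)*t^(9:ℕ) + (3921/50000)*d^(8:ℕ)*t^(10:ℕ) + (-59/2500)*d^(8:ℕ)*t^(11:ℕ) + (-3/1000)*d^(8:ℕ)*t^(12:ℕ) + (9/250)*d^(9:ℕ)*t^(2:ℕ) + (-63/1250)*d^(9:ℕ)*t^(3:ℕ) + (139/4000)*d^(9:ℕ)*t^(4:ℕ) + (33/2000)*d^(9:ℕ)*t^(5:ℕ) + (-1483/20000)*d^(9:ℕ)*t^(6:ℕ) + (939/10000)*d^(9:ℕ)*t^(7:ℕ) + (-247/5000)*d^(9:ℕ)*t^(8:ℕ) + (-37/2000)*d^(9:ℕ)*t^(9:ℕ) + (119/4000)*d^(9:ℕ)*t^(10:ℕ) + (-7/400)*d^(9:ℕ)*t^(11:ℕ) + (1/160)*d^(9:ℕ)*t^(12:ℕ) + (-9/1000)*d^(10:ℕ)*t^(4:ℕ) + (63/2500)*d^(10:ℕ)*t^(5:ℕ) + (-891/25000)*d^(10:ℕ)*t^(6:ℕ)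 + (63/2500)*d^(10:ℕ)*t^(7:ℕ) + (-63/2500)*d^(10:ℕ)*t^(9:ℕ) + (891/25000)*d^(10:ℕ)*t^(10:ℕ) + (-63/2500)*d^(10:ℕ)*t^(11:ℕ) + (9/1000)*d^(10:ℕ)*t^(12:ℕ) := by
  have e0 : (1/80) + (1/80)*t + (1/16)*t^(2:ℕ) + (1/16)*t^(3:ℕ) + (1/8)*t^(4:ℕ) + (1/8)*t^(5:ℕ) + (1/8)*t^(6:ℕ) + (1/8)*t^(7:ℕ) + (1/16)*t^(8:ℕ) + (1/16)*t^(9:ℕ) + (1/80)*t^(10:ℕ) + (1/80)*t^(11:ℕ) + (1/20)*d + (7/160)*d*t + (987/3200)*d*t^(2:ℕ) + (449/1600)*d*t^(3:ℕ) + (2187/3200)*d*t^(4:ℕ) + (49/80)*d*t^(5:ℕ) + (1119/1600)*d*t^(6:ℕ) + (473/800)*d*t^(7:ℕ) + (531/1600)*d*t^(8:ℕ) + (199/800)*d*t^(9:ℕ) + (183/3200)*d*t^(10:ℕ) + (53/1600)*d*t^(11:ℕ) + (-1/3200)*d*t^(12:ℕ) + (-1/40)*d^(2:ℕ) + (-1/25)*d^(2:ℕ)*t + (347/1600)*d^(2:ℕ)*t^(2:ℕ) + (181/800)*d^(2:ℕ)*t^(3:ℕ)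 + (347/320)*d^(2:ℕ)*t^(4:ℕ) + (97/100)*d^(2:ℕ)*t^(5:ℕ) + (1227/800)*d^(2:ℕ)*t^(6:ℕ) + (187/200)*d^(2:ℕ)*t^(7:ℕ) + (129/160)*d^(2:ℕ)*t^(8:ℕ) + (33/200)*d^(2:ℕ)*t^(9:ℕ) + (183/1600)*d^(2:ℕ)*t^(10:ℕ) + (-53/800)*d^(2:ℕ)*t^(11:ℕ) + (-1/1600)*d^(2:ℕ)*t^(12:ℕ) + (-11/200)*d^(3:ℕ) + (-47/800)*d^(3:ℕ)*t + (-4529/16000)*d^(3:ℕ)*t^(2:ℕ) + (-23/100)*d^(3:ℕ)*t^(3:ℕ) + (681/3200)*d^(3:ℕ)*t^(4:ℕ) + (2459/8000)*d^(3:ℕ)*t^(5:ℕ) + (5457/4000)*d^(3:ℕ)*t^(6:ℕ) + (1617/8000)*d^(3:ℕ)*t^(7:ℕ) + (4391/4000)*d^(3:ℕ)*t^(8:ℕ) + (-4033/8000)*d^(3:ℕ)*t^(9:ℕ) + (2789/16000)*d^(3:ℕ)*t^(10:ℕ) + (-1821/8000)*d^(3:ℕ)*t^(11:ℕ) + (-1/16000)*d^(3:ℕ)*t^(12:ℕ) + (349/2000)*d^(4:ℕ) + (369/2000)*d^(4:ℕ)*t + (847/2000)*d^(4:ℕ)*t^(2:ℕ) + (-167/4000)*d^(4:ℕ)*t^(3:ℕ)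 + (-69/800)*d^(4:ℕ)*t^(4:ℕ) + (-587/2000)*d^(4:ℕ)*t^(5:ℕ) + (-3/100)*d^(4:ℕ)*t^(6:ℕ) + (-1259/2000)*d^(4:ℕ)*t^(7:ℕ) + (21/50)*d^(4:ℕ)*t^(8:ℕ) + (-17/25)*d^(4:ℕ)*t^(9:ℕ) + (239/2000)*d^(4:ℕ)*t^(10:ℕ) + (-471/4000)*d^(4:ℕ)*t^(11:ℕ) + (19/4000)*d^(4:ℕ)*t^(12:ℕ) + (-9/500)*d^(5:ℕ) + (-27/2000)*d^(5:ℕ)*t + (2327/5000)*d^(5:ℕ)*t^(2:ℕ) + (687/1600)*d^(5:ℕ)*t^(3:ℕ) + (48963/80000)*d^(5:ℕ)*t^(4:ℕ) + (-1911/5000)*d^(5:ℕ)*t^(5:ℕ) + (2297/16000)*d^(5:ℕ)*t^(6:ℕ) + (-1693/2500)*d^(5:ℕ)*t^(7:ℕ) + (-5683/40000)*d^(5:ℕ)*t^(8:ℕ) + (657/10000)*d^(5:ℕ)*t^(9:ℕ) + (-507/3200)*d^(5:ℕ)*t^(10:ℕ) + (4003/40000)*d^(5:ℕ)*t^(11:ℕ) + (57/16000)*d^(5:ℕ)*t^(12:ℕ) + (13/500)*d^(6:ℕ) + (23/1000)*d^(6:ℕ)*t + (-3943/10000)*d^(6:ℕ)*t^(2:ℕ) + (943/2500)*d^(6:ℕ)*t^(3:ℕ)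 + (247/40000)*d^(6:ℕ)*t^(4:ℕ) + (-1161/1250)*d^(6:ℕ)*t^(5:ℕ) + (27509/40000)*d^(6:ℕ)*t^(6:ℕ) + (-7903/10000)*d^(6:ℕ)*t^(7:ℕ) + (883/5000)*d^(6:ℕ)*t^(8:ℕ) + (859/10000)*d^(6:ℕ)*t^(9:ℕ) + (-5131/40000)*d^(6:ℕ)*t^(10:ℕ) + (1467/10000)*d^(6:ℕ)*t^(11:ℕ) + (-29/8000)*d^(6:ℕ)*t^(12:ℕ) + (31/1000)*d^(7:ℕ) + (9/250)*d^(7:ℕ)*t + (991/2000)*d^(7:ℕ)*t^(2:ℕ) + (-6781/20000)*d^(7:ℕ)*t^(3:ℕ) + (7071/16000)*d^(7:ℕ)*t^(4:ℕ) + (4823/40000)*d^(7:ℕ)*t^(5:ℕ) + (-371491/400000)*d^(7:ℕ)*t^(6:ℕ) + (35217/40000)*d^(7:ℕ)*t^(7:ℕ) + (-6453/10000)*d^(7:ℕ)*t^(8:ℕ) + (-4267/40000)*d^(7:ℕ)*t^(9:ℕ) + (58971/400000)*d^(7:ℕ)*t^(10:ℕ) + (-1499/40000)*d^(7:ℕ)*t^(11:ℕ) + (-43/3200)*d^(7:ℕ)*t^(12:ℕ) + (-9/250)*d^(8:ℕ) + (-353/5000)*d^(8:ℕ)*t^(2:ℕ) +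 (509/10000)*d^(8:ℕ)*t^(3:ℕ) + (871/10000)*d^(8:ℕ)*t^(4:ℕ) + (-1273/10000)*d^(8:ℕ)*t^(5:ℕ) + (4399/50000)*d^(8:ℕ)*t^(6:ℕ) + (-1149/10000)*d^(8:ℕ)*t^(7:ℕ) + (1277/10000)*d^(8:ℕ)*t^(8:ℕ) + (-1263/10000)*d^(8:ℕ)*t^(9:ℕ) + (3921/50000)*d^(8:ℕ)*t^(10:ℕ) + (-59/2500)*d^(8:ℕ)*t^(11:ℕ) + (-3/1000)*d^(8:ℕ)*t^(12:ℕ) + (9/250)*d^(9:ℕ)*t^(2:ℕ) + (-63/1250)*d^(9:ℕ)*t^(3:ℕ) + (139/4000)*d^(9:ℕ)*t^(4:ℕ) + (33/2000)*d^(9:ℕ)*t^(5:ℕ) + (-1483/20000)*d^(9:ℕ)*t^(6:ℕ) + (939/10000)*d^(9:ℕ)*t^(7:ℕ) + (-247/5000)*d^(9:ℕ)*t^(8:ℕ) + (-37/2000)*d^(9:ℕ)*t^(9:ℕ) + (119/4000)*d^(9:ℕ)*t^(10:ℕ) + (-7/400)*d^(9:ℕ)*t^(11:ℕ) + (1/160)*d^(9:ℕ)*t^(12:ℕ) + (-9/1000)*d^(10:ℕ)*t^(4:ℕ) + (63/2500)*d^(10:ℕ)*t^(5:ℕ) + (-891/25000)*d^(10:ℕ)*t^(6:ℕ) + (63/2500)*d^(10:ℕ)*t^(7:ℕ)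 + (-63/2500)*d^(10:ℕ)*t^(9:ℕ) + (891/25000)*d^(10:ℕ)*t^(10:ℕ) + (-63/2500)*d^(10:ℕ)*t^(11:ℕ) + (9/1000)*d^(10:ℕ)*t^(12:ℕ) = ((1/80) + (1/80)*t + (1/16)*t^(2:ℕ) + (1/16)*t^(3:ℕ) + (1/8)*t^(4:ℕ) + (1/8)*t^(5:ℕ) + (1/8)*t^(6:ℕ) + (1/8)*t^(7:ℕ) + (1/16)*t^(8:ℕ) + (1/16)*t^(9:ℕ) + (1/80)*t^(10:ℕ) + (1/80)*t^(11:ℕ)) + d*((1/20) + (7/160)*t + (987/3200)*t^(2:ℕ) + (449/1600)*t^(3:ℕ) + (2187/3200)*t^(4:ℕ) + (49/80)*t^(5:ℕ) + (1119/1600)*t^(6:ℕ) + (473/800)*t^(7:ℕ) + (531/1600)*t^(8:ℕ) + (199/800)*t^(9:ℕ) + (183/3200)*t^(10:ℕ) + (53/1600)*t^(11:ℕ) + (-1/3200)*t^(12:ℕ)) + d^(2:ℕ)*((-1/40) + (-1/25)*t + (347/1600)*t^(2:ℕ) + (181/800)*t^(3:ℕ) + (347/320)*t^(4:ℕ) + (97/100)*t^(5:ℕ) + (1227/800)*t^(6:ℕ) + (187/200)*t^(7:ℕ) +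 (129/160)*t^(8:ℕ) + (33/200)*t^(9:ℕ) + (183/1600)*t^(10:ℕ) + (-53/800)*t^(11:ℕ) + (-1/1600)*t^(12:ℕ)) + d^(3:ℕ)*((-11/200) + (-47/800)*t + (-4529/16000)*t^(2:ℕ) + (-23/100)*t^(3:ℕ) + (681/3200)*t^(4:ℕ) + (2459/8000)*t^(5:ℕ) + (5457/4000)*t^(6:ℕ) + (1617/8000)*t^(7:ℕ) + (4391/4000)*t^(8:ℕ) + (-4033/8000)*t^(9:ℕ) + (2789/16000)*t^(10:ℕ) + (-1821/8000)*t^(11:ℕ) + (-1/16000)*t^(12:ℕ)) + d^(4:ℕ)*((349/2000) + (369/2000)*t + (847/2000)*t^(2:ℕ) + (-167/4000)*t^(3:ℕ) + (-69/800)*t^(4:ℕ) + (-587/2000)*t^(5:ℕ) + (-3/100)*t^(6:ℕ) + (-1259/2000)*t^(7:ℕ) + (21/50)*t^(8:ℕ) + (-17/25)*t^(9:ℕ) + (239/2000)*t^(10:ℕ) + (-471/4000)*t^(11:ℕ) + (19/4000)*t^(12:ℕ)) + d^(5:ℕ)*((-9/500) + (-27/2000)*t + (2327/5000)*t^(2:ℕ) + (687/1600)*t^(3:ℕ)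 + (48963/80000)*t^(4:ℕ) + (-1911/5000)*t^(5:ℕ) + (2297/16000)*t^(6:ℕ) + (-1693/2500)*t^(7:ℕ) + (-5683/40000)*t^(8:ℕ) + (657/10000)*t^(9:ℕ) + (-507/3200)*t^(10:ℕ) + (4003/40000)*t^(11:ℕ) + (57/16000)*t^(12:ℕ)) + d^(6:ℕ)*((13/500) + (23/1000)*t + (-3943/10000)*t^(2:ℕ) + (943/2500)*t^(3:ℕ) + (247/40000)*t^(4:ℕ) + (-1161/1250)*t^(5:ℕ) + (27509/40000)*t^(6:ℕ) + (-7903/10000)*t^(7:ℕ) + (883/5000)*t^(8:ℕ) + (859/10000)*t^(9:ℕ) + (-5131/40000)*t^(10:ℕ) + (1467/10000)*t^(11:ℕ) + (-29/8000)*t^(12:ℕ)) + d^(7:ℕ)*((31/1000) + (9/250)*t + (991/2000)*t^(2:ℕ) + (-6781/20000)*t^(3:ℕ) + (7071/16000)*t^(4:ℕ) + (4823/40000)*t^(5:ℕ) + (-371491/400000)*t^(6:ℕ) + (35217/40000)*t^(7:ℕ) + (-6453/10000)*t^(8:ℕ) + (-4267/40000)*t^(9:ℕ) +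 (58971/400000)*t^(10:ℕ) + (-1499/40000)*t^(11:ℕ) + (-43/3200)*t^(12:ℕ)) + d^(8:ℕ)*((-9/250) + (-353/5000)*t^(2:ℕ) + (509/10000)*t^(3:ℕ) + (871/10000)*t^(4:ℕ) + (-1273/10000)*t^(5:ℕ) + (4399/50000)*t^(6:ℕ) + (-1149/10000)*t^(7:ℕ) + (1277/10000)*t^(8:ℕ) + (-1263/10000)*t^(9:ℕ) + (3921/50000)*t^(10:ℕ) + (-59/2500)*t^(11:ℕ) + (-3/1000)*t^(12:ℕ)) + d^(9:ℕ)*((9/250)*t^(2:ℕ) + (-63/1250)*t^(3:ℕ) + (139/4000)*t^(4:ℕ) + (33/2000)*t^(5:ℕ) + (-1483/20000)*t^(6:ℕ) + (939/10000)*t^(7:ℕ) + (-247/5000)*t^(8:ℕ) + (-37/2000)*t^(9:ℕ) + (119/4000)*t^(10:ℕ) + (-7/400)*t^(11:ℕ) + (1/160)*t^(12:ℕ)) + d^(10:ℕ)*((-9/1000)*t^(4:ℕ) + (63/2500)*t^(5:ℕ) + (-891/25000)*t^(6:ℕ) + (63/2500)*t^(7:ℕ) + (-63/2500)*t^(9:ℕ) + (891/25000)*t^(10:ℕ)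 + (-63/2500)*t^(11:ℕ) + (9/1000)*t^(12:ℕ)) := by
    ring
  rw [e0]
  exact pos_cTP0_id d ((1/80) + (1/80)*t + (1/16)*t^(2:ℕ) + (1/16)*t^(3:ℕ) + (1/8)*t^(4:ℕ) + (1/8)*t^(5:ℕ) + (1/8)*t^(6:ℕ) + (1/8)*t^(7:ℕ) + (1/16)*t^(8:ℕ) + (1/16)*t^(9:ℕ) + (1/80)*t^(10:ℕ) + (1/80)*t^(11:ℕ)) ((1/20) + (7/160)*t + (987/3200)*t^(2:ℕ) + (449/1600)*t^(3:ℕ) + (2187/3200)*t^(4:ℕ) + (49/80)*t^(5:ℕ) + (1119/1600)*t^(6:ℕ) + (473/800)*t^(7:ℕ) + (531/1600)*t^(8:ℕ) + (199/800)*t^(9:ℕ) + (183/3200)*t^(10:ℕ) + (53/1600)*t^(11:ℕ) + (-1/3200)*t^(12:ℕ)) ((-1/40) + (-1/25)*t + (347/1600)*t^(2:ℕ) + (181/800)*t^(3:ℕ) + (347/320)*t^(4:ℕ) + (97/100)*t^(5:ℕ) + (1227/800)*t^(6:ℕ) + (187/200)*t^(7:ℕ) + (129/160)*t^(8:ℕ) + (33/200)*t^(9:ℕ) + (183/1600)*t^(10:ℕ)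 + (-53/800)*t^(11:ℕ) + (-1/1600)*t^(12:ℕ)) ((-11/200) + (-47/800)*t + (-4529/16000)*t^(2:ℕ) + (-23/100)*t^(3:ℕ) + (681/3200)*t^(4:ℕ) + (2459/8000)*t^(5:ℕ) + (5457/4000)*t^(6:ℕ) + (1617/8000)*t^(7:ℕ) + (4391/4000)*t^(8:ℕ) + (-4033/8000)*t^(9:ℕ) + (2789/16000)*t^(10:ℕ) + (-1821/8000)*t^(11:ℕ) + (-1/16000)*t^(12:ℕ)) ((349/2000) + (369/2000)*t + (847/2000)*t^(2:ℕ) + (-167/4000)*t^(3:ℕ) + (-69/800)*t^(4:ℕ) + (-587/2000)*t^(5:ℕ) + (-3/100)*t^(6:ℕ) + (-1259/2000)*t^(7:ℕ) + (21/50)*t^(8:ℕ) + (-17/25)*t^(9:ℕ) + (239/2000)*t^(10:ℕ) + (-471/4000)*t^(11:ℕ) + (19/4000)*t^(12:ℕ)) ((-9/500) + (-27/2000)*t + (2327/5000)*t^(2:ℕ) + (687/1600)*t^(3:ℕ) + (48963/80000)*t^(4:ℕ) + (-1911/5000)*t^(5:ℕ) + (2297/16000)*t^(6:ℕ) + (-1693/2500)*t^(7:ℕ)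 + (-5683/40000)*t^(8:ℕ) + (657/10000)*t^(9:ℕ) + (-507/3200)*t^(10:ℕ) + (4003/40000)*t^(11:ℕ) + (57/16000)*t^(12:ℕ)) ((13/500) + (23/1000)*t + (-3943/10000)*t^(2:ℕ) + (943/2500)*t^(3:ℕ) + (247/40000)*t^(4:ℕ) + (-1161/1250)*t^(5:ℕ) + (27509/40000)*t^(6:ℕ) + (-7903/10000)*t^(7:ℕ) + (883/5000)*t^(8:ℕ) + (859/10000)*t^(9:ℕ) + (-5131/40000)*t^(10:ℕ) + (1467/10000)*t^(11:ℕ) + (-29/8000)*t^(12:ℕ)) ((31/1000) + (9/250)*t + (991/2000)*t^(2:ℕ) + (-6781/20000)*t^(3:ℕ) + (7071/16000)*t^(4:ℕ) + (4823/40000)*t^(5:ℕ) + (-371491/400000)*t^(6:ℕ) + (35217/40000)*t^(7:ℕ) + (-6453/10000)*t^(8:ℕ) + (-4267/40000)*t^(9:ℕ) + (58971/400000)*t^(10:ℕ) + (-1499/40000)*t^(11:ℕ) + (-43/3200)*t^(12:ℕ)) ((-9/250) + (-353/5000)*t^(2:ℕ) + (509/10000)*t^(3:ℕ)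 + (871/10000)*t^(4:ℕ) + (-1273/10000)*t^(5:ℕ) + (4399/50000)*t^(6:ℕ) + (-1149/10000)*t^(7:ℕ) + (1277/10000)*t^(8:ℕ) + (-1263/10000)*t^(9:ℕ) + (3921/50000)*t^(10:ℕ) + (-59/2500)*t^(11:ℕ) + (-3/1000)*t^(12:ℕ)) ((9/250)*t^(2:ℕ) + (-63/1250)*t^(3:ℕ) + (139/4000)*t^(4:ℕ) + (33/2000)*t^(5:ℕ) + (-1483/20000)*t^(6:ℕ) + (939/10000)*t^(7:ℕ) + (-247/5000)*t^(8:ℕ) + (-37/2000)*t^(9:ℕ) + (119/4000)*t^(10:ℕ) + (-7/400)*t^(11:ℕ) + (1/160)*t^(12:ℕ)) ((-9/1000)*t^(4:ℕ) + (63/2500)*t^(5:ℕ) + (-891/25000)*t^(6:ℕ) + (63/2500)*t^(7:ℕ) + (-63/2500)*t^(9:ℕ) + (891/25000)*t^(10:ℕ) + (-63/2500)*t^(11:ℕ) + (9/1000)*t^(12:ℕ)) h1 h2 ((pos_cTP0_b0 t h3 h4).trans_eq (by ring)) ((pos_cTP0_b1 t h3 h4).trans_eq (by ring)) ((pos_cTP0_b2 t h3 h4).trans_eq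 (by ring)) ((pos_cTP0_b3 t h3 h4).trans_eq (by ring)) ((pos_cTP0_b4 t h3 h4).trans_eq (by ring)) ((pos_cTP0_b5 t h3 h4).trans_eq (by ring)) ((pos_cTP0_b6 t h3 h4).trans_eq (by ring)) ((pos_cTP0_b7 t h3 h4).trans_eq (by ring)) ((pos_cTP0_b8 t h3 h4).trans_eq (by ring)) ((pos_cTP0_b9 t h3 h4).trans_eq (by ring)) ((pos_cTP0_b10 t h3 h4).trans_eq (by ring))

lemma pos_cTPe_b0 (t : ℝ) (h3 : 0 ≤ t) (h4 : t ≤ 1) :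
    0 ≤ (3/1280) + (127/3200)*t^(2:ℕ) + (19/1600)*t^(3:ℕ) + (307/3200)*t^(4:ℕ) + (1/40)*t^(5:ℕ) + (179/1600)*t^(6:ℕ) + (3/800)*t^(7:ℕ) + (101/1600)*t^(8:ℕ) + (-1/50)*t^(9:ℕ) + (43/3200)*t^(10:ℕ) + (-17/1600)*t^(11:ℕ) + (-1/3200)*t^(12:ℕ) := by
  obtain ⟨t2, ht2⟩ : ∃ t2 : ℝ, t2 = 1 - t := ⟨_, rfl⟩
  have a4 : 0 ≤ t2 := by rw [ht2]; linarith
  have e : (3/1280) + (127/3200)*t^(2:ℕ) + (19/1600)*t^(3:ℕ) + (307/3200)*t^(4:ℕ) + (1/40)*t^(5:ℕ) + (179/1600)*t^(6:ℕ) + (3/800)*t^(7:ℕ) + (101/1600)*t^(8:ℕ) + (-1/50)*t^(9:ℕ) + (43/3200)*t^(10:ℕ) + (-17/1600)*t^(11:ℕ) + (-1/3200)*t^(12:ℕ) = (3/1280)*t2^(12:ℕ) + (9/320)*t^(1:ℕ)*t2^(11:ℕ) + (311/1600)*t^(2:ℕ)*t2^(10:ℕ) + (1479/1600)*t^(3:ℕ)*t2^(9:ℕ) + (20153/6400)*t^(4:ℕ)*t2^(8:ℕ)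 + (6271/800)*t^(5:ℕ)*t2^(7:ℕ) + (23153/1600)*t^(6:ℕ)*t2^(6:ℕ) + (15941/800)*t^(7:ℕ)*t2^(5:ℕ) + (26037/1280)*t^(8:ℕ)*t2^(4:ℕ) + (24049/1600)*t^(9:ℕ)*t2^(3:ℕ) + (24407/3200)*t^(10:ℕ)*t2^(2:ℕ) + (3797/1600)*t^(11:ℕ)*t2^(1:ℕ) + (2151/6400)*t^(12:ℕ) := by
    rw [ht2]; ring
  rw [e]
  positivity

lemma pos_cTPe_b1 (t : ℝ) (h3 : 0 ≤ t) (h4 : t ≤ 1) :
    0 ≤ (51/14080) + (-7/35200)*t + (3269/70400)*t^(2:ℕ) + (3/176)*t^(3:ℕ) + (1691/14080)*t^(4:ℕ) + (727/17600)*t^(5:ℕ) + (1049/7040)*t^(6:ℕ) + (43/4400)*t^(7:ℕ) + (47/550)*t^(8:ℕ) + (-1079/35200)*t^(9:ℕ) + (1217/70400)*t^(10:ℕ) + (-9/550)*t^(11:ℕ) + (-1/2816)*t^(12:ℕ) := by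
  obtain ⟨t2, ht2⟩ : ∃ t2 : ℝ, t2 = 1 - t := ⟨_, rfl⟩
  have a4 : 0 ≤ t2 := by rw [ht2]; linarith
  have e : (51/14080) + (-7/35200)*t + (3269/70400)*t^(2:ℕ) + (3/176)*t^(3:ℕ) + (1691/14080)*t^(4:ℕ) + (727/17600)*t^(5:ℕ) + (1049/7040)*t^(6:ℕ) + (43/4400)*t^(7:ℕ) + (47/550)*t^(8:ℕ) + (-1079/35200)*t^(9:ℕ) + (1217/70400)*t^(10:ℕ) + (-9/550)*t^(11:ℕ) + (-1/2816)*t^(12:ℕ) = (51/14080)*t2^(12:ℕ) + (1523/35200)*t^(1:ℕ)*t2^(11:ℕ) + (3989/14080)*t^(2:ℕ)*t2^(10:ℕ) + (4461/3520)*t^(3:ℕ)*t2^(9:ℕ) + (11611/2816)*t^(4:ℕ)*t2^(8:ℕ) + (87921/8800)*t^(5:ℕ)*t2^(7:ℕ) + (321007/17600)*t^(6:ℕ)*t2^(6:ℕ) + (110541/4400)*t^(7:ℕ)*t2^(5:ℕ) + (1819731/70400)*t^(8:ℕ)*t2^(4:ℕ) + (340179/17600)*t^(9:ℕ)*t2^(3:ℕ) + (349621/35200)*t^(10:ℕ)*t2^(2:ℕ)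 + (54911/17600)*t^(11:ℕ)*t2^(1:ℕ) + (31149/70400)*t^(12:ℕ) := by
    rw [ht2]; ring
  rw [e]
  positivity

lemma pos_cTPe_b2 (t : ℝ) (h3 : 0 ≤ t) (h4 : t ≤ 1) :
    0 ≤ (1723/352000) + (-471/704000)*t + (745979/14080000)*t^(2:ℕ) + (2911/128000)*t^(3:ℕ) + (416983/2816000)*t^(4:ℕ) + (13773/220000)*t^(5:ℕ) + (1378051/7040000)*t^(6:ℕ) + (60999/3520000)*t^(7:ℕ) + (803743/7040000)*t^(8:ℕ) + (-163281/3520000)*t^(9:ℕ) + (308591/14080000)*t^(10:ℕ) + (-172639/7040000)*t^(11:ℕ) + (-5649/14080000)*t^(12:ℕ) := by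
  obtain ⟨t2, ht2⟩ : ∃ t2 : ℝ, t2 = 1 - t := ⟨_, rfl⟩
  have a4 : 0 ≤ t2 := by rw [ht2]; linarith
  have e : (1723/352000) + (-471/704000)*t + (745979/14080000)*t^(2:ℕ) + (2911/128000)*t^(3:ℕ) + (416983/2816000)*t^(4:ℕ) + (13773/220000)*t^(5:ℕ) + (1378051/7040000)*t^(6:ℕ) + (60999/3520000)*t^(7:ℕ) + (803743/7040000)*t^(8:ℕ) + (-163281/3520000)*t^(9:ℕ) + (308591/14080000)*t^(10:ℕ) + (-172639/7040000)*t^(11:ℕ) + (-5649/14080000)*t^(12:ℕ) = (1723/352000)*t2^(12:ℕ) + (40881/704000)*t^(1:ℕ)*t2^(11:ℕ) + (5191079/14080000)*t^(2:ℕ)*t2^(10:ℕ) + (224243/140800)*t^(3:ℕ)*t2^(9:ℕ) + (10099/2000)*t^(4:ℕ)*t2^(8:ℕ) + (10630117/880000)*t^(5:ℕ)*t2^(7:ℕ) + (9693353/440000)*t^(6:ℕ)*t2^(6:ℕ) + (26913283/880000)*t^(7:ℕ)*t2^(5:ℕ) + (56121677/1760000)*t^(8:ℕ)*t2^(4:ℕ)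 + (426211/17600)*t^(9:ℕ)*t2^(3:ℕ) + (5555981/440000)*t^(10:ℕ)*t2^(2:ℕ) + (1762931/440000)*t^(11:ℕ)*t2^(1:ℕ) + (40021/70400)*t^(12:ℕ) := by
    rw [ht2]; ring
  rw [e]
  positivity

lemma pos_cTPe_b3 (t : ℝ) (h3 : 0 ≤ t) (h4 : t ≤ 1) :
    0 ≤ (3239/528000) + (-5161/3520000)*t + (9483/160000)*t^(2:ℕ) + (101719/3520000)*t^(3:ℕ) + (158523/880000)*t^(4:ℕ) + (86183/960000)*t^(5:ℕ) + (2676017/10560000)*t^(6:ℕ) + (13907/528000)*t^(7:ℕ) + (397121/2640000)*t^(8:ℕ) + (-181883/2640000)*t^(9:ℕ) + (290171/10560000)*t^(10:ℕ) + (-378299/10560000)*t^(11:ℕ) + (-1181/2640000)*t^(12:ℕ) := by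
  obtain ⟨t2, ht2⟩ : ∃ t2 : ℝ, t2 = 1 - t := ⟨_, rfl⟩
  have a4 : 0 ≤ t2 := by rw [ht2]; linarith
  have e : (3239/528000) + (-5161/3520000)*t + (9483/160000)*t^(2:ℕ) + (101719/3520000)*t^(3:ℕ) + (158523/880000)*t^(4:ℕ) + (86183/960000)*t^(5:ℕ) + (2676017/10560000)*t^(6:ℕ) + (13907/528000)*t^(7:ℕ) + (397121/2640000)*t^(8:ℕ) + (-181883/2640000)*t^(9:ℕ) + (290171/10560000)*t^(10:ℕ) + (-378299/10560000)*t^(11:ℕ) + (-1181/2640000)*t^(12:ℕ) = (3239/528000)*t2^(12:ℕ) + (253959/3520000)*t^(1:ℕ)*t2^(11:ℕ) + (28673/64000)*t^(2:ℕ)*t2^(10:ℕ) + (4990993/2640000)*t^(3:ℕ)*t2^(9:ℕ) + (5193717/880000)*t^(4:ℕ)*t2^(8:ℕ) + (148453603/10560000)*t^(5:ℕ)*t2^(7:ℕ) + (45391163/1760000)*t^(6:ℕ)*t2^(6:ℕ) + (34826693/960000)*t^(7:ℕ)*t2^(5:ℕ)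 + (67716681/1760000)*t^(8:ℕ)*t2^(4:ℕ) + (78517877/2640000)*t^(9:ℕ)*t2^(3:ℕ) + (13858851/880000)*t^(10:ℕ)*t2^(2:ℕ) + (13321681/2640000)*t^(11:ℕ)*t2^(1:ℕ) + (1258813/1760000)*t^(12:ℕ) := by
    rw [ht2]; ring
  rw [e]
  positivity

lemma pos_cTPe_b4 (t : ℝ) (h3 : 0 ≤ t) (h4 : t ≤ 1) :
    0 ≤ (30959/4224000) + (-74067/28160000)*t + (110464403/1689600000)*t^(2:ℕ) + (750397/21120000)*t^(3:ℕ) + (366007637/1689600000)*t^(4:ℕ) + (104503163/844800000)*t^(5:ℕ) + (620771/1920000)*t^(6:ℕ) + (2802163/76800000)*t^(7:ℕ) + (82564699/422400000)*t^(8:ℕ) + (-7695383/76800000)*t^(9:ℕ) + (461441/13516800)*t^(10:ℕ) + (-43178573/844800000)*t^(11:ℕ) + (-33017/67584000)*t^(12:ℕ) := by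
  obtain ⟨t2, ht2⟩ : ∃ t2 : ℝ, t2 = 1 - t := ⟨_, rfl⟩
  have a4 : 0 ≤ t2 := by rw [ht2]; linarith
  have e : (30959/4224000) + (-74067/28160000)*t + (110464403/1689600000)*t^(2:ℕ) + (750397/21120000)*t^(3:ℕ) + (366007637/1689600000)*t^(4:ℕ) + (104503163/844800000)*t^(5:ℕ) + (620771/1920000)*t^(6:ℕ) + (2802163/76800000)*t^(7:ℕ) + (82564699/422400000)*t^(8:ℕ) + (-7695383/76800000)*t^(9:ℕ) + (461441/13516800)*t^(10:ℕ) + (-43178573/844800000)*t^(11:ℕ) + (-33017/67584000)*t^(12:ℕ) = (30959/4224000)*t2^(12:ℕ) + (218423/2560000)*t^(1:ℕ)*t2^(11:ℕ) + (878897783/1689600000)*t^(2:ℕ)*t2^(10:ℕ) + (121488223/56320000)*t^(3:ℕ)*t2^(9:ℕ) + (1409226289/211200000)*t^(4:ℕ)*t2^(8:ℕ) + (13447611871/844800000)*t^(5:ℕ)*t2^(7:ℕ) + (12471759557/422400000)*t^(6:ℕ)*t2^(6:ℕ)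 + (3569029213/84480000)*t^(7:ℕ)*t2^(5:ℕ) + (19298327929/422400000)*t^(8:ℕ)*t2^(4:ℕ) + (9211357/256000)*t^(9:ℕ)*t2^(3:ℕ) + (18570611/960000)*t^(10:ℕ)*t2^(2:ℕ) + (330118939/52800000)*t^(11:ℕ)*t2^(1:ℕ) + (15550351/17600000)*t^(12:ℕ) := by
    rw [ht2]; ring
  rw [e]
  positivity

lemma pos_cTPe_b5 (t : ℝ) (h3 : 0 ≤ t) (h4 : t ≤ 1) :
    0 ≤ (200729/23654400) + (-16491/3942400)*t + (169244137/2365440000)*t^(2:ℕ) + (50628583/1182720000)*t^(3:ℕ) + (610211867/2365440000)*t^(4:ℕ) + (195387383/1182720000)*t^(5:ℕ) + (19247519/47308800)*t^(6:ℕ) + (18573323/394240000)*t^(7:ℕ) + (74104909/295680000)*t^(8:ℕ) + (-6749131/47308800)*t^(9:ℕ) + (99499997/2365440000)*t^(10:ℕ) + (-7031147/98560000)*t^(11:ℕ) + (-245111/473088000)*t^(12:ℕ)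 := by
  obtain ⟨t2, ht2⟩ : ∃ t2 : ℝ, t2 = 1 - t := ⟨_, rfl⟩
  have a4 : 0 ≤ t2 := by rw [ht2]; linarith
  have e : (200729/23654400) + (-16491/3942400)*t + (169244137/2365440000)*t^(2:ℕ) + (50628583/1182720000)*t^(3:ℕ) + (610211867/2365440000)*t^(4:ℕ) + (195387383/1182720000)*t^(5:ℕ) + (19247519/47308800)*t^(6:ℕ) + (18573323/394240000)*t^(7:ℕ) + (74104909/295680000)*t^(8:ℕ) + (-6749131/47308800)*t^(9:ℕ) + (99499997/2365440000)*t^(10:ℕ) + (-7031147/98560000)*t^(11:ℕ) + (-245111/473088000)*t^(12:ℕ) = (200729/23654400)*t2^(12:ℕ) + (34997/358400)*t^(1:ℕ)*t2^(11:ℕ) + (1385214937/2365440000)*t^(2:ℕ)*t2^(10:ℕ) + (177047923/73920000)*t^(3:ℕ)*t2^(9:ℕ) + (8720494513/1182720000)*t^(4:ℕ)*t2^(8:ℕ) + (20929771459/1182720000)*t^(5:ℕ)*t2^(7:ℕ)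 + (39403328351/1182720000)*t^(6:ℕ)*t2^(6:ℕ) + (28749546829/591360000)*t^(7:ℕ)*t2^(5:ℕ) + (21158027483/394240000)*t^(8:ℕ)*t2^(4:ℕ) + (6365195479/147840000)*t^(9:ℕ)*t2^(3:ℕ) + (631002949/26880000)*t^(10:ℕ)*t2^(2:ℕ) + (753066819/98560000)*t^(11:ℕ)*t2^(1:ℕ) + (31754897/29568000)*t^(12:ℕ) := by
    rw [ht2]; ring
  rw [e]
  positivity

lemma pos_cTPe_b6 (t : ℝ) (h3 : 0 ≤ t) (h4 : t ≤ 1) :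
    0 ≤ (27121/2816000) + (-131771/21504000)*t + (184906853/2365440000)*t^(2:ℕ) + (16118881/315392000)*t^(3:ℕ) + (2883769747/9461760000)*t^(4:ℕ) + (50833619/236544000)*t^(5:ℕ) + (23915621861/47308800000)*t^(6:ℕ) + (67520443/1182720000)*t^(7:ℕ) + (136481363/430080000)*t^(8:ℕ) + (-117663871/591360000)*t^(9:ℕ) + (2431719769/47308800000)*t^(10:ℕ) + (-1230567/12615680)*t^(11:ℕ) + (-999631/1892352000)*t^(12:ℕ) := by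
  obtain ⟨t2, ht2⟩ : ∃ t2 : ℝ, t2 = 1 - t := ⟨_, rfl⟩
  have a4 : 0 ≤ t2 := by rw [ht2]; linarith
  have e : (27121/2816000) + (-131771/21504000)*t + (184906853/2365440000)*t^(2:ℕ) + (16118881/315392000)*t^(3:ℕ) + (2883769747/9461760000)*t^(4:ℕ) + (50833619/236544000)*t^(5:ℕ) + (23915621861/47308800000)*t^(6:ℕ) + (67520443/1182720000)*t^(7:ℕ) + (136481363/430080000)*t^(8:ℕ) + (-117663871/591360000)*t^(9:ℕ) + (2431719769/47308800000)*t^(10:ℕ) + (-1230567/12615680)*t^(11:ℕ) + (-999631/1892352000)*t^(12:ℕ) = (27121/2816000)*t2^(12:ℕ) + (25888487/236544000)*t^(1:ℕ)*t2^(11:ℕ) + (509684061/788480000)*t^(2:ℕ)*t2^(10:ℕ) + (494776511/189235200)*t^(3:ℕ)*t2^(9:ℕ) + (76060173757/9461760000)*t^(4:ℕ)*t2^(8:ℕ) + (23038283747/1182720000)*t^(5:ℕ)*t2^(7:ℕ)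 + (1765589799041/47308800000)*t^(6:ℕ)*t2^(6:ℕ) + (1315328900533/23654400000)*t^(7:ℕ)*t2^(5:ℕ) + (84672406697/1351680000)*t^(8:ℕ)*t2^(4:ℕ) + (120926542871/2365440000)*t^(9:ℕ)*t2^(3:ℕ) + (83426697419/2956800000)*t^(10:ℕ)*t2^(2:ℕ) + (109149388891/11827200000)*t^(11:ℕ)*t2^(1:ℕ) + (1521891523/1182720000)*t^(12:ℕ) := by
    rw [ht2]; ring
  rw [e]
  positivity

lemma pos_cTPe_b7 (t : ℝ) (h3 : 0 ≤ t) (h4 : t ≤ 1) :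
    0 ≤ (228401/21120000) + (-356923/42240000)*t + (36235607/422400000)*t^(2:ℕ) + (41286479/675840000)*t^(3:ℕ) + (604705181/1689600000)*t^(4:ℕ) + (153798199/563200000)*t^(5:ℕ) + (1748972311/2816000000)*t^(6:ℕ) + (6832799/105600000)*t^(7:ℕ) + (1342042961/3379200000)*t^(8:ℕ) + (-57476773/211200000)*t^(9:ℕ) + (175301349/2816000000)*t^(10:ℕ) + (-40177987/307200000)*t^(11:ℕ) + (-345607/675840000)*t^(12:ℕ) := by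
  obtain ⟨t2, ht2⟩ : ∃ t2 : ℝ, t2 = 1 - t := ⟨_, rfl⟩
  have a4 : 0 ≤ t2 := by rw [ht2]; linarith
  have e : (228401/21120000) + (-356923/42240000)*t + (36235607/422400000)*t^(2:ℕ) + (41286479/675840000)*t^(3:ℕ) + (604705181/1689600000)*t^(4:ℕ) + (153798199/563200000)*t^(5:ℕ) + (1748972311/2816000000)*t^(6:ℕ) + (6832799/105600000)*t^(7:ℕ) + (1342042961/3379200000)*t^(8:ℕ) + (-57476773/211200000)*t^(9:ℕ) + (175301349/2816000000)*t^(10:ℕ) + (-40177987/307200000)*t^(11:ℕ) + (-345607/675840000)*t^(12:ℕ) = (228401/21120000)*t2^(12:ℕ) + (5124701/42240000)*t^(1:ℕ)*t2^(11:ℕ) + (99487799/140800000)*t^(2:ℕ)*t2^(10:ℕ) + (1914906991/675840000)*t^(3:ℕ)*t2^(9:ℕ) + (29490096037/3379200000)*t^(4:ℕ)*t2^(8:ℕ) + (1446720571/67584000)*t^(5:ℕ)*t2^(7:ℕ)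 + (176516064959/4224000000)*t^(6:ℕ)*t2^(6:ℕ) + (44735285349/704000000)*t^(7:ℕ)*t2^(5:ℕ) + (246426033059/3379200000)*t^(8:ℕ)*t2^(4:ℕ) + (34014968697/563200000)*t^(9:ℕ)*t2^(3:ℕ) + (23694090181/704000000)*t^(10:ℕ)*t2^(2:ℕ) + (46612357061/4224000000)*t^(11:ℕ)*t2^(1:ℕ) + (116886677/76800000)*t^(12:ℕ) := by
    rw [ht2]; ring
  rw [e]
  positivity

lemma pos_cTPe_b8 (t : ℝ) (h3 : 0 ≤ t) (h4 : t ≤ 1) :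
    0 ≤ (81863/6758400) + (-156537/14080000)*t + (32126509/337920000)*t^(2:ℕ) + (83064797/1126400000)*t^(3:ℕ) + (5656659299/13516800000)*t^(4:ℕ) + (2294087383/6758400000)*t^(5:ℕ) + (17021974583/22528000000)*t^(6:ℕ) + (152158747/2252800000)*t^(7:ℕ) + (276918319/563200000)*t^(8:ℕ) + (-2470061387/6758400000)*t^(9:ℕ) + (5045970451/67584000000)*t^(10:ℕ) + (-1163052467/6758400000)*t^(11:ℕ) + (-1251551/2703360000)*t^(12:ℕ) := by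
  obtain ⟨t2, ht2⟩ : ∃ t2 : ℝ, t2 = 1 - t := ⟨_, rfl⟩
  have a4 : 0 ≤ t2 := by rw [ht2]; linarith
  have e : (81863/6758400) + (-156537/14080000)*t + (32126509/337920000)*t^(2:ℕ) + (83064797/1126400000)*t^(3:ℕ) + (5656659299/13516800000)*t^(4:ℕ) + (2294087383/6758400000)*t^(5:ℕ) + (17021974583/22528000000)*t^(6:ℕ) + (152158747/2252800000)*t^(7:ℕ) + (276918319/563200000)*t^(8:ℕ) + (-2470061387/6758400000)*t^(9:ℕ) + (5045970451/67584000000)*t^(10:ℕ) + (-1163052467/6758400000)*t^(11:ℕ) + (-1251551/2703360000)*t^(12:ℕ) = (81863/6758400)*t2^(12:ℕ) + (945019/7040000)*t^(1:ℕ)*t2^(11:ℕ) + (260948641/337920000)*t^(2:ℕ)*t2^(10:ℕ) + (10400486891/3379200000)*t^(3:ℕ)*t2^(9:ℕ) + (5148171311/540672000)*t^(4:ℕ)*t2^(8:ℕ) + (4848678107/204800000)*t^(5:ℕ)*t2^(7:ℕ)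 + (3180821966099/67584000000)*t^(6:ℕ)*t2^(6:ℕ) + (2462473843387/33792000000)*t^(7:ℕ)*t2^(5:ℕ) + (382623646039/4505600000)*t^(8:ℕ)*t2^(4:ℕ) + (240389277749/3379200000)*t^(9:ℕ)*t2^(3:ℕ) + (1348457402833/33792000000)*t^(10:ℕ)*t2^(2:ℕ) + (221004656459/16896000000)*t^(11:ℕ)*t2^(1:ℕ) + (1503062999/844800000)*t^(12:ℕ) := by
    rw [ht2]; ring
  rw [e]
  positivity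

lemma pos_cTPe_b9 (t : ℝ) (h3 : 0 ≤ t) (h4 : t ≤ 1) :
    0 ≤ (767951/56320000) + (-198257/14080000)*t + (30083351/281600000)*t^(2:ℕ) + (50934737/563200000)*t^(3:ℕ) + (2199619189/4505600000)*t^(4:ℕ) + (930009227/2252800000)*t^(5:ℕ) + (20533625243/22528000000)*t^(6:ℕ) + (140569233/2252800000)*t^(7:ℕ) + (678839387/1126400000)*t^(8:ℕ) + (-43482783/90112000)*t^(9:ℕ) + (1996547837/22528000000)*t^(10:ℕ) + (-500816649/2252800000)*t^(11:ℕ) + (-347477/901120000)*t^(12:ℕ) := by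
  obtain ⟨t2, ht2⟩ : ∃ t2 : ℝ, t2 = 1 - t := ⟨_, rfl⟩
  have a4 : 0 ≤ t2 := by rw [ht2]; linarith
  have e : (767951/56320000) + (-198257/14080000)*t + (30083351/281600000)*t^(2:ℕ) + (50934737/563200000)*t^(3:ℕ) + (2199619189/4505600000)*t^(4:ℕ) + (930009227/2252800000)*t^(5:ℕ) + (20533625243/22528000000)*t^(6:ℕ) + (140569233/2252800000)*t^(7:ℕ) + (678839387/1126400000)*t^(8:ℕ) + (-43482783/90112000)*t^(9:ℕ) + (1996547837/22528000000)*t^(10:ℕ) + (-500816649/2252800000)*t^(11:ℕ) + (-347477/901120000)*t^(12:ℕ) = (767951/56320000)*t2^(12:ℕ) + (526399/3520000)*t^(1:ℕ)*t2^(11:ℕ) + (239890641/281600000)*t^(2:ℕ)*t2^(10:ℕ) + (1905928557/563200000)*t^(3:ℕ)*t2^(9:ℕ) + (47469822973/4505600000)*t^(4:ℕ)*t2^(8:ℕ) + (59803823151/2252800000)*t^(5:ℕ)*t2^(7:ℕ)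 + (1207405085913/22528000000)*t^(6:ℕ)*t2^(6:ℕ) + (947864743709/11264000000)*t^(7:ℕ)*t2^(5:ℕ) + (446693109383/4505600000)*t^(8:ℕ)*t2^(4:ℕ) + (94237160583/1126400000)*t^(9:ℕ)*t2^(3:ℕ) + (530314244191/11264000000)*t^(10:ℕ)*t2^(2:ℕ) + (86648911793/5632000000)*t^(11:ℕ)*t2^(1:ℕ) + (579466487/281600000)*t^(12:ℕ) := by
    rw [ht2]; ring
  rw [e]
  positivity

lemma pos_cTPe_b10 (t : ℝ) (h3 : 0 ≤ t) (h4 : t ≤ 1) :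
    0 ≤ (174961/11264000) + (-97223/5632000)*t + (2747951/22528000)*t^(2:ℕ) + (25440757/225280000)*t^(3:ℕ) + (128255207/225280000)*t^(4:ℕ) + (110563187/225280000)*t^(5:ℕ) + (22354313/20480000)*t^(6:ℕ) + (10193253/225280000)*t^(7:ℕ) + (164859103/225280000)*t^(8:ℕ) + (-141279667/225280000)*t^(9:ℕ) + (23458727/225280000)*t^(10:ℕ) + (-6353141/22528000)*t^(11:ℕ) + (-1317/4505600)*t^(12:ℕ) := by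
  obtain ⟨t2, ht2⟩ : ∃ t2 : ℝ, t2 = 1 - t := ⟨_, rfl⟩
  have a4 : 0 ≤ t2 := by rw [ht2]; linarith
  have e : (174961/11264000) + (-97223/5632000)*t + (2747951/22528000)*t^(2:ℕ) + (25440757/225280000)*t^(3:ℕ) + (128255207/225280000)*t^(4:ℕ) + (110563187/225280000)*t^(5:ℕ) + (22354313/20480000)*t^(6:ℕ) + (10193253/225280000)*t^(7:ℕ) + (164859103/225280000)*t^(8:ℕ) + (-141279667/225280000)*t^(9:ℕ) + (23458727/225280000)*t^(10:ℕ) + (-6353141/22528000)*t^(11:ℕ) + (-1317/4505600)*t^(12:ℕ) = (174961/11264000)*t2^(12:ℕ) + (952543/5632000)*t^(1:ℕ)*t2^(11:ℕ) + (21564991/22528000)*t^(2:ℕ)*t2^(10:ℕ) + (856173657/225280000)*t^(3:ℕ)*t2^(9:ℕ) + (268424207/22528000)*t^(4:ℕ)*t2^(8:ℕ) + (124328217/4096000)*t^(5:ℕ)*t2^(7:ℕ) + (3488826119/56320000)*t^(6:ℕ)*t2^(6:ℕ)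 + (502153853/5120000)*t^(7:ℕ)*t2^(5:ℕ) + (2617686583/22528000)*t^(8:ℕ)*t2^(4:ℕ) + (1107638133/11264000)*t^(9:ℕ)*t2^(3:ℕ) + (3115411091/56320000)*t^(10:ℕ)*t2^(2:ℕ) + (46003327/2560000)*t^(11:ℕ)*t2^(1:ℕ) + (6636007/2816000)*t^(12:ℕ) := by
    rw [ht2]; ring
  rw [e]
  positivity

lemma pos_cTPe_b11 (t : ℝ) (h3 : 0 ≤ t) (h4 : t ≤ 1) :
    0 ≤ (18437/1024000) + (-5259/256000)*t + (72483/512000)*t^(2:ℕ) + (58709/409600)*t^(3:ℕ) + (2724199/4096000)*t^(4:ℕ) + (582747/1024000)*t^(5:ℕ) + (5319829/4096000)*t^(6:ℕ) + (2319/204800)*t^(7:ℕ) + (1803739/2048000)*t^(8:ℕ) + (-822601/1024000)*t^(9:ℕ) + (496907/4096000)*t^(10:ℕ) + (-143903/409600)*t^(11:ℕ) + (-33/163840)*t^(12:ℕ) := by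
  obtain ⟨t2, ht2⟩ : ∃ t2 : ℝ, t2 = 1 - t := ⟨_, rfl⟩
  have a4 : 0 ≤ t2 := by rw [ht2]; linarith
  have e : (18437/1024000) + (-5259/256000)*t + (72483/512000)*t^(2:ℕ) + (58709/409600)*t^(3:ℕ) + (2724199/4096000)*t^(4:ℕ) + (582747/1024000)*t^(5:ℕ) + (5319829/4096000)*t^(6:ℕ) + (2319/204800)*t^(7:ℕ) + (1803739/2048000)*t^(8:ℕ) + (-822601/1024000)*t^(9:ℕ) + (496907/4096000)*t^(10:ℕ) + (-143903/409600)*t^(11:ℕ) + (-33/163840)*t^(12:ℕ) = (18437/1024000)*t2^(12:ℕ) + (12513/64000)*t^(1:ℕ)*t2^(11:ℕ) + (282603/256000)*t^(2:ℕ)*t2^(10:ℕ) + (1798237/409600)*t^(3:ℕ)*t2^(9:ℕ) + (56723389/4096000)*t^(4:ℕ)*t2^(8:ℕ) + (36371099/1024000)*t^(5:ℕ)*t2^(7:ℕ) + (298269941/4096000)*t^(6:ℕ)*t2^(6:ℕ) + (236552101/2048000)*t^(7:ℕ)*t2^(5:ℕ)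 + (560397843/4096000)*t^(8:ℕ)*t2^(4:ℕ) + (118344913/1024000)*t^(9:ℕ)*t2^(3:ℕ) + (132614343/2048000)*t^(10:ℕ)*t2^(2:ℕ) + (21354177/1024000)*t^(11:ℕ)*t2^(1:ℕ) + (136901/51200)*t^(12:ℕ) := by
    rw [ht2]; ring
  rw [e]
  positivity

lemma pos_cTPe_id (d C0 C1 C2 C3 C4 C5 C6 C7 C8 C9 C10 C11 : ℝ) (h1 : 0 ≤ d) (h2 : d ≤ (1/2))
    (b0 : 0 ≤ 1*C0 - (1/256))
    (b1 : 0 ≤ 1*C0 + (1/22)*C1 - (1/256))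
    (b2 : 0 ≤ 1*C0 + (1/11)*C1 + (1/220)*C2 - (1/256))
    (b3 : 0 ≤ 1*C0 + (3/22)*C1 + (3/220)*C2 + (1/1320)*C3 - (1/256))
    (b4 : 0 ≤ 1*C0 + (2/11)*C1 + (3/110)*C2 + (1/330)*C3 + (1/5280)*C4 - (1/256))
    (b5 : 0 ≤ 1*C0 + (5/22)*C1 + (1/22)*C2 + (1/132)*C3 + (1/1056)*C4 + (1/14784)*C5 - (1/256))
    (b6 : 0 ≤ 1*C0 + (3/11)*C1 + (3/44)*C2 + (1/66)*C3 + (1/352)*C4 + (1/2464)*C5 + (1/29568)*C6 - (1/256))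
    (b7 : 0 ≤ 1*C0 + (7/22)*C1 + (21/220)*C2 + (7/264)*C3 + (7/1056)*C4 + (1/704)*C5 + (1/4224)*C6 + (1/42240)*C7 - (1/256))
    (b8 : 0 ≤ 1*C0 + (4/11)*C1 + (7/55)*C2 + (7/165)*C3 + (7/528)*C4 + (1/264)*C5 + (1/1056)*C6 + (1/5280)*C7 + (1/42240)*C8 - (1/256))
    (b9 : 0 ≤ 1*C0 + (9/22)*C1 + (9/55)*C2 + (7/110)*C3 + (21/880)*C4 + (3/352)*C5 + (1/352)*C6 + (3/3520)*C7 + (3/14080)*C8 + (1/28160)*C9 - (1/256))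
    (b10 : 0 ≤ 1*C0 + (5/11)*C1 + (9/44)*C2 + (1/11)*C3 + (7/176)*C4 + (3/176)*C5 + (5/704)*C6 + (1/352)*C7 + (3/2816)*C8 + (1/2816)*C9 + (1/11264)*C10 - (1/256))
    (b11 : 0 ≤ 1*C0 + (1/2)*C1 + (1/4)*C2 + (1/8)*C3 + (1/16)*C4 + (1/32)*C5 + (1/64)*C6 + (1/128)*C7 + (1/256)*C8 + (1/512)*C9 + (1/1024)*C10 + (1/2048)*C11 - (1/256))
    : 0 < C0 + d*C1 + d^(2:ℕ)*C2 + d^(3:ℕ)*C3 + d^(4:ℕ)*C4 + d^(5:ℕ)*C5 + d^(6:ℕ)*C6 + d^(7:ℕ)*C7 + d^(8:ℕ)*C8 + d^(9:ℕ)*C9 + d^(10:ℕ)*C10 + d^(11:ℕ)*C11 := by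
  obtain ⟨d2, hd2⟩ : ∃ d2 : ℝ, d2 = (1/2) - d := ⟨_, rfl⟩
  have a2 : 0 ≤ d2 := by rw [hd2]; linarith
  obtain ⟨B0, hB0⟩ : ∃ B : ℝ, B = 1*C0 - (1/256) := ⟨_, rfl⟩
  rw [← hB0] at b0
  obtain ⟨B1, hB1⟩ : ∃ B : ℝ, B = 1*C0 + (1/22)*C1 - (1/256) := ⟨_, rfl⟩
  rw [← hB1] at b1
  obtain ⟨B2, hB2⟩ : ∃ B : ℝ, B = 1*C0 + (1/11)*C1 + (1/220)*C2 - (1/256) := ⟨_, rfl⟩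
  rw [← hB2] at b2
  obtain ⟨B3, hB3⟩ : ∃ B : ℝ, B = 1*C0 + (3/22)*C1 + (3/220)*C2 + (1/1320)*C3 - (1/256) := ⟨_, rfl⟩
  rw [← hB3] at b3
  obtain ⟨B4, hB4⟩ : ∃ B : ℝ, B = 1*C0 + (2/11)*C1 + (3/110)*C2 + (1/330)*C3 + (1/5280)*C4 - (1/256) := ⟨_, rfl⟩
  rw [← hB4] at b4
  obtain ⟨B5, hB5⟩ : ∃ B : ℝ, B = 1*C0 + (5/22)*C1 + (1/22)*C2 + (1/132)*C3 + (1/1056)*C4 + (1/14784)*C5 - (1/256) := ⟨_, rfl⟩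
  rw [← hB5] at b5
  obtain ⟨B6, hB6⟩ : ∃ B : ℝ, B = 1*C0 + (3/11)*C1 + (3/44)*C2 + (1/66)*C3 + (1/352)*C4 + (1/2464)*C5 + (1/29568)*C6 - (1/256) := ⟨_, rfl⟩
  rw [← hB6] at b6
  obtain ⟨B7, hB7⟩ : ∃ B : ℝ, B = 1*C0 + (7/22)*C1 + (21/220)*C2 + (7/264)*C3 + (7/1056)*C4 + (1/704)*C5 + (1/4224)*C6 + (1/42240)*C7 - (1/256) := ⟨_, rfl⟩
  rw [← hB7] at b7
  obtain ⟨B8, hB8⟩ : ∃ B : ℝ, B = 1*C0 + (4/11)*C1 + (7/55)*C2 + (7/165)*C3 + (7/528)*C4 + (1/264)*C5 + (1/1056)*C6 + (1/5280)*C7 + (1/42240)*C8 - (1/256) := ⟨_, rfl⟩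
  rw [← hB8] at b8
  obtain ⟨B9, hB9⟩ : ∃ B : ℝ, B = 1*C0 + (9/22)*C1 + (9/55)*C2 + (7/110)*C3 + (21/880)*C4 + (3/352)*C5 + (1/352)*C6 + (3/3520)*C7 + (3/14080)*C8 + (1/28160)*C9 - (1/256) := ⟨_, rfl⟩
  rw [← hB9] at b9
  obtain ⟨B10, hB10⟩ : ∃ B : ℝ, B = 1*C0 + (5/11)*C1 + (9/44)*C2 + (1/11)*C3 + (7/176)*C4 + (3/176)*C5 + (5/704)*C6 + (1/352)*C7 + (3/2816)*C8 + (1/2816)*C9 + (1/11264)*C10 - (1/256) := ⟨_, rfl⟩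
  rw [← hB10] at b10
  obtain ⟨B11, hB11⟩ : ∃ B : ℝ, B = 1*C0 + (1/2)*C1 + (1/4)*C2 + (1/8)*C3 + (1/16)*C4 + (1/32)*C5 + (1/64)*C6 + (1/128)*C7 + (1/256)*C8 + (1/512)*C9 + (1/1024)*C10 + (1/2048)*C11 - (1/256) := ⟨_, rfl⟩
  rw [← hB11] at b11
  have e : C0 + d*C1 + d^(2:ℕ)*C2 + d^(3:ℕ)*C3 + d^(4:ℕ)*C4 + d^(5:ℕ)*C5 + d^(6:ℕ)*C6 + d^(7:ℕ)*C7 + d^(8:ℕ)*C8 + d^(9:ℕ)*C9 + d^(10:ℕ)*C10 + d^(11:ℕ)*C11 = (1/256) + (2048*d2^(11:ℕ)*B0 + 22528*d^(1:ℕ)*d2^(10:ℕ)*B1 + 112640*d^(2:ℕ)*d2^(9:ℕ)*B2 + 337920*d^(3:ℕ)*d2^(8:ℕ)*B3 + 675840*d^(4:ℕ)*d2^(7:ℕ)*B4 + 946176*d^(5:ℕ)*d2^(6:ℕ)*B5 + 946176*d^(6:ℕ)*d2^(5:ℕ)*B6 + 675840*d^(7:ℕ)*d2^(4:ℕ)*B7 + 337920*d^(8:ℕ)*d2^(3:ℕ)*B8 + 112640*d^(9:ℕ)*d2^(2:ℕ)*B9 + 22528*d^(10:ℕ)*d2^(1:ℕ)*B10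 + 2048*d^(11:ℕ)*B11) := by
    rw [hB0, hB1, hB2, hB3, hB4, hB5, hB6, hB7, hB8, hB9, hB10, hB11, hd2]; ring
  rw [e]
  positivity

lemma pos_cTPe (d t : ℝ) (h1 : 0 ≤ d) (h2 : d ≤ (1/2)) (h3 : 0 ≤ t) (h4 : t ≤ 1) :
    0 < (1/160) + (127/3200)*t^(2:ℕ) + (19/1600)*t^(3:ℕ) + (307/3200)*t^(4:ℕ) + (1/40)*t^(5:ℕ) + (179/1600)*t^(6:ℕ) + (3/800)*t^(7:ℕ) + (101/1600)*t^(8:ℕ) + (-1/50)*t^(9:ℕ) + (43/3200)*t^(10:ℕ) + (-17/1600)*t^(11:ℕ) + (-1/3200)*t^(12:ℕ) + (9/320)*d + (-7/1600)*d*t + (19/128)*d*t^(2:ℕ) + (91/800)*d*t^(3:ℕ) + (1701/3200)*d*t^(4:ℕ) + (287/800)*d*t^(5:ℕ) + (1307/1600)*d*t^(6:ℕ) + (53/400)*d*t^(7:ℕ) + (393/800)*d*t^(8:ℕ) + (-15/64)*d*t^(9:ℕ) + (271/3200)*d*t^(10:ℕ) + (-101/800)*d*t^(11:ℕ) + (-3/3200)*d*t^(12:ℕ)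 + (-1/800)*d^(2:ℕ) + (-191/3200)*d^(2:ℕ)*t + (-2821/64000)*d^(2:ℕ)*t^(2:ℕ) + (741/6400)*d^(2:ℕ)*t^(3:ℕ) + (10743/12800)*d^(2:ℕ)*t^(4:ℕ) + (549/500)*d^(2:ℕ)*t^(5:ℕ) + (67651/32000)*d^(2:ℕ)*t^(6:ℕ) + (5399/16000)*d^(2:ℕ)*t^(7:ℕ) + (44943/32000)*d^(2:ℕ)*t^(8:ℕ) + (-17881/16000)*d^(2:ℕ)*t^(9:ℕ) + (10991/64000)*d^(2:ℕ)*t^(10:ℕ) + (-17039/32000)*d^(2:ℕ)*t^(11:ℕ) + (-49/64000)*d^(2:ℕ)*t^(12:ℕ) + (-29/800)*d^(3:ℕ) + (-147/2000)*d^(3:ℕ)*t + (-2499/32000)*d^(3:ℕ)*t^(2:ℕ) + (-1431/16000)*d^(3:ℕ)*t^(3:ℕ) + (11469/32000)*d^(3:ℕ)*t^(4:ℕ) + (9301/8000)*d^(3:ℕ)*t^(5:ℕ) + (1111/640)*d^(3:ℕ)*t^(6:ℕ) + (-851/8000)*d^(3:ℕ)*t^(7:ℕ) + (24481/16000)*d^(3:ℕ)*t^(8:ℕ) + (-17903/8000)*d^(3:ℕ)*t^(9:ℕ) + (1273/6400)*d^(3:ℕ)*t^(10:ℕ) + (-15247/16000)*d^(3:ℕ)*t^(11:ℕ)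 + (29/6400)*d^(3:ℕ)*t^(12:ℕ) + (67/800)*d^(4:ℕ) + (267/3200)*d^(4:ℕ)*t + (239363/320000)*d^(4:ℕ)*t^(2:ℕ) + (1831/4000)*d^(4:ℕ)*t^(3:ℕ) + (105797/320000)*d^(4:ℕ)*t^(4:ℕ) + (4923/160000)*d^(4:ℕ)*t^(5:ℕ) + (63/4000)*d^(4:ℕ)*t^(6:ℕ) + (-198447/160000)*d^(4:ℕ)*t^(7:ℕ) + (34739/80000)*d^(4:ℕ)*t^(8:ℕ) + (-275613/160000)*d^(4:ℕ)*t^(9:ℕ) + (5641/64000)*d^(4:ℕ)*t^(10:ℕ) + (-102973/160000)*d^(4:ℕ)*t^(11:ℕ) + (531/64000)*d^(4:ℕ)*t^(12:ℕ) + (53/1600)*d^(5:ℕ) + (261/8000)*d^(5:ℕ)*t + (7229/40000)*d^(5:ℕ)*t^(2:ℕ) + (72063/80000)*d^(5:ℕ)*t^(3:ℕ) + (13131/20000)*d^(5:ℕ)*t^(4:ℕ) + (-46339/40000)*d^(5:ℕ)*t^(5:ℕ) + (13971/16000)*d^(5:ℕ)*t^(6:ℕ) + (-64811/40000)*d^(5:ℕ)*t^(7:ℕ) + (1249/8000)*d^(5:ℕ)*t^(8:ℕ) + (-1633/10000)*d^(5:ℕ)*t^(9:ℕ)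 + (-20159/80000)*d^(5:ℕ)*t^(10:ℕ) + (13287/80000)*d^(5:ℕ)*t^(11:ℕ) + (9/8000)*d^(5:ℕ)*t^(12:ℕ) + (-1/500)*d^(6:ℕ) + (-379/8000)*d^(6:ℕ)*t + (-11933/40000)*d^(6:ℕ)*t^(2:ℕ) + (22023/160000)*d^(6:ℕ)*t^(3:ℕ) + (109327/320000)*d^(6:ℕ)*t^(4:ℕ) + (-2129/2000)*d^(6:ℕ)*t^(5:ℕ) + (879061/1600000)*d^(6:ℕ)*t^(6:ℕ) + (-6779/20000)*d^(6:ℕ)*t^(7:ℕ) + (-8439/160000)*d^(6:ℕ)*t^(8:ℕ) + (127/320)*d^(6:ℕ)*t^(9:ℕ) + (-194571/1600000)*d^(6:ℕ)*t^(10:ℕ) + (86299/160000)*d^(6:ℕ)*t^(11:ℕ) + (-207/12800)*d^(6:ℕ)*t^(12:ℕ) + (49/2000)*d^(7:ℕ) + (43/4000)*d^(7:ℕ)*t + (1833/40000)*d^(7:ℕ)*t^(2:ℕ) + (-199/800)*d^(7:ℕ)*t^(3:ℕ) + (30029/160000)*d^(7:ℕ)*t^(4:ℕ) + (-18913/40000)*d^(7:ℕ)*t^(5:ℕ) + (-309373/800000)*d^(7:ℕ)*t^(6:ℕ) + (7997/20000)*d^(7:ℕ)*t^(7:ℕ)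 + (-3551/20000)*d^(7:ℕ)*t^(8:ℕ) + (147/5000)*d^(7:ℕ)*t^(9:ℕ) + (134543/800000)*d^(7:ℕ)*t^(10:ℕ) + (873/5000)*d^(7:ℕ)*t^(11:ℕ) + (-111/6400)*d^(7:ℕ)*t^(12:ℕ) + (31/4000)*d^(8:ℕ) + (9/200)*d^(8:ℕ)*t + (3471/40000)*d^(8:ℕ)*t^(2:ℕ) + (-1589/80000)*d^(8:ℕ)*t^(3:ℕ) + (11279/64000)*d^(8:ℕ)*t^(4:ℕ) + (-22041/160000)*d^(8:ℕ)*t^(5:ℕ) + (-285523/1600000)*d^(8:ℕ)*t^(6:ℕ) + (16673/160000)*d^(8:ℕ)*t^(7:ℕ) + (-1797/40000)*d^(8:ℕ)*t^(8:ℕ) + (-21179/160000)*d^(8:ℕ)*t^(9:ℕ) + (201003/1600000)*d^(8:ℕ)*t^(10:ℕ) + (-63/32000)*d^(8:ℕ)*t^(11:ℕ) + (-7/64000)*d^(8:ℕ)*t^(12:ℕ) + (-9/1000)*d^(9:ℕ) + (7/20000)*d^(9:ℕ)*t^(2:ℕ) + (-1219/40000)*d^(9:ℕ)*t^(3:ℕ) + (1469/40000)*d^(9:ℕ)*t^(4:ℕ) + (-37/40000)*d^(9:ℕ)*t^(5:ℕ) + (-12519/200000)*d^(9:ℕ)*t^(6:ℕ)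 + (2607/40000)*d^(9:ℕ)*t^(7:ℕ) + (-267/40000)*d^(9:ℕ)*t^(8:ℕ) + (-2579/40000)*d^(9:ℕ)*t^(9:ℕ) + (15559/200000)*d^(9:ℕ)*t^(10:ℕ) + (-153/5000)*d^(9:ℕ)*t^(11:ℕ) + (29/2000)*d^(9:ℕ)*t^(12:ℕ) + (9/1000)*d^(10:ℕ)*t^(2:ℕ) + (-63/5000)*d^(10:ℕ)*t^(3:ℕ) + (-1/3200)*d^(10:ℕ)*t^(4:ℕ) + (1173/40000)*d^(10:ℕ)*t^(5:ℕ) + (-21671/400000)*d^(10:ℕ)*t^(6:ℕ) + (1947/40000)*d^(10:ℕ)*t^(7:ℕ) + (-247/20000)*d^(10:ℕ)*t^(8:ℕ) + (-1193/40000)*d^(10:ℕ)*t^(9:ℕ) + (17231/400000)*d^(10:ℕ)*t^(10:ℕ) + (-1183/40000)*d^(10:ℕ)*t^(11:ℕ) + (169/16000)*d^(10:ℕ)*t^(12:ℕ) + (-9/4000)*d^(11:ℕ)*t^(4:ℕ) + (63/10000)*d^(11:ℕ)*t^(5:ℕ) + (-891/100000)*d^(11:ℕ)*t^(6:ℕ) + (63/10000)*d^(11:ℕ)*t^(7:ℕ) + (-63/10000)*d^(11:ℕ)*t^(9:ℕ) + (891/100000)*d^(11:ℕ)*t^(10:ℕ)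 + (-63/10000)*d^(11:ℕ)*t^(11:ℕ) + (9/4000)*d^(11:ℕ)*t^(12:ℕ) := by
  have e0 : (1/160) + (127/3200)*t^(2:ℕ) + (19/1600)*t^(3:ℕ) + (307/3200)*t^(4:ℕ) + (1/40)*t^(5:ℕ) + (179/1600)*t^(6:ℕ) + (3/800)*t^(7:ℕ) + (101/1600)*t^(8:ℕ) + (-1/50)*t^(9:ℕ) + (43/3200)*t^(10:ℕ) + (-17/1600)*t^(11:ℕ) + (-1/3200)*t^(12:ℕ) + (9/320)*d + (-7/1600)*d*t + (19/128)*d*t^(2:ℕ) + (91/800)*d*t^(3:ℕ) + (1701/3200)*d*t^(4:ℕ) + (287/800)*d*t^(5:ℕ) + (1307/1600)*d*t^(6:ℕ) + (53/400)*d*t^(7:ℕ) + (393/800)*d*t^(8:ℕ) + (-15/64)*d*t^(9:ℕ) + (271/3200)*d*t^(10:ℕ) + (-101/800)*d*t^(11:ℕ) + (-3/3200)*d*t^(12:ℕ) + (-1/800)*d^(2:ℕ) + (-191/3200)*d^(2:ℕ)*t + (-2821/64000)*d^(2:ℕ)*t^(2:ℕ) + (741/6400)*d^(2:ℕ)*t^(3:ℕ) + (10743/12800)*d^(2:ℕ)*t^(4:ℕ) +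 (549/500)*d^(2:ℕ)*t^(5:ℕ) + (67651/32000)*d^(2:ℕ)*t^(6:ℕ) + (5399/16000)*d^(2:ℕ)*t^(7:ℕ) + (44943/32000)*d^(2:ℕ)*t^(8:ℕ) + (-17881/16000)*d^(2:ℕ)*t^(9:ℕ) + (10991/64000)*d^(2:ℕ)*t^(10:ℕ) + (-17039/32000)*d^(2:ℕ)*t^(11:ℕ) + (-49/64000)*d^(2:ℕ)*t^(12:ℕ) + (-29/800)*d^(3:ℕ) + (-147/2000)*d^(3:ℕ)*t + (-2499/32000)*d^(3:ℕ)*t^(2:ℕ) + (-1431/16000)*d^(3:ℕ)*t^(3:ℕ) + (11469/32000)*d^(3:ℕ)*t^(4:ℕ) + (9301/8000)*d^(3:ℕ)*t^(5:ℕ) + (1111/640)*d^(3:ℕ)*t^(6:ℕ) + (-851/8000)*d^(3:ℕ)*t^(7:ℕ) + (24481/16000)*d^(3:ℕ)*t^(8:ℕ) + (-17903/8000)*d^(3:ℕ)*t^(9:ℕ) + (1273/6400)*d^(3:ℕ)*t^(10:ℕ) + (-15247/16000)*d^(3:ℕ)*t^(11:ℕ) + (29/6400)*d^(3:ℕ)*t^(12:ℕ) + (67/800)*d^(4:ℕ) + (267/3200)*d^(4:ℕ)*t + (239363/320000)*d^(4:ℕ)*t^(2:ℕ) + (1831/4000)*d^(4:ℕ)*t^(3:ℕ)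 + (105797/320000)*d^(4:ℕ)*t^(4:ℕ) + (4923/160000)*d^(4:ℕ)*t^(5:ℕ) + (63/4000)*d^(4:ℕ)*t^(6:ℕ) + (-198447/160000)*d^(4:ℕ)*t^(7:ℕ) + (34739/80000)*d^(4:ℕ)*t^(8:ℕ) + (-275613/160000)*d^(4:ℕ)*t^(9:ℕ) + (5641/64000)*d^(4:ℕ)*t^(10:ℕ) + (-102973/160000)*d^(4:ℕ)*t^(11:ℕ) + (531/64000)*d^(4:ℕ)*t^(12:ℕ) + (53/1600)*d^(5:ℕ) + (261/8000)*d^(5:ℕ)*t + (7229/40000)*d^(5:ℕ)*t^(2:ℕ) + (72063/80000)*d^(5:ℕ)*t^(3:ℕ) + (13131/20000)*d^(5:ℕ)*t^(4:ℕ) + (-46339/40000)*d^(5:ℕ)*t^(5:ℕ) + (13971/16000)*d^(5:ℕ)*t^(6:ℕ) + (-64811/40000)*d^(5:ℕ)*t^(7:ℕ) + (1249/8000)*d^(5:ℕ)*t^(8:ℕ) + (-1633/10000)*d^(5:ℕ)*t^(9:ℕ) + (-20159/80000)*d^(5:ℕ)*t^(10:ℕ) + (13287/80000)*d^(5:ℕ)*t^(11:ℕ) + (9/8000)*d^(5:ℕ)*t^(12:ℕ) + (-1/500)*d^(6:ℕ) + (-379/8000)*d^(6:ℕ)*t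 + (-11933/40000)*d^(6:ℕ)*t^(2:ℕ) + (22023/160000)*d^(6:ℕ)*t^(3:ℕ) + (109327/320000)*d^(6:ℕ)*t^(4:ℕ) + (-2129/2000)*d^(6:ℕ)*t^(5:ℕ) + (879061/1600000)*d^(6:ℕ)*t^(6:ℕ) + (-6779/20000)*d^(6:ℕ)*t^(7:ℕ) + (-8439/160000)*d^(6:ℕ)*t^(8:ℕ) + (127/320)*d^(6:ℕ)*t^(9:ℕ) + (-194571/1600000)*d^(6:ℕ)*t^(10:ℕ) + (86299/160000)*d^(6:ℕ)*t^(11:ℕ) + (-207/12800)*d^(6:ℕ)*t^(12:ℕ) + (49/2000)*d^(7:ℕ) + (43/4000)*d^(7:ℕ)*t + (1833/40000)*d^(7:ℕ)*t^(2:ℕ) + (-199/800)*d^(7:ℕ)*t^(3:ℕ) + (30029/160000)*d^(7:ℕ)*t^(4:ℕ) + (-18913/40000)*d^(7:ℕ)*t^(5:ℕ) + (-309373/800000)*d^(7:ℕ)*t^(6:ℕ) + (7997/20000)*d^(7:ℕ)*t^(7:ℕ) + (-3551/20000)*d^(7:ℕ)*t^(8:ℕ) + (147/5000)*d^(7:ℕ)*t^(9:ℕ) + (134543/800000)*d^(7:ℕ)*t^(10:ℕ) + (873/5000)*d^(7:ℕ)*t^(11:ℕ)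 + (-111/6400)*d^(7:ℕ)*t^(12:ℕ) + (31/4000)*d^(8:ℕ) + (9/200)*d^(8:ℕ)*t + (3471/40000)*d^(8:ℕ)*t^(2:ℕ) + (-1589/80000)*d^(8:ℕ)*t^(3:ℕ) + (11279/64000)*d^(8:ℕ)*t^(4:ℕ) + (-22041/160000)*d^(8:ℕ)*t^(5:ℕ) + (-285523/1600000)*d^(8:ℕ)*t^(6:ℕ) + (16673/160000)*d^(8:ℕ)*t^(7:ℕ) + (-1797/40000)*d^(8:ℕ)*t^(8:ℕ) + (-21179/160000)*d^(8:ℕ)*t^(9:ℕ) + (201003/1600000)*d^(8:ℕ)*t^(10:ℕ) + (-63/32000)*d^(8:ℕ)*t^(11:ℕ) + (-7/64000)*d^(8:ℕ)*t^(12:ℕ) + (-9/1000)*d^(9:ℕ) + (7/20000)*d^(9:ℕ)*t^(2:ℕ) + (-1219/40000)*d^(9:ℕ)*t^(3:ℕ) + (1469/40000)*d^(9:ℕ)*t^(4:ℕ) + (-37/40000)*d^(9:ℕ)*t^(5:ℕ) + (-12519/200000)*d^(9:ℕ)*t^(6:ℕ) + (2607/40000)*d^(9:ℕ)*t^(7:ℕ) + (-267/40000)*d^(9:ℕ)*t^(8:ℕ) + (-2579/40000)*d^(9:ℕ)*t^(9:ℕ) + (15559/200000)*d^(9:ℕ)*t^(10:ℕ)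 + (-153/5000)*d^(9:ℕ)*t^(11:ℕ) + (29/2000)*d^(9:ℕ)*t^(12:ℕ) + (9/1000)*d^(10:ℕ)*t^(2:ℕ) + (-63/5000)*d^(10:ℕ)*t^(3:ℕ) + (-1/3200)*d^(10:ℕ)*t^(4:ℕ) + (1173/40000)*d^(10:ℕ)*t^(5:ℕ) + (-21671/400000)*d^(10:ℕ)*t^(6:ℕ) + (1947/40000)*d^(10:ℕ)*t^(7:ℕ) + (-247/20000)*d^(10:ℕ)*t^(8:ℕ) + (-1193/40000)*d^(10:ℕ)*t^(9:ℕ) + (17231/400000)*d^(10:ℕ)*t^(10:ℕ) + (-1183/40000)*d^(10:ℕ)*t^(11:ℕ) + (169/16000)*d^(10:ℕ)*t^(12:ℕ) + (-9/4000)*d^(11:ℕ)*t^(4:ℕ) + (63/10000)*d^(11:ℕ)*t^(5:ℕ) + (-891/100000)*d^(11:ℕ)*t^(6:ℕ) + (63/10000)*d^(11:ℕ)*t^(7:ℕ) + (-63/10000)*d^(11:ℕ)*t^(9:ℕ) + (891/100000)*d^(11:ℕ)*t^(10:ℕ) + (-63/10000)*d^(11:ℕ)*t^(11:ℕ) + (9/4000)*d^(11:ℕ)*t^(12:ℕ) = ((1/160) + (127/3200)*t^(2:ℕ) + (19/1600)*t^(3:ℕ) + (307/3200)*t^(4:ℕ)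 + (1/40)*t^(5:ℕ) + (179/1600)*t^(6:ℕ) + (3/800)*t^(7:ℕ) + (101/1600)*t^(8:ℕ) + (-1/50)*t^(9:ℕ) + (43/3200)*t^(10:ℕ) + (-17/1600)*t^(11:ℕ) + (-1/3200)*t^(12:ℕ)) + d*((9/320) + (-7/1600)*t + (19/128)*t^(2:ℕ) + (91/800)*t^(3:ℕ) + (1701/3200)*t^(4:ℕ) + (287/800)*t^(5:ℕ) + (1307/1600)*t^(6:ℕ) + (53/400)*t^(7:ℕ) + (393/800)*t^(8:ℕ) + (-15/64)*t^(9:ℕ) + (271/3200)*t^(10:ℕ) + (-101/800)*t^(11:ℕ) + (-3/3200)*t^(12:ℕ)) + d^(2:ℕ)*((-1/800) + (-191/3200)*t + (-2821/64000)*t^(2:ℕ) + (741/6400)*t^(3:ℕ) + (10743/12800)*t^(4:ℕ) + (549/500)*t^(5:ℕ) + (67651/32000)*t^(6:ℕ) + (5399/16000)*t^(7:ℕ) + (44943/32000)*t^(8:ℕ) + (-17881/16000)*t^(9:ℕ) + (10991/64000)*t^(10:ℕ) + (-17039/32000)*t^(11:ℕ) + (-49/64000)*t^(12:ℕ)) + d^(3:ℕ)*((-29/800)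 + (-147/2000)*t + (-2499/32000)*t^(2:ℕ) + (-1431/16000)*t^(3:ℕ) + (11469/32000)*t^(4:ℕ) + (9301/8000)*t^(5:ℕ) + (1111/640)*t^(6:ℕ) + (-851/8000)*t^(7:ℕ) + (24481/16000)*t^(8:ℕ) + (-17903/8000)*t^(9:ℕ) + (1273/6400)*t^(10:ℕ) + (-15247/16000)*t^(11:ℕ) + (29/6400)*t^(12:ℕ)) + d^(4:ℕ)*((67/800) + (267/3200)*t + (239363/320000)*t^(2:ℕ) + (1831/4000)*t^(3:ℕ) + (105797/320000)*t^(4:ℕ) + (4923/160000)*t^(5:ℕ) + (63/4000)*t^(6:ℕ) + (-198447/160000)*t^(7:ℕ) + (34739/80000)*t^(8:ℕ) + (-275613/160000)*t^(9:ℕ) + (5641/64000)*t^(10:ℕ) + (-102973/160000)*t^(11:ℕ) + (531/64000)*t^(12:ℕ)) + d^(5:ℕ)*((53/1600) + (261/8000)*t + (7229/40000)*t^(2:ℕ) + (72063/80000)*t^(3:ℕ) + (13131/20000)*t^(4:ℕ) + (-46339/40000)*t^(5:ℕ) + (13971/16000)*t^(6:ℕ)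 + (-64811/40000)*t^(7:ℕ) + (1249/8000)*t^(8:ℕ) + (-1633/10000)*t^(9:ℕ) + (-20159/80000)*t^(10:ℕ) + (13287/80000)*t^(11:ℕ) + (9/8000)*t^(12:ℕ)) + d^(6:ℕ)*((-1/500) + (-379/8000)*t + (-11933/40000)*t^(2:ℕ) + (22023/160000)*t^(3:ℕ) + (109327/320000)*t^(4:ℕ) + (-2129/2000)*t^(5:ℕ) + (879061/1600000)*t^(6:ℕ) + (-6779/20000)*t^(7:ℕ) + (-8439/160000)*t^(8:ℕ) + (127/320)*t^(9:ℕ) + (-194571/1600000)*t^(10:ℕ) + (86299/160000)*t^(11:ℕ) + (-207/12800)*t^(12:ℕ)) + d^(7:ℕ)*((49/2000) + (43/4000)*t + (1833/40000)*t^(2:ℕ) + (-199/800)*t^(3:ℕ) + (30029/160000)*t^(4:ℕ) + (-18913/40000)*t^(5:ℕ) + (-309373/800000)*t^(6:ℕ) + (7997/20000)*t^(7:ℕ) + (-3551/20000)*t^(8:ℕ) + (147/5000)*t^(9:ℕ) + (134543/800000)*t^(10:ℕ) + (873/5000)*t^(11:ℕ)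 + (-111/6400)*t^(12:ℕ)) + d^(8:ℕ)*((31/4000) + (9/200)*t + (3471/40000)*t^(2:ℕ) + (-1589/80000)*t^(3:ℕ) + (11279/64000)*t^(4:ℕ) + (-22041/160000)*t^(5:ℕ) + (-285523/1600000)*t^(6:ℕ) + (16673/160000)*t^(7:ℕ) + (-1797/40000)*t^(8:ℕ) + (-21179/160000)*t^(9:ℕ) + (201003/1600000)*t^(10:ℕ) + (-63/32000)*t^(11:ℕ) + (-7/64000)*t^(12:ℕ)) + d^(9:ℕ)*((-9/1000) + (7/20000)*t^(2:ℕ) + (-1219/40000)*t^(3:ℕ) + (1469/40000)*t^(4:ℕ) + (-37/40000)*t^(5:ℕ) + (-12519/200000)*t^(6:ℕ) + (2607/40000)*t^(7:ℕ) + (-267/40000)*t^(8:ℕ) + (-2579/40000)*t^(9:ℕ) + (15559/200000)*t^(10:ℕ) + (-153/5000)*t^(11:ℕ) + (29/2000)*t^(12:ℕ)) + d^(10:ℕ)*((9/1000)*t^(2:ℕ) + (-63/5000)*t^(3:ℕ) + (-1/3200)*t^(4:ℕ) + (1173/40000)*t^(5:ℕ) + (-21671/400000)*t^(6:ℕ)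 + (1947/40000)*t^(7:ℕ) + (-247/20000)*t^(8:ℕ) + (-1193/40000)*t^(9:ℕ) + (17231/400000)*t^(10:ℕ) + (-1183/40000)*t^(11:ℕ) + (169/16000)*t^(12:ℕ)) + d^(11:ℕ)*((-9/4000)*t^(4:ℕ) + (63/10000)*t^(5:ℕ) + (-891/100000)*t^(6:ℕ) + (63/10000)*t^(7:ℕ) + (-63/10000)*t^(9:ℕ) + (891/100000)*t^(10:ℕ) + (-63/10000)*t^(11:ℕ) + (9/4000)*t^(12:ℕ)) := by
    ring
  rw [e0]
  exact pos_cTPe_id d ((1/160) + (127/3200)*t^(2:ℕ) + (19/1600)*t^(3:ℕ) + (307/3200)*t^(4:ℕ) + (1/40)*t^(5:ℕ) + (179/1600)*t^(6:ℕ) + (3/800)*t^(7:ℕ) + (101/1600)*t^(8:ℕ) + (-1/50)*t^(9:ℕ) + (43/3200)*t^(10:ℕ) + (-17/1600)*t^(11:ℕ) + (-1/3200)*t^(12:ℕ)) ((9/320) + (-7/1600)*t + (19/128)*t^(2:ℕ) + (91/800)*t^(3:ℕ) + (1701/3200)*t^(4:ℕ) + (287/800)*t^(5:ℕ) + (1307/1600)*t^(6:ℕ)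 + (53/400)*t^(7:ℕ) + (393/800)*t^(8:ℕ) + (-15/64)*t^(9:ℕ) + (271/3200)*t^(10:ℕ) + (-101/800)*t^(11:ℕ) + (-3/3200)*t^(12:ℕ)) ((-1/800) + (-191/3200)*t + (-2821/64000)*t^(2:ℕ) + (741/6400)*t^(3:ℕ) + (10743/12800)*t^(4:ℕ) + (549/500)*t^(5:ℕ) + (67651/32000)*t^(6:ℕ) + (5399/16000)*t^(7:ℕ) + (44943/32000)*t^(8:ℕ) + (-17881/16000)*t^(9:ℕ) + (10991/64000)*t^(10:ℕ) + (-17039/32000)*t^(11:ℕ) + (-49/64000)*t^(12:ℕ)) ((-29/800) + (-147/2000)*t + (-2499/32000)*t^(2:ℕ) + (-1431/16000)*t^(3:ℕ) + (11469/32000)*t^(4:ℕ) + (9301/8000)*t^(5:ℕ) + (1111/640)*t^(6:ℕ) + (-851/8000)*t^(7:ℕ) + (24481/16000)*t^(8:ℕ) + (-17903/8000)*t^(9:ℕ) + (1273/6400)*t^(10:ℕ) + (-15247/16000)*t^(11:ℕ) + (29/6400)*t^(12:ℕ)) ((67/800) + (267/3200)*t +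 (239363/320000)*t^(2:ℕ) + (1831/4000)*t^(3:ℕ) + (105797/320000)*t^(4:ℕ) + (4923/160000)*t^(5:ℕ) + (63/4000)*t^(6:ℕ) + (-198447/160000)*t^(7:ℕ) + (34739/80000)*t^(8:ℕ) + (-275613/160000)*t^(9:ℕ) + (5641/64000)*t^(10:ℕ) + (-102973/160000)*t^(11:ℕ) + (531/64000)*t^(12:ℕ)) ((53/1600) + (261/8000)*t + (7229/40000)*t^(2:ℕ) + (72063/80000)*t^(3:ℕ) + (13131/20000)*t^(4:ℕ) + (-46339/40000)*t^(5:ℕ) + (13971/16000)*t^(6:ℕ) + (-64811/40000)*t^(7:ℕ) + (1249/8000)*t^(8:ℕ) + (-1633/10000)*t^(9:ℕ) + (-20159/80000)*t^(10:ℕ) + (13287/80000)*t^(11:ℕ) + (9/8000)*t^(12:ℕ)) ((-1/500) + (-379/8000)*t + (-11933/40000)*t^(2:ℕ) + (22023/160000)*t^(3:ℕ) + (109327/320000)*t^(4:ℕ) + (-2129/2000)*t^(5:ℕ) + (879061/1600000)*t^(6:ℕ) + (-6779/20000)*t^(7:ℕ)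 + (-8439/160000)*t^(8:ℕ) + (127/320)*t^(9:ℕ) + (-194571/1600000)*t^(10:ℕ) + (86299/160000)*t^(11:ℕ) + (-207/12800)*t^(12:ℕ)) ((49/2000) + (43/4000)*t + (1833/40000)*t^(2:ℕ) + (-199/800)*t^(3:ℕ) + (30029/160000)*t^(4:ℕ) + (-18913/40000)*t^(5:ℕ) + (-309373/800000)*t^(6:ℕ) + (7997/20000)*t^(7:ℕ) + (-3551/20000)*t^(8:ℕ) + (147/5000)*t^(9:ℕ) + (134543/800000)*t^(10:ℕ) + (873/5000)*t^(11:ℕ) + (-111/6400)*t^(12:ℕ)) ((31/4000) + (9/200)*t + (3471/40000)*t^(2:ℕ) + (-1589/80000)*t^(3:ℕ) + (11279/64000)*t^(4:ℕ) + (-22041/160000)*t^(5:ℕ) + (-285523/1600000)*t^(6:ℕ) + (16673/160000)*t^(7:ℕ) + (-1797/40000)*t^(8:ℕ) + (-21179/160000)*t^(9:ℕ) + (201003/1600000)*t^(10:ℕ) + (-63/32000)*t^(11:ℕ) + (-7/64000)*t^(12:ℕ)) ((-9/1000)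 + (7/20000)*t^(2:ℕ) + (-1219/40000)*t^(3:ℕ) + (1469/40000)*t^(4:ℕ) + (-37/40000)*t^(5:ℕ) + (-12519/200000)*t^(6:ℕ) + (2607/40000)*t^(7:ℕ) + (-267/40000)*t^(8:ℕ) + (-2579/40000)*t^(9:ℕ) + (15559/200000)*t^(10:ℕ) + (-153/5000)*t^(11:ℕ) + (29/2000)*t^(12:ℕ)) ((9/1000)*t^(2:ℕ) + (-63/5000)*t^(3:ℕ) + (-1/3200)*t^(4:ℕ) + (1173/40000)*t^(5:ℕ) + (-21671/400000)*t^(6:ℕ) + (1947/40000)*t^(7:ℕ) + (-247/20000)*t^(8:ℕ) + (-1193/40000)*t^(9:ℕ) + (17231/400000)*t^(10:ℕ) + (-1183/40000)*t^(11:ℕ) + (169/16000)*t^(12:ℕ)) ((-9/4000)*t^(4:ℕ) + (63/10000)*t^(5:ℕ) + (-891/100000)*t^(6:ℕ) + (63/10000)*t^(7:ℕ) + (-63/10000)*t^(9:ℕ) + (891/100000)*t^(10:ℕ) + (-63/10000)*t^(11:ℕ) + (9/4000)*t^(12:ℕ)) h1 h2 ((pos_cTPe_b0 t h3 h4).trans_eq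 (by ring)) ((pos_cTPe_b1 t h3 h4).trans_eq (by ring)) ((pos_cTPe_b2 t h3 h4).trans_eq (by ring)) ((pos_cTPe_b3 t h3 h4).trans_eq (by ring)) ((pos_cTPe_b4 t h3 h4).trans_eq (by ring)) ((pos_cTPe_b5 t h3 h4).trans_eq (by ring)) ((pos_cTPe_b6 t h3 h4).trans_eq (by ring)) ((pos_cTPe_b7 t h3 h4).trans_eq (by ring)) ((pos_cTPe_b8 t h3 h4).trans_eq (by ring)) ((pos_cTPe_b9 t h3 h4).trans_eq (by ring)) ((pos_cTPe_b10 t h3 h4).trans_eq (by ring)) ((pos_cTPe_b11 t h3 h4).trans_eq (by ring))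

lemma pos_cSM0_b0 (t : ℝ) (h3 : 0 ≤ t) (h4 : t ≤ 1) :
    0 ≤ (3/1280) + (1/160)*t + (1/32)*t^(2:ℕ) + (1/32)*t^(3:ℕ) + (1/16)*t^(4:ℕ) + (1/16)*t^(5:ℕ) + (1/16)*t^(6:ℕ) + (1/16)*t^(7:ℕ) + (1/32)*t^(8:ℕ) + (1/32)*t^(9:ℕ) + (1/160)*t^(10:ℕ) + (1/160)*t^(11:ℕ) := by
  obtain ⟨t2, ht2⟩ : ∃ t2 : ℝ, t2 = 1 - t := ⟨_, rfl⟩
  have a4 : 0 ≤ t2 := by rw [ht2]; linarith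
  have e : (3/1280) + (1/160)*t + (1/32)*t^(2:ℕ) + (1/32)*t^(3:ℕ) + (1/16)*t^(4:ℕ) + (1/16)*t^(5:ℕ) + (1/16)*t^(6:ℕ) + (1/16)*t^(7:ℕ) + (1/32)*t^(8:ℕ) + (1/32)*t^(9:ℕ) + (1/160)*t^(10:ℕ) + (1/160)*t^(11:ℕ) = (3/1280)*t2^(12:ℕ) + (11/320)*t^(1:ℕ)*t2^(11:ℕ) + (163/640)*t^(2:ℕ)*t2^(10:ℕ) + (77/64)*t^(3:ℕ)*t2^(9:ℕ) + (1009/256)*t^(4:ℕ)*t2^(8:ℕ) + (1497/160)*t^(5:ℕ)*t2^(7:ℕ) + (5277/320)*t^(6:ℕ)*t2^(6:ℕ) + (3489/160)*t^(7:ℕ)*t2^(5:ℕ) + (5521/256)*t^(8:ℕ)*t2^(4:ℕ) + (1001/64)*t^(9:ℕ)*t2^(3:ℕ) + (5083/640)*t^(10:ℕ)*t2^(2:ℕ) + (817/320)*t^(11:ℕ)*t2^(1:ℕ) + (507/1280)*t^(12:ℕ) := by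
    rw [ht2]; ring
  rw [e]
  positivity

lemma pos_cSM0_b1 (t : ℝ) (h3 : 0 ≤ t) (h4 : t ≤ 1) :
    0 ≤ (851/230400) + (877/115200)*t + (9071/230400)*t^(2:ℕ) + (2273/57600)*t^(3:ℕ) + (41/512)*t^(4:ℕ) + (4627/57600)*t^(5:ℕ) + (1843/23040)*t^(6:ℕ) + (1157/14400)*t^(7:ℕ) + (1807/46080)*t^(8:ℕ) + (4549/115200)*t^(9:ℕ) + (577/76800)*t^(10:ℕ) + (439/57600)*t^(11:ℕ) + (-1/57600)*t^(12:ℕ) := by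
  obtain ⟨t2, ht2⟩ : ∃ t2 : ℝ, t2 = 1 - t := ⟨_, rfl⟩
  have a4 : 0 ≤ t2 := by rw [ht2]; linarith
  have e : (851/230400) + (877/115200)*t + (9071/230400)*t^(2:ℕ) + (2273/57600)*t^(3:ℕ) + (41/512)*t^(4:ℕ) + (4627/57600)*t^(5:ℕ) + (1843/23040)*t^(6:ℕ) + (1157/14400)*t^(7:ℕ) + (1807/46080)*t^(8:ℕ) + (4549/115200)*t^(9:ℕ) + (577/76800)*t^(10:ℕ) + (439/57600)*t^(11:ℕ) + (-1/57600)*t^(12:ℕ) = (851/230400)*t2^(12:ℕ) + (5983/115200)*t^(1:ℕ)*t2^(11:ℕ) + (28177/76800)*t^(2:ℕ)*t2^(10:ℕ) + (95873/57600)*t^(3:ℕ)*t2^(9:ℕ) + (50797/9600)*t^(4:ℕ)*t2^(8:ℕ) + (44293/3600)*t^(5:ℕ)*t2^(7:ℕ) + (616237/28800)*t^(6:ℕ)*t2^(6:ℕ) + (202087/7200)*t^(7:ℕ)*t2^(5:ℕ) + (1591973/57600)*t^(8:ℕ)*t2^(4:ℕ) + (96017/4800)*t^(9:ℕ)*t2^(3:ℕ) + (292277/28800)*t^(10:ℕ)*t2^(2:ℕ)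 + (46937/14400)*t^(11:ℕ)*t2^(1:ℕ) + (29071/57600)*t^(12:ℕ) := by
    rw [ht2]; ring
  rw [e]
  positivity

lemma pos_cSM0_b2 (t : ℝ) (h3 : 0 ≤ t) (h4 : t ≤ 1) :
    0 ≤ (4793/921600) + (1051/115200)*t + (3029/61440)*t^(2:ℕ) + (713/14400)*t^(3:ℕ) + (9433/92160)*t^(4:ℕ) + (4699/46080)*t^(5:ℕ) + (1041/10240)*t^(6:ℕ) + (23191/230400)*t^(7:ℕ) + (44449/921600)*t^(8:ℕ) + (3673/76800)*t^(9:ℕ) + (8011/921600)*t^(10:ℕ) + (2017/230400)*t^(11:ℕ) + (-1/25600)*t^(12:ℕ) := by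
  obtain ⟨t2, ht2⟩ : ∃ t2 : ℝ, t2 = 1 - t := ⟨_, rfl⟩
  have a4 : 0 ≤ t2 := by rw [ht2]; linarith
  have e : (4793/921600) + (1051/115200)*t + (3029/61440)*t^(2:ℕ) + (713/14400)*t^(3:ℕ) + (9433/92160)*t^(4:ℕ) + (4699/46080)*t^(5:ℕ) + (1041/10240)*t^(6:ℕ) + (23191/230400)*t^(7:ℕ) + (44449/921600)*t^(8:ℕ) + (3673/76800)*t^(9:ℕ) + (8011/921600)*t^(10:ℕ) + (2017/230400)*t^(11:ℕ) + (-1/25600)*t^(12:ℕ) = (4793/921600)*t2^(12:ℕ) + (16481/230400)*t^(1:ℕ)*t2^(11:ℕ) + (454261/921600)*t^(2:ℕ)*t2^(10:ℕ) + (112049/51200)*t^(3:ℕ)*t2^(9:ℕ) + (788681/115200)*t^(4:ℕ)*t2^(8:ℕ) + (3628567/230400)*t^(5:ℕ)*t2^(7:ℕ) + (1045019/38400)*t^(6:ℕ)*t2^(6:ℕ) + (683141/19200)*t^(7:ℕ)*t2^(5:ℕ) + (2015261/57600)*t^(8:ℕ)*t2^(4:ℕ) + (291527/11520)*t^(9:ℕ)*t2^(3:ℕ)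 + (738803/57600)*t^(10:ℕ)*t2^(2:ℕ) + (118363/28800)*t^(11:ℕ)*t2^(1:ℕ) + (1459/2304)*t^(12:ℕ) := by
    rw [ht2]; ring
  rw [e]
  positivity

lemma pos_cSM0_b3 (t : ℝ) (h3 : 0 ≤ t) (h4 : t ≤ 1) :
    0 ≤ (14747/2150400) + (1103/102400)*t + (65903/1075200)*t^(2:ℕ) + (221303/3584000)*t^(3:ℕ) + (1402603/10752000)*t^(4:ℕ) + (6127/48000)*t^(5:ℕ) + (1379999/10752000)*t^(6:ℕ) + (16487/134400)*t^(7:ℕ) + (11179/192000)*t^(8:ℕ) + (85151/1536000)*t^(9:ℕ) + (104683/10752000)*t^(10:ℕ) + (4831/512000)*t^(11:ℕ) + (-13/215040)*t^(12:ℕ) := by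
  obtain ⟨t2, ht2⟩ : ∃ t2 : ℝ, t2 = 1 - t := ⟨_, rfl⟩
  have a4 : 0 ≤ t2 := by rw [ht2]; linarith
  have e : (14747/2150400) + (1103/102400)*t + (65903/1075200)*t^(2:ℕ) + (221303/3584000)*t^(3:ℕ) + (1402603/10752000)*t^(4:ℕ) + (6127/48000)*t^(5:ℕ) + (1379999/10752000)*t^(6:ℕ) + (16487/134400)*t^(7:ℕ) + (11179/192000)*t^(8:ℕ) + (85151/1536000)*t^(9:ℕ) + (104683/10752000)*t^(10:ℕ) + (4831/512000)*t^(11:ℕ) + (-13/215040)*t^(12:ℕ) = (14747/2150400)*t2^(12:ℕ) + (66709/716800)*t^(1:ℕ)*t2^(11:ℕ) + (1359901/2150400)*t^(2:ℕ)*t2^(10:ℕ) + (4974289/1792000)*t^(3:ℕ)*t2^(9:ℕ) + (46321217/5376000)*t^(4:ℕ)*t2^(8:ℕ) + (106097333/5376000)*t^(5:ℕ)*t2^(7:ℕ) + (73212469/2150400)*t^(6:ℕ)*t2^(6:ℕ) + (79766479/1792000)*t^(7:ℕ)*t2^(5:ℕ)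 + (39242109/896000)*t^(8:ℕ)*t2^(4:ℕ) + (42581789/1344000)*t^(9:ℕ)*t2^(3:ℕ) + (14368857/896000)*t^(10:ℕ)*t2^(2:ℕ) + (2292921/448000)*t^(11:ℕ)*t2^(1:ℕ) + (175293/224000)*t^(12:ℕ) := by
    rw [ht2]; ring
  rw [e]
  positivity

lemma pos_cSM0_b4 (t : ℝ) (h3 : 0 ≤ t) (h4 : t ≤ 1) :
    0 ≤ (1551/179200) + (281/22400)*t + (1219249/16128000)*t^(2:ℕ) + (411031/5376000)*t^(3:ℕ) + (11141/67200)*t^(4:ℕ) + (105629/672000)*t^(5:ℕ) + (2598943/16128000)*t^(6:ℕ) + (2341391/16128000)*t^(7:ℕ) + (556781/8064000)*t^(8:ℕ) + (247339/4032000)*t^(9:ℕ) + (2843/268800)*t^(10:ℕ) + (4759/504000)*t^(11:ℕ) + (-61/806400)*t^(12:ℕ) := by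
  obtain ⟨t2, ht2⟩ : ∃ t2 : ℝ, t2 = 1 - t := ⟨_, rfl⟩
  have a4 : 0 ≤ t2 := by rw [ht2]; linarith
  have e : (1551/179200) + (281/22400)*t + (1219249/16128000)*t^(2:ℕ) + (411031/5376000)*t^(3:ℕ) + (11141/67200)*t^(4:ℕ) + (105629/672000)*t^(5:ℕ) + (2598943/16128000)*t^(6:ℕ) + (2341391/16128000)*t^(7:ℕ) + (556781/8064000)*t^(8:ℕ) + (247339/4032000)*t^(9:ℕ) + (2843/268800)*t^(10:ℕ) + (4759/504000)*t^(11:ℕ) + (-61/806400)*t^(12:ℕ) = (1551/179200)*t2^(12:ℕ) + (149/1280)*t^(1:ℕ)*t2^(11:ℕ) + (12657709/16128000)*t^(2:ℕ)*t2^(10:ℕ) + (55262983/16128000)*t^(3:ℕ)*t2^(9:ℕ) + (14259811/1344000)*t^(4:ℕ)*t2^(8:ℕ) + (32662327/1344000)*t^(5:ℕ)*t2^(7:ℕ) + (677287237/16128000)*t^(6:ℕ)*t2^(6:ℕ) + (887554691/16128000)*t^(7:ℕ)*t2^(5:ℕ)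 + (781229/14400)*t^(8:ℕ)*t2^(4:ℕ) + (35182337/896000)*t^(9:ℕ)*t2^(3:ℕ) + (4998761/252000)*t^(10:ℕ)*t2^(2:ℕ) + (6346481/1008000)*t^(11:ℕ)*t2^(1:ℕ) + (640337/672000)*t^(12:ℕ) := by
    rw [ht2]; ring
  rw [e]
  positivity

lemma pos_cSM0_b5 (t : ℝ) (h3 : 0 ≤ t) (h4 : t ≤ 1) :
    0 ≤ (34129/3225600) + (11633/806400)*t + (852067/9216000)*t^(2:ℕ) + (6051401/64512000)*t^(3:ℕ) + (6781003/32256000)*t^(4:ℕ) + (2449789/12902400)*t^(5:ℕ) + (65002711/322560000)*t^(6:ℕ) + (5368963/32256000)*t^(7:ℕ) + (202649/2520000)*t^(8:ℕ) + (115657/1792000)*t^(9:ℕ) + (396059/35840000)*t^(10:ℕ) + (7913/921600)*t^(11:ℕ) + (-1009/12902400)*t^(12:ℕ) := by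
  obtain ⟨t2, ht2⟩ : ∃ t2 : ℝ, t2 = 1 - t := ⟨_, rfl⟩
  have a4 : 0 ≤ t2 := by rw [ht2]; linarith
  have e : (34129/3225600) + (11633/806400)*t + (852067/9216000)*t^(2:ℕ) + (6051401/64512000)*t^(3:ℕ) + (6781003/32256000)*t^(4:ℕ) + (2449789/12902400)*t^(5:ℕ) + (65002711/322560000)*t^(6:ℕ) + (5368963/32256000)*t^(7:ℕ) + (202649/2520000)*t^(8:ℕ) + (115657/1792000)*t^(9:ℕ) + (396059/35840000)*t^(10:ℕ) + (7913/921600)*t^(11:ℕ) + (-1009/12902400)*t^(12:ℕ) = (34129/3225600)*t2^(12:ℕ) + (5701/40320)*t^(1:ℕ)*t2^(11:ℕ) + (20417263/21504000)*t^(2:ℕ)*t2^(10:ℕ) + (29672099/7168000)*t^(3:ℕ)*t2^(9:ℕ) + (41392921/3225600)*t^(4:ℕ)*t2^(8:ℕ) + (634015423/21504000)*t^(5:ℕ)*t2^(7:ℕ) + (687498979/13440000)*t^(6:ℕ)*t2^(6:ℕ) + (7235871857/107520000)*t^(7:ℕ)*t2^(5:ℕ)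 + (1192206219/17920000)*t^(8:ℕ)*t2^(4:ℕ) + (1726815327/35840000)*t^(9:ℕ)*t2^(3:ℕ) + (3915422939/161280000)*t^(10:ℕ)*t2^(2:ℕ) + (1234221953/161280000)*t^(11:ℕ)*t2^(1:ℕ) + (184479367/161280000)*t^(12:ℕ) := by
    rw [ht2]; ring
  rw [e]
  positivity

lemma pos_cSM0_b6 (t : ℝ) (h3 : 0 ≤ t) (h4 : t ≤ 1) :
    0 ≤ (27137/2150400) + (1259/76800)*t + (2410627/21504000)*t^(2:ℕ) + (2445659/21504000)*t^(3:ℕ) + (1907739/7168000)*t^(4:ℕ) + (8036603/35840000)*t^(5:ℕ) + (13517143/53760000)*t^(6:ℕ) + (3302133/17920000)*t^(7:ℕ) + (1646317/17920000)*t^(8:ℕ) + (2299823/35840000)*t^(9:ℕ) + (771209/71680000)*t^(10:ℕ) + (48719/7168000)*t^(11:ℕ) + (-551/8601600)*t^(12:ℕ) := by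
  obtain ⟨t2, ht2⟩ : ∃ t2 : ℝ, t2 = 1 - t := ⟨_, rfl⟩
  have a4 : 0 ≤ t2 := by rw [ht2]; linarith
  have e : (27137/2150400) + (1259/76800)*t + (2410627/21504000)*t^(2:ℕ) + (2445659/21504000)*t^(3:ℕ) + (1907739/7168000)*t^(4:ℕ) + (8036603/35840000)*t^(5:ℕ) + (13517143/53760000)*t^(6:ℕ) + (3302133/17920000)*t^(7:ℕ) + (1646317/17920000)*t^(8:ℕ) + (2299823/35840000)*t^(9:ℕ) + (771209/71680000)*t^(10:ℕ) + (48719/7168000)*t^(11:ℕ) + (-551/8601600)*t^(12:ℕ) = (27137/2150400)*t2^(12:ℕ) + (5639/33600)*t^(1:ℕ)*t2^(11:ℕ) + (24198767/21504000)*t^(2:ℕ)*t2^(10:ℕ) + (105641929/21504000)*t^(3:ℕ)*t2^(9:ℕ) + (109568771/7168000)*t^(4:ℕ)*t2^(8:ℕ) + (180757929/5120000)*t^(5:ℕ)*t2^(7:ℕ) + (6623439059/107520000)*t^(6:ℕ)*t2^(6:ℕ) + (2919308951/35840000)*t^(7:ℕ)*t2^(5:ℕ)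 + (2895549239/35840000)*t^(8:ℕ)*t2^(4:ℕ) + (786807229/13440000)*t^(9:ℕ)*t2^(3:ℕ) + (6322852133/215040000)*t^(10:ℕ)*t2^(2:ℕ) + (141211183/15360000)*t^(11:ℕ)*t2^(1:ℕ) + (2427199/1792000)*t^(12:ℕ) := by
    rw [ht2]; ring
  rw [e]
  positivity

lemma pos_cSM0_b7 (t : ℝ) (h3 : 0 ≤ t) (h4 : t ≤ 1) :
    0 ≤ (13597/921600) + (679/36864)*t + (2484041/18432000)*t^(2:ℕ) + (834953/6144000)*t^(3:ℕ) + (31011857/92160000)*t^(4:ℕ) + (47558261/184320000)*t^(5:ℕ) + (3609181/11520000)*t^(6:ℕ) + (36132293/184320000)*t^(7:ℕ) + (2365493/23040000)*t^(8:ℕ) + (5505191/92160000)*t^(9:ℕ) + (408913/46080000)*t^(10:ℕ) + (6523/1536000)*t^(11:ℕ) + (-17/460800)*t^(12:ℕ) := by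
  obtain ⟨t2, ht2⟩ : ∃ t2 : ℝ, t2 = 1 - t := ⟨_, rfl⟩
  have a4 : 0 ≤ t2 := by rw [ht2]; linarith
  have e : (13597/921600) + (679/36864)*t + (2484041/18432000)*t^(2:ℕ) + (834953/6144000)*t^(3:ℕ) + (31011857/92160000)*t^(4:ℕ) + (47558261/184320000)*t^(5:ℕ) + (3609181/11520000)*t^(6:ℕ) + (36132293/184320000)*t^(7:ℕ) + (2365493/23040000)*t^(8:ℕ) + (5505191/92160000)*t^(9:ℕ) + (408913/46080000)*t^(10:ℕ) + (6523/1536000)*t^(11:ℕ) + (-17/460800)*t^(12:ℕ) = (13597/921600)*t2^(12:ℕ) + (180139/921600)*t^(1:ℕ)*t2^(11:ℕ) + (8055527/6144000)*t^(2:ℕ)*t2^(10:ℕ) + (35281523/6144000)*t^(3:ℕ)*t2^(9:ℕ) + (1655778737/92160000)*t^(4:ℕ)*t2^(8:ℕ) + (7700461213/184320000)*t^(5:ℕ)*t2^(7:ℕ) + (541164079/7372800)*t^(6:ℕ)*t2^(6:ℕ) + (8996412797/92160000)*t^(7:ℕ)*t2^(5:ℕ)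 + (4477762351/46080000)*t^(8:ℕ)*t2^(4:ℕ) + (12984207887/184320000)*t^(9:ℕ)*t2^(3:ℕ) + (433126493/12288000)*t^(10:ℕ)*t2^(2:ℕ) + (15725317/1440000)*t^(11:ℕ)*t2^(1:ℕ) + (145905251/92160000)*t^(12:ℕ) := by
    rw [ht2]; ring
  rw [e]
  positivity

lemma pos_cSM0_b8 (t : ℝ) (h3 : 0 ≤ t) (h4 : t ≤ 1) :
    0 ≤ (977/57600) + (131/6400)*t + (185099/1152000)*t^(2:ℕ) + (122597/768000)*t^(3:ℕ) + (19568677/46080000)*t^(4:ℕ) + (265739/921600)*t^(5:ℕ) + (4488973/11520000)*t^(6:ℕ) + (2292601/11520000)*t^(7:ℕ) + (1715603/15360000)*t^(8:ℕ) + (1182397/23040000)*t^(9:ℕ) + (30199/7680000)*t^(10:ℕ) + (859/576000)*t^(11:ℕ) + (-1/76800)*t^(12:ℕ) := by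
  obtain ⟨t2, ht2⟩ : ∃ t2 : ℝ, t2 = 1 - t := ⟨_, rfl⟩
  have a4 : 0 ≤ t2 := by rw [ht2]; linarith
  have e : (977/57600) + (131/6400)*t + (185099/1152000)*t^(2:ℕ) + (122597/768000)*t^(3:ℕ) + (19568677/46080000)*t^(4:ℕ) + (265739/921600)*t^(5:ℕ) + (4488973/11520000)*t^(6:ℕ) + (2292601/11520000)*t^(7:ℕ) + (1715603/15360000)*t^(8:ℕ) + (1182397/23040000)*t^(9:ℕ) + (30199/7680000)*t^(10:ℕ) + (859/576000)*t^(11:ℕ) + (-1/76800)*t^(12:ℕ) = (977/57600)*t2^(12:ℕ) + (4301/19200)*t^(1:ℕ)*t2^(11:ℕ) + (1734119/1152000)*t^(2:ℕ)*t2^(10:ℕ) + (5087057/768000)*t^(3:ℕ)*t2^(9:ℕ) + (961469257/46080000)*t^(4:ℕ)*t2^(8:ℕ) + (125189127/2560000)*t^(5:ℕ)*t2^(7:ℕ) + (664927463/7680000)*t^(6:ℕ)*t2^(6:ℕ) + (889865743/7680000)*t^(7:ℕ)*t2^(5:ℕ)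 + (5335000769/46080000)*t^(8:ℕ)*t2^(4:ℕ) + (241787947/2880000)*t^(9:ℕ)*t2^(3:ℕ) + (481899269/11520000)*t^(10:ℕ)*t2^(2:ℕ) + (12317803/960000)*t^(11:ℕ)*t2^(1:ℕ) + (4211371/2304000)*t^(12:ℕ) := by
    rw [ht2]; ring
  rw [e]
  positivity

lemma pos_cSM0_b9 (t : ℝ) (h3 : 0 ≤ t) (h4 : t ≤ 1) :
    0 ≤ (123/6400) + (9/400)*t + (6081/32000)*t^(2:ℕ) + (2943/16000)*t^(3:ℕ) + (1367369/2560000)*t^(4:ℕ) + (199843/640000)*t^(5:ℕ) + (12353/25600)*t^(6:ℕ) + (244373/1280000)*t^(7:ℕ) + (300481/2560000)*t^(8:ℕ) + (50727/1280000)*t^(9:ℕ) + (-1597/256000)*t^(10:ℕ) + (-3/6400)*t^(11:ℕ) := by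
  obtain ⟨t2, ht2⟩ : ∃ t2 : ℝ, t2 = 1 - t := ⟨_, rfl⟩
  have a4 : 0 ≤ t2 := by rw [ht2]; linarith
  have e : (123/6400) + (9/400)*t + (6081/32000)*t^(2:ℕ) + (2943/16000)*t^(3:ℕ) + (1367369/2560000)*t^(4:ℕ) + (199843/640000)*t^(5:ℕ) + (12353/25600)*t^(6:ℕ) + (244373/1280000)*t^(7:ℕ) + (300481/2560000)*t^(8:ℕ) + (50727/1280000)*t^(9:ℕ) + (-1597/256000)*t^(10:ℕ) + (-3/6400)*t^(11:ℕ) = (123/6400)*t2^(12:ℕ) + (81/320)*t^(1:ℕ)*t2^(11:ℕ) + (54591/32000)*t^(2:ℕ)*t2^(10:ℕ) + (60399/8000)*t^(3:ℕ)*t2^(9:ℕ) + (61354889/2560000)*t^(4:ℕ)*t2^(8:ℕ) + (36260501/640000)*t^(5:ℕ)*t2^(7:ℕ) + (64725989/640000)*t^(6:ℕ)*t2^(6:ℕ) + (174380731/1280000)*t^(7:ℕ)*t2^(5:ℕ) + (349821241/2560000)*t^(8:ℕ)*t2^(4:ℕ) + (126853521/1280000)*t^(9:ℕ)*t2^(3:ℕ)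 + (62919931/1280000)*t^(10:ℕ)*t2^(2:ℕ) + (298359/20000)*t^(11:ℕ)*t2^(1:ℕ) + (83433/40000)*t^(12:ℕ) := by
    rw [ht2]; ring
  rw [e]
  positivity

lemma pos_cSM0_id (d C0 C1 C2 C3 C4 C5 C6 C7 C8 C9 : ℝ) (h1 : 0 ≤ d) (h2 : d ≤ (1/2))
    (b0 : 0 ≤ 1*C0 - (1/256))
    (b1 : 0 ≤ 1*C0 + (1/18)*C1 - (1/256))
    (b2 : 0 ≤ 1*C0 + (1/9)*C1 + (1/144)*C2 - (1/256))
    (b3 : 0 ≤ 1*C0 + (1/6)*C1 + (1/48)*C2 + (1/672)*C3 - (1/256))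
    (b4 : 0 ≤ 1*C0 + (2/9)*C1 + (1/24)*C2 + (1/168)*C3 + (1/2016)*C4 - (1/256))
    (b5 : 0 ≤ 1*C0 + (5/18)*C1 + (5/72)*C2 + (5/336)*C3 + (5/2016)*C4 + (1/4032)*C5 - (1/256))
    (b6 : 0 ≤ 1*C0 + (1/3)*C1 + (5/48)*C2 + (5/168)*C3 + (5/672)*C4 + (1/672)*C5 + (1/5376)*C6 - (1/256))
    (b7 : 0 ≤ 1*C0 + (7/18)*C1 + (7/48)*C2 + (5/96)*C3 + (5/288)*C4 + (1/192)*C5 + (1/768)*C6 + (1/4608)*C7 - (1/256))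
    (b8 : 0 ≤ 1*C0 + (4/9)*C1 + (7/36)*C2 + (1/12)*C3 + (5/144)*C4 + (1/72)*C5 + (1/192)*C6 + (1/576)*C7 + (1/2304)*C8 - (1/256))
    (b9 : 0 ≤ 1*C0 + (1/2)*C1 + (1/4)*C2 + (1/8)*C3 + (1/16)*C4 + (1/32)*C5 + (1/64)*C6 + (1/128)*C7 + (1/256)*C8 + (1/512)*C9 - (1/256))
    : 0 < C0 + d*C1 + d^(2:ℕ)*C2 + d^(3:ℕ)*C3 + d^(4:ℕ)*C4 + d^(5:ℕ)*C5 + d^(6:ℕ)*C6 + d^(7:ℕ)*C7 + d^(8:ℕ)*C8 + d^(9:ℕ)*C9 := by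
  obtain ⟨d2, hd2⟩ : ∃ d2 : ℝ, d2 = (1/2) - d := ⟨_, rfl⟩
  have a2 : 0 ≤ d2 := by rw [hd2]; linarith
  obtain ⟨B0, hB0⟩ : ∃ B : ℝ, B = 1*C0 - (1/256) := ⟨_, rfl⟩
  rw [← hB0] at b0
  obtain ⟨B1, hB1⟩ : ∃ B : ℝ, B = 1*C0 + (1/18)*C1 - (1/256) := ⟨_, rfl⟩
  rw [← hB1] at b1
  obtain ⟨B2, hB2⟩ : ∃ B : ℝ, B = 1*C0 + (1/9)*C1 + (1/144)*C2 - (1/256) := ⟨_, rfl⟩
  rw [← hB2] at b2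
  obtain ⟨B3, hB3⟩ : ∃ B : ℝ, B = 1*C0 + (1/6)*C1 + (1/48)*C2 + (1/672)*C3 - (1/256) := ⟨_, rfl⟩
  rw [← hB3] at b3
  obtain ⟨B4, hB4⟩ : ∃ B : ℝ, B = 1*C0 + (2/9)*C1 + (1/24)*C2 + (1/168)*C3 + (1/2016)*C4 - (1/256) := ⟨_, rfl⟩
  rw [← hB4] at b4
  obtain ⟨B5, hB5⟩ : ∃ B : ℝ, B = 1*C0 + (5/18)*C1 + (5/72)*C2 + (5/336)*C3 + (5/2016)*C4 + (1/4032)*C5 - (1/256) := ⟨_, rfl⟩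
  rw [← hB5] at b5
  obtain ⟨B6, hB6⟩ : ∃ B : ℝ, B = 1*C0 + (1/3)*C1 + (5/48)*C2 + (5/168)*C3 + (5/672)*C4 + (1/672)*C5 + (1/5376)*C6 - (1/256) := ⟨_, rfl⟩
  rw [← hB6] at b6
  obtain ⟨B7, hB7⟩ : ∃ B : ℝ, B = 1*C0 + (7/18)*C1 + (7/48)*C2 + (5/96)*C3 + (5/288)*C4 + (1/192)*C5 + (1/768)*C6 + (1/4608)*C7 - (1/256) := ⟨_, rfl⟩
  rw [← hB7] at b7
  obtain ⟨B8, hB8⟩ : ∃ B : ℝ, B = 1*C0 + (4/9)*C1 + (7/36)*C2 + (1/12)*C3 + (5/144)*C4 + (1/72)*C5 + (1/192)*C6 + (1/576)*C7 + (1/2304)*C8 - (1/256) := ⟨_, rfl⟩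
  rw [← hB8] at b8
  obtain ⟨B9, hB9⟩ : ∃ B : ℝ, B = 1*C0 + (1/2)*C1 + (1/4)*C2 + (1/8)*C3 + (1/16)*C4 + (1/32)*C5 + (1/64)*C6 + (1/128)*C7 + (1/256)*C8 + (1/512)*C9 - (1/256) := ⟨_, rfl⟩
  rw [← hB9] at b9
  have e : C0 + d*C1 + d^(2:ℕ)*C2 + d^(3:ℕ)*C3 + d^(4:ℕ)*C4 + d^(5:ℕ)*C5 + d^(6:ℕ)*C6 + d^(7:ℕ)*C7 + d^(8:ℕ)*C8 + d^(9:ℕ)*C9 = (1/256) + (512*d2^(9:ℕ)*B0 + 4608*d^(1:ℕ)*d2^(8:ℕ)*B1 + 18432*d^(2:ℕ)*d2^(7:ℕ)*B2 + 43008*d^(3:ℕ)*d2^(6:ℕ)*B3 + 64512*d^(4:ℕ)*d2^(5:ℕ)*B4 + 64512*d^(5:ℕ)*d2^(4:ℕ)*B5 + 43008*d^(6:ℕ)*d2^(3:ℕ)*B6 + 18432*d^(7:ℕ)*d2^(2:ℕ)*B7 + 4608*d^(8:ℕ)*d2^(1:ℕ)*B8 + 512*d^(9:ℕ)*B9) := by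
    rw [hB0, hB1, hB2, hB3, hB4, hB5, hB6, hB7, hB8, hB9, hd2]; ring
  rw [e]
  positivity

lemma pos_cSM0 (d t : ℝ) (h1 : 0 ≤ d) (h2 : d ≤ (1/2)) (h3 : 0 ≤ t) (h4 : t ≤ 1) :
    0 < (1/160) + (1/160)*t + (1/32)*t^(2:ℕ) + (1/32)*t^(3:ℕ) + (1/16)*t^(4:ℕ) + (1/16)*t^(5:ℕ) + (1/16)*t^(6:ℕ) + (1/16)*t^(7:ℕ) + (1/32)*t^(8:ℕ) + (1/32)*t^(9:ℕ) + (1/160)*t^(10:ℕ) + (1/160)*t^(11:ℕ) + (311/12800)*d + (157/6400)*d*t + (1871/12800)*d*t^(2:ℕ) + (473/3200)*d*t^(3:ℕ) + (81/256)*d*t^(4:ℕ) + (1027/3200)*d*t^(5:ℕ) + (403/1280)*d*t^(6:ℕ) + (257/800)*d*t^(7:ℕ) + (367/2560)*d*t^(8:ℕ) + (949/6400)*d*t^(9:ℕ) + (291/12800)*d*t^(10:ℕ) + (79/3200)*d*t^(11:ℕ) + (-1/3200)*d*t^(12:ℕ) + (29/1280)*d^(2:ℕ) + (17/800)*d^(2:ℕ)*t + (1667/6400)*d^(2:ℕ)*t^(2:ℕ)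 + (53/200)*d^(2:ℕ)*t^(3:ℕ) + (433/640)*d^(2:ℕ)*t^(4:ℕ) + (879/1600)*d^(2:ℕ)*t^(5:ℕ) + (77/128)*d^(2:ℕ)*t^(6:ℕ) + (567/1600)*d^(2:ℕ)*t^(7:ℕ) + (969/6400)*d^(2:ℕ)*t^(8:ℕ) + (23/1600)*d^(2:ℕ)*t^(9:ℕ) + (-77/6400)*d^(2:ℕ)*t^(10:ℕ) + (-11/320)*d^(2:ℕ)*t^(11:ℕ) + (-1/1600)*d^(2:ℕ)*t^(12:ℕ) + (-1/200)*d^(3:ℕ) + (-21/3200)*d^(3:ℕ)*t + (549/3200)*d^(3:ℕ)*t^(2:ℕ) + (3669/16000)*d^(3:ℕ)*t^(3:ℕ) + (12053/16000)*d^(3:ℕ)*t^(4:ℕ) + (567/4000)*d^(3:ℕ)*t^(5:ℕ) + (9049/16000)*d^(3:ℕ)*t^(6:ℕ) + (-81/160)*d^(3:ℕ)*t^(7:ℕ) + (-791/16000)*d^(3:ℕ)*t^(8:ℕ) + (-8883/16000)*d^(3:ℕ)*t^(9:ℕ) + (-281/8000)*d^(3:ℕ)*t^(10:ℕ) + (-2289/16000)*d^(3:ℕ)*t^(11:ℕ) + (1/320)*d^(3:ℕ)*t^(12:ℕ) + (-7/1600)*d^(4:ℕ) + (-1/160)*d^(4:ℕ)*t + (-17/1000)*d^(4:ℕ)*t^(2:ℕ)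 + (-761/8000)*d^(4:ℕ)*t^(3:ℕ) + (609/1000)*d^(4:ℕ)*t^(4:ℕ) + (-1483/2000)*d^(4:ℕ)*t^(5:ℕ) + (3999/8000)*d^(4:ℕ)*t^(6:ℕ) + (-7509/8000)*d^(4:ℕ)*t^(7:ℕ) + (-1237/8000)*d^(4:ℕ)*t^(8:ℕ) + (-1223/4000)*d^(4:ℕ)*t^(9:ℕ) + (-243/8000)*d^(4:ℕ)*t^(10:ℕ) + (-79/4000)*d^(4:ℕ)*t^(11:ℕ) + (1/400)*d^(4:ℕ)*t^(12:ℕ) + (-1/800)*d^(5:ℕ) + (-3/800)*d^(5:ℕ)*t + (189/16000)*d^(5:ℕ)*t^(2:ℕ) + (-5519/16000)*d^(5:ℕ)*t^(3:ℕ) + (4193/8000)*d^(5:ℕ)*t^(4:ℕ) + (-2579/3200)*d^(5:ℕ)*t^(5:ℕ) + (43111/80000)*d^(5:ℕ)*t^(6:ℕ) + (-1147/8000)*d^(5:ℕ)*t^(7:ℕ) + (-4107/20000)*d^(5:ℕ)*t^(8:ℕ) + (497/1000)*d^(5:ℕ)*t^(9:ℕ) + (-26069/80000)*d^(5:ℕ)*t^(10:ℕ) + (281/1600)*d^(5:ℕ)*t^(11:ℕ) + (-9/3200)*d^(5:ℕ)*t^(12:ℕ) + (-41/4000)*d^(6:ℕ)*t^(2:ℕ) + (37/4000)*d^(6:ℕ)*t^(3:ℕ)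 + (-123/800)*d^(6:ℕ)*t^(4:ℕ) + (2959/20000)*d^(6:ℕ)*t^(5:ℕ) + (-98/625)*d^(6:ℕ)*t^(6:ℕ) + (2019/10000)*d^(6:ℕ)*t^(7:ℕ) + (-273/5000)*d^(6:ℕ)*t^(8:ℕ) + (5749/20000)*d^(6:ℕ)*t^(9:ℕ) + (-12797/40000)*d^(6:ℕ)*t^(10:ℕ) + (897/4000)*d^(6:ℕ)*t^(11:ℕ) + (-19/1600)*d^(6:ℕ)*t^(12:ℕ) + (-7/4000)*d^(7:ℕ)*t^(2:ℕ) + (211/4000)*d^(7:ℕ)*t^(3:ℕ) + (-4573/20000)*d^(7:ℕ)*t^(4:ℕ) + (16453/40000)*d^(7:ℕ)*t^(5:ℕ) + (-4951/10000)*d^(7:ℕ)*t^(6:ℕ) + (12277/40000)*d^(7:ℕ)*t^(7:ℕ) + (-277/5000)*d^(7:ℕ)*t^(8:ℕ) + (-1363/20000)*d^(7:ℕ)*t^(9:ℕ) + (731/20000)*d^(7:ℕ)*t^(10:ℕ) + (-33/2000)*d^(7:ℕ)*t^(11:ℕ) + (-1/800)*d^(7:ℕ)*t^(12:ℕ) + (9/1000)*d^(8:ℕ)*t^(3:ℕ) + (-691/20000)*d^(8:ℕ)*t^(4:ℕ) + (38/625)*d^(8:ℕ)*t^(5:ℕ) + (-329/5000)*d^(8:ℕ)*t^(6:ℕ)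 + (277/10000)*d^(8:ℕ)*t^(7:ℕ) + (409/20000)*d^(8:ℕ)*t^(8:ℕ) + (-651/10000)*d^(8:ℕ)*t^(9:ℕ) + (321/5000)*d^(8:ℕ)*t^(10:ℕ) + (-41/1000)*d^(8:ℕ)*t^(11:ℕ) + (3/400)*d^(8:ℕ)*t^(12:ℕ) + (3/2000)*d^(9:ℕ)*t^(4:ℕ) + (-51/10000)*d^(9:ℕ)*t^(5:ℕ) + (61/5000)*d^(9:ℕ)*t^(6:ℕ) + (-191/10000)*d^(9:ℕ)*t^(7:ℕ) + (313/10000)*d^(9:ℕ)*t^(8:ℕ) + (-21/500)*d^(9:ℕ)*t^(9:ℕ) + (223/5000)*d^(9:ℕ)*t^(10:ℕ) + (-7/250)*d^(9:ℕ)*t^(11:ℕ) + (1/100)*d^(9:ℕ)*t^(12:ℕ) := by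
  have e0 : (1/160) + (1/160)*t + (1/32)*t^(2:ℕ) + (1/32)*t^(3:ℕ) + (1/16)*t^(4:ℕ) + (1/16)*t^(5:ℕ) + (1/16)*t^(6:ℕ) + (1/16)*t^(7:ℕ) + (1/32)*t^(8:ℕ) + (1/32)*t^(9:ℕ) + (1/160)*t^(10:ℕ) + (1/160)*t^(11:ℕ) + (311/12800)*d + (157/6400)*d*t + (1871/12800)*d*t^(2:ℕ) + (473/3200)*d*t^(3:ℕ) + (81/256)*d*t^(4:ℕ) + (1027/3200)*d*t^(5:ℕ) + (403/1280)*d*t^(6:ℕ) + (257/800)*d*t^(7:ℕ) + (367/2560)*d*t^(8:ℕ) + (949/6400)*d*t^(9:ℕ) + (291/12800)*d*t^(10:ℕ) + (79/3200)*d*t^(11:ℕ) + (-1/3200)*d*t^(12:ℕ) + (29/1280)*d^(2:ℕ) + (17/800)*d^(2:ℕ)*t + (1667/6400)*d^(2:ℕ)*t^(2:ℕ) + (53/200)*d^(2:ℕ)*t^(3:ℕ) + (433/640)*d^(2:ℕ)*t^(4:ℕ) + (879/1600)*d^(2:ℕ)*t^(5:ℕ) + (77/128)*d^(2:ℕ)*t^(6:ℕ) + (567/1600)*d^(2:ℕ)*t^(7:ℕ) + (969/6400)*d^(2:ℕ)*t^(8:ℕ)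 + (23/1600)*d^(2:ℕ)*t^(9:ℕ) + (-77/6400)*d^(2:ℕ)*t^(10:ℕ) + (-11/320)*d^(2:ℕ)*t^(11:ℕ) + (-1/1600)*d^(2:ℕ)*t^(12:ℕ) + (-1/200)*d^(3:ℕ) + (-21/3200)*d^(3:ℕ)*t + (549/3200)*d^(3:ℕ)*t^(2:ℕ) + (3669/16000)*d^(3:ℕ)*t^(3:ℕ) + (12053/16000)*d^(3:ℕ)*t^(4:ℕ) + (567/4000)*d^(3:ℕ)*t^(5:ℕ) + (9049/16000)*d^(3:ℕ)*t^(6:ℕ) + (-81/160)*d^(3:ℕ)*t^(7:ℕ) + (-791/16000)*d^(3:ℕ)*t^(8:ℕ) + (-8883/16000)*d^(3:ℕ)*t^(9:ℕ) + (-281/8000)*d^(3:ℕ)*t^(10:ℕ) + (-2289/16000)*d^(3:ℕ)*t^(11:ℕ) + (1/320)*d^(3:ℕ)*t^(12:ℕ) + (-7/1600)*d^(4:ℕ) + (-1/160)*d^(4:ℕ)*t + (-17/1000)*d^(4:ℕ)*t^(2:ℕ) + (-761/8000)*d^(4:ℕ)*t^(3:ℕ) + (609/1000)*d^(4:ℕ)*t^(4:ℕ) + (-1483/2000)*d^(4:ℕ)*t^(5:ℕ) + (3999/8000)*d^(4:ℕ)*t^(6:ℕ) + (-7509/8000)*d^(4:ℕ)*t^(7:ℕ) + (-1237/8000)*d^(4:ℕ)*t^(8:ℕ)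 + (-1223/4000)*d^(4:ℕ)*t^(9:ℕ) + (-243/8000)*d^(4:ℕ)*t^(10:ℕ) + (-79/4000)*d^(4:ℕ)*t^(11:ℕ) + (1/400)*d^(4:ℕ)*t^(12:ℕ) + (-1/800)*d^(5:ℕ) + (-3/800)*d^(5:ℕ)*t + (189/16000)*d^(5:ℕ)*t^(2:ℕ) + (-5519/16000)*d^(5:ℕ)*t^(3:ℕ) + (4193/8000)*d^(5:ℕ)*t^(4:ℕ) + (-2579/3200)*d^(5:ℕ)*t^(5:ℕ) + (43111/80000)*d^(5:ℕ)*t^(6:ℕ) + (-1147/8000)*d^(5:ℕ)*t^(7:ℕ) + (-4107/20000)*d^(5:ℕ)*t^(8:ℕ) + (497/1000)*d^(5:ℕ)*t^(9:ℕ) + (-26069/80000)*d^(5:ℕ)*t^(10:ℕ) + (281/1600)*d^(5:ℕ)*t^(11:ℕ) + (-9/3200)*d^(5:ℕ)*t^(12:ℕ) + (-41/4000)*d^(6:ℕ)*t^(2:ℕ) + (37/4000)*d^(6:ℕ)*t^(3:ℕ) + (-123/800)*d^(6:ℕ)*t^(4:ℕ) + (2959/20000)*d^(6:ℕ)*t^(5:ℕ) + (-98/625)*d^(6:ℕ)*t^(6:ℕ) + (2019/10000)*d^(6:ℕ)*t^(7:ℕ) + (-273/5000)*d^(6:ℕ)*t^(8:ℕ) + (5749/20000)*d^(6:ℕ)*t^(9:ℕ)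 + (-12797/40000)*d^(6:ℕ)*t^(10:ℕ) + (897/4000)*d^(6:ℕ)*t^(11:ℕ) + (-19/1600)*d^(6:ℕ)*t^(12:ℕ) + (-7/4000)*d^(7:ℕ)*t^(2:ℕ) + (211/4000)*d^(7:ℕ)*t^(3:ℕ) + (-4573/20000)*d^(7:ℕ)*t^(4:ℕ) + (16453/40000)*d^(7:ℕ)*t^(5:ℕ) + (-4951/10000)*d^(7:ℕ)*t^(6:ℕ) + (12277/40000)*d^(7:ℕ)*t^(7:ℕ) + (-277/5000)*d^(7:ℕ)*t^(8:ℕ) + (-1363/20000)*d^(7:ℕ)*t^(9:ℕ) + (731/20000)*d^(7:ℕ)*t^(10:ℕ) + (-33/2000)*d^(7:ℕ)*t^(11:ℕ) + (-1/800)*d^(7:ℕ)*t^(12:ℕ) + (9/1000)*d^(8:ℕ)*t^(3:ℕ) + (-691/20000)*d^(8:ℕ)*t^(4:ℕ) + (38/625)*d^(8:ℕ)*t^(5:ℕ) + (-329/5000)*d^(8:ℕ)*t^(6:ℕ) + (277/10000)*d^(8:ℕ)*t^(7:ℕ) + (409/20000)*d^(8:ℕ)*t^(8:ℕ) + (-651/10000)*d^(8:ℕ)*t^(9:ℕ) + (321/5000)*d^(8:ℕ)*t^(10:ℕ) + (-41/1000)*d^(8:ℕ)*t^(11:ℕ) + (3/400)*d^(8:ℕ)*t^(12:ℕ)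 + (3/2000)*d^(9:ℕ)*t^(4:ℕ) + (-51/10000)*d^(9:ℕ)*t^(5:ℕ) + (61/5000)*d^(9:ℕ)*t^(6:ℕ) + (-191/10000)*d^(9:ℕ)*t^(7:ℕ) + (313/10000)*d^(9:ℕ)*t^(8:ℕ) + (-21/500)*d^(9:ℕ)*t^(9:ℕ) + (223/5000)*d^(9:ℕ)*t^(10:ℕ) + (-7/250)*d^(9:ℕ)*t^(11:ℕ) + (1/100)*d^(9:ℕ)*t^(12:ℕ) = ((1/160) + (1/160)*t + (1/32)*t^(2:ℕ) + (1/32)*t^(3:ℕ) + (1/16)*t^(4:ℕ) + (1/16)*t^(5:ℕ) + (1/16)*t^(6:ℕ) + (1/16)*t^(7:ℕ) + (1/32)*t^(8:ℕ) + (1/32)*t^(9:ℕ) + (1/160)*t^(10:ℕ) + (1/160)*t^(11:ℕ)) + d*((311/12800) + (157/6400)*t + (1871/12800)*t^(2:ℕ) + (473/3200)*t^(3:ℕ) + (81/256)*t^(4:ℕ) + (1027/3200)*t^(5:ℕ) + (403/1280)*t^(6:ℕ) + (257/800)*t^(7:ℕ) + (367/2560)*t^(8:ℕ) + (949/6400)*t^(9:ℕ) + (291/12800)*t^(10:ℕ) + (79/3200)*t^(11:ℕ) + (-1/3200)*t^(12:ℕ))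 + d^(2:ℕ)*((29/1280) + (17/800)*t + (1667/6400)*t^(2:ℕ) + (53/200)*t^(3:ℕ) + (433/640)*t^(4:ℕ) + (879/1600)*t^(5:ℕ) + (77/128)*t^(6:ℕ) + (567/1600)*t^(7:ℕ) + (969/6400)*t^(8:ℕ) + (23/1600)*t^(9:ℕ) + (-77/6400)*t^(10:ℕ) + (-11/320)*t^(11:ℕ) + (-1/1600)*t^(12:ℕ)) + d^(3:ℕ)*((-1/200) + (-21/3200)*t + (549/3200)*t^(2:ℕ) + (3669/16000)*t^(3:ℕ) + (12053/16000)*t^(4:ℕ) + (567/4000)*t^(5:ℕ) + (9049/16000)*t^(6:ℕ) + (-81/160)*t^(7:ℕ) + (-791/16000)*t^(8:ℕ) + (-8883/16000)*t^(9:ℕ) + (-281/8000)*t^(10:ℕ) + (-2289/16000)*t^(11:ℕ) + (1/320)*t^(12:ℕ)) + d^(4:ℕ)*((-7/1600) + (-1/160)*t + (-17/1000)*t^(2:ℕ) + (-761/8000)*t^(3:ℕ) + (609/1000)*t^(4:ℕ) + (-1483/2000)*t^(5:ℕ) + (3999/8000)*t^(6:ℕ) + (-7509/8000)*t^(7:ℕ) + (-1237/8000)*t^(8:ℕ)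 + (-1223/4000)*t^(9:ℕ) + (-243/8000)*t^(10:ℕ) + (-79/4000)*t^(11:ℕ) + (1/400)*t^(12:ℕ)) + d^(5:ℕ)*((-1/800) + (-3/800)*t + (189/16000)*t^(2:ℕ) + (-5519/16000)*t^(3:ℕ) + (4193/8000)*t^(4:ℕ) + (-2579/3200)*t^(5:ℕ) + (43111/80000)*t^(6:ℕ) + (-1147/8000)*t^(7:ℕ) + (-4107/20000)*t^(8:ℕ) + (497/1000)*t^(9:ℕ) + (-26069/80000)*t^(10:ℕ) + (281/1600)*t^(11:ℕ) + (-9/3200)*t^(12:ℕ)) + d^(6:ℕ)*((-41/4000)*t^(2:ℕ) + (37/4000)*t^(3:ℕ) + (-123/800)*t^(4:ℕ) + (2959/20000)*t^(5:ℕ) + (-98/625)*t^(6:ℕ) + (2019/10000)*t^(7:ℕ) + (-273/5000)*t^(8:ℕ) + (5749/20000)*t^(9:ℕ) + (-12797/40000)*t^(10:ℕ) + (897/4000)*t^(11:ℕ) + (-19/1600)*t^(12:ℕ)) + d^(7:ℕ)*((-7/4000)*t^(2:ℕ) + (211/4000)*t^(3:ℕ) + (-4573/20000)*t^(4:ℕ) + (16453/40000)*t^(5:ℕ)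 + (-4951/10000)*t^(6:ℕ) + (12277/40000)*t^(7:ℕ) + (-277/5000)*t^(8:ℕ) + (-1363/20000)*t^(9:ℕ) + (731/20000)*t^(10:ℕ) + (-33/2000)*t^(11:ℕ) + (-1/800)*t^(12:ℕ)) + d^(8:ℕ)*((9/1000)*t^(3:ℕ) + (-691/20000)*t^(4:ℕ) + (38/625)*t^(5:ℕ) + (-329/5000)*t^(6:ℕ) + (277/10000)*t^(7:ℕ) + (409/20000)*t^(8:ℕ) + (-651/10000)*t^(9:ℕ) + (321/5000)*t^(10:ℕ) + (-41/1000)*t^(11:ℕ) + (3/400)*t^(12:ℕ)) + d^(9:ℕ)*((3/2000)*t^(4:ℕ) + (-51/10000)*t^(5:ℕ) + (61/5000)*t^(6:ℕ) + (-191/10000)*t^(7:ℕ) + (313/10000)*t^(8:ℕ) + (-21/500)*t^(9:ℕ) + (223/5000)*t^(10:ℕ) + (-7/250)*t^(11:ℕ) + (1/100)*t^(12:ℕ)) := by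
    ring
  rw [e0]
  exact pos_cSM0_id d ((1/160) + (1/160)*t + (1/32)*t^(2:ℕ) + (1/32)*t^(3:ℕ) + (1/16)*t^(4:ℕ) + (1/16)*t^(5:ℕ) + (1/16)*t^(6:ℕ) + (1/16)*t^(7:ℕ) + (1/32)*t^(8:ℕ) + (1/32)*t^(9:ℕ) + (1/160)*t^(10:ℕ) + (1/160)*t^(11:ℕ)) ((311/12800) + (157/6400)*t + (1871/12800)*t^(2:ℕ) + (473/3200)*t^(3:ℕ) + (81/256)*t^(4:ℕ) + (1027/3200)*t^(5:ℕ) + (403/1280)*t^(6:ℕ) + (257/800)*t^(7:ℕ) + (367/2560)*t^(8:ℕ) + (949/6400)*t^(9:ℕ) + (291/12800)*t^(10:ℕ) + (79/3200)*t^(11:ℕ) + (-1/3200)*t^(12:ℕ)) ((29/1280) + (17/800)*t + (1667/6400)*t^(2:ℕ) + (53/200)*t^(3:ℕ) + (433/640)*t^(4:ℕ) + (879/1600)*t^(5:ℕ) + (77/128)*t^(6:ℕ) + (567/1600)*t^(7:ℕ) + (969/6400)*t^(8:ℕ) + (23/1600)*t^(9:ℕ) + (-77/6400)*t^(10:ℕ) + (-11/320)*t^(11:ℕ)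 + (-1/1600)*t^(12:ℕ)) ((-1/200) + (-21/3200)*t + (549/3200)*t^(2:ℕ) + (3669/16000)*t^(3:ℕ) + (12053/16000)*t^(4:ℕ) + (567/4000)*t^(5:ℕ) + (9049/16000)*t^(6:ℕ) + (-81/160)*t^(7:ℕ) + (-791/16000)*t^(8:ℕ) + (-8883/16000)*t^(9:ℕ) + (-281/8000)*t^(10:ℕ) + (-2289/16000)*t^(11:ℕ) + (1/320)*t^(12:ℕ)) ((-7/1600) + (-1/160)*t + (-17/1000)*t^(2:ℕ) + (-761/8000)*t^(3:ℕ) + (609/1000)*t^(4:ℕ) + (-1483/2000)*t^(5:ℕ) + (3999/8000)*t^(6:ℕ) + (-7509/8000)*t^(7:ℕ) + (-1237/8000)*t^(8:ℕ) + (-1223/4000)*t^(9:ℕ) + (-243/8000)*t^(10:ℕ) + (-79/4000)*t^(11:ℕ) + (1/400)*t^(12:ℕ)) ((-1/800) + (-3/800)*t + (189/16000)*t^(2:ℕ) + (-5519/16000)*t^(3:ℕ) + (4193/8000)*t^(4:ℕ) + (-2579/3200)*t^(5:ℕ) + (43111/80000)*t^(6:ℕ) + (-1147/8000)*t^(7:ℕ)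 + (-4107/20000)*t^(8:ℕ) + (497/1000)*t^(9:ℕ) + (-26069/80000)*t^(10:ℕ) + (281/1600)*t^(11:ℕ) + (-9/3200)*t^(12:ℕ)) ((-41/4000)*t^(2:ℕ) + (37/4000)*t^(3:ℕ) + (-123/800)*t^(4:ℕ) + (2959/20000)*t^(5:ℕ) + (-98/625)*t^(6:ℕ) + (2019/10000)*t^(7:ℕ) + (-273/5000)*t^(8:ℕ) + (5749/20000)*t^(9:ℕ) + (-12797/40000)*t^(10:ℕ) + (897/4000)*t^(11:ℕ) + (-19/1600)*t^(12:ℕ)) ((-7/4000)*t^(2:ℕ) + (211/4000)*t^(3:ℕ) + (-4573/20000)*t^(4:ℕ) + (16453/40000)*t^(5:ℕ) + (-4951/10000)*t^(6:ℕ) + (12277/40000)*t^(7:ℕ) + (-277/5000)*t^(8:ℕ) + (-1363/20000)*t^(9:ℕ) + (731/20000)*t^(10:ℕ) + (-33/2000)*t^(11:ℕ) + (-1/800)*t^(12:ℕ)) ((9/1000)*t^(3:ℕ) + (-691/20000)*t^(4:ℕ) + (38/625)*t^(5:ℕ) + (-329/5000)*t^(6:ℕ) + (277/10000)*t^(7:ℕ) + (409/20000)*t^(8:ℕ)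 + (-651/10000)*t^(9:ℕ) + (321/5000)*t^(10:ℕ) + (-41/1000)*t^(11:ℕ) + (3/400)*t^(12:ℕ)) ((3/2000)*t^(4:ℕ) + (-51/10000)*t^(5:ℕ) + (61/5000)*t^(6:ℕ) + (-191/10000)*t^(7:ℕ) + (313/10000)*t^(8:ℕ) + (-21/500)*t^(9:ℕ) + (223/5000)*t^(10:ℕ) + (-7/250)*t^(11:ℕ) + (1/100)*t^(12:ℕ)) h1 h2 ((pos_cSM0_b0 t h3 h4).trans_eq (by ring)) ((pos_cSM0_b1 t h3 h4).trans_eq (by ring)) ((pos_cSM0_b2 t h3 h4).trans_eq (by ring)) ((pos_cSM0_b3 t h3 h4).trans_eq (by ring)) ((pos_cSM0_b4 t h3 h4).trans_eq (by ring)) ((pos_cSM0_b5 t h3 h4).trans_eq (by ring)) ((pos_cSM0_b6 t h3 h4).trans_eq (by ring)) ((pos_cSM0_b7 t h3 h4).trans_eq (by ring)) ((pos_cSM0_b8 t h3 h4).trans_eq (by ring)) ((pos_cSM0_b9 t h3 h4).trans_eq (by ring))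

lemma pos_cSMe_b0 (t : ℝ) (h3 : 0 ≤ t) (h4 : t ≤ 1) :
    0 ≤ (3/6400) + (17/6400)*t + (151/12800)*t^(2:ℕ) + (43/3200)*t^(3:ℕ) + (29/1280)*t^(4:ℕ) + (87/3200)*t^(5:ℕ) + (27/1280)*t^(6:ℕ) + (11/400)*t^(7:ℕ) + (23/2560)*t^(8:ℕ) + (89/6400)*t^(9:ℕ) + (11/12800)*t^(10:ℕ) + (9/3200)*t^(11:ℕ) + (-1/3200)*t^(12:ℕ) := by
  obtain ⟨t2, ht2⟩ : ∃ t2 : ℝ, t2 = 1 - t := ⟨_, rfl⟩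
  have a4 : 0 ≤ t2 := by rw [ht2]; linarith
  have e : (3/6400) + (17/6400)*t + (151/12800)*t^(2:ℕ) + (43/3200)*t^(3:ℕ) + (29/1280)*t^(4:ℕ) + (87/3200)*t^(5:ℕ) + (27/1280)*t^(6:ℕ) + (11/400)*t^(7:ℕ) + (23/2560)*t^(8:ℕ) + (89/6400)*t^(9:ℕ) + (11/12800)*t^(10:ℕ) + (9/3200)*t^(11:ℕ) + (-1/3200)*t^(12:ℕ) = (3/6400)*t2^(12:ℕ) + (53/6400)*t^(1:ℕ)*t2^(11:ℕ) + (921/12800)*t^(2:ℕ)*t2^(10:ℕ) + (609/1600)*t^(3:ℕ)*t2^(9:ℕ) + (17213/12800)*t^(4:ℕ)*t2^(8:ℕ) + (5369/1600)*t^(5:ℕ)*t2^(7:ℕ) + (19559/3200)*t^(6:ℕ)*t2^(6:ℕ) + (13213/1600)*t^(7:ℕ)*t2^(5:ℕ) + (105977/12800)*t^(8:ℕ)*t2^(4:ℕ) + (19369/3200)*t^(9:ℕ)*t2^(3:ℕ) + (19743/6400)*t^(10:ℕ)*t2^(2:ℕ) + (3173/3200)*t^(11:ℕ)*t2^(1:ℕ) + (1959/12800)*t^(12:ℕ) := by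
    rw [ht2]; ring
  rw [e]
  positivity

lemma pos_cSMe_b1 (t : ℝ) (h3 : 0 ≤ t) (h4 : t ≤ 1) :
    0 ≤ (329/256000) + (387/128000)*t + (177/10240)*t^(2:ℕ) + (141/8000)*t^(3:ℕ) + (4759/128000)*t^(4:ℕ) + (2171/64000)*t^(5:ℕ) + (4517/128000)*t^(6:ℕ) + (487/16000)*t^(7:ℕ) + (3617/256000)*t^(8:ℕ) + (371/25600)*t^(9:ℕ) + (413/256000)*t^(10:ℕ) + (27/8000)*t^(11:ℕ) + (-23/64000)*t^(12:ℕ) := by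
  obtain ⟨t2, ht2⟩ : ∃ t2 : ℝ, t2 = 1 - t := ⟨_, rfl⟩
  have a4 : 0 ≤ t2 := by rw [ht2]; linarith
  have e : (329/256000) + (387/128000)*t + (177/10240)*t^(2:ℕ) + (141/8000)*t^(3:ℕ) + (4759/128000)*t^(4:ℕ) + (2171/64000)*t^(5:ℕ) + (4517/128000)*t^(6:ℕ) + (487/16000)*t^(7:ℕ) + (3617/256000)*t^(8:ℕ) + (371/25600)*t^(9:ℕ) + (413/256000)*t^(10:ℕ) + (27/8000)*t^(11:ℕ) + (-23/64000)*t^(12:ℕ) = (329/256000)*t2^(12:ℕ) + (2361/128000)*t^(1:ℕ)*t2^(11:ℕ) + (34653/256000)*t^(2:ℕ)*t2^(10:ℕ) + (1279/2000)*t^(3:ℕ)*t2^(9:ℕ) + (67477/32000)*t^(4:ℕ)*t2^(8:ℕ) + (161781/32000)*t^(5:ℕ)*t2^(7:ℕ) + (288271/32000)*t^(6:ℕ)*t2^(6:ℕ) + (96223/8000)*t^(7:ℕ)*t2^(5:ℕ) + (766081/64000)*t^(8:ℕ)*t2^(4:ℕ) + (138989/16000)*t^(9:ℕ)*t2^(3:ℕ) + (140173/32000)*t^(10:ℕ)*t2^(2:ℕ)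 + (22169/16000)*t^(11:ℕ)*t2^(1:ℕ) + (2679/12800)*t^(12:ℕ) := by
    rw [ht2]; ring
  rw [e]
  positivity

lemma pos_cSMe_b2 (t : ℝ) (h3 : 0 ≤ t) (h4 : t ≤ 1) :
    0 ≤ (6773/3072000) + (15293/4608000)*t + (223591/9216000)*t^(2:ℕ) + (265621/11520000)*t^(3:ℕ) + (1324909/23040000)*t^(4:ℕ) + (159869/3840000)*t^(5:ℕ) + (421529/7680000)*t^(6:ℕ) + (18199/576000)*t^(7:ℕ) + (941279/46080000)*t^(8:ℕ) + (312281/23040000)*t^(9:ℕ) + (117463/46080000)*t^(10:ℕ) + (4931/1280000)*t^(11:ℕ) + (-181/460800)*t^(12:ℕ) := by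
  obtain ⟨t2, ht2⟩ : ∃ t2 : ℝ, t2 = 1 - t := ⟨_, rfl⟩
  have a4 : 0 ≤ t2 := by rw [ht2]; linarith
  have e : (6773/3072000) + (15293/4608000)*t + (223591/9216000)*t^(2:ℕ) + (265621/11520000)*t^(3:ℕ) + (1324909/23040000)*t^(4:ℕ) + (159869/3840000)*t^(5:ℕ) + (421529/7680000)*t^(6:ℕ) + (18199/576000)*t^(7:ℕ) + (941279/46080000)*t^(8:ℕ) + (312281/23040000)*t^(9:ℕ) + (117463/46080000)*t^(10:ℕ) + (4931/1280000)*t^(11:ℕ) + (-181/460800)*t^(12:ℕ) = (6773/3072000)*t2^(12:ℕ) + (137207/4608000)*t^(1:ℕ)*t2^(11:ℕ) + (633697/3072000)*t^(2:ℕ)*t2^(10:ℕ) + (10751021/11520000)*t^(3:ℕ)*t2^(9:ℕ) + (34510781/11520000)*t^(4:ℕ)*t2^(8:ℕ) + (5100799/720000)*t^(5:ℕ)*t2^(7:ℕ) + (14467493/1152000)*t^(6:ℕ)*t2^(6:ℕ) + (2680633/160000)*t^(7:ℕ)*t2^(5:ℕ)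 + (24005959/1440000)*t^(8:ℕ)*t2^(4:ℕ) + (5792237/480000)*t^(9:ℕ)*t2^(3:ℕ) + (17393209/2880000)*t^(10:ℕ)*t2^(2:ℕ) + (75327/40000)*t^(11:ℕ)*t2^(1:ℕ) + (267313/960000)*t^(12:ℕ) := by
    rw [ht2]; ring
  rw [e]
  positivity

lemma pos_cSMe_b3 (t : ℝ) (h3 : 0 ≤ t) (h4 : t ≤ 1) :
    0 ≤ (15773/4915200) + (10693/3072000)*t + (1351573/40960000)*t^(2:ℕ) + (91561/3072000)*t^(3:ℕ) + (5249261/61440000)*t^(4:ℕ) + (1531903/30720000)*t^(5:ℕ) + (1667119/20480000)*t^(6:ℕ) + (918983/30720000)*t^(7:ℕ) + (3418613/122880000)*t^(8:ℕ) + (107869/10240000)*t^(9:ℕ) + (444007/122880000)*t^(10:ℕ) + (127847/30720000)*t^(11:ℕ) + (-2501/6144000)*t^(12:ℕ) := by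
  obtain ⟨t2, ht2⟩ : ∃ t2 : ℝ, t2 = 1 - t := ⟨_, rfl⟩
  have a4 : 0 ≤ t2 := by rw [ht2]; linarith
  have e : (15773/4915200) + (10693/3072000)*t + (1351573/40960000)*t^(2:ℕ) + (91561/3072000)*t^(3:ℕ) + (5249261/61440000)*t^(4:ℕ) + (1531903/30720000)*t^(5:ℕ) + (1667119/20480000)*t^(6:ℕ) + (918983/30720000)*t^(7:ℕ) + (3418613/122880000)*t^(8:ℕ) + (107869/10240000)*t^(9:ℕ) + (444007/122880000)*t^(10:ℕ) + (127847/30720000)*t^(11:ℕ) + (-2501/6144000)*t^(12:ℕ) = (15773/4915200)*t2^(12:ℕ) + (257981/6144000)*t^(1:ℕ)*t2^(11:ℕ) + (34785089/122880000)*t^(2:ℕ)*t2^(10:ℕ) + (15448573/12288000)*t^(3:ℕ)*t2^(9:ℕ) + (61460939/15360000)*t^(4:ℕ)*t2^(8:ℕ) + (96831909/10240000)*t^(5:ℕ)*t2^(7:ℕ) + (64623547/3840000)*t^(6:ℕ)*t2^(6:ℕ)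 + (173341123/7680000)*t^(7:ℕ)*t2^(5:ℕ) + (28859363/1280000)*t^(8:ℕ)*t2^(4:ℕ) + (125356417/7680000)*t^(9:ℕ)*t2^(3:ℕ) + (62383607/7680000)*t^(10:ℕ)*t2^(2:ℕ) + (3199797/1280000)*t^(11:ℕ)*t2^(1:ℕ) + (9263/25600)*t^(12:ℕ) := by
    rw [ht2]; ring
  rw [e]
  positivity

lemma pos_cSMe_b4 (t : ℝ) (h3 : 0 ≤ t) (h4 : t ≤ 1) :
    0 ≤ (2449/573440) + (49137/14336000)*t + (1570789/35840000)*t^(2:ℕ) + (1624757/43008000)*t^(3:ℕ) + (26502911/215040000)*t^(4:ℕ) + (221873/3840000)*t^(5:ℕ) + (125459459/1075200000)*t^(6:ℕ) + (432211/17920000)*t^(7:ℕ) + (9711187/268800000)*t^(8:ℕ) + (351263/71680000)*t^(9:ℕ) + (5013139/1075200000)*t^(10:ℕ) + (8623/2048000)*t^(11:ℕ) + (-2841/7168000)*t^(12:ℕ) := by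
  obtain ⟨t2, ht2⟩ : ∃ t2 : ℝ, t2 = 1 - t := ⟨_, rfl⟩
  have a4 : 0 ≤ t2 := by rw [ht2]; linarith
  have e : (2449/573440) + (49137/14336000)*t + (1570789/35840000)*t^(2:ℕ) + (1624757/43008000)*t^(3:ℕ) + (26502911/215040000)*t^(4:ℕ) + (221873/3840000)*t^(5:ℕ) + (125459459/1075200000)*t^(6:ℕ) + (432211/17920000)*t^(7:ℕ) + (9711187/268800000)*t^(8:ℕ) + (351263/71680000)*t^(9:ℕ) + (5013139/1075200000)*t^(10:ℕ) + (8623/2048000)*t^(11:ℕ) + (-2841/7168000)*t^(12:ℕ) = (2449/573440)*t2^(12:ℕ) + (783837/14336000)*t^(1:ℕ)*t2^(11:ℕ) + (26048363/71680000)*t^(2:ℕ)*t2^(10:ℕ) + (6899033/4300800)*t^(3:ℕ)*t2^(9:ℕ) + (549969853/107520000)*t^(4:ℕ)*t2^(8:ℕ) + (1309226833/107520000)*t^(5:ℕ)*t2^(7:ℕ) + (23524188029/1075200000)*t^(6:ℕ)*t2^(6:ℕ)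 + (2274044941/76800000)*t^(7:ℕ)*t2^(5:ℕ) + (2666987359/89600000)*t^(8:ℕ)*t2^(4:ℕ) + (5802361793/268800000)*t^(9:ℕ)*t2^(3:ℕ) + (410668859/38400000)*t^(10:ℕ)*t2^(2:ℕ) + (54618661/16800000)*t^(11:ℕ)*t2^(1:ℕ) + (2948087/6400000)*t^(12:ℕ) := by
    rw [ht2]; ring
  rw [e]
  positivity

lemma pos_cSMe_b5 (t : ℝ) (h3 : 0 ≤ t) (h4 : t ≤ 1) :
    0 ≤ (15343/2867200) + (9839/3225600)*t + (28099/491520)*t^(2:ℕ) + (1337851/28672000)*t^(3:ℕ) + (700501/4032000)*t^(4:ℕ) + (41321081/645120000)*t^(5:ℕ) + (210225653/1290240000)*t^(6:ℕ) + (16438559/1290240000)*t^(7:ℕ) + (29027203/645120000)*t^(8:ℕ) + (-1222757/322560000)*t^(9:ℕ) + (3482039/645120000)*t^(10:ℕ) + (63061/16128000)*t^(11:ℕ) + (-9197/25804800)*t^(12:ℕ) := by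
  obtain ⟨t2, ht2⟩ : ∃ t2 : ℝ, t2 = 1 - t := ⟨_, rfl⟩
  have a4 : 0 ≤ t2 := by rw [ht2]; linarith
  have e : (15343/2867200) + (9839/3225600)*t + (28099/491520)*t^(2:ℕ) + (1337851/28672000)*t^(3:ℕ) + (700501/4032000)*t^(4:ℕ) + (41321081/645120000)*t^(5:ℕ) + (210225653/1290240000)*t^(6:ℕ) + (16438559/1290240000)*t^(7:ℕ) + (29027203/645120000)*t^(8:ℕ) + (-1222757/322560000)*t^(9:ℕ) + (3482039/645120000)*t^(10:ℕ) + (63061/16128000)*t^(11:ℕ) + (-9197/25804800)*t^(12:ℕ) = (15343/2867200)*t2^(12:ℕ) + (433939/6451200)*t^(1:ℕ)*t2^(11:ℕ) + (22909543/51609600)*t^(2:ℕ)*t2^(10:ℕ) + (506643409/258048000)*t^(3:ℕ)*t2^(9:ℕ) + (20380529/3225600)*t^(4:ℕ)*t2^(8:ℕ) + (1404387253/92160000)*t^(5:ℕ)*t2^(7:ℕ) + (35809726877/1290240000)*t^(6:ℕ)*t2^(6:ℕ)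 + (16341950623/430080000)*t^(7:ℕ)*t2^(5:ℕ) + (12417230059/322560000)*t^(8:ℕ)*t2^(4:ℕ) + (13436857/480000)*t^(9:ℕ)*t2^(3:ℕ) + (159187681/11520000)*t^(10:ℕ)*t2^(2:ℕ) + (191336221/46080000)*t^(11:ℕ)*t2^(1:ℕ) + (7429823/12902400)*t^(12:ℕ) := by
    rw [ht2]; ring
  rw [e]
  positivity

lemma pos_cSMe_b6 (t : ℝ) (h3 : 0 ≤ t) (h4 : t ≤ 1) :
    0 ≤ (275137/43008000) + (23717/10752000)*t + (63251257/860160000)*t^(2:ℕ) + (6861611/122880000)*t^(3:ℕ) + (516725911/2150400000)*t^(4:ℕ) + (287463893/4300800000)*t^(5:ℕ) + (319239881/1433600000)*t^(6:ℕ) + (-4162261/716800000)*t^(7:ℕ) + (9647383/179200000)*t^(8:ℕ) + (-16999361/1075200000)*t^(9:ℕ) + (22675411/4300800000)*t^(10:ℕ) + (1377043/430080000)*t^(11:ℕ) + (-7063/24576000)*t^(12:ℕ)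 := by
  obtain ⟨t2, ht2⟩ : ∃ t2 : ℝ, t2 = 1 - t := ⟨_, rfl⟩
  have a4 : 0 ≤ t2 := by rw [ht2]; linarith
  have e : (275137/43008000) + (23717/10752000)*t + (63251257/860160000)*t^(2:ℕ) + (6861611/122880000)*t^(3:ℕ) + (516725911/2150400000)*t^(4:ℕ) + (287463893/4300800000)*t^(5:ℕ) + (319239881/1433600000)*t^(6:ℕ) + (-4162261/716800000)*t^(7:ℕ) + (9647383/179200000)*t^(8:ℕ) + (-16999361/1075200000)*t^(9:ℕ) + (22675411/4300800000)*t^(10:ℕ) + (1377043/430080000)*t^(11:ℕ) + (-7063/24576000)*t^(12:ℕ) = (275137/43008000)*t2^(12:ℕ) + (15163/192000)*t^(1:ℕ)*t2^(11:ℕ) + (149101019/286720000)*t^(2:ℕ)*t2^(10:ℕ) + (665167149/286720000)*t^(3:ℕ)*t2^(9:ℕ) + (8152748903/1075200000)*t^(4:ℕ)*t2^(8:ℕ) + (3812997949/204800000)*t^(5:ℕ)*t2^(7:ℕ)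 + (296598269/8601600)*t^(6:ℕ)*t2^(6:ℕ) + (205761428407/4300800000)*t^(7:ℕ)*t2^(5:ℕ) + (35049796277/716800000)*t^(8:ℕ)*t2^(4:ℕ) + (153439573351/4300800000)*t^(9:ℕ)*t2^(3:ℕ) + (7551219887/430080000)*t^(10:ℕ)*t2^(2:ℕ) + (3740179843/716800000)*t^(11:ℕ)*t2^(1:ℕ) + (507637421/716800000)*t^(12:ℕ) := by
    rw [ht2]; ring
  rw [e]
  positivity

lemma pos_cSMe_b7 (t : ℝ) (h3 : 0 ≤ t) (h4 : t ≤ 1) :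
    0 ≤ (180329/24576000) + (869/1228800)*t + (22995983/245760000)*t^(2:ℕ) + (15811007/245760000)*t^(3:ℕ) + (133902131/409600000)*t^(4:ℕ) + (15676547/245760000)*t^(5:ℕ) + (61170753/204800000)*t^(6:ℕ) + (-847153/25600000)*t^(7:ℕ) + (37941323/614400000)*t^(8:ℕ) + (-38282939/1228800000)*t^(9:ℕ) + (8301667/2457600000)*t^(10:ℕ) + (171807/81920000)*t^(11:ℕ) + (-6469/32768000)*t^(12:ℕ) := by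
  obtain ⟨t2, ht2⟩ : ∃ t2 : ℝ, t2 = 1 - t := ⟨_, rfl⟩
  have a4 : 0 ≤ t2 := by rw [ht2]; linarith
  have e : (180329/24576000) + (869/1228800)*t + (22995983/245760000)*t^(2:ℕ) + (15811007/245760000)*t^(3:ℕ) + (133902131/409600000)*t^(4:ℕ) + (15676547/245760000)*t^(5:ℕ) + (61170753/204800000)*t^(6:ℕ) + (-847153/25600000)*t^(7:ℕ) + (37941323/614400000)*t^(8:ℕ) + (-38282939/1228800000)*t^(9:ℕ) + (8301667/2457600000)*t^(10:ℕ) + (171807/81920000)*t^(11:ℕ) + (-6469/32768000)*t^(12:ℕ) = (180329/24576000)*t2^(12:ℕ) + (136333/1536000)*t^(1:ℕ)*t2^(11:ℕ) + (143924923/245760000)*t^(2:ℕ)*t2^(10:ℕ) + (652053637/245760000)*t^(3:ℕ)*t2^(9:ℕ) + (3631275211/409600000)*t^(4:ℕ)*t2^(8:ℕ) + (27363403339/1228800000)*t^(5:ℕ)*t2^(7:ℕ) +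 (51682565557/1228800000)*t^(6:ℕ)*t2^(6:ℕ) + (24260486199/409600000)*t^(7:ℕ)*t2^(5:ℕ) + (25032468747/409600000)*t^(8:ℕ)*t2^(4:ℕ) + (27501637519/614400000)*t^(9:ℕ)*t2^(3:ℕ) + (54000213593/2457600000)*t^(10:ℕ)*t2^(2:ℕ) + (7939772081/1228800000)*t^(11:ℕ)*t2^(1:ℕ) + (13180697/15360000)*t^(12:ℕ) := by
    rw [ht2]; ring
  rw [e]
  positivity

lemma pos_cSMe_b8 (t : ℝ) (h3 : 0 ≤ t) (h4 : t ≤ 1) :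
    0 ≤ (4963/614400) + (-3109/1843200)*t + (21762317/184320000)*t^(2:ℕ) + (13037071/184320000)*t^(3:ℕ) + (134593183/307200000)*t^(4:ℕ) + (32044063/614400000)*t^(5:ℕ) + (6046939/15360000)*t^(6:ℕ) + (-43271641/614400000)*t^(7:ℕ) + (3884891/57600000)*t^(8:ℕ) + (-45562801/921600000)*t^(9:ℕ) + (-51917/30720000)*t^(10:ℕ) + (6709/9216000)*t^(11:ℕ) + (-97/921600)*t^(12:ℕ) := by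
  obtain ⟨t2, ht2⟩ : ∃ t2 : ℝ, t2 = 1 - t := ⟨_, rfl⟩
  have a4 : 0 ≤ t2 := by rw [ht2]; linarith
  have e : (4963/614400) + (-3109/1843200)*t + (21762317/184320000)*t^(2:ℕ) + (13037071/184320000)*t^(3:ℕ) + (134593183/307200000)*t^(4:ℕ) + (32044063/614400000)*t^(5:ℕ) + (6046939/15360000)*t^(6:ℕ) + (-43271641/614400000)*t^(7:ℕ) + (3884891/57600000)*t^(8:ℕ) + (-45562801/921600000)*t^(9:ℕ) + (-51917/30720000)*t^(10:ℕ) + (6709/9216000)*t^(11:ℕ) + (-97/921600)*t^(12:ℕ) = (4963/614400)*t2^(12:ℕ) + (175559/1843200)*t^(1:ℕ)*t2^(11:ℕ) + (38869939/61440000)*t^(2:ℕ)*t2^(10:ℕ) + (541118741/184320000)*t^(3:ℕ)*t2^(9:ℕ) + (3105168023/307200000)*t^(4:ℕ)*t2^(8:ℕ) + (16043616311/614400000)*t^(5:ℕ)*t2^(7:ℕ) + (10331477343/204800000)*t^(6:ℕ)*t2^(6:ℕ)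 + (22181590819/307200000)*t^(7:ℕ)*t2^(5:ℕ) + (34681288933/460800000)*t^(8:ℕ)*t2^(4:ℕ) + (102037095959/1843200000)*t^(9:ℕ)*t2^(3:ℕ) + (49984246139/1843200000)*t^(10:ℕ)*t2^(2:ℕ) + (50524853/6400000)*t^(11:ℕ)*t2^(1:ℕ) + (945253307/921600000)*t^(12:ℕ) := by
    rw [ht2]; ring
  rw [e]
  positivity

lemma pos_cSMe_b9 (t : ℝ) (h3 : 0 ≤ t) (h4 : t ≤ 1) :
    0 ≤ (87/10240) + (-541/102400)*t + (1515377/10240000)*t^(2:ℕ) + (1497587/20480000)*t^(3:ℕ) + (9484709/16384000)*t^(4:ℕ) + (238443/8192000)*t^(5:ℕ) + (10444101/20480000)*t^(6:ℕ) + (-2427063/20480000)*t^(7:ℕ) + (1132249/16384000)*t^(8:ℕ) + (-2859767/40960000)*t^(9:ℕ) + (-97867/8192000)*t^(10:ℕ) + (-5/8192)*t^(11:ℕ) + (-3/81920)*t^(12:ℕ) := by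
  obtain ⟨t2, ht2⟩ : ∃ t2 : ℝ, t2 = 1 - t := ⟨_, rfl⟩
  have a4 : 0 ≤ t2 := by rw [ht2]; linarith
  have e : (87/10240) + (-541/102400)*t + (1515377/10240000)*t^(2:ℕ) + (1497587/20480000)*t^(3:ℕ) + (9484709/16384000)*t^(4:ℕ) + (238443/8192000)*t^(5:ℕ) + (10444101/20480000)*t^(6:ℕ) + (-2427063/20480000)*t^(7:ℕ) + (1132249/16384000)*t^(8:ℕ) + (-2859767/40960000)*t^(9:ℕ) + (-97867/8192000)*t^(10:ℕ) + (-5/8192)*t^(11:ℕ) + (-3/81920)*t^(12:ℕ) = (87/10240)*t2^(12:ℕ) + (9899/102400)*t^(1:ℕ)*t2^(11:ℕ) + (6662277/10240000)*t^(2:ℕ)*t2^(10:ℕ) + (64134127/20480000)*t^(3:ℕ)*t2^(9:ℕ) + (919980397/81920000)*t^(4:ℕ)*t2^(8:ℕ) + (1230297619/40960000)*t^(5:ℕ)*t2^(7:ℕ) + (2439249833/40960000)*t^(6:ℕ)*t2^(6:ℕ) + (3553902001/40960000)*t^(7:ℕ)*t2^(5:ℕ)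 + (7489182453/81920000)*t^(8:ℕ)*t2^(4:ℕ) + (345887733/5120000)*t^(9:ℕ)*t2^(3:ℕ) + (676661569/20480000)*t^(10:ℕ)*t2^(2:ℕ) + (48775629/5120000)*t^(11:ℕ)*t2^(1:ℕ) + (24790683/20480000)*t^(12:ℕ) := by
    rw [ht2]; ring
  rw [e]
  positivity

lemma pos_cSMe_b10 (t : ℝ) (h3 : 0 ≤ t) (h4 : t ≤ 1) :
    0 ≤ (27/3200) + (-67/6400)*t + (1889/10240)*t^(2:ℕ) + (1769/25600)*t^(3:ℕ) + (617913/819200)*t^(4:ℕ) + (-317/40960)*t^(5:ℕ) + (132849/204800)*t^(6:ℕ) + (-72443/409600)*t^(7:ℕ) + (52721/819200)*t^(8:ℕ) + (-37281/409600)*t^(9:ℕ) + (-2461/81920)*t^(10:ℕ) + (-3/2048)*t^(11:ℕ) := by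
  obtain ⟨t2, ht2⟩ : ∃ t2 : ℝ, t2 = 1 - t := ⟨_, rfl⟩
  have a4 : 0 ≤ t2 := by rw [ht2]; linarith
  have e : (27/3200) + (-67/6400)*t + (1889/10240)*t^(2:ℕ) + (1769/25600)*t^(3:ℕ) + (617913/819200)*t^(4:ℕ) + (-317/40960)*t^(5:ℕ) + (132849/204800)*t^(6:ℕ) + (-72443/409600)*t^(7:ℕ) + (52721/819200)*t^(8:ℕ) + (-37281/409600)*t^(9:ℕ) + (-2461/81920)*t^(10:ℕ) + (-3/2048)*t^(11:ℕ) = (27/3200)*t2^(12:ℕ) + (581/6400)*t^(1:ℕ)*t2^(11:ℕ) + (32061/51200)*t^(2:ℕ)*t2^(10:ℕ) + (40887/12800)*t^(3:ℕ)*t2^(9:ℕ) + (1986837/163840)*t^(4:ℕ)*t2^(8:ℕ) + (6938369/204800)*t^(5:ℕ)*t2^(7:ℕ) + (14175857/204800)*t^(6:ℕ)*t2^(6:ℕ) + (42120259/409600)*t^(7:ℕ)*t2^(5:ℕ) + (89790409/819200)*t^(8:ℕ)*t2^(4:ℕ) + (33345841/409600)*t^(9:ℕ)*t2^(3:ℕ) +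 (16290667/409600)*t^(10:ℕ)*t2^(2:ℕ) + (36363/3200)*t^(11:ℕ)*t2^(1:ℕ) + (72281/51200)*t^(12:ℕ) := by
    rw [ht2]; ring
  rw [e]
  positivity

lemma pos_cSMe_id (d C0 C1 C2 C3 C4 C5 C6 C7 C8 C9 C10 : ℝ) (h1 : 0 ≤ d) (h2 : d ≤ (1/2))
    (b0 : 0 ≤ 1*C0 - (1/512))
    (b1 : 0 ≤ 1*C0 + (1/20)*C1 - (1/512))
    (b2 : 0 ≤ 1*C0 + (1/10)*C1 + (1/180)*C2 - (1/512))
    (b3 : 0 ≤ 1*C0 + (3/20)*C1 + (1/60)*C2 + (1/960)*C3 - (1/512))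
    (b4 : 0 ≤ 1*C0 + (1/5)*C1 + (1/30)*C2 + (1/240)*C3 + (1/3360)*C4 - (1/512))
    (b5 : 0 ≤ 1*C0 + (1/4)*C1 + (1/18)*C2 + (1/96)*C3 + (1/672)*C4 + (1/8064)*C5 - (1/512))
    (b6 : 0 ≤ 1*C0 + (3/10)*C1 + (1/12)*C2 + (1/48)*C3 + (1/224)*C4 + (1/1344)*C5 + (1/13440)*C6 - (1/512))
    (b7 : 0 ≤ 1*C0 + (7/20)*C1 + (7/60)*C2 + (7/192)*C3 + (1/96)*C4 + (1/384)*C5 + (1/1920)*C6 + (1/15360)*C7 - (1/512))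
    (b8 : 0 ≤ 1*C0 + (2/5)*C1 + (7/45)*C2 + (7/120)*C3 + (1/48)*C4 + (1/144)*C5 + (1/480)*C6 + (1/1920)*C7 + (1/11520)*C8 - (1/512))
    (b9 : 0 ≤ 1*C0 + (9/20)*C1 + (1/5)*C2 + (7/80)*C3 + (3/80)*C4 + (1/64)*C5 + (1/160)*C6 + (3/1280)*C7 + (1/1280)*C8 + (1/5120)*C9 - (1/512))
    (b10 : 0 ≤ 1*C0 + (1/2)*C1 + (1/4)*C2 + (1/8)*C3 + (1/16)*C4 + (1/32)*C5 + (1/64)*C6 + (1/128)*C7 + (1/256)*C8 + (1/512)*C9 + (1/1024)*C10 - (1/512))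
    : 0 < C0 + d*C1 + d^(2:ℕ)*C2 + d^(3:ℕ)*C3 + d^(4:ℕ)*C4 + d^(5:ℕ)*C5 + d^(6:ℕ)*C6 + d^(7:ℕ)*C7 + d^(8:ℕ)*C8 + d^(9:ℕ)*C9 + d^(10:ℕ)*C10 := by
  obtain ⟨d2, hd2⟩ : ∃ d2 : ℝ, d2 = (1/2) - d := ⟨_, rfl⟩
  have a2 : 0 ≤ d2 := by rw [hd2]; linarith
  obtain ⟨B0, hB0⟩ : ∃ B : ℝ, B = 1*C0 - (1/512) := ⟨_, rfl⟩
  rw [← hB0] at b0
  obtain ⟨B1, hB1⟩ : ∃ B : ℝ, B = 1*C0 + (1/20)*C1 - (1/512) := ⟨_, rfl⟩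
  rw [← hB1] at b1
  obtain ⟨B2, hB2⟩ : ∃ B : ℝ, B = 1*C0 + (1/10)*C1 + (1/180)*C2 - (1/512) := ⟨_, rfl⟩
  rw [← hB2] at b2
  obtain ⟨B3, hB3⟩ : ∃ B : ℝ, B = 1*C0 + (3/20)*C1 + (1/60)*C2 + (1/960)*C3 - (1/512) := ⟨_, rfl⟩
  rw [← hB3] at b3
  obtain ⟨B4, hB4⟩ : ∃ B : ℝ, B = 1*C0 + (1/5)*C1 + (1/30)*C2 + (1/240)*C3 + (1/3360)*C4 - (1/512) := ⟨_, rfl⟩
  rw [← hB4] at b4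
  obtain ⟨B5, hB5⟩ : ∃ B : ℝ, B = 1*C0 + (1/4)*C1 + (1/18)*C2 + (1/96)*C3 + (1/672)*C4 + (1/8064)*C5 - (1/512) := ⟨_, rfl⟩
  rw [← hB5] at b5
  obtain ⟨B6, hB6⟩ : ∃ B : ℝ, B = 1*C0 + (3/10)*C1 + (1/12)*C2 + (1/48)*C3 + (1/224)*C4 + (1/1344)*C5 + (1/13440)*C6 - (1/512) := ⟨_, rfl⟩
  rw [← hB6] at b6
  obtain ⟨B7, hB7⟩ : ∃ B : ℝ, B = 1*C0 + (7/20)*C1 + (7/60)*C2 + (7/192)*C3 + (1/96)*C4 + (1/384)*C5 + (1/1920)*C6 + (1/15360)*C7 - (1/512) := ⟨_, rfl⟩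
  rw [← hB7] at b7
  obtain ⟨B8, hB8⟩ : ∃ B : ℝ, B = 1*C0 + (2/5)*C1 + (7/45)*C2 + (7/120)*C3 + (1/48)*C4 + (1/144)*C5 + (1/480)*C6 + (1/1920)*C7 + (1/11520)*C8 - (1/512) := ⟨_, rfl⟩
  rw [← hB8] at b8
  obtain ⟨B9, hB9⟩ : ∃ B : ℝ, B = 1*C0 + (9/20)*C1 + (1/5)*C2 + (7/80)*C3 + (3/80)*C4 + (1/64)*C5 + (1/160)*C6 + (3/1280)*C7 + (1/1280)*C8 + (1/5120)*C9 - (1/512) := ⟨_, rfl⟩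
  rw [← hB9] at b9
  obtain ⟨B10, hB10⟩ : ∃ B : ℝ, B = 1*C0 + (1/2)*C1 + (1/4)*C2 + (1/8)*C3 + (1/16)*C4 + (1/32)*C5 + (1/64)*C6 + (1/128)*C7 + (1/256)*C8 + (1/512)*C9 + (1/1024)*C10 - (1/512) := ⟨_, rfl⟩
  rw [← hB10] at b10
  have e : C0 + d*C1 + d^(2:ℕ)*C2 + d^(3:ℕ)*C3 + d^(4:ℕ)*C4 + d^(5:ℕ)*C5 + d^(6:ℕ)*C6 + d^(7:ℕ)*C7 + d^(8:ℕ)*C8 + d^(9:ℕ)*C9 + d^(10:ℕ)*C10 = (1/512) + (1024*d2^(10:ℕ)*B0 + 10240*d^(1:ℕ)*d2^(9:ℕ)*B1 + 46080*d^(2:ℕ)*d2^(8:ℕ)*B2 + 122880*d^(3:ℕ)*d2^(7:ℕ)*B3 + 215040*d^(4:ℕ)*d2^(6:ℕ)*B4 + 258048*d^(5:ℕ)*d2^(5:ℕ)*B5 + 215040*d^(6:ℕ)*d2^(4:ℕ)*B6 + 122880*d^(7:ℕ)*d2^(3:ℕ)*B7 + 46080*d^(8:ℕ)*d2^(2:ℕ)*B8 + 10240*d^(9:ℕ)*d2^(1:ℕ)*B9 + 1024*d^(10:ℕ)*B10) := by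
    rw [hB0, hB1, hB2, hB3, hB4, hB5, hB6, hB7, hB8, hB9, hB10, hd2]; ring
  rw [e]
  positivity

lemma pos_cSMe (d t : ℝ) (h1 : 0 ≤ d) (h2 : d ≤ (1/2)) (h3 : 0 ≤ t) (h4 : t ≤ 1) :
    0 < (31/12800) + (17/6400)*t + (151/12800)*t^(2:ℕ) + (43/3200)*t^(3:ℕ) + (29/1280)*t^(4:ℕ) + (87/3200)*t^(5:ℕ) + (27/1280)*t^(6:ℕ) + (11/400)*t^(7:ℕ) + (23/2560)*t^(8:ℕ) + (89/6400)*t^(9:ℕ) + (11/12800)*t^(10:ℕ) + (9/3200)*t^(11:ℕ) + (-1/3200)*t^(12:ℕ) + (209/12800)*d + (47/6400)*d*t + (281/2560)*d*t^(2:ℕ) + (67/800)*d*t^(3:ℕ) + (1859/6400)*d*t^(4:ℕ) + (431/3200)*d*t^(5:ℕ) + (1817/6400)*d*t^(6:ℕ) + (47/800)*d*t^(7:ℕ) + (1317/12800)*d*t^(8:ℕ) + (3/256)*d*t^(9:ℕ) + (193/12800)*d*t^(10:ℕ) + (9/800)*d*t^(11:ℕ) + (-3/3200)*d*t^(12:ℕ)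 + (951/51200)*d^(2:ℕ) + (-331/25600)*d^(2:ℕ)*t + (13711/51200)*d^(2:ℕ)*t^(2:ℕ) + (14341/64000)*d^(2:ℕ)*t^(3:ℕ) + (133669/128000)*d^(2:ℕ)*t^(4:ℕ) + (11247/64000)*d^(2:ℕ)*t^(5:ℕ) + (124467/128000)*d^(2:ℕ)*t^(6:ℕ) + (-41/128)*d^(2:ℕ)*t^(7:ℕ) + (53159/256000)*d^(2:ℕ)*t^(8:ℕ) + (-35119/128000)*d^(2:ℕ)*t^(9:ℕ) + (8383/256000)*d^(2:ℕ)*t^(10:ℕ) + (-981/64000)*d^(2:ℕ)*t^(11:ℕ) + (31/12800)*d^(2:ℕ)*t^(12:ℕ) + (-91/5120)*d^(3:ℕ) + (-189/3200)*d^(3:ℕ)*t + (33479/128000)*d^(3:ℕ)*t^(2:ℕ) + (1081/16000)*d^(3:ℕ)*t^(3:ℕ) + (110949/64000)*d^(3:ℕ)*t^(4:ℕ) + (-13913/32000)*d^(3:ℕ)*t^(5:ℕ) + (93141/64000)*d^(3:ℕ)*t^(6:ℕ) + (-32537/32000)*d^(3:ℕ)*t^(7:ℕ) + (-7139/128000)*d^(3:ℕ)*t^(8:ℕ) + (-17117/32000)*d^(3:ℕ)*t^(9:ℕ) + (-6577/128000)*d^(3:ℕ)*t^(10:ℕ)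 + (-509/6400)*d^(3:ℕ)*t^(11:ℕ) + (7/1280)*d^(3:ℕ)*t^(12:ℕ) + (-47/1600)*d^(4:ℕ) + (-877/12800)*d^(4:ℕ)*t + (13241/64000)*d^(4:ℕ)*t^(2:ℕ) + (-34463/64000)*d^(4:ℕ)*t^(3:ℕ) + (99681/64000)*d^(4:ℕ)*t^(4:ℕ) + (-21063/16000)*d^(4:ℕ)*t^(5:ℕ) + (357629/320000)*d^(4:ℕ)*t^(6:ℕ) + (-1461/2000)*d^(4:ℕ)*t^(7:ℕ) + (-133247/320000)*d^(4:ℕ)*t^(8:ℕ) + (5329/64000)*d^(4:ℕ)*t^(9:ℕ) + (-48343/160000)*d^(4:ℕ)*t^(10:ℕ) + (-2093/64000)*d^(4:ℕ)*t^(11:ℕ) + (3/6400)*d^(4:ℕ)*t^(12:ℕ) + (-27/1280)*d^(5:ℕ) + (-33/640)*d^(5:ℕ)*t + (503/3200)*d^(5:ℕ)*t^(2:ℕ) + (-3391/6400)*d^(5:ℕ)*t^(3:ℕ) + (2259/4000)*d^(5:ℕ)*t^(4:ℕ) + (-53329/80000)*d^(5:ℕ)*t^(5:ℕ) + (25949/160000)*d^(5:ℕ)*t^(6:ℕ) + (34659/160000)*d^(5:ℕ)*t^(7:ℕ) + (-61437/160000)*d^(5:ℕ)*t^(8:ℕ)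 + (41241/80000)*d^(5:ℕ)*t^(9:ℕ) + (-84861/160000)*d^(5:ℕ)*t^(10:ℕ) + (1769/16000)*d^(5:ℕ)*t^(11:ℕ) + (-9/640)*d^(5:ℕ)*t^(12:ℕ) + (-1/128)*d^(6:ℕ) + (-59/3200)*d^(6:ℕ)*t + (1737/64000)*d^(6:ℕ)*t^(2:ℕ) + (-4403/64000)*d^(6:ℕ)*t^(3:ℕ) + (-37939/160000)*d^(6:ℕ)*t^(4:ℕ) + (138653/320000)*d^(6:ℕ)*t^(5:ℕ) + (-189277/320000)*d^(6:ℕ)*t^(6:ℕ) + (94427/160000)*d^(6:ℕ)*t^(7:ℕ) + (-14537/80000)*d^(6:ℕ)*t^(8:ℕ) + (10877/40000)*d^(6:ℕ)*t^(9:ℕ) + (-108909/320000)*d^(6:ℕ)*t^(10:ℕ) + (5293/32000)*d^(6:ℕ)*t^(11:ℕ) + (-177/12800)*d^(6:ℕ)*t^(12:ℕ) + (-221/16000)*d^(7:ℕ)*t^(2:ℕ) + (213/3200)*d^(7:ℕ)*t^(3:ℕ) + (-23631/80000)*d^(7:ℕ)*t^(4:ℕ) + (39509/80000)*d^(7:ℕ)*t^(5:ℕ) + (-5651/10000)*d^(7:ℕ)*t^(6:ℕ) + (899/2500)*d^(7:ℕ)*t^(7:ℕ) +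 (-1007/20000)*d^(7:ℕ)*t^(8:ℕ) + (-3331/80000)*d^(7:ℕ)*t^(9:ℕ) + (-37/160000)*d^(7:ℕ)*t^(10:ℕ) + (417/16000)*d^(7:ℕ)*t^(11:ℕ) + (21/6400)*d^(7:ℕ)*t^(12:ℕ) + (-7/3200)*d^(8:ℕ)*t^(2:ℕ) + (359/16000)*d^(8:ℕ)*t^(3:ℕ) + (-6937/80000)*d^(8:ℕ)*t^(4:ℕ) + (4961/32000)*d^(8:ℕ)*t^(5:ℕ) + (-1313/8000)*d^(8:ℕ)*t^(6:ℕ) + (13213/160000)*d^(8:ℕ)*t^(7:ℕ) + (419/10000)*d^(8:ℕ)*t^(8:ℕ) + (-9051/80000)*d^(8:ℕ)*t^(9:ℕ) + (1823/16000)*d^(8:ℕ)*t^(10:ℕ) + (-101/1600)*d^(8:ℕ)*t^(11:ℕ) + (11/640)*d^(8:ℕ)*t^(12:ℕ) + (9/4000)*d^(9:ℕ)*t^(3:ℕ) + (-571/80000)*d^(9:ℕ)*t^(4:ℕ) + (101/10000)*d^(9:ℕ)*t^(5:ℕ) + (-17/4000)*d^(9:ℕ)*t^(6:ℕ) + (-487/40000)*d^(9:ℕ)*t^(7:ℕ) + (2913/80000)*d^(9:ℕ)*t^(8:ℕ) + (-2331/40000)*d^(9:ℕ)*t^(9:ℕ) + (1213/20000)*d^(9:ℕ)*t^(10:ℕ)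 + (-153/4000)*d^(9:ℕ)*t^(11:ℕ) + (19/1600)*d^(9:ℕ)*t^(12:ℕ) + (3/8000)*d^(10:ℕ)*t^(4:ℕ) + (-51/40000)*d^(10:ℕ)*t^(5:ℕ) + (61/20000)*d^(10:ℕ)*t^(6:ℕ) + (-191/40000)*d^(10:ℕ)*t^(7:ℕ) + (313/40000)*d^(10:ℕ)*t^(8:ℕ) + (-21/2000)*d^(10:ℕ)*t^(9:ℕ) + (223/20000)*d^(10:ℕ)*t^(10:ℕ) + (-7/1000)*d^(10:ℕ)*t^(11:ℕ) + (1/400)*d^(10:ℕ)*t^(12:ℕ) := by
  have e0 : (31/12800) + (17/6400)*t + (151/12800)*t^(2:ℕ) + (43/3200)*t^(3:ℕ) + (29/1280)*t^(4:ℕ) + (87/3200)*t^(5:ℕ) + (27/1280)*t^(6:ℕ) + (11/400)*t^(7:ℕ) + (23/2560)*t^(8:ℕ) + (89/6400)*t^(9:ℕ) + (11/12800)*t^(10:ℕ) + (9/3200)*t^(11:ℕ) + (-1/3200)*t^(12:ℕ) + (209/12800)*d + (47/6400)*d*t + (281/2560)*d*t^(2:ℕ) + (67/800)*d*t^(3:ℕ) + (1859/6400)*d*t^(4:ℕ) + (431/3200)*d*t^(5:ℕ)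 + (1817/6400)*d*t^(6:ℕ) + (47/800)*d*t^(7:ℕ) + (1317/12800)*d*t^(8:ℕ) + (3/256)*d*t^(9:ℕ) + (193/12800)*d*t^(10:ℕ) + (9/800)*d*t^(11:ℕ) + (-3/3200)*d*t^(12:ℕ) + (951/51200)*d^(2:ℕ) + (-331/25600)*d^(2:ℕ)*t + (13711/51200)*d^(2:ℕ)*t^(2:ℕ) + (14341/64000)*d^(2:ℕ)*t^(3:ℕ) + (133669/128000)*d^(2:ℕ)*t^(4:ℕ) + (11247/64000)*d^(2:ℕ)*t^(5:ℕ) + (124467/128000)*d^(2:ℕ)*t^(6:ℕ) + (-41/128)*d^(2:ℕ)*t^(7:ℕ) + (53159/256000)*d^(2:ℕ)*t^(8:ℕ) + (-35119/128000)*d^(2:ℕ)*t^(9:ℕ) + (8383/256000)*d^(2:ℕ)*t^(10:ℕ) + (-981/64000)*d^(2:ℕ)*t^(11:ℕ) + (31/12800)*d^(2:ℕ)*t^(12:ℕ) + (-91/5120)*d^(3:ℕ) + (-189/3200)*d^(3:ℕ)*t + (33479/128000)*d^(3:ℕ)*t^(2:ℕ) + (1081/16000)*d^(3:ℕ)*t^(3:ℕ) + (110949/64000)*d^(3:ℕ)*t^(4:ℕ) + (-13913/32000)*d^(3:ℕ)*t^(5:ℕ)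 + (93141/64000)*d^(3:ℕ)*t^(6:ℕ) + (-32537/32000)*d^(3:ℕ)*t^(7:ℕ) + (-7139/128000)*d^(3:ℕ)*t^(8:ℕ) + (-17117/32000)*d^(3:ℕ)*t^(9:ℕ) + (-6577/128000)*d^(3:ℕ)*t^(10:ℕ) + (-509/6400)*d^(3:ℕ)*t^(11:ℕ) + (7/1280)*d^(3:ℕ)*t^(12:ℕ) + (-47/1600)*d^(4:ℕ) + (-877/12800)*d^(4:ℕ)*t + (13241/64000)*d^(4:ℕ)*t^(2:ℕ) + (-34463/64000)*d^(4:ℕ)*t^(3:ℕ) + (99681/64000)*d^(4:ℕ)*t^(4:ℕ) + (-21063/16000)*d^(4:ℕ)*t^(5:ℕ) + (357629/320000)*d^(4:ℕ)*t^(6:ℕ) + (-1461/2000)*d^(4:ℕ)*t^(7:ℕ) + (-133247/320000)*d^(4:ℕ)*t^(8:ℕ) + (5329/64000)*d^(4:ℕ)*t^(9:ℕ) + (-48343/160000)*d^(4:ℕ)*t^(10:ℕ) + (-2093/64000)*d^(4:ℕ)*t^(11:ℕ) + (3/6400)*d^(4:ℕ)*t^(12:ℕ) + (-27/1280)*d^(5:ℕ) + (-33/640)*d^(5:ℕ)*t + (503/3200)*d^(5:ℕ)*t^(2:ℕ) + (-3391/6400)*d^(5:ℕ)*t^(3:ℕ)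 + (2259/4000)*d^(5:ℕ)*t^(4:ℕ) + (-53329/80000)*d^(5:ℕ)*t^(5:ℕ) + (25949/160000)*d^(5:ℕ)*t^(6:ℕ) + (34659/160000)*d^(5:ℕ)*t^(7:ℕ) + (-61437/160000)*d^(5:ℕ)*t^(8:ℕ) + (41241/80000)*d^(5:ℕ)*t^(9:ℕ) + (-84861/160000)*d^(5:ℕ)*t^(10:ℕ) + (1769/16000)*d^(5:ℕ)*t^(11:ℕ) + (-9/640)*d^(5:ℕ)*t^(12:ℕ) + (-1/128)*d^(6:ℕ) + (-59/3200)*d^(6:ℕ)*t + (1737/64000)*d^(6:ℕ)*t^(2:ℕ) + (-4403/64000)*d^(6:ℕ)*t^(3:ℕ) + (-37939/160000)*d^(6:ℕ)*t^(4:ℕ) + (138653/320000)*d^(6:ℕ)*t^(5:ℕ) + (-189277/320000)*d^(6:ℕ)*t^(6:ℕ) + (94427/160000)*d^(6:ℕ)*t^(7:ℕ) + (-14537/80000)*d^(6:ℕ)*t^(8:ℕ) + (10877/40000)*d^(6:ℕ)*t^(9:ℕ) + (-108909/320000)*d^(6:ℕ)*t^(10:ℕ) + (5293/32000)*d^(6:ℕ)*t^(11:ℕ) + (-177/12800)*d^(6:ℕ)*t^(12:ℕ) + (-221/16000)*d^(7:ℕ)*t^(2:ℕ)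 + (213/3200)*d^(7:ℕ)*t^(3:ℕ) + (-23631/80000)*d^(7:ℕ)*t^(4:ℕ) + (39509/80000)*d^(7:ℕ)*t^(5:ℕ) + (-5651/10000)*d^(7:ℕ)*t^(6:ℕ) + (899/2500)*d^(7:ℕ)*t^(7:ℕ) + (-1007/20000)*d^(7:ℕ)*t^(8:ℕ) + (-3331/80000)*d^(7:ℕ)*t^(9:ℕ) + (-37/160000)*d^(7:ℕ)*t^(10:ℕ) + (417/16000)*d^(7:ℕ)*t^(11:ℕ) + (21/6400)*d^(7:ℕ)*t^(12:ℕ) + (-7/3200)*d^(8:ℕ)*t^(2:ℕ) + (359/16000)*d^(8:ℕ)*t^(3:ℕ) + (-6937/80000)*d^(8:ℕ)*t^(4:ℕ) + (4961/32000)*d^(8:ℕ)*t^(5:ℕ) + (-1313/8000)*d^(8:ℕ)*t^(6:ℕ) + (13213/160000)*d^(8:ℕ)*t^(7:ℕ) + (419/10000)*d^(8:ℕ)*t^(8:ℕ) + (-9051/80000)*d^(8:ℕ)*t^(9:ℕ) + (1823/16000)*d^(8:ℕ)*t^(10:ℕ) + (-101/1600)*d^(8:ℕ)*t^(11:ℕ) + (11/640)*d^(8:ℕ)*t^(12:ℕ) + (9/4000)*d^(9:ℕ)*t^(3:ℕ) + (-571/80000)*d^(9:ℕ)*t^(4:ℕ) + (101/10000)*d^(9:ℕ)*t^(5:ℕ)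 + (-17/4000)*d^(9:ℕ)*t^(6:ℕ) + (-487/40000)*d^(9:ℕ)*t^(7:ℕ) + (2913/80000)*d^(9:ℕ)*t^(8:ℕ) + (-2331/40000)*d^(9:ℕ)*t^(9:ℕ) + (1213/20000)*d^(9:ℕ)*t^(10:ℕ) + (-153/4000)*d^(9:ℕ)*t^(11:ℕ) + (19/1600)*d^(9:ℕ)*t^(12:ℕ) + (3/8000)*d^(10:ℕ)*t^(4:ℕ) + (-51/40000)*d^(10:ℕ)*t^(5:ℕ) + (61/20000)*d^(10:ℕ)*t^(6:ℕ) + (-191/40000)*d^(10:ℕ)*t^(7:ℕ) + (313/40000)*d^(10:ℕ)*t^(8:ℕ) + (-21/2000)*d^(10:ℕ)*t^(9:ℕ) + (223/20000)*d^(10:ℕ)*t^(10:ℕ) + (-7/1000)*d^(10:ℕ)*t^(11:ℕ) + (1/400)*d^(10:ℕ)*t^(12:ℕ) = ((31/12800) + (17/6400)*t + (151/12800)*t^(2:ℕ) + (43/3200)*t^(3:ℕ) + (29/1280)*t^(4:ℕ) + (87/3200)*t^(5:ℕ) + (27/1280)*t^(6:ℕ) + (11/400)*t^(7:ℕ) + (23/2560)*t^(8:ℕ) + (89/6400)*t^(9:ℕ) + (11/12800)*t^(10:ℕ) + (9/3200)*t^(11:ℕ) +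 (-1/3200)*t^(12:ℕ)) + d*((209/12800) + (47/6400)*t + (281/2560)*t^(2:ℕ) + (67/800)*t^(3:ℕ) + (1859/6400)*t^(4:ℕ) + (431/3200)*t^(5:ℕ) + (1817/6400)*t^(6:ℕ) + (47/800)*t^(7:ℕ) + (1317/12800)*t^(8:ℕ) + (3/256)*t^(9:ℕ) + (193/12800)*t^(10:ℕ) + (9/800)*t^(11:ℕ) + (-3/3200)*t^(12:ℕ)) + d^(2:ℕ)*((951/51200) + (-331/25600)*t + (13711/51200)*t^(2:ℕ) + (14341/64000)*t^(3:ℕ) + (133669/128000)*t^(4:ℕ) + (11247/64000)*t^(5:ℕ) + (124467/128000)*t^(6:ℕ) + (-41/128)*t^(7:ℕ) + (53159/256000)*t^(8:ℕ) + (-35119/128000)*t^(9:ℕ) + (8383/256000)*t^(10:ℕ) + (-981/64000)*t^(11:ℕ) + (31/12800)*t^(12:ℕ)) + d^(3:ℕ)*((-91/5120) + (-189/3200)*t + (33479/128000)*t^(2:ℕ) + (1081/16000)*t^(3:ℕ) + (110949/64000)*t^(4:ℕ) + (-13913/32000)*t^(5:ℕ)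 + (93141/64000)*t^(6:ℕ) + (-32537/32000)*t^(7:ℕ) + (-7139/128000)*t^(8:ℕ) + (-17117/32000)*t^(9:ℕ) + (-6577/128000)*t^(10:ℕ) + (-509/6400)*t^(11:ℕ) + (7/1280)*t^(12:ℕ)) + d^(4:ℕ)*((-47/1600) + (-877/12800)*t + (13241/64000)*t^(2:ℕ) + (-34463/64000)*t^(3:ℕ) + (99681/64000)*t^(4:ℕ) + (-21063/16000)*t^(5:ℕ) + (357629/320000)*t^(6:ℕ) + (-1461/2000)*t^(7:ℕ) + (-133247/320000)*t^(8:ℕ) + (5329/64000)*t^(9:ℕ) + (-48343/160000)*t^(10:ℕ) + (-2093/64000)*t^(11:ℕ) + (3/6400)*t^(12:ℕ)) + d^(5:ℕ)*((-27/1280) + (-33/640)*t + (503/3200)*t^(2:ℕ) + (-3391/6400)*t^(3:ℕ) + (2259/4000)*t^(4:ℕ) + (-53329/80000)*t^(5:ℕ) + (25949/160000)*t^(6:ℕ) + (34659/160000)*t^(7:ℕ) + (-61437/160000)*t^(8:ℕ) + (41241/80000)*t^(9:ℕ) + (-84861/160000)*t^(10:ℕ)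 + (1769/16000)*t^(11:ℕ) + (-9/640)*t^(12:ℕ)) + d^(6:ℕ)*((-1/128) + (-59/3200)*t + (1737/64000)*t^(2:ℕ) + (-4403/64000)*t^(3:ℕ) + (-37939/160000)*t^(4:ℕ) + (138653/320000)*t^(5:ℕ) + (-189277/320000)*t^(6:ℕ) + (94427/160000)*t^(7:ℕ) + (-14537/80000)*t^(8:ℕ) + (10877/40000)*t^(9:ℕ) + (-108909/320000)*t^(10:ℕ) + (5293/32000)*t^(11:ℕ) + (-177/12800)*t^(12:ℕ)) + d^(7:ℕ)*((-221/16000)*t^(2:ℕ) + (213/3200)*t^(3:ℕ) + (-23631/80000)*t^(4:ℕ) + (39509/80000)*t^(5:ℕ) + (-5651/10000)*t^(6:ℕ) + (899/2500)*t^(7:ℕ) + (-1007/20000)*t^(8:ℕ) + (-3331/80000)*t^(9:ℕ) + (-37/160000)*t^(10:ℕ) + (417/16000)*t^(11:ℕ) + (21/6400)*t^(12:ℕ)) + d^(8:ℕ)*((-7/3200)*t^(2:ℕ) + (359/16000)*t^(3:ℕ) + (-6937/80000)*t^(4:ℕ) + (4961/32000)*t^(5:ℕ) +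 (-1313/8000)*t^(6:ℕ) + (13213/160000)*t^(7:ℕ) + (419/10000)*t^(8:ℕ) + (-9051/80000)*t^(9:ℕ) + (1823/16000)*t^(10:ℕ) + (-101/1600)*t^(11:ℕ) + (11/640)*t^(12:ℕ)) + d^(9:ℕ)*((9/4000)*t^(3:ℕ) + (-571/80000)*t^(4:ℕ) + (101/10000)*t^(5:ℕ) + (-17/4000)*t^(6:ℕ) + (-487/40000)*t^(7:ℕ) + (2913/80000)*t^(8:ℕ) + (-2331/40000)*t^(9:ℕ) + (1213/20000)*t^(10:ℕ) + (-153/4000)*t^(11:ℕ) + (19/1600)*t^(12:ℕ)) + d^(10:ℕ)*((3/8000)*t^(4:ℕ) + (-51/40000)*t^(5:ℕ) + (61/20000)*t^(6:ℕ) + (-191/40000)*t^(7:ℕ) + (313/40000)*t^(8:ℕ) + (-21/2000)*t^(9:ℕ) + (223/20000)*t^(10:ℕ) + (-7/1000)*t^(11:ℕ) + (1/400)*t^(12:ℕ)) := by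
    ring
  rw [e0]
  exact pos_cSMe_id d ((31/12800) + (17/6400)*t + (151/12800)*t^(2:ℕ) + (43/3200)*t^(3:ℕ) + (29/1280)*t^(4:ℕ) + (87/3200)*t^(5:ℕ) + (27/1280)*t^(6:ℕ) + (11/400)*t^(7:ℕ) + (23/2560)*t^(8:ℕ) + (89/6400)*t^(9:ℕ) + (11/12800)*t^(10:ℕ) + (9/3200)*t^(11:ℕ) + (-1/3200)*t^(12:ℕ)) ((209/12800) + (47/6400)*t + (281/2560)*t^(2:ℕ) + (67/800)*t^(3:ℕ) + (1859/6400)*t^(4:ℕ) + (431/3200)*t^(5:ℕ) + (1817/6400)*t^(6:ℕ) + (47/800)*t^(7:ℕ) + (1317/12800)*t^(8:ℕ) + (3/256)*t^(9:ℕ) + (193/12800)*t^(10:ℕ) + (9/800)*t^(11:ℕ) + (-3/3200)*t^(12:ℕ)) ((951/51200) + (-331/25600)*t + (13711/51200)*t^(2:ℕ) + (14341/64000)*t^(3:ℕ) + (133669/128000)*t^(4:ℕ) + (11247/64000)*t^(5:ℕ) + (124467/128000)*t^(6:ℕ) + (-41/128)*t^(7:ℕ)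 + (53159/256000)*t^(8:ℕ) + (-35119/128000)*t^(9:ℕ) + (8383/256000)*t^(10:ℕ) + (-981/64000)*t^(11:ℕ) + (31/12800)*t^(12:ℕ)) ((-91/5120) + (-189/3200)*t + (33479/128000)*t^(2:ℕ) + (1081/16000)*t^(3:ℕ) + (110949/64000)*t^(4:ℕ) + (-13913/32000)*t^(5:ℕ) + (93141/64000)*t^(6:ℕ) + (-32537/32000)*t^(7:ℕ) + (-7139/128000)*t^(8:ℕ) + (-17117/32000)*t^(9:ℕ) + (-6577/128000)*t^(10:ℕ) + (-509/6400)*t^(11:ℕ) + (7/1280)*t^(12:ℕ)) ((-47/1600) + (-877/12800)*t + (13241/64000)*t^(2:ℕ) + (-34463/64000)*t^(3:ℕ) + (99681/64000)*t^(4:ℕ) + (-21063/16000)*t^(5:ℕ) + (357629/320000)*t^(6:ℕ) + (-1461/2000)*t^(7:ℕ) + (-133247/320000)*t^(8:ℕ) + (5329/64000)*t^(9:ℕ) + (-48343/160000)*t^(10:ℕ) + (-2093/64000)*t^(11:ℕ) + (3/6400)*t^(12:ℕ)) ((-27/1280)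 + (-33/640)*t + (503/3200)*t^(2:ℕ) + (-3391/6400)*t^(3:ℕ) + (2259/4000)*t^(4:ℕ) + (-53329/80000)*t^(5:ℕ) + (25949/160000)*t^(6:ℕ) + (34659/160000)*t^(7:ℕ) + (-61437/160000)*t^(8:ℕ) + (41241/80000)*t^(9:ℕ) + (-84861/160000)*t^(10:ℕ) + (1769/16000)*t^(11:ℕ) + (-9/640)*t^(12:ℕ)) ((-1/128) + (-59/3200)*t + (1737/64000)*t^(2:ℕ) + (-4403/64000)*t^(3:ℕ) + (-37939/160000)*t^(4:ℕ) + (138653/320000)*t^(5:ℕ) + (-189277/320000)*t^(6:ℕ) + (94427/160000)*t^(7:ℕ) + (-14537/80000)*t^(8:ℕ) + (10877/40000)*t^(9:ℕ) + (-108909/320000)*t^(10:ℕ) + (5293/32000)*t^(11:ℕ) + (-177/12800)*t^(12:ℕ)) ((-221/16000)*t^(2:ℕ) + (213/3200)*t^(3:ℕ) + (-23631/80000)*t^(4:ℕ) + (39509/80000)*t^(5:ℕ) + (-5651/10000)*t^(6:ℕ) + (899/2500)*t^(7:ℕ) + (-1007/20000)*t^(8:ℕ)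 + (-3331/80000)*t^(9:ℕ) + (-37/160000)*t^(10:ℕ) + (417/16000)*t^(11:ℕ) + (21/6400)*t^(12:ℕ)) ((-7/3200)*t^(2:ℕ) + (359/16000)*t^(3:ℕ) + (-6937/80000)*t^(4:ℕ) + (4961/32000)*t^(5:ℕ) + (-1313/8000)*t^(6:ℕ) + (13213/160000)*t^(7:ℕ) + (419/10000)*t^(8:ℕ) + (-9051/80000)*t^(9:ℕ) + (1823/16000)*t^(10:ℕ) + (-101/1600)*t^(11:ℕ) + (11/640)*t^(12:ℕ)) ((9/4000)*t^(3:ℕ) + (-571/80000)*t^(4:ℕ) + (101/10000)*t^(5:ℕ) + (-17/4000)*t^(6:ℕ) + (-487/40000)*t^(7:ℕ) + (2913/80000)*t^(8:ℕ) + (-2331/40000)*t^(9:ℕ) + (1213/20000)*t^(10:ℕ) + (-153/4000)*t^(11:ℕ) + (19/1600)*t^(12:ℕ)) ((3/8000)*t^(4:ℕ) + (-51/40000)*t^(5:ℕ) + (61/20000)*t^(6:ℕ) + (-191/40000)*t^(7:ℕ) + (313/40000)*t^(8:ℕ) + (-21/2000)*t^(9:ℕ) + (223/20000)*t^(10:ℕ) + (-7/1000)*t^(11:ℕ)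 + (1/400)*t^(12:ℕ)) h1 h2 ((pos_cSMe_b0 t h3 h4).trans_eq (by ring)) ((pos_cSMe_b1 t h3 h4).trans_eq (by ring)) ((pos_cSMe_b2 t h3 h4).trans_eq (by ring)) ((pos_cSMe_b3 t h3 h4).trans_eq (by ring)) ((pos_cSMe_b4 t h3 h4).trans_eq (by ring)) ((pos_cSMe_b5 t h3 h4).trans_eq (by ring)) ((pos_cSMe_b6 t h3 h4).trans_eq (by ring)) ((pos_cSMe_b7 t h3 h4).trans_eq (by ring)) ((pos_cSMe_b8 t h3 h4).trans_eq (by ring)) ((pos_cSMe_b9 t h3 h4).trans_eq (by ring)) ((pos_cSMe_b10 t h3 h4).trans_eq (by ring))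

lemma pos_cTM0_b0 (t : ℝ) (h3 : 0 ≤ t) (h4 : t ≤ 1) :
    0 ≤ (3/640) + (1/80)*t + (1/16)*t^(2:ℕ) + (1/16)*t^(3:ℕ) + (1/8)*t^(4:ℕ) + (1/8)*t^(5:ℕ) + (1/8)*t^(6:ℕ) + (1/8)*t^(7:ℕ) + (1/16)*t^(8:ℕ) + (1/16)*t^(9:ℕ) + (1/80)*t^(10:ℕ) + (1/80)*t^(11:ℕ) := by
  obtain ⟨t2, ht2⟩ : ∃ t2 : ℝ, t2 = 1 - t := ⟨_, rfl⟩
  have a4 : 0 ≤ t2 := by rw [ht2]; linarith
  have e : (3/640) + (1/80)*t + (1/16)*t^(2:ℕ) + (1/16)*t^(3:ℕ) + (1/8)*t^(4:ℕ) + (1/8)*t^(5:ℕ) + (1/8)*t^(6:ℕ) + (1/8)*t^(7:ℕ) + (1/16)*t^(8:ℕ) + (1/16)*t^(9:ℕ) + (1/80)*t^(10:ℕ) + (1/80)*t^(11:ℕ) = (3/640)*t2^(12:ℕ) + (11/160)*t^(1:ℕ)*t2^(11:ℕ) + (163/320)*t^(2:ℕ)*t2^(10:ℕ) + (77/32)*t^(3:ℕ)*t2^(9:ℕ) + (1009/128)*t^(4:ℕ)*t2^(8:ℕ) + (1497/80)*t^(5:ℕ)*t2^(7:ℕ) + (5277/160)*t^(6:ℕ)*t2^(6:ℕ)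 + (3489/80)*t^(7:ℕ)*t2^(5:ℕ) + (5521/128)*t^(8:ℕ)*t2^(4:ℕ) + (1001/32)*t^(9:ℕ)*t2^(3:ℕ) + (5083/320)*t^(10:ℕ)*t2^(2:ℕ) + (817/160)*t^(11:ℕ)*t2^(1:ℕ) + (507/640)*t^(12:ℕ) := by
    rw [ht2]; ring
  rw [e]
  positivity

lemma pos_cTM0_b1 (t : ℝ) (h3 : 0 ≤ t) (h4 : t ≤ 1) :
    0 ≤ (57/8000) + (117/8000)*t + (4967/64000)*t^(2:ℕ) + (2439/32000)*t^(3:ℕ) + (10147/64000)*t^(4:ℕ) + (31/200)*t^(5:ℕ) + (5099/32000)*t^(6:ℕ) + (2463/16000)*t^(7:ℕ) + (2521/32000)*t^(8:ℕ) + (597/8000)*t^(9:ℕ) + (979/64000)*t^(10:ℕ) + (451/32000)*t^(11:ℕ) + (-1/64000)*t^(12:ℕ) := by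
  obtain ⟨t2, ht2⟩ : ∃ t2 : ℝ, t2 = 1 - t := ⟨_, rfl⟩
  have a4 : 0 ≤ t2 := by rw [ht2]; linarith
  have e : (57/8000) + (117/8000)*t + (4967/64000)*t^(2:ℕ) + (2439/32000)*t^(3:ℕ) + (10147/64000)*t^(4:ℕ) + (31/200)*t^(5:ℕ) + (5099/32000)*t^(6:ℕ) + (2463/16000)*t^(7:ℕ) + (2521/32000)*t^(8:ℕ) + (597/8000)*t^(9:ℕ) + (979/64000)*t^(10:ℕ) + (451/32000)*t^(11:ℕ) + (-1/64000)*t^(12:ℕ) = (57/8000)*t2^(12:ℕ) + (801/8000)*t^(1:ℕ)*t2^(11:ℕ) + (45359/64000)*t^(2:ℕ)*t2^(10:ℕ) + (51587/16000)*t^(3:ℕ)*t2^(9:ℕ) + (164431/16000)*t^(4:ℕ)*t2^(8:ℕ) + (191597/8000)*t^(5:ℕ)*t2^(7:ℕ) + (166897/4000)*t^(6:ℕ)*t2^(6:ℕ) + (109609/2000)*t^(7:ℕ)*t2^(5:ℕ) + (172853/3200)*t^(8:ℕ)*t2^(4:ℕ) + (156463/4000)*t^(9:ℕ)*t2^(3:ℕ) + (158773/8000)*t^(10:ℕ)*t2^(2:ℕ)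 + (5097/800)*t^(11:ℕ)*t2^(1:ℕ) + (15763/16000)*t^(12:ℕ) := by
    rw [ht2]; ring
  rw [e]
  positivity

lemma pos_cTM0_b2 (t : ℝ) (h3 : 0 ≤ t) (h4 : t ≤ 1) :
    0 ≤ (1351/144000) + (1187/72000)*t + (13493/144000)*t^(2:ℕ) + (131/1440)*t^(3:ℕ) + (5693/28800)*t^(4:ℕ) + (3419/18000)*t^(5:ℕ) + (4843/24000)*t^(6:ℕ) + (13511/72000)*t^(7:ℕ) + (3577/36000)*t^(8:ℕ) + (6299/72000)*t^(9:ℕ) + (2693/144000)*t^(10:ℕ) + (367/24000)*t^(11:ℕ) + (-1/28800)*t^(12:ℕ) := by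
  obtain ⟨t2, ht2⟩ : ∃ t2 : ℝ, t2 = 1 - t := ⟨_, rfl⟩
  have a4 : 0 ≤ t2 := by rw [ht2]; linarith
  have e : (1351/144000) + (1187/72000)*t + (13493/144000)*t^(2:ℕ) + (131/1440)*t^(3:ℕ) + (5693/28800)*t^(4:ℕ) + (3419/18000)*t^(5:ℕ) + (4843/24000)*t^(6:ℕ) + (13511/72000)*t^(7:ℕ) + (3577/36000)*t^(8:ℕ) + (6299/72000)*t^(9:ℕ) + (2693/144000)*t^(10:ℕ) + (367/24000)*t^(11:ℕ) + (-1/28800)*t^(12:ℕ) = (1351/144000)*t2^(12:ℕ) + (9293/72000)*t^(1:ℕ)*t2^(11:ℕ) + (128773/144000)*t^(2:ℕ)*t2^(10:ℕ) + (3199/800)*t^(3:ℕ)*t2^(9:ℕ) + (362801/28800)*t^(4:ℕ)*t2^(8:ℕ) + (349937/12000)*t^(5:ℕ)*t2^(7:ℕ) + (912073/18000)*t^(6:ℕ)*t2^(6:ℕ) + (1597903/24000)*t^(7:ℕ)*t2^(5:ℕ) + (3157151/48000)*t^(8:ℕ)*t2^(4:ℕ) + (344053/7200)*t^(9:ℕ)*t2^(3:ℕ)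 + (1751179/72000)*t^(10:ℕ)*t2^(2:ℕ) + (281603/36000)*t^(11:ℕ)*t2^(1:ℕ) + (174011/144000)*t^(12:ℕ) := by
    rw [ht2]; ring
  rw [e]
  positivity

lemma pos_cTM0_b3 (t : ℝ) (h3 : 0 ≤ t) (h4 : t ≤ 1) :
    0 ≤ (43751/3840000) + (5763/320000)*t + (565253/5120000)*t^(2:ℕ) + (81733/768000)*t^(3:ℕ) + (3723041/15360000)*t^(4:ℕ) + (353189/1536000)*t^(5:ℕ) + (486781/1920000)*t^(6:ℕ) + (115797/512000)*t^(7:ℕ) + (481087/3840000)*t^(8:ℕ) + (154351/1536000)*t^(9:ℕ) + (70301/3072000)*t^(10:ℕ) + (121727/7680000)*t^(11:ℕ) + (-881/15360000)*t^(12:ℕ) := by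
  obtain ⟨t2, ht2⟩ : ∃ t2 : ℝ, t2 = 1 - t := ⟨_, rfl⟩
  have a4 : 0 ≤ t2 := by rw [ht2]; linarith
  have e : (43751/3840000) + (5763/320000)*t + (565253/5120000)*t^(2:ℕ) + (81733/768000)*t^(3:ℕ) + (3723041/15360000)*t^(4:ℕ) + (353189/1536000)*t^(5:ℕ) + (486781/1920000)*t^(6:ℕ) + (115797/512000)*t^(7:ℕ) + (481087/3840000)*t^(8:ℕ) + (154351/1536000)*t^(9:ℕ) + (70301/3072000)*t^(10:ℕ) + (121727/7680000)*t^(11:ℕ) + (-881/15360000)*t^(12:ℕ) = (43751/3840000)*t2^(12:ℕ) + (24757/160000)*t^(1:ℕ)*t2^(11:ℕ) + (5429629/5120000)*t^(2:ℕ)*t2^(10:ℕ) + (1446149/307200)*t^(3:ℕ)*t2^(9:ℕ) + (56753519/3840000)*t^(4:ℕ)*t2^(8:ℕ) + (87590691/2560000)*t^(5:ℕ)*t2^(7:ℕ) + (3815781/64000)*t^(6:ℕ)*t2^(6:ℕ) + (302300317/3840000)*t^(7:ℕ)*t2^(5:ℕ)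 + (150240761/1920000)*t^(8:ℕ)*t2^(4:ℕ) + (109864721/1920000)*t^(9:ℕ)*t2^(3:ℕ) + (14649/500)*t^(10:ℕ)*t2^(2:ℕ) + (9083089/960000)*t^(11:ℕ)*t2^(1:ℕ) + (14627/10000)*t^(12:ℕ) := by
    rw [ht2]; ring
  rw [e]
  positivity

lemma pos_cTM0_b4 (t : ℝ) (h3 : 0 ≤ t) (h4 : t ≤ 1) :
    0 ≤ (8837/672000) + (21481/1120000)*t + (3426109/26880000)*t^(2:ℕ) + (1642441/13440000)*t^(3:ℕ) + (1123603/3840000)*t^(4:ℕ) + (3695239/13440000)*t^(5:ℕ) + (88377/280000)*t^(6:ℕ) + (1206251/4480000)*t^(7:ℕ) + (1059397/6720000)*t^(8:ℕ) + (303281/2688000)*t^(9:ℕ) + (753779/26880000)*t^(10:ℕ) + (14873/960000)*t^(11:ℕ) + (-2209/26880000)*t^(12:ℕ) := by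
  obtain ⟨t2, ht2⟩ : ∃ t2 : ℝ, t2 = 1 - t := ⟨_, rfl⟩
  have a4 : 0 ≤ t2 := by rw [ht2]; linarith
  have e : (8837/672000) + (21481/1120000)*t + (3426109/26880000)*t^(2:ℕ) + (1642441/13440000)*t^(3:ℕ) + (1123603/3840000)*t^(4:ℕ) + (3695239/13440000)*t^(5:ℕ) + (88377/280000)*t^(6:ℕ) + (1206251/4480000)*t^(7:ℕ) + (1059397/6720000)*t^(8:ℕ) + (303281/2688000)*t^(9:ℕ) + (753779/26880000)*t^(10:ℕ) + (14873/960000)*t^(11:ℕ) + (-2209/26880000)*t^(12:ℕ) = (8837/672000)*t2^(12:ℕ) + (198221/1120000)*t^(1:ℕ)*t2^(11:ℕ) + (32426773/26880000)*t^(2:ℕ)*t2^(10:ℕ) + (35916623/6720000)*t^(3:ℕ)*t2^(9:ℕ) + (28227589/1680000)*t^(4:ℕ)*t2^(8:ℕ) + (524893379/13440000)*t^(5:ℕ)*t2^(7:ℕ) + (38346949/560000)*t^(6:ℕ)*t2^(6:ℕ) + (61230179/672000)*t^(7:ℕ)*t2^(5:ℕ)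 + (40923339/448000)*t^(8:ℕ)*t2^(4:ℕ) + (226381837/3360000)*t^(9:ℕ)*t2^(3:ℕ) + (1112449/32000)*t^(10:ℕ)*t2^(2:ℕ) + (6322049/560000)*t^(11:ℕ)*t2^(1:ℕ) + (2937239/1680000)*t^(12:ℕ) := by
    rw [ht2]; ring
  rw [e]
  positivity

lemma pos_cTM0_b5 (t : ℝ) (h3 : 0 ≤ t) (h4 : t ≤ 1) :
    0 ≤ (19751/1344000) + (15389/768000)*t + (11678581/80640000)*t^(2:ℕ) + (44507951/322560000)*t^(3:ℕ) + (32095381/92160000)*t^(4:ℕ) + (52368919/161280000)*t^(5:ℕ) + (83656859/215040000)*t^(6:ℕ) + (51023443/161280000)*t^(7:ℕ) + (12745171/64512000)*t^(8:ℕ) + (19919731/161280000)*t^(9:ℕ) + (7390619/215040000)*t^(10:ℕ) + (499237/35840000)*t^(11:ℕ) + (-547/5160960)*t^(12:ℕ) := by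
  obtain ⟨t2, ht2⟩ : ∃ t2 : ℝ, t2 = 1 - t := ⟨_, rfl⟩
  have a4 : 0 ≤ t2 := by rw [ht2]; linarith
  have e : (19751/1344000) + (15389/768000)*t + (11678581/80640000)*t^(2:ℕ) + (44507951/322560000)*t^(3:ℕ) + (32095381/92160000)*t^(4:ℕ) + (52368919/161280000)*t^(5:ℕ) + (83656859/215040000)*t^(6:ℕ) + (51023443/161280000)*t^(7:ℕ) + (12745171/64512000)*t^(8:ℕ) + (19919731/161280000)*t^(9:ℕ) + (7390619/215040000)*t^(10:ℕ) + (499237/35840000)*t^(11:ℕ) + (-547/5160960)*t^(12:ℕ) = (19751/1344000)*t2^(12:ℕ) + (1055771/5376000)*t^(1:ℕ)*t2^(11:ℕ) + (26916709/20160000)*t^(2:ℕ)*t2^(10:ℕ) + (212221099/35840000)*t^(3:ℕ)*t2^(9:ℕ) + (2411170589/129024000)*t^(4:ℕ)*t2^(8:ℕ) + (335680931/7680000)*t^(5:ℕ)*t2^(7:ℕ) + (49837473473/645120000)*t^(6:ℕ)*t2^(6:ℕ)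 + (2231034067/21504000)*t^(7:ℕ)*t2^(5:ℕ) + (22588517569/215040000)*t^(8:ℕ)*t2^(4:ℕ) + (12617566891/161280000)*t^(9:ℕ)*t2^(3:ℕ) + (3283330531/80640000)*t^(10:ℕ)*t2^(2:ℕ) + (12262181/921600)*t^(11:ℕ)*t2^(1:ℕ) + (18503887/8960000)*t^(12:ℕ) := by
    rw [ht2]; ring
  rw [e]
  positivity

lemma pos_cTM0_b6 (t : ℝ) (h3 : 0 ≤ t) (h4 : t ≤ 1) :
    0 ≤ (5417/336000) + (11579/560000)*t + (5465567/33600000)*t^(2:ℕ) + (41271029/268800000)*t^(3:ℕ) + (110036009/268800000)*t^(4:ℕ) + (50894909/134400000)*t^(5:ℕ) + (42522797/89600000)*t^(6:ℕ) + (49259587/134400000)*t^(7:ℕ) + (22050443/89600000)*t^(8:ℕ) + (8830121/67200000)*t^(9:ℕ) + (11293001/268800000)*t^(10:ℕ) + (2925539/268800000)*t^(11:ℕ) + (-1107/8960000)*t^(12:ℕ) := by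
  obtain ⟨t2, ht2⟩ : ∃ t2 : ℝ, t2 = 1 - t := ⟨_, rfl⟩
  have a4 : 0 ≤ t2 := by rw [ht2]; linarith
  have e : (5417/336000) + (11579/560000)*t + (5465567/33600000)*t^(2:ℕ) + (41271029/268800000)*t^(3:ℕ) + (110036009/268800000)*t^(4:ℕ) + (50894909/134400000)*t^(5:ℕ) + (42522797/89600000)*t^(6:ℕ) + (49259587/134400000)*t^(7:ℕ) + (22050443/89600000)*t^(8:ℕ) + (8830121/67200000)*t^(9:ℕ) + (11293001/268800000)*t^(10:ℕ) + (2925539/268800000)*t^(11:ℕ) + (-1107/8960000)*t^(12:ℕ) = (5417/336000)*t2^(12:ℕ) + (119919/560000)*t^(1:ℕ)*t2^(11:ℕ) + (48859907/33600000)*t^(2:ℕ)*t2^(10:ℕ) + (1737593989/268800000)*t^(3:ℕ)*t2^(9:ℕ) + (551126819/26880000)*t^(4:ℕ)*t2^(8:ℕ) + (6490552027/134400000)*t^(5:ℕ)*t2^(7:ℕ) + (1542801987/17920000)*t^(6:ℕ)*t2^(6:ℕ)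 + (326898283/2800000)*t^(7:ℕ)*t2^(5:ℕ) + (16049492569/134400000)*t^(8:ℕ)*t2^(4:ℕ) + (482906101/5376000)*t^(9:ℕ)*t2^(3:ℕ) + (301822353/6400000)*t^(10:ℕ)*t2^(2:ℕ) + (521090783/33600000)*t^(11:ℕ)*t2^(1:ℕ) + (10807627/4480000)*t^(12:ℕ) := by
    rw [ht2]; ring
  rw [e]
  positivity

lemma pos_cTM0_b7 (t : ℝ) (h3 : 0 ≤ t) (h4 : t ≤ 1) :
    0 ≤ (269851/15360000) + (637/30000)*t + (27861439/153600000)*t^(2:ℕ) + (51868657/307200000)*t^(3:ℕ) + (585077603/1228800000)*t^(4:ℕ) + (89259521/204800000)*t^(5:ℕ) + (1173841503/2048000000)*t^(6:ℕ) + (256916261/614400000)*t^(7:ℕ) + (7788689/25600000)*t^(8:ℕ) + (83109737/614400000)*t^(9:ℕ) + (313593731/6144000000)*t^(10:ℕ) + (753041/122880000)*t^(11:ℕ) + (-10533/81920000)*t^(12:ℕ)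 := by
  obtain ⟨t2, ht2⟩ : ∃ t2 : ℝ, t2 = 1 - t := ⟨_, rfl⟩
  have a4 : 0 ≤ t2 := by rw [ht2]; linarith
  have e : (269851/15360000) + (637/30000)*t + (27861439/153600000)*t^(2:ℕ) + (51868657/307200000)*t^(3:ℕ) + (585077603/1228800000)*t^(4:ℕ) + (89259521/204800000)*t^(5:ℕ) + (1173841503/2048000000)*t^(6:ℕ) + (256916261/614400000)*t^(7:ℕ) + (7788689/25600000)*t^(8:ℕ) + (83109737/614400000)*t^(9:ℕ) + (313593731/6144000000)*t^(10:ℕ) + (753041/122880000)*t^(11:ℕ) + (-10533/81920000)*t^(12:ℕ) = (269851/15360000)*t2^(12:ℕ) + (891089/3840000)*t^(1:ℕ)*t2^(11:ℕ) + (241838939/153600000)*t^(2:ℕ)*t2^(10:ℕ) + (718400079/102400000)*t^(3:ℕ)*t2^(9:ℕ) + (5494733539/245760000)*t^(4:ℕ)*t2^(8:ℕ) + (32570103479/614400000)*t^(5:ℕ)*t2^(7:ℕ)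 + (585360660499/6144000000)*t^(6:ℕ)*t2^(6:ℕ) + (400533032747/3072000000)*t^(7:ℕ)*t2^(5:ℕ) + (165452846677/1228800000)*t^(8:ℕ)*t2^(4:ℕ) + (31406061197/307200000)*t^(9:ℕ)*t2^(3:ℕ) + (166238356013/3072000000)*t^(10:ℕ)*t2^(2:ℕ) + (27492272239/1536000000)*t^(11:ℕ)*t2^(1:ℕ) + (1070933/384000)*t^(12:ℕ) := by
    rw [ht2]; ring
  rw [e]
  positivity

lemma pos_cTM0_b8 (t : ℝ) (h3 : 0 ≤ t) (h4 : t ≤ 1) :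
    0 ≤ (110699/5760000) + (31511/1440000)*t + (5807267/28800000)*t^(2:ℕ) + (3534569/19200000)*t^(3:ℕ) + (253060253/460800000)*t^(4:ℕ) + (113923351/230400000)*t^(5:ℕ) + (1579809643/2304000000)*t^(6:ℕ) + (12010953/25600000)*t^(7:ℕ) + (42950449/115200000)*t^(8:ℕ) + (30832181/230400000)*t^(9:ℕ) + (141521317/2304000000)*t^(10:ℕ) + (-110233/230400000)*t^(11:ℕ) + (-10781/92160000)*t^(12:ℕ) := by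
  obtain ⟨t2, ht2⟩ : ∃ t2 : ℝ, t2 = 1 - t := ⟨_, rfl⟩
  have a4 : 0 ≤ t2 := by rw [ht2]; linarith
  have e : (110699/5760000) + (31511/1440000)*t + (5807267/28800000)*t^(2:ℕ) + (3534569/19200000)*t^(3:ℕ) + (253060253/460800000)*t^(4:ℕ) + (113923351/230400000)*t^(5:ℕ) + (1579809643/2304000000)*t^(6:ℕ) + (12010953/25600000)*t^(7:ℕ) + (42950449/115200000)*t^(8:ℕ) + (30832181/230400000)*t^(9:ℕ) + (141521317/2304000000)*t^(10:ℕ) + (-110233/230400000)*t^(11:ℕ) + (-10781/92160000)*t^(12:ℕ) = (110699/5760000)*t2^(12:ℕ) + (45451/180000)*t^(1:ℕ)*t2^(11:ℕ) + (49270357/28800000)*t^(2:ℕ)*t2^(10:ℕ) + (439611047/57600000)*t^(3:ℕ)*t2^(9:ℕ) + (11245220597/460800000)*t^(4:ℕ)*t2^(8:ℕ) + (4466266537/76800000)*t^(5:ℕ)*t2^(7:ℕ) + (80793567451/768000000)*t^(6:ℕ)*t2^(6:ℕ)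 + (167110089289/1152000000)*t^(7:ℕ)*t2^(5:ℕ) + (69593264551/460800000)*t^(8:ℕ)*t2^(4:ℕ) + (887730289/7680000)*t^(9:ℕ)*t2^(3:ℕ) + (70975401491/1152000000)*t^(10:ℕ)*t2^(2:ℕ) + (11793217493/576000000)*t^(11:ℕ)*t2^(1:ℕ) + (45976483/14400000)*t^(12:ℕ) := by
    rw [ht2]; ring
  rw [e]
  positivity

lemma pos_cTM0_b9 (t : ℝ) (h3 : 0 ≤ t) (h4 : t ≤ 1) :
    0 ≤ (27257/1280000) + (2923/128000)*t + (574319/2560000)*t^(2:ℕ) + (5110471/25600000)*t^(3:ℕ) + (3223811/5120000)*t^(4:ℕ) + (14129183/25600000)*t^(5:ℕ) + (104068111/128000000)*t^(6:ℕ) + (13235063/25600000)*t^(7:ℕ) + (11582511/25600000)*t^(8:ℕ) + (643201/5120000)*t^(9:ℕ) + (9357619/128000000)*t^(10:ℕ) + (-114913/12800000)*t^(11:ℕ) + (-237/2560000)*t^(12:ℕ) := by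
  obtain ⟨t2, ht2⟩ : ∃ t2 : ℝ, t2 = 1 - t := ⟨_, rfl⟩
  have a4 : 0 ≤ t2 := by rw [ht2]; linarith
  have e : (27257/1280000) + (2923/128000)*t + (574319/2560000)*t^(2:ℕ) + (5110471/25600000)*t^(3:ℕ) + (3223811/5120000)*t^(4:ℕ) + (14129183/25600000)*t^(5:ℕ) + (104068111/128000000)*t^(6:ℕ) + (13235063/25600000)*t^(7:ℕ) + (11582511/25600000)*t^(8:ℕ) + (643201/5120000)*t^(9:ℕ) + (9357619/128000000)*t^(10:ℕ) + (-114913/12800000)*t^(11:ℕ) + (-237/2560000)*t^(12:ℕ) = (27257/1280000)*t2^(12:ℕ) + (178157/640000)*t^(1:ℕ)*t2^(11:ℕ) + (4815303/2560000)*t^(2:ℕ)*t2^(10:ℕ) + (214626171/25600000)*t^(3:ℕ)*t2^(9:ℕ) + (42928759/1600000)*t^(4:ℕ)*t2^(8:ℕ) + (1640910259/25600000)*t^(5:ℕ)*t2^(7:ℕ) + (1862622167/16000000)*t^(6:ℕ)*t2^(6:ℕ)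 + (10326340063/64000000)*t^(7:ℕ)*t2^(5:ℕ) + (13517403/80000)*t^(8:ℕ)*t2^(4:ℕ) + (832552443/6400000)*t^(9:ℕ)*t2^(3:ℕ) + (2230210871/32000000)*t^(10:ℕ)*t2^(2:ℕ) + (46469021/2000000)*t^(11:ℕ)*t2^(1:ℕ) + (11589771/3200000)*t^(12:ℕ) := by
    rw [ht2]; ring
  rw [e]
  positivity

lemma pos_cTM0_b10 (t : ℝ) (h3 : 0 ≤ t) (h4 : t ≤ 1) :
    0 ≤ (3077/128000) + (779/32000)*t + (80247/320000)*t^(2:ℕ) + (276159/1280000)*t^(3:ℕ) + (1842219/2560000)*t^(4:ℕ) + (386883/640000)*t^(5:ℕ) + (12234957/12800000)*t^(6:ℕ) + (89417/160000)*t^(7:ℕ) + (695491/1280000)*t^(8:ℕ) + (69669/640000)*t^(9:ℕ) + (1104043/12800000)*t^(10:ℕ) + (-24791/1280000)*t^(11:ℕ) + (-33/512000)*t^(12:ℕ) := by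
  obtain ⟨t2, ht2⟩ : ∃ t2 : ℝ, t2 = 1 - t := ⟨_, rfl⟩
  have a4 : 0 ≤ t2 := by rw [ht2]; linarith
  have e : (3077/128000) + (779/32000)*t + (80247/320000)*t^(2:ℕ) + (276159/1280000)*t^(3:ℕ) + (1842219/2560000)*t^(4:ℕ) + (386883/640000)*t^(5:ℕ) + (12234957/12800000)*t^(6:ℕ) + (89417/160000)*t^(7:ℕ) + (695491/1280000)*t^(8:ℕ) + (69669/640000)*t^(9:ℕ) + (1104043/12800000)*t^(10:ℕ) + (-24791/1280000)*t^(11:ℕ) + (-33/512000)*t^(12:ℕ) = (3077/128000)*t2^(12:ℕ) + (1001/3200)*t^(1:ℕ)*t2^(11:ℕ) + (336821/160000)*t^(2:ℕ)*t2^(10:ℕ) + (11969239/1280000)*t^(3:ℕ)*t2^(9:ℕ) + (76447101/2560000)*t^(4:ℕ)*t2^(8:ℕ) + (45627783/640000)*t^(5:ℕ)*t2^(7:ℕ) + (1658631597/12800000)*t^(6:ℕ)*t2^(6:ℕ) + (1151691491/6400000)*t^(7:ℕ)*t2^(5:ℕ)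 + (483803091/2560000)*t^(8:ℕ)*t2^(4:ℕ) + (93417617/640000)*t^(9:ℕ)*t2^(3:ℕ) + (501890579/6400000)*t^(10:ℕ)*t2^(2:ℕ) + (83765497/3200000)*t^(11:ℕ)*t2^(1:ℕ) + (651643/160000)*t^(12:ℕ) := by
    rw [ht2]; ring
  rw [e]
  positivity

lemma pos_cTM0_id (d C0 C1 C2 C3 C4 C5 C6 C7 C8 C9 C10 : ℝ) (h1 : 0 ≤ d) (h2 : d ≤ (1/2))
    (b0 : 0 ≤ 1*C0 - (1/128))
    (b1 : 0 ≤ 1*C0 + (1/20)*C1 - (1/128))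
    (b2 : 0 ≤ 1*C0 + (1/10)*C1 + (1/180)*C2 - (1/128))
    (b3 : 0 ≤ 1*C0 + (3/20)*C1 + (1/60)*C2 + (1/960)*C3 - (1/128))
    (b4 : 0 ≤ 1*C0 + (1/5)*C1 + (1/30)*C2 + (1/240)*C3 + (1/3360)*C4 - (1/128))
    (b5 : 0 ≤ 1*C0 + (1/4)*C1 + (1/18)*C2 + (1/96)*C3 + (1/672)*C4 + (1/8064)*C5 - (1/128))
    (b6 : 0 ≤ 1*C0 + (3/10)*C1 + (1/12)*C2 + (1/48)*C3 + (1/224)*C4 + (1/1344)*C5 + (1/13440)*C6 - (1/128))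
    (b7 : 0 ≤ 1*C0 + (7/20)*C1 + (7/60)*C2 + (7/192)*C3 + (1/96)*C4 + (1/384)*C5 + (1/1920)*C6 + (1/15360)*C7 - (1/128))
    (b8 : 0 ≤ 1*C0 + (2/5)*C1 + (7/45)*C2 + (7/120)*C3 + (1/48)*C4 + (1/144)*C5 + (1/480)*C6 + (1/1920)*C7 + (1/11520)*C8 - (1/128))
    (b9 : 0 ≤ 1*C0 + (9/20)*C1 + (1/5)*C2 + (7/80)*C3 + (3/80)*C4 + (1/64)*C5 + (1/160)*C6 + (3/1280)*C7 + (1/1280)*C8 + (1/5120)*C9 - (1/128))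
    (b10 : 0 ≤ 1*C0 + (1/2)*C1 + (1/4)*C2 + (1/8)*C3 + (1/16)*C4 + (1/32)*C5 + (1/64)*C6 + (1/128)*C7 + (1/256)*C8 + (1/512)*C9 + (1/1024)*C10 - (1/128))
    : 0 < C0 + d*C1 + d^(2:ℕ)*C2 + d^(3:ℕ)*C3 + d^(4:ℕ)*C4 + d^(5:ℕ)*C5 + d^(6:ℕ)*C6 + d^(7:ℕ)*C7 + d^(8:ℕ)*C8 + d^(9:ℕ)*C9 + d^(10:ℕ)*C10 := by
  obtain ⟨d2, hd2⟩ : ∃ d2 : ℝ, d2 = (1/2) - d := ⟨_, rfl⟩
  have a2 : 0 ≤ d2 := by rw [hd2]; linarith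
  obtain ⟨B0, hB0⟩ : ∃ B : ℝ, B = 1*C0 - (1/128) := ⟨_, rfl⟩
  rw [← hB0] at b0
  obtain ⟨B1, hB1⟩ : ∃ B : ℝ, B = 1*C0 + (1/20)*C1 - (1/128) := ⟨_, rfl⟩
  rw [← hB1] at b1
  obtain ⟨B2, hB2⟩ : ∃ B : ℝ, B = 1*C0 + (1/10)*C1 + (1/180)*C2 - (1/128) := ⟨_, rfl⟩
  rw [← hB2] at b2
  obtain ⟨B3, hB3⟩ : ∃ B : ℝ, B = 1*C0 + (3/20)*C1 + (1/60)*C2 + (1/960)*C3 - (1/128) := ⟨_, rfl⟩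
  rw [← hB3] at b3
  obtain ⟨B4, hB4⟩ : ∃ B : ℝ, B = 1*C0 + (1/5)*C1 + (1/30)*C2 + (1/240)*C3 + (1/3360)*C4 - (1/128) := ⟨_, rfl⟩
  rw [← hB4] at b4
  obtain ⟨B5, hB5⟩ : ∃ B : ℝ, B = 1*C0 + (1/4)*C1 + (1/18)*C2 + (1/96)*C3 + (1/672)*C4 + (1/8064)*C5 - (1/128) := ⟨_, rfl⟩
  rw [← hB5] at b5
  obtain ⟨B6, hB6⟩ : ∃ B : ℝ, B = 1*C0 + (3/10)*C1 + (1/12)*C2 + (1/48)*C3 + (1/224)*C4 + (1/1344)*C5 + (1/13440)*C6 - (1/128) := ⟨_, rfl⟩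
  rw [← hB6] at b6
  obtain ⟨B7, hB7⟩ : ∃ B : ℝ, B = 1*C0 + (7/20)*C1 + (7/60)*C2 + (7/192)*C3 + (1/96)*C4 + (1/384)*C5 + (1/1920)*C6 + (1/15360)*C7 - (1/128) := ⟨_, rfl⟩
  rw [← hB7] at b7
  obtain ⟨B8, hB8⟩ : ∃ B : ℝ, B = 1*C0 + (2/5)*C1 + (7/45)*C2 + (7/120)*C3 + (1/48)*C4 + (1/144)*C5 + (1/480)*C6 + (1/1920)*C7 + (1/11520)*C8 - (1/128) := ⟨_, rfl⟩
  rw [← hB8] at b8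
  obtain ⟨B9, hB9⟩ : ∃ B : ℝ, B = 1*C0 + (9/20)*C1 + (1/5)*C2 + (7/80)*C3 + (3/80)*C4 + (1/64)*C5 + (1/160)*C6 + (3/1280)*C7 + (1/1280)*C8 + (1/5120)*C9 - (1/128) := ⟨_, rfl⟩
  rw [← hB9] at b9
  obtain ⟨B10, hB10⟩ : ∃ B : ℝ, B = 1*C0 + (1/2)*C1 + (1/4)*C2 + (1/8)*C3 + (1/16)*C4 + (1/32)*C5 + (1/64)*C6 + (1/128)*C7 + (1/256)*C8 + (1/512)*C9 + (1/1024)*C10 - (1/128) := ⟨_, rfl⟩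
  rw [← hB10] at b10
  have e : C0 + d*C1 + d^(2:ℕ)*C2 + d^(3:ℕ)*C3 + d^(4:ℕ)*C4 + d^(5:ℕ)*C5 + d^(6:ℕ)*C6 + d^(7:ℕ)*C7 + d^(8:ℕ)*C8 + d^(9:ℕ)*C9 + d^(10:ℕ)*C10 = (1/128) + (1024*d2^(10:ℕ)*B0 + 10240*d^(1:ℕ)*d2^(9:ℕ)*B1 + 46080*d^(2:ℕ)*d2^(8:ℕ)*B2 + 122880*d^(3:ℕ)*d2^(7:ℕ)*B3 + 215040*d^(4:ℕ)*d2^(6:ℕ)*B4 + 258048*d^(5:ℕ)*d2^(5:ℕ)*B5 + 215040*d^(6:ℕ)*d2^(4:ℕ)*B6 + 122880*d^(7:ℕ)*d2^(3:ℕ)*B7 + 46080*d^(8:ℕ)*d2^(2:ℕ)*B8 + 10240*d^(9:ℕ)*d2^(1:ℕ)*B9 + 1024*d^(10:ℕ)*B10) := by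
    rw [hB0, hB1, hB2, hB3, hB4, hB5, hB6, hB7, hB8, hB9, hB10, hd2]; ring
  rw [e]
  positivity

lemma pos_cTM0 (d t : ℝ) (h1 : 0 ≤ d) (h2 : d ≤ (1/2)) (h3 : 0 ≤ t) (h4 : t ≤ 1) :
    0 < (1/80) + (1/80)*t + (1/16)*t^(2:ℕ) + (1/16)*t^(3:ℕ) + (1/8)*t^(4:ℕ) + (1/8)*t^(5:ℕ) + (1/8)*t^(6:ℕ) + (1/8)*t^(7:ℕ) + (1/16)*t^(8:ℕ) + (1/16)*t^(9:ℕ) + (1/80)*t^(10:ℕ) + (1/80)*t^(11:ℕ) + (39/800)*d + (17/400)*d*t + (967/3200)*d*t^(2:ℕ) + (439/1600)*d*t^(3:ℕ) + (2147/3200)*d*t^(4:ℕ) + (3/5)*d*t^(5:ℕ) + (1099/1600)*d*t^(6:ℕ) + (463/800)*d*t^(7:ℕ) + (521/1600)*d*t^(8:ℕ) + (97/400)*d*t^(9:ℕ) + (179/3200)*d*t^(10:ℕ) + (51/1600)*d*t^(11:ℕ) + (-1/3200)*d*t^(12:ℕ) + (-13/400)*d^(2:ℕ) + (-19/400)*d^(2:ℕ)*t + (283/1600)*d^(2:ℕ)*t^(2:ℕ)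 + (149/800)*d^(2:ℕ)*t^(3:ℕ) + (1607/1600)*d^(2:ℕ)*t^(4:ℕ) + (89/100)*d^(2:ℕ)*t^(5:ℕ) + (1167/800)*d^(2:ℕ)*t^(6:ℕ) + (43/50)*d^(2:ℕ)*t^(7:ℕ) + (619/800)*d^(2:ℕ)*t^(8:ℕ) + (53/400)*d^(2:ℕ)*t^(9:ℕ) + (7/64)*d^(2:ℕ)*t^(10:ℕ) + (-57/800)*d^(2:ℕ)*t^(11:ℕ) + (-1/1600)*d^(2:ℕ)*t^(12:ℕ) + (-249/4000)*d^(3:ℕ) + (-71/1000)*d^(3:ℕ)*t + (-5761/16000)*d^(3:ℕ)*t^(2:ℕ) + (-259/800)*d^(3:ℕ)*t^(3:ℕ) + (81/16000)*d^(3:ℕ)*t^(4:ℕ) + (33/320)*d^(3:ℕ)*t^(5:ℕ) + (2281/2000)*d^(3:ℕ)*t^(6:ℕ) + (31/1600)*d^(3:ℕ)*t^(7:ℕ) + (4007/4000)*d^(3:ℕ)*t^(8:ℕ) + (-913/1600)*d^(3:ℕ)*t^(9:ℕ) + (21/128)*d^(3:ℕ)*t^(10:ℕ) + (-1873/8000)*d^(3:ℕ)*t^(11:ℕ) + (-1/16000)*d^(3:ℕ)*t^(12:ℕ) + (373/2000)*d^(4:ℕ) + (197/1000)*d^(4:ℕ)*t + (849/2000)*d^(4:ℕ)*t^(2:ℕ)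 + (-389/4000)*d^(4:ℕ)*t^(3:ℕ) + (-1113/4000)*d^(4:ℕ)*t^(4:ℕ) + (-257/500)*d^(4:ℕ)*t^(5:ℕ) + (-403/1000)*d^(4:ℕ)*t^(6:ℕ) + (-823/1000)*d^(4:ℕ)*t^(7:ℕ) + (97/500)*d^(4:ℕ)*t^(8:ℕ) + (-71/100)*d^(4:ℕ)*t^(9:ℕ) + (171/2000)*d^(4:ℕ)*t^(10:ℕ) + (-427/4000)*d^(4:ℕ)*t^(11:ℕ) + (19/4000)*d^(4:ℕ)*t^(12:ℕ) + (-23/1000)*d^(5:ℕ) + (-31/2000)*d^(5:ℕ)*t + (11187/20000)*d^(5:ℕ)*t^(2:ℕ) + (19231/40000)*d^(5:ℕ)*t^(3:ℕ) + (55167/80000)*d^(5:ℕ)*t^(4:ℕ) + (-7371/20000)*d^(5:ℕ)*t^(5:ℕ) + (-7503/80000)*d^(5:ℕ)*t^(6:ℕ) + (-12387/20000)*d^(5:ℕ)*t^(7:ℕ) + (-3429/8000)*d^(5:ℕ)*t^(8:ℕ) + (3981/20000)*d^(5:ℕ)*t^(9:ℕ) + (-18323/80000)*d^(5:ℕ)*t^(10:ℕ) + (5433/40000)*d^(5:ℕ)*t^(11:ℕ) + (57/16000)*d^(5:ℕ)*t^(12:ℕ) + (-1/100)*d^(6:ℕ) + (-49/1000)*d^(6:ℕ)*t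 + (-337/625)*d^(6:ℕ)*t^(2:ℕ) + (3487/10000)*d^(6:ℕ)*t^(3:ℕ) + (2483/40000)*d^(6:ℕ)*t^(4:ℕ) + (-4293/5000)*d^(6:ℕ)*t^(5:ℕ) + (36697/40000)*d^(6:ℕ)*t^(6:ℕ) + (-383/625)*d^(6:ℕ)*t^(7:ℕ) + (2027/10000)*d^(6:ℕ)*t^(8:ℕ) + (2487/10000)*d^(6:ℕ)*t^(9:ℕ) + (-6683/40000)*d^(6:ℕ)*t^(10:ℕ) + (1587/10000)*d^(6:ℕ)*t^(11:ℕ) + (-29/8000)*d^(6:ℕ)*t^(12:ℕ) + (31/1000)*d^(7:ℕ) + (9/250)*d^(7:ℕ)*t + (557/2000)*d^(7:ℕ)*t^(2:ℕ) + (-2111/4000)*d^(7:ℕ)*t^(3:ℕ) + (4399/16000)*d^(7:ℕ)*t^(4:ℕ) + (679/8000)*d^(7:ℕ)*t^(5:ℕ) + (-278651/400000)*d^(7:ℕ)*t^(6:ℕ) + (37317/40000)*d^(7:ℕ)*t^(7:ℕ) + (-252/625)*d^(7:ℕ)*t^(8:ℕ) + (-7127/40000)*d^(7:ℕ)*t^(9:ℕ) + (82971/400000)*d^(7:ℕ)*t^(10:ℕ) + (-2499/40000)*d^(7:ℕ)*t^(11:ℕ) + (-43/3200)*d^(7:ℕ)*t^(12:ℕ)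 + (-9/250)*d^(8:ℕ) + (353/5000)*d^(8:ℕ)*t^(2:ℕ) + (-1029/10000)*d^(8:ℕ)*t^(3:ℕ) + (579/10000)*d^(8:ℕ)*t^(4:ℕ) + (1287/10000)*d^(8:ℕ)*t^(5:ℕ) + (-9161/50000)*d^(8:ℕ)*t^(6:ℕ) + (173/2000)*d^(8:ℕ)*t^(7:ℕ) + (1133/10000)*d^(8:ℕ)*t^(8:ℕ) + (-2347/10000)*d^(8:ℕ)*t^(9:ℕ) + (8241/50000)*d^(8:ℕ)*t^(10:ℕ) + (-149/2500)*d^(8:ℕ)*t^(11:ℕ) + (-3/1000)*d^(8:ℕ)*t^(12:ℕ) + (-9/250)*d^(9:ℕ)*t^(2:ℕ) + (63/1250)*d^(9:ℕ)*t^(3:ℕ) + (-149/4000)*d^(9:ℕ)*t^(4:ℕ) + (-19/2000)*d^(9:ℕ)*t^(5:ℕ) + (297/4000)*d^(9:ℕ)*t^(6:ℕ) + (-1149/10000)*d^(9:ℕ)*t^(7:ℕ) + (99/1000)*d^(9:ℕ)*t^(8:ℕ) + (-89/2000)*d^(9:ℕ)*t^(9:ℕ) + (119/4000)*d^(9:ℕ)*t^(10:ℕ) + (-7/400)*d^(9:ℕ)*t^(11:ℕ) + (1/160)*d^(9:ℕ)*t^(12:ℕ) + (-9/1000)*d^(10:ℕ)*t^(4:ℕ) + (63/2500)*d^(10:ℕ)*t^(5:ℕ)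 + (-891/25000)*d^(10:ℕ)*t^(6:ℕ) + (63/2500)*d^(10:ℕ)*t^(7:ℕ) + (-63/2500)*d^(10:ℕ)*t^(9:ℕ) + (891/25000)*d^(10:ℕ)*t^(10:ℕ) + (-63/2500)*d^(10:ℕ)*t^(11:ℕ) + (9/1000)*d^(10:ℕ)*t^(12:ℕ) := by
  have e0 : (1/80) + (1/80)*t + (1/16)*t^(2:ℕ) + (1/16)*t^(3:ℕ) + (1/8)*t^(4:ℕ) + (1/8)*t^(5:ℕ) + (1/8)*t^(6:ℕ) + (1/8)*t^(7:ℕ) + (1/16)*t^(8:ℕ) + (1/16)*t^(9:ℕ) + (1/80)*t^(10:ℕ) + (1/80)*t^(11:ℕ) + (39/800)*d + (17/400)*d*t + (967/3200)*d*t^(2:ℕ) + (439/1600)*d*t^(3:ℕ) + (2147/3200)*d*t^(4:ℕ) + (3/5)*d*t^(5:ℕ) + (1099/1600)*d*t^(6:ℕ) + (463/800)*d*t^(7:ℕ) + (521/1600)*d*t^(8:ℕ) + (97/400)*d*t^(9:ℕ) + (179/3200)*d*t^(10:ℕ) + (51/1600)*d*t^(11:ℕ) + (-1/3200)*d*t^(12:ℕ) + (-13/400)*d^(2:ℕ) + (-19/400)*d^(2:ℕ)*t + (283/1600)*d^(2:ℕ)*t^(2:ℕ)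 + (149/800)*d^(2:ℕ)*t^(3:ℕ) + (1607/1600)*d^(2:ℕ)*t^(4:ℕ) + (89/100)*d^(2:ℕ)*t^(5:ℕ) + (1167/800)*d^(2:ℕ)*t^(6:ℕ) + (43/50)*d^(2:ℕ)*t^(7:ℕ) + (619/800)*d^(2:ℕ)*t^(8:ℕ) + (53/400)*d^(2:ℕ)*t^(9:ℕ) + (7/64)*d^(2:ℕ)*t^(10:ℕ) + (-57/800)*d^(2:ℕ)*t^(11:ℕ) + (-1/1600)*d^(2:ℕ)*t^(12:ℕ) + (-249/4000)*d^(3:ℕ) + (-71/1000)*d^(3:ℕ)*t + (-5761/16000)*d^(3:ℕ)*t^(2:ℕ) + (-259/800)*d^(3:ℕ)*t^(3:ℕ) + (81/16000)*d^(3:ℕ)*t^(4:ℕ) + (33/320)*d^(3:ℕ)*t^(5:ℕ) + (2281/2000)*d^(3:ℕ)*t^(6:ℕ) + (31/1600)*d^(3:ℕ)*t^(7:ℕ) + (4007/4000)*d^(3:ℕ)*t^(8:ℕ) + (-913/1600)*d^(3:ℕ)*t^(9:ℕ) + (21/128)*d^(3:ℕ)*t^(10:ℕ) + (-1873/8000)*d^(3:ℕ)*t^(11:ℕ) + (-1/16000)*d^(3:ℕ)*t^(12:ℕ) + (373/2000)*d^(4:ℕ) + (197/1000)*d^(4:ℕ)*t + (849/2000)*d^(4:ℕ)*t^(2:ℕ)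 + (-389/4000)*d^(4:ℕ)*t^(3:ℕ) + (-1113/4000)*d^(4:ℕ)*t^(4:ℕ) + (-257/500)*d^(4:ℕ)*t^(5:ℕ) + (-403/1000)*d^(4:ℕ)*t^(6:ℕ) + (-823/1000)*d^(4:ℕ)*t^(7:ℕ) + (97/500)*d^(4:ℕ)*t^(8:ℕ) + (-71/100)*d^(4:ℕ)*t^(9:ℕ) + (171/2000)*d^(4:ℕ)*t^(10:ℕ) + (-427/4000)*d^(4:ℕ)*t^(11:ℕ) + (19/4000)*d^(4:ℕ)*t^(12:ℕ) + (-23/1000)*d^(5:ℕ) + (-31/2000)*d^(5:ℕ)*t + (11187/20000)*d^(5:ℕ)*t^(2:ℕ) + (19231/40000)*d^(5:ℕ)*t^(3:ℕ) + (55167/80000)*d^(5:ℕ)*t^(4:ℕ) + (-7371/20000)*d^(5:ℕ)*t^(5:ℕ) + (-7503/80000)*d^(5:ℕ)*t^(6:ℕ) + (-12387/20000)*d^(5:ℕ)*t^(7:ℕ) + (-3429/8000)*d^(5:ℕ)*t^(8:ℕ) + (3981/20000)*d^(5:ℕ)*t^(9:ℕ) + (-18323/80000)*d^(5:ℕ)*t^(10:ℕ) + (5433/40000)*d^(5:ℕ)*t^(11:ℕ) + (57/16000)*d^(5:ℕ)*t^(12:ℕ) + (-1/100)*d^(6:ℕ) + (-49/1000)*d^(6:ℕ)*t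 + (-337/625)*d^(6:ℕ)*t^(2:ℕ) + (3487/10000)*d^(6:ℕ)*t^(3:ℕ) + (2483/40000)*d^(6:ℕ)*t^(4:ℕ) + (-4293/5000)*d^(6:ℕ)*t^(5:ℕ) + (36697/40000)*d^(6:ℕ)*t^(6:ℕ) + (-383/625)*d^(6:ℕ)*t^(7:ℕ) + (2027/10000)*d^(6:ℕ)*t^(8:ℕ) + (2487/10000)*d^(6:ℕ)*t^(9:ℕ) + (-6683/40000)*d^(6:ℕ)*t^(10:ℕ) + (1587/10000)*d^(6:ℕ)*t^(11:ℕ) + (-29/8000)*d^(6:ℕ)*t^(12:ℕ) + (31/1000)*d^(7:ℕ) + (9/250)*d^(7:ℕ)*t + (557/2000)*d^(7:ℕ)*t^(2:ℕ) + (-2111/4000)*d^(7:ℕ)*t^(3:ℕ) + (4399/16000)*d^(7:ℕ)*t^(4:ℕ) + (679/8000)*d^(7:ℕ)*t^(5:ℕ) + (-278651/400000)*d^(7:ℕ)*t^(6:ℕ) + (37317/40000)*d^(7:ℕ)*t^(7:ℕ) + (-252/625)*d^(7:ℕ)*t^(8:ℕ) + (-7127/40000)*d^(7:ℕ)*t^(9:ℕ) + (82971/400000)*d^(7:ℕ)*t^(10:ℕ) + (-2499/40000)*d^(7:ℕ)*t^(11:ℕ) + (-43/3200)*d^(7:ℕ)*t^(12:ℕ)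 + (-9/250)*d^(8:ℕ) + (353/5000)*d^(8:ℕ)*t^(2:ℕ) + (-1029/10000)*d^(8:ℕ)*t^(3:ℕ) + (579/10000)*d^(8:ℕ)*t^(4:ℕ) + (1287/10000)*d^(8:ℕ)*t^(5:ℕ) + (-9161/50000)*d^(8:ℕ)*t^(6:ℕ) + (173/2000)*d^(8:ℕ)*t^(7:ℕ) + (1133/10000)*d^(8:ℕ)*t^(8:ℕ) + (-2347/10000)*d^(8:ℕ)*t^(9:ℕ) + (8241/50000)*d^(8:ℕ)*t^(10:ℕ) + (-149/2500)*d^(8:ℕ)*t^(11:ℕ) + (-3/1000)*d^(8:ℕ)*t^(12:ℕ) + (-9/250)*d^(9:ℕ)*t^(2:ℕ) + (63/1250)*d^(9:ℕ)*t^(3:ℕ) + (-149/4000)*d^(9:ℕ)*t^(4:ℕ) + (-19/2000)*d^(9:ℕ)*t^(5:ℕ) + (297/4000)*d^(9:ℕ)*t^(6:ℕ) + (-1149/10000)*d^(9:ℕ)*t^(7:ℕ) + (99/1000)*d^(9:ℕ)*t^(8:ℕ) + (-89/2000)*d^(9:ℕ)*t^(9:ℕ) + (119/4000)*d^(9:ℕ)*t^(10:ℕ) + (-7/400)*d^(9:ℕ)*t^(11:ℕ) + (1/160)*d^(9:ℕ)*t^(12:ℕ) + (-9/1000)*d^(10:ℕ)*t^(4:ℕ) + (63/2500)*d^(10:ℕ)*t^(5:ℕ)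 + (-891/25000)*d^(10:ℕ)*t^(6:ℕ) + (63/2500)*d^(10:ℕ)*t^(7:ℕ) + (-63/2500)*d^(10:ℕ)*t^(9:ℕ) + (891/25000)*d^(10:ℕ)*t^(10:ℕ) + (-63/2500)*d^(10:ℕ)*t^(11:ℕ) + (9/1000)*d^(10:ℕ)*t^(12:ℕ) = ((1/80) + (1/80)*t + (1/16)*t^(2:ℕ) + (1/16)*t^(3:ℕ) + (1/8)*t^(4:ℕ) + (1/8)*t^(5:ℕ) + (1/8)*t^(6:ℕ) + (1/8)*t^(7:ℕ) + (1/16)*t^(8:ℕ) + (1/16)*t^(9:ℕ) + (1/80)*t^(10:ℕ) + (1/80)*t^(11:ℕ)) + d*((39/800) + (17/400)*t + (967/3200)*t^(2:ℕ) + (439/1600)*t^(3:ℕ) + (2147/3200)*t^(4:ℕ) + (3/5)*t^(5:ℕ) + (1099/1600)*t^(6:ℕ) + (463/800)*t^(7:ℕ) + (521/1600)*t^(8:ℕ) + (97/400)*t^(9:ℕ) + (179/3200)*t^(10:ℕ) + (51/1600)*t^(11:ℕ) + (-1/3200)*t^(12:ℕ)) + d^(2:ℕ)*((-13/400) + (-19/400)*t + (283/1600)*t^(2:ℕ) + (149/800)*t^(3:ℕ) + (1607/1600)*t^(4:ℕ)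 + (89/100)*t^(5:ℕ) + (1167/800)*t^(6:ℕ) + (43/50)*t^(7:ℕ) + (619/800)*t^(8:ℕ) + (53/400)*t^(9:ℕ) + (7/64)*t^(10:ℕ) + (-57/800)*t^(11:ℕ) + (-1/1600)*t^(12:ℕ)) + d^(3:ℕ)*((-249/4000) + (-71/1000)*t + (-5761/16000)*t^(2:ℕ) + (-259/800)*t^(3:ℕ) + (81/16000)*t^(4:ℕ) + (33/320)*t^(5:ℕ) + (2281/2000)*t^(6:ℕ) + (31/1600)*t^(7:ℕ) + (4007/4000)*t^(8:ℕ) + (-913/1600)*t^(9:ℕ) + (21/128)*t^(10:ℕ) + (-1873/8000)*t^(11:ℕ) + (-1/16000)*t^(12:ℕ)) + d^(4:ℕ)*((373/2000) + (197/1000)*t + (849/2000)*t^(2:ℕ) + (-389/4000)*t^(3:ℕ) + (-1113/4000)*t^(4:ℕ) + (-257/500)*t^(5:ℕ) + (-403/1000)*t^(6:ℕ) + (-823/1000)*t^(7:ℕ) + (97/500)*t^(8:ℕ) + (-71/100)*t^(9:ℕ) + (171/2000)*t^(10:ℕ) + (-427/4000)*t^(11:ℕ) + (19/4000)*t^(12:ℕ)) + d^(5:ℕ)*((-23/1000)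 + (-31/2000)*t + (11187/20000)*t^(2:ℕ) + (19231/40000)*t^(3:ℕ) + (55167/80000)*t^(4:ℕ) + (-7371/20000)*t^(5:ℕ) + (-7503/80000)*t^(6:ℕ) + (-12387/20000)*t^(7:ℕ) + (-3429/8000)*t^(8:ℕ) + (3981/20000)*t^(9:ℕ) + (-18323/80000)*t^(10:ℕ) + (5433/40000)*t^(11:ℕ) + (57/16000)*t^(12:ℕ)) + d^(6:ℕ)*((-1/100) + (-49/1000)*t + (-337/625)*t^(2:ℕ) + (3487/10000)*t^(3:ℕ) + (2483/40000)*t^(4:ℕ) + (-4293/5000)*t^(5:ℕ) + (36697/40000)*t^(6:ℕ) + (-383/625)*t^(7:ℕ) + (2027/10000)*t^(8:ℕ) + (2487/10000)*t^(9:ℕ) + (-6683/40000)*t^(10:ℕ) + (1587/10000)*t^(11:ℕ) + (-29/8000)*t^(12:ℕ)) + d^(7:ℕ)*((31/1000) + (9/250)*t + (557/2000)*t^(2:ℕ) + (-2111/4000)*t^(3:ℕ) + (4399/16000)*t^(4:ℕ) + (679/8000)*t^(5:ℕ) + (-278651/400000)*t^(6:ℕ) + (37317/40000)*t^(7:ℕ)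 + (-252/625)*t^(8:ℕ) + (-7127/40000)*t^(9:ℕ) + (82971/400000)*t^(10:ℕ) + (-2499/40000)*t^(11:ℕ) + (-43/3200)*t^(12:ℕ)) + d^(8:ℕ)*((-9/250) + (353/5000)*t^(2:ℕ) + (-1029/10000)*t^(3:ℕ) + (579/10000)*t^(4:ℕ) + (1287/10000)*t^(5:ℕ) + (-9161/50000)*t^(6:ℕ) + (173/2000)*t^(7:ℕ) + (1133/10000)*t^(8:ℕ) + (-2347/10000)*t^(9:ℕ) + (8241/50000)*t^(10:ℕ) + (-149/2500)*t^(11:ℕ) + (-3/1000)*t^(12:ℕ)) + d^(9:ℕ)*((-9/250)*t^(2:ℕ) + (63/1250)*t^(3:ℕ) + (-149/4000)*t^(4:ℕ) + (-19/2000)*t^(5:ℕ) + (297/4000)*t^(6:ℕ) + (-1149/10000)*t^(7:ℕ) + (99/1000)*t^(8:ℕ) + (-89/2000)*t^(9:ℕ) + (119/4000)*t^(10:ℕ) + (-7/400)*t^(11:ℕ) + (1/160)*t^(12:ℕ)) + d^(10:ℕ)*((-9/1000)*t^(4:ℕ) + (63/2500)*t^(5:ℕ) + (-891/25000)*t^(6:ℕ) + (63/2500)*t^(7:ℕ)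 + (-63/2500)*t^(9:ℕ) + (891/25000)*t^(10:ℕ) + (-63/2500)*t^(11:ℕ) + (9/1000)*t^(12:ℕ)) := by
    ring
  rw [e0]
  exact pos_cTM0_id d ((1/80) + (1/80)*t + (1/16)*t^(2:ℕ) + (1/16)*t^(3:ℕ) + (1/8)*t^(4:ℕ) + (1/8)*t^(5:ℕ) + (1/8)*t^(6:ℕ) + (1/8)*t^(7:ℕ) + (1/16)*t^(8:ℕ) + (1/16)*t^(9:ℕ) + (1/80)*t^(10:ℕ) + (1/80)*t^(11:ℕ)) ((39/800) + (17/400)*t + (967/3200)*t^(2:ℕ) + (439/1600)*t^(3:ℕ) + (2147/3200)*t^(4:ℕ) + (3/5)*t^(5:ℕ) + (1099/1600)*t^(6:ℕ) + (463/800)*t^(7:ℕ) + (521/1600)*t^(8:ℕ) + (97/400)*t^(9:ℕ) + (179/3200)*t^(10:ℕ) + (51/1600)*t^(11:ℕ) + (-1/3200)*t^(12:ℕ)) ((-13/400) + (-19/400)*t + (283/1600)*t^(2:ℕ) + (149/800)*t^(3:ℕ) + (1607/1600)*t^(4:ℕ) + (89/100)*t^(5:ℕ) + (1167/800)*t^(6:ℕ) + (43/50)*t^(7:ℕ) +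 (619/800)*t^(8:ℕ) + (53/400)*t^(9:ℕ) + (7/64)*t^(10:ℕ) + (-57/800)*t^(11:ℕ) + (-1/1600)*t^(12:ℕ)) ((-249/4000) + (-71/1000)*t + (-5761/16000)*t^(2:ℕ) + (-259/800)*t^(3:ℕ) + (81/16000)*t^(4:ℕ) + (33/320)*t^(5:ℕ) + (2281/2000)*t^(6:ℕ) + (31/1600)*t^(7:ℕ) + (4007/4000)*t^(8:ℕ) + (-913/1600)*t^(9:ℕ) + (21/128)*t^(10:ℕ) + (-1873/8000)*t^(11:ℕ) + (-1/16000)*t^(12:ℕ)) ((373/2000) + (197/1000)*t + (849/2000)*t^(2:ℕ) + (-389/4000)*t^(3:ℕ) + (-1113/4000)*t^(4:ℕ) + (-257/500)*t^(5:ℕ) + (-403/1000)*t^(6:ℕ) + (-823/1000)*t^(7:ℕ) + (97/500)*t^(8:ℕ) + (-71/100)*t^(9:ℕ) + (171/2000)*t^(10:ℕ) + (-427/4000)*t^(11:ℕ) + (19/4000)*t^(12:ℕ)) ((-23/1000) + (-31/2000)*t + (11187/20000)*t^(2:ℕ) + (19231/40000)*t^(3:ℕ) + (55167/80000)*t^(4:ℕ)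 + (-7371/20000)*t^(5:ℕ) + (-7503/80000)*t^(6:ℕ) + (-12387/20000)*t^(7:ℕ) + (-3429/8000)*t^(8:ℕ) + (3981/20000)*t^(9:ℕ) + (-18323/80000)*t^(10:ℕ) + (5433/40000)*t^(11:ℕ) + (57/16000)*t^(12:ℕ)) ((-1/100) + (-49/1000)*t + (-337/625)*t^(2:ℕ) + (3487/10000)*t^(3:ℕ) + (2483/40000)*t^(4:ℕ) + (-4293/5000)*t^(5:ℕ) + (36697/40000)*t^(6:ℕ) + (-383/625)*t^(7:ℕ) + (2027/10000)*t^(8:ℕ) + (2487/10000)*t^(9:ℕ) + (-6683/40000)*t^(10:ℕ) + (1587/10000)*t^(11:ℕ) + (-29/8000)*t^(12:ℕ)) ((31/1000) + (9/250)*t + (557/2000)*t^(2:ℕ) + (-2111/4000)*t^(3:ℕ) + (4399/16000)*t^(4:ℕ) + (679/8000)*t^(5:ℕ) + (-278651/400000)*t^(6:ℕ) + (37317/40000)*t^(7:ℕ) + (-252/625)*t^(8:ℕ) + (-7127/40000)*t^(9:ℕ) + (82971/400000)*t^(10:ℕ) + (-2499/40000)*t^(11:ℕ)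 + (-43/3200)*t^(12:ℕ)) ((-9/250) + (353/5000)*t^(2:ℕ) + (-1029/10000)*t^(3:ℕ) + (579/10000)*t^(4:ℕ) + (1287/10000)*t^(5:ℕ) + (-9161/50000)*t^(6:ℕ) + (173/2000)*t^(7:ℕ) + (1133/10000)*t^(8:ℕ) + (-2347/10000)*t^(9:ℕ) + (8241/50000)*t^(10:ℕ) + (-149/2500)*t^(11:ℕ) + (-3/1000)*t^(12:ℕ)) ((-9/250)*t^(2:ℕ) + (63/1250)*t^(3:ℕ) + (-149/4000)*t^(4:ℕ) + (-19/2000)*t^(5:ℕ) + (297/4000)*t^(6:ℕ) + (-1149/10000)*t^(7:ℕ) + (99/1000)*t^(8:ℕ) + (-89/2000)*t^(9:ℕ) + (119/4000)*t^(10:ℕ) + (-7/400)*t^(11:ℕ) + (1/160)*t^(12:ℕ)) ((-9/1000)*t^(4:ℕ) + (63/2500)*t^(5:ℕ) + (-891/25000)*t^(6:ℕ) + (63/2500)*t^(7:ℕ) + (-63/2500)*t^(9:ℕ) + (891/25000)*t^(10:ℕ) + (-63/2500)*t^(11:ℕ) + (9/1000)*t^(12:ℕ)) h1 h2 ((pos_cTM0_b0 t h3 h4).trans_eq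 (by ring)) ((pos_cTM0_b1 t h3 h4).trans_eq (by ring)) ((pos_cTM0_b2 t h3 h4).trans_eq (by ring)) ((pos_cTM0_b3 t h3 h4).trans_eq (by ring)) ((pos_cTM0_b4 t h3 h4).trans_eq (by ring)) ((pos_cTM0_b5 t h3 h4).trans_eq (by ring)) ((pos_cTM0_b6 t h3 h4).trans_eq (by ring)) ((pos_cTM0_b7 t h3 h4).trans_eq (by ring)) ((pos_cTM0_b8 t h3 h4).trans_eq (by ring)) ((pos_cTM0_b9 t h3 h4).trans_eq (by ring)) ((pos_cTM0_b10 t h3 h4).trans_eq (by ring))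

lemma pos_cTMe_b0 (t : ℝ) (h3 : 0 ≤ t) (h4 : t ≤ 1) :
    0 ≤ (7/6400) + (-1/800)*t + (107/3200)*t^(2:ℕ) + (9/1600)*t^(3:ℕ) + (267/3200)*t^(4:ℕ) + (1/80)*t^(5:ℕ) + (159/1600)*t^(6:ℕ) + (-7/800)*t^(7:ℕ) + (91/1600)*t^(8:ℕ) + (-21/800)*t^(9:ℕ) + (39/3200)*t^(10:ℕ) + (-19/1600)*t^(11:ℕ) + (-1/3200)*t^(12:ℕ) := by
  obtain ⟨t2, ht2⟩ : ∃ t2 : ℝ, t2 = 1 - t := ⟨_, rfl⟩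
  have a4 : 0 ≤ t2 := by rw [ht2]; linarith
  have e : (7/6400) + (-1/800)*t + (107/3200)*t^(2:ℕ) + (9/1600)*t^(3:ℕ) + (267/3200)*t^(4:ℕ) + (1/80)*t^(5:ℕ) + (159/1600)*t^(6:ℕ) + (-7/800)*t^(7:ℕ) + (91/1600)*t^(8:ℕ) + (-21/800)*t^(9:ℕ) + (39/3200)*t^(10:ℕ) + (-19/1600)*t^(11:ℕ) + (-1/3200)*t^(12:ℕ) = (7/6400)*t2^(12:ℕ) + (19/1600)*t^(1:ℕ)*t2^(11:ℕ) + (147/1600)*t^(2:ℕ)*t2^(10:ℕ) + (819/1600)*t^(3:ℕ)*t2^(9:ℕ) + (12633/6400)*t^(4:ℕ)*t2^(8:ℕ) + (4279/800)*t^(5:ℕ)*t2^(7:ℕ) + (16721/1600)*t^(6:ℕ)*t2^(6:ℕ) + (11957/800)*t^(7:ℕ)*t2^(5:ℕ) + (20021/1280)*t^(8:ℕ)*t2^(4:ℕ) + (18769/1600)*t^(9:ℕ)*t2^(3:ℕ) + (19159/3200)*t^(10:ℕ)*t2^(2:ℕ) + (593/320)*t^(11:ℕ)*t2^(1:ℕ) + (1639/6400)*t^(12:ℕ) := by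
    rw [ht2]; ring
  rw [e]
  positivity

lemma pos_cTMe_b1 (t : ℝ) (h3 : 0 ≤ t) (h4 : t ≤ 1) :
    0 ≤ (147/70400) + (-69/35200)*t + (2689/70400)*t^(2:ℕ) + (13/1600)*t^(3:ℕ) + (7231/70400)*t^(4:ℕ) + (413/17600)*t^(5:ℕ) + (419/3200)*t^(6:ℕ) + (-69/8800)*t^(7:ℕ) + (1341/17600)*t^(8:ℕ) + (-1381/35200)*t^(9:ℕ) + (217/14080)*t^(10:ℕ) + (-317/17600)*t^(11:ℕ) + (-1/2816)*t^(12:ℕ) := by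
  obtain ⟨t2, ht2⟩ : ∃ t2 : ℝ, t2 = 1 - t := ⟨_, rfl⟩
  have a4 : 0 ≤ t2 := by rw [ht2]; linarith
  have e : (147/70400) + (-69/35200)*t + (2689/70400)*t^(2:ℕ) + (13/1600)*t^(3:ℕ) + (7231/70400)*t^(4:ℕ) + (413/17600)*t^(5:ℕ) + (419/3200)*t^(6:ℕ) + (-69/8800)*t^(7:ℕ) + (1341/17600)*t^(8:ℕ) + (-1381/35200)*t^(9:ℕ) + (217/14080)*t^(10:ℕ) + (-317/17600)*t^(11:ℕ) + (-1/2816)*t^(12:ℕ) = (147/70400)*t2^(12:ℕ) + (813/35200)*t^(1:ℕ)*t2^(11:ℕ) + (10873/70400)*t^(2:ℕ)*t2^(10:ℕ) + (13053/17600)*t^(3:ℕ)*t2^(9:ℕ) + (183379/70400)*t^(4:ℕ)*t2^(8:ℕ) + (59207/8800)*t^(5:ℕ)*t2^(7:ℕ) + (45403/3520)*t^(6:ℕ)*t2^(6:ℕ) + (81047/4400)*t^(7:ℕ)*t2^(5:ℕ) + (124441/6400)*t^(8:ℕ)*t2^(4:ℕ) + (260147/17600)*t^(9:ℕ)*t2^(3:ℕ) + (269301/35200)*t^(10:ℕ)*t2^(2:ℕ)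 + (42079/17600)*t^(11:ℕ)*t2^(1:ℕ) + (23213/70400)*t^(12:ℕ) := by
    rw [ht2]; ring
  rw [e]
  positivity

lemma pos_cTMe_b2 (t : ℝ) (h3 : 0 ≤ t) (h4 : t ≤ 1) :
    0 ≤ (979/320000) + (-1347/440000)*t + (595431/14080000)*t^(2:ℕ) + (14539/1408000)*t^(3:ℕ) + (1749019/14080000)*t^(4:ℕ) + (13237/352000)*t^(5:ℕ) + (1196951/7040000)*t^(6:ℕ) + (-457/64000)*t^(7:ℕ) + (708901/7040000)*t^(8:ℕ) + (-1857/32000)*t^(9:ℕ) + (53983/2816000)*t^(10:ℕ) + (-187777/7040000)*t^(11:ℕ) + (-5649/14080000)*t^(12:ℕ) := by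
  obtain ⟨t2, ht2⟩ : ∃ t2 : ℝ, t2 = 1 - t := ⟨_, rfl⟩
  have a4 : 0 ≤ t2 := by rw [ht2]; linarith
  have e : (979/320000) + (-1347/440000)*t + (595431/14080000)*t^(2:ℕ) + (14539/1408000)*t^(3:ℕ) + (1749019/14080000)*t^(4:ℕ) + (13237/352000)*t^(5:ℕ) + (1196951/7040000)*t^(6:ℕ) + (-457/64000)*t^(7:ℕ) + (708901/7040000)*t^(8:ℕ) + (-1857/32000)*t^(9:ℕ) + (53983/2816000)*t^(10:ℕ) + (-187777/7040000)*t^(11:ℕ) + (-5649/14080000)*t^(12:ℕ) = (979/320000)*t2^(12:ℕ) + (29613/880000)*t^(1:ℕ)*t2^(11:ℕ) + (2964303/14080000)*t^(2:ℕ)*t2^(10:ℕ) + (132057/140800)*t^(3:ℕ)*t2^(9:ℕ) + (2753899/880000)*t^(4:ℕ)*t2^(8:ℕ) + (867963/110000)*t^(5:ℕ)*t2^(7:ℕ) + (1326339/88000)*t^(6:ℕ)*t2^(6:ℕ) + (19118557/880000)*t^(7:ℕ)*t2^(5:ℕ) + (41030589/1760000)*t^(8:ℕ)*t2^(4:ℕ)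 + (7944771/440000)*t^(9:ℕ)*t2^(3:ℕ) + (836381/88000)*t^(10:ℕ)*t2^(2:ℕ) + (1320283/440000)*t^(11:ℕ)*t2^(1:ℕ) + (725261/1760000)*t^(12:ℕ) := by
    rw [ht2]; ring
  rw [e]
  positivity

lemma pos_cTMe_b3 (t : ℝ) (h3 : 0 ≤ t) (h4 : t ≤ 1) :
    0 ≤ (841/211200) + (-48749/10560000)*t + (160471/3520000)*t^(2:ℕ) + (63263/5280000)*t^(3:ℕ) + (35483/240000)*t^(4:ℕ) + (584077/10560000)*t^(5:ℕ) + (764889/3520000)*t^(6:ℕ) + (-37991/5280000)*t^(7:ℕ) + (692323/5280000)*t^(8:ℕ) + (-446161/5280000)*t^(9:ℕ) + (41399/1760000)*t^(10:ℕ) + (-67923/1760000)*t^(11:ℕ) + (-1181/2640000)*t^(12:ℕ) := by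
  obtain ⟨t2, ht2⟩ : ∃ t2 : ℝ, t2 = 1 - t := ⟨_, rfl⟩
  have a4 : 0 ≤ t2 := by rw [ht2]; linarith
  have e : (841/211200) + (-48749/10560000)*t + (160471/3520000)*t^(2:ℕ) + (63263/5280000)*t^(3:ℕ) + (35483/240000)*t^(4:ℕ) + (584077/10560000)*t^(5:ℕ) + (764889/3520000)*t^(6:ℕ) + (-37991/5280000)*t^(7:ℕ) + (692323/5280000)*t^(8:ℕ) + (-446161/5280000)*t^(9:ℕ) + (41399/1760000)*t^(10:ℕ) + (-67923/1760000)*t^(11:ℕ) + (-1181/2640000)*t^(12:ℕ) = (841/211200)*t2^(12:ℕ) + (41441/960000)*t^(1:ℕ)*t2^(11:ℕ) + (1360237/5280000)*t^(2:ℕ)*t2^(10:ℕ) + (11510461/10560000)*t^(3:ℕ)*t2^(9:ℕ) + (2320921/660000)*t^(4:ℕ)*t2^(8:ℕ) + (30871673/3520000)*t^(5:ℕ)*t2^(7:ℕ) + (89077669/5280000)*t^(6:ℕ)*t2^(6:ℕ) + (261427663/10560000)*t^(7:ℕ)*t2^(5:ℕ)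 + (47820277/1760000)*t^(8:ℕ)*t2^(4:ℕ) + (56814437/2640000)*t^(9:ℕ)*t2^(3:ℕ) + (2768927/240000)*t^(10:ℕ)*t2^(2:ℕ) + (1941937/528000)*t^(11:ℕ)*t2^(1:ℕ) + (176457/352000)*t^(12:ℕ) := by
    rw [ht2]; ring
  rw [e]
  positivity

lemma pos_cTMe_b4 (t : ℝ) (h3 : 0 ≤ t) (h4 : t ≤ 1) :
    0 ≤ (81847/16896000) + (-281671/42240000)*t + (81292307/1689600000)*t^(2:ℕ) + (5455237/422400000)*t^(3:ℕ) + (293129033/1689600000)*t^(4:ℕ) + (5904787/76800000)*t^(5:ℕ) + (115433897/422400000)*t^(6:ℕ) + (-7486541/844800000)*t^(7:ℕ) + (14206067/84480000)*t^(8:ℕ) + (-34020819/281600000)*t^(9:ℕ) + (16060051/563200000)*t^(10:ℕ) + (-1398121/25600000)*t^(11:ℕ) + (-33017/67584000)*t^(12:ℕ) := by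
  obtain ⟨t2, ht2⟩ : ∃ t2 : ℝ, t2 = 1 - t := ⟨_, rfl⟩
  have a4 : 0 ≤ t2 := by rw [ht2]; linarith
  have e : (81847/16896000) + (-281671/42240000)*t + (81292307/1689600000)*t^(2:ℕ) + (5455237/422400000)*t^(3:ℕ) + (293129033/1689600000)*t^(4:ℕ) + (5904787/76800000)*t^(5:ℕ) + (115433897/422400000)*t^(6:ℕ) + (-7486541/844800000)*t^(7:ℕ) + (14206067/84480000)*t^(8:ℕ) + (-34020819/281600000)*t^(9:ℕ) + (16060051/563200000)*t^(10:ℕ) + (-1398121/25600000)*t^(11:ℕ) + (-33017/67584000)*t^(12:ℕ) = (81847/16896000)*t2^(12:ℕ) + (2173739/42240000)*t^(1:ℕ)*t2^(11:ℕ) + (165849089/563200000)*t^(2:ℕ)*t2^(10:ℕ) + (335950303/281600000)*t^(3:ℕ)*t2^(9:ℕ) + (39625433/10560000)*t^(4:ℕ)*t2^(8:ℕ) + (7889896873/844800000)*t^(5:ℕ)*t2^(7:ℕ)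 + (7710103133/422400000)*t^(6:ℕ)*t2^(6:ℕ) + (773513017/28160000)*t^(7:ℕ)*t2^(5:ℕ) + (4362933439/140800000)*t^(8:ℕ)*t2^(4:ℕ) + (5313611887/211200000)*t^(9:ℕ)*t2^(3:ℕ) + (241840447/17600000)*t^(10:ℕ)*t2^(2:ℕ) + (23317829/5280000)*t^(11:ℕ)*t2^(1:ℕ) + (10467741/17600000)*t^(12:ℕ) := by
    rw [ht2]; ring
  rw [e]
  positivity

lemma pos_cTMe_b5 (t : ℝ) (h3 : 0 ≤ t) (h4 : t ≤ 1) :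
    0 ≤ (334093/59136000) + (-813/88000)*t + (118376633/2365440000)*t^(2:ℕ) + (1406389/107520000)*t^(3:ℕ) + (158573301/788480000)*t^(4:ℕ) + (2203141/21504000)*t^(5:ℕ) + (133399279/394240000)*t^(6:ℕ) + (-15867307/1182720000)*t^(7:ℕ) + (15703123/73920000)*t^(8:ℕ) + (-200403667/1182720000)*t^(9:ℕ) + (80807297/2365440000)*t^(10:ℕ) + (-11187203/147840000)*t^(11:ℕ) + (-245111/473088000)*t^(12:ℕ) := by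
  obtain ⟨t2, ht2⟩ : ∃ t2 : ℝ, t2 = 1 - t := ⟨_, rfl⟩
  have a4 : 0 ≤ t2 := by rw [ht2]; linarith
  have e : (334093/59136000) + (-813/88000)*t + (118376633/2365440000)*t^(2:ℕ) + (1406389/107520000)*t^(3:ℕ) + (158573301/788480000)*t^(4:ℕ) + (2203141/21504000)*t^(5:ℕ) + (133399279/394240000)*t^(6:ℕ) + (-15867307/1182720000)*t^(7:ℕ) + (15703123/73920000)*t^(8:ℕ) + (-200403667/1182720000)*t^(9:ℕ) + (80807297/2365440000)*t^(10:ℕ) + (-11187203/147840000)*t^(11:ℕ) + (-245111/473088000)*t^(12:ℕ) = (334093/59136000)*t2^(12:ℕ) + (57713/985600)*t^(1:ℕ)*t2^(11:ℕ) + (759994313/2365440000)*t^(2:ℕ)*t2^(10:ℕ) + (52728323/42240000)*t^(3:ℕ)*t2^(9:ℕ) + (27546537/7168000)*t^(4:ℕ)*t2^(8:ℕ) + (11369795911/1182720000)*t^(5:ℕ)*t2^(7:ℕ)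 + (4552685933/236544000)*t^(6:ℕ)*t2^(6:ℕ) + (17679352123/591360000)*t^(7:ℕ)*t2^(5:ℕ) + (41146628737/1182720000)*t^(8:ℕ)*t2^(4:ℕ) + (57133809/1971200)*t^(9:ℕ)*t2^(3:ℕ) + (226858701/14080000)*t^(10:ℕ)*t2^(2:ℕ) + (1539785501/295680000)*t^(11:ℕ)*t2^(1:ℕ) + (617361/896000)*t^(12:ℕ) := by
    rw [ht2]; ring
  rw [e]
  positivity

lemma pos_cTMe_b6 (t : ℝ) (h3 : 0 ≤ t) (h4 : t ≤ 1) :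
    0 ≤ (3163/492800) + (-416597/33792000)*t + (3822671/73920000)*t^(2:ℕ) + (2844019/225280000)*t^(3:ℕ) + (727886981/3153920000)*t^(4:ℕ) + (8909221/67584000)*t^(5:ℕ) + (19535213641/47308800000)*t^(6:ℕ) + (-17869239/788480000)*t^(7:ℕ) + (1251327811/4730880000)*t^(8:ℕ) + (-36763931/157696000)*t^(9:ℕ) + (1911554969/47308800000)*t^(10:ℕ) + (-19443323/189235200)*t^(11:ℕ) + (-999631/1892352000)*t^(12:ℕ) := by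
  obtain ⟨t2, ht2⟩ : ∃ t2 : ℝ, t2 = 1 - t := ⟨_, rfl⟩
  have a4 : 0 ≤ t2 := by rw [ht2]; linarith
  have e : (3163/492800) + (-416597/33792000)*t + (3822671/73920000)*t^(2:ℕ) + (2844019/225280000)*t^(3:ℕ) + (727886981/3153920000)*t^(4:ℕ) + (8909221/67584000)*t^(5:ℕ) + (19535213641/47308800000)*t^(6:ℕ) + (-17869239/788480000)*t^(7:ℕ) + (1251327811/4730880000)*t^(8:ℕ) + (-36763931/157696000)*t^(9:ℕ) + (1911554969/47308800000)*t^(10:ℕ) + (-19443323/189235200)*t^(11:ℕ) + (-999631/1892352000)*t^(12:ℕ) = (3163/492800)*t2^(12:ℕ) + (15302701/236544000)*t^(1:ℕ)*t2^(11:ℕ) + (133930697/394240000)*t^(2:ℕ)*t2^(10:ℕ) + (5978692939/4730880000)*t^(3:ℕ)*t2^(9:ℕ) + (2406110379/630784000)*t^(4:ℕ)*t2^(8:ℕ) + (2075846413/215040000)*t^(5:ℕ)*t2^(7:ℕ)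 + (943954218521/47308800000)*t^(6:ℕ)*t2^(6:ℕ) + (23050562701/716800000)*t^(7:ℕ)*t2^(5:ℕ) + (121973041781/3153920000)*t^(8:ℕ)*t2^(4:ℕ) + (78151296103/2365440000)*t^(9:ℕ)*t2^(3:ℕ) + (13788202111/739200000)*t^(10:ℕ)*t2^(2:ℕ) + (6496555841/1075200000)*t^(11:ℕ)*t2^(1:ℕ) + (61486361/78848000)*t^(12:ℕ) := by
    rw [ht2]; ring
  rw [e]
  positivity

lemma pos_cTMe_b7 (t : ℝ) (h3 : 0 ≤ t) (h4 : t ≤ 1) :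
    0 ≤ (101207/14080000) + (-84071/5280000)*t + (15087287/281600000)*t^(2:ℕ) + (13437883/1126400000)*t^(3:ℕ) + (443977799/1689600000)*t^(4:ℕ) + (34706321/211200000)*t^(5:ℕ) + (1400624161/2816000000)*t^(6:ℕ) + (-1030603/26400000)*t^(7:ℕ) + (219542617/675840000)*t^(8:ℕ) + (-531937589/1689600000)*t^(9:ℕ) + (397944227/8448000000)*t^(10:ℕ) + (-462317227/3379200000)*t^(11:ℕ) + (-345607/675840000)*t^(12:ℕ) := by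
  obtain ⟨t2, ht2⟩ : ∃ t2 : ℝ, t2 = 1 - t := ⟨_, rfl⟩
  have a4 : 0 ≤ t2 := by rw [ht2]; linarith
  have e : (101207/14080000) + (-84071/5280000)*t + (15087287/281600000)*t^(2:ℕ) + (13437883/1126400000)*t^(3:ℕ) + (443977799/1689600000)*t^(4:ℕ) + (34706321/211200000)*t^(5:ℕ) + (1400624161/2816000000)*t^(6:ℕ) + (-1030603/26400000)*t^(7:ℕ) + (219542617/675840000)*t^(8:ℕ) + (-531937589/1689600000)*t^(9:ℕ) + (397944227/8448000000)*t^(10:ℕ) + (-462317227/3379200000)*t^(11:ℕ) + (-345607/675840000)*t^(12:ℕ) = (101207/14080000)*t2^(12:ℕ) + (742721/10560000)*t^(1:ℕ)*t2^(11:ℕ) + (298076621/844800000)*t^(2:ℕ)*t2^(10:ℕ) + (4235218489/3379200000)*t^(3:ℕ)*t2^(9:ℕ) + (12543407419/3379200000)*t^(4:ℕ)*t2^(8:ℕ) + (8079390481/844800000)*t^(5:ℕ)*t2^(7:ℕ)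 + (57852062071/2816000000)*t^(6:ℕ)*t2^(6:ℕ) + (97018502551/2816000000)*t^(7:ℕ)*t2^(5:ℕ) + (48202957699/1126400000)*t^(8:ℕ)*t2^(4:ℕ) + (12636171023/337920000)*t^(9:ℕ)*t2^(3:ℕ) + (22566318859/1056000000)*t^(10:ℕ)*t2^(2:ℕ) + (29179799171/4224000000)*t^(11:ℕ)*t2^(1:ℕ) + (728226053/844800000)*t^(12:ℕ) := by
    rw [ht2]; ring
  rw [e]
  positivity

lemma pos_cTMe_b8 (t : ℝ) (h3 : 0 ≤ t) (h4 : t ≤ 1) :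
    0 ≤ (1353947/168960000) + (-422357/21120000)*t + (18979127/337920000)*t^(2:ℕ) + (2619079/225280000)*t^(3:ℕ) + (4022191571/13516800000)*t^(4:ℕ) + (1342179539/6758400000)*t^(5:ℕ) + (13343472143/22528000000)*t^(6:ℕ) + (-443835947/6758400000)*t^(7:ℕ) + (332743643/844800000)*t^(8:ℕ) + (-940871501/2252800000)*t^(9:ℕ) + (1216952497/22528000000)*t^(10:ℕ) + (-402674329/2252800000)*t^(11:ℕ) + (-1251551/2703360000)*t^(12:ℕ) := by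
  obtain ⟨t2, ht2⟩ : ∃ t2 : ℝ, t2 = 1 - t := ⟨_, rfl⟩
  have a4 : 0 ≤ t2 := by rw [ht2]; linarith
  have e : (1353947/168960000) + (-422357/21120000)*t + (18979127/337920000)*t^(2:ℕ) + (2619079/225280000)*t^(3:ℕ) + (4022191571/13516800000)*t^(4:ℕ) + (1342179539/6758400000)*t^(5:ℕ) + (13343472143/22528000000)*t^(6:ℕ) + (-443835947/6758400000)*t^(7:ℕ) + (332743643/844800000)*t^(8:ℕ) + (-940871501/2252800000)*t^(9:ℕ) + (1216952497/22528000000)*t^(10:ℕ) + (-402674329/2252800000)*t^(11:ℕ) + (-1251551/2703360000)*t^(12:ℕ) = (1353947/168960000)*t2^(12:ℕ) + (3217127/42240000)*t^(1:ℕ)*t2^(11:ℕ) + (123365299/337920000)*t^(2:ℕ)*t2^(10:ℕ) + (835564817/675840000)*t^(3:ℕ)*t2^(9:ℕ) + (48614324831/13516800000)*t^(4:ℕ)*t2^(8:ℕ)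 + (5827417973/614400000)*t^(5:ℕ)*t2^(7:ℕ) + (478740050433/22528000000)*t^(6:ℕ)*t2^(6:ℕ) + (417313748329/11264000000)*t^(7:ℕ)*t2^(5:ℕ) + (128024434529/2703360000)*t^(8:ℕ)*t2^(4:ℕ) + (142404785597/3379200000)*t^(9:ℕ)*t2^(3:ℕ) + (820117055453/33792000000)*t^(10:ℕ)*t2^(2:ℕ) + (43876141173/5632000000)*t^(11:ℕ)*t2^(1:ℕ) + (98170439/105600000)*t^(12:ℕ) := by
    rw [ht2]; ring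
  rw [e]
  positivity

lemma pos_cTMe_b9 (t : ℝ) (h3 : 0 ≤ t) (h4 : t ≤ 1) :
    0 ≤ (505139/56320000) + (-345379/14080000)*t + (16901989/281600000)*t^(2:ℕ) + (7063919/563200000)*t^(3:ℕ) + (1514025941/4505600000)*t^(4:ℕ) + (523295359/2252800000)*t^(5:ℕ) + (15736298483/22528000000)*t^(6:ℕ) + (-239689271/2252800000)*t^(7:ℕ) + (48328507/102400000)*t^(8:ℕ) + (-111574873/204800000)*t^(9:ℕ) + (1370776317/22528000000)*t^(10:ℕ) + (-516398529/2252800000)*t^(11:ℕ) + (-347477/901120000)*t^(12:ℕ) := by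
  obtain ⟨t2, ht2⟩ : ∃ t2 : ℝ, t2 = 1 - t := ⟨_, rfl⟩
  have a4 : 0 ≤ t2 := by rw [ht2]; linarith
  have e : (505139/56320000) + (-345379/14080000)*t + (16901989/281600000)*t^(2:ℕ) + (7063919/563200000)*t^(3:ℕ) + (1514025941/4505600000)*t^(4:ℕ) + (523295359/2252800000)*t^(5:ℕ) + (15736298483/22528000000)*t^(6:ℕ) + (-239689271/2252800000)*t^(7:ℕ) + (48328507/102400000)*t^(8:ℕ) + (-111574873/204800000)*t^(9:ℕ) + (1370776317/22528000000)*t^(10:ℕ) + (-516398529/2252800000)*t^(11:ℕ) + (-347477/901120000)*t^(12:ℕ) = (505139/56320000)*t2^(12:ℕ) + (585019/7040000)*t^(1:ℕ)*t2^(11:ℕ) + (107614479/281600000)*t^(2:ℕ)*t2^(10:ℕ) + (696575699/563200000)*t^(3:ℕ)*t2^(9:ℕ) + (15959553389/4505600000)*t^(4:ℕ)*t2^(8:ℕ) + (21589305219/2252800000)*t^(5:ℕ)*t2^(7:ℕ)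 + (503414005993/22528000000)*t^(6:ℕ)*t2^(6:ℕ) + (453455157729/11264000000)*t^(7:ℕ)*t2^(5:ℕ) + (236993543439/4505600000)*t^(8:ℕ)*t2^(4:ℕ) + (53367978503/1126400000)*t^(9:ℕ)*t2^(3:ℕ) + (308118713051/11264000000)*t^(10:ℕ)*t2^(2:ℕ) + (48830646093/5632000000)*t^(11:ℕ)*t2^(1:ℕ) + (137398711/140800000)*t^(12:ℕ) := by
    rw [ht2]; ring
  rw [e]
  positivity

lemma pos_cTMe_b10 (t : ℝ) (h3 : 0 ≤ t) (h4 : t ≤ 1) :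
    0 ≤ (114337/11264000) + (-1329/45056)*t + (1478879/22528000)*t^(2:ℕ) + (3511983/225280000)*t^(3:ℕ) + (85480383/225280000)*t^(4:ℕ) + (58983863/225280000)*t^(5:ℕ) + (184071939/225280000)*t^(6:ℕ) + (-37320913/225280000)*t^(7:ℕ) + (126042967/225280000)*t^(8:ℕ) + (-14329113/20480000)*t^(9:ℕ) + (15171511/225280000)*t^(10:ℕ) + (-23647/81920)*t^(11:ℕ) + (-1317/4505600)*t^(12:ℕ) := by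
  obtain ⟨t2, ht2⟩ : ∃ t2 : ℝ, t2 = 1 - t := ⟨_, rfl⟩
  have a4 : 0 ≤ t2 := by rw [ht2]; linarith
  have e : (114337/11264000) + (-1329/45056)*t + (1478879/22528000)*t^(2:ℕ) + (3511983/225280000)*t^(3:ℕ) + (85480383/225280000)*t^(4:ℕ) + (58983863/225280000)*t^(5:ℕ) + (184071939/225280000)*t^(6:ℕ) + (-37320913/225280000)*t^(7:ℕ) + (126042967/225280000)*t^(8:ℕ) + (-14329113/20480000)*t^(9:ℕ) + (15171511/225280000)*t^(10:ℕ) + (-23647/81920)*t^(11:ℕ) + (-1317/4505600)*t^(12:ℕ) = (114337/11264000)*t2^(12:ℕ) + (519897/5632000)*t^(1:ℕ)*t2^(11:ℕ) + (9261863/22528000)*t^(2:ℕ)*t2^(10:ℕ) + (289007683/225280000)*t^(3:ℕ)*t2^(9:ℕ) + (1859307/512000)*t^(4:ℕ)*t2^(8:ℕ) + (452432239/45056000)*t^(5:ℕ)*t2^(7:ℕ) + (169813123/7040000)*t^(6:ℕ)*t2^(6:ℕ)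 + (1000306631/22528000)*t^(7:ℕ)*t2^(5:ℕ) + (330895539/5632000)*t^(8:ℕ)*t2^(4:ℕ) + (119824371/2252800)*t^(9:ℕ)*t2^(3:ℕ) + (1723981791/56320000)*t^(10:ℕ)*t2^(2:ℕ) + (67031991/7040000)*t^(11:ℕ)*t2^(1:ℕ) + (5591423/5632000)*t^(12:ℕ) := by
    rw [ht2]; ring
  rw [e]
  positivity

lemma pos_cTMe_b11 (t : ℝ) (h3 : 0 ≤ t) (h4 : t ≤ 1) :
    0 ≤ (11957/1024000) + (-8929/256000)*t + (37603/512000)*t^(2:ℕ) + (44107/2048000)*t^(3:ℕ) + (1759703/4096000)*t^(4:ℕ) + (288863/1024000)*t^(5:ℕ) + (3887693/4096000)*t^(6:ℕ) + (-63579/256000)*t^(7:ℕ) + (1345647/2048000)*t^(8:ℕ) + (-907207/1024000)*t^(9:ℕ) + (301483/4096000)*t^(10:ℕ) + (-146279/409600)*t^(11:ℕ) + (-33/163840)*t^(12:ℕ) := by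
  obtain ⟨t2, ht2⟩ : ∃ t2 : ℝ, t2 = 1 - t := ⟨_, rfl⟩
  have a4 : 0 ≤ t2 := by rw [ht2]; linarith
  have e : (11957/1024000) + (-8929/256000)*t + (37603/512000)*t^(2:ℕ) + (44107/2048000)*t^(3:ℕ) + (1759703/4096000)*t^(4:ℕ) + (288863/1024000)*t^(5:ℕ) + (3887693/4096000)*t^(6:ℕ) + (-63579/256000)*t^(7:ℕ) + (1345647/2048000)*t^(8:ℕ) + (-907207/1024000)*t^(9:ℕ) + (301483/4096000)*t^(10:ℕ) + (-146279/409600)*t^(11:ℕ) + (-33/163840)*t^(12:ℕ) = (11957/1024000)*t2^(12:ℕ) + (13471/128000)*t^(1:ℕ)*t2^(11:ℕ) + (117873/256000)*t^(2:ℕ)*t2^(10:ℕ) + (2880547/2048000)*t^(3:ℕ)*t2^(9:ℕ) + (16193009/4096000)*t^(4:ℕ)*t2^(8:ℕ) + (11310579/1024000)*t^(5:ℕ)*t2^(7:ℕ) + (110020461/4096000)*t^(6:ℕ)*t2^(6:ℕ) + (101957987/2048000)*t^(7:ℕ)*t2^(5:ℕ)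 + (270358143/4096000)*t^(8:ℕ)*t2^(4:ℕ) + (61040053/1024000)*t^(9:ℕ)*t2^(3:ℕ) + (69626803/2048000)*t^(10:ℕ)*t2^(2:ℕ) + (10557273/1024000)*t^(11:ℕ)*t2^(1:ℕ) + (49749/51200)*t^(12:ℕ) := by
    rw [ht2]; ring
  rw [e]
  positivity

lemma pos_cTMe_id (d C0 C1 C2 C3 C4 C5 C6 C7 C8 C9 C10 C11 : ℝ) (h1 : 0 ≤ d) (h2 : d ≤ (1/2))
    (b0 : 0 ≤ 1*C0 - (1/256))
    (b1 : 0 ≤ 1*C0 + (1/22)*C1 - (1/256))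
    (b2 : 0 ≤ 1*C0 + (1/11)*C1 + (1/220)*C2 - (1/256))
    (b3 : 0 ≤ 1*C0 + (3/22)*C1 + (3/220)*C2 + (1/1320)*C3 - (1/256))
    (b4 : 0 ≤ 1*C0 + (2/11)*C1 + (3/110)*C2 + (1/330)*C3 + (1/5280)*C4 - (1/256))
    (b5 : 0 ≤ 1*C0 + (5/22)*C1 + (1/22)*C2 + (1/132)*C3 + (1/1056)*C4 + (1/14784)*C5 - (1/256))
    (b6 : 0 ≤ 1*C0 + (3/11)*C1 + (3/44)*C2 + (1/66)*C3 + (1/352)*C4 + (1/2464)*C5 + (1/29568)*C6 - (1/256))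
    (b7 : 0 ≤ 1*C0 + (7/22)*C1 + (21/220)*C2 + (7/264)*C3 + (7/1056)*C4 + (1/704)*C5 + (1/4224)*C6 + (1/42240)*C7 - (1/256))
    (b8 : 0 ≤ 1*C0 + (4/11)*C1 + (7/55)*C2 + (7/165)*C3 + (7/528)*C4 + (1/264)*C5 + (1/1056)*C6 + (1/5280)*C7 + (1/42240)*C8 - (1/256))
    (b9 : 0 ≤ 1*C0 + (9/22)*C1 + (9/55)*C2 + (7/110)*C3 + (21/880)*C4 + (3/352)*C5 + (1/352)*C6 + (3/3520)*C7 + (3/14080)*C8 + (1/28160)*C9 - (1/256))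
    (b10 : 0 ≤ 1*C0 + (5/11)*C1 + (9/44)*C2 + (1/11)*C3 + (7/176)*C4 + (3/176)*C5 + (5/704)*C6 + (1/352)*C7 + (3/2816)*C8 + (1/2816)*C9 + (1/11264)*C10 - (1/256))
    (b11 : 0 ≤ 1*C0 + (1/2)*C1 + (1/4)*C2 + (1/8)*C3 + (1/16)*C4 + (1/32)*C5 + (1/64)*C6 + (1/128)*C7 + (1/256)*C8 + (1/512)*C9 + (1/1024)*C10 + (1/2048)*C11 - (1/256))
    : 0 < C0 + d*C1 + d^(2:ℕ)*C2 + d^(3:ℕ)*C3 + d^(4:ℕ)*C4 + d^(5:ℕ)*C5 + d^(6:ℕ)*C6 + d^(7:ℕ)*C7 + d^(8:ℕ)*C8 + d^(9:ℕ)*C9 + d^(10:ℕ)*C10 + d^(11:ℕ)*C11 := by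
  obtain ⟨d2, hd2⟩ : ∃ d2 : ℝ, d2 = (1/2) - d := ⟨_, rfl⟩
  have a2 : 0 ≤ d2 := by rw [hd2]; linarith
  obtain ⟨B0, hB0⟩ : ∃ B : ℝ, B = 1*C0 - (1/256) := ⟨_, rfl⟩
  rw [← hB0] at b0
  obtain ⟨B1, hB1⟩ : ∃ B : ℝ, B = 1*C0 + (1/22)*C1 - (1/256) := ⟨_, rfl⟩
  rw [← hB1] at b1
  obtain ⟨B2, hB2⟩ : ∃ B : ℝ, B = 1*C0 + (1/11)*C1 + (1/220)*C2 - (1/256) := ⟨_, rfl⟩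
  rw [← hB2] at b2
  obtain ⟨B3, hB3⟩ : ∃ B : ℝ, B = 1*C0 + (3/22)*C1 + (3/220)*C2 + (1/1320)*C3 - (1/256) := ⟨_, rfl⟩
  rw [← hB3] at b3
  obtain ⟨B4, hB4⟩ : ∃ B : ℝ, B = 1*C0 + (2/11)*C1 + (3/110)*C2 + (1/330)*C3 + (1/5280)*C4 - (1/256) := ⟨_, rfl⟩
  rw [← hB4] at b4
  obtain ⟨B5, hB5⟩ : ∃ B : ℝ, B = 1*C0 + (5/22)*C1 + (1/22)*C2 + (1/132)*C3 + (1/1056)*C4 + (1/14784)*C5 - (1/256) := ⟨_, rfl⟩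
  rw [← hB5] at b5
  obtain ⟨B6, hB6⟩ : ∃ B : ℝ, B = 1*C0 + (3/11)*C1 + (3/44)*C2 + (1/66)*C3 + (1/352)*C4 + (1/2464)*C5 + (1/29568)*C6 - (1/256) := ⟨_, rfl⟩
  rw [← hB6] at b6
  obtain ⟨B7, hB7⟩ : ∃ B : ℝ, B = 1*C0 + (7/22)*C1 + (21/220)*C2 + (7/264)*C3 + (7/1056)*C4 + (1/704)*C5 + (1/4224)*C6 + (1/42240)*C7 - (1/256) := ⟨_, rfl⟩
  rw [← hB7] at b7
  obtain ⟨B8, hB8⟩ : ∃ B : ℝ, B = 1*C0 + (4/11)*C1 + (7/55)*C2 + (7/165)*C3 + (7/528)*C4 + (1/264)*C5 + (1/1056)*C6 + (1/5280)*C7 + (1/42240)*C8 - (1/256) := ⟨_, rfl⟩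
  rw [← hB8] at b8
  obtain ⟨B9, hB9⟩ : ∃ B : ℝ, B = 1*C0 + (9/22)*C1 + (9/55)*C2 + (7/110)*C3 + (21/880)*C4 + (3/352)*C5 + (1/352)*C6 + (3/3520)*C7 + (3/14080)*C8 + (1/28160)*C9 - (1/256) := ⟨_, rfl⟩
  rw [← hB9] at b9
  obtain ⟨B10, hB10⟩ : ∃ B : ℝ, B = 1*C0 + (5/11)*C1 + (9/44)*C2 + (1/11)*C3 + (7/176)*C4 + (3/176)*C5 + (5/704)*C6 + (1/352)*C7 + (3/2816)*C8 + (1/2816)*C9 + (1/11264)*C10 - (1/256) := ⟨_, rfl⟩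
  rw [← hB10] at b10
  obtain ⟨B11, hB11⟩ : ∃ B : ℝ, B = 1*C0 + (1/2)*C1 + (1/4)*C2 + (1/8)*C3 + (1/16)*C4 + (1/32)*C5 + (1/64)*C6 + (1/128)*C7 + (1/256)*C8 + (1/512)*C9 + (1/1024)*C10 + (1/2048)*C11 - (1/256) := ⟨_, rfl⟩
  rw [← hB11] at b11
  have e : C0 + d*C1 + d^(2:ℕ)*C2 + d^(3:ℕ)*C3 + d^(4:ℕ)*C4 + d^(5:ℕ)*C5 + d^(6:ℕ)*C6 + d^(7:ℕ)*C7 + d^(8:ℕ)*C8 + d^(9:ℕ)*C9 + d^(10:ℕ)*C10 + d^(11:ℕ)*C11 = (1/256) + (2048*d2^(11:ℕ)*B0 + 22528*d^(1:ℕ)*d2^(10:ℕ)*B1 + 112640*d^(2:ℕ)*d2^(9:ℕ)*B2 + 337920*d^(3:ℕ)*d2^(8:ℕ)*B3 + 675840*d^(4:ℕ)*d2^(7:ℕ)*B4 + 946176*d^(5:ℕ)*d2^(6:ℕ)*B5 + 946176*d^(6:ℕ)*d2^(5:ℕ)*B6 + 675840*d^(7:ℕ)*d2^(4:ℕ)*B7 + 337920*d^(8:ℕ)*d2^(3:ℕ)*B8 + 112640*d^(9:ℕ)*d2^(2:ℕ)*B9 + 22528*d^(10:ℕ)*d2^(1:ℕ)*B10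 + 2048*d^(11:ℕ)*B11) := by
    rw [hB0, hB1, hB2, hB3, hB4, hB5, hB6, hB7, hB8, hB9, hB10, hB11, hd2]; ring
  rw [e]
  positivity

lemma pos_cTMe (d t : ℝ) (h1 : 0 ≤ d) (h2 : d ≤ (1/2)) (h3 : 0 ≤ t) (h4 : t ≤ 1) :
    0 < (1/200) + (-1/800)*t + (107/3200)*t^(2:ℕ) + (9/1600)*t^(3:ℕ) + (267/3200)*t^(4:ℕ) + (1/80)*t^(5:ℕ) + (159/1600)*t^(6:ℕ) + (-7/800)*t^(7:ℕ) + (91/1600)*t^(8:ℕ) + (-21/800)*t^(9:ℕ) + (39/3200)*t^(10:ℕ) + (-19/1600)*t^(11:ℕ) + (-1/3200)*t^(12:ℕ) + (7/320)*d + (-1/64)*d*t + (67/640)*d*t^(2:ℕ) + (11/200)*d*t^(3:ℕ) + (1357/3200)*d*t^(4:ℕ) + (193/800)*d*t^(5:ℕ) + (1111/1600)*d*t^(6:ℕ) + (1/50)*d*t^(7:ℕ) + (17/40)*d*t^(8:ℕ) + (-457/1600)*d*t^(9:ℕ) + (227/3200)*d*t^(10:ℕ) + (-27/200)*d*t^(11:ℕ) + (-3/3200)*d*t^(12:ℕ)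 + (-81/16000)*d^(2:ℕ) + (-43/500)*d^(2:ℕ)*t + (-9369/64000)*d^(2:ℕ)*t^(2:ℕ) + (-421/6400)*d^(2:ℕ)*t^(3:ℕ) + (31419/64000)*d^(2:ℕ)*t^(4:ℕ) + (1117/1600)*d^(2:ℕ)*t^(5:ℕ) + (52951/32000)*d^(2:ℕ)*t^(6:ℕ) + (-147/3200)*d^(2:ℕ)*t^(7:ℕ) + (36501/32000)*d^(2:ℕ)*t^(8:ℕ) + (-2047/1600)*d^(2:ℕ)*t^(9:ℕ) + (1503/12800)*d^(2:ℕ)*t^(10:ℕ) + (-17777/32000)*d^(2:ℕ)*t^(11:ℕ) + (-49/64000)*d^(2:ℕ)*t^(12:ℕ) + (-271/8000)*d^(3:ℕ) + (-133/1600)*d^(3:ℕ)*t + (-5427/32000)*d^(3:ℕ)*t^(2:ℕ) + (-5203/16000)*d^(3:ℕ)*t^(3:ℕ) + (-4763/32000)*d^(3:ℕ)*t^(4:ℕ) + (4147/8000)*d^(3:ℕ)*t^(5:ℕ) + (567/640)*d^(3:ℕ)*t^(6:ℕ) + (-5767/8000)*d^(3:ℕ)*t^(7:ℕ) + (15583/16000)*d^(3:ℕ)*t^(8:ℕ) + (-2449/1000)*d^(3:ℕ)*t^(9:ℕ) + (2541/32000)*d^(3:ℕ)*t^(10:ℕ) + (-15483/16000)*d^(3:ℕ)*t^(11:ℕ)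 + (29/6400)*d^(3:ℕ)*t^(12:ℕ) + (1171/16000)*d^(4:ℕ) + (841/8000)*d^(4:ℕ)*t + (250307/320000)*d^(4:ℕ)*t^(2:ℕ) + (29277/80000)*d^(4:ℕ)*t^(3:ℕ) + (21433/320000)*d^(4:ℕ)*t^(4:ℕ) + (-75183/160000)*d^(4:ℕ)*t^(5:ℕ) + (-66463/80000)*d^(4:ℕ)*t^(6:ℕ) + (-262701/160000)*d^(4:ℕ)*t^(7:ℕ) + (-4133/16000)*d^(4:ℕ)*t^(8:ℕ) + (-268217/160000)*d^(4:ℕ)*t^(9:ℕ) + (-21207/320000)*d^(4:ℕ)*t^(10:ℕ) + (-93273/160000)*d^(4:ℕ)*t^(11:ℕ) + (531/64000)*d^(4:ℕ)*t^(12:ℕ) + (197/8000)*d^(5:ℕ) + (21/800)*d^(5:ℕ)*t + (7281/40000)*d^(5:ℕ)*t^(2:ℕ) + (73681/80000)*d^(5:ℕ)*t^(3:ℕ) + (6927/10000)*d^(5:ℕ)*t^(4:ℕ) + (-27201/20000)*d^(5:ℕ)*t^(5:ℕ) + (51839/80000)*d^(5:ℕ)*t^(6:ℕ) + (-1587/1000)*d^(5:ℕ)*t^(7:ℕ) + (-8041/40000)*d^(5:ℕ)*t^(8:ℕ) + (4623/20000)*d^(5:ℕ)*t^(9:ℕ)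 + (-28607/80000)*d^(5:ℕ)*t^(10:ℕ) + (23927/80000)*d^(5:ℕ)*t^(11:ℕ) + (9/8000)*d^(5:ℕ)*t^(12:ℕ) + (-17/800)*d^(6:ℕ) + (-147/1600)*d^(6:ℕ)*t + (-47999/80000)*d^(6:ℕ)*t^(2:ℕ) + (-9041/160000)*d^(6:ℕ)*t^(3:ℕ) + (84923/320000)*d^(6:ℕ)*t^(4:ℕ) + (-89291/80000)*d^(6:ℕ)*t^(5:ℕ) + (1513321/1600000)*d^(6:ℕ)*t^(6:ℕ) + (-2119/16000)*d^(6:ℕ)*t^(7:ℕ) + (22779/160000)*d^(6:ℕ)*t^(8:ℕ) + (9841/16000)*d^(6:ℕ)*t^(9:ℕ) + (-186811/1600000)*d^(6:ℕ)*t^(10:ℕ) + (95209/160000)*d^(6:ℕ)*t^(11:ℕ) + (-207/12800)*d^(6:ℕ)*t^(12:ℕ) + (31/2000)*d^(7:ℕ) + (-29/4000)*d^(7:ℕ)*t + (-69/1250)*d^(7:ℕ)*t^(2:ℕ) + (-24183/40000)*d^(7:ℕ)*t^(3:ℕ) + (-2679/160000)*d^(7:ℕ)*t^(4:ℕ) + (-8847/40000)*d^(7:ℕ)*t^(5:ℕ) + (-344473/800000)*d^(7:ℕ)*t^(6:ℕ) + (28253/40000)*d^(7:ℕ)*t^(7:ℕ)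 + (343/8000)*d^(7:ℕ)*t^(8:ℕ) + (-399/2500)*d^(7:ℕ)*t^(9:ℕ) + (256063/800000)*d^(7:ℕ)*t^(10:ℕ) + (393/5000)*d^(7:ℕ)*t^(11:ℕ) + (-111/6400)*d^(7:ℕ)*t^(12:ℕ) + (31/4000)*d^(8:ℕ) + (9/200)*d^(8:ℕ)*t + (7149/40000)*d^(8:ℕ)*t^(2:ℕ) + (-12067/80000)*d^(8:ℕ)*t^(3:ℕ) + (3807/64000)*d^(8:ℕ)*t^(4:ℕ) + (22003/160000)*d^(8:ℕ)*t^(5:ℕ) + (-612843/1600000)*d^(8:ℕ)*t^(6:ℕ) + (34197/160000)*d^(8:ℕ)*t^(7:ℕ) + (497/5000)*d^(8:ℕ)*t^(8:ℕ) + (-11611/32000)*d^(8:ℕ)*t^(9:ℕ) + (425323/1600000)*d^(8:ℕ)*t^(10:ℕ) + (-4519/32000)*d^(8:ℕ)*t^(11:ℕ) + (-7/64000)*d^(8:ℕ)*t^(12:ℕ) + (-9/1000)*d^(9:ℕ) + (-7/20000)*d^(9:ℕ)*t^(2:ℕ) + (699/40000)*d^(9:ℕ)*t^(3:ℕ) + (-839/40000)*d^(9:ℕ)*t^(4:ℕ) + (2347/40000)*d^(9:ℕ)*t^(5:ℕ) + (-6479/200000)*d^(9:ℕ)*t^(6:ℕ)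 + (-343/8000)*d^(9:ℕ)*t^(7:ℕ) + (4661/40000)*d^(9:ℕ)*t^(8:ℕ) + (-5567/40000)*d^(9:ℕ)*t^(9:ℕ) + (22759/200000)*d^(9:ℕ)*t^(10:ℕ) + (-189/2500)*d^(9:ℕ)*t^(11:ℕ) + (29/2000)*d^(9:ℕ)*t^(12:ℕ) + (-9/1000)*d^(10:ℕ)*t^(2:ℕ) + (63/5000)*d^(10:ℕ)*t^(3:ℕ) + (-293/16000)*d^(10:ℕ)*t^(4:ℕ) + (913/40000)*d^(10:ℕ)*t^(5:ℕ) + (-6831/400000)*d^(10:ℕ)*t^(6:ℕ) + (-141/40000)*d^(10:ℕ)*t^(7:ℕ) + (99/4000)*d^(10:ℕ)*t^(8:ℕ) + (-1453/40000)*d^(10:ℕ)*t^(9:ℕ) + (17231/400000)*d^(10:ℕ)*t^(10:ℕ) + (-1183/40000)*d^(10:ℕ)*t^(11:ℕ) + (169/16000)*d^(10:ℕ)*t^(12:ℕ) + (-9/4000)*d^(11:ℕ)*t^(4:ℕ) + (63/10000)*d^(11:ℕ)*t^(5:ℕ) + (-891/100000)*d^(11:ℕ)*t^(6:ℕ) + (63/10000)*d^(11:ℕ)*t^(7:ℕ) + (-63/10000)*d^(11:ℕ)*t^(9:ℕ) + (891/100000)*d^(11:ℕ)*t^(10:ℕ)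 + (-63/10000)*d^(11:ℕ)*t^(11:ℕ) + (9/4000)*d^(11:ℕ)*t^(12:ℕ) := by
  have e0 : (1/200) + (-1/800)*t + (107/3200)*t^(2:ℕ) + (9/1600)*t^(3:ℕ) + (267/3200)*t^(4:ℕ) + (1/80)*t^(5:ℕ) + (159/1600)*t^(6:ℕ) + (-7/800)*t^(7:ℕ) + (91/1600)*t^(8:ℕ) + (-21/800)*t^(9:ℕ) + (39/3200)*t^(10:ℕ) + (-19/1600)*t^(11:ℕ) + (-1/3200)*t^(12:ℕ) + (7/320)*d + (-1/64)*d*t + (67/640)*d*t^(2:ℕ) + (11/200)*d*t^(3:ℕ) + (1357/3200)*d*t^(4:ℕ) + (193/800)*d*t^(5:ℕ) + (1111/1600)*d*t^(6:ℕ) + (1/50)*d*t^(7:ℕ) + (17/40)*d*t^(8:ℕ) + (-457/1600)*d*t^(9:ℕ) + (227/3200)*d*t^(10:ℕ) + (-27/200)*d*t^(11:ℕ) + (-3/3200)*d*t^(12:ℕ) + (-81/16000)*d^(2:ℕ) + (-43/500)*d^(2:ℕ)*t + (-9369/64000)*d^(2:ℕ)*t^(2:ℕ) + (-421/6400)*d^(2:ℕ)*t^(3:ℕ) + (31419/64000)*d^(2:ℕ)*t^(4:ℕ)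 + (1117/1600)*d^(2:ℕ)*t^(5:ℕ) + (52951/32000)*d^(2:ℕ)*t^(6:ℕ) + (-147/3200)*d^(2:ℕ)*t^(7:ℕ) + (36501/32000)*d^(2:ℕ)*t^(8:ℕ) + (-2047/1600)*d^(2:ℕ)*t^(9:ℕ) + (1503/12800)*d^(2:ℕ)*t^(10:ℕ) + (-17777/32000)*d^(2:ℕ)*t^(11:ℕ) + (-49/64000)*d^(2:ℕ)*t^(12:ℕ) + (-271/8000)*d^(3:ℕ) + (-133/1600)*d^(3:ℕ)*t + (-5427/32000)*d^(3:ℕ)*t^(2:ℕ) + (-5203/16000)*d^(3:ℕ)*t^(3:ℕ) + (-4763/32000)*d^(3:ℕ)*t^(4:ℕ) + (4147/8000)*d^(3:ℕ)*t^(5:ℕ) + (567/640)*d^(3:ℕ)*t^(6:ℕ) + (-5767/8000)*d^(3:ℕ)*t^(7:ℕ) + (15583/16000)*d^(3:ℕ)*t^(8:ℕ) + (-2449/1000)*d^(3:ℕ)*t^(9:ℕ) + (2541/32000)*d^(3:ℕ)*t^(10:ℕ) + (-15483/16000)*d^(3:ℕ)*t^(11:ℕ) + (29/6400)*d^(3:ℕ)*t^(12:ℕ) + (1171/16000)*d^(4:ℕ) + (841/8000)*d^(4:ℕ)*t + (250307/320000)*d^(4:ℕ)*t^(2:ℕ)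 + (29277/80000)*d^(4:ℕ)*t^(3:ℕ) + (21433/320000)*d^(4:ℕ)*t^(4:ℕ) + (-75183/160000)*d^(4:ℕ)*t^(5:ℕ) + (-66463/80000)*d^(4:ℕ)*t^(6:ℕ) + (-262701/160000)*d^(4:ℕ)*t^(7:ℕ) + (-4133/16000)*d^(4:ℕ)*t^(8:ℕ) + (-268217/160000)*d^(4:ℕ)*t^(9:ℕ) + (-21207/320000)*d^(4:ℕ)*t^(10:ℕ) + (-93273/160000)*d^(4:ℕ)*t^(11:ℕ) + (531/64000)*d^(4:ℕ)*t^(12:ℕ) + (197/8000)*d^(5:ℕ) + (21/800)*d^(5:ℕ)*t + (7281/40000)*d^(5:ℕ)*t^(2:ℕ) + (73681/80000)*d^(5:ℕ)*t^(3:ℕ) + (6927/10000)*d^(5:ℕ)*t^(4:ℕ) + (-27201/20000)*d^(5:ℕ)*t^(5:ℕ) + (51839/80000)*d^(5:ℕ)*t^(6:ℕ) + (-1587/1000)*d^(5:ℕ)*t^(7:ℕ) + (-8041/40000)*d^(5:ℕ)*t^(8:ℕ) + (4623/20000)*d^(5:ℕ)*t^(9:ℕ) + (-28607/80000)*d^(5:ℕ)*t^(10:ℕ) + (23927/80000)*d^(5:ℕ)*t^(11:ℕ) + (9/8000)*d^(5:ℕ)*t^(12:ℕ)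 + (-17/800)*d^(6:ℕ) + (-147/1600)*d^(6:ℕ)*t + (-47999/80000)*d^(6:ℕ)*t^(2:ℕ) + (-9041/160000)*d^(6:ℕ)*t^(3:ℕ) + (84923/320000)*d^(6:ℕ)*t^(4:ℕ) + (-89291/80000)*d^(6:ℕ)*t^(5:ℕ) + (1513321/1600000)*d^(6:ℕ)*t^(6:ℕ) + (-2119/16000)*d^(6:ℕ)*t^(7:ℕ) + (22779/160000)*d^(6:ℕ)*t^(8:ℕ) + (9841/16000)*d^(6:ℕ)*t^(9:ℕ) + (-186811/1600000)*d^(6:ℕ)*t^(10:ℕ) + (95209/160000)*d^(6:ℕ)*t^(11:ℕ) + (-207/12800)*d^(6:ℕ)*t^(12:ℕ) + (31/2000)*d^(7:ℕ) + (-29/4000)*d^(7:ℕ)*t + (-69/1250)*d^(7:ℕ)*t^(2:ℕ) + (-24183/40000)*d^(7:ℕ)*t^(3:ℕ) + (-2679/160000)*d^(7:ℕ)*t^(4:ℕ) + (-8847/40000)*d^(7:ℕ)*t^(5:ℕ) + (-344473/800000)*d^(7:ℕ)*t^(6:ℕ) + (28253/40000)*d^(7:ℕ)*t^(7:ℕ) + (343/8000)*d^(7:ℕ)*t^(8:ℕ) + (-399/2500)*d^(7:ℕ)*t^(9:ℕ) + (256063/800000)*d^(7:ℕ)*t^(10:ℕ)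 + (393/5000)*d^(7:ℕ)*t^(11:ℕ) + (-111/6400)*d^(7:ℕ)*t^(12:ℕ) + (31/4000)*d^(8:ℕ) + (9/200)*d^(8:ℕ)*t + (7149/40000)*d^(8:ℕ)*t^(2:ℕ) + (-12067/80000)*d^(8:ℕ)*t^(3:ℕ) + (3807/64000)*d^(8:ℕ)*t^(4:ℕ) + (22003/160000)*d^(8:ℕ)*t^(5:ℕ) + (-612843/1600000)*d^(8:ℕ)*t^(6:ℕ) + (34197/160000)*d^(8:ℕ)*t^(7:ℕ) + (497/5000)*d^(8:ℕ)*t^(8:ℕ) + (-11611/32000)*d^(8:ℕ)*t^(9:ℕ) + (425323/1600000)*d^(8:ℕ)*t^(10:ℕ) + (-4519/32000)*d^(8:ℕ)*t^(11:ℕ) + (-7/64000)*d^(8:ℕ)*t^(12:ℕ) + (-9/1000)*d^(9:ℕ) + (-7/20000)*d^(9:ℕ)*t^(2:ℕ) + (699/40000)*d^(9:ℕ)*t^(3:ℕ) + (-839/40000)*d^(9:ℕ)*t^(4:ℕ) + (2347/40000)*d^(9:ℕ)*t^(5:ℕ) + (-6479/200000)*d^(9:ℕ)*t^(6:ℕ) + (-343/8000)*d^(9:ℕ)*t^(7:ℕ) + (4661/40000)*d^(9:ℕ)*t^(8:ℕ) + (-5567/40000)*d^(9:ℕ)*t^(9:ℕ)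 + (22759/200000)*d^(9:ℕ)*t^(10:ℕ) + (-189/2500)*d^(9:ℕ)*t^(11:ℕ) + (29/2000)*d^(9:ℕ)*t^(12:ℕ) + (-9/1000)*d^(10:ℕ)*t^(2:ℕ) + (63/5000)*d^(10:ℕ)*t^(3:ℕ) + (-293/16000)*d^(10:ℕ)*t^(4:ℕ) + (913/40000)*d^(10:ℕ)*t^(5:ℕ) + (-6831/400000)*d^(10:ℕ)*t^(6:ℕ) + (-141/40000)*d^(10:ℕ)*t^(7:ℕ) + (99/4000)*d^(10:ℕ)*t^(8:ℕ) + (-1453/40000)*d^(10:ℕ)*t^(9:ℕ) + (17231/400000)*d^(10:ℕ)*t^(10:ℕ) + (-1183/40000)*d^(10:ℕ)*t^(11:ℕ) + (169/16000)*d^(10:ℕ)*t^(12:ℕ) + (-9/4000)*d^(11:ℕ)*t^(4:ℕ) + (63/10000)*d^(11:ℕ)*t^(5:ℕ) + (-891/100000)*d^(11:ℕ)*t^(6:ℕ) + (63/10000)*d^(11:ℕ)*t^(7:ℕ) + (-63/10000)*d^(11:ℕ)*t^(9:ℕ) + (891/100000)*d^(11:ℕ)*t^(10:ℕ) + (-63/10000)*d^(11:ℕ)*t^(11:ℕ) + (9/4000)*d^(11:ℕ)*t^(12:ℕ) = ((1/200) + (-1/800)*t + (107/3200)*t^(2:ℕ)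 + (9/1600)*t^(3:ℕ) + (267/3200)*t^(4:ℕ) + (1/80)*t^(5:ℕ) + (159/1600)*t^(6:ℕ) + (-7/800)*t^(7:ℕ) + (91/1600)*t^(8:ℕ) + (-21/800)*t^(9:ℕ) + (39/3200)*t^(10:ℕ) + (-19/1600)*t^(11:ℕ) + (-1/3200)*t^(12:ℕ)) + d*((7/320) + (-1/64)*t + (67/640)*t^(2:ℕ) + (11/200)*t^(3:ℕ) + (1357/3200)*t^(4:ℕ) + (193/800)*t^(5:ℕ) + (1111/1600)*t^(6:ℕ) + (1/50)*t^(7:ℕ) + (17/40)*t^(8:ℕ) + (-457/1600)*t^(9:ℕ) + (227/3200)*t^(10:ℕ) + (-27/200)*t^(11:ℕ) + (-3/3200)*t^(12:ℕ)) + d^(2:ℕ)*((-81/16000) + (-43/500)*t + (-9369/64000)*t^(2:ℕ) + (-421/6400)*t^(3:ℕ) + (31419/64000)*t^(4:ℕ) + (1117/1600)*t^(5:ℕ) + (52951/32000)*t^(6:ℕ) + (-147/3200)*t^(7:ℕ) + (36501/32000)*t^(8:ℕ) + (-2047/1600)*t^(9:ℕ) + (1503/12800)*t^(10:ℕ) + (-17777/32000)*t^(11:ℕ)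 + (-49/64000)*t^(12:ℕ)) + d^(3:ℕ)*((-271/8000) + (-133/1600)*t + (-5427/32000)*t^(2:ℕ) + (-5203/16000)*t^(3:ℕ) + (-4763/32000)*t^(4:ℕ) + (4147/8000)*t^(5:ℕ) + (567/640)*t^(6:ℕ) + (-5767/8000)*t^(7:ℕ) + (15583/16000)*t^(8:ℕ) + (-2449/1000)*t^(9:ℕ) + (2541/32000)*t^(10:ℕ) + (-15483/16000)*t^(11:ℕ) + (29/6400)*t^(12:ℕ)) + d^(4:ℕ)*((1171/16000) + (841/8000)*t + (250307/320000)*t^(2:ℕ) + (29277/80000)*t^(3:ℕ) + (21433/320000)*t^(4:ℕ) + (-75183/160000)*t^(5:ℕ) + (-66463/80000)*t^(6:ℕ) + (-262701/160000)*t^(7:ℕ) + (-4133/16000)*t^(8:ℕ) + (-268217/160000)*t^(9:ℕ) + (-21207/320000)*t^(10:ℕ) + (-93273/160000)*t^(11:ℕ) + (531/64000)*t^(12:ℕ)) + d^(5:ℕ)*((197/8000) + (21/800)*t + (7281/40000)*t^(2:ℕ) + (73681/80000)*t^(3:ℕ)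 + (6927/10000)*t^(4:ℕ) + (-27201/20000)*t^(5:ℕ) + (51839/80000)*t^(6:ℕ) + (-1587/1000)*t^(7:ℕ) + (-8041/40000)*t^(8:ℕ) + (4623/20000)*t^(9:ℕ) + (-28607/80000)*t^(10:ℕ) + (23927/80000)*t^(11:ℕ) + (9/8000)*t^(12:ℕ)) + d^(6:ℕ)*((-17/800) + (-147/1600)*t + (-47999/80000)*t^(2:ℕ) + (-9041/160000)*t^(3:ℕ) + (84923/320000)*t^(4:ℕ) + (-89291/80000)*t^(5:ℕ) + (1513321/1600000)*t^(6:ℕ) + (-2119/16000)*t^(7:ℕ) + (22779/160000)*t^(8:ℕ) + (9841/16000)*t^(9:ℕ) + (-186811/1600000)*t^(10:ℕ) + (95209/160000)*t^(11:ℕ) + (-207/12800)*t^(12:ℕ)) + d^(7:ℕ)*((31/2000) + (-29/4000)*t + (-69/1250)*t^(2:ℕ) + (-24183/40000)*t^(3:ℕ) + (-2679/160000)*t^(4:ℕ) + (-8847/40000)*t^(5:ℕ) + (-344473/800000)*t^(6:ℕ) + (28253/40000)*t^(7:ℕ) + (343/8000)*t^(8:ℕ)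 + (-399/2500)*t^(9:ℕ) + (256063/800000)*t^(10:ℕ) + (393/5000)*t^(11:ℕ) + (-111/6400)*t^(12:ℕ)) + d^(8:ℕ)*((31/4000) + (9/200)*t + (7149/40000)*t^(2:ℕ) + (-12067/80000)*t^(3:ℕ) + (3807/64000)*t^(4:ℕ) + (22003/160000)*t^(5:ℕ) + (-612843/1600000)*t^(6:ℕ) + (34197/160000)*t^(7:ℕ) + (497/5000)*t^(8:ℕ) + (-11611/32000)*t^(9:ℕ) + (425323/1600000)*t^(10:ℕ) + (-4519/32000)*t^(11:ℕ) + (-7/64000)*t^(12:ℕ)) + d^(9:ℕ)*((-9/1000) + (-7/20000)*t^(2:ℕ) + (699/40000)*t^(3:ℕ) + (-839/40000)*t^(4:ℕ) + (2347/40000)*t^(5:ℕ) + (-6479/200000)*t^(6:ℕ) + (-343/8000)*t^(7:ℕ) + (4661/40000)*t^(8:ℕ) + (-5567/40000)*t^(9:ℕ) + (22759/200000)*t^(10:ℕ) + (-189/2500)*t^(11:ℕ) + (29/2000)*t^(12:ℕ)) + d^(10:ℕ)*((-9/1000)*t^(2:ℕ) + (63/5000)*t^(3:ℕ)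 + (-293/16000)*t^(4:ℕ) + (913/40000)*t^(5:ℕ) + (-6831/400000)*t^(6:ℕ) + (-141/40000)*t^(7:ℕ) + (99/4000)*t^(8:ℕ) + (-1453/40000)*t^(9:ℕ) + (17231/400000)*t^(10:ℕ) + (-1183/40000)*t^(11:ℕ) + (169/16000)*t^(12:ℕ)) + d^(11:ℕ)*((-9/4000)*t^(4:ℕ) + (63/10000)*t^(5:ℕ) + (-891/100000)*t^(6:ℕ) + (63/10000)*t^(7:ℕ) + (-63/10000)*t^(9:ℕ) + (891/100000)*t^(10:ℕ) + (-63/10000)*t^(11:ℕ) + (9/4000)*t^(12:ℕ)) := by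
    ring
  rw [e0]
  exact pos_cTMe_id d ((1/200) + (-1/800)*t + (107/3200)*t^(2:ℕ) + (9/1600)*t^(3:ℕ) + (267/3200)*t^(4:ℕ) + (1/80)*t^(5:ℕ) + (159/1600)*t^(6:ℕ) + (-7/800)*t^(7:ℕ) + (91/1600)*t^(8:ℕ) + (-21/800)*t^(9:ℕ) + (39/3200)*t^(10:ℕ) + (-19/1600)*t^(11:ℕ) + (-1/3200)*t^(12:ℕ)) ((7/320) + (-1/64)*t + (67/640)*t^(2:ℕ) + (11/200)*t^(3:ℕ) + (1357/3200)*t^(4:ℕ) + (193/800)*t^(5:ℕ) + (1111/1600)*t^(6:ℕ) + (1/50)*t^(7:ℕ) + (17/40)*t^(8:ℕ) + (-457/1600)*t^(9:ℕ) + (227/3200)*t^(10:ℕ) + (-27/200)*t^(11:ℕ) + (-3/3200)*t^(12:ℕ)) ((-81/16000) + (-43/500)*t + (-9369/64000)*t^(2:ℕ) + (-421/6400)*t^(3:ℕ) + (31419/64000)*t^(4:ℕ) + (1117/1600)*t^(5:ℕ) + (52951/32000)*t^(6:ℕ) + (-147/3200)*t^(7:ℕ) + (36501/32000)*t^(8:ℕ)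 + (-2047/1600)*t^(9:ℕ) + (1503/12800)*t^(10:ℕ) + (-17777/32000)*t^(11:ℕ) + (-49/64000)*t^(12:ℕ)) ((-271/8000) + (-133/1600)*t + (-5427/32000)*t^(2:ℕ) + (-5203/16000)*t^(3:ℕ) + (-4763/32000)*t^(4:ℕ) + (4147/8000)*t^(5:ℕ) + (567/640)*t^(6:ℕ) + (-5767/8000)*t^(7:ℕ) + (15583/16000)*t^(8:ℕ) + (-2449/1000)*t^(9:ℕ) + (2541/32000)*t^(10:ℕ) + (-15483/16000)*t^(11:ℕ) + (29/6400)*t^(12:ℕ)) ((1171/16000) + (841/8000)*t + (250307/320000)*t^(2:ℕ) + (29277/80000)*t^(3:ℕ) + (21433/320000)*t^(4:ℕ) + (-75183/160000)*t^(5:ℕ) + (-66463/80000)*t^(6:ℕ) + (-262701/160000)*t^(7:ℕ) + (-4133/16000)*t^(8:ℕ) + (-268217/160000)*t^(9:ℕ) + (-21207/320000)*t^(10:ℕ) + (-93273/160000)*t^(11:ℕ) + (531/64000)*t^(12:ℕ)) ((197/8000) + (21/800)*t +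 (7281/40000)*t^(2:ℕ) + (73681/80000)*t^(3:ℕ) + (6927/10000)*t^(4:ℕ) + (-27201/20000)*t^(5:ℕ) + (51839/80000)*t^(6:ℕ) + (-1587/1000)*t^(7:ℕ) + (-8041/40000)*t^(8:ℕ) + (4623/20000)*t^(9:ℕ) + (-28607/80000)*t^(10:ℕ) + (23927/80000)*t^(11:ℕ) + (9/8000)*t^(12:ℕ)) ((-17/800) + (-147/1600)*t + (-47999/80000)*t^(2:ℕ) + (-9041/160000)*t^(3:ℕ) + (84923/320000)*t^(4:ℕ) + (-89291/80000)*t^(5:ℕ) + (1513321/1600000)*t^(6:ℕ) + (-2119/16000)*t^(7:ℕ) + (22779/160000)*t^(8:ℕ) + (9841/16000)*t^(9:ℕ) + (-186811/1600000)*t^(10:ℕ) + (95209/160000)*t^(11:ℕ) + (-207/12800)*t^(12:ℕ)) ((31/2000) + (-29/4000)*t + (-69/1250)*t^(2:ℕ) + (-24183/40000)*t^(3:ℕ) + (-2679/160000)*t^(4:ℕ) + (-8847/40000)*t^(5:ℕ) + (-344473/800000)*t^(6:ℕ) + (28253/40000)*t^(7:ℕ)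 + (343/8000)*t^(8:ℕ) + (-399/2500)*t^(9:ℕ) + (256063/800000)*t^(10:ℕ) + (393/5000)*t^(11:ℕ) + (-111/6400)*t^(12:ℕ)) ((31/4000) + (9/200)*t + (7149/40000)*t^(2:ℕ) + (-12067/80000)*t^(3:ℕ) + (3807/64000)*t^(4:ℕ) + (22003/160000)*t^(5:ℕ) + (-612843/1600000)*t^(6:ℕ) + (34197/160000)*t^(7:ℕ) + (497/5000)*t^(8:ℕ) + (-11611/32000)*t^(9:ℕ) + (425323/1600000)*t^(10:ℕ) + (-4519/32000)*t^(11:ℕ) + (-7/64000)*t^(12:ℕ)) ((-9/1000) + (-7/20000)*t^(2:ℕ) + (699/40000)*t^(3:ℕ) + (-839/40000)*t^(4:ℕ) + (2347/40000)*t^(5:ℕ) + (-6479/200000)*t^(6:ℕ) + (-343/8000)*t^(7:ℕ) + (4661/40000)*t^(8:ℕ) + (-5567/40000)*t^(9:ℕ) + (22759/200000)*t^(10:ℕ) + (-189/2500)*t^(11:ℕ) + (29/2000)*t^(12:ℕ)) ((-9/1000)*t^(2:ℕ) + (63/5000)*t^(3:ℕ) + (-293/16000)*t^(4:ℕ)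 + (913/40000)*t^(5:ℕ) + (-6831/400000)*t^(6:ℕ) + (-141/40000)*t^(7:ℕ) + (99/4000)*t^(8:ℕ) + (-1453/40000)*t^(9:ℕ) + (17231/400000)*t^(10:ℕ) + (-1183/40000)*t^(11:ℕ) + (169/16000)*t^(12:ℕ)) ((-9/4000)*t^(4:ℕ) + (63/10000)*t^(5:ℕ) + (-891/100000)*t^(6:ℕ) + (63/10000)*t^(7:ℕ) + (-63/10000)*t^(9:ℕ) + (891/100000)*t^(10:ℕ) + (-63/10000)*t^(11:ℕ) + (9/4000)*t^(12:ℕ)) h1 h2 ((pos_cTMe_b0 t h3 h4).trans_eq (by ring)) ((pos_cTMe_b1 t h3 h4).trans_eq (by ring)) ((pos_cTMe_b2 t h3 h4).trans_eq (by ring)) ((pos_cTMe_b3 t h3 h4).trans_eq (by ring)) ((pos_cTMe_b4 t h3 h4).trans_eq (by ring)) ((pos_cTMe_b5 t h3 h4).trans_eq (by ring)) ((pos_cTMe_b6 t h3 h4).trans_eq (by ring)) ((pos_cTMe_b7 t h3 h4).trans_eq (by ring)) ((pos_cTMe_b8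 t h3 h4).trans_eq (by ring)) ((pos_cTMe_b9 t h3 h4).trans_eq (by ring)) ((pos_cTMe_b10 t h3 h4).trans_eq (by ring)) ((pos_cTMe_b11 t h3 h4).trans_eq (by ring))

end Vale.Agent.Lib.P100.AB.NHF
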