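import Vale.Agent.Lib.P100.NPPoly
import Vale.Agent.Lib.P100.NHMain

/-!
# P100: weights above the diagonal: the `3 x 3` blocks.

Weights `A = W + A1`, `B = W + B1` with `0 < A1, B1 <= (n - 2) / 2`.  The additional fields are
`K1 s xi`, `K2 t xi`, with `K1 = kS * A1`, `K2 = kT * B1`; dividing the last row and column of the
block by `A1` (`B1`), the weight only appears in the corner entry, which is at least `3 kS` (`3 kT`).
-/

set_option linter.unusedSimpArgs false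

noncomputable section

namespace Vale.Agent.Lib.P100.AB.NP

open Vale.Agent.Lib.P100 Vale.Agent.Lib.P100.AB Vale.Agent.Lib.P100.AB.V1 Vale.Agent.Lib.P100.AB.W5
open Vale.Agent.Lib.P100.AB.NHF
open WCert

def kS (d t : ℝ) : ℝ := (1 + t ^ 2) / (2 * (1 + t) * (1 + 3 * d))
def kT (d t : ℝ) : ℝ := (1 + t ^ 2) / (2 * t * (1 + t) * (1 + 3 * d))
def uS (d t : ℝ) : ℝ := (-(1 - hh d) + kS d t * (-ab d t)) / 2
def uT (d t : ℝ) : ℝ := (-(1 - hh d) + kT d t * (-bb d t)) / 2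
def wS0 (d t : ℝ) : ℝ := (ff d t + kS d t * (1 - bb d t)) / 2
def wS1 (d t : ℝ) : ℝ := kS d t / 2
def wT0 (d t : ℝ) : ℝ := (-ff d t + kT d t * (1 - ab d t)) / 2
def wT1 (d t : ℝ) : ℝ := kT d t / 2

set_option maxHeartbeats 3000000 in
set_option maxRecDepth 100000 in
lemma c_S0 (d t : ℝ) (hd : 0 < d) (hd1 : d ≤ (1/2)) (ht : 0 < t) (ht1 : t ≤ 1) :
    0 < det3 (LS d t) (zS0 d t + z1 d * (1 / t)) (uS d t) (yS0 d t + ff d t * (1 / t)) (wS0 d t + wS1 d t * (1 / t)) (3 * kS d t) := by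
  have h1 : (1 + 2 * d) ≠ 0 := by positivity
  have h2 : (1 + t ^ 2) ≠ 0 := by positivity
  have h3 : (1 + t) ≠ 0 := by positivity
  have h4 : (1 + 3 * d) ≠ 0 := by positivity
  have ht0 : t ≠ 0 := ht.ne'
  have hW : (1 + (1/2) * d) ≠ 0 := by positivity
  have hp := pcS0_pos hd.le hd1 ht.le ht1
  have key : det3 (LS d t) (zS0 d t + z1 d * (1 / t)) (uS d t) (yS0 d t + ff d t * (1 / t)) (wS0 d t + wS1 d t * (1 / t)) (3 * kS d t)
      = ((1 / 800) * d ^ 1 * pcS0 d t) / ((1 + 2 * d) ^ 3 * t ^ 2 * (1 + t ^ 2) ^ 3 * (1 + t) ^ 2 * (1 + 3 * d) ^ 2) := by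
    simp only [det3, LS, NHF.LT, zS0, zT0, z1, yS0, yT0, uS, uT, wS0, wS1, wT0, wT1, kS, kT, hh, eta2, ff, ab, bb, X, X2, Y5, fh5, sg, pcS0]
    field_simp
    ring
  rw [key]
  exact div_pos (mul_pos (by positivity) hp) (by positivity)

set_option maxHeartbeats 3000000 in
set_option maxRecDepth 100000 in
lemma c_Se (d t : ℝ) (hd : 0 < d) (hd1 : d ≤ (1/2)) (ht : 0 < t) (ht1 : t ≤ 1) :
    0 < det3 (LS d t) (zS0 d t + z1 d * ((1 + 2 * (1 + t) * eta2 d) / t)) (uS d t) (yS0 d t + ff d t * ((1 + 2 * (1 + t) * eta2 d) / t)) (wS0 d t + wS1 d t * ((1 + 2 * (1 + t) * eta2 d) / t)) (3 * kS d t) := by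
  have h1 : (1 + 2 * d) ≠ 0 := by positivity
  have h2 : (1 + t ^ 2) ≠ 0 := by positivity
  have h3 : (1 + t) ≠ 0 := by positivity
  have h4 : (1 + 3 * d) ≠ 0 := by positivity
  have ht0 : t ≠ 0 := ht.ne'
  have hW : (1 + (1/2) * d) ≠ 0 := by positivity
  have hp := pcSe_pos hd.le hd1 ht.le ht1
  have key : det3 (LS d t) (zS0 d t + z1 d * ((1 + 2 * (1 + t) * eta2 d) / t)) (uS d t) (yS0 d t + ff d t * ((1 + 2 * (1 + t) * eta2 d) / t)) (wS0 d t + wS1 d t * ((1 + 2 * (1 + t) * eta2 d) / t)) (3 * kS d t)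
      = ((1 / 3200) * d ^ 2 * pcSe d t) / ((1 + 2 * d) ^ 3 * t ^ 2 * (1 + t ^ 2) ^ 3 * (1 + (1 / 2) * d) ^ 2 * (1 + t) ^ 2 * (1 + 3 * d) ^ 2) := by
    simp only [det3, LS, NHF.LT, zS0, zT0, z1, yS0, yT0, uS, uT, wS0, wS1, wT0, wT1, kS, kT, hh, eta2, ff, ab, bb, X, X2, Y5, fh5, sg, pcSe]
    field_simp
    ring
  rw [key]
  exact div_pos (mul_pos (by positivity) hp) (by positivity)

set_option maxHeartbeats 3000000 in
set_option maxRecDepth 100000 in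
lemma c_T0 (d t : ℝ) (hd : 0 < d) (hd1 : d ≤ (1/2)) (ht : 0 < t) (ht1 : t ≤ 1) :
    0 < det3 (NHF.LT d t) (zT0 d t + z1 d * t) (uT d t) (yT0 d t + (-ff d t) * t) (wT0 d t + wT1 d t * t) (3 * kT d t) := by
  have h1 : (1 + 2 * d) ≠ 0 := by positivity
  have h2 : (1 + t ^ 2) ≠ 0 := by positivity
  have h3 : (1 + t) ≠ 0 := by positivity
  have h4 : (1 + 3 * d) ≠ 0 := by positivity
  have ht0 : t ≠ 0 := ht.ne'
  have hW : (1 + (1/2) * d) ≠ 0 := by positivity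
  have hp := pcT0_pos hd.le hd1 ht.le ht1
  have key : det3 (NHF.LT d t) (zT0 d t + z1 d * t) (uT d t) (yT0 d t + (-ff d t) * t) (wT0 d t + wT1 d t * t) (3 * kT d t)
      = ((1 / 4000) * d ^ 1 * pcT0 d t) / ((1 + 2 * d) ^ 3 * t ^ 2 * (1 + t ^ 2) ^ 3 * (1 + t) ^ 2 * (1 + 3 * d) ^ 2) := by
    simp only [det3, LS, NHF.LT, zS0, zT0, z1, yS0, yT0, uS, uT, wS0, wS1, wT0, wT1, kS, kT, hh, eta2, ff, ab, bb, X, X2, Y5, fh5, sg, pcT0]
    field_simp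
    ring
  rw [key]
  exact div_pos (mul_pos (by positivity) hp) (by positivity)

set_option maxHeartbeats 3000000 in
set_option maxRecDepth 100000 in
lemma c_Te (d t : ℝ) (hd : 0 < d) (hd1 : d ≤ (1/2)) (ht : 0 < t) (ht1 : t ≤ 1) :
    0 < det3 (NHF.LT d t) (zT0 d t + z1 d * (t + 2 * (1 + t) * eta2 d)) (uT d t) (yT0 d t + (-ff d t) * (t + 2 * (1 + t) * eta2 d)) (wT0 d t + wT1 d t * (t + 2 * (1 + t) * eta2 d)) (3 * kT d t) := by
  have h1 : (1 + 2 * d) ≠ 0 := by positivity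
  have h2 : (1 + t ^ 2) ≠ 0 := by positivity
  have h3 : (1 + t) ≠ 0 := by positivity
  have h4 : (1 + 3 * d) ≠ 0 := by positivity
  have ht0 : t ≠ 0 := ht.ne'
  have hW : (1 + (1/2) * d) ≠ 0 := by positivity
  have hp := pcTe_pos hd.le hd1 ht.le ht1
  have key : det3 (NHF.LT d t) (zT0 d t + z1 d * (t + 2 * (1 + t) * eta2 d)) (uT d t) (yT0 d t + (-ff d t) * (t + 2 * (1 + t) * eta2 d)) (wT0 d t + wT1 d t * (t + 2 * (1 + t) * eta2 d)) (3 * kT d t)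
      = ((1 / 16000) * d ^ 2 * pcTe d t) / ((1 + 2 * d) ^ 3 * t ^ 2 * (1 + t ^ 2) ^ 3 * (1 + (1 / 2) * d) ^ 2 * (1 + t) ^ 2 * (1 + 3 * d) ^ 2) := by
    simp only [det3, LS, NHF.LT, zS0, zT0, z1, yS0, yT0, uS, uT, wS0, wS1, wT0, wT1, kS, kT, hh, eta2, ff, ab, bb, X, X2, Y5, fh5, sg, pcTe]
    field_simp
    ring
  rw [key]
  exact div_pos (mul_pos (by positivity) hp) (by positivity)

set_option maxHeartbeats 3000000 in
set_option maxRecDepth 100000 in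
lemma m_S (d t : ℝ) (hd : 0 < d) (hd1 : d ≤ (1/2)) (ht : 0 < t) (ht1 : t ≤ 1) :
    0 < LS d t * (3 * kS d t) - uS d t ^ 2 := by
  have h1 : (1 + 2 * d) ≠ 0 := by positivity
  have h2 : (1 + t ^ 2) ≠ 0 := by positivity
  have h3 : (1 + t) ≠ 0 := by positivity
  have h4 : (1 + 3 * d) ≠ 0 := by positivity
  have ht0 : t ≠ 0 := ht.ne'
  have hW : (1 + (1/2) * d) ≠ 0 := by positivity
  have hp := pmS_pos hd.le hd1 ht.le ht1
  have key : LS d t * (3 * kS d t) - uS d t ^ 2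
      = ((1 / 4) * pmS d t) / ((1 + 2 * d) ^ 2 * (1 + t) ^ 2 * (1 + 3 * d) ^ 2) := by
    simp only [det3, LS, NHF.LT, zS0, zT0, z1, yS0, yT0, uS, uT, wS0, wS1, wT0, wT1, kS, kT, hh, eta2, ff, ab, bb, X, X2, Y5, fh5, sg, pmS]
    field_simp
    ring
  rw [key]
  exact div_pos (mul_pos (by positivity) hp) (by positivity)

set_option maxHeartbeats 3000000 in
set_option maxRecDepth 100000 in
lemma m_T (d t : ℝ) (hd : 0 < d) (hd1 : d ≤ (1/2)) (ht : 0 < t) (ht1 : t ≤ 1) :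
    0 < NHF.LT d t * (3 * kT d t) - uT d t ^ 2 := by
  have h1 : (1 + 2 * d) ≠ 0 := by positivity
  have h2 : (1 + t ^ 2) ≠ 0 := by positivity
  have h3 : (1 + t) ≠ 0 := by positivity
  have h4 : (1 + 3 * d) ≠ 0 := by positivity
  have ht0 : t ≠ 0 := ht.ne'
  have hW : (1 + (1/2) * d) ≠ 0 := by positivity
  have hp := pmT_pos hd.le hd1 ht.le ht1
  have key : NHF.LT d t * (3 * kT d t) - uT d t ^ 2
      = ((1 / 20) * pmT d t) / ((1 + 2 * d) ^ 2 * t * (1 + t) ^ 2 * (1 + 3 * d) ^ 2) := by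
    simp only [det3, LS, NHF.LT, zS0, zT0, z1, yS0, yT0, uS, uT, wS0, wS1, wT0, wT1, kS, kT, hh, eta2, ff, ab, bb, X, X2, Y5, fh5, sg, pmT]
    field_simp
    ring
  rw [key]
  exact div_pos (mul_pos (by positivity) hp) (by positivity)

lemma det3_between {L z0 z1 u y0 y1 w0 w1 r p0 p1 p : ℝ} (hL : 0 < L) (hm : 0 < L * r - u ^ 2)
    (h0 : p0 ≤ p) (h1 : p ≤ p1)
    (c0 : 0 < det3 L (z0 + z1 * p0) u (y0 + y1 * p0) (w0 + w1 * p0) r)
    (c1 : 0 < det3 L (z0 + z1 * p1) u (y0 + y1 * p1) (w0 + w1 * p1) r) :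
    0 < det3 L (z0 + z1 * p) u (y0 + y1 * p) (w0 + w1 * p) r := by
  rcases h1.lt_or_eq with h1' | e
  · obtain ⟨Q, hQ⟩ : ∃ Q : ℝ, Q = L * w1 ^ 2 + r * z1 ^ 2 - 2 * u * z1 * w1 := ⟨_, rfl⟩
    have hLQ : L * Q = (L * w1 - z1 * u) ^ 2 + z1 ^ 2 * (L * r - u ^ 2) := by
      rw [hQ]; ring
    have hQ0 : 0 ≤ Q := by
      have : 0 ≤ L * Q := by
        rw [hLQ]; positivity
      exact nonneg_of_mul_nonneg_right this hL
    have hpp : 0 < p1 - p0 := by linarith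
    have id : (p1 - p0) * det3 L (z0 + z1 * p) u (y0 + y1 * p) (w0 + w1 * p) r
        = (p1 - p) * det3 L (z0 + z1 * p0) u (y0 + y1 * p0) (w0 + w1 * p0) r
          + (p - p0) * det3 L (z0 + z1 * p1) u (y0 + y1 * p1) (w0 + w1 * p1) r
          + (p - p0) * (p1 - p) * (p1 - p0) * Q := by
      rw [hQ]; simp only [det3]; ring
    have h2 : 0 < (p1 - p) * det3 L (z0 + z1 * p0) u (y0 + y1 * p0) (w0 + w1 * p0) r :=
      mul_pos (sub_pos.2 h1') c0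
    have h3 : 0 ≤ (p - p0) * det3 L (z0 + z1 * p1) u (y0 + y1 * p1) (w0 + w1 * p1) r :=
      mul_nonneg (sub_nonneg.2 h0) c1.le
    have h4 : 0 ≤ (p - p0) * (p1 - p) * (p1 - p0) * Q :=
      mul_nonneg (mul_nonneg (mul_nonneg (sub_nonneg.2 h0) (sub_pos.2 h1').le) hpp.le) hQ0
    have h5 : 0 < (p1 - p0) * det3 L (z0 + z1 * p) u (y0 + y1 * p) (w0 + w1 * p) r := by
      rw [id]; linarith
    exact (pos_iff_pos_of_mul_pos h5).mp hpp
  · rw [e]; exact c1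

lemma det3_corner_mono {L z u y w r r0 : ℝ} (h : 0 < det3 L z u y w r0) (hr : r0 ≤ r)
    (hd : 0 < L * y - z ^ 2) : 0 < det3 L z u y w r := by
  have e : det3 L z u y w r = det3 L z u y w r0 + (r - r0) * (L * y - z ^ 2) := by
    simp only [det3]; ring
  rw [e]
  have := mul_nonneg (sub_nonneg.2 hr) hd.le
  linarith

lemma blockS {d t p r : ℝ} (hd : 0 < d) (hd1 : d ≤ (1/2)) (ht : 0 < t) (ht1 : t ≤ 1)
    (hp0 : 1 / t ≤ p) (hp1 : p ≤ (1 + 2 * (1 + t) * eta2 d) / t) (hr : 3 * kS d t ≤ r) :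
    0 < det3 (LS d t) (zS0 d t + z1 d * p) (uS d t) (yS0 d t + ff d t * p)
      (wS0 d t + wS1 d t * p) r := by
  have he := eta2_le hd
  have h1t : 0 ≤ 2 * (1 + t) := by positivity
  have hm : (1 + 2 * (1 + t) * eta2 d) / t ≤ (1 + 2 * (1 + t) * eta1 d) / t :=
    div_le_div_of_nonneg_right (by nlinarith [mul_le_mul_of_nonneg_left he h1t]) ht.le
  have hb := det3_between (LS_pos hd ht ht1) (m_S d t hd hd1 ht ht1) hp0 hp1
    (c_S0 d t hd hd1 ht ht1) (c_Se d t hd hd1 ht ht1)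
  exact det3_corner_mono hb hr (deltaS_pos hd hd1 ht ht1 hp0 (hp1.trans hm))

lemma blockT {d t q r : ℝ} (hd : 0 < d) (hd1 : d ≤ (1/2)) (ht : 0 < t) (ht1 : t ≤ 1)
    (hq0 : t ≤ q) (hq1 : q ≤ t + 2 * (1 + t) * eta2 d) (hr : 3 * kT d t ≤ r) :
    0 < det3 (NHF.LT d t) (zT0 d t + z1 d * q) (uT d t) (yT0 d t + (-ff d t) * q)
      (wT0 d t + wT1 d t * q) r := by
  have he := eta2_le hd
  have h1t : 0 ≤ 2 * (1 + t) := by positivity
  have hm : t + 2 * (1 + t) * eta2 d ≤ t + 2 * (1 + t) * eta1 d := by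
    nlinarith [mul_le_mul_of_nonneg_left he h1t]
  have hb := det3_between (LT_pos hd hd1 ht ht1) (m_T d t hd hd1 ht ht1) hq0 hq1
    (c_T0 d t hd hd1 ht ht1) (c_Te d t hd hd1 ht ht1)
  exact det3_corner_mono hb hr (deltaT_pos hd hd1 ht ht1 hq0 (hq1.trans hm))

end Vale.Agent.Lib.P100.AB.NP
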