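import Vale.Agent.Lib.P100.NPBlock

/-!
# P100: weights above the diagonal, far from it: no solution.

For `W ∈ (-2, 0)`, `m = 2 (n + W) / (2 + W) > 4`, and weights `A`, `B` with
`W < A, B ≤ W + (n - 2) / 2`, the system has no positive solution as soon as
`2 (p + 1) / (p q - 1) + 2 (q + 1) / (p q - 1) ≥ m - 2 + 1 / 2`.
-/

open InnerProductSpace Laplacian

noncomputable section

namespace Vale.Agent.Lib.P100.AB.NP

open Vale.Agent.Lib.P100 Vale.Agent.Lib.P100.AB Vale.Agent.Lib.P100.AB.V1 Vale.Agent.Lib.P100.AB.W5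
open Vale.Agent.Lib.P100.AB.NHF
open WCert

/-- the certificate for the weights `Aw + A1`, `Aw + B1` -/
theorem design_cert_pos {n Aw d t p q A1 B1 : ℝ} (hn : 2 < n) (hnc : 0 < n - 4 + -Aw) (hA : Aw < 0)
    (hA2 : -2 < Aw) (hm : 2 + 1 / d = 2 * (n + Aw) / (2 + Aw))
    (hd : 0 < d) (hd1 : d ≤ (1/2)) (ht : 0 < t) (ht1 : t ≤ 1)
    (hp0 : 1 / t ≤ p) (hp1 : p ≤ (1 + 2 * (1 + t) * eta2 d) / t)
    (hq0 : t ≤ q) (hq1 : q ≤ t + 2 * (1 + t) * eta2 d)
    (ha0 : 0 ≤ 1 - ab d t) (hb0 : 0 ≤ 1 - bb d t)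
    (hA1 : 0 < A1) (hA1' : A1 ≤ (n - 2) / 2) (hB1 : 0 < B1) (hB1' : B1 ≤ (n - 2) / 2) :
    ∃ (co : Fin 15 → ℝ) (c0 : ℝ), 0 < c0 ∧ ∀ A : NAtoms, A.Realizable n →
      c0 * A.EW ≤ ∑ k, co k * NAtoms.DH n p q (1 - ab d t) (1 - bb d t) (-Aw) (Aw + A1) (Aw + B1) A k := by
  have hd0 : d ≠ 0 := hd.ne'
  have he : (1 + 2 * d) ≠ 0 := by positivity
  have hh' : 1 / (2 + 1 / d) = d / (1 + 2 * d) := by
    field_simp; ring
  have he2 := eta2_le hd
  have het : 0 ≤ eta2 d := by unfold eta2; positivity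
  have h1t : 0 ≤ 2 * (1 + t) := by positivity
  have hp1' : p ≤ (1 + 2 * (1 + t) * eta1 d) / t :=
    hp1.trans (div_le_div_of_nonneg_right
      (by nlinarith [mul_le_mul_of_nonneg_left he2 h1t]) ht.le)
  have hq1' : q ≤ t + 2 * (1 + t) * eta1 d :=
    hq1.trans (by nlinarith [mul_le_mul_of_nonneg_left he2 h1t])
  have hE1 : 0 < 1 / 2 + X d t := by
    have := X_nonneg d t hd ht ht1
    linarith
  have hE2 : 0 < 1 / 2 + X2 d t := X2_gt d t hd hd1 ht ht1
  have h2pos : 0 < 1 + 2 / (2 + 1 / d) := by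
    have : 0 < 2 / (2 + 1 / d) := by positivity
    linarith
  have hn2 : 0 < n - 2 := by linarith
  have hrS : 3 * kS d t ≤ kS d t * (1 + (n - 2) / A1) := by
    have hk : 0 ≤ kS d t := by unfold kS; positivity
    have h2 : 2 ≤ (n - 2) / A1 := by
      rw [le_div_iff₀ hA1]; linarith
    nlinarith
  have hrT : 3 * kT d t ≤ kT d t * (1 + (n - 2) / B1) := by
    have hk : 0 ≤ kT d t := by unfold kT; positivity
    have h2 : 2 ≤ (n - 2) / B1 := by
      rw [le_div_iff₀ hB1]; linarith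
    nlinarith
  have hS3 := blockS hd hd1 ht ht1 hp0 hp1 hrS
  have hT3 := blockT hd hd1 ht ht1 hq0 hq1 hrT
  apply nhcert_of_R (m := 2 + 1 / d) (X1 := X d t) (X2 := X2 d t) (Y1 := Y5 d t) (Y2 := Y5 d t)
    (f := fh5 d t / (1 + 2 * d)) (K1 := kS d t * A1) (K2 := kT d t * B1) hn hnc hA hA2
    hm ha0 hb0
  · rw [hh']; exact r1_pos d t hd hd1 ht ht1
  · rw [hh']; exact r6_pos d t hd hd1 ht ht1
  · rw [hh']; exact hD_ok d t hd hd1 ht ht1
  · positivity
  · positivity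
  · -- first discriminant
    have hq := quad_between (A := -2 * d * (1 / 2 - Y5 d t) + ab d t * fh5 d t) (B := 1 + d)
      (C := 4 * (1 + 4 * d) * (1 / 2 + X d t) * ((1 + 2 * d) * (1 / 2 - Y5 d t) - bb d t * fh5 d t))
      (E := 4 * (1 + 4 * d) * (1 / 2 + X d t) * fh5 d t) hp0 hp1'
      (L10_ok d t hd hd1 ht ht1) (L1e_ok d t hd hd1 ht ht1)
    exact L_scaled hd rfl hq
  · -- second discriminant
    have hq' := quad_between (A := -2 * d * (1 / 2 - Y5 d t) + bb d t * (-fh5 d t)) (B := 1 + d)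
      (C := 4 * (1 + 4 * d) * (1 / 2 + X2 d t) * ((1 + 2 * d) * (1 / 2 - Y5 d t) - ab d t * (-fh5 d t)))
      (E := 4 * (1 + 4 * d) * (1 / 2 + X2 d t) * (-fh5 d t)) hq0 hq1'
      (L20_ok d t hd hd1 ht ht1) (L2e_ok d t hd hd1 ht ht1)
    have h := L_scaled (F := 1 / 2 - Y5 d t) (E := 1 / 2 + X2 d t) (a' := bb d t) (b' := ab d t)
      (fh := -fh5 d t) (p := q) hd rfl hq'
    have e1 : (2 / (2 + 1 / d) * (1 / 2 - Y5 d t) - (1 - 1 / (2 + 1 / d)) * q
          - (-fh5 d t / (1 + 2 * d)) * bb d t) / 2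
        = (2 / (2 + 1 / d) * (1 / 2 - Y5 d t) - (1 - 1 / (2 + 1 / d)) * q
          + (fh5 d t / (1 + 2 * d)) * bb d t) / 2 := by
      ring
    have e2 : (1 / 2 - Y5 d t) + (-fh5 d t / (1 + 2 * d)) * (q - ab d t)
        = (1 / 2 - Y5 d t) - (fh5 d t / (1 + 2 * d)) * (q - ab d t) := by
      ring
    rw [e1, e2] at h
    exact h
  · -- the block of `s`
    have e1 : (1 + 2 / (2 + 1 / d)) * (1 / 2 + X d t) = LS d t := by
      rw [h2m hd]; rfl
    have e2 : (2 / (2 + 1 / d) * (1 / 2 - Y5 d t) - (1 - 1 / (2 + 1 / d)) * p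
        - fh5 d t / (1 + 2 * d) * ab d t) / 2 = zS0 d t + z1 d * p := by
      rw [h2m hd, h1m hd]
      simp only [zS0, z1, ff]
      ring
    have e3 : (-(1 - 1 / (2 + 1 / d)) * A1 + kS d t * A1 * -ab d t) / 2 = A1 * uS d t := by
      rw [h1m hd]
      simp only [uS]
      ring
    have e4 : 1 / 2 - Y5 d t + fh5 d t / (1 + 2 * d) * (p - bb d t) = yS0 d t + ff d t * p := by
      simp only [yS0, ff]
      ring
    have e5 : (fh5 d t / (1 + 2 * d) * A1 + kS d t * A1 * (1 - bb d t + p)) / 2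
        = A1 * (wS0 d t + wS1 d t * p) := by
      simp only [wS0, wS1, ff]
      ring
    have e6 : kS d t * A1 * (A1 + n - 2) = A1 ^ 2 * (kS d t * (1 + (n - 2) / A1)) := by
      field_simp
      ring
    rw [e1, e2, e3, e4, e5, e6, det3_scale]
    positivity
  · -- the block of `t`
    have e1 : (1 + 2 / (2 + 1 / d)) * (1 / 2 + X2 d t) = NHF.LT d t := by
      rw [h2m hd]; rfl
    have e2 : (2 / (2 + 1 / d) * (1 / 2 - Y5 d t) - (1 - 1 / (2 + 1 / d)) * q
        + fh5 d t / (1 + 2 * d) * bb d t) / 2 = zT0 d t + z1 d * q := by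
      rw [h2m hd, h1m hd]
      simp only [zT0, z1, ff]
      ring
    have e3 : (-(1 - 1 / (2 + 1 / d)) * B1 + kT d t * B1 * -bb d t) / 2 = B1 * uT d t := by
      rw [h1m hd]
      simp only [uT]
      ring
    have e4 : 1 / 2 - Y5 d t - fh5 d t / (1 + 2 * d) * (q - ab d t) = yT0 d t + (-ff d t) * q := by
      simp only [yT0, ff]
      ring
    have e5 : (-(fh5 d t / (1 + 2 * d)) * B1 + kT d t * B1 * (1 - ab d t + q)) / 2
        = B1 * (wT0 d t + wT1 d t * q) := by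
      simp only [wT0, wT1, ff]
      ring
    have e6 : kT d t * B1 * (B1 + n - 2) = B1 ^ 2 * (kT d t * (1 + (n - 2) / B1)) := by
      field_simp
      ring
    rw [e1, e2, e3, e4, e5, e6, det3_scale]
    positivity

set_option maxHeartbeats 1000000 in
/-- the core case `q <= p` -/
theorem no_solution_pos_core {n : ℕ} (hn3 : 3 ≤ n) {W m A B p q : ℝ} (hW : W < 0) (hW2 : -2 < W)
    (hm : m = 2 * ((n : ℝ) + W) / (2 + W)) (hm9 : 4 < m)
    (hA0 : W < A) (hA1 : A ≤ W + ((n : ℝ) - 2) / 2) (hB0 : W < B) (hB1 : B ≤ W + ((n : ℝ) - 2) / 2)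
    (hp : 0 < p) (hq : 0 < q) (hqp : q ≤ p) (hpq : 1 < p * q)
    (hsum : (m - 2 + (1/2)) * (p * q - 1) ≤ 2 * (p + q + 2))
    {u v : Eu n → ℝ} (hucont : Continuous u) (hvcont : Continuous v)
    (hupos : ∀ x, 0 < u x) (hvpos : ∀ x, 0 < v x)
    (hu : ContDiffOn ℝ 2 u {0}ᶜ) (hv : ContDiffOn ℝ 2 v {0}ᶜ)
    (hpdeU : ∀ x, x ≠ 0 → - Δ u x = ‖x‖ ^ A * v x ^ p)
    (hpdeV : ∀ x, x ≠ 0 → - Δ v x = ‖x‖ ^ B * u x ^ q) : False := by
  have h2w : 0 < 2 + W := by linarith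
  have hmw : (2 + W) * m = 2 * ((n : ℝ) + W) := by
    rw [hm]; field_simp
  have hnR3 : (3 : ℝ) ≤ n := by exact_mod_cast hn3
  have hm4 : 0 < m - 4 := by linarith
  have hm24 := mul_pos h2w hm4
  have hnc : 0 < (n : ℝ) - 4 + -W := by nlinarith
  have hm20 : 0 < m - 2 := by linarith
  obtain ⟨d, hdd⟩ : ∃ d : ℝ, d = 1 / (m - 2) := ⟨_, rfl⟩
  have hd : 0 < d := by rw [hdd]; positivity
  have hd1 : d ≤ (1/2) := by
    rw [hdd, div_le_iff₀ hm20]
    linarith
  have hd2 : d < 1 / 2 := by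
    rw [hdd, div_lt_iff₀ hm20]
    linarith
  have hnd : m = 2 + 1 / d := by
    rw [hdd]; field_simp; ring
  have hp1 : 0 < p + 1 := by linarith
  have hq1 : 0 < q + 1 := by linarith
  obtain ⟨t, htt⟩ : ∃ t : ℝ, t = (q + 1) / (p + 1) := ⟨_, rfl⟩
  have ht : 0 < t := by rw [htt]; positivity
  have ht1 : t ≤ 1 := by
    rw [htt, div_le_one hp1]; linarith
  have hqt : q + 1 = t * (p + 1) := by
    rw [htt]; field_simp
  have hS : 0 < p + q + 2 := by linarith
  have hw : 0 < p * q - 1 := by linarith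
  obtain ⟨η, hη⟩ : ∃ η : ℝ, η = (p * q - 1) / (2 * (p + q + 2)) := ⟨_, rfl⟩
  have hη0 : 0 < η := by rw [hη]; positivity
  have hηS : 2 * (p + q + 2) * η = p * q - 1 := by
    rw [hη]; field_simp
  have h1t : p + q + 2 = (p + 1) * (1 + t) := by
    have : q = t * (p + 1) - 1 := by linarith
    rw [this]; ring
  -- the two formulas
  have hqf : q = t + 2 * (1 + t) * η := by
    have e : (p + 1) * q = (p + 1) * (t + 2 * (1 + t) * η) := by
      have h2 : (p + 1) * (2 * (1 + t) * η) = p * q - 1 := by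
        rw [← hηS, h1t]; ring
      have h3 : (p + 1) * t = q + 1 := by linarith
      have : (p + 1) * (t + 2 * (1 + t) * η) = (p + 1) * t + (p + 1) * (2 * (1 + t) * η) := by ring
      rw [this, h2, h3]
      ring
    exact mul_left_cancel₀ hp1.ne' e
  have hpf : p = (1 + 2 * (1 + t) * η) / t := by
    rw [eq_div_iff ht.ne']
    have : q = t + 2 * (1 + t) * η := hqf
    have e : (p + 1) * (p * t) = (p + 1) * (1 + 2 * (1 + t) * η) := by
      have h2 : (p + 1) * (2 * (1 + t) * η) = p * q - 1 := by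
        rw [← hηS, h1t]; ring
      have h3 : (p + 1) * t = q + 1 := by linarith
      have e2 : (p + 1) * (1 + 2 * (1 + t) * η) = (p + 1) + (p + 1) * (2 * (1 + t) * η) := by ring
      rw [e2, h2]
      have e3 : (p + 1) * (p * t) = p * ((p + 1) * t) := by ring
      rw [e3, h3]
      ring
    exact mul_left_cancel₀ hp1.ne' e
  have hηle : η ≤ eta2 d := by
    unfold eta2
    have hW : 0 < 1 + (1/2) * d := by positivity
    rw [le_div_iff₀ hW, hη, div_mul_eq_mul_div, div_le_iff₀ (by positivity)]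
    have h5 : (m - 2) * d = 1 := by
      rw [hdd]; field_simp
    have h6 : (m - 2 + (1/2)) * d = 1 + (1/2) * d := by
      nlinarith
    have h7 := mul_le_mul_of_nonneg_right hsum hd.le
    nlinarith
  have hη2 : 2 * (1 + t) * η ≤ 2 * (1 + t) * eta2 d := by
    apply mul_le_mul_of_nonneg_left hηle (by positivity)
  have hη3 : 0 ≤ 2 * (1 + t) * η := by positivity
  have hab := ab_le d t hd
  have hbb := bb_le d t hd ht ht1
  have hab0 := ab_nonneg d t hd
  have hbb0 := bb_nonneg d t hd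
  have hd27 : 2 * d < 1 := by
    have : d < 1 / 2 := hd2
    linarith
  obtain ⟨co, c0, hc0, hc⟩ := design_cert_pos (n := (n : ℝ)) (Aw := W) (A1 := A - W) (B1 := B - W)
    (p := p) (q := q) (by linarith)
    hnc hW hW2 (by rw [← hnd]; exact hm) hd hd1 ht ht1
    (by rw [hpf]; exact div_le_div_of_nonneg_right (by linarith) ht.le)
    (by rw [hpf]; exact div_le_div_of_nonneg_right (by linarith) ht.le)
    (by rw [hqf]; linarith)
    (by rw [hqf]; linarith)
    (by linarith) (by linarith) (by linarith) (by linarith) (by linarith) (by linarith)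
  have eA : W + (A - W) = A := by ring
  have eB : W + (B - W) = B := by ring
  rw [eA, eB] at hc
  obtain ⟨a, ha⟩ : ∃ a : ℝ, a = 1 - ab d t := ⟨_, rfl⟩
  obtain ⟨b, hb⟩ : ∃ b : ℝ, b = 1 - bb d t := ⟨_, rfl⟩
  rw [← ha, ← hb] at hc
  have ha0 : 0 < a := by rw [ha]; linarith
  have hb0 : 0 < b := by rw [hb]; linarith
  have hw' : p * q - 1 ≠ 0 := hw.ne'
  obtain ⟨lam, hlamd⟩ : ∃ lam : ℝ, lam = (a + q * b) / (p * q - 1) := ⟨_, rfl⟩
  obtain ⟨mu, hmud⟩ : ∃ mu : ℝ, mu = (b + p * a) / (p * q - 1) := ⟨_, rfl⟩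
  have hlam0 : 0 < lam := by rw [hlamd]; positivity
  have hmu0 : 0 < mu := by rw [hmud]; positivity
  have hlamw : lam * (p * q - 1) = a + q * b := by rw [hlamd]; exact div_mul_cancel₀ _ hw'
  have hmuw : mu * (p * q - 1) = b + p * a := by rw [hmud]; exact div_mul_cancel₀ _ hw'
  -- the exponent condition
  obtain ⟨Sg, hSg⟩ : ∃ Sg : ℝ, Sg = lam + mu := ⟨_, rfl⟩
  have hSg0 : 0 < Sg := by rw [hSg]; linarith
  have hSη : 1 - 2 * d ≤ Sg * (2 * η) := by
    have h2 : p * q - 1 = 2 * ((p + 1) * (1 + t)) * η := by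
      rw [← hηS, h1t]
    have h3 : a * (p + 1) + b * (q + 1) = (p + 1) * (a + b * t) := by
      rw [hqt]; ring
    have hlow : (1 - 2 * d) * (1 + t) ≤ a + b * t := by
      rw [ha, hb]
      exact low_bound d t hd ht
    have h4 : Sg * (p * q - 1) = a * (p + 1) + b * (q + 1) := by
      rw [hSg]
      linear_combination hlamw + hmuw
    have hpt : 0 < (p + 1) * (1 + t) := by positivity
    have h5 : ((p + 1) * (1 + t)) * (Sg * (2 * η)) = (p + 1) * (a + b * t) := by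
      rw [← h3, ← h4, h2]
      ring
    have h6 : ((p + 1) * (1 + t)) * (1 - 2 * d) ≤ ((p + 1) * (1 + t)) * (Sg * (2 * η)) := by
      rw [h5]
      have := mul_le_mul_of_nonneg_left hlow hp1.le
      linarith only [this]
    exact le_of_mul_le_mul_left h6 hpt
  have hηd : η * (1 + (1/2) * d) ≤ d := by
    have hW : 0 < 1 + (1/2) * d := by positivity
    have := (le_div_iff₀ hW).1 hηle
    exact this
  have hG : 1 - 2 * d < Sg * (2 * d) := by
    have h1 : Sg * (2 * η) * (1 + (1/2) * d) ≤ Sg * (2 * d) := by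
      have := mul_le_mul_of_nonneg_left hηd (by positivity : 0 ≤ Sg * 2)
      linarith only [this]
    have h2 : (1 - 2 * d) * (1 + (1/2) * d) ≤ Sg * (2 * η) * (1 + (1/2) * d) :=
      mul_le_mul_of_nonneg_right hSη (by positivity)
    have h5 : 0 < (1 - 2 * d) * ((1/2) * d) := by
      have h6 : 0 < 1 - 2 * d := by linarith
      positivity
    have e : (1 - 2 * d) * (1 + (1/2) * d) = 1 - 2 * d + (1 - 2 * d) * ((1/2) * d) := by ring
    linarith only [h1, h2, h5, e]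
  have hn2 : (n : ℝ) - 2 = (2 + W) * (1 / (2 * d)) := by
    have e : m - 2 = 1 / d := by rw [hnd]; ring
    have e2 : (2 + W) * (1 / (2 * d)) = (2 + W) * (1 / d) / 2 := by field_simp
    rw [e2, ← e]
    linarith only [hmw]
  -- the weights
  have hA1' : W * lam ≤ A * lam := mul_le_mul_of_nonneg_right hA0.le hlam0.le
  have hB1' : W * mu ≤ B * mu := mul_le_mul_of_nonneg_right hB0.le hmu0.le
  have hfin : (n : ℝ) < 2 * (lam + mu) + 4 + (A * lam + B * mu - -W) := by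
    have h1 : (2 + W) * ((1 - 2 * d) * (1 / (2 * d))) < (2 + W) * Sg := by
      apply mul_lt_mul_of_pos_left _ h2w
      have h2d : 0 < 2 * d := by positivity
      rw [← div_eq_mul_one_div, div_lt_iff₀ h2d]
      exact hG
    have e1 : (1 - 2 * d) * (1 / (2 * d)) = 1 / (2 * d) - 1 := by
      field_simp
    rw [e1] at h1
    have e2 : (2 + W) * (1 / (2 * d) - 1) = ((n : ℝ) - 2) - (2 + W) := by
      rw [hn2]; ring
    rw [e2, hSg] at h1
    have e6 : (2 + W) * (lam + mu) = 2 * (lam + mu) + W * lam + W * mu := by ring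
    linarith only [h1, hA1', hB1', e6]
  refine no_solution_of_nhcert_lap hn3 (a := a) (b := b) (c := -W) (lam := lam) (mu := mu)
    hc hc0 (by linarith) ?_ ?_ hlam0.le hmu0.le hfin (by linarith) (by linarith)
    hucont hvcont hupos hvpos hu hv hpdeU hpdeV
  · rw [hlamd, hmud]
    have e : (b + p * a) / (p * q - 1) * q - (a + q * b) / (p * q - 1) = a := by
      rw [div_mul_eq_mul_div, ← sub_div, div_eq_iff hw']
      ring
    exact e.symm
  · rw [hlamd, hmud]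
    have e : (a + q * b) / (p * q - 1) * p - (b + p * a) / (p * q - 1) = b := by
      rw [div_mul_eq_mul_div, ← sub_div, div_eq_iff hw']
      ring
    exact e.symm

/-- **Weights above the diagonal, far from it, all ratios of `p, q`.**  For `W ∈ (-2, 0)`, effective
dimension `m = 2 (n + W) / (2 + W) > 4`, and weights with `W < A, B ≤ W + (n - 2) / 2`: no positive
solution as soon as `2 (p + 1) / (p q - 1) + 2 (q + 1) / (p q - 1) ≥ m - 2 + 1 / 2`. -/
theorem no_solution_pos {n : ℕ} {W m A B p q : ℝ} (hW : W < 0) (hW2 : -2 < W)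
    (hm : m = 2 * ((n : ℝ) + W) / (2 + W)) (hm9 : 4 < m)
    (hA0 : W < A) (hA1 : A ≤ W + ((n : ℝ) - 2) / 2) (hB0 : W < B) (hB1 : B ≤ W + ((n : ℝ) - 2) / 2)
    (hp : 0 < p) (hq : 0 < q) (hpq : 1 < p * q)
    (hsum : m - 2 + 1 / 2 ≤ 2 * (p + 1) / (p * q - 1) + 2 * (q + 1) / (p * q - 1))
    {u v : Eu n → ℝ} (hucont : Continuous u) (hvcont : Continuous v)
    (hupos : ∀ x, 0 < u x) (hvpos : ∀ x, 0 < v x)
    (hu : ContDiffOn ℝ 2 u {0}ᶜ) (hv : ContDiffOn ℝ 2 v {0}ᶜ)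
    (hpdeU : ∀ x, x ≠ 0 → - Δ u x = ‖x‖ ^ A * v x ^ p)
    (hpdeV : ∀ x, x ≠ 0 → - Δ v x = ‖x‖ ^ B * u x ^ q) : False := by
  have h2w : 0 < 2 + W := by linarith
  have hmw : (2 + W) * m = 2 * ((n : ℝ) + W) := by
    rw [hm]; field_simp
  have hn3 : 3 ≤ n := by
    by_contra hcon
    have h2 : n ≤ 2 := by omega
    have h2R : (n : ℝ) ≤ 2 := by exact_mod_cast h2
    nlinarith
  have hw : 0 < p * q - 1 := by linarith
  have h3 : (m - 2 + (1/2)) * (p * q - 1) ≤ 2 * (p + q + 2) := by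
    have e : 2 * (p + 1) / (p * q - 1) + 2 * (q + 1) / (p * q - 1)
        = 2 * (p + q + 2) / (p * q - 1) := by
      rw [← add_div]; ring
    rw [e, le_div_iff₀ hw] at hsum
    have e2 : m - 2 + (1/2) = m - 2 + 1 / 2 := by norm_num
    rw [e2]
    exact hsum
  rcases le_total q p with hqp | hpq'
  · exact no_solution_pos_core hn3 hW hW2 hm hm9 hA0 hA1 hB0 hB1 hp hq hqp hpq h3
      hucont hvcont hupos hvpos hu hv hpdeU hpdeV
  · refine no_solution_pos_core hn3 hW hW2 hm hm9 hB0 hB1 hA0 hA1 hq hp hpq' (by linarith) ?_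
      hvcont hucont hvpos hupos hv hu hpdeV hpdeU
    have e : q * p - 1 = p * q - 1 := by ring
    rw [e]
    linarith

/-- **Nonnegative weights.**  `n ≥ 5`, `0 ≤ A, B < (n - 2) / 2` (not necessarily equal), all ratios
of `p, q`: no positive solution when `2 (p + 1) / (p q - 1) + 2 (q + 1) / (p q - 1) > n - 2 + 1 / 2`. -/
theorem no_solution_nonneg {n : ℕ} (hn : 5 ≤ n) {A B p q : ℝ}
    (hA0 : 0 ≤ A) (hA1 : A < ((n : ℝ) - 2) / 2) (hB0 : 0 ≤ B) (hB1 : B < ((n : ℝ) - 2) / 2)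
    (hp : 0 < p) (hq : 0 < q) (hpq : 1 < p * q)
    (hsum : (n : ℝ) - 2 + 1 / 2 < 2 * (p + 1) / (p * q - 1) + 2 * (q + 1) / (p * q - 1))
    {u v : Eu n → ℝ} (hucont : Continuous u) (hvcont : Continuous v)
    (hupos : ∀ x, 0 < u x) (hvpos : ∀ x, 0 < v x)
    (hu : ContDiffOn ℝ 2 u {0}ᶜ) (hv : ContDiffOn ℝ 2 v {0}ᶜ)
    (hpdeU : ∀ x, x ≠ 0 → - Δ u x = ‖x‖ ^ A * v x ^ p)
    (hpdeV : ∀ x, x ≠ 0 → - Δ v x = ‖x‖ ^ B * u x ^ q) : False := by
  have hnR : (5 : ℝ) ≤ n := by exact_mod_cast hn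
  obtain ⟨g, hg⟩ : ∃ g : ℝ, g = 2 * (p + 1) / (p * q - 1) + 2 * (q + 1) / (p * q - 1)
      - ((n : ℝ) - 2 + 1 / 2) := ⟨_, rfl⟩
  have hg0 : 0 < g := by rw [hg]; linarith
  obtain ⟨ε, hε⟩ : ∃ ε : ℝ, ε = min (min 1 (g / ((n : ℝ) - 2)))
      (min (((n : ℝ) - 2) / 2 - A) (((n : ℝ) - 2) / 2 - B)) := ⟨_, rfl⟩
  have hn2 : 0 < (n : ℝ) - 2 := by linarith
  have hε0 : 0 < ε := by
    rw [hε]
    refine lt_min (lt_min one_pos (div_pos hg0 hn2)) (lt_min (by linarith) (by linarith))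
  have hε1 : ε ≤ 1 := by
    rw [hε]; exact (min_le_left _ _).trans (min_le_left _ _)
  have hε2 : ε ≤ g / ((n : ℝ) - 2) := by
    rw [hε]; exact (min_le_left _ _).trans (min_le_right _ _)
  have hε3 : ε ≤ ((n : ℝ) - 2) / 2 - A := by
    rw [hε]; exact (min_le_right _ _).trans (min_le_left _ _)
  have hε4 : ε ≤ ((n : ℝ) - 2) / 2 - B := by
    rw [hε]; exact (min_le_right _ _).trans (min_le_right _ _)
  have hm : (2 * ((n : ℝ) + -ε) / (2 + -ε)) - (n : ℝ) ≤ g := by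
    have h2e : 0 < 2 + -ε := by linarith
    have e : (2 * ((n : ℝ) + -ε) / (2 + -ε)) - (n : ℝ) = ε * ((n : ℝ) - 2) / (2 + -ε) := by
      field_simp
      ring
    rw [e, div_le_iff₀ h2e]
    have h3 : ε * ((n : ℝ) - 2) ≤ g := by
      have := (le_div_iff₀ hn2).1 hε2
      linarith
    nlinarith [mul_nonneg hg0.le (sub_nonneg.2 hε1)]
  have hm4 : 4 < 2 * ((n : ℝ) + -ε) / (2 + -ε) := by
    have h2e : 0 < 2 + -ε := by linarith
    rw [lt_div_iff₀ h2e]
    nlinarith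
  refine no_solution_pos (W := -ε) (A := A) (B := B) (by linarith) (by linarith) rfl hm4
    (by linarith) (by linarith) (by linarith) (by linarith) hp hq hpq ?_
    hucont hvcont hupos hvpos hu hv hpdeU hpdeV
  rw [hg] at hm
  linarith

end Vale.Agent.Lib.P100.AB.NP
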