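import Mathlib

/-!
# P100: weights above the diagonal, polynomial inequalities (helper13). Generated.
Exact Bernstein coefficients on `0 <= d <= 1/2`, `0 <= t <= 1`.
-/

set_option maxHeartbeats 4000000

noncomputable section

namespace Vale.Agent.Lib.P100.AB.NP

def pcS0 (d t : ℝ) : ℝ := 400 + 600 * t + 2200 * t ^ 2 + 3400 * t ^ 3 + 5400 * t ^ 4 + 7600 * t ^ 5 + 7600 * t ^ 6 + 8400 * t ^ 7 + 6400 * t ^ 8 + 4600 * t ^ 9 + 3000 * t ^ 10 + 1000 * t ^ 11 + 600 * t ^ 12 + 2775 * d + 4150 * d * t + 16950 * d * t ^ 2 + 27350 * d * t ^ 3 + 44025 * d * t ^ 4 + 62500 * d * t ^ 5 + 62500 * d * t ^ 6 + 67300 * d * t ^ 7 + 50825 * d * t ^ 8 + 34950 * d * t ^ 9 + 22150 * d * t ^ 10 + 6950 * d * t ^ 11 + 3975 * d * t ^ 12 + 6350 * d ^ 2 + 9400 * d ^ 2 * t + 50810 * d ^ 2 * t ^ 2 + 87050 * d ^ 2 * t ^ 3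 + 146260 * d ^ 2 * t ^ 4 + 196820 * d ^ 2 * t ^ 5 + 190960 * d ^ 2 * t ^ 6 + 181360 * d ^ 2 * t ^ 7 + 120330 * d ^ 2 * t ^ 8 + 70020 * d ^ 2 * t ^ 9 + 34470 * d ^ 2 * t ^ 10 + 7830 * d ^ 2 * t ^ 11 + 3300 * d ^ 2 * t ^ 12 + 4700 * d ^ 3 + 6900 * d ^ 3 * t + 73630 * d ^ 3 * t ^ 2 + 140090 * d ^ 3 * t ^ 3 + 264145 * d ^ 3 * t ^ 4 + 293560 * d ^ 3 * t ^ 5 + 260311 * d ^ 3 * t ^ 6 + 154022 * d ^ 3 * t ^ 7 + 17272 * d ^ 3 * t ^ 8 - 33518 * d ^ 3 * t ^ 9 - 68599 * d ^ 3 * t ^ 10 - 27170 * d ^ 3 * t ^ 11 - 20775 * d ^ 3 * t ^ 12 + 46540 * d ^ 4 * t ^ 2 + 100560 * d ^ 4 * t ^ 3 + 283680 * d ^ 4 * t ^ 4 + 184016 * d ^ 4 * t ^ 5 + 116784 * d ^ 4 * t ^ 6 - 70404 * d ^ 4 * t ^ 7 - 276764 * d ^ 4 * t ^ 8 - 205600 * d ^ 4 * t ^ 9 - 192108 * d ^ 4 * t ^ 10 - 50620 * d ^ 4 * t ^ 11 - 35700 * d ^ 4 * t ^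 12 + 8580 * d ^ 5 * t ^ 2 - 24680 * d ^ 5 * t ^ 3 + 194147 * d ^ 5 * t ^ 4 - 544 * d ^ 5 * t ^ 5 - 68029 * d ^ 5 * t ^ 6 - 65118 * d ^ 5 * t ^ 7 - 322580 * d ^ 5 * t ^ 8 - 113926 * d ^ 5 * t ^ 9 - 70401 * d ^ 5 * t ^ 10 - 23760 * d ^ 5 * t ^ 11 + 6575 * d ^ 5 * t ^ 12 + 8400 * d ^ 6 * t ^ 2 - 67440 * d ^ 6 * t ^ 3 + 83630 * d ^ 6 * t ^ 4 - 25976 * d ^ 6 * t ^ 5 - 61206 * d ^ 6 * t ^ 6 + 102608 * d ^ 6 * t ^ 7 - 105744 * d ^ 6 * t ^ 8 + 47192 * d ^ 6 * t ^ 9 + 31814 * d ^ 6 * t ^ 10 - 40360 * d ^ 6 * t ^ 11 + 48250 * d ^ 6 * t ^ 12 - 19628 * d ^ 7 * t ^ 4 + 17036 * d ^ 7 * t ^ 5 - 13544 * d ^ 7 * t ^ 6 - 16600 * d ^ 7 * t ^ 7 + 18404 * d ^ 7 * t ^ 8 + 33156 * d ^ 7 * t ^ 9 - 21540 * d ^ 7 * t ^ 10 - 18400 * d ^ 7 * t ^ 11 + 51500 * d ^ 7 * t ^ 12 - 27520 * d ^ 8 * t ^ 4 + 47928 * d ^ 8 * t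 ^ 5 - 17360 * d ^ 8 * t ^ 6 - 44048 * d ^ 8 * t ^ 7 + 41160 * d ^ 8 * t ^ 8 + 1112 * d ^ 8 * t ^ 9 - 9648 * d ^ 8 * t ^ 10 - 8160 * d ^ 8 * t ^ 11 + 10200 * d ^ 8 * t ^ 12 - 8400 * d ^ 9 * t ^ 4 + 11520 * d ^ 9 * t ^ 5 + 3936 * d ^ 9 * t ^ 6 - 19680 * d ^ 9 * t ^ 7 + 6336 * d ^ 9 * t ^ 8 + 14784 * d ^ 9 * t ^ 9 - 8208 * d ^ 9 * t ^ 10 - 5760 * d ^ 9 * t ^ 11 + 7200 * d ^ 9 * t ^ 12

def ccS0a0 (t : ℝ) : ℝ := 399 + 600 * t + 2200 * t ^ 2 + 3400 * t ^ 3 + 5400 * t ^ 4 + 7600 * t ^ 5 + 7600 * t ^ 6 + 8400 * t ^ 7 + 6400 * t ^ 8 + 4600 * t ^ 9 + 3000 * t ^ 10 + 1000 * t ^ 11 + 600 * t ^ 12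

theorem ccS0a0_nn0 {t : ℝ} (h0 : (0 : ℝ) ≤ 1 * t) (h1 : 1 * t ≤ 1) : 0 ≤ ccS0a0 t := by
  obtain ⟨r, hr⟩ : ∃ r, r = 1 * t - 0 := ⟨_, rfl⟩
  obtain ⟨s, hs⟩ : ∃ s, s = 1 - 1 * t := ⟨_, rfl⟩
  have hr0 : 0 ≤ r := by rw [hr]; linarith
  have hs0 : 0 ≤ s := by rw [hs]; linarith
  have e : (1 : ℝ) * ccS0a0 t = 399 * s ^ 12 + 5388 * r ^ 1 * s ^ 11 + 35134 * r ^ 2 * s ^ 10 + 146180 * r ^ 3 * s ^ 9 + 431505 * r ^ 4 * s ^ 8 + 951208 * r ^ 5 * s ^ 7 + 1605476 * r ^ 6 * s ^ 6 + 2092008 * r ^ 7 * s ^ 5 + 2092305 * r ^ 8 * s ^ 4 + 1570980 * r ^ 9 * s ^ 3 + 844734 * r ^ 10 * s ^ 2 + 294388 * r ^ 11 * s ^ 1 + 51199 * r ^ 12 := by rw [hr, hs]; unfold ccS0a0; ring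
  have e2 : 0 ≤ (1 : ℝ) * ccS0a0 t := by rw [e]; positivity
  exact (mul_nonneg_iff_of_pos_left (by norm_num)).mp e2

theorem ccS0a0_nn {t : ℝ} (h0 : 0 ≤ t) (h1 : t ≤ 1) : 0 ≤ ccS0a0 t := by
  exact ccS0a0_nn0 (by linarith) (by linarith)

def ccS0a1 (t : ℝ) : ℝ := 13548 + 20350 * t + 76350 * t ^ 2 + 119150 * t ^ 3 + 189825 * t ^ 4 + 267700 * t ^ 5 + 267700 * t ^ 6 + 294100 * t ^ 7 + 223625 * t ^ 8 + 159150 * t ^ 9 + 103150 * t ^ 10 + 33950 * t ^ 11 + 20175 * t ^ 12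

theorem ccS0a1_nn0 {t : ℝ} (h0 : (0 : ℝ) ≤ 1 * t) (h1 : 1 * t ≤ 1) : 0 ≤ ccS0a1 t := by
  obtain ⟨r, hr⟩ : ∃ r, r = 1 * t - 0 := ⟨_, rfl⟩
  obtain ⟨s, hs⟩ : ∃ s, s = 1 - 1 * t := ⟨_, rfl⟩
  have hr0 : 0 ≤ r := by rw [hr]; linarith
  have hs0 : 0 ≤ s := by rw [hs]; linarith
  have e : (1 : ℝ) * ccS0a1 t = 13548 * s ^ 12 + 182926 * r ^ 1 * s ^ 11 + 1194368 * r ^ 2 * s ^ 10 + 4982460 * r ^ 3 * s ^ 9 + 14761935 * r ^ 4 * s ^ 8 + 32683216 * r ^ 5 * s ^ 7 + 55418852 * r ^ 6 * s ^ 6 + 72537016 * r ^ 7 * s ^ 5 + 72835035 * r ^ 8 * s ^ 4 + 54857260 * r ^ 9 * s ^ 3 + 29554218 * r ^ 10 * s ^ 2 + 10303676 * r ^ 11 * s ^ 1 + 1788773 * r ^ 12 := by rw [hr, hs]; unfold ccS0a1; ring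
  have e2 : 0 ≤ (1 : ℝ) * ccS0a1 t := by rw [e]; positivity
  exact (mul_nonneg_iff_of_pos_left (by norm_num)).mp e2

theorem ccS0a1_nn {t : ℝ} (h0 : 0 ≤ t) (h1 : t ≤ 1) : 0 ≤ ccS0a1 t := by
  exact ccS0a1_nn0 (by linarith) (by linarith)

def ccS0a2 (t : ℝ) : ℝ := 202226 + 303400 * t + 1170410 * t ^ 2 + 1845050 * t ^ 3 + 2952460 * t ^ 4 + 4159220 * t ^ 5 + 4153360 * t ^ 6 + 4518160 * t ^ 7 + 3413730 * t ^ 8 + 2399220 * t ^ 9 + 1538070 * t ^ 10 + 498630 * t ^ 11 + 293100 * t ^ 12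

theorem ccS0a2_nn0 {t : ℝ} (h0 : (0 : ℝ) ≤ 1 * t) (h1 : 1 * t ≤ 1) : 0 ≤ ccS0a2 t := by
  obtain ⟨r, hr⟩ : ∃ r, r = 1 * t - 0 := ⟨_, rfl⟩
  obtain ⟨s, hs⟩ : ∃ s, s = 1 - 1 * t := ⟨_, rfl⟩
  have hr0 : 0 ≤ r := by rw [hr]; linarith
  have hs0 : 0 ≤ s := by rw [hs]; linarith
  have e : (1 : ℝ) * ccS0a2 t = 202226 * s ^ 12 + 2730112 * r ^ 1 * s ^ 11 + 17854726 * r ^ 2 * s ^ 10 + 74725870 * r ^ 3 * s ^ 9 + 222389230 * r ^ 4 * s ^ 8 + 494934892 * r ^ 5 * s ^ 7 + 843734704 * r ^ 6 * s ^ 6 + 1109873112 * r ^ 7 * s ^ 5 + 1119036100 * r ^ 8 * s ^ 4 + 845197520 * r ^ 9 * s ^ 3 + 455836776 * r ^ 10 * s ^ 2 + 158746192 * r ^ 11 * s ^ 1 + 27447036 * r ^ 12 := by rw [hr, hs]; unfold ccS0a2; ring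
  have e2 : 0 ≤ (1 : ℝ) * ccS0a2 t := by rw [e]; positivity
  exact (mul_nonneg_iff_of_pos_left (by norm_num)).mp e2

theorem ccS0a2_nn {t : ℝ} (h0 : 0 ≤ t) (h1 : t ≤ 1) : 0 ≤ ccS0a2 t := by
  exact ccS0a2_nn0 (by linarith) (by linarith)

def ccS0a3 (t : ℝ) : ℝ := 1742282 + 2610900 * t + 10401640 * t ^ 2 + 16571540 * t ^ 3 + 26677105 * t ^ 4 + 37413580 * t ^ 5 + 37257271 * t ^ 6 + 39973382 * t ^ 7 + 29867302 * t ^ 8 + 20677102 * t ^ 9 + 13041071 * t ^ 10 + 4156660 * t ^ 11 + 2411025 * t ^ 12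

theorem ccS0a3_nn0 {t : ℝ} (h0 : (0 : ℝ) ≤ 1 * t) (h1 : 1 * t ≤ 1) : 0 ≤ ccS0a3 t := by
  obtain ⟨r, hr⟩ : ∃ r, r = 1 * t - 0 := ⟨_, rfl⟩
  obtain ⟨s, hs⟩ : ∃ s, s = 1 - 1 * t := ⟨_, rfl⟩
  have hr0 : 0 ≤ r := by rw [hr]; linarith
  have hs0 : 0 ≤ s := by rw [hs]; linarith
  have e : (1 : ℝ) * ccS0a3 t = 1742282 * s ^ 12 + 23518284 * r ^ 1 * s ^ 11 + 154112152 * r ^ 2 * s ^ 10 + 647489480 * r ^ 3 * s ^ 9 + 1937122855 * r ^ 4 * s ^ 8 + 4337087004 * r ^ 5 * s ^ 7 + 7438569399 * r ^ 6 * s ^ 6 + 9838470532 * r ^ 7 * s ^ 5 + 9961850957 * r ^ 8 * s ^ 4 + 7542725430 * r ^ 9 * s ^ 3 + 4068752546 * r ^ 10 * s ^ 2 + 1413249296 * r ^ 11 * s ^ 1 + 242800860 * r ^ 12 := by rw [hr, hs]; unfold ccS0a3; ring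
  have e2 : 0 ≤ (1 : ℝ) * ccS0a3 t := by rw [e]; positivity
  exact (mul_nonneg_iff_of_pos_left (by norm_num)).mp e2

theorem ccS0a3_nn {t : ℝ} (h0 : 0 ≤ t) (h1 : t ≤ 1) : 0 ≤ ccS0a3 t := by
  exact ccS0a3_nn0 (by linarith) (by linarith)

def ccS0a4 (t : ℝ) : ℝ := 9552744 + 14299200 * t + 59056570 * t ^ 2 + 95128230 * t ^ 3 + 154359630 * t ^ 4 + 214732676 * t ^ 5 + 212959422 * t ^ 6 + 224467032 * t ^ 7 + 164942302 * t ^ 8 + 112216856 * t ^ 9 + 69196740 * t ^ 10 + 21654590 * t ^ 11 + 12347850 * t ^ 12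

theorem ccS0a4_nn0 {t : ℝ} (h0 : (0 : ℝ) ≤ 1 * t) (h1 : 1 * t ≤ 1) : 0 ≤ ccS0a4 t := by
  obtain ⟨r, hr⟩ : ∃ r, r = 1 * t - 0 := ⟨_, rfl⟩
  obtain ⟨s, hs⟩ : ∃ s, s = 1 - 1 * t := ⟨_, rfl⟩
  have hr0 : 0 ≤ r := by rw [hr]; linarith
  have hs0 : 0 ≤ s := by rw [hs]; linarith
  have e : (1 : ℝ) * ccS0a4 t = 9552744 * s ^ 12 + 128932128 * r ^ 1 * s ^ 11 + 846828874 * r ^ 2 * s ^ 10 + 3573753610 * r ^ 3 * s ^ 9 + 10756035630 * r ^ 4 * s ^ 8 + 24245523644 * r ^ 5 * s ^ 7 + 41863774670 * r ^ 6 * s ^ 6 + 55696165308 * r ^ 7 * s ^ 5 + 56637867512 * r ^ 8 * s ^ 4 + 42974159164 * r ^ 9 * s ^ 3 + 23165117640 * r ^ 10 * s ^ 2 + 8013209208 * r ^ 11 * s ^ 1 + 1364913842 * r ^ 12 := by rw [hr, hs]; unfold ccS0a4; ring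
  have e2 : 0 ≤ (1 : ℝ) * ccS0a4 t := by rw [e]; positivity
  exact (mul_nonneg_iff_of_pos_left (by norm_num)).mp e2

theorem ccS0a4_nn {t : ℝ} (h0 : 0 ≤ t) (h1 : t ≤ 1) : 0 ≤ ccS0a4 t := by
  exact ccS0a4_nn0 (by linarith) (by linarith)

def ccS0a5 (t : ℝ) : ℝ := 34586082 + 51715800 * t + 222128280 * t ^ 2 + 361833820 * t ^ 3 + 593283572 * t ^ 4 + 815456996 * t ^ 5 + 804354716 * t ^ 6 + 829839192 * t ^ 7 + 595702480 * t ^ 8 + 397455344 * t ^ 9 + 237805764 * t ^ 10 + 72972840 * t ^ 11 + 40694000 * t ^ 12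

theorem ccS0a5_nn0 {t : ℝ} (h0 : (0 : ℝ) ≤ 1 * t) (h1 : 1 * t ≤ 1) : 0 ≤ ccS0a5 t := by
  obtain ⟨r, hr⟩ : ∃ r, r = 1 * t - 0 := ⟨_, rfl⟩
  obtain ⟨s, hs⟩ : ∃ s, s = 1 - 1 * t := ⟨_, rfl⟩
  have hr0 : 0 ≤ r := by rw [hr]; linarith
  have hs0 : 0 ≤ s := by rw [hs]; linarith
  have e : (1 : ℝ) * ccS0a5 t = 34586082 * s ^ 12 + 466748784 * r ^ 1 * s ^ 11 + 3073683492 * r ^ 2 * s ^ 10 + 13036423660 * r ^ 3 * s ^ 9 + 39498778142 * r ^ 4 * s ^ 8 + 89701527636 * r ^ 5 * s ^ 7 + 156015712752 * r ^ 6 * s ^ 6 + 208856708860 * r ^ 7 * s ^ 5 + 213305388790 * r ^ 8 * s ^ 4 + 162122105916 * r ^ 9 * s ^ 3 + 87253476800 * r ^ 10 * s ^ 2 + 30015246088 * r ^ 11 * s ^ 1 + 5057828886 * r ^ 12 := by rw [hr, hs]; unfold ccS0a5; ring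
  have e2 : 0 ≤ (1 : ℝ) * ccS0a5 t := by rw [e]; positivity
  exact (mul_nonneg_iff_of_pos_left (by norm_num)).mp e2

theorem ccS0a5_nn {t : ℝ} (h0 : 0 ≤ t) (h1 : t ≤ 1) : 0 ≤ ccS0a5 t := by
  exact ccS0a5_nn0 (by linarith) (by linarith)

def ccS0a6 (t : ℝ) : ℝ := 82735614 + 123589800 * t + 553481310 * t ^ 2 + 911503350 * t ^ 3 + 1514996594 * t ^ 4 + 2048929636 * t ^ 5 + 2007466146 * t ^ 6 + 2020513112 * t ^ 7 + 1405113966 * t ^ 8 + 917868260 * t ^ 9 + 527701472 * t ^ 10 + 158456570 * t ^ 11 + 85884550 * t ^ 12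

theorem ccS0a6_nn0 {t : ℝ} (h0 : (0 : ℝ) ≤ 1 * t) (h1 : 1 * t ≤ 1) : 0 ≤ ccS0a6 t := by
  obtain ⟨r, hr⟩ : ∃ r, r = 1 * t - 0 := ⟨_, rfl⟩
  obtain ⟨s, hs⟩ : ∃ s, s = 1 - 1 * t := ⟨_, rfl⟩
  have hr0 : 0 ≤ r := by rw [hr]; linarith
  have hs0 : 0 ≤ s := by rw [hs]; linarith
  have e : (1 : ℝ) * ccS0a6 t = 82735614 * s ^ 12 + 1116417168 * r ^ 1 * s ^ 11 + 7373519634 * r ^ 2 * s ^ 10 + 31445590530 * r ^ 3 * s ^ 9 + 95971631624 * r ^ 4 * s ^ 8 + 219712020476 * r ^ 5 * s ^ 7 + 385113429666 * r ^ 6 * s ^ 6 + 518884447716 * r ^ 7 * s ^ 5 + 532201230686 * r ^ 8 * s ^ 4 + 405023315368 * r ^ 9 * s ^ 3 + 217455309420 * r ^ 10 * s ^ 2 + 74288421216 * r ^ 11 * s ^ 1 + 12358240380 * r ^ 12 := by rw [hr, hs]; unfold ccS0a6; ring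
  have e2 : 0 ≤ (1 : ℝ) * ccS0a6 t := by rw [e]; positivity
  exact (mul_nonneg_iff_of_pos_left (by norm_num)).mp e2

theorem ccS0a6_nn {t : ℝ} (h0 : 0 ≤ t) (h1 : t ≤ 1) : 0 ≤ ccS0a6 t := by
  exact ccS0a6_nn0 (by linarith) (by linarith)

def ccS0a7 (t : ℝ) : ℝ := 126171918 + 188300700 * t + 881042400 * t ^ 2 + 1465594020 * t ^ 3 + 2478902635 * t ^ 4 + 3284599256 * t ^ 5 + 3192153661 * t ^ 6 + 3126074630 * t ^ 7 + 2083275278 * t ^ 8 + 1330948170 * t ^ 9 + 725468397 * t ^ 10 + 212208260 * t ^ 11 + 111176975 * t ^ 12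

theorem ccS0a7_nn0 {t : ℝ} (h0 : (0 : ℝ) ≤ 1 * t) (h1 : 1 * t ≤ 1) : 0 ≤ ccS0a7 t := by
  obtain ⟨r, hr⟩ : ∃ r, r = 1 * t - 0 := ⟨_, rfl⟩
  obtain ⟨s, hs⟩ : ∃ s, s = 1 - 1 * t := ⟨_, rfl⟩
  have hr0 : 0 ≤ r := by rw [hr]; linarith
  have hs0 : 0 ≤ s := by rw [hs]; linarith
  have e : (1 : ℝ) * ccS0a7 t = 126171918 * s ^ 12 + 1702363716 * r ^ 1 * s ^ 11 + 11279696688 * r ^ 2 * s ^ 10 + 48390378480 * r ^ 3 * s ^ 9 + 148840871725 * r ^ 4 * s ^ 8 + 343669683112 * r ^ 5 * s ^ 7 + 607300199545 * r ^ 6 * s ^ 6 + 823684742308 * r ^ 7 * s ^ 5 + 848358192683 * r ^ 8 * s ^ 4 + 646209813462 * r ^ 9 * s ^ 3 + 345839051754 * r ^ 10 * s ^ 2 + 117181942560 * r ^ 11 * s ^ 1 + 19205916300 * r ^ 12 := by rw [hr, hs]; unfold ccS0a7; ring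
  have e2 : 0 ≤ (1 : ℝ) * ccS0a7 t := by rw [e]; positivity
  exact (mul_nonneg_iff_of_pos_left (by norm_num)).mp e2

theorem ccS0a7_nn {t : ℝ} (h0 : 0 ≤ t) (h1 : t ≤ 1) : 0 ≤ ccS0a7 t := by
  exact ccS0a7_nn0 (by linarith) (by linarith)

def ccS0a8 (t : ℝ) : ℝ := 111368601 + 166066200 * t + 813103110 * t ^ 2 + 1363990050 * t ^ 3 + 2358585188 * t ^ 4 + 3048571860 * t ^ 5 + 2934473920 * t ^ 6 + 2790616960 * t ^ 7 + 1756742802 * t ^ 8 + 1097455640 * t ^ 9 + 555879510 * t ^ 10 + 156713370 * t ^ 11 + 79399500 * t ^ 12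

theorem ccS0a8_nn0 {t : ℝ} (h0 : (0 : ℝ) ≤ 1 * t) (h1 : 1 * t ≤ 1) : 0 ≤ ccS0a8 t := by
  obtain ⟨r, hr⟩ : ∃ r, r = 1 * t - 0 := ⟨_, rfl⟩
  obtain ⟨s, hs⟩ : ∃ s, s = 1 - 1 * t := ⟨_, rfl⟩
  have hr0 : 0 ≤ r := by rw [hr]; linarith
  have hs0 : 0 ≤ s := by rw [hs]; linarith
  have e : (1 : ℝ) * ccS0a8 t = 111368601 * s ^ 12 + 1502489412 * r ^ 1 * s ^ 11 + 9990158976 * r ^ 2 * s ^ 10 + 43129754370 * r ^ 3 * s ^ 9 + 133752516083 * r ^ 4 * s ^ 8 + 311599046356 * r ^ 5 * s ^ 7 + 555268851228 * r ^ 6 * s ^ 6 + 758189486480 * r ^ 7 * s ^ 5 + 784071617557 * r ^ 8 * s ^ 4 + 597550413096 * r ^ 9 * s ^ 3 + 318549626382 * r ^ 10 * s ^ 2 + 106926516324 * r ^ 11 * s ^ 1 + 17232966711 * r ^ 12 := by rw [hr, hs]; unfold ccS0a8; ring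
  have e2 : 0 ≤ (1 : ℝ) * ccS0a8 t := by rw [e]; positivity
  exact (mul_nonneg_iff_of_pos_left (by norm_num)).mp e2

theorem ccS0a8_nn {t : ℝ} (h0 : 0 ≤ t) (h1 : t ≤ 1) : 0 ≤ ccS0a8 t := by
  exact ccS0a8_nn0 (by linarith) (by linarith)

def ccS0a9 (t : ℝ) : ℝ := 43374042 + 64625850 * t + 331540290 * t ^ 2 + 559485630 * t ^ 3 + 994219095 * t ^ 4 + 1248382980 * t ^ 5 + 1188095100 * t ^ 6 + 1095895320 * t ^ 7 + 639244755 * t ^ 8 + 390949770 * t ^ 9 + 177995610 * t ^ 10 + 47088450 * t ^ 11 + 23623425 * t ^ 12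

theorem ccS0a9_nn0 {t : ℝ} (h0 : (0 : ℝ) ≤ 1 * t) (h1 : 1 * t ≤ 1) : 0 ≤ ccS0a9 t := by
  obtain ⟨r, hr⟩ : ∃ r, r = 1 * t - 0 := ⟨_, rfl⟩
  obtain ⟨s, hs⟩ : ∃ s, s = 1 - 1 * t := ⟨_, rfl⟩
  have hr0 : 0 ≤ r := by rw [hr]; linarith
  have hs0 : 0 ≤ s := by rw [hs]; linarith
  have e : (1 : ℝ) * ccS0a9 t = 43374042 * s ^ 12 + 585114354 * r ^ 1 * s ^ 11 + 3905111412 * r ^ 2 * s ^ 10 + 16971599520 * r ^ 3 * s ^ 9 + 53082318855 * r ^ 4 * s ^ 8 + 124807224984 * r ^ 5 * s ^ 7 + 224319921948 * r ^ 6 * s ^ 6 + 308369504244 * r ^ 7 * s ^ 5 + 320144220375 * r ^ 8 * s ^ 4 + 244025639820 * r ^ 9 * s ^ 3 + 129498774642 * r ^ 10 * s ^ 2 + 43015535244 * r ^ 11 * s ^ 1 + 6804520317 * r ^ 12 := by rw [hr, hs]; unfold ccS0a9; ring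
  have e2 : 0 ≤ (1 : ℝ) * ccS0a9 t := by rw [e]; positivity
  exact (mul_nonneg_iff_of_pos_left (by norm_num)).mp e2

theorem ccS0a9_nn {t : ℝ} (h0 : 0 ≤ t) (h1 : t ≤ 1) : 0 ≤ ccS0a9 t := by
  exact ccS0a9_nn0 (by linarith) (by linarith)

theorem pcS0_posa {d t : ℝ} (hd : 0 ≤ d) (hd3 : d ≤ 1 / 3) (h0 : 0 ≤ t) (h1 : t ≤ 1) : 0 < pcS0 d t := by
  obtain ⟨u, hu⟩ : ∃ u, u = d := ⟨_, rfl⟩
  obtain ⟨v, hv⟩ : ∃ v, v = 1 - 3 * d := ⟨_, rfl⟩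
  have hu0 : 0 ≤ u := by rw [hu]; linarith
  have hv0 : 0 ≤ v := by rw [hv]; linarith
  have key : (1 : ℝ) * pcS0 d t = 1 + (v ^ 9 * ccS0a0 t + (u ^ 1 * v ^ 8 * ccS0a1 t + (u ^ 2 * v ^ 7 * ccS0a2 t + (u ^ 3 * v ^ 6 * ccS0a3 t + (u ^ 4 * v ^ 5 * ccS0a4 t + (u ^ 5 * v ^ 4 * ccS0a5 t + (u ^ 6 * v ^ 3 * ccS0a6 t + (u ^ 7 * v ^ 2 * ccS0a7 t + (u ^ 8 * v ^ 1 * ccS0a8 t + (u ^ 9 * ccS0a9 t)))))))))) := by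
    rw [hu, hv]; unfold pcS0 ccS0a0 ccS0a1 ccS0a2 ccS0a3 ccS0a4 ccS0a5 ccS0a6 ccS0a7 ccS0a8 ccS0a9; ring
  have h3 : 0 < (1 : ℝ) * pcS0 d t := by
    rw [key]; exact add_pos_of_pos_of_nonneg one_pos (add_nonneg (mul_nonneg (by positivity) (ccS0a0_nn h0 h1)) (add_nonneg (mul_nonneg (by positivity) (ccS0a1_nn h0 h1)) (add_nonneg (mul_nonneg (by positivity) (ccS0a2_nn h0 h1)) (add_nonneg (mul_nonneg (by positivity) (ccS0a3_nn h0 h1)) (add_nonneg (mul_nonneg (by positivity) (ccS0a4_nn h0 h1)) (add_nonneg (mul_nonneg (by positivity) (ccS0a5_nn h0 h1)) (add_nonneg (mul_nonneg (by positivity) (ccS0a6_nn h0 h1)) (add_nonneg (mul_nonneg (by positivity) (ccS0a7_nn h0 h1)) (add_nonneg (mul_nonneg (by positivity) (ccS0a8_nn h0 h1)) (mul_nonneg (by positivity) (ccS0a9_nn h0 h1)))))))))))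
  exact (mul_pos_iff_of_pos_left (by norm_num)).mp h3

def ccS0b0 (t : ℝ) : ℝ := 43374042 + 64625850 * t + 331540290 * t ^ 2 + 559485630 * t ^ 3 + 994219095 * t ^ 4 + 1248382980 * t ^ 5 + 1188095100 * t ^ 6 + 1095895320 * t ^ 7 + 639244755 * t ^ 8 + 390949770 * t ^ 9 + 177995610 * t ^ 10 + 47088450 * t ^ 11 + 23623425 * t ^ 12

theorem ccS0b0_nn0 {t : ℝ} (h0 : (0 : ℝ) ≤ 1 * t) (h1 : 1 * t ≤ 1) : 0 ≤ ccS0b0 t := by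
  obtain ⟨r, hr⟩ : ∃ r, r = 1 * t - 0 := ⟨_, rfl⟩
  obtain ⟨s, hs⟩ : ∃ s, s = 1 - 1 * t := ⟨_, rfl⟩
  have hr0 : 0 ≤ r := by rw [hr]; linarith
  have hs0 : 0 ≤ s := by rw [hs]; linarith
  have e : (1 : ℝ) * ccS0b0 t = 43374042 * s ^ 12 + 585114354 * r ^ 1 * s ^ 11 + 3905111412 * r ^ 2 * s ^ 10 + 16971599520 * r ^ 3 * s ^ 9 + 53082318855 * r ^ 4 * s ^ 8 + 124807224984 * r ^ 5 * s ^ 7 + 224319921948 * r ^ 6 * s ^ 6 + 308369504244 * r ^ 7 * s ^ 5 + 320144220375 * r ^ 8 * s ^ 4 + 244025639820 * r ^ 9 * s ^ 3 + 129498774642 * r ^ 10 * s ^ 2 + 43015535244 * r ^ 11 * s ^ 1 + 6804520317 * r ^ 12 := by rw [hr, hs]; unfold ccS0b0; ring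
  have e2 : 0 ≤ (1 : ℝ) * ccS0b0 t := by rw [e]; positivity
  exact (mul_nonneg_iff_of_pos_left (by norm_num)).mp e2

theorem ccS0b0_nn {t : ℝ} (h0 : 0 ≤ t) (h1 : t ≤ 1) : 0 ≤ ccS0b0 t := by
  exact ccS0b0_nn0 (by linarith) (by linarith)

def ccS0b1 (t : ℝ) : ℝ := 278997777 + 415566450 * t + 2170759500 * t ^ 2 + 3671380620 * t ^ 3 + 6589386667 * t ^ 4 + 8186874960 * t ^ 5 + 7758381980 * t ^ 6 + 7072440920 * t ^ 7 + 3996459993 * t ^ 8 + 2421092290 * t ^ 9 + 1046080980 * t ^ 10 + 267082680 * t ^ 11 + 133211325 * t ^ 12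

theorem ccS0b1_nn0 {t : ℝ} (h0 : (0 : ℝ) ≤ 1 * t) (h1 : 1 * t ≤ 1) : 0 ≤ ccS0b1 t := by
  obtain ⟨r, hr⟩ : ∃ r, r = 1 * t - 0 := ⟨_, rfl⟩
  obtain ⟨s, hs⟩ : ∃ s, s = 1 - 1 * t := ⟨_, rfl⟩
  have hr0 : 0 ≤ r := by rw [hr]; linarith
  have hs0 : 0 ≤ s := by rw [hs]; linarith
  have e : (1 : ℝ) * ccS0b1 t = 278997777 * s ^ 12 + 3763539774 * r ^ 1 * s ^ 11 + 25155843732 * r ^ 2 * s ^ 10 + 109614641310 * r ^ 3 * s ^ 9 + 343988353612 * r ^ 4 * s ^ 8 + 811665978500 * r ^ 5 * s ^ 7 + 1463610446304 * r ^ 6 * s ^ 6 + 2017136051716 * r ^ 7 * s ^ 5 + 2097226365818 * r ^ 8 * s ^ 4 + 1598680345284 * r ^ 9 * s ^ 3 + 846939345396 * r ^ 10 * s ^ 2 + 280213300872 * r ^ 11 * s ^ 1 + 44007716142 * r ^ 12 := by rw [hr, hs]; unfold ccS0b1; ring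
  have e2 : 0 ≤ (1 : ℝ) * ccS0b1 t := by rw [e]; positivity
  exact (mul_nonneg_iff_of_pos_left (by norm_num)).mp e2

theorem ccS0b1_nn {t : ℝ} (h0 : 0 ≤ t) (h1 : t ≤ 1) : 0 ≤ ccS0b1 t := by
  exact ccS0b1_nn0 (by linarith) (by linarith)

def ccS0b2 (t : ℝ) : ℝ := 796688622 + 1186301700 * t + 6311667960 * t ^ 2 + 10695156300 * t ^ 3 + 19402108551 * t ^ 4 + 23837811656 * t ^ 5 + 22487785901 * t ^ 6 + 20253370470 * t ^ 7 + 11042144042 * t ^ 8 + 6625494770 * t ^ 9 + 2686274277 * t ^ 10 + 653685500 * t ^ 11 + 326424275 * t ^ 12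

theorem ccS0b2_nn0 {t : ℝ} (h0 : (0 : ℝ) ≤ 1 * t) (h1 : 1 * t ≤ 1) : 0 ≤ ccS0b2 t := by
  obtain ⟨r, hr⟩ : ∃ r, r = 1 * t - 0 := ⟨_, rfl⟩
  obtain ⟨s, hs⟩ : ∃ s, s = 1 - 1 * t := ⟨_, rfl⟩
  have hr0 : 0 ≤ r := by rw [hr]; linarith
  have hs0 : 0 ≤ s := by rw [hs]; linarith
  have e : (1 : ℝ) * ccS0b2 t = 796688622 * s ^ 12 + 10746565164 * r ^ 1 * s ^ 11 + 71942435712 * r ^ 2 * s ^ 10 + 314329926240 * r ^ 3 * s ^ 9 + 989784221841 * r ^ 4 * s ^ 8 + 2343937411688 * r ^ 5 * s ^ 7 + 4240666579849 * r ^ 6 * s ^ 6 + 5859471003252 * r ^ 7 * s ^ 5 + 6100977185727 * r ^ 8 * s ^ 4 + 4650729542214 * r ^ 9 * s ^ 3 + 2459397927810 * r ^ 10 * s ^ 2 + 810329080752 * r ^ 11 * s ^ 1 + 126304914024 * r ^ 12 := by rw [hr, hs]; unfold ccS0b2; ring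
  have e2 : 0 ≤ (1 : ℝ) * ccS0b2 t := by rw [e]; positivity
  exact (mul_nonneg_iff_of_pos_left (by norm_num)).mp e2

theorem ccS0b2_nn {t : ℝ} (h0 : 0 ≤ t) (h1 : t ≤ 1) : 0 ≤ ccS0b2 t := by
  exact ccS0b2_nn0 (by linarith) (by linarith)

def ccS0b3 (t : ℝ) : ℝ := 1325566512 + 1973232900 * t + 10696312770 * t ^ 2 + 18152726310 * t ^ 3 + 33311340567 * t ^ 4 + 40447423396 * t ^ 5 + 37972328121 * t ^ 6 + 33779941298 * t ^ 7 + 17685573944 * t ^ 8 + 10509791690 * t ^ 9 + 3937582267 * t ^ 10 + 894456690 * t ^ 11 + 453535975 * t ^ 12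

theorem ccS0b3_nn0 {t : ℝ} (h0 : (0 : ℝ) ≤ 1 * t) (h1 : 1 * t ≤ 1) : 0 ≤ ccS0b3 t := by
  obtain ⟨r, hr⟩ : ∃ r, r = 1 * t - 0 := ⟨_, rfl⟩
  obtain ⟨s, hs⟩ : ∃ s, s = 1 - 1 * t := ⟨_, rfl⟩
  have hr0 : 0 ≤ r := by rw [hr]; linarith
  have hs0 : 0 ≤ s := by rw [hs]; linarith
  have e : (1 : ℝ) * ccS0b3 t = 1325566512 * s ^ 12 + 17880031044 * r ^ 1 * s ^ 11 + 119889264462 * r ^ 2 * s ^ 10 + 525268296150 * r ^ 3 * s ^ 9 + 1659758803947 * r ^ 4 * s ^ 8 + 3945009361996 * r ^ 5 * s ^ 7 + 7161333576397 * r ^ 6 * s ^ 6 + 9920641483496 * r ^ 7 * s ^ 5 + 10344415337999 * r ^ 8 * s ^ 4 + 7885187557058 * r ^ 9 * s ^ 3 + 4161925584090 * r ^ 10 * s ^ 2 + 1365347680128 * r ^ 11 * s ^ 1 + 211139812440 * r ^ 12 := by rw [hr, hs]; unfold ccS0b3; ring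
  have e2 : 0 ≤ (1 : ℝ) * ccS0b3 t := by rw [e]; positivity
  exact (mul_nonneg_iff_of_pos_left (by norm_num)).mp e2

theorem ccS0b3_nn {t : ℝ} (h0 : 0 ≤ t) (h1 : t ≤ 1) : 0 ≤ ccS0b3 t := by
  exact ccS0b3_nn0 (by linarith) (by linarith)

def ccS0b4 (t : ℝ) : ℝ := 1416270312 + 2107641600 * t + 11643433200 * t ^ 2 + 19782034720 * t ^ 3 + 36751094785 * t ^ 4 + 44074694876 * t ^ 5 + 41164227801 * t ^ 6 + 36162588310 * t ^ 7 + 18081041740 * t ^ 8 + 10642312534 * t ^ 9 + 3604627569 * t ^ 10 + 735802860 * t ^ 11 + 390282725 * t ^ 12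

theorem ccS0b4_nn0 {t : ℝ} (h0 : (0 : ℝ) ≤ 1 * t) (h1 : 1 * t ≤ 1) : 0 ≤ ccS0b4 t := by
  obtain ⟨r, hr⟩ : ∃ r, r = 1 * t - 0 := ⟨_, rfl⟩
  obtain ⟨s, hs⟩ : ∃ s, s = 1 - 1 * t := ⟨_, rfl⟩
  have hr0 : 0 ≤ r := by rw [hr]; linarith
  have hs0 : 0 ≤ s := by rw [hs]; linarith
  have e : (1 : ℝ) * ccS0b4 t = 1416270312 * s ^ 12 + 19102885344 * r ^ 1 * s ^ 11 + 128301331392 * r ^ 2 * s ^ 10 + 563716123360 * r ^ 3 * s ^ 9 + 1787558569705 * r ^ 4 * s ^ 8 + 4264656502180 * r ^ 5 * s ^ 7 + 7767893821881 * r ^ 6 * s ^ 6 + 10788875902896 * r ^ 7 * s ^ 5 + 11265781235075 * r ^ 8 * s ^ 4 + 8586795780354 * r ^ 9 * s ^ 3 + 4523208234614 * r ^ 10 * s ^ 2 + 1477178039152 * r ^ 11 * s ^ 1 + 226556053032 * r ^ 12 := by rw [hr, hs]; unfold ccS0b4; ring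
  have e2 : 0 ≤ (1 : ℝ) * ccS0b4 t := by rw [e]; positivity
  exact (mul_nonneg_iff_of_pos_left (by norm_num)).mp e2

theorem ccS0b4_nn {t : ℝ} (h0 : 0 ≤ t) (h1 : t ≤ 1) : 0 ≤ ccS0b4 t := by
  exact ccS0b4_nn0 (by linarith) (by linarith)

def ccS0b5 (t : ℝ) : ℝ := 1007687808 + 1499180400 * t + 8442708020 * t ^ 2 + 14353167200 * t ^ 3 + 27019344355 * t ^ 4 + 31985807004 * t ^ 5 + 29709008303 * t ^ 6 + 25769267418 * t ^ 7 + 12224338328 * t ^ 8 + 7127998134 * t ^ 9 + 2111585055 * t ^ 10 + 356858960 * t ^ 11 + 212634575 * t ^ 12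

theorem ccS0b5_nn0 {t : ℝ} (h0 : (0 : ℝ) ≤ 1 * t) (h1 : 1 * t ≤ 1) : 0 ≤ ccS0b5 t := by
  obtain ⟨r, hr⟩ : ∃ r, r = 1 * t - 0 := ⟨_, rfl⟩
  obtain ⟨s, hs⟩ : ∃ s, s = 1 - 1 * t := ⟨_, rfl⟩
  have hr0 : 0 ≤ r := by rw [hr]; linarith
  have hs0 : 0 ≤ s := by rw [hs]; linarith
  have e : (1 : ℝ) * ccS0b5 t = 1007687808 * s ^ 12 + 13591434096 * r ^ 1 * s ^ 11 + 91441087748 * r ^ 2 * s ^ 10 + 402926487160 * r ^ 3 * s ^ 9 + 1282289941015 * r ^ 4 * s ^ 8 + 3070797819380 * r ^ 5 * s ^ 7 + 5612510907663 * r ^ 6 * s ^ 6 + 7815580125176 * r ^ 7 * s ^ 5 + 8172565898313 * r ^ 8 * s ^ 4 + 6228331811666 * r ^ 9 * s ^ 3 + 3274011194602 * r ^ 10 * s ^ 2 + 1064205990656 * r ^ 11 * s ^ 1 + 161819585560 * r ^ 12 := by rw [hr, hs]; unfold ccS0b5; ring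
  have e2 : 0 ≤ (1 : ℝ) * ccS0b5 t := by rw [e]; positivity
  exact (mul_nonneg_iff_of_pos_left (by norm_num)).mp e2

theorem ccS0b5_nn {t : ℝ} (h0 : 0 ≤ t) (h1 : t ≤ 1) : 0 ≤ ccS0b5 t := by
  exact ccS0b5_nn0 (by linarith) (by linarith)

def ccS0b6 (t : ℝ) : ℝ := 477474848 + 710164800 * t + 4077926160 * t ^ 2 + 6933470640 * t ^ 3 + 13237368102 * t ^ 4 + 15459580236 * t ^ 5 + 14274470838 * t ^ 6 + 12223504104 * t ^ 7 + 5458440812 * t ^ 8 + 3154448708 * t ^ 9 + 774054886 * t ^ 10 + 84905480 * t ^ 11 + 71458450 * t ^ 12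

theorem ccS0b6_nn0 {t : ℝ} (h0 : (0 : ℝ) ≤ 1 * t) (h1 : 1 * t ≤ 1) : 0 ≤ ccS0b6 t := by
  obtain ⟨r, hr⟩ : ∃ r, r = 1 * t - 0 := ⟨_, rfl⟩
  obtain ⟨s, hs⟩ : ∃ s, s = 1 - 1 * t := ⟨_, rfl⟩
  have hr0 : 0 ≤ r := by rw [hr]; linarith
  have hs0 : 0 ≤ s := by rw [hs]; linarith
  have e : (1 : ℝ) * ccS0b6 t = 477474848 * s ^ 12 + 6439862976 * r ^ 1 * s ^ 11 + 43403078928 * r ^ 2 * s ^ 10 + 191816262800 * r ^ 3 * s ^ 9 + 612672522822 * r ^ 4 * s ^ 8 + 1472829070908 * r ^ 5 * s ^ 7 + 2701196763858 * r ^ 6 * s ^ 6 + 3771325037976 * r ^ 7 * s ^ 5 + 3949080327302 * r ^ 8 * s ^ 4 + 3009074923248 * r ^ 9 * s ^ 3 + 1578321665512 * r ^ 10 * s ^ 2 + 510532484976 * r ^ 11 * s ^ 1 + 76937268064 * r ^ 12 := by rw [hr, hs]; unfold ccS0b6; ring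
  have e2 : 0 ≤ (1 : ℝ) * ccS0b6 t := by rw [e]; positivity
  exact (mul_nonneg_iff_of_pos_left (by norm_num)).mp e2

theorem ccS0b6_nn {t : ℝ} (h0 : 0 ≤ t) (h1 : t ≤ 1) : 0 ≤ ccS0b6 t := by
  exact ccS0b6_nn0 (by linarith) (by linarith)

def ccS0b7 (t : ℝ) : ℝ := 145289728 + 216036800 * t + 1265212000 * t ^ 2 + 2150123840 * t ^ 3 + 4167265376 * t ^ 4 + 4798670460 * t ^ 5 + 4402797612 * t ^ 6 + 3721818904 * t ^ 7 + 1549643236 * t ^ 8 + 888205860 * t ^ 9 + 162992280 * t ^ 10 - 1493040 * t ^ 11 + 13498400 * t ^ 12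

theorem ccS0b7_nn0 {t : ℝ} (h0 : (0 : ℝ) ≤ 1 * t) (h1 : 1 * t ≤ 1) : 0 ≤ ccS0b7 t := by
  obtain ⟨r, hr⟩ : ∃ r, r = 1 * t - 0 := ⟨_, rfl⟩
  obtain ⟨s, hs⟩ : ∃ s, s = 1 - 1 * t := ⟨_, rfl⟩
  have hr0 : 0 ≤ r := by rw [hr]; linarith
  have hs0 : 0 ≤ s := by rw [hs]; linarith
  have e : (1 : ℝ) * ccS0b7 t = 145289728 * s ^ 12 + 1959513536 * r ^ 1 * s ^ 11 + 13230738848 * r ^ 2 * s ^ 10 + 58648008000 * r ^ 3 * s ^ 9 + 188017407296 * r ^ 4 * s ^ 8 + 453728300284 * r ^ 5 * s ^ 7 + 835038554192 * r ^ 6 * s ^ 6 + 1168905039308 * r ^ 7 * s ^ 5 + 1225683427556 * r ^ 8 * s ^ 4 + 933726901960 * r ^ 9 * s ^ 3 + 488651276972 * r ^ 10 * s ^ 2 + 157265494560 * r ^ 11 * s ^ 1 + 23480061456 * r ^ 12 := by rw [hr, hs]; unfold ccS0b7; ring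
  have e2 : 0 ≤ (1 : ℝ) * ccS0b7 t := by rw [e]; positivity
  exact (mul_nonneg_iff_of_pos_left (by norm_num)).mp e2

theorem ccS0b7_nn {t : ℝ} (h0 : 0 ≤ t) (h1 : t ≤ 1) : 0 ≤ ccS0b7 t := by
  exact ccS0b7_nn0 (by linarith) (by linarith)

def ccS0b8 (t : ℝ) : ℝ := 25762688 + 38297600 * t + 228802240 * t ^ 2 + 388388160 * t ^ 3 + 764924792 * t ^ 4 + 868033192 * t ^ 5 + 791011976 * t ^ 6 + 660071696 * t ^ 7 + 253244792 * t ^ 8 + 144131752 * t ^ 9 + 15386440 * t ^ 10 - 5440000 * t ^ 11 + 1092000 * t ^ 12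

theorem ccS0b8_nn0 {t : ℝ} (h0 : (0 : ℝ) ≤ 1 * t) (h1 : 1 * t ≤ 1) : 0 ≤ ccS0b8 t := by
  obtain ⟨r, hr⟩ : ∃ r, r = 1 * t - 0 := ⟨_, rfl⟩
  obtain ⟨s, hs⟩ : ∃ s, s = 1 - 1 * t := ⟨_, rfl⟩
  have hr0 : 0 ≤ r := by rw [hr]; linarith
  have hs0 : 0 ≤ s := by rw [hs]; linarith
  have e : (1 : ℝ) * ccS0b8 t = 25762688 * s ^ 12 + 347449856 * r ^ 1 * s ^ 11 + 2350413248 * r ^ 2 * s ^ 10 + 10450569920 * r ^ 3 * s ^ 9 + 33628153592 * r ^ 4 * s ^ 8 + 81467930984 * r ^ 5 * s ^ 7 + 150456429248 * r ^ 6 * s ^ 6 + 211163241672 * r ^ 7 * s ^ 5 + 221720797192 * r ^ 8 * s ^ 4 + 168862787072 * r ^ 9 * s ^ 3 + 88164518224 * r ^ 10 * s ^ 2 + 28226710016 * r ^ 11 * s ^ 1 + 4173707328 * r ^ 12 := by rw [hr, hs]; unfold ccS0b8; ring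
  have e2 : 0 ≤ (1 : ℝ) * ccS0b8 t := by rw [e]; positivity
  exact (mul_nonneg_iff_of_pos_left (by norm_num)).mp e2

theorem ccS0b8_nn {t : ℝ} (h0 : 0 ≤ t) (h1 : t ≤ 1) : 0 ≤ ccS0b8 t := by
  exact ccS0b8_nn0 (by linarith) (by linarith)

def ccS0b9 (t : ℝ) : ℝ := 2028288 + 3014400 * t + 18375360 * t ^ 2 + 31134080 * t ^ 3 + 62372960 * t ^ 4 + 69719520 * t ^ 5 + 63068000 * t ^ 6 + 51952960 * t ^ 7 + 18094240 * t ^ 8 + 10244960 * t ^ 9 + 95200 * t ^ 10 - 864000 * t ^ 11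

theorem ccS0b9_nn0 {t : ℝ} (h0 : (0 : ℝ) ≤ 1 * t) (h1 : 1 * t ≤ 1) : 0 ≤ ccS0b9 t := by
  obtain ⟨r, hr⟩ : ∃ r, r = 1 * t - 0 := ⟨_, rfl⟩
  obtain ⟨s, hs⟩ : ∃ s, s = 1 - 1 * t := ⟨_, rfl⟩
  have hr0 : 0 ≤ r := by rw [hr]; linarith
  have hs0 : 0 ≤ s := by rw [hs]; linarith
  have e : (1 : ℝ) * ccS0b9 t = 2028288 * s ^ 12 + 27353856 * r ^ 1 * s ^ 11 + 185400768 * r ^ 2 * s ^ 10 + 826903040 * r ^ 3 * s ^ 9 + 2670849440 * r ^ 4 * s ^ 8 + 6495729376 * r ^ 5 * s ^ 7 + 12038426752 * r ^ 6 * s ^ 6 + 16939898336 * r ^ 7 * s ^ 5 + 17810643680 * r ^ 8 * s ^ 4 + 13560485760 * r ^ 9 * s ^ 3 + 7062875008 * r ^ 10 * s ^ 2 + 2249089536 * r ^ 11 * s ^ 1 + 329235968 * r ^ 12 := by rw [hr, hs]; unfold ccS0b9; ring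
  have e2 : 0 ≤ (1 : ℝ) * ccS0b9 t := by rw [e]; positivity
  exact (mul_nonneg_iff_of_pos_left (by norm_num)).mp e2

theorem ccS0b9_nn {t : ℝ} (h0 : 0 ≤ t) (h1 : t ≤ 1) : 0 ≤ ccS0b9 t := by
  exact ccS0b9_nn0 (by linarith) (by linarith)

theorem pcS0_posb {d t : ℝ} (hd : 1 / 3 ≤ d) (hd3 : d ≤ 1 / 2) (h0 : 0 ≤ t) (h1 : t ≤ 1) : 0 < pcS0 d t := by
  obtain ⟨u, hu⟩ : ∃ u, u = 3 * d - 1 := ⟨_, rfl⟩
  obtain ⟨v, hv⟩ : ∃ v, v = 1 - 2 * d := ⟨_, rfl⟩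
  have hu0 : 0 ≤ u := by rw [hu]; linarith
  have hv0 : 0 ≤ v := by rw [hv]; linarith
  have key : (1 : ℝ) * pcS0 d t = 1 + (v ^ 9 * ccS0b0 t + (u ^ 1 * v ^ 8 * ccS0b1 t + (u ^ 2 * v ^ 7 * ccS0b2 t + (u ^ 3 * v ^ 6 * ccS0b3 t + (u ^ 4 * v ^ 5 * ccS0b4 t + (u ^ 5 * v ^ 4 * ccS0b5 t + (u ^ 6 * v ^ 3 * ccS0b6 t + (u ^ 7 * v ^ 2 * ccS0b7 t + (u ^ 8 * v ^ 1 * ccS0b8 t + (u ^ 9 * ccS0b9 t)))))))))) := by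
    rw [hu, hv]; unfold pcS0 ccS0b0 ccS0b1 ccS0b2 ccS0b3 ccS0b4 ccS0b5 ccS0b6 ccS0b7 ccS0b8 ccS0b9; ring
  have h3 : 0 < (1 : ℝ) * pcS0 d t := by
    rw [key]; exact add_pos_of_pos_of_nonneg one_pos (add_nonneg (mul_nonneg (by positivity) (ccS0b0_nn h0 h1)) (add_nonneg (mul_nonneg (by positivity) (ccS0b1_nn h0 h1)) (add_nonneg (mul_nonneg (by positivity) (ccS0b2_nn h0 h1)) (add_nonneg (mul_nonneg (by positivity) (ccS0b3_nn h0 h1)) (add_nonneg (mul_nonneg (by positivity) (ccS0b4_nn h0 h1)) (add_nonneg (mul_nonneg (by positivity) (ccS0b5_nn h0 h1)) (add_nonneg (mul_nonneg (by positivity) (ccS0b6_nn h0 h1)) (add_nonneg (mul_nonneg (by positivity) (ccS0b7_nn h0 h1)) (add_nonneg (mul_nonneg (by positivity) (ccS0b8_nn h0 h1)) (mul_nonneg (by positivity) (ccS0b9_nn h0 h1)))))))))))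
  exact (mul_pos_iff_of_pos_left (by norm_num)).mp h3

theorem pcS0_pos {d t : ℝ} (hd : 0 ≤ d) (hd3 : d ≤ 1 / 2) (h0 : 0 ≤ t) (h1 : t ≤ 1) : 0 < pcS0 d t := by
  rcases le_total d (1 / 3) with h | h
  · exact pcS0_posa hd h h0 h1
  · exact pcS0_posb h hd3 h0 h1

def pcSe (d t : ℝ) : ℝ := 700 + 1000 * t + 5000 * t ^ 2 + 8200 * t ^ 3 + 10900 * t ^ 4 + 14000 * t ^ 5 + 12400 * t ^ 6 + 12400 * t ^ 7 + 9700 * t ^ 8 + 7400 * t ^ 9 + 5000 * t ^ 10 + 1800 * t ^ 11 + 1100 * t ^ 12 + 6700 * d + 9200 * d * t + 57240 * d * t ^ 2 + 91000 * d * t ^ 3 + 155540 * d * t ^ 4 + 166480 * d * t ^ 5 + 161440 * d * t ^ 6 + 131840 * d * t ^ 7 + 70020 * d * t ^ 8 + 65280 * d * t ^ 9 + 22280 * d * t ^ 10 + 18120 * d * t ^ 11 + 8700 * d * t ^ 12 + 20575 * d ^ 2 + 26550 * d ^ 2 * t + 228910 * d ^ 2 * t ^ 2 + 394430 *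 d ^ 2 * t ^ 3 + 812085 * d ^ 2 * t ^ 4 + 772980 * d ^ 2 * t ^ 5 + 754464 * d ^ 2 * t ^ 6 + 476588 * d ^ 2 * t ^ 7 + 64273 * d ^ 2 * t ^ 8 + 117678 * d ^ 2 * t ^ 9 - 72566 * d ^ 2 * t ^ 10 + 46190 * d ^ 2 * t ^ 11 + 13875 * d ^ 2 * t ^ 12 + 20350 * d ^ 3 + 19400 * d ^ 3 * t + 420570 * d ^ 3 * t ^ 2 + 787050 * d ^ 3 * t ^ 3 + 2032240 * d ^ 3 * t ^ 4 + 1707124 * d ^ 3 * t ^ 5 + 1526060 * d ^ 3 * t ^ 6 + 712232 * d ^ 3 * t ^ 7 - 581318 * d ^ 3 * t ^ 8 - 256052 * d ^ 3 * t ^ 9 - 511358 * d ^ 3 * t ^ 10 - 24330 * d ^ 3 * t ^ 11 - 36000 * d ^ 3 * t ^ 12 - 100 * d ^ 4 - 10700 * d ^ 4 * t + 454270 * d ^ 4 * t ^ 2 + 623610 * d ^ 4 * t ^ 3 + 2621213 * d ^ 4 * t ^ 4 + 1757448 * d ^ 4 * t ^ 5 + 1125971 * d ^ 4 * t ^ 6 + 531534 * d ^ 4 * t ^ 7 - 1681464 * d ^ 4 * t ^ 8 - 854422 * d ^ 4 * t ^ 9 - 779835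 * d ^ 4 * t ^ 10 - 254690 * d ^ 4 * t ^ 11 - 107275 * d ^ 4 * t ^ 12 + 423340 * d ^ 5 * t ^ 2 - 10800 * d ^ 5 * t ^ 3 + 1704708 * d ^ 5 * t ^ 4 + 718896 * d ^ 5 * t ^ 5 - 240956 * d ^ 5 * t ^ 6 + 440516 * d ^ 5 * t ^ 7 - 1598700 * d ^ 5 * t ^ 8 - 645016 * d ^ 5 * t ^ 9 - 346056 * d ^ 5 * t ^ 10 - 456700 * d ^ 5 * t ^ 11 - 49200 * d ^ 5 * t ^ 12 + 282340 * d ^ 6 * t ^ 2 - 150760 * d ^ 6 * t ^ 3 + 452075 * d ^ 6 * t ^ 4 + 223536 * d ^ 6 * t ^ 5 - 610869 * d ^ 6 * t ^ 6 + 189954 * d ^ 6 * t ^ 7 - 500740 * d ^ 6 * t ^ 8 - 175254 * d ^ 6 * t ^ 9 - 148505 * d ^ 6 * t ^ 10 - 436400 * d ^ 6 * t ^ 11 + 109575 * d ^ 6 * t ^ 12 + 75600 * d ^ 7 * t ^ 2 - 27120 * d ^ 7 * t ^ 3 - 120322 * d ^ 7 * t ^ 4 + 297240 * d ^ 7 * t ^ 5 - 273142 * d ^ 7 * t ^ 6 - 191824 * d ^ 7 * t ^ 7 + 174752 * d ^ 7 * t ^ 8 +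 51784 * d ^ 7 * t ^ 9 - 140938 * d ^ 7 * t ^ 10 - 204200 * d ^ 7 * t ^ 11 + 199050 * d ^ 7 * t ^ 12 - 163308 * d ^ 8 * t ^ 4 + 254828 * d ^ 8 * t ^ 5 - 67240 * d ^ 8 * t ^ 6 - 271512 * d ^ 8 * t ^ 7 + 208388 * d ^ 8 * t ^ 8 + 96740 * d ^ 8 * t ^ 9 - 92964 * d ^ 8 * t ^ 10 - 74080 * d ^ 8 * t ^ 11 + 121100 * d ^ 8 * t ^ 12 - 61120 * d ^ 9 * t ^ 4 + 94008 * d ^ 9 * t ^ 5 - 1616 * d ^ 9 * t ^ 6 - 122768 * d ^ 9 * t ^ 7 + 66504 * d ^ 9 * t ^ 8 + 60248 * d ^ 9 * t ^ 9 - 42480 * d ^ 9 * t ^ 10 - 31200 * d ^ 9 * t ^ 11 + 39000 * d ^ 9 * t ^ 12 - 8400 * d ^ 10 * t ^ 4 + 11520 * d ^ 10 * t ^ 5 + 3936 * d ^ 10 * t ^ 6 - 19680 * d ^ 10 * t ^ 7 + 6336 * d ^ 10 * t ^ 8 + 14784 * d ^ 10 * t ^ 9 - 8208 * d ^ 10 * t ^ 10 - 5760 * d ^ 10 * t ^ 11 + 7200 * d ^ 10 * t ^ 12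

def ccSea0 (t : ℝ) : ℝ := 699 + 1000 * t + 5000 * t ^ 2 + 8200 * t ^ 3 + 10900 * t ^ 4 + 14000 * t ^ 5 + 12400 * t ^ 6 + 12400 * t ^ 7 + 9700 * t ^ 8 + 7400 * t ^ 9 + 5000 * t ^ 10 + 1800 * t ^ 11 + 1100 * t ^ 12

theorem ccSea0_nn0 {t : ℝ} (h0 : (0 : ℝ) ≤ 1 * t) (h1 : 1 * t ≤ 1) : 0 ≤ ccSea0 t := by
  obtain ⟨r, hr⟩ : ∃ r, r = 1 * t - 0 := ⟨_, rfl⟩
  obtain ⟨s, hs⟩ : ∃ s, s = 1 - 1 * t := ⟨_, rfl⟩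
  have hr0 : 0 ≤ r := by rw [hr]; linarith
  have hs0 : 0 ≤ s := by rw [hs]; linarith
  have e : (1 : ℝ) * ccSea0 t = 699 * s ^ 12 + 9388 * r ^ 1 * s ^ 11 + 62134 * r ^ 2 * s ^ 10 + 266980 * r ^ 3 * s ^ 9 + 820705 * r ^ 4 * s ^ 8 + 1880008 * r ^ 5 * s ^ 7 + 3262276 * r ^ 6 * s ^ 6 + 4300008 * r ^ 7 * s ^ 5 + 4269905 * r ^ 8 * s ^ 4 + 3126180 * r ^ 9 * s ^ 3 + 1615934 * r ^ 10 * s ^ 2 + 537588 * r ^ 11 * s ^ 1 + 89599 * r ^ 12 := by rw [hr, hs]; unfold ccSea0; ring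
  have e2 : 0 ≤ (1 : ℝ) * ccSea0 t := by rw [e]; positivity
  exact (mul_nonneg_iff_of_pos_left (by norm_num)).mp e2

theorem ccSea0_nn {t : ℝ} (h0 : 0 ≤ t) (h1 : t ≤ 1) : 0 ≤ ccSea0 t := by
  exact ccSea0_nn0 (by linarith) (by linarith)

def ccSea1 (t : ℝ) : ℝ := 27670 + 39200 * t + 207240 * t ^ 2 + 337000 * t ^ 3 + 482540 * t ^ 4 + 586480 * t ^ 5 + 533440 * t ^ 6 + 503840 * t ^ 7 + 361020 * t ^ 8 + 287280 * t ^ 9 + 172280 * t ^ 10 + 72120 * t ^ 11 + 41700 * t ^ 12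

theorem ccSea1_nn0 {t : ℝ} (h0 : (0 : ℝ) ≤ 1 * t) (h1 : 1 * t ≤ 1) : 0 ≤ ccSea1 t := by
  obtain ⟨r, hr⟩ : ∃ r, r = 1 * t - 0 := ⟨_, rfl⟩
  obtain ⟨s, hs⟩ : ∃ s, s = 1 - 1 * t := ⟨_, rfl⟩
  have hr0 : 0 ≤ r := by rw [hr]; linarith
  have hs0 : 0 ≤ s := by rw [hs]; linarith
  have e : (1 : ℝ) * ccSea1 t = 27670 * s ^ 12 + 371240 * r ^ 1 * s ^ 11 + 2464660 * r ^ 2 * s ^ 10 + 10652800 * r ^ 3 * s ^ 9 + 33005990 * r ^ 4 * s ^ 8 + 76298240 * r ^ 5 * s ^ 7 + 133655800 * r ^ 6 * s ^ 6 + 177754320 * r ^ 7 * s ^ 5 + 177801470 * r ^ 8 * s ^ 4 + 130719800 * r ^ 9 * s ^ 3 + 67507460 * r ^ 10 * s ^ 2 + 22276760 * r ^ 11 * s ^ 1 + 3651810 * r ^ 12 := by rw [hr, hs]; unfold ccSea1; ring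
  have e2 : 0 ≤ (1 : ℝ) * ccSea1 t := by rw [e]; positivity
  exact (mul_nonneg_iff_of_pos_left (by norm_num)).mp e2

theorem ccSea1_nn {t : ℝ} (h0 : 0 ≤ t) (h1 : t ≤ 1) : 0 ≤ ccSea1 t := by
  exact ccSea1_nn0 (by linarith) (by linarith)

def ccSea2 (t : ℝ) : ℝ := 484570 + 679950 * t + 3799390 * t ^ 2 + 6172430 * t ^ 3 + 9426165 * t ^ 4 + 10937940 * t ^ 5 + 10135344 * t ^ 6 + 9058268 * t ^ 7 + 5883313 * t ^ 8 + 4877238 * t ^ 9 + 2553994 * t ^ 10 + 1264430 * t ^ 11 + 694275 * t ^ 12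

theorem ccSea2_nn0 {t : ℝ} (h0 : (0 : ℝ) ≤ 1 * t) (h1 : 1 * t ≤ 1) : 0 ≤ ccSea2 t := by
  obtain ⟨r, hr⟩ : ∃ r, r = 1 * t - 0 := ⟨_, rfl⟩
  obtain ⟨s, hs⟩ : ∃ s, s = 1 - 1 * t := ⟨_, rfl⟩
  have hr0 : 0 ≤ r := by rw [hr]; linarith
  have hs0 : 0 ≤ s := by rw [hs]; linarith
  have e : (1 : ℝ) * ccSea2 t = 484570 * s ^ 12 + 6494790 * r ^ 1 * s ^ 11 + 43260460 * r ^ 2 * s ^ 10 + 188168980 * r ^ 3 * s ^ 9 + 588004485 * r ^ 4 * s ^ 8 + 1372644480 * r ^ 5 * s ^ 7 + 2428869144 * r ^ 6 * s ^ 6 + 3260521112 * r ^ 7 * s ^ 5 + 3285707993 * r ^ 8 * s ^ 4 + 2425601260 * r ^ 9 * s ^ 3 + 1251286686 * r ^ 10 * s ^ 2 + 409455748 * r ^ 11 * s ^ 1 + 65967307 * r ^ 12 := by rw [hr, hs]; unfold ccSea2; ring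
  have e2 : 0 ≤ (1 : ℝ) * ccSea2 t := by rw [e]; positivity
  exact (mul_nonneg_iff_of_pos_left (by norm_num)).mp e2

theorem ccSea2_nn {t : ℝ} (h0 : 0 ≤ t) (h1 : t ≤ 1) : 0 ≤ ccSea2 t := by
  exact ccSea2_nn0 (by linarith) (by linarith)

def ccSea3 (t : ℝ) : ℝ := 4949710 + 6877400 * t + 40660170 * t ^ 2 + 66305370 * t ^ 3 + 107233240 * t ^ 4 + 119558164 * t ^ 5 + 112115756 * t ^ 6 + 95042504 * t ^ 7 + 55075714 * t ^ 8 + 47694940 * t ^ 9 + 21165778 * t ^ 10 + 12787110 * t ^ 11 + 6679800 * t ^ 12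

theorem ccSea3_nn0 {t : ℝ} (h0 : (0 : ℝ) ≤ 1 * t) (h1 : 1 * t ≤ 1) : 0 ≤ ccSea3 t := by
  obtain ⟨r, hr⟩ : ∃ r, r = 1 * t - 0 := ⟨_, rfl⟩
  obtain ⟨s, hs⟩ : ∃ s, s = 1 - 1 * t := ⟨_, rfl⟩
  have hr0 : 0 ≤ r := by rw [hr]; linarith
  have hs0 : 0 ≤ s := by rw [hs]; linarith
  have e : (1 : ℝ) * ccSea3 t = 4949710 * s ^ 12 + 66273920 * r ^ 1 * s ^ 11 + 442992430 * r ^ 2 * s ^ 10 + 1940100270 * r ^ 3 * s ^ 9 + 6118566670 * r ^ 4 * s ^ 8 + 14433350124 * r ^ 5 * s ^ 7 + 25810731244 * r ^ 6 * s ^ 6 + 34981888504 * r ^ 7 * s ^ 5 + 35515647884 * r ^ 8 * s ^ 4 + 26322913816 * r ^ 9 * s ^ 3 + 13561757256 * r ^ 10 * s ^ 2 + 4399584416 * r ^ 11 * s ^ 1 + 696145656 * r ^ 12 := by rw [hr, hs]; unfold ccSea3; ring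
  have e2 : 0 ≤ (1 : ℝ) * ccSea3 t := by rw [e]; positivity
  exact (mul_nonneg_iff_of_pos_left (by norm_num)).mp e2

theorem ccSea3_nn {t : ℝ} (h0 : 0 ≤ t) (h1 : t ≤ 1) : 0 ≤ ccSea3 t := by
  exact ccSea3_nn0 (by linarith) (by linarith)

def ccSea4 (t : ℝ) : ℝ := 32697740 + 44962900 * t + 281841880 * t ^ 2 + 462418020 * t ^ 3 + 788117393 * t ^ 4 + 848114652 * t ^ 5 + 800368079 * t ^ 6 + 645525702 * t ^ 7 + 326110014 * t ^ 8 + 297352382 * t ^ 9 + 105776055 * t ^ 10 + 82588420 * t ^ 11 + 41075825 * t ^ 12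

theorem ccSea4_nn0 {t : ℝ} (h0 : (0 : ℝ) ≤ 1 * t) (h1 : 1 * t ≤ 1) : 0 ≤ ccSea4 t := by
  obtain ⟨r, hr⟩ : ∃ r, r = 1 * t - 0 := ⟨_, rfl⟩
  obtain ⟨s, hs⟩ : ∃ s, s = 1 - 1 * t := ⟨_, rfl⟩
  have hr0 : 0 ≤ r := by rw [hr]; linarith
  have hs0 : 0 ≤ s := by rw [hs]; linarith
  have e : (1 : ℝ) * ccSea4 t = 32697740 * s ^ 12 + 437335780 * r ^ 1 * s ^ 11 + 2934484620 * r ^ 2 * s ^ 10 + 12947299120 * r ^ 3 * s ^ 9 + 41237023973 * r ^ 4 * s ^ 8 + 98355495196 * r ^ 5 * s ^ 7 + 177819937687 * r ^ 6 * s ^ 6 + 243351010036 * r ^ 7 * s ^ 5 + 248886093659 * r ^ 8 * s ^ 4 + 185159518446 * r ^ 9 * s ^ 3 + 95253909846 * r ^ 10 * s ^ 2 + 30629362184 * r ^ 11 * s ^ 1 + 4756949062 * r ^ 12 := by rw [hr, hs]; unfold ccSea4; ring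
  have e2 : 0 ≤ (1 : ℝ) * ccSea4 t := by rw [e]; positivity
  exact (mul_nonneg_iff_of_pos_left (by norm_num)).mp e2

theorem ccSea4_nn {t : ℝ} (h0 : 0 ≤ t) (h1 : t ≤ 1) : 0 ≤ ccSea4 t := by
  exact ccSea4_nn0 (by linarith) (by linarith)

def ccSea5 (t : ℝ) : ℝ := 146137914 + 198748800 * t + 1324571290 * t ^ 2 + 2187225990 * t ^ 3 + 3915766062 * t ^ 4 + 4080144036 * t ^ 5 + 3856184470 * t ^ 6 + 2970106472 * t ^ 7 + 1264059942 * t ^ 8 + 1232904776 * t ^ 9 + 312820140 * t ^ 10 + 355357310 * t ^ 11 + 168346650 * t ^ 12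

theorem ccSea5_nn0 {t : ℝ} (h0 : (0 : ℝ) ≤ 1 * t) (h1 : 1 * t ≤ 1) : 0 ≤ ccSea5 t := by
  obtain ⟨r, hr⟩ : ∃ r, r = 1 * t - 0 := ⟨_, rfl⟩
  obtain ⟨s, hs⟩ : ∃ s, s = 1 - 1 * t := ⟨_, rfl⟩
  have hr0 : 0 ≤ r := by rw [hr]; linarith
  have hs0 : 0 ≤ s := by rw [hs]; linarith
  have e : (1 : ℝ) * ccSea5 t = 146137914 * s ^ 12 + 1952403768 * r ^ 1 * s ^ 11 + 13155910414 * r ^ 2 * s ^ 10 + 58514463970 * r ^ 3 * s ^ 9 + 188338327452 * r ^ 4 * s ^ 8 + 454423294860 * r ^ 5 * s ^ 7 + 830798974654 * r ^ 6 * s ^ 6 + 1148018750828 * r ^ 7 * s ^ 5 + 1182541842022 * r ^ 8 * s ^ 4 + 882821270436 * r ^ 9 * s ^ 3 + 453386330396 * r ^ 10 * s ^ 2 + 144481366192 * r ^ 11 * s ^ 1 + 22012373852 * r ^ 12 := by rw [hr, hs]; unfold ccSea5; ring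
  have e2 : 0 ≤ (1 : ℝ) * ccSea5 t := by rw [e]; positivity
  exact (mul_nonneg_iff_of_pos_left (by norm_num)).mp e2

theorem ccSea5_nn {t : ℝ} (h0 : 0 ≤ t) (h1 : t ≤ 1) : 0 ≤ ccSea5 t := by
  exact ccSea5_nn0 (by linarith) (by linarith)

def ccSea6 (t : ℝ) : ℝ := 448028010 + 602202600 * t + 4281341560 * t ^ 2 + 7105630940 * t ^ 3 + 13335879920 * t ^ 4 + 13484835876 * t ^ 5 + 12709004376 * t ^ 6 + 9388861104 * t ^ 7 + 3192448880 * t ^ 8 + 3431676696 * t ^ 9 + 442319440 * t ^ 10 + 1027595560 * t ^ 11 + 464316300 * t ^ 12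

theorem ccSea6_nn0 {t : ℝ} (h0 : (0 : ℝ) ≤ 1 * t) (h1 : 1 * t ≤ 1) : 0 ≤ ccSea6 t := by
  obtain ⟨r, hr⟩ : ∃ r, r = 1 * t - 0 := ⟨_, rfl⟩
  obtain ⟨s, hs⟩ : ∃ s, s = 1 - 1 * t := ⟨_, rfl⟩
  have hr0 : 0 ≤ r := by rw [hr]; linarith
  have hs0 : 0 ≤ s := by rw [hs]; linarith
  have e : (1 : ℝ) * ccSea6 t = 448028010 * s ^ 12 + 5978538720 * r ^ 1 * s ^ 11 + 40475418820 * r ^ 2 * s ^ 10 + 181606351740 * r ^ 3 * s ^ 9 + 591084222530 * r ^ 4 * s ^ 8 + 1443300618196 * r ^ 5 * s ^ 7 + 2668657702268 * r ^ 6 * s ^ 6 + 3722897072956 * r ^ 7 * s ^ 5 + 3861144619090 * r ^ 8 * s ^ 4 + 2891612279316 * r ^ 9 * s ^ 3 + 1482155986344 * r ^ 10 * s ^ 2 + 468020941096 * r ^ 11 * s ^ 1 + 69914141262 * r ^ 12 := by rw [hr, hs]; unfold ccSea6; ring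
  have e2 : 0 ≤ (1 : ℝ) * ccSea6 t := by rw [e]; positivity
  exact (mul_nonneg_iff_of_pos_left (by norm_num)).mp e2

theorem ccSea6_nn {t : ℝ} (h0 : 0 ≤ t) (h1 : t ≤ 1) : 0 ≤ ccSea6 t := by
  exact ccSea6_nn0 (by linarith) (by linarith)

def ccSea7 (t : ℝ) : ℝ := 931349610 + 1236324600 * t + 9411541950 * t ^ 2 + 15657115350 * t ^ 3 + 30771679838 * t ^ 4 + 30243839892 * t ^ 5 + 28312056782 * t ^ 6 + 20160959888 * t ^ 7 + 5002295486 * t ^ 8 + 6293506300 * t ^ 9 - 214818916 * t ^ 10 + 1957489690 * t ^ 11 + 847345650 * t ^ 12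

theorem ccSea7_nn0 {t : ℝ} (h0 : (0 : ℝ) ≤ 1 * t) (h1 : 1 * t ≤ 1) : 0 ≤ ccSea7 t := by
  obtain ⟨r, hr⟩ : ∃ r, r = 1 * t - 0 := ⟨_, rfl⟩
  obtain ⟨s, hs⟩ : ∃ s, s = 1 - 1 * t := ⟨_, rfl⟩
  have hr0 : 0 ≤ r := by rw [hr]; linarith
  have hs0 : 0 ≤ s := by rw [hs]; linarith
  have e : (1 : ℝ) * ccSea7 t = 931349610 * s ^ 12 + 12412519920 * r ^ 1 * s ^ 11 + 84480186810 * r ^ 2 * s ^ 10 + 382667302050 * r ^ 3 * s ^ 9 + 1260216721688 * r ^ 4 * s ^ 8 + 3115074474316 * r ^ 5 * s ^ 7 + 5824996475230 * r ^ 6 * s ^ 6 + 8201683971060 * r ^ 7 * s ^ 5 + 8561265450086 * r ^ 8 * s ^ 4 + 6429375086512 * r ^ 9 * s ^ 3 + 3288340064316 * r ^ 10 * s ^ 2 + 1028780234352 * r ^ 11 * s ^ 1 + 150610686120 * r ^ 12 := by rw [hr, hs]; unfold ccSea7; ring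
  have e2 : 0 ≤ (1 : ℝ) * ccSea7 t := by rw [e]; positivity
  exact (mul_nonneg_iff_of_pos_left (by norm_num)).mp e2

theorem ccSea7_nn {t : ℝ} (h0 : 0 ≤ t) (h1 : t ≤ 1) : 0 ≤ ccSea7 t := by
  exact ccSea7_nn0 (by linarith) (by linarith)

def ccSea8 (t : ℝ) : ℝ := 1257582105 + 1647515700 * t + 13483690920 * t ^ 2 + 22399427340 * t ^ 3 + 46079156319 * t ^ 4 + 44074657064 * t ^ 5 + 40826619629 * t ^ 6 + 28176711750 * t ^ 7 + 4222279298 * t ^ 8 + 7198669970 * t ^ 9 - 1910618427 * t ^ 10 + 2318504300 * t ^ 11 + 973452875 * t ^ 12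

theorem ccSea8_nn0 {t : ℝ} (h0 : (0 : ℝ) ≤ 1 * t) (h1 : 1 * t ≤ 1) : 0 ≤ ccSea8 t := by
  obtain ⟨r, hr⟩ : ∃ r, r = 1 * t - 0 := ⟨_, rfl⟩
  obtain ⟨s, hs⟩ : ∃ s, s = 1 - 1 * t := ⟨_, rfl⟩
  have hr0 : 0 ≤ r := by rw [hr]; linarith
  have hs0 : 0 ≤ s := by rw [hs]; linarith
  have e : (1 : ℝ) * ccSea8 t = 1257582105 * s ^ 12 + 16738500960 * r ^ 1 * s ^ 11 + 114606782550 * r ^ 2 * s ^ 10 + 524517763140 * r ^ 3 * s ^ 9 + 1748783326254 * r ^ 4 * s ^ 8 + 4376815410416 * r ^ 5 * s ^ 7 + 8275850704189 * r ^ 6 * s ^ 6 + 11756512218972 * r ^ 7 * s ^ 5 + 12345745333068 * r ^ 8 * s ^ 4 + 9293536008906 * r ^ 9 * s ^ 3 + 4741728912552 * r ^ 10 * s ^ 2 + 1469626934292 * r ^ 11 * s ^ 1 + 210747648843 * r ^ 12 := by rw [hr, hs]; unfold ccSea8; ring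
  have e2 : 0 ≤ (1 : ℝ) * ccSea8 t := by rw [e]; positivity
  exact (mul_nonneg_iff_of_pos_left (by norm_num)).mp e2

theorem ccSea8_nn {t : ℝ} (h0 : 0 ≤ t) (h1 : t ≤ 1) : 0 ≤ ccSea8 t := by
  exact ccSea8_nn0 (by linarith) (by linarith)

def ccSea9 (t : ℝ) : ℝ := 996892920 + 1287997200 * t + 11381605110 * t ^ 2 + 18792563490 * t ^ 3 + 40465358072 * t ^ 4 + 37708911780 * t ^ 5 + 34431473680 * t ^ 6 + 23165585200 * t ^ 7 + 1054823838 * t ^ 8 + 4539654320 * t ^ 9 - 2876909130 * t ^ 10 + 1498824330 * t ^ 11 + 630929400 * t ^ 12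

theorem ccSea9_nn0 {t : ℝ} (h0 : (0 : ℝ) ≤ 1 * t) (h1 : 1 * t ≤ 1) : 0 ≤ ccSea9 t := by
  obtain ⟨r, hr⟩ : ∃ r, r = 1 * t - 0 := ⟨_, rfl⟩
  obtain ⟨s, hs⟩ : ∃ s, s = 1 - 1 * t := ⟨_, rfl⟩
  have hr0 : 0 ≤ r := by rw [hr]; linarith
  have hs0 : 0 ≤ s := by rw [hs]; linarith
  have e : (1 : ℝ) * ccSea9 t = 996892920 * s ^ 12 + 13250712240 * r ^ 1 * s ^ 11 + 91344507030 * r ^ 2 * s ^ 10 + 422764902990 * r ^ 3 * s ^ 9 + 1427752192832 * r ^ 4 * s ^ 8 + 3618334943836 * r ^ 5 * s ^ 7 + 6916320052896 * r ^ 6 * s ^ 6 + 9908323013192 * r ^ 7 * s ^ 5 + 10462242976618 * r ^ 8 * s ^ 4 + 7891120166364 * r ^ 9 * s ^ 3 + 4015455421764 * r ^ 10 * s ^ 2 + 1232765086248 * r ^ 11 * s ^ 1 + 173077710210 * r ^ 12 := by rw [hr, hs]; unfold ccSea9; ring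
  have e2 : 0 ≤ (1 : ℝ) * ccSea9 t := by rw [e]; positivity
  exact (mul_nonneg_iff_of_pos_left (by norm_num)).mp e2

theorem ccSea9_nn {t : ℝ} (h0 : 0 ≤ t) (h1 : t ≤ 1) : 0 ≤ ccSea9 t := by
  exact ccSea9_nn0 (by linarith) (by linarith)

def ccSea10 (t : ℝ) : ℝ := 352576476 + 448954650 * t + 4302510210 * t ^ 2 + 7023531870 * t ^ 3 + 15834542655 * t ^ 4 + 14393104020 * t ^ 5 + 12902181900 * t ^ 6 + 8513668680 * t ^ 7 - 546700005 * t ^ 8 + 1142624730 * t ^ 9 - 1530061110 * t ^ 10 + 374512050 * t ^ 11 + 173802825 * t ^ 12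

theorem ccSea10_nn0 {t : ℝ} (h0 : (0 : ℝ) ≤ 1 * t) (h1 : 1 * t ≤ 1) : 0 ≤ ccSea10 t := by
  obtain ⟨r, hr⟩ : ∃ r, r = 1 * t - 0 := ⟨_, rfl⟩
  obtain ⟨s, hs⟩ : ∃ s, s = 1 - 1 * t := ⟨_, rfl⟩
  have hr0 : 0 ≤ r := by rw [hr]; linarith
  have hs0 : 0 ≤ s := by rw [hs]; linarith
  have e : (1 : ℝ) * ccSea10 t = 352576476 * s ^ 12 + 4679872362 * r ^ 1 * s ^ 11 + 32511058776 * r ^ 2 * s ^ 10 + 152307964440 * r ^ 3 * s ^ 9 + 521262161805 * r ^ 4 * s ^ 8 + 1337613421272 * r ^ 5 * s ^ 7 + 2583722637684 * r ^ 6 * s ^ 6 + 3730771539012 * r ^ 7 * s ^ 5 + 3958903548285 * r ^ 8 * s ^ 4 + 2990551423140 * r ^ 9 * s ^ 3 + 1517332067046 * r ^ 10 * s ^ 2 + 461371275972 * r ^ 11 * s ^ 1 + 63385248951 * r ^ 12 := by rw [hr, hs]; unfold ccSea10; ring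
  have e2 : 0 ≤ (1 : ℝ) * ccSea10 t := by rw [e]; positivity
  exact (mul_nonneg_iff_of_pos_left (by norm_num)).mp e2

theorem ccSea10_nn {t : ℝ} (h0 : 0 ≤ t) (h1 : t ≤ 1) : 0 ≤ ccSea10 t := by
  exact ccSea10_nn0 (by linarith) (by linarith)

theorem pcSe_posa {d t : ℝ} (hd : 0 ≤ d) (hd3 : d ≤ 1 / 3) (h0 : 0 ≤ t) (h1 : t ≤ 1) : 0 < pcSe d t := by
  obtain ⟨u, hu⟩ : ∃ u, u = d := ⟨_, rfl⟩
  obtain ⟨v, hv⟩ : ∃ v, v = 1 - 3 * d := ⟨_, rfl⟩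
  have hu0 : 0 ≤ u := by rw [hu]; linarith
  have hv0 : 0 ≤ v := by rw [hv]; linarith
  have key : (1 : ℝ) * pcSe d t = 1 + (v ^ 10 * ccSea0 t + (u ^ 1 * v ^ 9 * ccSea1 t + (u ^ 2 * v ^ 8 * ccSea2 t + (u ^ 3 * v ^ 7 * ccSea3 t + (u ^ 4 * v ^ 6 * ccSea4 t + (u ^ 5 * v ^ 5 * ccSea5 t + (u ^ 6 * v ^ 4 * ccSea6 t + (u ^ 7 * v ^ 3 * ccSea7 t + (u ^ 8 * v ^ 2 * ccSea8 t + (u ^ 9 * v ^ 1 * ccSea9 t + (u ^ 10 * ccSea10 t))))))))))) := by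
    rw [hu, hv]; unfold pcSe ccSea0 ccSea1 ccSea2 ccSea3 ccSea4 ccSea5 ccSea6 ccSea7 ccSea8 ccSea9 ccSea10; ring
  have h3 : 0 < (1 : ℝ) * pcSe d t := by
    rw [key]; exact add_pos_of_pos_of_nonneg one_pos (add_nonneg (mul_nonneg (by positivity) (ccSea0_nn h0 h1)) (add_nonneg (mul_nonneg (by positivity) (ccSea1_nn h0 h1)) (add_nonneg (mul_nonneg (by positivity) (ccSea2_nn h0 h1)) (add_nonneg (mul_nonneg (by positivity) (ccSea3_nn h0 h1)) (add_nonneg (mul_nonneg (by positivity) (ccSea4_nn h0 h1)) (add_nonneg (mul_nonneg (by positivity) (ccSea5_nn h0 h1)) (add_nonneg (mul_nonneg (by positivity) (ccSea6_nn h0 h1)) (add_nonneg (mul_nonneg (by positivity) (ccSea7_nn h0 h1)) (add_nonneg (mul_nonneg (by positivity) (ccSea8_nn h0 h1)) (add_nonneg (mul_nonneg (by positivity) (ccSea9_nn h0 h1)) (mul_nonneg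 (by positivity) (ccSea10_nn h0 h1))))))))))))
  exact (mul_pos_iff_of_pos_left (by norm_num)).mp h3

def ccSeb0 (t : ℝ) : ℝ := 352576476 + 448954650 * t + 4302510210 * t ^ 2 + 7023531870 * t ^ 3 + 15834542655 * t ^ 4 + 14393104020 * t ^ 5 + 12902181900 * t ^ 6 + 8513668680 * t ^ 7 - 546700005 * t ^ 8 + 1142624730 * t ^ 9 - 1530061110 * t ^ 10 + 374512050 * t ^ 11 + 173802825 * t ^ 12

theorem ccSeb0_nn0 {t : ℝ} (h0 : (0 : ℝ) ≤ 1 * t) (h1 : 1 * t ≤ 1) : 0 ≤ ccSeb0 t := by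
  obtain ⟨r, hr⟩ : ∃ r, r = 1 * t - 0 := ⟨_, rfl⟩
  obtain ⟨s, hs⟩ : ∃ s, s = 1 - 1 * t := ⟨_, rfl⟩
  have hr0 : 0 ≤ r := by rw [hr]; linarith
  have hs0 : 0 ≤ s := by rw [hs]; linarith
  have e : (1 : ℝ) * ccSeb0 t = 352576476 * s ^ 12 + 4679872362 * r ^ 1 * s ^ 11 + 32511058776 * r ^ 2 * s ^ 10 + 152307964440 * r ^ 3 * s ^ 9 + 521262161805 * r ^ 4 * s ^ 8 + 1337613421272 * r ^ 5 * s ^ 7 + 2583722637684 * r ^ 6 * s ^ 6 + 3730771539012 * r ^ 7 * s ^ 5 + 3958903548285 * r ^ 8 * s ^ 4 + 2990551423140 * r ^ 9 * s ^ 3 + 1517332067046 * r ^ 10 * s ^ 2 + 461371275972 * r ^ 11 * s ^ 1 + 63385248951 * r ^ 12 := by rw [hr, hs]; unfold ccSeb0; ring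
  have e2 : 0 ≤ (1 : ℝ) * ccSeb0 t := by rw [e]; positivity
  exact (mul_nonneg_iff_of_pos_left (by norm_num)).mp e2

theorem ccSeb0_nn {t : ℝ} (h0 : 0 ≤ t) (h1 : t ≤ 1) : 0 ≤ ccSeb0 t := by
  exact ccSeb0_nn0 (by linarith) (by linarith)

def ccSeb1 (t : ℝ) : ℝ := 2528871840 + 3201549300 * t + 31643496990 * t ^ 2 + 51442755210 * t ^ 3 + 117880068478 * t ^ 4 + 106222128420 * t ^ 5 + 94590345320 * t ^ 6 + 61971101600 * t ^ 7 - 6521823888 * t ^ 8 + 6886592980 * t ^ 9 - 12423701970 * t ^ 10 + 2246296170 * t ^ 11 + 1107098850 * t ^ 12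

theorem ccSeb1_nn0 {t : ℝ} (h0 : (0 : ℝ) ≤ 1 * t) (h1 : 1 * t ≤ 1) : 0 ≤ ccSeb1 t := by
  obtain ⟨r, hr⟩ : ∃ r, r = 1 * t - 0 := ⟨_, rfl⟩
  obtain ⟨s, hs⟩ : ∃ s, s = 1 - 1 * t := ⟨_, rfl⟩
  have hr0 : 0 ≤ r := by rw [hr]; linarith
  have hs0 : 0 ≤ s := by rw [hs]; linarith
  have e : (1 : ℝ) * ccSeb1 t = 2528871840 * s ^ 12 + 33548011380 * r ^ 1 * s ^ 11 + 233766080730 * r ^ 2 * s ^ 10 + 1100314741410 * r ^ 3 * s ^ 9 + 3784869425218 * r ^ 4 * s ^ 8 + 9757799268884 * r ^ 5 * s ^ 7 + 18920906323944 * r ^ 6 * s ^ 6 + 27399392376928 * r ^ 7 * s ^ 5 + 29126792506232 * r ^ 8 * s ^ 4 + 22014394065036 * r ^ 9 * s ^ 3 + 11157865248696 * r ^ 10 * s ^ 2 + 3380947673472 * r ^ 11 * s ^ 1 + 460774779300 * r ^ 12 := by rw [hr, hs]; unfold ccSeb1; ring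
  have e2 : 0 ≤ (1 : ℝ) * ccSeb1 t := by rw [e]; positivity
  exact (mul_nonneg_iff_of_pos_left (by norm_num)).mp e2

theorem ccSeb1_nn {t : ℝ} (h0 : 0 ≤ t) (h1 : t ≤ 1) : 0 ≤ ccSeb1 t := by
  exact ccSeb1_nn0 (by linarith) (by linarith)

def ccSeb2 (t : ℝ) : ℝ := 8151487245 + 10258500150 * t + 104662204380 * t ^ 2 + 169325290080 * t ^ 3 + 394445353146 * t ^ 4 + 352384131944 * t ^ 5 + 311541542009 * t ^ 6 + 202801535550 * t ^ 7 - 29872635469 * t ^ 8 + 17759893940 * t ^ 9 - 44871186207 * t ^ 10 + 5682127580 * t ^ 11 + 3116215400 * t ^ 12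

theorem ccSeb2_nn0 {t : ℝ} (h0 : (0 : ℝ) ≤ 1 * t) (h1 : 1 * t ≤ 1) : 0 ≤ ccSeb2 t := by
  obtain ⟨r, hr⟩ : ∃ r, r = 1 * t - 0 := ⟨_, rfl⟩
  obtain ⟨s, hs⟩ : ∃ s, s = 1 - 1 * t := ⟨_, rfl⟩
  have hr0 : 0 ≤ r := by rw [hr]; linarith
  have hs0 : 0 ≤ s := by rw [hs]; linarith
  have e : (1 : ℝ) * ccSeb2 t = 8151487245 * s ^ 12 + 108076347090 * r ^ 1 * s ^ 11 + 755503864200 * r ^ 2 * s ^ 10 + 3573492036030 * r ^ 3 * s ^ 9 + 12355810871991 * r ^ 4 * s ^ 8 + 32004404873132 * r ^ 5 * s ^ 7 + 62296488923905 * r ^ 6 * s ^ 6 + 90466324355784 * r ^ 7 * s ^ 5 + 96336218216331 * r ^ 8 * s ^ 4 + 72848268552930 * r ^ 9 * s ^ 3 + 36882573133746 * r ^ 10 * s ^ 2 + 11136448576800 * r ^ 11 * s ^ 1 + 1505384459748 * r ^ 12 := by rw [hr, hs]; unfold ccSeb2; ring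
  have e2 : 0 ≤ (1 : ℝ) * ccSeb2 t := by rw [e]; positivity
  exact (mul_nonneg_iff_of_pos_left (by norm_num)).mp e2

theorem ccSeb2_nn {t : ℝ} (h0 : 0 ≤ t) (h1 : t ≤ 1) : 0 ≤ ccSeb2 t := by
  exact ccSeb2_nn0 (by linarith) (by linarith)

def ccSeb3 (t : ℝ) : ℝ := 15550339230 + 19450459800 * t + 205021426650 * t ^ 2 + 329829842130 * t ^ 3 + 781253798722 * t ^ 4 + 692005074940 * t ^ 5 + 607029675770 * t ^ 6 + 392931908512 * t ^ 7 - 74801719870 * t ^ 8 + 24983265540 * t ^ 9 - 95108733020 * t ^ 10 + 7574314830 * t ^ 11 + 5083157950 * t ^ 12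

theorem ccSeb3_nn0 {t : ℝ} (h0 : (0 : ℝ) ≤ 1 * t) (h1 : 1 * t ≤ 1) : 0 ≤ ccSeb3 t := by
  obtain ⟨r, hr⟩ : ∃ r, r = 1 * t - 0 := ⟨_, rfl⟩
  obtain ⟨s, hs⟩ : ∃ s, s = 1 - 1 * t := ⟨_, rfl⟩
  have hr0 : 0 ≤ r := by rw [hr]; linarith
  have hs0 : 0 ≤ s := by rw [hs]; linarith
  have e : (1 : ℝ) * ccSeb3 t = 15550339230 * s ^ 12 + 206054530560 * r ^ 1 * s ^ 11 + 1445298873630 * r ^ 2 * s ^ 10 + 6870894028230 * r ^ 3 * s ^ 9 + 23882430362992 * r ^ 4 * s ^ 8 + 62153001383556 * r ^ 5 * s ^ 7 + 121441003776106 * r ^ 6 * s ^ 6 + 176843369987244 * r ^ 7 * s ^ 5 + 188632375850410 * r ^ 8 * s ^ 4 + 142704757772432 * r ^ 9 * s ^ 3 + 72168944098116 * r ^ 10 * s ^ 2 + 21713245251696 * r ^ 11 * s ^ 1 + 2910802811184 * r ^ 12 := by rw [hr, hs]; unfold ccSeb3; ring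
  have e2 : 0 ≤ (1 : ℝ) * ccSeb3 t := by rw [e]; positivity
  exact (mul_nonneg_iff_of_pos_left (by norm_num)).mp e2

theorem ccSeb3_nn {t : ℝ} (h0 : 0 ≤ t) (h1 : t ≤ 1) : 0 ≤ ccSeb3 t := by
  exact ccSeb3_nn0 (by linarith) (by linarith)

def ccSeb4 (t : ℝ) : ℝ := 19442934360 + 24167081700 * t + 263416208530 * t ^ 2 + 421056148550 * t ^ 3 + 1014314377488 * t ^ 4 + 890871609104 * t ^ 5 + 774884366394 * t ^ 6 + 499171336888 * t ^ 7 - 117012002620 * t ^ 8 + 19560122176 * t ^ 9 - 131203730284 * t ^ 10 + 4989574910 * t ^ 11 + 5290100900 * t ^ 12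

theorem ccSeb4_nn0 {t : ℝ} (h0 : (0 : ℝ) ≤ 1 * t) (h1 : 1 * t ≤ 1) : 0 ≤ ccSeb4 t := by
  obtain ⟨r, hr⟩ : ∃ r, r = 1 * t - 0 := ⟨_, rfl⟩
  obtain ⟨s, hs⟩ : ∃ s, s = 1 - 1 * t := ⟨_, rfl⟩
  have hr0 : 0 ≤ r := by rw [hr]; linarith
  have hs0 : 0 ≤ s := by rw [hs]; linarith
  have e : (1 : ℝ) * ccSeb4 t = 19442934360 * s ^ 12 + 257482294020 * r ^ 1 * s ^ 11 + 1812487774990 * r ^ 2 * s ^ 10 + 8661853286550 * r ^ 3 * s ^ 9 + 30269370086988 * r ^ 4 * s ^ 8 + 79147293974528 * r ^ 5 * s ^ 7 + 155228371563326 * r ^ 6 * s ^ 6 + 226656341491144 * r ^ 7 * s ^ 5 + 242154490898330 * r ^ 8 * s ^ 4 + 183266699807924 * r ^ 9 * s ^ 3 + 92573663739072 * r ^ 10 * s ^ 2 + 27751814170096 * r ^ 11 * s ^ 1 + 3688948128096 * r ^ 12 := by rw [hr, hs]; unfold ccSeb4; ring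
  have e2 : 0 ≤ (1 : ℝ) * ccSeb4 t := by rw [e]; positivity
  exact (mul_nonneg_iff_of_pos_left (by norm_num)).mp e2

theorem ccSeb4_nn {t : ℝ} (h0 : 0 ≤ t) (h1 : t ≤ 1) : 0 ≤ ccSeb4 t := by
  exact ccSeb4_nn0 (by linarith) (by linarith)

def ccSeb5 (t : ℝ) : ℝ := 16649050248 + 20561454000 * t + 231958117700 * t ^ 2 + 368082099840 * t ^ 3 + 901996622712 * t ^ 4 + 785628357832 * t ^ 5 + 677119503708 * t ^ 6 + 434459532664 * t ^ 7 - 121386136028 * t ^ 8 + 6264029060 * t ^ 9 - 123227187516 * t ^ 10 + 64344380 * t ^ 11 + 3637861000 * t ^ 12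

theorem ccSeb5_nn0 {t : ℝ} (h0 : (0 : ℝ) ≤ 1 * t) (h1 : 1 * t ≤ 1) : 0 ≤ ccSeb5 t := by
  obtain ⟨r, hr⟩ : ∃ r, r = 1 * t - 0 := ⟨_, rfl⟩
  obtain ⟨s, hs⟩ : ∃ s, s = 1 - 1 * t := ⟨_, rfl⟩
  have hr0 : 0 ≤ r := by rw [hr]; linarith
  have hs0 : 0 ≤ s := by rw [hs]; linarith
  have e : (1 : ℝ) * ccSeb5 t = 16649050248 * s ^ 12 + 220350056976 * r ^ 1 * s ^ 11 + 1556971428068 * r ^ 2 * s ^ 10 + 7481334301400 * r ^ 3 * s ^ 9 + 26286770600532 * r ^ 4 * s ^ 8 + 69058858674184 * r ^ 5 * s ^ 7 + 135945638725180 * r ^ 6 * s ^ 6 + 199024412725912 * r ^ 7 * s ^ 5 + 212960569186472 * r ^ 8 * s ^ 4 + 161225809756860 * r ^ 9 * s ^ 3 + 81341525093272 * r ^ 10 * s ^ 2 + 24295528357040 * r ^ 11 * s ^ 1 + 3201807649600 * r ^ 12 := by rw [hr, hs]; unfold ccSeb5; ring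
  have e2 : 0 ≤ (1 : ℝ) * ccSeb5 t := by rw [e]; positivity
  exact (mul_nonneg_iff_of_pos_left (by norm_num)).mp e2

theorem ccSeb5_nn {t : ℝ} (h0 : 0 ≤ t) (h1 : t ≤ 1) : 0 ≤ ccSeb5 t := by
  exact ccSeb5_nn0 (by linarith) (by linarith)

def ccSeb6 (t : ℝ) : ℝ := 9888491360 + 12131825200 * t + 141778405220 * t ^ 2 + 223150321680 * t ^ 3 + 556398474361 * t ^ 4 + 480640490792 * t ^ 5 + 410188413349 * t ^ 6 + 262370823922 * t ^ 7 - 85343052284 * t ^ 8 - 2803094678 * t ^ 9 - 79870443595 * t ^ 10 - 2701437960 * t ^ 11 + 1650179425 * t ^ 12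

theorem ccSeb6_nn0 {t : ℝ} (h0 : (0 : ℝ) ≤ 1 * t) (h1 : 1 * t ≤ 1) : 0 ≤ ccSeb6 t := by
  obtain ⟨r, hr⟩ : ∃ r, r = 1 * t - 0 := ⟨_, rfl⟩
  obtain ⟨s, hs⟩ : ∃ s, s = 1 - 1 * t := ⟨_, rfl⟩
  have hr0 : 0 ≤ r := by rw [hr]; linarith
  have hs0 : 0 ≤ s := by rw [hs]; linarith
  have e : (1 : ℝ) * ccSeb6 t = 9888491360 * s ^ 12 + 130793721520 * r ^ 1 * s ^ 11 + 927868912180 * r ^ 2 * s ^ 10 + 4483652859080 * r ^ 3 * s ^ 9 + 15841333985581 * r ^ 4 * s ^ 8 + 41813835965680 * r ^ 5 * s ^ 7 + 82613790507361 * r ^ 6 * s ^ 6 + 121256953221504 * r ^ 7 * s ^ 5 + 129938358817631 * r ^ 8 * s ^ 4 + 98399287849042 * r ^ 9 * s ^ 3 + 49582134618002 * r ^ 10 * s ^ 2 + 14754680932656 * r ^ 11 * s ^ 1 + 1927479396792 * r ^ 12 := by rw [hr, hs]; unfold ccSeb6; ring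
  have e2 : 0 ≤ (1 : ℝ) * ccSeb6 t := by rw [e]; positivity
  exact (mul_nonneg_iff_of_pos_left (by norm_num)).mp e2

theorem ccSeb6_nn {t : ℝ} (h0 : 0 ≤ t) (h1 : t ≤ 1) : 0 ≤ ccSeb6 t := by
  exact ccSeb6_nn0 (by linarith) (by linarith)

def ccSeb7 (t : ℝ) : ℝ := 4022555680 + 4901849600 * t + 59396944880 * t ^ 2 + 92641110640 * t ^ 3 + 235084174198 * t ^ 4 + 201438469848 * t ^ 5 + 170094350114 * t ^ 6 + 108556564384 * t ^ 7 - 40384161792 * t ^ 8 - 3916996712 * t ^ 9 - 35302810290 * t ^ 10 - 2319791400 * t ^ 11 + 475015650 * t ^ 12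

theorem ccSeb7_nn0 {t : ℝ} (h0 : (0 : ℝ) ≤ 1 * t) (h1 : 1 * t ≤ 1) : 0 ≤ ccSeb7 t := by
  obtain ⟨r, hr⟩ : ∃ r, r = 1 * t - 0 := ⟨_, rfl⟩
  obtain ⟨s, hs⟩ : ∃ s, s = 1 - 1 * t := ⟨_, rfl⟩
  have hr0 : 0 ≤ r := by rw [hr]; linarith
  have hs0 : 0 ≤ s := by rw [hs]; linarith
  have e : (1 : ℝ) * ccSeb7 t = 4022555680 * s ^ 12 + 53172517760 * r ^ 1 * s ^ 11 + 378805965360 * r ^ 2 * s ^ 10 + 1841174537040 * r ^ 3 * s ^ 9 + 6541686935158 * r ^ 4 * s ^ 8 + 17348299698632 * r ^ 5 * s ^ 7 + 34399228198674 * r ^ 6 * s ^ 6 + 50615372951124 * r ^ 7 * s ^ 5 + 54314966345418 * r ^ 8 * s ^ 4 + 41140313314968 * r ^ 9 * s ^ 3 + 20703219774244 * r ^ 10 * s ^ 2 + 6137809014160 * r ^ 11 * s ^ 1 + 794687274800 * r ^ 12 := by rw [hr, hs]; unfold ccSeb7; ring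
  have e2 : 0 ≤ (1 : ℝ) * ccSeb7 t := by rw [e]; positivity
  exact (mul_nonneg_iff_of_pos_left (by norm_num)).mp e2

theorem ccSeb7_nn {t : ℝ} (h0 : 0 ≤ t) (h1 : t ≤ 1) : 0 ≤ ccSeb7 t := by
  exact ccSeb7_nn0 (by linarith) (by linarith)

def ccSeb8 (t : ℝ) : ℝ := 1072616320 + 1298059200 * t + 16323420960 * t ^ 2 + 25205160320 * t ^ 3 + 65109598200 * t ^ 4 + 55350666020 * t ^ 5 + 46206507700 * t ^ 6 + 29450731560 * t ^ 7 - 12356093220 * t ^ 8 - 1818306420 * t ^ 9 - 10189836800 * t ^ 10 - 975002800 * t ^ 11 + 78478400 * t ^ 12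

theorem ccSeb8_nn0 {t : ℝ} (h0 : (0 : ℝ) ≤ 1 * t) (h1 : 1 * t ≤ 1) : 0 ≤ ccSeb8 t := by
  obtain ⟨r, hr⟩ : ∃ r, r = 1 * t - 0 := ⟨_, rfl⟩
  obtain ⟨s, hs⟩ : ∃ s, s = 1 - 1 * t := ⟨_, rfl⟩
  have hr0 : 0 ≤ r := by rw [hr]; linarith
  have hs0 : 0 ≤ s := by rw [hs]; linarith
  have e : (1 : ℝ) * ccSeb8 t = 1072616320 * s ^ 12 + 14169455040 * r ^ 1 * s ^ 11 + 101394749280 * r ^ 2 * s ^ 10 + 495808216320 * r ^ 3 * s ^ 9 + 1771634830680 * r ^ 4 * s ^ 8 + 4720295399780 * r ^ 5 * s ^ 7 + 9392682618000 * r ^ 6 * s ^ 6 + 13853759021460 * r ^ 7 * s ^ 5 + 14886013581100 * r ^ 8 * s ^ 4 + 11277004940680 * r ^ 9 * s ^ 3 + 5667381999580 * r ^ 10 * s ^ 2 + 1673820882720 * r ^ 11 * s ^ 1 + 214755999440 * r ^ 12 := by rw [hr, hs]; unfold ccSeb8; ring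
  have e2 : 0 ≤ (1 : ℝ) * ccSeb8 t := by rw [e]; positivity
  exact (mul_nonneg_iff_of_pos_left (by norm_num)).mp e2

theorem ccSeb8_nn {t : ℝ} (h0 : 0 ≤ t) (h1 : t ≤ 1) : 0 ≤ ccSeb8 t := by
  exact ccSeb8_nn0 (by linarith) (by linarith)

def ccSeb9 (t : ℝ) : ℝ := 169299840 + 203436800 * t + 2657361280 * t ^ 2 + 4058278080 * t ^ 3 + 10674284440 * t ^ 4 + 9004580040 * t ^ 5 + 7425081640 * t ^ 6 + 4730617040 * t ^ 7 - 2213236520 * t ^ 8 - 414497720 * t ^ 9 - 1735285400 * t ^ 10 - 215456000 * t ^ 11 + 5642400 * t ^ 12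

theorem ccSeb9_nn0 {t : ℝ} (h0 : (0 : ℝ) ≤ 1 * t) (h1 : 1 * t ≤ 1) : 0 ≤ ccSeb9 t := by
  obtain ⟨r, hr⟩ : ∃ r, r = 1 * t - 0 := ⟨_, rfl⟩
  obtain ⟨s, hs⟩ : ∃ s, s = 1 - 1 * t := ⟨_, rfl⟩
  have hr0 : 0 ≤ r := by rw [hr]; linarith
  have hs0 : 0 ≤ s := by rw [hs]; linarith
  have e : (1 : ℝ) * ccSeb9 t = 169299840 * s ^ 12 + 2235034880 * r ^ 1 * s ^ 11 + 16068955520 * r ^ 2 * s ^ 10 + 79066879680 * r ^ 3 * s ^ 9 + 284150537560 * r ^ 4 * s ^ 8 + 760599837320 * r ^ 5 * s ^ 7 + 1518699187520 * r ^ 6 * s ^ 6 + 2245208571880 * r ^ 7 * s ^ 5 + 2415502757160 * r ^ 8 * s ^ 4 + 1830052338560 * r ^ 9 * s ^ 3 + 918442424400 * r ^ 10 * s ^ 2 + 270214963200 * r ^ 11 * s ^ 1 + 34350105920 * r ^ 12 := by rw [hr, hs]; unfold ccSeb9; ring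
  have e2 : 0 ≤ (1 : ℝ) * ccSeb9 t := by rw [e]; positivity
  exact (mul_nonneg_iff_of_pos_left (by norm_num)).mp e2

theorem ccSeb9_nn {t : ℝ} (h0 : 0 ≤ t) (h1 : t ≤ 1) : 0 ≤ ccSeb9 t := by
  exact ccSeb9_nn0 (by linarith) (by linarith)

def ccSeb10 (t : ℝ) : ℝ := 12011776 + 14329600 * t + 194603200 * t ^ 2 + 293641600 * t ^ 3 + 786613600 * t ^ 4 + 658623200 * t ^ 5 + 535957600 * t ^ 6 + 341640000 * t ^ 7 - 176584800 * t ^ 8 - 38839200 * t ^ 9 - 132455200 * t ^ 10 - 20064000 * t ^ 11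

theorem ccSeb10_nn0 {t : ℝ} (h0 : (0 : ℝ) ≤ 1 * t) (h1 : 1 * t ≤ 1) : 0 ≤ ccSeb10 t := by
  obtain ⟨r, hr⟩ : ∃ r, r = 1 * t - 0 := ⟨_, rfl⟩
  obtain ⟨s, hs⟩ : ∃ s, s = 1 - 1 * t := ⟨_, rfl⟩
  have hr0 : 0 ≤ r := by rw [hr]; linarith
  have hs0 : 0 ≤ s := by rw [hs]; linarith
  have e : (1 : ℝ) * ccSeb10 t = 12011776 * s ^ 12 + 158470912 * r ^ 1 * s ^ 11 + 1145006016 * r ^ 2 * s ^ 10 + 5670392320 * r ^ 3 * s ^ 9 + 20496745120 * r ^ 4 * s ^ 8 + 55117108192 * r ^ 5 * s ^ 7 + 110423223424 * r ^ 6 * s ^ 6 + 163611284192 * r ^ 7 * s ^ 5 + 176225853920 * r ^ 8 * s ^ 4 + 133517800320 * r ^ 9 * s ^ 3 + 66912697216 * r ^ 10 * s ^ 2 + 19609958912 * r ^ 11 * s ^ 1 + 2469477376 * r ^ 12 := by rw [hr, hs]; unfold ccSeb10; ring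
  have e2 : 0 ≤ (1 : ℝ) * ccSeb10 t := by rw [e]; positivity
  exact (mul_nonneg_iff_of_pos_left (by norm_num)).mp e2

theorem ccSeb10_nn {t : ℝ} (h0 : 0 ≤ t) (h1 : t ≤ 1) : 0 ≤ ccSeb10 t := by
  exact ccSeb10_nn0 (by linarith) (by linarith)

theorem pcSe_posb {d t : ℝ} (hd : 1 / 3 ≤ d) (hd3 : d ≤ 1 / 2) (h0 : 0 ≤ t) (h1 : t ≤ 1) : 0 < pcSe d t := by
  obtain ⟨u, hu⟩ : ∃ u, u = 3 * d - 1 := ⟨_, rfl⟩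
  obtain ⟨v, hv⟩ : ∃ v, v = 1 - 2 * d := ⟨_, rfl⟩
  have hu0 : 0 ≤ u := by rw [hu]; linarith
  have hv0 : 0 ≤ v := by rw [hv]; linarith
  have key : (1 : ℝ) * pcSe d t = 1 + (v ^ 10 * ccSeb0 t + (u ^ 1 * v ^ 9 * ccSeb1 t + (u ^ 2 * v ^ 8 * ccSeb2 t + (u ^ 3 * v ^ 7 * ccSeb3 t + (u ^ 4 * v ^ 6 * ccSeb4 t + (u ^ 5 * v ^ 5 * ccSeb5 t + (u ^ 6 * v ^ 4 * ccSeb6 t + (u ^ 7 * v ^ 3 * ccSeb7 t + (u ^ 8 * v ^ 2 * ccSeb8 t + (u ^ 9 * v ^ 1 * ccSeb9 t + (u ^ 10 * ccSeb10 t))))))))))) := by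
    rw [hu, hv]; unfold pcSe ccSeb0 ccSeb1 ccSeb2 ccSeb3 ccSeb4 ccSeb5 ccSeb6 ccSeb7 ccSeb8 ccSeb9 ccSeb10; ring
  have h3 : 0 < (1 : ℝ) * pcSe d t := by
    rw [key]; exact add_pos_of_pos_of_nonneg one_pos (add_nonneg (mul_nonneg (by positivity) (ccSeb0_nn h0 h1)) (add_nonneg (mul_nonneg (by positivity) (ccSeb1_nn h0 h1)) (add_nonneg (mul_nonneg (by positivity) (ccSeb2_nn h0 h1)) (add_nonneg (mul_nonneg (by positivity) (ccSeb3_nn h0 h1)) (add_nonneg (mul_nonneg (by positivity) (ccSeb4_nn h0 h1)) (add_nonneg (mul_nonneg (by positivity) (ccSeb5_nn h0 h1)) (add_nonneg (mul_nonneg (by positivity) (ccSeb6_nn h0 h1)) (add_nonneg (mul_nonneg (by positivity) (ccSeb7_nn h0 h1)) (add_nonneg (mul_nonneg (by positivity) (ccSeb8_nn h0 h1)) (add_nonneg (mul_nonneg (by positivity) (ccSeb9_nn h0 h1)) (mul_nonneg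 (by positivity) (ccSeb10_nn h0 h1))))))))))))
  exact (mul_pos_iff_of_pos_left (by norm_num)).mp h3

theorem pcSe_pos {d t : ℝ} (hd : 0 ≤ d) (hd3 : d ≤ 1 / 2) (h0 : 0 ≤ t) (h1 : t ≤ 1) : 0 < pcSe d t := by
  rcases le_total d (1 / 3) with h | h
  · exact pcSe_posa hd h h0 h1
  · exact pcSe_posb h hd3 h0 h1

def pcT0 (d t : ℝ) : ℝ := 3000 + 5000 * t + 15000 * t ^ 2 + 23000 * t ^ 3 + 32000 * t ^ 4 + 42000 * t ^ 5 + 38000 * t ^ 6 + 38000 * t ^ 7 + 27000 * t ^ 8 + 17000 * t ^ 9 + 11000 * t ^ 10 + 3000 * t ^ 11 + 2000 * t ^ 12 + 19875 * d + 33250 * d * t + 111850 * d * t ^ 2 + 172350 * d * t ^ 3 + 257925 * d * t ^ 4 + 334700 * d * t ^ 5 + 314500 * d * t ^ 6 + 310100 * d * t ^ 7 + 214325 * d * t ^ 8 + 135250 * d * t ^ 9 + 76850 * d * t ^ 10 + 20750 * d * t ^ 11 + 11075 * d * t ^ 12 + 24150 * d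 ^ 2 + 34800 * d ^ 2 * t + 207550 * d ^ 2 * t ^ 2 + 350450 * d ^ 2 * t ^ 3 + 656400 * d ^ 2 * t ^ 4 + 893500 * d ^ 2 * t ^ 5 + 961000 * d ^ 2 * t ^ 6 + 941000 * d ^ 2 * t ^ 7 + 655050 * d ^ 2 * t ^ 8 + 412100 * d ^ 2 * t ^ 9 + 171850 * d ^ 2 * t ^ 10 + 48950 * d ^ 2 * t ^ 11 + 4800 * d ^ 2 * t ^ 12 - 36425 * d ^ 3 - 88650 * d ^ 3 * t - 73870 * d ^ 3 * t ^ 2 - 15920 * d ^ 3 * t ^ 3 + 406160 * d ^ 3 * t ^ 4 + 745300 * d ^ 3 * t ^ 5 + 1246235 * d ^ 3 * t ^ 6 + 1191850 * d ^ 3 * t ^ 7 + 925425 * d ^ 3 * t ^ 8 + 572060 * d ^ 3 * t ^ 9 + 55145 * d ^ 3 * t ^ 10 + 52780 * d ^ 3 * t ^ 11 - 67650 * d ^ 3 * t ^ 12 + 2900 * d ^ 4 - 9400 * d ^ 4 * t - 158570 * d ^ 4 * t ^ 2 - 337190 * d ^ 4 * t ^ 3 - 399930 * d ^ 4 * t ^ 4 - 328080 * d ^ 4 * t ^ 5 + 313020 * d ^ 4 * t ^ 6 + 150340 * d ^ 4 * t ^ 7 + 387840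 * d ^ 4 * t ^ 8 + 205640 * d ^ 4 * t ^ 9 - 287090 * d ^ 4 * t ^ 10 + 49410 * d ^ 4 * t ^ 11 - 123450 * d ^ 4 * t ^ 12 + 120400 * d ^ 5 + 252000 * d ^ 5 * t + 558670 * d ^ 5 * t ^ 2 + 518750 * d ^ 5 * t ^ 3 + 84440 * d ^ 5 * t ^ 4 - 308720 * d ^ 5 * t ^ 5 - 639276 * d ^ 5 * t ^ 6 - 904172 * d ^ 5 * t ^ 7 - 492360 * d ^ 5 * t ^ 8 - 307268 * d ^ 5 * t ^ 9 - 284124 * d ^ 5 * t ^ 10 + 15110 * d ^ 5 * t ^ 11 - 37250 * d ^ 5 * t ^ 12 - 14400 * d ^ 6 + 267580 * d ^ 6 * t ^ 2 + 677760 * d ^ 6 * t ^ 3 + 938520 * d ^ 6 * t ^ 4 + 181000 * d ^ 6 * t ^ 5 - 260084 * d ^ 6 * t ^ 6 - 397048 * d ^ 6 * t ^ 7 - 678820 * d ^ 6 * t ^ 8 - 78892 * d ^ 6 * t ^ 9 + 57664 * d ^ 6 * t ^ 10 - 71260 * d ^ 6 * t ^ 11 + 55500 * d ^ 6 * t ^ 12 - 245760 * d ^ 7 * t ^ 2 - 74280 * d ^ 7 * t ^ 3 + 344155 * d ^ 7 * t ^ 4 - 311040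 * d ^ 7 * t ^ 5 - 123807 * d ^ 7 * t ^ 6 + 156546 * d ^ 7 * t ^ 7 - 232180 * d ^ 7 * t ^ 8 + 89474 * d ^ 7 * t ^ 9 + 79667 * d ^ 7 * t ^ 10 - 13700 * d ^ 7 * t ^ 11 + 24925 * d ^ 7 * t ^ 12 + 216000 * d ^ 8 * t ^ 2 - 86400 * d ^ 8 * t ^ 3 - 105600 * d ^ 8 * t ^ 4 + 312600 * d ^ 8 * t ^ 5 - 345168 * d ^ 8 * t ^ 6 + 83824 * d ^ 8 * t ^ 7 + 269640 * d ^ 8 * t ^ 8 - 381544 * d ^ 8 * t ^ 9 + 2768 * d ^ 8 * t ^ 10 + 72960 * d ^ 8 * t ^ 11 - 36200 * d ^ 8 * t ^ 12 - 26100 * d ^ 9 * t ^ 4 + 20880 * d ^ 9 * t ^ 5 + 60804 * d ^ 9 * t ^ 6 - 119832 * d ^ 9 * t ^ 7 + 31680 * d ^ 9 * t ^ 8 + 95352 * d ^ 9 * t ^ 9 - 82164 * d ^ 9 * t ^ 10 + 7920 * d ^ 9 * t ^ 11 + 20100 * d ^ 9 * t ^ 12 - 32400 * d ^ 10 * t ^ 4 + 25920 * d ^ 10 * t ^ 5 + 53136 * d ^ 10 * t ^ 6 - 101088 * d ^ 10 * t ^ 7 + 101088 * d ^ 10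 * t ^ 9 - 53136 * d ^ 10 * t ^ 10 - 25920 * d ^ 10 * t ^ 11 + 32400 * d ^ 10 * t ^ 12

def ccT0a0 (t : ℝ) : ℝ := 2999 + 5000 * t + 15000 * t ^ 2 + 23000 * t ^ 3 + 32000 * t ^ 4 + 42000 * t ^ 5 + 38000 * t ^ 6 + 38000 * t ^ 7 + 27000 * t ^ 8 + 17000 * t ^ 9 + 11000 * t ^ 10 + 3000 * t ^ 11 + 2000 * t ^ 12

theorem ccT0a0_nn0 {t : ℝ} (h0 : (0 : ℝ) ≤ 1 * t) (h1 : 1 * t ≤ 1) : 0 ≤ ccT0a0 t := by
  obtain ⟨r, hr⟩ : ∃ r, r = 1 * t - 0 := ⟨_, rfl⟩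
  obtain ⟨s, hs⟩ : ∃ s, s = 1 - 1 * t := ⟨_, rfl⟩
  have hr0 : 0 ≤ r := by rw [hr]; linarith
  have hs0 : 0 ≤ s := by rw [hs]; linarith
  have e : (1 : ℝ) * ccT0a0 t = 2999 * s ^ 12 + 40988 * r ^ 1 * s ^ 11 + 267934 * r ^ 2 * s ^ 10 + 1107780 * r ^ 3 * s ^ 9 + 3223505 * r ^ 4 * s ^ 8 + 6951208 * r ^ 5 * s ^ 7 + 11391076 * r ^ 6 * s ^ 6 + 14303208 * r ^ 7 * s ^ 5 + 13679505 * r ^ 8 * s ^ 4 + 9743780 * r ^ 9 * s ^ 3 + 4927934 * r ^ 10 * s ^ 2 + 1599988 * r ^ 11 * s ^ 1 + 255999 * r ^ 12 := by rw [hr, hs]; unfold ccT0a0; ring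
  have e2 : 0 ≤ (1 : ℝ) * ccT0a0 t := by rw [e]; positivity
  exact (mul_nonneg_iff_of_pos_left (by norm_num)).mp e2

theorem ccT0a0_nn {t : ℝ} (h0 : 0 ≤ t) (h1 : t ≤ 1) : 0 ≤ ccT0a0 t := by
  exact ccT0a0_nn0 (by linarith) (by linarith)

def ccT0a1 (t : ℝ) : ℝ := 109845 + 183250 * t + 561850 * t ^ 2 + 862350 * t ^ 3 + 1217925 * t ^ 4 + 1594700 * t ^ 5 + 1454500 * t ^ 6 + 1450100 * t ^ 7 + 1024325 * t ^ 8 + 645250 * t ^ 9 + 406850 * t ^ 10 + 110750 * t ^ 11 + 71075 * t ^ 12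

theorem ccT0a1_nn0 {t : ℝ} (h0 : (0 : ℝ) ≤ 1 * t) (h1 : 1 * t ≤ 1) : 0 ≤ ccT0a1 t := by
  obtain ⟨r, hr⟩ : ∃ r, r = 1 * t - 0 := ⟨_, rfl⟩
  obtain ⟨s, hs⟩ : ∃ s, s = 1 - 1 * t := ⟨_, rfl⟩
  have hr0 : 0 ≤ r := by rw [hr]; linarith
  have hs0 : 0 ≤ s := by rw [hs]; linarith
  have e : (1 : ℝ) * ccT0a1 t = 109845 * s ^ 12 + 1501390 * r ^ 1 * s ^ 11 + 9827370 * r ^ 2 * s ^ 10 + 40725500 * r ^ 3 * s ^ 9 + 118871850 * r ^ 4 * s ^ 8 + 257274440 * r ^ 5 * s ^ 7 + 423303480 * r ^ 6 * s ^ 6 + 533770640 * r ^ 7 * s ^ 5 + 512651950 * r ^ 8 * s ^ 4 + 366613400 * r ^ 9 * s ^ 3 + 186054020 * r ^ 10 * s ^ 2 + 60554840 * r ^ 11 * s ^ 1 + 9692770 * r ^ 12 := by rw [hr, hs]; unfold ccT0a1; ring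
  have e2 : 0 ≤ (1 : ℝ) * ccT0a1 t := by rw [e]; positivity
  exact (mul_nonneg_iff_of_pos_left (by norm_num)).mp e2

theorem ccT0a1_nn {t : ℝ} (h0 : 0 ≤ t) (h1 : t ≤ 1) : 0 ≤ ccT0a1 t := by
  exact ccT0a1_nn0 (by linarith) (by linarith)

def ccT0a2 (t : ℝ) : ℝ := 1775370 + 2957550 * t + 9302500 * t ^ 2 + 14318900 * t ^ 3 + 20580375 * t ^ 4 + 26940400 * t ^ 5 + 24842500 * t ^ 6 + 24703700 * t ^ 7 + 17376825 * t ^ 8 + 10948850 * t ^ 9 + 6701800 * t ^ 10 + 1824200 * t ^ 11 + 1113825 * t ^ 12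

theorem ccT0a2_nn0 {t : ℝ} (h0 : (0 : ℝ) ≤ 1 * t) (h1 : 1 * t ≤ 1) : 0 ≤ ccT0a2 t := by
  obtain ⟨r, hr⟩ : ∃ r, r = 1 * t - 0 := ⟨_, rfl⟩
  obtain ⟨s, hs⟩ : ∃ s, s = 1 - 1 * t := ⟨_, rfl⟩
  have hr0 : 0 ≤ r := by rw [hr]; linarith
  have hs0 : 0 ≤ s := by rw [hs]; linarith
  have e : (1 : ℝ) * ccT0a2 t = 1775370 * s ^ 12 + 24261990 * r ^ 1 * s ^ 11 + 159009970 * r ^ 2 * s ^ 10 + 660590550 * r ^ 3 * s ^ 9 + 1934866875 * r ^ 4 * s ^ 8 + 4205448340 * r ^ 5 * s ^ 7 + 6952818380 * r ^ 6 * s ^ 6 + 8812900640 * r ^ 7 * s ^ 5 + 8509579125 * r ^ 8 * s ^ 4 + 6117422900 * r ^ 9 * s ^ 3 + 3119415270 * r ^ 10 * s ^ 2 + 1019113540 * r ^ 11 * s ^ 1 + 163386795 * r ^ 12 := by rw [hr, hs]; unfold ccT0a2; ring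
  have e2 : 0 ≤ (1 : ℝ) * ccT0a2 t := by rw [e]; positivity
  exact (mul_nonneg_iff_of_pos_left (by norm_num)).mp e2

theorem ccT0a2_nn {t : ℝ} (h0 : 0 ≤ t) (h1 : t ≤ 1) : 0 ≤ ccT0a2 t := by
  exact ccT0a2_nn0 (by linarith) (by linarith)

def ccT0a3 (t : ℝ) : ℝ := 16699435 + 27719550 * t + 89746730 * t ^ 2 + 138756280 * t ^ 3 + 203407460 * t ^ 4 + 266712100 * t ^ 5 + 249328235 * t ^ 6 + 247368250 * t ^ 7 + 173567925 * t ^ 8 + 109363460 * t ^ 9 + 64718945 * t ^ 10 + 17670580 * t ^ 11 + 10115850 * t ^ 12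

theorem ccT0a3_nn0 {t : ℝ} (h0 : (0 : ℝ) ≤ 1 * t) (h1 : 1 * t ≤ 1) : 0 ≤ ccT0a3 t := by
  obtain ⟨r, hr⟩ : ∃ r, r = 1 * t - 0 := ⟨_, rfl⟩
  obtain ⟨s, hs⟩ : ∃ s, s = 1 - 1 * t := ⟨_, rfl⟩
  have hr0 : 0 ≤ r := by rw [hr]; linarith
  have hs0 : 0 ≤ s := by rw [hs]; linarith
  have e : (1 : ℝ) * ccT0a3 t = 16699435 * s ^ 12 + 228112770 * r ^ 1 * s ^ 11 + 1496824490 * r ^ 2 * s ^ 10 + 6234674530 * r ^ 3 * s ^ 9 + 18330762905 * r ^ 4 * s ^ 8 + 40032209480 * r ^ 5 * s ^ 7 + 66550772675 * r ^ 6 * s ^ 6 + 84866961380 * r ^ 7 * s ^ 5 + 82467554805 * r ^ 8 * s ^ 4 + 59662360190 * r ^ 9 * s ^ 3 + 30604752770 * r ^ 10 * s ^ 2 + 10048107680 * r ^ 11 * s ^ 1 + 1615174800 * r ^ 12 := by rw [hr, hs]; unfold ccT0a3; ring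
  have e2 : 0 ≤ (1 : ℝ) * ccT0a3 t := by rw [e]; positivity
  exact (mul_nonneg_iff_of_pos_left (by norm_num)).mp e2

theorem ccT0a3_nn {t : ℝ} (h0 : 0 ≤ t) (h1 : t ≤ 1) : 0 ≤ ccT0a3 t := by
  exact ccT0a3_nn0 (by linarith) (by linarith)

def ccT0a4 (t : ℝ) : ℝ := 101413265 + 167359550 * t + 559418560 * t ^ 2 + 869761690 * t ^ 3 + 1302836130 * t ^ 4 + 1714004820 * t ^ 5 + 1628321955 * t ^ 6 + 1611997990 * t ^ 7 + 1130253465 * t ^ 8 + 711985100 * t ^ 9 + 405582955 * t ^ 10 + 111584190 * t ^ 11 + 58803600 * t ^ 12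

theorem ccT0a4_nn0 {t : ℝ} (h0 : (0 : ℝ) ≤ 1 * t) (h1 : 1 * t ≤ 1) : 0 ≤ ccT0a4 t := by
  obtain ⟨r, hr⟩ : ∃ r, r = 1 * t - 0 := ⟨_, rfl⟩
  obtain ⟨s, hs⟩ : ∃ s, s = 1 - 1 * t := ⟨_, rfl⟩
  have hr0 : 0 ≤ r := by rw [hr]; linarith
  have hs0 : 0 ≤ s := by rw [hs]; linarith
  have e : (1 : ℝ) * ccT0a4 t = 101413265 * s ^ 12 + 1384318730 * r ^ 1 * s ^ 11 + 9093649100 * r ^ 2 * s ^ 10 + 37979640840 * r ^ 3 * s ^ 9 + 112118418465 * r ^ 4 * s ^ 8 + 246126299280 * r ^ 5 * s ^ 7 + 411669615855 * r ^ 6 * s ^ 6 + 528537722260 * r ^ 7 * s ^ 5 + 517299858755 * r ^ 8 * s ^ 4 + 376983863150 * r ^ 9 * s ^ 3 + 194724687910 * r ^ 10 * s ^ 2 + 64310318760 * r ^ 11 * s ^ 1 + 10373323270 * r ^ 12 := by rw [hr, hs]; unfold ccT0a4; ring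
  have e2 : 0 ≤ (1 : ℝ) * ccT0a4 t := by rw [e]; positivity
  exact (mul_nonneg_iff_of_pos_left (by norm_num)).mp e2

theorem ccT0a4_nn {t : ℝ} (h0 : 0 ≤ t) (h1 : t ≤ 1) : 0 ≤ ccT0a4 t := by
  exact ccT0a4_nn0 (by linarith) (by linarith)

def ccT0a5 (t : ℝ) : ℝ := 416294089 + 681475050 * t + 2357639680 * t ^ 2 + 3688752950 * t ^ 3 + 5654061290 * t ^ 4 + 7473479740 * t ^ 5 + 7230320499 * t ^ 6 + 7141702198 * t ^ 7 + 5012602635 * t ^ 8 + 3155982292 * t ^ 9 + 1722734961 * t ^ 10 + 480374810 * t ^ 11 + 227715850 * t ^ 12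

theorem ccT0a5_nn0 {t : ℝ} (h0 : (0 : ℝ) ≤ 1 * t) (h1 : 1 * t ≤ 1) : 0 ≤ ccT0a5 t := by
  obtain ⟨r, hr⟩ : ∃ r, r = 1 * t - 0 := ⟨_, rfl⟩
  obtain ⟨s, hs⟩ : ∃ s, s = 1 - 1 * t := ⟨_, rfl⟩
  have hr0 : 0 ≤ r := by rw [hr]; linarith
  have hs0 : 0 ≤ s := by rw [hs]; linarith
  have e : (1 : ℝ) * ccT0a5 t = 416294089 * s ^ 12 + 5677004118 * r ^ 1 * s ^ 11 + 37329275104 * r ^ 2 * s ^ 10 + 156330977080 * r ^ 3 * s ^ 9 + 463455580745 * r ^ 4 * s ^ 8 + 1023009522848 * r ^ 5 * s ^ 7 + 1722315186735 * r ^ 6 * s ^ 6 + 2227548594620 * r ^ 7 * s ^ 5 + 2197371547365 * r ^ 8 * s ^ 4 + 1614229140162 * r ^ 9 * s ^ 3 + 840240347196 * r ^ 10 * s ^ 2 + 279348412600 * r ^ 11 * s ^ 1 + 45243136044 * r ^ 12 := by rw [hr, hs]; unfold ccT0a5; ring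
  have e2 : 0 ≤ (1 : ℝ) * ccT0a5 t := by rw [e]; positivity
  exact (mul_nonneg_iff_of_pos_left (by norm_num)).mp e2

theorem ccT0a5_nn {t : ℝ} (h0 : 0 ≤ t) (h1 : t ≤ 1) : 0 ≤ ccT0a5 t := by
  exact ccT0a5_nn0 (by linarith) (by linarith)

def ccT0a6 (t : ℝ) : ℝ := 1172341635 + 1899551250 * t + 6815215330 * t ^ 2 + 10733027760 * t ^ 3 + 16849851420 * t ^ 4 + 22399337500 * t ^ 5 + 22105751551 * t ^ 6 + 21780166322 * t ^ 7 + 15328587155 * t ^ 8 + 9643891688 * t ^ 9 + 5020523479 * t ^ 10 + 1428842840 * t ^ 11 + 591392100 * t ^ 12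

theorem ccT0a6_nn0 {t : ℝ} (h0 : (0 : ℝ) ≤ 1 * t) (h1 : 1 * t ≤ 1) : 0 ≤ ccT0a6 t := by
  obtain ⟨r, hr⟩ : ∃ r, r = 1 * t - 0 := ⟨_, rfl⟩
  obtain ⟨s, hs⟩ : ∃ s, s = 1 - 1 * t := ⟨_, rfl⟩
  have hr0 : 0 ≤ r := by rw [hr]; linarith
  have hs0 : 0 ≤ s := by rw [hs]; linarith
  have e : (1 : ℝ) * ccT0a6 t = 1172341635 * s ^ 12 + 15967650870 * r ^ 1 * s ^ 11 + 105084826990 * r ^ 2 * s ^ 10 + 441275659510 * r ^ 3 * s ^ 9 + 1313866856685 * r ^ 4 * s ^ 8 + 2916759475240 * r ^ 5 * s ^ 7 + 4944302853191 * r ^ 6 * s ^ 6 + 6444275455988 * r ^ 7 * s ^ 5 + 6409999842815 * r ^ 8 * s ^ 4 + 4749184713958 * r ^ 9 * s ^ 3 + 2492417141088 * r ^ 10 * s ^ 2 + 834557994768 * r ^ 11 * s ^ 1 + 135768480030 * r ^ 12 := by rw [hr, hs]; unfold ccT0a6; ring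
  have e2 : 0 ≤ (1 : ℝ) * ccT0a6 t := by rw [e]; positivity
  exact (mul_nonneg_iff_of_pos_left (by norm_num)).mp e2

theorem ccT0a6_nn {t : ℝ} (h0 : 0 ≤ t) (h1 : t ≤ 1) : 0 ≤ ccT0a6 t := by
  exact ccT0a6_nn0 (by linarith) (by linarith)

def ccT0a7 (t : ℝ) : ℝ := 2241720585 + 3588136650 * t + 13368383250 * t ^ 2 + 21186598740 * t ^ 3 + 34079373895 * t ^ 4 + 45586755660 * t ^ 5 + 45950057370 * t ^ 6 + 45141226440 * t ^ 7 + 31904529155 * t ^ 8 + 20055830150 * t ^ 9 + 9907869350 * t ^ 10 + 2900882380 * t ^ 11 + 1007274775 * t ^ 12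

theorem ccT0a7_nn0 {t : ℝ} (h0 : (0 : ℝ) ≤ 1 * t) (h1 : 1 * t ≤ 1) : 0 ≤ ccT0a7 t := by
  obtain ⟨r, hr⟩ : ∃ r, r = 1 * t - 0 := ⟨_, rfl⟩
  obtain ⟨s, hs⟩ : ∃ s, s = 1 - 1 * t := ⟨_, rfl⟩
  have hr0 : 0 ≤ r := by rw [hr]; linarith
  have hs0 : 0 ≤ s := by rw [hs]; linarith
  have e : (1 : ℝ) * ccT0a7 t = 2241720585 * s ^ 12 + 30488783670 * r ^ 1 * s ^ 11 + 200791445010 * r ^ 2 * s ^ 10 + 845396475690 * r ^ 3 * s ^ 9 + 2528030245630 * r ^ 4 * s ^ 8 + 5644673089280 * r ^ 5 * s ^ 7 + 9635383545550 * r ^ 6 * s ^ 6 + 12658114233500 * r ^ 7 * s ^ 5 + 12698562850470 * r ^ 8 * s ^ 4 + 9491170104900 * r ^ 9 * s ^ 3 + 5023305872850 * r ^ 10 * s ^ 2 + 1694384356680 * r ^ 11 * s ^ 1 + 276918638400 * r ^ 12 := by rw [hr, hs]; unfold ccT0a7; ring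
  have e2 : 0 ≤ (1 : ℝ) * ccT0a7 t := by rw [e]; positivity
  exact (mul_nonneg_iff_of_pos_left (by norm_num)).mp e2

theorem ccT0a7_nn {t : ℝ} (h0 : 0 ≤ t) (h1 : t ≤ 1) : 0 ≤ ccT0a7 t := by
  exact ccT0a7_nn0 (by linarith) (by linarith)

def ccT0a8 (t : ℝ) : ℝ := 2792565180 + 4408639650 * t + 17065033020 * t ^ 2 + 27198461610 * t ^ 3 + 44816418105 * t ^ 4 + 60318593940 * t ^ 5 + 62148204018 * t ^ 6 + 60842394556 * t ^ 7 + 43238987415 * t ^ 8 + 27161729174 * t ^ 9 + 12665762132 * t ^ 10 + 3848142210 * t ^ 11 + 1058342425 * t ^ 12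

theorem ccT0a8_nn0 {t : ℝ} (h0 : (0 : ℝ) ≤ 1 * t) (h1 : 1 * t ≤ 1) : 0 ≤ ccT0a8 t := by
  obtain ⟨r, hr⟩ : ∃ r, r = 1 * t - 0 := ⟨_, rfl⟩
  obtain ⟨s, hs⟩ : ∃ s, s = 1 - 1 * t := ⟨_, rfl⟩
  have hr0 : 0 ≤ r := by rw [hr]; linarith
  have hs0 : 0 ≤ s := by rw [hs]; linarith
  have e : (1 : ℝ) * ccT0a8 t = 2792565180 * s ^ 12 + 37919421810 * r ^ 1 * s ^ 11 + 249869371050 * r ^ 2 * s ^ 10 + 1054688312160 * r ^ 3 * s ^ 9 + 3167274364845 * r ^ 4 * s ^ 8 + 7112361226200 * r ^ 5 * s ^ 7 + 12224687522598 * r ^ 6 * s ^ 6 + 16186039130044 * r ^ 7 * s ^ 5 + 16375808021375 * r ^ 8 * s ^ 4 + 12346640526024 * r ^ 9 * s ^ 3 + 6589637646144 * r ^ 10 * s ^ 2 + 2238925805964 * r ^ 11 * s ^ 1 + 367563273435 * r ^ 12 := by rw [hr, hs]; unfold ccT0a8; ring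
  have e2 : 0 ≤ (1 : ℝ) * ccT0a8 t := by rw [e]; positivity
  exact (mul_nonneg_iff_of_pos_left (by norm_num)).mp e2

theorem ccT0a8_nn {t : ℝ} (h0 : 0 ≤ t) (h1 : t ≤ 1) : 0 ≤ ccT0a8 t := by
  exact ccT0a8_nn0 (by linarith) (by linarith)

def ccT0a9 (t : ℝ) : ℝ := 2051978670 + 3192363900 * t + 12830042250 * t ^ 2 + 20543563440 * t ^ 3 + 34646875110 * t ^ 4 + 46876176360 * t ^ 5 + 49387678020 * t ^ 6 + 48151116180 * t ^ 7 + 34441418520 * t ^ 8 + 21628892160 * t ^ 9 + 9465803910 * t ^ 10 + 3012061320 * t ^ 11 + 597784050 * t ^ 12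

theorem ccT0a9_nn0 {t : ℝ} (h0 : (0 : ℝ) ≤ 1 * t) (h1 : 1 * t ≤ 1) : 0 ≤ ccT0a9 t := by
  obtain ⟨r, hr⟩ : ∃ r, r = 1 * t - 0 := ⟨_, rfl⟩
  obtain ⟨s, hs⟩ : ∃ s, s = 1 - 1 * t := ⟨_, rfl⟩
  have hr0 : 0 ≤ r := by rw [hr]; linarith
  have hs0 : 0 ≤ s := by rw [hs]; linarith
  have e : (1 : ℝ) * ccT0a9 t = 2051978670 * s ^ 12 + 27816107940 * r ^ 1 * s ^ 11 + 183376637370 * r ^ 2 * s ^ 10 + 775859307840 * r ^ 3 * s ^ 9 + 2339360332470 * r ^ 4 * s ^ 8 + 5281871724720 * r ^ 5 * s ^ 7 + 9138502029960 * r ^ 6 * s ^ 6 + 12190800762900 * r ^ 7 * s ^ 5 + 12433966994610 * r ^ 8 * s ^ 4 + 9452990217060 * r ^ 9 * s ^ 3 + 5085770322060 * r ^ 10 * s ^ 2 + 1739918144520 * r ^ 11 * s ^ 1 + 286825753890 * r ^ 12 := by rw [hr, hs]; unfold ccT0a9; ring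
  have e2 : 0 ≤ (1 : ℝ) * ccT0a9 t := by rw [e]; positivity
  exact (mul_nonneg_iff_of_pos_left (by norm_num)).mp e2

theorem ccT0a9_nn {t : ℝ} (h0 : 0 ≤ t) (h1 : t ≤ 1) : 0 ≤ ccT0a9 t := by
  exact ccT0a9_nn0 (by linarith) (by linarith)

def ccT0a10 (t : ℝ) : ℝ := 677279151 + 1038533400 * t + 4324602150 * t ^ 2 + 6947337600 * t ^ 3 + 11974439250 * t ^ 4 + 16255158300 * t ^ 5 + 17510369400 * t ^ 6 + 16990281000 * t ^ 7 + 12238929900 * t ^ 8 + 7689066300 * t ^ 9 + 3138503850 * t ^ 10 + 1056364200 * t ^ 11 + 125518050 * t ^ 12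

theorem ccT0a10_nn0 {t : ℝ} (h0 : (0 : ℝ) ≤ 1 * t) (h1 : 1 * t ≤ 1) : 0 ≤ ccT0a10 t := by
  obtain ⟨r, hr⟩ : ∃ r, r = 1 * t - 0 := ⟨_, rfl⟩
  obtain ⟨s, hs⟩ : ∃ s, s = 1 - 1 * t := ⟨_, rfl⟩
  have hr0 : 0 ≤ r := by rw [hr]; linarith
  have hs0 : 0 ≤ s := by rw [hs]; linarith
  have e : (1 : ℝ) * ccT0a10 t = 677279151 * s ^ 12 + 9165883212 * r ^ 1 * s ^ 11 + 60448893516 * r ^ 2 * s ^ 10 + 256314109320 * r ^ 3 * s ^ 9 + 775718765145 * r ^ 4 * s ^ 8 + 1760228193492 * r ^ 5 * s ^ 7 + 3063931952724 * r ^ 6 * s ^ 6 + 4115351217492 * r ^ 7 * s ^ 5 + 4228487354745 * r ^ 8 * s ^ 4 + 3239142163020 * r ^ 9 * s ^ 3 + 1755371267766 * r ^ 10 * s ^ 2 + 604274811012 * r ^ 11 * s ^ 1 + 99966382551 * r ^ 12 := by rw [hr, hs]; unfold ccT0a10; ring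
  have e2 : 0 ≤ (1 : ℝ) * ccT0a10 t := by rw [e]; positivity
  exact (mul_nonneg_iff_of_pos_left (by norm_num)).mp e2

theorem ccT0a10_nn {t : ℝ} (h0 : 0 ≤ t) (h1 : t ≤ 1) : 0 ≤ ccT0a10 t := by
  exact ccT0a10_nn0 (by linarith) (by linarith)

theorem pcT0_posa {d t : ℝ} (hd : 0 ≤ d) (hd3 : d ≤ 1 / 3) (h0 : 0 ≤ t) (h1 : t ≤ 1) : 0 < pcT0 d t := by
  obtain ⟨u, hu⟩ : ∃ u, u = d := ⟨_, rfl⟩
  obtain ⟨v, hv⟩ : ∃ v, v = 1 - 3 * d := ⟨_, rfl⟩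
  have hu0 : 0 ≤ u := by rw [hu]; linarith
  have hv0 : 0 ≤ v := by rw [hv]; linarith
  have key : (1 : ℝ) * pcT0 d t = 1 + (v ^ 10 * ccT0a0 t + (u ^ 1 * v ^ 9 * ccT0a1 t + (u ^ 2 * v ^ 8 * ccT0a2 t + (u ^ 3 * v ^ 7 * ccT0a3 t + (u ^ 4 * v ^ 6 * ccT0a4 t + (u ^ 5 * v ^ 5 * ccT0a5 t + (u ^ 6 * v ^ 4 * ccT0a6 t + (u ^ 7 * v ^ 3 * ccT0a7 t + (u ^ 8 * v ^ 2 * ccT0a8 t + (u ^ 9 * v ^ 1 * ccT0a9 t + (u ^ 10 * ccT0a10 t))))))))))) := by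
    rw [hu, hv]; unfold pcT0 ccT0a0 ccT0a1 ccT0a2 ccT0a3 ccT0a4 ccT0a5 ccT0a6 ccT0a7 ccT0a8 ccT0a9 ccT0a10; ring
  have h3 : 0 < (1 : ℝ) * pcT0 d t := by
    rw [key]; exact add_pos_of_pos_of_nonneg one_pos (add_nonneg (mul_nonneg (by positivity) (ccT0a0_nn h0 h1)) (add_nonneg (mul_nonneg (by positivity) (ccT0a1_nn h0 h1)) (add_nonneg (mul_nonneg (by positivity) (ccT0a2_nn h0 h1)) (add_nonneg (mul_nonneg (by positivity) (ccT0a3_nn h0 h1)) (add_nonneg (mul_nonneg (by positivity) (ccT0a4_nn h0 h1)) (add_nonneg (mul_nonneg (by positivity) (ccT0a5_nn h0 h1)) (add_nonneg (mul_nonneg (by positivity) (ccT0a6_nn h0 h1)) (add_nonneg (mul_nonneg (by positivity) (ccT0a7_nn h0 h1)) (add_nonneg (mul_nonneg (by positivity) (ccT0a8_nn h0 h1)) (add_nonneg (mul_nonneg (by positivity) (ccT0a9_nn h0 h1)) (mul_nonneg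 (by positivity) (ccT0a10_nn h0 h1))))))))))))
  exact (mul_pos_iff_of_pos_left (by norm_num)).mp h3

def ccT0b0 (t : ℝ) : ℝ := 677279151 + 1038533400 * t + 4324602150 * t ^ 2 + 6947337600 * t ^ 3 + 11974439250 * t ^ 4 + 16255158300 * t ^ 5 + 17510369400 * t ^ 6 + 16990281000 * t ^ 7 + 12238929900 * t ^ 8 + 7689066300 * t ^ 9 + 3138503850 * t ^ 10 + 1056364200 * t ^ 11 + 125518050 * t ^ 12

theorem ccT0b0_nn0 {t : ℝ} (h0 : (0 : ℝ) ≤ 1 * t) (h1 : 1 * t ≤ 1) : 0 ≤ ccT0b0 t := by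
  obtain ⟨r, hr⟩ : ∃ r, r = 1 * t - 0 := ⟨_, rfl⟩
  obtain ⟨s, hs⟩ : ∃ s, s = 1 - 1 * t := ⟨_, rfl⟩
  have hr0 : 0 ≤ r := by rw [hr]; linarith
  have hs0 : 0 ≤ s := by rw [hs]; linarith
  have e : (1 : ℝ) * ccT0b0 t = 677279151 * s ^ 12 + 9165883212 * r ^ 1 * s ^ 11 + 60448893516 * r ^ 2 * s ^ 10 + 256314109320 * r ^ 3 * s ^ 9 + 775718765145 * r ^ 4 * s ^ 8 + 1760228193492 * r ^ 5 * s ^ 7 + 3063931952724 * r ^ 6 * s ^ 6 + 4115351217492 * r ^ 7 * s ^ 5 + 4228487354745 * r ^ 8 * s ^ 4 + 3239142163020 * r ^ 9 * s ^ 3 + 1755371267766 * r ^ 10 * s ^ 2 + 604274811012 * r ^ 11 * s ^ 1 + 99966382551 * r ^ 12 := by rw [hr, hs]; unfold ccT0b0; ring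
  have e2 : 0 ≤ (1 : ℝ) * ccT0b0 t := by rw [e]; positivity
  exact (mul_nonneg_iff_of_pos_left (by norm_num)).mp e2

theorem ccT0b0_nn {t : ℝ} (h0 : 0 ≤ t) (h1 : t ≤ 1) : 0 ≤ ccT0b0 t := by
  exact ccT0b0_nn0 (by linarith) (by linarith)

def ccT0b1 (t : ℝ) : ℝ := 4720812840 + 7192970100 * t + 30415979250 * t ^ 2 + 48929812560 * t ^ 3 + 85097517390 * t ^ 4 + 115675406640 * t ^ 5 + 125716015980 * t ^ 6 + 121751693820 * t ^ 7 + 87947880480 * t ^ 8 + 55261770840 * t ^ 9 + 21919234590 * t ^ 10 + 7551580680 * t ^ 11 + 657396450 * t ^ 12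

theorem ccT0b1_nn0 {t : ℝ} (h0 : (0 : ℝ) ≤ 1 * t) (h1 : 1 * t ≤ 1) : 0 ≤ ccT0b1 t := by
  obtain ⟨r, hr⟩ : ∃ r, r = 1 * t - 0 := ⟨_, rfl⟩
  obtain ⟨s, hs⟩ : ∃ s, s = 1 - 1 * t := ⟨_, rfl⟩
  have hr0 : 0 ≤ r := by rw [hr]; linarith
  have hs0 : 0 ≤ s := by rw [hs]; linarith
  have e : (1 : ℝ) * ccT0b1 t = 4720812840 * s ^ 12 + 63842724180 * r ^ 1 * s ^ 11 + 421112297790 * r ^ 2 * s ^ 10 + 1787281785360 * r ^ 3 * s ^ 9 + 5417827318980 * r ^ 4 * s ^ 8 + 12320410210200 * r ^ 5 * s ^ 7 + 21500817497280 * r ^ 6 * s ^ 6 + 28962711412020 * r ^ 7 * s ^ 5 + 29850906552840 * r ^ 8 * s ^ 4 + 22938431413140 * r ^ 9 * s ^ 3 + 12467942355600 * r ^ 10 * s ^ 2 + 4302829965600 * r ^ 11 * s ^ 1 + 712838071620 * r ^ 12 := by rw [hr, hs]; unfold ccT0b1; ring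
  have e2 : 0 ≤ (1 : ℝ) * ccT0b1 t := by rw [e]; positivity
  exact (mul_nonneg_iff_of_pos_left (by norm_num)).mp e2

theorem ccT0b1_nn {t : ℝ} (h0 : 0 ≤ t) (h1 : t ≤ 1) : 0 ≤ ccT0b1 t := by
  exact ccT0b1_nn0 (by linarith) (by linarith)

def ccT0b2 (t : ℝ) : ℝ := 14802318945 + 22411367550 * t + 96201749520 * t ^ 2 + 154936582650 * t ^ 3 + 271844308365 * t ^ 4 + 369915130200 * t ^ 5 + 405625724838 * t ^ 6 + 392044993936 * t ^ 7 + 284018066235 * t ^ 8 + 178509683234 * t ^ 9 + 68706200192 * t ^ 10 + 24275979330 * t ^ 11 + 1326598225 * t ^ 12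

theorem ccT0b2_nn0 {t : ℝ} (h0 : (0 : ℝ) ≤ 1 * t) (h1 : 1 * t ≤ 1) : 0 ≤ ccT0b2 t := by
  obtain ⟨r, hr⟩ : ∃ r, r = 1 * t - 0 := ⟨_, rfl⟩
  obtain ⟨s, hs⟩ : ∃ s, s = 1 - 1 * t := ⟨_, rfl⟩
  have hr0 : 0 ≤ r := by rw [hr]; linarith
  have hs0 : 0 ≤ s := by rw [hs]; linarith
  have e : (1 : ℝ) * ccT0b2 t = 14802318945 * s ^ 12 + 200039194890 * r ^ 1 * s ^ 11 + 1319679842940 * r ^ 2 * s ^ 10 + 5606089461000 * r ^ 3 * s ^ 9 + 17020375804140 * r ^ 4 * s ^ 8 + 38785784410860 * r ^ 5 * s ^ 7 + 67855107125538 * r ^ 6 * s ^ 6 + 91659637051084 * r ^ 7 * s ^ 5 + 94752036033410 * r ^ 8 * s ^ 4 + 73031125908384 * r ^ 9 * s ^ 3 + 39809411797074 * r ^ 10 * s ^ 2 + 13772029000824 * r ^ 11 * s ^ 1 + 2284618703220 * r ^ 12 := by rw [hr, hs]; unfold ccT0b2; ring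
  have e2 : 0 ≤ (1 : ℝ) * ccT0b2 t := by rw [e]; positivity
  exact (mul_nonneg_iff_of_pos_left (by norm_num)).mp e2

theorem ccT0b2_nn {t : ℝ} (h0 : 0 ≤ t) (h1 : t ≤ 1) : 0 ≤ ccT0b2 t := by
  exact ccT0b2_nn0 (by linarith) (by linarith)

def ccT0b3 (t : ℝ) : ℝ := 27501066855 + 41379888150 * t + 180222617910 * t ^ 2 + 290513322300 * t ^ 3 + 514097176985 * t ^ 4 + 700038642900 * t ^ 5 + 774523494054 * t ^ 6 + 746991467528 * t ^ 7 + 542787891445 * t ^ 8 + 341285841482 * t ^ 9 + 127269748946 * t ^ 10 + 46213751780 * t ^ 11 + 1001404825 * t ^ 12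

theorem ccT0b3_nn0 {t : ℝ} (h0 : (0 : ℝ) ≤ 1 * t) (h1 : 1 * t ≤ 1) : 0 ≤ ccT0b3 t := by
  obtain ⟨r, hr⟩ : ∃ r, r = 1 * t - 0 := ⟨_, rfl⟩
  obtain ⟨s, hs⟩ : ∃ s, s = 1 - 1 * t := ⟨_, rfl⟩
  have hr0 : 0 ≤ r := by rw [hr]; linarith
  have hs0 : 0 ≤ s := by rw [hs]; linarith
  have e : (1 : ℝ) * ccT0b3 t = 27501066855 * s ^ 12 + 371392690410 * r ^ 1 * s ^ 11 + 2450471799990 * r ^ 2 * s ^ 10 + 10418868057750 * r ^ 3 * s ^ 9 + 31679444521610 * r ^ 4 * s ^ 8 + 72334217849440 * r ^ 5 * s ^ 7 + 126847877883554 * r ^ 6 * s ^ 6 + 171803517441492 * r ^ 7 * s ^ 5 + 178103572083970 * r ^ 8 * s ^ 4 + 137671365851532 * r ^ 9 * s ^ 3 + 75250615834062 * r ^ 10 * s ^ 2 + 26092946209752 * r ^ 11 * s ^ 1 + 4333826315160 * r ^ 12 := by rw [hr, hs]; unfold ccT0b3; ring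
  have e2 : 0 ≤ (1 : ℝ) * ccT0b3 t := by rw [e]; positivity
  exact (mul_nonneg_iff_of_pos_left (by norm_num)).mp e2

theorem ccT0b3_nn {t : ℝ} (h0 : 0 ≤ t) (h1 : t ≤ 1) : 0 ≤ ccT0b3 t := by
  exact ccT0b3_nn0 (by linarith) (by linarith)

def ccT0b4 (t : ℝ) : ℝ := 33534536010 + 50157951300 * t + 221500359640 * t ^ 2 + 357265328700 * t ^ 3 + 637448674355 * t ^ 4 + 868197106960 * t ^ 5 + 969217682785 * t ^ 6 + 932643879690 * t ^ 7 + 679784654010 * t ^ 8 + 427658479070 * t ^ 9 + 154265057785 * t ^ 10 + 57693979180 * t ^ 11 - 681013125 * t ^ 12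

theorem ccT0b4_nn0 {t : ℝ} (h0 : (0 : ℝ) ≤ 1 * t) (h1 : 1 * t ≤ 1) : 0 ≤ ccT0b4 t := by
  obtain ⟨r, hr⟩ : ∃ r, r = 1 * t - 0 := ⟨_, rfl⟩
  obtain ⟨s, hs⟩ : ∃ s, s = 1 - 1 * t := ⟨_, rfl⟩
  have hr0 : 0 ≤ r := by rw [hr]; linarith
  have hs0 : 0 ≤ s := by rw [hs]; linarith
  have e : (1 : ℝ) * ccT0b4 t = 33534536010 * s ^ 12 + 452572383420 * r ^ 1 * s ^ 11 + 2986517200600 * r ^ 2 * s ^ 10 + 12708554168800 * r ^ 3 * s ^ 9 + 38696010105905 * r ^ 4 * s ^ 8 + 88520857940720 * r ^ 5 * s ^ 7 + 155579408222485 * r ^ 6 * s ^ 6 + 211243063052440 * r ^ 7 * s ^ 5 + 219571801437235 * r ^ 8 * s ^ 4 + 170185604709490 * r ^ 9 * s ^ 3 + 93262389300990 * r ^ 10 * s ^ 2 + 32408376237840 * r ^ 11 * s ^ 1 + 5388686676360 * r ^ 12 := by rw [hr, hs]; unfold ccT0b4; ring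
  have e2 : 0 ≤ (1 : ℝ) * ccT0b4 t := by rw [e]; positivity
  exact (mul_nonneg_iff_of_pos_left (by norm_num)).mp e2

theorem ccT0b4_nn {t : ℝ} (h0 : 0 ≤ t) (h1 : t ≤ 1) : 0 ≤ ccT0b4 t := by
  exact ccT0b4_nn0 (by linarith) (by linarith)

def ccT0b5 (t : ℝ) : ℝ := 28050307148 + 41721348600 * t + 186653871470 * t ^ 2 + 301144771990 * t ^ 3 + 541550036455 * t ^ 4 + 737343607280 * t ^ 5 + 830518067325 * t ^ 6 + 797257808950 * t ^ 7 + 582938704560 * t ^ 8 + 366996063870 * t ^ 9 + 127829506495 * t ^ 10 + 49354168090 * t ^ 11 - 2255199425 * t ^ 12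

theorem ccT0b5_nn0 {t : ℝ} (h0 : (0 : ℝ) ≤ 1 * t) (h1 : 1 * t ≤ 1) : 0 ≤ ccT0b5 t := by
  obtain ⟨r, hr⟩ : ∃ r, r = 1 * t - 0 := ⟨_, rfl⟩
  obtain ⟨s, hs⟩ : ∃ s, s = 1 - 1 * t := ⟨_, rfl⟩
  have hr0 : 0 ≤ r := by rw [hr]; linarith
  have hs0 : 0 ≤ s := by rw [hs]; linarith
  have e : (1 : ℝ) * ccT0b5 t = 28050307148 * s ^ 12 + 378325034376 * r ^ 1 * s ^ 11 + 2496908977838 * r ^ 2 * s ^ 10 + 10633425232250 * r ^ 3 * s ^ 9 + 32420201757775 * r ^ 4 * s ^ 8 + 74293308566176 * r ^ 5 * s ^ 7 + 130842545052837 * r ^ 6 * s ^ 6 + 178063507202856 * r ^ 7 * s ^ 5 + 185537028921535 * r ^ 8 * s ^ 4 + 144165234129510 * r ^ 9 * s ^ 3 + 79191046251018 * r ^ 10 * s ^ 2 + 27573339365216 * r ^ 11 * s ^ 1 + 4589103062808 * r ^ 12 := by rw [hr, hs]; unfold ccT0b5; ring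
  have e2 : 0 ≤ (1 : ℝ) * ccT0b5 t := by rw [e]; positivity
  exact (mul_nonneg_iff_of_pos_left (by norm_num)).mp e2

theorem ccT0b5_nn {t : ℝ} (h0 : 0 ≤ t) (h1 : t ≤ 1) : 0 ≤ ccT0b5 t := by
  exact ccT0b5_nn0 (by linarith) (by linarith)

def ccT0b6 (t : ℝ) : ℝ := 16303718760 + 24127408400 * t + 109239475760 * t ^ 2 + 176234672700 * t ^ 3 + 319277460645 * t ^ 4 + 434286817960 * t ^ 5 + 493515409515 * t ^ 6 + 472549046670 * t ^ 7 + 346623191720 * t ^ 8 + 218420946730 * t ^ 9 + 73322198165 * t ^ 10 + 29298179820 * t ^ 11 - 2341541325 * t ^ 12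

theorem ccT0b6_nn0 {t : ℝ} (h0 : (0 : ℝ) ≤ 1 * t) (h1 : 1 * t ≤ 1) : 0 ≤ ccT0b6 t := by
  obtain ⟨r, hr⟩ : ∃ r, r = 1 * t - 0 := ⟨_, rfl⟩
  obtain ⟨s, hs⟩ : ∃ s, s = 1 - 1 * t := ⟨_, rfl⟩
  have hr0 : 0 ≤ r := by rw [hr]; linarith
  have hs0 : 0 ≤ s := by rw [hs]; linarith
  have e : (1 : ℝ) * ccT0b6 t = 16303718760 * s ^ 12 + 219772033520 * r ^ 1 * s ^ 11 + 1450686406320 * r ^ 2 * s ^ 10 + 6182455019500 * r ^ 3 * s ^ 9 + 18872529096345 * r ^ 4 * s ^ 8 + 43316281841440 * r ^ 5 * s ^ 7 + 76428793264735 * r ^ 6 * s ^ 6 + 104226527067480 * r ^ 7 * s ^ 5 + 108839804669545 * r ^ 8 * s ^ 4 + 84760578906530 * r ^ 9 * s ^ 3 + 46659615399880 * r ^ 10 * s ^ 2 + 16275316213960 * r ^ 11 * s ^ 1 + 2710856985520 * r ^ 12 := by rw [hr, hs]; unfold ccT0b6; ring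
  have e2 : 0 ≤ (1 : ℝ) * ccT0b6 t := by rw [e]; positivity
  exact (mul_nonneg_iff_of_pos_left (by norm_num)).mp e2

theorem ccT0b6_nn {t : ℝ} (h0 : 0 ≤ t) (h1 : t ≤ 1) : 0 ≤ ccT0b6 t := by
  exact ccT0b6_nn0 (by linarith) (by linarith)

def ccT0b7 (t : ℝ) : ℝ := 6503564880 + 9582471200 * t + 43852981680 * t ^ 2 + 70717393480 * t ^ 3 + 129000880875 * t ^ 4 + 175166254080 * t ^ 5 + 200802576993 * t ^ 6 + 191758058786 * t ^ 7 + 141110369820 * t ^ 8 + 89020380834 * t ^ 9 + 28740918547 * t ^ 10 + 11917408460 * t ^ 11 - 1363353475 * t ^ 12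

theorem ccT0b7_nn0 {t : ℝ} (h0 : (0 : ℝ) ≤ 1 * t) (h1 : 1 * t ≤ 1) : 0 ≤ ccT0b7 t := by
  obtain ⟨r, hr⟩ : ∃ r, r = 1 * t - 0 := ⟨_, rfl⟩
  obtain ⟨s, hs⟩ : ∃ s, s = 1 - 1 * t := ⟨_, rfl⟩
  have hr0 : 0 ≤ r := by rw [hr]; linarith
  have hs0 : 0 ≤ s := by rw [hs]; linarith
  have e : (1 : ℝ) * ccT0b7 t = 6503564880 * s ^ 12 + 87625249760 * r ^ 1 * s ^ 11 + 578495446960 * r ^ 2 * s ^ 10 + 2467067399880 * r ^ 3 * s ^ 9 + 7539213961395 * r ^ 4 * s ^ 8 + 17328396148920 * r ^ 5 * s ^ 7 + 30624773868693 * r ^ 6 * s ^ 6 + 41838382226624 * r ^ 7 * s ^ 5 + 43773817715575 * r ^ 8 * s ^ 4 + 34156473085154 * r ^ 9 * s ^ 3 + 18838081061864 * r ^ 10 * s ^ 2 + 6581114768664 * r ^ 11 * s ^ 1 + 1096809906160 * r ^ 12 := by rw [hr, hs]; unfold ccT0b7; ring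
  have e2 : 0 ≤ (1 : ℝ) * ccT0b7 t := by rw [e]; positivity
  exact (mul_nonneg_iff_of_pos_left (by norm_num)).mp e2

theorem ccT0b7_nn {t : ℝ} (h0 : 0 ≤ t) (h1 : t ≤ 1) : 0 ≤ ccT0b7 t := by
  exact ccT0b7_nn0 (by linarith) (by linarith)

def ccT0b8 (t : ℝ) : ℝ := 1704362720 + 2502417600 * t + 11558858880 * t ^ 2 + 18624766800 * t ^ 3 + 34189650610 * t ^ 4 + 46304634120 * t ^ 5 + 53538579814 * t ^ 6 + 50983814588 * t ^ 7 + 37638288960 * t ^ 8 + 23777170932 * t ^ 9 + 7366361106 * t ^ 10 + 3178845480 * t ^ 11 - 473785050 * t ^ 12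

theorem ccT0b8_nn0 {t : ℝ} (h0 : (0 : ℝ) ≤ 1 * t) (h1 : 1 * t ≤ 1) : 0 ≤ ccT0b8 t := by
  obtain ⟨r, hr⟩ : ∃ r, r = 1 * t - 0 := ⟨_, rfl⟩
  obtain ⟨s, hs⟩ : ∃ s, s = 1 - 1 * t := ⟨_, rfl⟩
  have hr0 : 0 ≤ r := by rw [hr]; linarith
  have hs0 : 0 ≤ s := by rw [hs]; linarith
  have e : (1 : ℝ) * ccT0b8 t = 1704362720 * s ^ 12 + 22954770240 * r ^ 1 * s ^ 11 + 151573392000 * r ^ 2 * s ^ 10 + 646806122000 * r ^ 3 * s ^ 9 + 1978519651810 * r ^ 4 * s ^ 8 + 4553029591640 * r ^ 5 * s ^ 7 + 8057770096214 * r ^ 6 * s ^ 6 + 11024758304152 * r ^ 7 * s ^ 5 + 11553112132010 * r ^ 8 * s ^ 4 + 9029624876492 * r ^ 9 * s ^ 3 + 4987913146272 * r ^ 10 * s ^ 2 + 1744786868112 * r ^ 11 * s ^ 1 + 290893966560 * r ^ 12 := by rw [hr, hs]; unfold ccT0b8; ring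
  have e2 : 0 ≤ (1 : ℝ) * ccT0b8 t := by rw [e]; positivity
  exact (mul_nonneg_iff_of_pos_left (by norm_num)).mp e2

theorem ccT0b8_nn {t : ℝ} (h0 : 0 ≤ t) (h1 : t ≤ 1) : 0 ≤ ccT0b8 t := by
  exact ccT0b8_nn0 (by linarith) (by linarith)

def ccT0b9 (t : ℝ) : ℝ := 265035840 + 388163200 * t + 1806793440 * t ^ 2 + 2907761920 * t ^ 3 + 5368111120 * t ^ 4 + 7244253040 * t ^ 5 + 8446262800 * t ^ 6 + 8019667200 * t ^ 7 + 5939276720 * t ^ 8 + 3758197040 * t ^ 9 + 1114452720 * t ^ 10 + 502096800 * t ^ 11 - 92263200 * t ^ 12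

theorem ccT0b9_nn0 {t : ℝ} (h0 : (0 : ℝ) ≤ 1 * t) (h1 : 1 * t ≤ 1) : 0 ≤ ccT0b9 t := by
  obtain ⟨r, hr⟩ : ∃ r, r = 1 * t - 0 := ⟨_, rfl⟩
  obtain ⟨s, hs⟩ : ∃ s, s = 1 - 1 * t := ⟨_, rfl⟩
  have hr0 : 0 ≤ r := by rw [hr]; linarith
  have hs0 : 0 ≤ s := by rw [hs]; linarith
  have e : (1 : ℝ) * ccT0b9 t = 265035840 * s ^ 12 + 3568593280 * r ^ 1 * s ^ 11 + 23568954080 * r ^ 2 * s ^ 10 + 100632557120 * r ^ 3 * s ^ 9 + 308083342000 * r ^ 4 * s ^ 8 + 709686025200 * r ^ 5 * s ^ 7 + 1257366283680 * r ^ 6 * s ^ 6 + 1722370513040 * r ^ 7 * s ^ 5 + 1807139410640 * r ^ 8 * s ^ 4 + 1414222337920 * r ^ 9 * s ^ 3 + 782178218720 * r ^ 10 * s ^ 2 + 273881290240 * r ^ 11 * s ^ 1 + 45667808640 * r ^ 12 := by rw [hr, hs]; unfold ccT0b9; ring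
  have e2 : 0 ≤ (1 : ℝ) * ccT0b9 t := by rw [e]; positivity
  exact (mul_nonneg_iff_of_pos_left (by norm_num)).mp e2

theorem ccT0b9_nn {t : ℝ} (h0 : 0 ≤ t) (h1 : t ≤ 1) : 0 ≤ ccT0b9 t := by
  exact ccT0b9_nn0 (by linarith) (by linarith)

def ccT0b10 (t : ℝ) : ℝ := 18574976 + 27168000 * t + 127212800 * t ^ 2 + 204396800 * t ^ 3 + 379221600 * t ^ 4 + 509358400 * t ^ 5 + 598688800 * t ^ 6 + 566718400 * t ^ 7 + 421019200 * t ^ 8 + 266924800 * t ^ 9 + 75551200 * t ^ 10 + 35660800 * t ^ 11 - 7789600 * t ^ 12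

theorem ccT0b10_nn0 {t : ℝ} (h0 : (0 : ℝ) ≤ 1 * t) (h1 : 1 * t ≤ 1) : 0 ≤ ccT0b10 t := by
  obtain ⟨r, hr⟩ : ∃ r, r = 1 * t - 0 := ⟨_, rfl⟩
  obtain ⟨s, hs⟩ : ∃ s, s = 1 - 1 * t := ⟨_, rfl⟩
  have hr0 : 0 ≤ r := by rw [hr]; linarith
  have hs0 : 0 ≤ s := by rw [hs]; linarith
  have e : (1 : ℝ) * ccT0b10 t = 18574976 * s ^ 12 + 250067712 * r ^ 1 * s ^ 11 + 1652009216 * r ^ 2 * s ^ 10 + 7057259520 * r ^ 3 * s ^ 9 + 21620701920 * r ^ 4 * s ^ 8 + 49843772992 * r ^ 5 * s ^ 7 + 88381315424 * r ^ 6 * s ^ 6 + 121166406592 * r ^ 7 * s ^ 5 + 127236737120 * r ^ 8 * s ^ 4 + 99659997120 * r ^ 9 * s ^ 3 + 55167737216 * r ^ 10 * s ^ 2 + 19330067712 * r ^ 11 * s ^ 1 + 3222706176 * r ^ 12 := by rw [hr, hs]; unfold ccT0b10; ring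
  have e2 : 0 ≤ (1 : ℝ) * ccT0b10 t := by rw [e]; positivity
  exact (mul_nonneg_iff_of_pos_left (by norm_num)).mp e2

theorem ccT0b10_nn {t : ℝ} (h0 : 0 ≤ t) (h1 : t ≤ 1) : 0 ≤ ccT0b10 t := by
  exact ccT0b10_nn0 (by linarith) (by linarith)

theorem pcT0_posb {d t : ℝ} (hd : 1 / 3 ≤ d) (hd3 : d ≤ 1 / 2) (h0 : 0 ≤ t) (h1 : t ≤ 1) : 0 < pcT0 d t := by
  obtain ⟨u, hu⟩ : ∃ u, u = 3 * d - 1 := ⟨_, rfl⟩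
  obtain ⟨v, hv⟩ : ∃ v, v = 1 - 2 * d := ⟨_, rfl⟩
  have hu0 : 0 ≤ u := by rw [hu]; linarith
  have hv0 : 0 ≤ v := by rw [hv]; linarith
  have key : (1 : ℝ) * pcT0 d t = 1 + (v ^ 10 * ccT0b0 t + (u ^ 1 * v ^ 9 * ccT0b1 t + (u ^ 2 * v ^ 8 * ccT0b2 t + (u ^ 3 * v ^ 7 * ccT0b3 t + (u ^ 4 * v ^ 6 * ccT0b4 t + (u ^ 5 * v ^ 5 * ccT0b5 t + (u ^ 6 * v ^ 4 * ccT0b6 t + (u ^ 7 * v ^ 3 * ccT0b7 t + (u ^ 8 * v ^ 2 * ccT0b8 t + (u ^ 9 * v ^ 1 * ccT0b9 t + (u ^ 10 * ccT0b10 t))))))))))) := by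
    rw [hu, hv]; unfold pcT0 ccT0b0 ccT0b1 ccT0b2 ccT0b3 ccT0b4 ccT0b5 ccT0b6 ccT0b7 ccT0b8 ccT0b9 ccT0b10; ring
  have h3 : 0 < (1 : ℝ) * pcT0 d t := by
    rw [key]; exact add_pos_of_pos_of_nonneg one_pos (add_nonneg (mul_nonneg (by positivity) (ccT0b0_nn h0 h1)) (add_nonneg (mul_nonneg (by positivity) (ccT0b1_nn h0 h1)) (add_nonneg (mul_nonneg (by positivity) (ccT0b2_nn h0 h1)) (add_nonneg (mul_nonneg (by positivity) (ccT0b3_nn h0 h1)) (add_nonneg (mul_nonneg (by positivity) (ccT0b4_nn h0 h1)) (add_nonneg (mul_nonneg (by positivity) (ccT0b5_nn h0 h1)) (add_nonneg (mul_nonneg (by positivity) (ccT0b6_nn h0 h1)) (add_nonneg (mul_nonneg (by positivity) (ccT0b7_nn h0 h1)) (add_nonneg (mul_nonneg (by positivity) (ccT0b8_nn h0 h1)) (add_nonneg (mul_nonneg (by positivity) (ccT0b9_nn h0 h1)) (mul_nonneg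 (by positivity) (ccT0b10_nn h0 h1))))))))))))
  exact (mul_pos_iff_of_pos_left (by norm_num)).mp h3

theorem pcT0_pos {d t : ℝ} (hd : 0 ≤ d) (hd3 : d ≤ 1 / 2) (h0 : 0 ≤ t) (h1 : t ≤ 1) : 0 < pcT0 d t := by
  rcases le_total d (1 / 3) with h | h
  · exact pcT0_posa hd h h0 h1
  · exact pcT0_posb h hd3 h0 h1

def pcTe (d t : ℝ) : ℝ := 5500 + 3000 * t + 29400 * t ^ 2 + 27400 * t ^ 3 + 63700 * t ^ 4 + 54800 * t ^ 5 + 70000 * t ^ 6 + 60400 * t ^ 7 + 31300 * t ^ 8 + 35000 * t ^ 9 - 6600 * t ^ 10 + 5000 * t ^ 11 - 7700 * t ^ 12 + 42500 * d + 18000 * d * t + 174200 * d * t ^ 2 + 230600 * d * t ^ 3 + 546300 * d * t ^ 4 + 596400 * d * t ^ 5 + 880000 * d * t ^ 6 + 676800 * d * t ^ 7 + 447500 * d * t ^ 8 + 312000 * d * t ^ 9 - 127800 * d * t ^ 10 + 19000 * d * t ^ 11 - 109900 * d * t ^ 12 + 76775 * d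 ^ 2 - 59350 * d ^ 2 * t + 71170 * d ^ 2 * t ^ 2 + 366670 * d ^ 2 * t ^ 3 + 1427165 * d ^ 2 * t ^ 4 + 2167500 * d ^ 2 * t ^ 5 + 3917840 * d ^ 2 * t ^ 6 + 2765100 * d ^ 2 * t ^ 7 + 2116625 * d ^ 2 * t ^ 8 + 897090 * d ^ 2 * t ^ 9 - 988570 * d ^ 2 * t ^ 10 - 126530 * d ^ 2 * t ^ 11 - 620125 * d ^ 2 * t ^ 12 - 44950 * d ^ 3 - 388600 * d ^ 3 * t - 795610 * d ^ 3 * t ^ 2 - 536190 * d ^ 3 * t ^ 3 + 762120 * d ^ 3 * t ^ 4 + 3053580 * d ^ 3 * t ^ 5 + 7162020 * d ^ 3 * t ^ 6 + 4332560 * d ^ 3 * t ^ 7 + 4014310 * d ^ 3 * t ^ 8 + 354100 * d ^ 3 * t ^ 9 - 3355330 * d ^ 3 * t ^ 10 - 799690 * d ^ 3 * t ^ 11 - 1720400 * d ^ 3 * t ^ 12 - 42025 * d ^ 4 - 252650 * d ^ 4 * t + 64730 * d ^ 4 * t ^ 2 + 122920 * d ^ 4 * t ^ 3 - 458400 * d ^ 4 * t ^ 4 + 1412500 * d ^ 4 * t ^ 5 + 3679211 * d ^ 4 * t ^ 6 + 72122 *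 d ^ 4 * t ^ 7 + 1798545 * d ^ 4 * t ^ 8 - 2364052 * d ^ 4 * t ^ 9 - 4955511 * d ^ 4 * t ^ 10 - 1446940 * d ^ 4 * t ^ 11 - 2349850 * d ^ 4 * t ^ 12 + 247700 * d ^ 5 + 493000 * d ^ 5 * t + 2402230 * d ^ 5 * t ^ 2 + 3992650 * d ^ 5 * t ^ 3 + 2896110 * d ^ 5 * t ^ 4 - 117760 * d ^ 5 * t ^ 5 - 2521220 * d ^ 5 * t ^ 6 - 5113740 * d ^ 5 * t ^ 7 - 3574480 * d ^ 5 * t ^ 8 - 2917800 * d ^ 5 * t ^ 9 - 2575130 * d ^ 5 * t ^ 10 - 1022990 * d ^ 5 * t ^ 11 - 1161050 * d ^ 5 * t ^ 12 + 120400 * d ^ 6 + 309600 * d ^ 6 * t + 321150 * d ^ 6 * t ^ 2 + 2826270 * d ^ 6 * t ^ 3 + 5147140 * d ^ 6 * t ^ 4 - 1268880 * d ^ 6 * t ^ 5 - 1867640 * d ^ 6 * t ^ 6 - 1939780 * d ^ 6 * t ^ 7 - 4477160 * d ^ 6 * t ^ 8 + 194260 * d ^ 6 * t ^ 9 + 359600 * d ^ 6 * t ^ 10 - 67930 * d ^ 6 * t ^ 11 + 712450 * d ^ 6 * t ^ 12 - 14400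 * d ^ 7 - 919460 * d ^ 7 * t ^ 2 - 605760 * d ^ 7 * t ^ 3 + 1823140 * d ^ 7 * t ^ 4 - 1007960 * d ^ 7 * t ^ 5 - 1108784 * d ^ 7 * t ^ 6 + 823632 * d ^ 7 * t ^ 7 - 1325780 * d ^ 7 * t ^ 8 + 293628 * d ^ 7 * t ^ 9 + 773804 * d ^ 7 * t ^ 10 + 892980 * d ^ 7 * t ^ 11 + 1222400 * d ^ 7 * t ^ 12 + 186240 * d ^ 8 * t ^ 2 - 679080 * d ^ 8 * t ^ 3 - 269045 * d ^ 8 * t ^ 4 + 504480 * d ^ 8 * t ^ 5 - 915663 * d ^ 8 * t ^ 6 + 12514 * d ^ 8 * t ^ 7 + 627500 * d ^ 8 * t ^ 8 - 536894 * d ^ 8 * t ^ 9 - 151517 * d ^ 8 * t ^ 10 + 569020 * d ^ 8 * t ^ 11 + 392525 * d ^ 8 * t ^ 12 + 216000 * d ^ 9 * t ^ 2 - 86400 * d ^ 9 * t ^ 3 - 339600 * d ^ 9 * t ^ 4 + 499800 * d ^ 9 * t ^ 5 + 110592 * d ^ 9 * t ^ 6 - 799856 * d ^ 9 * t ^ 7 + 396360 * d ^ 9 * t ^ 8 + 404216 * d ^ 9 * t ^ 9 - 538432 * d ^ 9 * t ^ 10 + 960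 * d ^ 9 * t ^ 11 + 173800 * d ^ 9 * t ^ 12 - 155700 * d ^ 10 * t ^ 4 + 124560 * d ^ 10 * t ^ 5 + 273348 * d ^ 10 * t ^ 6 - 524184 * d ^ 10 * t ^ 7 + 31680 * d ^ 10 * t ^ 8 + 499704 * d ^ 10 * t ^ 9 - 294708 * d ^ 10 * t ^ 10 - 95760 * d ^ 10 * t ^ 11 + 149700 * d ^ 10 * t ^ 12 - 32400 * d ^ 11 * t ^ 4 + 25920 * d ^ 11 * t ^ 5 + 53136 * d ^ 11 * t ^ 6 - 101088 * d ^ 11 * t ^ 7 + 101088 * d ^ 11 * t ^ 9 - 53136 * d ^ 11 * t ^ 10 - 25920 * d ^ 11 * t ^ 11 + 32400 * d ^ 11 * t ^ 12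

def ccTea0 (t : ℝ) : ℝ := 5499 + 3000 * t + 29400 * t ^ 2 + 27400 * t ^ 3 + 63700 * t ^ 4 + 54800 * t ^ 5 + 70000 * t ^ 6 + 60400 * t ^ 7 + 31300 * t ^ 8 + 35000 * t ^ 9 - 6600 * t ^ 10 + 5000 * t ^ 11 - 7700 * t ^ 12

theorem ccTea0_nn0 {t : ℝ} (h0 : (0 : ℝ) ≤ 1 * t) (h1 : 1 * t ≤ 1) : 0 ≤ ccTea0 t := by
  obtain ⟨r, hr⟩ : ∃ r, r = 1 * t - 0 := ⟨_, rfl⟩
  obtain ⟨s, hs⟩ : ∃ s, s = 1 - 1 * t := ⟨_, rfl⟩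
  have hr0 : 0 ≤ r := by rw [hr]; linarith
  have hs0 : 0 ≤ s := by rw [hs]; linarith
  have e : (1 : ℝ) * ccTea0 t = 5499 * s ^ 12 + 68988 * r ^ 1 * s ^ 11 + 425334 * r ^ 2 * s ^ 10 + 1696180 * r ^ 3 * s ^ 9 + 4850305 * r ^ 4 * s ^ 8 + 10424008 * r ^ 5 * s ^ 7 + 17179876 * r ^ 6 * s ^ 6 + 21800808 * r ^ 7 * s ^ 5 + 21098705 * r ^ 8 * s ^ 4 + 15183780 * r ^ 9 * s ^ 3 + 7711934 * r ^ 10 * s ^ 2 + 2476788 * r ^ 11 * s ^ 1 + 371199 * r ^ 12 := by rw [hr, hs]; unfold ccTea0; ring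
  have e2 : 0 ≤ (1 : ℝ) * ccTea0 t := by rw [e]; positivity
  exact (mul_nonneg_iff_of_pos_left (by norm_num)).mp e2

theorem ccTea0_nn {t : ℝ} (h0 : 0 ≤ t) (h1 : t ≤ 1) : 0 ≤ ccTea0 t := by
  exact ccTea0_nn0 (by linarith) (by linarith)

def ccTea1 (t : ℝ) : ℝ := 223967 + 117000 * t + 1144400 * t ^ 2 + 1134800 * t ^ 3 + 2648400 * t ^ 4 + 2404800 * t ^ 5 + 3190000 * t ^ 6 + 2670000 * t ^ 7 + 1480400 * t ^ 8 + 1467000 * t ^ 9 - 345600 * t ^ 10 + 184000 * t ^ 11 - 364000 * t ^ 12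

theorem ccTea1_nn0 {t : ℝ} (h0 : (0 : ℝ) ≤ 1 * t) (h1 : 1 * t ≤ 1) : 0 ≤ ccTea1 t := by
  obtain ⟨r, hr⟩ : ∃ r, r = 1 * t - 0 := ⟨_, rfl⟩
  obtain ⟨s, hs⟩ : ∃ s, s = 1 - 1 * t := ⟨_, rfl⟩
  have hr0 : 0 ≤ r := by rw [hr]; linarith
  have hs0 : 0 ≤ s := by rw [hs]; linarith
  have e : (1 : ℝ) * ccTea1 t = 223967 * s ^ 12 + 2804604 * r ^ 1 * s ^ 11 + 17213222 * r ^ 2 * s ^ 10 + 68286540 * r ^ 3 * s ^ 9 + 194528265 * r ^ 4 * s ^ 8 + 417764664 * r ^ 5 * s ^ 7 + 690825508 * r ^ 6 * s ^ 6 + 883430664 * r ^ 7 * s ^ 5 + 865018865 * r ^ 8 * s ^ 4 + 631595940 * r ^ 9 * s ^ 3 + 325711422 * r ^ 10 * s ^ 2 + 105958004 * r ^ 11 * s ^ 1 + 15955167 * r ^ 12 := by rw [hr, hs]; unfold ccTea1; ring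
  have e2 : 0 ≤ (1 : ℝ) * ccTea1 t := by rw [e]; positivity
  exact (mul_nonneg_iff_of_pos_left (by norm_num)).mp e2

theorem ccTea1_nn {t : ℝ} (h0 : 0 ≤ t) (h1 : t ≤ 1) : 0 ≤ ccTea1 t := by
  exact ccTea1_nn0 (by linarith) (by linarith)

def ccTea2 (t : ℝ) : ℝ := 4073780 + 1965650 * t + 19850170 * t ^ 2 + 20847670 * t ^ 3 + 49347665 * t ^ 4 + 47185500 * t ^ 5 + 64967840 * t ^ 6 + 52967100 * t ^ 7 + 31035125 * t ^ 8 + 27582090 * t ^ 9 - 8089570 * t ^ 10 + 2918470 * t ^ 11 - 7728625 * t ^ 12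

theorem ccTea2_nn0 {t : ℝ} (h0 : (0 : ℝ) ≤ 1 * t) (h1 : 1 * t ≤ 1) : 0 ≤ ccTea2 t := by
  obtain ⟨r, hr⟩ : ∃ r, r = 1 * t - 0 := ⟨_, rfl⟩
  obtain ⟨s, hs⟩ : ∃ s, s = 1 - 1 * t := ⟨_, rfl⟩
  have hr0 : 0 ≤ r := by rw [hr]; linarith
  have hs0 : 0 ≤ s := by rw [hs]; linarith
  have e : (1 : ℝ) * ccTea2 t = 4073780 * s ^ 12 + 50851010 * r ^ 1 * s ^ 11 + 310341800 * r ^ 2 * s ^ 10 + 1223691720 * r ^ 3 * s ^ 9 + 3471087695 * r ^ 4 * s ^ 8 + 7449601600 * r ^ 5 * s ^ 7 + 12369043960 * r ^ 6 * s ^ 6 + 15960752200 * r ^ 7 * s ^ 5 + 15836744995 * r ^ 8 * s ^ 4 + 11749500660 * r ^ 9 * s ^ 3 + 6158440170 * r ^ 10 * s ^ 2 + 2029986700 * r ^ 11 * s ^ 1 + 306922865 * r ^ 12 := by rw [hr, hs]; unfold ccTea2; ring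
  have e2 : 0 ≤ (1 : ℝ) * ccTea2 t := by rw [e]; positivity
  exact (mul_nonneg_iff_of_pos_left (by norm_num)).mp e2

theorem ccTea2_nn {t : ℝ} (h0 : 0 ≤ t) (h1 : t ≤ 1) : 0 ≤ ccTea2 t := by
  exact ccTea2_nn0 (by linarith) (by linarith)

def ccTea3 (t : ℝ) : ℝ := 43738520 + 18663950 * t + 202653980 * t ^ 2 + 224823900 * t ^ 3 + 544330575 * t ^ 4 + 547252080 * t ^ 5 + 781193700 * t ^ 6 + 622176260 * t ^ 7 + 381842185 * t ^ 8 + 306860530 * t ^ 9 - 111208720 * t ^ 10 + 25754000 * t ^ 11 - 97276775 * t ^ 12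

theorem ccTea3_nn0 {t : ℝ} (h0 : (0 : ℝ) ≤ 1 * t) (h1 : 1 * t ≤ 1) : 0 ≤ ccTea3 t := by
  obtain ⟨r, hr⟩ : ∃ r, r = 1 * t - 0 := ⟨_, rfl⟩
  obtain ⟨s, hs⟩ : ∃ s, s = 1 - 1 * t := ⟨_, rfl⟩
  have hr0 : 0 ≤ r := by rw [hr]; linarith
  have hs0 : 0 ≤ s := by rw [hs]; linarith
  have e : (1 : ℝ) * ccTea3 t = 43738520 * s ^ 12 + 543526190 * r ^ 1 * s ^ 11 + 3294699750 * r ^ 2 * s ^ 10 + 12900355350 * r ^ 3 * s ^ 9 + 36417293925 * r ^ 4 * s ^ 8 + 78114046020 * r ^ 5 * s ^ 7 + 130332895140 * r ^ 6 * s ^ 6 + 169944411440 * r ^ 7 * s ^ 5 + 171162410135 * r ^ 8 * s ^ 4 + 129221912220 * r ^ 9 * s ^ 3 + 68899992930 * r ^ 10 * s ^ 2 + 23014860140 * r ^ 11 * s ^ 1 + 3490804185 * r ^ 12 := by rw [hr, hs]; unfold ccTea3; ring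
  have e2 : 0 ≤ (1 : ℝ) * ccTea3 t := by rw [e]; positivity
  exact (mul_nonneg_iff_of_pos_left (by norm_num)).mp e2

theorem ccTea3_nn {t : ℝ} (h0 : 0 ≤ t) (h1 : t ≤ 1) : 0 ≤ ccTea3 t := by
  exact ccTea3_nn0 (by linarith) (by linarith)

def ccTea4 (t : ℝ) : ℝ := 308442545 + 109701550 * t + 1354299170 * t ^ 2 + 1585601440 * t ^ 3 + 3952946940 * t ^ 4 + 4174108420 * t ^ 5 + 6167247851 * t ^ 6 + 4807269962 * t ^ 7 + 3070477485 * t ^ 8 + 2243221508 * t ^ 9 - 996270111 * t ^ 10 + 133574780 * t ^ 11 - 806456950 * t ^ 12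

theorem ccTea4_nn0 {t : ℝ} (h0 : (0 : ℝ) ≤ 1 * t) (h1 : 1 * t ≤ 1) : 0 ≤ ccTea4 t := by
  obtain ⟨r, hr⟩ : ∃ r, r = 1 * t - 0 := ⟨_, rfl⟩
  obtain ⟨s, hs⟩ : ∃ s, s = 1 - 1 * t := ⟨_, rfl⟩
  have hr0 : 0 ≤ r := by rw [hr]; linarith
  have hs0 : 0 ≤ s := by rw [hs]; linarith
  have e : (1 : ℝ) * ccTea4 t = 308442545 * s ^ 12 + 3811012090 * r ^ 1 * s ^ 11 + 22918224190 * r ^ 2 * s ^ 10 + 89019538290 * r ^ 3 * s ^ 9 + 249946638075 * r ^ 4 * s ^ 8 + 535883243320 * r ^ 5 * s ^ 7 + 899344895451 * r ^ 6 * s ^ 6 + 1186869846548 * r ^ 7 * s ^ 5 + 1215484803975 * r ^ 8 * s ^ 4 + 935066148438 * r ^ 9 * s ^ 3 + 507492375558 * r ^ 10 * s ^ 2 + 171756212648 * r ^ 11 * s ^ 1 + 26104164590 * r ^ 12 := by rw [hr, hs]; unfold ccTea4; ring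
  have e2 : 0 ≤ (1 : ℝ) * ccTea4 t := by rw [e]; positivity
  exact (mul_nonneg_iff_of_pos_left (by norm_num)).mp e2

theorem ccTea4_nn {t : ℝ} (h0 : 0 ≤ t) (h1 : t ≤ 1) : 0 ≤ ccTea4 t := by
  exact ccTea4_nn0 (by linarith) (by linarith)

def ccTea5 (t : ℝ) : ℝ := 1502439209 + 405632350 * t + 6228443800 * t ^ 2 + 7701656050 * t ^ 3 + 19866041370 * t ^ 4 + 22011877700 * t ^ 5 + 33592652371 * t ^ 6 + 25652687142 * t ^ 7 + 16972207385 * t ^ 8 + 11307700428 * t ^ 9 - 6109094381 * t ^ 10 + 364619350 * t ^ 11 - 4624339400 * t ^ 12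

theorem ccTea5_nn0 {t : ℝ} (h0 : (0 : ℝ) ≤ 1 * t) (h1 : 1 * t ≤ 1) : 0 ≤ ccTea5 t := by
  obtain ⟨r, hr⟩ : ∃ r, r = 1 * t - 0 := ⟨_, rfl⟩
  obtain ⟨s, hs⟩ : ∃ s, s = 1 - 1 * t := ⟨_, rfl⟩
  have hr0 : 0 ≤ r := by rw [hr]; linarith
  have hs0 : 0 ≤ s := by rw [hs]; linarith
  have e : (1 : ℝ) * ccTea5 t = 1502439209 * s ^ 12 + 18434902858 * r ^ 1 * s ^ 11 + 109851387444 * r ^ 2 * s ^ 10 + 422832499280 * r ^ 3 * s ^ 9 + 1180097663025 * r ^ 4 * s ^ 8 + 2529403611488 * r ^ 5 * s ^ 7 + 4274493235647 * r ^ 6 * s ^ 6 + 5719266848916 * r ^ 7 * s ^ 5 + 5966111988315 * r ^ 8 * s ^ 4 + 4682308812958 * r ^ 9 * s ^ 3 + 2587572854102 * r ^ 10 * s ^ 2 + 886879755016 * r ^ 11 * s ^ 1 + 134872523374 * r ^ 12 := by rw [hr, hs]; unfold ccTea5; ring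
  have e2 : 0 ≤ (1 : ℝ) * ccTea5 t := by rw [e]; positivity
  exact (mul_nonneg_iff_of_pos_left (by norm_num)).mp e2

theorem ccTea5_nn {t : ℝ} (h0 : 0 ≤ t) (h1 : t ≤ 1) : 0 ≤ ccTea5 t := by
  exact ccTea5_nn0 (by linarith) (by linarith)

def ccTea6 (t : ℝ) : ℝ := 5166819727 + 880785450 * t + 20148366360 * t ^ 2 + 26378727390 * t ^ 3 + 70595870350 * t ^ 4 + 81979772700 * t ^ 5 + 128926110559 * t ^ 6 + 96478209278 * t ^ 7 + 65887906075 * t ^ 8 + 40085529772 * t ^ 9 - 26194016299 * t ^ 10 + 55024130 * t ^ 11 - 18717729650 * t ^ 12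

theorem ccTea6_nn0 {t : ℝ} (h0 : (0 : ℝ) ≤ 1 * t) (h1 : 1 * t ≤ 1) : 0 ≤ ccTea6 t := by
  obtain ⟨r, hr⟩ : ∃ r, r = 1 * t - 0 := ⟨_, rfl⟩
  obtain ⟨s, hs⟩ : ∃ s, s = 1 - 1 * t := ⟨_, rfl⟩
  have hr0 : 0 ≤ r := by rw [hr]; linarith
  have hs0 : 0 ≤ s := by rw [hs]; linarith
  have e : (1 : ℝ) * ccTea6 t = 5166819727 * s ^ 12 + 62882622174 * r ^ 1 * s ^ 11 + 370847108292 * r ^ 2 * s ^ 10 + 1413005930680 * r ^ 3 * s ^ 9 + 3917586267175 * r ^ 4 * s ^ 8 + 8396965307024 * r ^ 5 * s ^ 7 + 14307503231267 * r ^ 6 * s ^ 6 + 19445130914476 * r ^ 7 * s ^ 5 + 20696285129955 * r ^ 8 * s ^ 4 + 16585249245282 * r ^ 9 * s ^ 3 + 9332087331104 * r ^ 10 * s ^ 2 + 3236630973376 * r ^ 11 * s ^ 1 + 491671375842 * r ^ 12 := by rw [hr, hs]; unfold ccTea6; ring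
  have e2 : 0 ≤ (1 : ℝ) * ccTea6 t := by rw [e]; positivity
  exact (mul_nonneg_iff_of_pos_left (by norm_num)).mp e2

theorem ccTea6_nn {t : ℝ} (h0 : 0 ≤ t) (h1 : t ≤ 1) : 0 ≤ ccTea6 t := by
  exact ccTea6_nn0 (by linarith) (by linarith)

def ccTea7 (t : ℝ) : ℝ := 12566356215 + 732654450 * t + 45943895050 * t ^ 2 + 63960868200 * t ^ 3 + 177660969460 * t ^ 4 + 215829771340 * t ^ 5 + 348911344831 * t ^ 6 + 255779570322 * t ^ 7 + 179813846995 * t ^ 8 + 99874054008 * t ^ 9 - 78645378001 * t ^ 10 - 3396665760 * t ^ 11 - 53488854100 * t ^ 12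

theorem ccTea7_nn0 {t : ℝ} (h0 : (0 : ℝ) ≤ 1 * t) (h1 : 1 * t ≤ 1) : 0 ≤ ccTea7 t := by
  obtain ⟨r, hr⟩ : ∃ r, r = 1 * t - 0 := ⟨_, rfl⟩
  obtain ⟨s, hs⟩ : ∃ s, s = 1 - 1 * t := ⟨_, rfl⟩
  have hr0 : 0 ≤ r := by rw [hr]; linarith
  have hs0 : 0 ≤ s := by rw [hs]; linarith
  have e : (1 : ℝ) * ccTea7 t = 12566356215 * s ^ 12 + 151528929030 * r ^ 1 * s ^ 11 + 883382604190 * r ^ 2 * s ^ 10 + 3328294180750 * r ^ 3 * s ^ 9 + 9162018371185 * r ^ 4 * s ^ 8 + 19647306279000 * r ^ 5 * s ^ 7 + 33804957276951 * r ^ 6 * s ^ 6 + 46758658551188 * r ^ 7 * s ^ 5 + 50852101378795 * r ^ 8 * s ^ 4 + 41629675014838 * r ^ 9 * s ^ 3 + 23838000122088 * r ^ 10 * s ^ 2 + 8356594441728 * r ^ 11 * s ^ 1 + 1265542433010 * r ^ 12 := by rw [hr, hs]; unfold ccTea7; ring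
  have e2 : 0 ≤ (1 : ℝ) * ccTea7 t := by rw [e]; positivity
  exact (mul_nonneg_iff_of_pos_left (by norm_num)).mp e2

theorem ccTea7_nn {t : ℝ} (h0 : 0 ≤ t) (h1 : t ≤ 1) : 0 ≤ ccTea7 t := by
  exact ccTea7_nn0 (by linarith) (by linarith)

def ccTea8 (t : ℝ) : ℝ := 21221719560 - 1372989150 * t + 72574734210 * t ^ 2 + 108088800900 * t ^ 3 + 310844354035 * t ^ 4 + 393940981500 * t ^ 5 + 652987164114 * t ^ 6 + 468565820248 * t ^ 7 + 338316993095 * t ^ 8 + 171266621662 * t ^ 9 - 162278109914 * t ^ 10 - 12880506020 * t ^ 11 - 105772694125 * t ^ 12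

theorem ccTea8_nn0 {t : ℝ} (h0 : (0 : ℝ) ≤ 1 * t) (h1 : 1 * t ≤ 1) : 0 ≤ ccTea8 t := by
  obtain ⟨r, hr⟩ : ∃ r, r = 1 * t - 0 := ⟨_, rfl⟩
  obtain ⟨s, hs⟩ : ∃ s, s = 1 - 1 * t := ⟨_, rfl⟩
  have hr0 : 0 ≤ r := by rw [hr]; linarith
  have hs0 : 0 ≤ s := by rw [hs]; linarith
  have e : (1 : ℝ) * ccTea8 t = 21221719560 * s ^ 12 + 253287645570 * r ^ 1 * s ^ 11 + 1458105344520 * r ^ 2 * s ^ 10 + 5427100042950 * r ^ 3 * s ^ 9 + 14827714574035 * r ^ 4 * s ^ 8 + 31835376223400 * r ^ 5 * s ^ 7 + 55408917293434 * r ^ 6 * s ^ 6 + 78147836080932 * r ^ 7 * s ^ 5 + 86934540551195 * r ^ 8 * s ^ 4 + 72695816731512 * r ^ 9 * s ^ 3 + 42320470861872 * r ^ 10 * s ^ 2 + 14972829204492 * r ^ 11 * s ^ 1 + 2255502890115 * r ^ 12 := by rw [hr, hs]; unfold ccTea8; ring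
  have e2 : 0 ≤ (1 : ℝ) * ccTea8 t := by rw [e]; positivity
  exact (mul_nonneg_iff_of_pos_left (by norm_num)).mp e2

theorem ccTea8_nn {t : ℝ} (h0 : 0 ≤ t) (h1 : t ≤ 1) : 0 ≤ ccTea8 t := by
  exact ccTea8_nn0 (by linarith) (by linarith)

def ccTea9 (t : ℝ) : ℝ := 23746299660 - 4649428350 * t + 75910433580 * t ^ 2 + 121872244410 * t ^ 3 + 360836657025 * t ^ 4 + 475062886740 * t ^ 5 + 805385145042 * t ^ 6 + 565021702684 * t ^ 7 + 418153237695 * t ^ 8 + 192318788006 * t ^ 9 - 219478109452 * t ^ 10 - 23854417950 * t ^ 11 - 137863544975 * t ^ 12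

theorem ccTea9_nn0 {t : ℝ} (h0 : (0 : ℝ) ≤ 1 * t) (h1 : 1 * t ≤ 1) : 0 ≤ ccTea9 t := by
  obtain ⟨r, hr⟩ : ∃ r, r = 1 * t - 0 := ⟨_, rfl⟩
  obtain ⟨s, hs⟩ : ∃ s, s = 1 - 1 * t := ⟨_, rfl⟩
  have hr0 : 0 ≤ r := by rw [hr]; linarith
  have hs0 : 0 ≤ s := by rw [hs]; linarith
  have e : (1 : ℝ) * ccTea9 t = 23746299660 * s ^ 12 + 280306167570 * r ^ 1 * s ^ 11 + 1592022499290 * r ^ 2 * s ^ 10 + 5849443946160 * r ^ 3 * s ^ 9 + 15860919021765 * r ^ 4 * s ^ 8 + 34131166946520 * r ^ 5 * s ^ 7 + 60206256319302 * r ^ 6 * s ^ 6 + 86724871478716 * r ^ 7 * s ^ 5 + 98727006778055 * r ^ 8 * s ^ 4 + 84260456303256 * r ^ 9 * s ^ 3 + 49792046429616 * r ^ 10 * s ^ 2 + 17746077944556 * r ^ 11 * s ^ 1 + 2652461894115 * r ^ 12 := by rw [hr, hs]; unfold ccTea9; ring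
  have e2 : 0 ≤ (1 : ℝ) * ccTea9 t := by rw [e]; positivity
  exact (mul_nonneg_iff_of_pos_left (by norm_num)).mp e2

theorem ccTea9_nn {t : ℝ} (h0 : 0 ≤ t) (h1 : t ≤ 1) : 0 ≤ ccTea9 t := by
  exact ccTea9_nn0 (by linarith) (by linarith)

def ccTea10 (t : ℝ) : ℝ := 15878031561 - 5257037700 * t + 47536614450 * t ^ 2 + 82965591360 * t ^ 3 + 250665927390 * t ^ 4 + 340828574040 * t ^ 5 + 589528512180 * t ^ 6 + 403736120820 * t ^ 7 + 305660254680 * t ^ 8 + 127093332240 * t ^ 9 - 175341674610 * t ^ 10 - 23266431720 * t ^ 11 - 106602690150 * t ^ 12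

theorem ccTea10_nn0 {t : ℝ} (h0 : (0 : ℝ) ≤ 1 * t) (h1 : 1 * t ≤ 1) : 0 ≤ ccTea10 t := by
  obtain ⟨r, hr⟩ : ∃ r, r = 1 * t - 0 := ⟨_, rfl⟩
  obtain ⟨s, hs⟩ : ∃ s, s = 1 - 1 * t := ⟨_, rfl⟩
  have hr0 : 0 ≤ r := by rw [hr]; linarith
  have hs0 : 0 ≤ s := by rw [hs]; linarith
  have e : (1 : ℝ) * ccTea10 t = 15878031561 * s ^ 12 + 185279341032 * r ^ 1 * s ^ 11 + 1037659282776 * r ^ 2 * s ^ 10 + 3762361605780 * r ^ 3 * s ^ 9 + 10128718302075 * r ^ 4 * s ^ 8 + 21877889571432 * r ^ 5 * s ^ 7 + 39188322951084 * r ^ 6 * s ^ 6 + 57715140114252 * r ^ 7 * s ^ 5 + 67204040277735 * r ^ 8 * s ^ 4 + 58443216959160 * r ^ 9 * s ^ 3 + 34980956711586 * r ^ 10 * s ^ 2 + 12531715779852 * r ^ 11 * s ^ 1 + 1853425124541 * r ^ 12 := by rw [hr, hs]; unfold ccTea10; ring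
  have e2 : 0 ≤ (1 : ℝ) * ccTea10 t := by rw [e]; positivity
  exact (mul_nonneg_iff_of_pos_left (by norm_num)).mp e2

theorem ccTea10_nn {t : ℝ} (h0 : 0 ≤ t) (h1 : t ≤ 1) : 0 ≤ ccTea10 t := by
  exact ccTea10_nn0 (by linarith) (by linarith)

def ccTea11 (t : ℝ) : ℝ := 4816714653 - 2241383400 * t + 13578625350 * t ^ 2 + 25967822400 * t ^ 3 + 79130243250 * t ^ 4 + 110253746700 * t ^ 5 + 194110230600 * t ^ 6 + 129532059000 * t ^ 7 + 100121435100 * t ^ 8 + 37368578700 * t ^ 9 - 62762761350 * t ^ 10 - 9568924200 * t ^ 11 - 37047725550 * t ^ 12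

theorem ccTea11_nn0 {t : ℝ} (h0 : (0 : ℝ) ≤ 1 * t) (h1 : 1 * t ≤ 1) : 0 ≤ ccTea11 t := by
  obtain ⟨r, hr⟩ : ∃ r, r = 1 * t - 0 := ⟨_, rfl⟩
  obtain ⟨s, hs⟩ : ∃ s, s = 1 - 1 * t := ⟨_, rfl⟩
  have hr0 : 0 ≤ r := by rw [hr]; linarith
  have hs0 : 0 ≤ s := by rw [hs]; linarith
  have e : (1 : ℝ) * ccTea11 t = 4816714653 * s ^ 12 + 55559192436 * r ^ 1 * s ^ 11 + 306826575048 * r ^ 2 * s ^ 10 + 1098155212560 * r ^ 3 * s ^ 9 + 2938324277835 * r ^ 4 * s ^ 8 + 6382753824276 * r ^ 5 * s ^ 7 + 11629466882172 * r ^ 6 * s ^ 6 + 17513893830276 * r ^ 7 * s ^ 5 + 20825507528235 * r ^ 8 * s ^ 4 + 18406135363860 * r ^ 9 * s ^ 3 + 11128527953298 * r ^ 10 * s ^ 2 + 3997278894636 * r ^ 11 * s ^ 1 + 583258661253 * r ^ 12 := by rw [hr, hs]; unfold ccTea11; ring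
  have e2 : 0 ≤ (1 : ℝ) * ccTea11 t := by rw [e]; positivity
  exact (mul_nonneg_iff_of_pos_left (by norm_num)).mp e2

theorem ccTea11_nn {t : ℝ} (h0 : 0 ≤ t) (h1 : t ≤ 1) : 0 ≤ ccTea11 t := by
  exact ccTea11_nn0 (by linarith) (by linarith)

theorem pcTe_posa {d t : ℝ} (hd : 0 ≤ d) (hd3 : d ≤ 1 / 3) (h0 : 0 ≤ t) (h1 : t ≤ 1) : 0 < pcTe d t := by
  obtain ⟨u, hu⟩ : ∃ u, u = d := ⟨_, rfl⟩
  obtain ⟨v, hv⟩ : ∃ v, v = 1 - 3 * d := ⟨_, rfl⟩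
  have hu0 : 0 ≤ u := by rw [hu]; linarith
  have hv0 : 0 ≤ v := by rw [hv]; linarith
  have key : (1 : ℝ) * pcTe d t = 1 + (v ^ 11 * ccTea0 t + (u ^ 1 * v ^ 10 * ccTea1 t + (u ^ 2 * v ^ 9 * ccTea2 t + (u ^ 3 * v ^ 8 * ccTea3 t + (u ^ 4 * v ^ 7 * ccTea4 t + (u ^ 5 * v ^ 6 * ccTea5 t + (u ^ 6 * v ^ 5 * ccTea6 t + (u ^ 7 * v ^ 4 * ccTea7 t + (u ^ 8 * v ^ 3 * ccTea8 t + (u ^ 9 * v ^ 2 * ccTea9 t + (u ^ 10 * v ^ 1 * ccTea10 t + (u ^ 11 * ccTea11 t)))))))))))) := by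
    rw [hu, hv]; unfold pcTe ccTea0 ccTea1 ccTea2 ccTea3 ccTea4 ccTea5 ccTea6 ccTea7 ccTea8 ccTea9 ccTea10 ccTea11; ring
  have h3 : 0 < (1 : ℝ) * pcTe d t := by
    rw [key]; exact add_pos_of_pos_of_nonneg one_pos (add_nonneg (mul_nonneg (by positivity) (ccTea0_nn h0 h1)) (add_nonneg (mul_nonneg (by positivity) (ccTea1_nn h0 h1)) (add_nonneg (mul_nonneg (by positivity) (ccTea2_nn h0 h1)) (add_nonneg (mul_nonneg (by positivity) (ccTea3_nn h0 h1)) (add_nonneg (mul_nonneg (by positivity) (ccTea4_nn h0 h1)) (add_nonneg (mul_nonneg (by positivity) (ccTea5_nn h0 h1)) (add_nonneg (mul_nonneg (by positivity) (ccTea6_nn h0 h1)) (add_nonneg (mul_nonneg (by positivity) (ccTea7_nn h0 h1)) (add_nonneg (mul_nonneg (by positivity) (ccTea8_nn h0 h1)) (add_nonneg (mul_nonneg (by positivity) (ccTea9_nn h0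 h1)) (add_nonneg (mul_nonneg (by positivity) (ccTea10_nn h0 h1)) (mul_nonneg (by positivity) (ccTea11_nn h0 h1)))))))))))))
  exact (mul_pos_iff_of_pos_left (by norm_num)).mp h3

def ccTeb0 (t : ℝ) : ℝ := 4816714653 - 2241383400 * t + 13578625350 * t ^ 2 + 25967822400 * t ^ 3 + 79130243250 * t ^ 4 + 110253746700 * t ^ 5 + 194110230600 * t ^ 6 + 129532059000 * t ^ 7 + 100121435100 * t ^ 8 + 37368578700 * t ^ 9 - 62762761350 * t ^ 10 - 9568924200 * t ^ 11 - 37047725550 * t ^ 12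

theorem ccTeb0_nn0 {t : ℝ} (h0 : (0 : ℝ) ≤ 1 * t) (h1 : 1 * t ≤ 1) : 0 ≤ ccTeb0 t := by
  obtain ⟨r, hr⟩ : ∃ r, r = 1 * t - 0 := ⟨_, rfl⟩
  obtain ⟨s, hs⟩ : ∃ s, s = 1 - 1 * t := ⟨_, rfl⟩
  have hr0 : 0 ≤ r := by rw [hr]; linarith
  have hs0 : 0 ≤ s := by rw [hs]; linarith
  have e : (1 : ℝ) * ccTeb0 t = 4816714653 * s ^ 12 + 55559192436 * r ^ 1 * s ^ 11 + 306826575048 * r ^ 2 * s ^ 10 + 1098155212560 * r ^ 3 * s ^ 9 + 2938324277835 * r ^ 4 * s ^ 8 + 6382753824276 * r ^ 5 * s ^ 7 + 11629466882172 * r ^ 6 * s ^ 6 + 17513893830276 * r ^ 7 * s ^ 5 + 20825507528235 * r ^ 8 * s ^ 4 + 18406135363860 * r ^ 9 * s ^ 3 + 11128527953298 * r ^ 10 * s ^ 2 + 3997278894636 * r ^ 11 * s ^ 1 + 583258661253 * r ^ 12 := by rw [hr, hs]; unfold ccTeb0; ring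
  have e2 : 0 ≤ (1 : ℝ) * ccTeb0 t := by rw [e]; positivity
  exact (mul_nonneg_iff_of_pos_left (by norm_num)).mp e2

theorem ccTeb0_nn {t : ℝ} (h0 : 0 ≤ t) (h1 : t ≤ 1) : 0 ≤ ccTeb0 t := by
  exact ccTeb0_nn0 (by linarith) (by linarith)

def ccTeb1 (t : ℝ) : ℝ := 37105829622 - 19398179700 * t + 101828264400 * t ^ 2 + 202680455040 * t ^ 3 + 619766748360 * t ^ 4 + 871962639660 * t ^ 5 + 1545684024420 * t ^ 6 + 1021116528180 * t ^ 7 + 795675531420 * t ^ 8 + 283961033460 * t ^ 9 - 515048700240 * t ^ 10 - 81991734480 * t ^ 11 - 300922290900 * t ^ 12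

theorem ccTeb1_nn0 {t : ℝ} (h0 : (0 : ℝ) ≤ 1 * t) (h1 : 1 * t ≤ 1) : 0 ≤ ccTeb1 t := by
  obtain ⟨r, hr⟩ : ∃ r, r = 1 * t - 0 := ⟨_, rfl⟩
  obtain ⟨s, hs⟩ : ∃ s, s = 1 - 1 * t := ⟨_, rfl⟩
  have hr0 : 0 ≤ r := by rw [hr]; linarith
  have hs0 : 0 ≤ s := by rw [hs]; linarith
  have e : (1 : ℝ) * ccTeb1 t = 37105829622 * s ^ 12 + 425871775764 * r ^ 1 * s ^ 11 + 2337433042752 * r ^ 2 * s ^ 10 + 8317345732380 * r ^ 3 * s ^ 9 + 22192848754110 * r ^ 4 * s ^ 8 + 48332402495604 * r ^ 5 * s ^ 7 + 88735812752808 * r ^ 6 * s ^ 6 + 134937692018784 * r ^ 7 * s ^ 5 + 161876542532850 * r ^ 8 * s ^ 4 + 144024272043300 * r ^ 9 * s ^ 3 + 87432850774692 * r ^ 10 * s ^ 2 + 31438352061144 * r ^ 11 * s ^ 1 + 4562420149242 * r ^ 12 := by rw [hr, hs]; unfold ccTeb1; ring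
  have e2 : 0 ≤ (1 : ℝ) * ccTeb1 t := by rw [e]; positivity
  exact (mul_nonneg_iff_of_pos_left (by norm_num)).mp e2

theorem ccTeb1_nn {t : ℝ} (h0 : 0 ≤ t) (h1 : t ≤ 1) : 0 ≤ ccTeb1 t := by
  exact ccTeb1_nn0 (by linarith) (by linarith)

def ccTeb2 (t : ℝ) : ℝ := 129885289965 - 75355138350 * t + 347368683330 * t ^ 2 + 720446562810 * t ^ 3 + 2206340761875 * t ^ 4 + 3130733214840 * t ^ 5 + 5586162706242 * t ^ 6 + 3651923739484 * t ^ 7 + 2868229621395 * t ^ 8 + 976657294106 * t ^ 9 - 1918013237602 * t ^ 10 - 317480931750 * t ^ 11 - 1109461548725 * t ^ 12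

theorem ccTeb2_nn0 {t : ℝ} (h0 : (0 : ℝ) ≤ 1 * t) (h1 : 1 * t ≤ 1) : 0 ≤ ccTeb2 t := by
  obtain ⟨r, hr⟩ : ∃ r, r = 1 * t - 0 := ⟨_, rfl⟩
  obtain ⟨s, hs⟩ : ∃ s, s = 1 - 1 * t := ⟨_, rfl⟩
  have hr0 : 0 ≤ r := by rw [hr]; linarith
  have hs0 : 0 ≤ s := by rw [hs]; linarith
  have e : (1 : ℝ) * ccTeb2 t = 129885289965 * s ^ 12 + 1483268341230 * r ^ 1 * s ^ 11 + 8090891299170 * r ^ 2 * s ^ 10 + 28624364579160 * r ^ 3 * s ^ 9 + 76181571281940 * r ^ 4 * s ^ 8 + 166403731567380 * r ^ 5 * s ^ 7 + 307943705327922 * r ^ 6 * s ^ 6 + 472837631001376 * r ^ 7 * s ^ 5 + 572089518053630 * r ^ 8 * s ^ 4 + 512165731723956 * r ^ 9 * s ^ 3 + 312051516745146 * r ^ 10 * s ^ 2 + 112279259351016 * r ^ 11 * s ^ 1 + 16197437017620 * r ^ 12 := by rw [hr, hs]; unfold ccTeb2; ring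
  have e2 : 0 ≤ (1 : ℝ) * ccTeb2 t := by rw [e]; positivity
  exact (mul_nonneg_iff_of_pos_left (by norm_num)).mp e2

theorem ccTeb2_nn {t : ℝ} (h0 : 0 ≤ t) (h1 : t ≤ 1) : 0 ≤ ccTeb2 t := by
  exact ccTeb2_nn0 (by linarith) (by linarith)

def ccTeb3 (t : ℝ) : ℝ := 272741474880 - 173733430500 * t + 711944700510 * t ^ 2 + 1540000483590 * t ^ 3 + 4713208962890 * t ^ 4 + 6736207372860 * t ^ 5 + 12094884142164 * t ^ 6 + 7821293802008 * t ^ 7 + 6190387477060 * t ^ 8 + 2006218005092 * t ^ 9 - 4278505140454 * t ^ 10 - 733692321130 * t ^ 11 - 2450752869650 * t ^ 12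

theorem ccTeb3_nn0 {t : ℝ} (h0 : (0 : ℝ) ≤ 1 * t) (h1 : 1 * t ≤ 1) : 0 ≤ ccTeb3 t := by
  obtain ⟨r, hr⟩ : ∃ r, r = 1 * t - 0 := ⟨_, rfl⟩
  obtain ⟨s, hs⟩ : ∃ s, s = 1 - 1 * t := ⟨_, rfl⟩
  have hr0 : 0 ≤ r := by rw [hr]; linarith
  have hs0 : 0 ≤ s := by rw [hs]; linarith
  have e : (1 : ℝ) * ccTeb3 t = 272741474880 * s ^ 12 + 3099164268060 * r ^ 1 * s ^ 11 + 16801814307090 * r ^ 2 * s ^ 10 + 59107233284790 * r ^ 3 * s ^ 9 + 156951738871250 * r ^ 4 * s ^ 8 + 343994476586380 * r ^ 5 * s ^ 7 + 641834892339884 * r ^ 6 * s ^ 6 + 994987184081712 * r ^ 7 * s ^ 5 + 1213635450112000 * r ^ 8 * s ^ 4 + 1092715861872492 * r ^ 9 * s ^ 3 + 667872007277472 * r ^ 10 * s ^ 2 + 240365679818112 * r ^ 11 * s ^ 1 + 34450202659320 * r ^ 12 := by rw [hr, hs]; unfold ccTeb3; ring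
  have e2 : 0 ≤ (1 : ℝ) * ccTeb3 t := by rw [e]; positivity
  exact (mul_nonneg_iff_of_pos_left (by norm_num)).mp e2

theorem ccTeb3_nn {t : ℝ} (h0 : 0 ≤ t) (h1 : t ≤ 1) : 0 ≤ ccTeb3 t := by
  exact ccTeb3_nn0 (by linarith) (by linarith)

def ccTeb4 (t : ℝ) : ℝ := 381811435665 - 264474850950 * t + 974674261750 * t ^ 2 + 2200161688560 * t ^ 3 + 6714094775780 * t ^ 4 + 9650873368180 * t ^ 5 + 17431833889831 * t ^ 6 + 11145279276562 * t ^ 7 + 8887637480655 * t ^ 8 + 2733648551128 * t ^ 9 - 6352342731261 * t ^ 10 - 1124884843400 * t ^ 11 - 3603821533700 * t ^ 12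

theorem ccTeb4_nn0 {t : ℝ} (h0 : (0 : ℝ) ≤ 1 * t) (h1 : 1 * t ≤ 1) : 0 ≤ ccTeb4 t := by
  obtain ⟨r, hr⟩ : ∃ r, r = 1 * t - 0 := ⟨_, rfl⟩
  obtain ⟨s, hs⟩ : ∃ s, s = 1 - 1 * t := ⟨_, rfl⟩
  have hr0 : 0 ≤ r := by rw [hr]; linarith
  have hs0 : 0 ≤ s := by rw [hs]; linarith
  have e : (1 : ℝ) * ccTeb4 t = 381811435665 * s ^ 12 + 4317262377030 * r ^ 1 * s ^ 11 + 23265005655190 * r ^ 2 * s ^ 10 + 81399303350110 * r ^ 3 * s ^ 9 + 215734201998995 * r ^ 4 * s ^ 8 + 474648320005760 * r ^ 5 * s ^ 7 + 893084163411031 * r ^ 6 * s ^ 6 + 1397439493418348 * r ^ 7 * s ^ 5 + 1717480671968565 * r ^ 8 * s ^ 4 + 1554278203054558 * r ^ 9 * s ^ 3 + 952487323891308 * r ^ 10 * s ^ 2 + 342728908457448 * r ^ 11 * s ^ 1 + 48774490768800 * r ^ 12 := by rw [hr, hs]; unfold ccTeb4; ring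
  have e2 : 0 ≤ (1 : ℝ) * ccTeb4 t := by rw [e]; positivity
  exact (mul_nonneg_iff_of_pos_left (by norm_num)).mp e2

theorem ccTeb4_nn {t : ℝ} (h0 : 0 ≤ t) (h1 : t ≤ 1) : 0 ≤ ccTeb4 t := by
  exact ccTeb4_nn0 (by linarith) (by linarith)

def ccTeb5 (t : ℝ) : ℝ := 374214239414 - 279401703300 * t + 936478639030 * t ^ 2 + 2206489218450 * t ^ 3 + 6697995822590 * t ^ 4 + 9666994057840 * t ^ 5 + 17560103870994 * t ^ 6 + 11095184727288 * t ^ 7 + 8912254716010 * t ^ 8 + 2593029223252 * t ^ 9 - 6591341821684 * t ^ 10 - 1201840942890 * t ^ 11 - 3704090864050 * t ^ 12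

theorem ccTeb5_nn0 {t : ℝ} (h0 : (0 : ℝ) ≤ 1 * t) (h1 : 1 * t ≤ 1) : 0 ≤ ccTeb5 t := by
  obtain ⟨r, hr⟩ : ∃ r, r = 1 * t - 0 := ⟨_, rfl⟩
  obtain ⟨s, hs⟩ : ∃ s, s = 1 - 1 * t := ⟨_, rfl⟩
  have hr0 : 0 ≤ r := by rw [hr]; linarith
  have hs0 : 0 ≤ s := by rw [hs]; linarith
  have e : (1 : ℝ) * ccTeb5 t = 374214239414 * s ^ 12 + 4211169169668 * r ^ 1 * s ^ 11 + 22561199704054 * r ^ 2 * s ^ 10 + 78531314598330 * r ^ 3 * s ^ 9 + 207832705010420 * r ^ 4 * s ^ 8 + 459237124713248 * r ^ 5 * s ^ 7 + 871468924148430 * r ^ 6 * s ^ 6 + 1375854798484480 * r ^ 7 * s ^ 5 + 1702705878164990 * r ^ 8 * s ^ 4 + 1547776913529472 * r ^ 9 * s ^ 3 + 950471634469456 * r ^ 10 * s ^ 2 + 341773395288560 * r ^ 11 * s ^ 1 + 48266069182944 * r ^ 12 := by rw [hr, hs]; unfold ccTeb5; ring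
  have e2 : 0 ≤ (1 : ℝ) * ccTeb5 t := by rw [e]; positivity
  exact (mul_nonneg_iff_of_pos_left (by norm_num)).mp e2

theorem ccTeb5_nn {t : ℝ} (h0 : 0 ≤ t) (h1 : t ≤ 1) : 0 ≤ ccTeb5 t := by
  exact ccTeb5_nn0 (by linarith) (by linarith)

def ccTeb6 (t : ℝ) : ℝ := 262070679476 - 209179547000 * t + 644787627310 * t ^ 2 + 1585342395250 * t ^ 3 + 4775664816340 * t ^ 4 + 6908217522200 * t ^ 5 + 12616162783216 * t ^ 6 + 7873511823892 * t ^ 7 + 6369010730920 * t ^ 8 + 1746149766568 * t ^ 9 - 4877459312356 * t ^ 10 - 913346017930 * t ^ 11 - 2715290979750 * t ^ 12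

theorem ccTeb6_nn0 {t : ℝ} (h0 : (0 : ℝ) ≤ 1 * t) (h1 : 1 * t ≤ 1) : 0 ≤ ccTeb6 t := by
  obtain ⟨r, hr⟩ : ∃ r, r = 1 * t - 0 := ⟨_, rfl⟩
  obtain ⟨s, hs⟩ : ∃ s, s = 1 - 1 * t := ⟨_, rfl⟩
  have hr0 : 0 ≤ r := by rw [hr]; linarith
  have hs0 : 0 ≤ s := by rw [hs]; linarith
  have e : (1 : ℝ) * ccTeb6 t = 262070679476 * s ^ 12 + 2935668606712 * r ^ 1 * s ^ 11 + 15640477455726 * r ^ 2 * s ^ 10 + 54183893068070 * r ^ 3 * s ^ 9 + 143269550688160 * r ^ 4 * s ^ 8 + 318091105194112 * r ^ 5 * s ^ 7 + 608778820354060 * r ^ 6 * s ^ 6 + 969238937519040 * r ^ 7 * s ^ 5 + 1206917441386640 * r ^ 8 * s ^ 4 + 1101189610293448 * r ^ 9 * s ^ 3 + 677223356402114 * r ^ 10 * s ^ 2 + 243233435552680 * r ^ 11 * s ^ 1 + 34065642288136 * r ^ 12 := by rw [hr, hs]; unfold ccTeb6; ring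
  have e2 : 0 ≤ (1 : ℝ) * ccTeb6 t := by rw [e]; positivity
  exact (mul_nonneg_iff_of_pos_left (by norm_num)).mp e2

theorem ccTeb6_nn {t : ℝ} (h0 : 0 ≤ t) (h1 : t ≤ 1) : 0 ≤ ccTeb6 t := by
  exact ccTeb6_nn0 (by linarith) (by linarith)

def ccTeb7 (t : ℝ) : ℝ := 131166520760 - 111047752400 * t + 318339318560 * t ^ 2 + 816166094020 * t ^ 3 + 2434022659060 * t ^ 4 + 3522021573320 * t ^ 5 + 6464616752216 * t ^ 6 + 3982689206472 * t ^ 7 + 3243495146260 * t ^ 8 + 834139197348 * t ^ 9 - 2573960861716 * t ^ 10 - 493834706680 * t ^ 11 - 1419561766900 * t ^ 12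

theorem ccTeb7_nn0 {t : ℝ} (h0 : (0 : ℝ) ≤ 1 * t) (h1 : 1 * t ≤ 1) : 0 ≤ ccTeb7 t := by
  obtain ⟨r, hr⟩ : ∃ r, r = 1 * t - 0 := ⟨_, rfl⟩
  obtain ⟨s, hs⟩ : ∃ s, s = 1 - 1 * t := ⟨_, rfl⟩
  have hr0 : 0 ≤ r := by rw [hr]; linarith
  have hs0 : 0 ≤ s := by rw [hs]; linarith
  have e : (1 : ℝ) * ccTeb7 t = 131166520760 * s ^ 12 + 1462950496720 * r ^ 1 * s ^ 11 + 7753804412320 * r ^ 2 * s ^ 10 + 26748567464820 * r ^ 3 * s ^ 9 + 70709335470640 * r ^ 4 * s ^ 8 + 157815026607640 * r ^ 5 * s ^ 7 + 304574414587856 * r ^ 6 * s ^ 6 + 488676370623608 * r ^ 7 * s ^ 5 + 611748387890580 * r ^ 8 * s ^ 4 + 559795796411068 * r ^ 9 * s ^ 3 + 344557271157328 * r ^ 10 * s ^ 2 + 123543481582848 * r ^ 11 * s ^ 1 + 17148251380320 * r ^ 12 := by rw [hr, hs]; unfold ccTeb7; ring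
  have e2 : 0 ≤ (1 : ℝ) * ccTeb7 t := by rw [e]; positivity
  exact (mul_nonneg_iff_of_pos_left (by norm_num)).mp e2

theorem ccTeb7_nn {t : ℝ} (h0 : 0 ≤ t) (h1 : t ≤ 1) : 0 ≤ ccTeb7 t := by
  exact ccTeb7_nn0 (by linarith) (by linarith)

def ccTeb8 (t : ℝ) : ℝ := 45987439920 - 40984948000 * t + 110509648560 * t ^ 2 + 295070230680 * t ^ 3 + 869183694205 * t ^ 4 + 1255442981160 * t ^ 5 + 2315251164455 * t ^ 6 + 1407233071710 * t ^ 7 + 1153475112380 * t ^ 8 + 276755269750 * t ^ 9 - 949366684475 * t ^ 10 - 186209593100 * t ^ 11 - 518688948125 * t ^ 12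

theorem ccTeb8_nn0 {t : ℝ} (h0 : (0 : ℝ) ≤ 1 * t) (h1 : 1 * t ≤ 1) : 0 ≤ ccTeb8 t := by
  obtain ⟨r, hr⟩ : ∃ r, r = 1 * t - 0 := ⟨_, rfl⟩
  obtain ⟨s, hs⟩ : ∃ s, s = 1 - 1 * t := ⟨_, rfl⟩
  have hr0 : 0 ≤ r := by rw [hr]; linarith
  have hs0 : 0 ≤ s := by rw [hs]; linarith
  have e : (1 : ℝ) * ccTeb8 t = 45987439920 * s ^ 12 + 510864331040 * r ^ 1 * s ^ 11 + 2694846255280 * r ^ 2 * s ^ 10 + 9263231358680 * r ^ 3 * s ^ 9 + 24499016295925 * r ^ 4 * s ^ 8 + 54989618243120 * r ^ 5 * s ^ 7 + 106990769555115 * r ^ 6 * s ^ 6 + 172851616481720 * r ^ 7 * s ^ 5 + 217326396056385 * r ^ 8 * s ^ 4 + 199284578508270 * r ^ 9 * s ^ 3 + 122680755409480 * r ^ 10 * s ^ 2 + 43890209476520 * r ^ 11 * s ^ 1 + 6033658439120 * r ^ 12 := by rw [hr, hs]; unfold ccTeb8; ring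
  have e2 : 0 ≤ (1 : ℝ) * ccTeb8 t := by rw [e]; positivity
  exact (mul_nonneg_iff_of_pos_left (by norm_num)).mp e2

theorem ccTeb8_nn {t : ℝ} (h0 : 0 ≤ t) (h1 : t ≤ 1) : 0 ≤ ccTeb8 t := by
  exact ccTeb8_nn0 (by linarith) (by linarith)

def ccTeb9 (t : ℝ) : ℝ := 10758588960 - 10019012800 * t + 25702850400 * t ^ 2 + 71346891600 * t ^ 3 + 207143065650 * t ^ 4 + 297983982200 * t ^ 5 + 551952494150 * t ^ 6 + 330770788700 * t ^ 7 + 272794116400 * t ^ 8 + 60665701700 * t ^ 9 - 233082932750 * t ^ 10 - 46642535800 * t ^ 11 - 126144777450 * t ^ 12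

theorem ccTeb9_nn0 {t : ℝ} (h0 : (0 : ℝ) ≤ 1 * t) (h1 : 1 * t ≤ 1) : 0 ≤ ccTeb9 t := by
  obtain ⟨r, hr⟩ : ∃ r, r = 1 * t - 0 := ⟨_, rfl⟩
  obtain ⟨s, hs⟩ : ∃ s, s = 1 - 1 * t := ⟨_, rfl⟩
  have hr0 : 0 ≤ r := by rw [hr]; linarith
  have hs0 : 0 ≤ s := by rw [hs]; linarith
  have e : (1 : ℝ) * ccTeb9 t = 10758588960 * s ^ 12 + 119084054720 * r ^ 1 * s ^ 11 + 625560580960 * r ^ 2 * s ^ 10 + 2144219262800 * r ^ 3 * s ^ 9 + 5678257781250 * r ^ 4 * s ^ 8 + 12822486885320 * r ^ 5 * s ^ 7 + 25140735971590 * r ^ 6 * s ^ 6 + 40859006241320 * r ^ 7 * s ^ 5 + 51541923681450 * r ^ 8 * s ^ 4 + 47319284392300 * r ^ 9 * s ^ 3 + 29114481167360 * r ^ 10 * s ^ 2 + 10387010933520 * r ^ 11 * s ^ 1 + 1413229220960 * r ^ 12 := by rw [hr, hs]; unfold ccTeb9; ring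
  have e2 : 0 ≤ (1 : ℝ) * ccTeb9 t := by rw [e]; positivity
  exact (mul_nonneg_iff_of_pos_left (by norm_num)).mp e2

theorem ccTeb9_nn {t : ℝ} (h0 : 0 ≤ t) (h1 : t ≤ 1) : 0 ≤ ccTeb9 t := by
  exact ccTeb9_nn0 (by linarith) (by linarith)

def ccTeb10 (t : ℝ) : ℝ := 1511779008 - 1460380800 * t + 3606258400 * t ^ 2 + 10383424000 * t ^ 3 + 29655410800 * t ^ 4 + 42386110000 * t ^ 5 + 78830263600 * t ^ 6 + 46545560000 * t ^ 7 + 38609990000 * t ^ 8 + 7894862000 * t ^ 9 - 34283466800 * t ^ 10 - 6985960800 * t ^ 11 - 18376638400 * t ^ 12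

theorem ccTeb10_nn0 {t : ℝ} (h0 : (0 : ℝ) ≤ 1 * t) (h1 : 1 * t ≤ 1) : 0 ≤ ccTeb10 t := by
  obtain ⟨r, hr⟩ : ∃ r, r = 1 * t - 0 := ⟨_, rfl⟩
  obtain ⟨s, hs⟩ : ∃ s, s = 1 - 1 * t := ⟨_, rfl⟩
  have hr0 : 0 ≤ r := by rw [hr]; linarith
  have hs0 : 0 ≤ s := by rw [hs]; linarith
  have e : (1 : ℝ) * ccTeb10 t = 1511779008 * s ^ 12 + 16680967296 * r ^ 1 * s ^ 11 + 87319484128 * r ^ 2 * s ^ 10 + 298716445760 * r ^ 3 * s ^ 9 + 792755631760 * r ^ 4 * s ^ 8 + 1801586978736 * r ^ 5 * s ^ 7 + 3557594289792 * r ^ 6 * s ^ 6 + 5810060041936 * r ^ 7 * s ^ 5 + 7345214982960 * r ^ 8 * s ^ 4 + 6745199722560 * r ^ 9 * s ^ 3 + 4144971788128 * r ^ 10 * s ^ 2 + 1473817648896 * r ^ 11 * s ^ 1 + 198317211008 * r ^ 12 := by rw [hr, hs]; unfold ccTeb10; ring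
  have e2 : 0 ≤ (1 : ℝ) * ccTeb10 t := by rw [e]; positivity
  exact (mul_nonneg_iff_of_pos_left (by norm_num)).mp e2

theorem ccTeb10_nn {t : ℝ} (h0 : 0 ≤ t) (h1 : t ≤ 1) : 0 ≤ ccTeb10 t := by
  exact ccTeb10_nn0 (by linarith) (by linarith)

def ccTeb11 (t : ℝ) : ℝ := 96679552 - 96172800 * t + 231302400 * t ^ 2 + 688953600 * t ^ 3 + 1932380000 * t ^ 4 + 2737262400 * t ^ 5 + 5109684000 * t ^ 6 + 2970417600 * t ^ 7 + 2477352000 * t ^ 8 + 461126400 * t ^ 9 - 2288730400 * t ^ 10 - 474035200 * t ^ 11 - 1214797600 * t ^ 12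

theorem ccTeb11_nn0 {t : ℝ} (h0 : (0 : ℝ) ≤ 1 * t) (h1 : 1 * t ≤ 1) : 0 ≤ ccTeb11 t := by
  obtain ⟨r, hr⟩ : ∃ r, r = 1 * t - 0 := ⟨_, rfl⟩
  obtain ⟨s, hs⟩ : ∃ s, s = 1 - 1 * t := ⟨_, rfl⟩
  have hr0 : 0 ≤ r := by rw [hr]; linarith
  have hs0 : 0 ≤ s := by rw [hs]; linarith
  have e : (1 : ℝ) * ccTeb11 t = 96679552 * s ^ 12 + 1063981824 * r ^ 1 * s ^ 11 + 5554252032 * r ^ 2 * s ^ 10 + 18981975040 * r ^ 3 * s ^ 9 + 50529436640 * r ^ 4 * s ^ 8 + 115588101184 * r ^ 5 * s ^ 7 + 229722839648 * r ^ 6 * s ^ 6 + 376559041984 * r ^ 7 * s ^ 5 + 476546495840 * r ^ 8 * s ^ 4 + 437315234240 * r ^ 9 * s ^ 3 + 268199631232 * r ^ 10 * s ^ 2 + 94987220224 * r ^ 11 * s ^ 1 + 12631421952 * r ^ 12 := by rw [hr, hs]; unfold ccTeb11; ring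
  have e2 : 0 ≤ (1 : ℝ) * ccTeb11 t := by rw [e]; positivity
  exact (mul_nonneg_iff_of_pos_left (by norm_num)).mp e2

theorem ccTeb11_nn {t : ℝ} (h0 : 0 ≤ t) (h1 : t ≤ 1) : 0 ≤ ccTeb11 t := by
  exact ccTeb11_nn0 (by linarith) (by linarith)

theorem pcTe_posb {d t : ℝ} (hd : 1 / 3 ≤ d) (hd3 : d ≤ 1 / 2) (h0 : 0 ≤ t) (h1 : t ≤ 1) : 0 < pcTe d t := by
  obtain ⟨u, hu⟩ : ∃ u, u = 3 * d - 1 := ⟨_, rfl⟩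
  obtain ⟨v, hv⟩ : ∃ v, v = 1 - 2 * d := ⟨_, rfl⟩
  have hu0 : 0 ≤ u := by rw [hu]; linarith
  have hv0 : 0 ≤ v := by rw [hv]; linarith
  have key : (1 : ℝ) * pcTe d t = 1 + (v ^ 11 * ccTeb0 t + (u ^ 1 * v ^ 10 * ccTeb1 t + (u ^ 2 * v ^ 9 * ccTeb2 t + (u ^ 3 * v ^ 8 * ccTeb3 t + (u ^ 4 * v ^ 7 * ccTeb4 t + (u ^ 5 * v ^ 6 * ccTeb5 t + (u ^ 6 * v ^ 5 * ccTeb6 t + (u ^ 7 * v ^ 4 * ccTeb7 t + (u ^ 8 * v ^ 3 * ccTeb8 t + (u ^ 9 * v ^ 2 * ccTeb9 t + (u ^ 10 * v ^ 1 * ccTeb10 t + (u ^ 11 * ccTeb11 t)))))))))))) := by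
    rw [hu, hv]; unfold pcTe ccTeb0 ccTeb1 ccTeb2 ccTeb3 ccTeb4 ccTeb5 ccTeb6 ccTeb7 ccTeb8 ccTeb9 ccTeb10 ccTeb11; ring
  have h3 : 0 < (1 : ℝ) * pcTe d t := by
    rw [key]; exact add_pos_of_pos_of_nonneg one_pos (add_nonneg (mul_nonneg (by positivity) (ccTeb0_nn h0 h1)) (add_nonneg (mul_nonneg (by positivity) (ccTeb1_nn h0 h1)) (add_nonneg (mul_nonneg (by positivity) (ccTeb2_nn h0 h1)) (add_nonneg (mul_nonneg (by positivity) (ccTeb3_nn h0 h1)) (add_nonneg (mul_nonneg (by positivity) (ccTeb4_nn h0 h1)) (add_nonneg (mul_nonneg (by positivity) (ccTeb5_nn h0 h1)) (add_nonneg (mul_nonneg (by positivity) (ccTeb6_nn h0 h1)) (add_nonneg (mul_nonneg (by positivity) (ccTeb7_nn h0 h1)) (add_nonneg (mul_nonneg (by positivity) (ccTeb8_nn h0 h1)) (add_nonneg (mul_nonneg (by positivity) (ccTeb9_nn h0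 h1)) (add_nonneg (mul_nonneg (by positivity) (ccTeb10_nn h0 h1)) (mul_nonneg (by positivity) (ccTeb11_nn h0 h1)))))))))))))
  exact (mul_pos_iff_of_pos_left (by norm_num)).mp h3

theorem pcTe_pos {d t : ℝ} (hd : 0 ≤ d) (hd3 : d ≤ 1 / 2) (h0 : 0 ≤ t) (h1 : t ≤ 1) : 0 < pcTe d t := by
  rcases le_total d (1 / 3) with h | h
  · exact pcTe_posa hd h h0 h1
  · exact pcTe_posb h hd3 h0 h1

def pmS (d t : ℝ) : ℝ := 2 + t + 2 * t ^ 2 + 3 * t ^ 3 + 23 * d + 15 * d * t + 13 * d * t ^ 2 + 21 * d * t ^ 3 + 97 * d ^ 2 + 76 * d ^ 2 * t + 2 * d ^ 2 * t ^ 2 + 24 * d ^ 2 * t ^ 3 + 178 * d ^ 3 + 158 * d ^ 3 * t - 108 * d ^ 3 * t ^ 2 - 84 * d ^ 3 * t ^ 3 + 119 * d ^ 4 + 114 * d ^ 4 * t - 153 * d ^ 4 * t ^ 2 - 144 * d ^ 4 * t ^ 3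

def cmSa0 (t : ℝ) : ℝ := 1 + t + 2 * t ^ 2 + 3 * t ^ 3

theorem cmSa0_nn0 {t : ℝ} (h0 : (0 : ℝ) ≤ 1 * t) (h1 : 1 * t ≤ 1) : 0 ≤ cmSa0 t := by
  obtain ⟨r, hr⟩ : ∃ r, r = 1 * t - 0 := ⟨_, rfl⟩
  obtain ⟨s, hs⟩ : ∃ s, s = 1 - 1 * t := ⟨_, rfl⟩
  have hr0 : 0 ≤ r := by rw [hr]; linarith
  have hs0 : 0 ≤ s := by rw [hs]; linarith
  have e : (1 : ℝ) * cmSa0 t = 1 * s ^ 3 + 4 * r ^ 1 * s ^ 2 + 7 * r ^ 2 * s ^ 1 + 7 * r ^ 3 := by rw [hr, hs]; unfold cmSa0; ring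
  have e2 : 0 ≤ (1 : ℝ) * cmSa0 t := by rw [e]; positivity
  exact (mul_nonneg_iff_of_pos_left (by norm_num)).mp e2

theorem cmSa0_nn {t : ℝ} (h0 : 0 ≤ t) (h1 : t ≤ 1) : 0 ≤ cmSa0 t := by
  exact cmSa0_nn0 (by linarith) (by linarith)

def cmSa1 (t : ℝ) : ℝ := 35 + 27 * t + 37 * t ^ 2 + 57 * t ^ 3

theorem cmSa1_nn0 {t : ℝ} (h0 : (0 : ℝ) ≤ 1 * t) (h1 : 1 * t ≤ 1) : 0 ≤ cmSa1 t := by
  obtain ⟨r, hr⟩ : ∃ r, r = 1 * t - 0 := ⟨_, rfl⟩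
  obtain ⟨s, hs⟩ : ∃ s, s = 1 - 1 * t := ⟨_, rfl⟩
  have hr0 : 0 ≤ r := by rw [hr]; linarith
  have hs0 : 0 ≤ s := by rw [hs]; linarith
  have e : (1 : ℝ) * cmSa1 t = 35 * s ^ 3 + 132 * r ^ 1 * s ^ 2 + 196 * r ^ 2 * s ^ 1 + 156 * r ^ 3 := by rw [hr, hs]; unfold cmSa1; ring
  have e2 : 0 ≤ (1 : ℝ) * cmSa1 t := by rw [e]; positivity
  exact (mul_nonneg_iff_of_pos_left (by norm_num)).mp e2

theorem cmSa1_nn {t : ℝ} (h0 : 0 ≤ t) (h1 : t ≤ 1) : 0 ≤ cmSa1 t := by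
  exact cmSa1_nn0 (by linarith) (by linarith)

def cmSa2 (t : ℝ) : ℝ := 358 + 265 * t + 227 * t ^ 2 + 375 * t ^ 3

theorem cmSa2_nn0 {t : ℝ} (h0 : (0 : ℝ) ≤ 1 * t) (h1 : 1 * t ≤ 1) : 0 ≤ cmSa2 t := by
  obtain ⟨r, hr⟩ : ∃ r, r = 1 * t - 0 := ⟨_, rfl⟩
  obtain ⟨s, hs⟩ : ∃ s, s = 1 - 1 * t := ⟨_, rfl⟩
  have hr0 : 0 ≤ r := by rw [hr]; linarith
  have hs0 : 0 ≤ s := by rw [hs]; linarith
  have e : (1 : ℝ) * cmSa2 t = 358 * s ^ 3 + 1339 * r ^ 1 * s ^ 2 + 1831 * r ^ 2 * s ^ 1 + 1225 * r ^ 3 := by rw [hr, hs]; unfold cmSa2; ring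
  have e2 : 0 ≤ (1 : ℝ) * cmSa2 t := by rw [e]; positivity
  exact (mul_nonneg_iff_of_pos_left (by norm_num)).mp e2

theorem cmSa2_nn {t : ℝ} (h0 : 0 ≤ t) (h1 : t ≤ 1) : 0 ≤ cmSa2 t := by
  exact cmSa2_nn0 (by linarith) (by linarith)

def cmSa3 (t : ℝ) : ℝ := 1489 + 1127 * t + 471 * t ^ 2 + 951 * t ^ 3

theorem cmSa3_nn0 {t : ℝ} (h0 : (0 : ℝ) ≤ 1 * t) (h1 : 1 * t ≤ 1) : 0 ≤ cmSa3 t := by
  obtain ⟨r, hr⟩ : ∃ r, r = 1 * t - 0 := ⟨_, rfl⟩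
  obtain ⟨s, hs⟩ : ∃ s, s = 1 - 1 * t := ⟨_, rfl⟩
  have hr0 : 0 ≤ r := by rw [hr]; linarith
  have hs0 : 0 ≤ s := by rw [hs]; linarith
  have e : (1 : ℝ) * cmSa3 t = 1489 * s ^ 3 + 5594 * r ^ 1 * s ^ 2 + 7192 * r ^ 2 * s ^ 1 + 4038 * r ^ 3 := by rw [hr, hs]; unfold cmSa3; ring
  have e2 : 0 ≤ (1 : ℝ) * cmSa3 t := by rw [e]; positivity
  exact (mul_nonneg_iff_of_pos_left (by norm_num)).mp e2

theorem cmSa3_nn {t : ℝ} (h0 : 0 ≤ t) (h1 : t ≤ 1) : 0 ≤ cmSa3 t := by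
  exact cmSa3_nn0 (by linarith) (by linarith)

def cmSa4 (t : ℝ) : ℝ := 2228 + 1758 * t + 54 * t ^ 2 + 630 * t ^ 3

theorem cmSa4_nn0 {t : ℝ} (h0 : (0 : ℝ) ≤ 1 * t) (h1 : 1 * t ≤ 1) : 0 ≤ cmSa4 t := by
  obtain ⟨r, hr⟩ : ∃ r, r = 1 * t - 0 := ⟨_, rfl⟩
  obtain ⟨s, hs⟩ : ∃ s, s = 1 - 1 * t := ⟨_, rfl⟩
  have hr0 : 0 ≤ r := by rw [hr]; linarith
  have hs0 : 0 ≤ s := by rw [hs]; linarith
  have e : (1 : ℝ) * cmSa4 t = 2228 * s ^ 3 + 8442 * r ^ 1 * s ^ 2 + 10254 * r ^ 2 * s ^ 1 + 4670 * r ^ 3 := by rw [hr, hs]; unfold cmSa4; ring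
  have e2 : 0 ≤ (1 : ℝ) * cmSa4 t := by rw [e]; positivity
  exact (mul_nonneg_iff_of_pos_left (by norm_num)).mp e2

theorem cmSa4_nn {t : ℝ} (h0 : 0 ≤ t) (h1 : t ≤ 1) : 0 ≤ cmSa4 t := by
  exact cmSa4_nn0 (by linarith) (by linarith)

theorem pmS_posa {d t : ℝ} (hd : 0 ≤ d) (hd3 : d ≤ 1 / 3) (h0 : 0 ≤ t) (h1 : t ≤ 1) : 0 < pmS d t := by
  obtain ⟨u, hu⟩ : ∃ u, u = d := ⟨_, rfl⟩
  obtain ⟨v, hv⟩ : ∃ v, v = 1 - 3 * d := ⟨_, rfl⟩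
  have hu0 : 0 ≤ u := by rw [hu]; linarith
  have hv0 : 0 ≤ v := by rw [hv]; linarith
  have key : (1 : ℝ) * pmS d t = 1 + (v ^ 4 * cmSa0 t + (u ^ 1 * v ^ 3 * cmSa1 t + (u ^ 2 * v ^ 2 * cmSa2 t + (u ^ 3 * v ^ 1 * cmSa3 t + (u ^ 4 * cmSa4 t))))) := by
    rw [hu, hv]; unfold pmS cmSa0 cmSa1 cmSa2 cmSa3 cmSa4; ring
  have h3 : 0 < (1 : ℝ) * pmS d t := by
    rw [key]; exact add_pos_of_pos_of_nonneg one_pos (add_nonneg (mul_nonneg (by positivity) (cmSa0_nn h0 h1)) (add_nonneg (mul_nonneg (by positivity) (cmSa1_nn h0 h1)) (add_nonneg (mul_nonneg (by positivity) (cmSa2_nn h0 h1)) (add_nonneg (mul_nonneg (by positivity) (cmSa3_nn h0 h1)) (mul_nonneg (by positivity) (cmSa4_nn h0 h1))))))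
  exact (mul_pos_iff_of_pos_left (by norm_num)).mp h3

def cmSb0 (t : ℝ) : ℝ := 2228 + 1758 * t + 54 * t ^ 2 + 630 * t ^ 3

theorem cmSb0_nn0 {t : ℝ} (h0 : (0 : ℝ) ≤ 1 * t) (h1 : 1 * t ≤ 1) : 0 ≤ cmSb0 t := by
  obtain ⟨r, hr⟩ : ∃ r, r = 1 * t - 0 := ⟨_, rfl⟩
  obtain ⟨s, hs⟩ : ∃ s, s = 1 - 1 * t := ⟨_, rfl⟩
  have hr0 : 0 ≤ r := by rw [hr]; linarith
  have hs0 : 0 ≤ s := by rw [hs]; linarith
  have e : (1 : ℝ) * cmSb0 t = 2228 * s ^ 3 + 8442 * r ^ 1 * s ^ 2 + 10254 * r ^ 2 * s ^ 1 + 4670 * r ^ 3 := by rw [hr, hs]; unfold cmSb0; ring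
  have e2 : 0 ≤ (1 : ℝ) * cmSb0 t := by rw [e]; positivity
  exact (mul_nonneg_iff_of_pos_left (by norm_num)).mp e2

theorem cmSb0_nn {t : ℝ} (h0 : 0 ≤ t) (h1 : t ≤ 1) : 0 ≤ cmSb0 t := by
  exact cmSb0_nn0 (by linarith) (by linarith)

def cmSb1 (t : ℝ) : ℝ := 7423 + 5905 * t - 255 * t ^ 2 + 1569 * t ^ 3

theorem cmSb1_nn0 {t : ℝ} (h0 : (0 : ℝ) ≤ 1 * t) (h1 : 1 * t ≤ 1) : 0 ≤ cmSb1 t := by
  obtain ⟨r, hr⟩ : ∃ r, r = 1 * t - 0 := ⟨_, rfl⟩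
  obtain ⟨s, hs⟩ : ∃ s, s = 1 - 1 * t := ⟨_, rfl⟩
  have hr0 : 0 ≤ r := by rw [hr]; linarith
  have hs0 : 0 ≤ s := by rw [hs]; linarith
  have e : (1 : ℝ) * cmSb1 t = 7423 * s ^ 3 + 28174 * r ^ 1 * s ^ 2 + 33824 * r ^ 2 * s ^ 1 + 14642 * r ^ 3 := by rw [hr, hs]; unfold cmSb1; ring
  have e2 : 0 ≤ (1 : ℝ) * cmSb1 t := by rw [e]; positivity
  exact (mul_nonneg_iff_of_pos_left (by norm_num)).mp e2

theorem cmSb1_nn {t : ℝ} (h0 : 0 ≤ t) (h1 : t ≤ 1) : 0 ≤ cmSb1 t := by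
  exact cmSb1_nn0 (by linarith) (by linarith)

def cmSb2 (t : ℝ) : ℝ := 9259 + 7432 * t - 862 * t ^ 2 + 1302 * t ^ 3

theorem cmSb2_nn0 {t : ℝ} (h0 : (0 : ℝ) ≤ 1 * t) (h1 : 1 * t ≤ 1) : 0 ≤ cmSb2 t := by
  obtain ⟨r, hr⟩ : ∃ r, r = 1 * t - 0 := ⟨_, rfl⟩
  obtain ⟨s, hs⟩ : ∃ s, s = 1 - 1 * t := ⟨_, rfl⟩
  have hr0 : 0 ≤ r := by rw [hr]; linarith
  have hs0 : 0 ≤ s := by rw [hs]; linarith
  have e : (1 : ℝ) * cmSb2 t = 9259 * s ^ 3 + 35209 * r ^ 1 * s ^ 2 + 41779 * r ^ 2 * s ^ 1 + 17131 * r ^ 3 := by rw [hr, hs]; unfold cmSb2; ring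
  have e2 : 0 ≤ (1 : ℝ) * cmSb2 t := by rw [e]; positivity
  exact (mul_nonneg_iff_of_pos_left (by norm_num)).mp e2

theorem cmSb2_nn {t : ℝ} (h0 : 0 ≤ t) (h1 : t ≤ 1) : 0 ≤ cmSb2 t := by
  exact cmSb2_nn0 (by linarith) (by linarith)

def cmSb3 (t : ℝ) : ℝ := 5126 + 4154 * t - 780 * t ^ 2 + 360 * t ^ 3

theorem cmSb3_nn0 {t : ℝ} (h0 : (0 : ℝ) ≤ 1 * t) (h1 : 1 * t ≤ 1) : 0 ≤ cmSb3 t := by
  obtain ⟨r, hr⟩ : ∃ r, r = 1 * t - 0 := ⟨_, rfl⟩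
  obtain ⟨s, hs⟩ : ∃ s, s = 1 - 1 * t := ⟨_, rfl⟩
  have hr0 : 0 ≤ r := by rw [hr]; linarith
  have hs0 : 0 ≤ s := by rw [hs]; linarith
  have e : (1 : ℝ) * cmSb3 t = 5126 * s ^ 3 + 19532 * r ^ 1 * s ^ 2 + 22906 * r ^ 2 * s ^ 1 + 8860 * r ^ 3 := by rw [hr, hs]; unfold cmSb3; ring
  have e2 : 0 ≤ (1 : ℝ) * cmSb3 t := by rw [e]; positivity
  exact (mul_nonneg_iff_of_pos_left (by norm_num)).mp e2

theorem cmSb3_nn {t : ℝ} (h0 : 0 ≤ t) (h1 : t ≤ 1) : 0 ≤ cmSb3 t := by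
  exact cmSb3_nn0 (by linarith) (by linarith)

def cmSb4 (t : ℝ) : ℝ := 1063 + 870 * t - 225 * t ^ 2

theorem cmSb4_nn0 {t : ℝ} (h0 : (0 : ℝ) ≤ 1 * t) (h1 : 1 * t ≤ 1) : 0 ≤ cmSb4 t := by
  obtain ⟨r, hr⟩ : ∃ r, r = 1 * t - 0 := ⟨_, rfl⟩
  obtain ⟨s, hs⟩ : ∃ s, s = 1 - 1 * t := ⟨_, rfl⟩
  have hr0 : 0 ≤ r := by rw [hr]; linarith
  have hs0 : 0 ≤ s := by rw [hs]; linarith
  have e : (1 : ℝ) * cmSb4 t = 1063 * s ^ 3 + 4059 * r ^ 1 * s ^ 2 + 4704 * r ^ 2 * s ^ 1 + 1708 * r ^ 3 := by rw [hr, hs]; unfold cmSb4; ring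
  have e2 : 0 ≤ (1 : ℝ) * cmSb4 t := by rw [e]; positivity
  exact (mul_nonneg_iff_of_pos_left (by norm_num)).mp e2

theorem cmSb4_nn {t : ℝ} (h0 : 0 ≤ t) (h1 : t ≤ 1) : 0 ≤ cmSb4 t := by
  exact cmSb4_nn0 (by linarith) (by linarith)

theorem pmS_posb {d t : ℝ} (hd : 1 / 3 ≤ d) (hd3 : d ≤ 1 / 2) (h0 : 0 ≤ t) (h1 : t ≤ 1) : 0 < pmS d t := by
  obtain ⟨u, hu⟩ : ∃ u, u = 3 * d - 1 := ⟨_, rfl⟩
  obtain ⟨v, hv⟩ : ∃ v, v = 1 - 2 * d := ⟨_, rfl⟩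
  have hu0 : 0 ≤ u := by rw [hu]; linarith
  have hv0 : 0 ≤ v := by rw [hv]; linarith
  have key : (1 : ℝ) * pmS d t = 1 + (v ^ 4 * cmSb0 t + (u ^ 1 * v ^ 3 * cmSb1 t + (u ^ 2 * v ^ 2 * cmSb2 t + (u ^ 3 * v ^ 1 * cmSb3 t + (u ^ 4 * cmSb4 t))))) := by
    rw [hu, hv]; unfold pmS cmSb0 cmSb1 cmSb2 cmSb3 cmSb4; ring
  have h3 : 0 < (1 : ℝ) * pmS d t := by
    rw [key]; exact add_pos_of_pos_of_nonneg one_pos (add_nonneg (mul_nonneg (by positivity) (cmSb0_nn h0 h1)) (add_nonneg (mul_nonneg (by positivity) (cmSb1_nn h0 h1)) (add_nonneg (mul_nonneg (by positivity) (cmSb2_nn h0 h1)) (add_nonneg (mul_nonneg (by positivity) (cmSb3_nn h0 h1)) (mul_nonneg (by positivity) (cmSb4_nn h0 h1))))))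
  exact (mul_pos_iff_of_pos_left (by norm_num)).mp h3

theorem pmS_pos {d t : ℝ} (hd : 0 ≤ d) (hd3 : d ≤ 1 / 2) (h0 : 0 ≤ t) (h1 : t ≤ 1) : 0 < pmS d t := by
  rcases le_total d (1 / 3) with h | h
  · exact pmS_posa hd h h0 h1
  · exact pmS_posb h hd3 h0 h1

def pmT (d t : ℝ) : ℝ := 15 + 10 * t + 5 * t ^ 2 + 10 * t ^ 3 + 105 * d + 65 * d * t + 75 * d * t ^ 2 + 115 * d * t ^ 3 + 147 * d ^ 2 + 37 * d ^ 2 * t + 353 * d ^ 2 * t ^ 2 + 458 * d ^ 2 * t ^ 3 - 177 * d ^ 3 - 297 * d ^ 3 * t + 547 * d ^ 3 * t ^ 2 + 647 * d ^ 3 * t ^ 3 - 18 * d ^ 4 - 63 * d ^ 4 * t - 132 * d ^ 4 * t ^ 2 - 107 * d ^ 4 * t ^ 3 + 648 * d ^ 5 + 648 * d ^ 5 * t - 648 * d ^ 5 * t ^ 2 - 648 * d ^ 5 * t ^ 3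

def cmTa0 (t : ℝ) : ℝ := 14 + 10 * t + 5 * t ^ 2 + 10 * t ^ 3

theorem cmTa0_nn0 {t : ℝ} (h0 : (0 : ℝ) ≤ 1 * t) (h1 : 1 * t ≤ 1) : 0 ≤ cmTa0 t := by
  obtain ⟨r, hr⟩ : ∃ r, r = 1 * t - 0 := ⟨_, rfl⟩
  obtain ⟨s, hs⟩ : ∃ s, s = 1 - 1 * t := ⟨_, rfl⟩
  have hr0 : 0 ≤ r := by rw [hr]; linarith
  have hs0 : 0 ≤ s := by rw [hs]; linarith
  have e : (1 : ℝ) * cmTa0 t = 14 * s ^ 3 + 52 * r ^ 1 * s ^ 2 + 67 * r ^ 2 * s ^ 1 + 39 * r ^ 3 := by rw [hr, hs]; unfold cmTa0; ring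
  have e2 : 0 ≤ (1 : ℝ) * cmTa0 t := by rw [e]; positivity
  exact (mul_nonneg_iff_of_pos_left (by norm_num)).mp e2

theorem cmTa0_nn {t : ℝ} (h0 : 0 ≤ t) (h1 : t ≤ 1) : 0 ≤ cmTa0 t := by
  exact cmTa0_nn0 (by linarith) (by linarith)

def cmTa1 (t : ℝ) : ℝ := 315 + 215 * t + 150 * t ^ 2 + 265 * t ^ 3

theorem cmTa1_nn0 {t : ℝ} (h0 : (0 : ℝ) ≤ 1 * t) (h1 : 1 * t ≤ 1) : 0 ≤ cmTa1 t := by
  obtain ⟨r, hr⟩ : ∃ r, r = 1 * t - 0 := ⟨_, rfl⟩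
  obtain ⟨s, hs⟩ : ∃ s, s = 1 - 1 * t := ⟨_, rfl⟩
  have hr0 : 0 ≤ r := by rw [hr]; linarith
  have hs0 : 0 ≤ s := by rw [hs]; linarith
  have e : (1 : ℝ) * cmTa1 t = 315 * s ^ 3 + 1160 * r ^ 1 * s ^ 2 + 1525 * r ^ 2 * s ^ 1 + 945 * r ^ 3 := by rw [hr, hs]; unfold cmTa1; ring
  have e2 : 0 ≤ (1 : ℝ) * cmTa1 t := by rw [e]; positivity
  exact (mul_nonneg_iff_of_pos_left (by norm_num)).mp e2

theorem cmTa1_nn {t : ℝ} (h0 : 0 ≤ t) (h1 : t ≤ 1) : 0 ≤ cmTa1 t := by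
  exact cmTa1_nn0 (by linarith) (by linarith)

def cmTa2 (t : ℝ) : ℝ := 2667 + 1717 * t + 1703 * t ^ 2 + 2738 * t ^ 3

theorem cmTa2_nn0 {t : ℝ} (h0 : (0 : ℝ) ≤ 1 * t) (h1 : 1 * t ≤ 1) : 0 ≤ cmTa2 t := by
  obtain ⟨r, hr⟩ : ∃ r, r = 1 * t - 0 := ⟨_, rfl⟩
  obtain ⟨s, hs⟩ : ∃ s, s = 1 - 1 * t := ⟨_, rfl⟩
  have hr0 : 0 ≤ r := by rw [hr]; linarith
  have hs0 : 0 ≤ s := by rw [hs]; linarith
  have e : (1 : ℝ) * cmTa2 t = 2667 * s ^ 3 + 9718 * r ^ 1 * s ^ 2 + 13138 * r ^ 2 * s ^ 1 + 8825 * r ^ 3 := by rw [hr, hs]; unfold cmTa2; ring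
  have e2 : 0 ≤ (1 : ℝ) * cmTa2 t := by rw [e]; positivity
  exact (mul_nonneg_iff_of_pos_left (by norm_num)).mp e2

theorem cmTa2_nn {t : ℝ} (h0 : 0 ≤ t) (h1 : t ≤ 1) : 0 ≤ cmTa2 t := by
  exact cmTa2_nn0 (by linarith) (by linarith)

def cmTa3 (t : ℝ) : ℝ := 10596 + 6246 * t + 9124 * t ^ 2 + 13679 * t ^ 3

theorem cmTa3_nn0 {t : ℝ} (h0 : (0 : ℝ) ≤ 1 * t) (h1 : 1 * t ≤ 1) : 0 ≤ cmTa3 t := by
  obtain ⟨r, hr⟩ : ∃ r, r = 1 * t - 0 := ⟨_, rfl⟩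
  obtain ⟨s, hs⟩ : ∃ s, s = 1 - 1 * t := ⟨_, rfl⟩
  have hr0 : 0 ≤ r := by rw [hr]; linarith
  have hs0 : 0 ≤ s := by rw [hs]; linarith
  have e : (1 : ℝ) * cmTa3 t = 10596 * s ^ 3 + 38034 * r ^ 1 * s ^ 2 + 53404 * r ^ 2 * s ^ 1 + 39645 * r ^ 3 := by rw [hr, hs]; unfold cmTa3; ring
  have e2 : 0 ≤ (1 : ℝ) * cmTa3 t := by rw [e]; positivity
  exact (mul_nonneg_iff_of_pos_left (by norm_num)).mp e2

theorem cmTa3_nn {t : ℝ} (h0 : 0 ≤ t) (h1 : t ≤ 1) : 0 ≤ cmTa3 t := by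
  exact cmTa3_nn0 (by linarith) (by linarith)

def cmTa4 (t : ℝ) : ℝ := 19899 + 10224 * t + 22806 * t ^ 2 + 32611 * t ^ 3

theorem cmTa4_nn0 {t : ℝ} (h0 : (0 : ℝ) ≤ 1 * t) (h1 : 1 * t ≤ 1) : 0 ≤ cmTa4 t := by
  obtain ⟨r, hr⟩ : ∃ r, r = 1 * t - 0 := ⟨_, rfl⟩
  obtain ⟨s, hs⟩ : ∃ s, s = 1 - 1 * t := ⟨_, rfl⟩
  have hr0 : 0 ≤ r := by rw [hr]; linarith
  have hs0 : 0 ≤ s := by rw [hs]; linarith
  have e : (1 : ℝ) * cmTa4 t = 19899 * s ^ 3 + 69921 * r ^ 1 * s ^ 2 + 102951 * r ^ 2 * s ^ 1 + 85540 * r ^ 3 := by rw [hr, hs]; unfold cmTa4; ring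
  have e2 : 0 ≤ (1 : ℝ) * cmTa4 t := by rw [e]; positivity
  exact (mul_nonneg_iff_of_pos_left (by norm_num)).mp e2

theorem cmTa4_nn {t : ℝ} (h0 : 0 ≤ t) (h1 : t ≤ 1) : 0 ≤ cmTa4 t := by
  exact cmTa4_nn0 (by linarith) (by linarith)

def cmTa5 (t : ℝ) : ℝ := 14877 + 6480 * t + 20700 * t ^ 2 + 28965 * t ^ 3

theorem cmTa5_nn0 {t : ℝ} (h0 : (0 : ℝ) ≤ 1 * t) (h1 : 1 * t ≤ 1) : 0 ≤ cmTa5 t := by
  obtain ⟨r, hr⟩ : ∃ r, r = 1 * t - 0 := ⟨_, rfl⟩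
  obtain ⟨s, hs⟩ : ∃ s, s = 1 - 1 * t := ⟨_, rfl⟩
  have hr0 : 0 ≤ r := by rw [hr]; linarith
  have hs0 : 0 ≤ s := by rw [hs]; linarith
  have e : (1 : ℝ) * cmTa5 t = 14877 * s ^ 3 + 51111 * r ^ 1 * s ^ 2 + 78291 * r ^ 2 * s ^ 1 + 71022 * r ^ 3 := by rw [hr, hs]; unfold cmTa5; ring
  have e2 : 0 ≤ (1 : ℝ) * cmTa5 t := by rw [e]; positivity
  exact (mul_nonneg_iff_of_pos_left (by norm_num)).mp e2

theorem cmTa5_nn {t : ℝ} (h0 : 0 ≤ t) (h1 : t ≤ 1) : 0 ≤ cmTa5 t := by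
  exact cmTa5_nn0 (by linarith) (by linarith)

theorem pmT_posa {d t : ℝ} (hd : 0 ≤ d) (hd3 : d ≤ 1 / 3) (h0 : 0 ≤ t) (h1 : t ≤ 1) : 0 < pmT d t := by
  obtain ⟨u, hu⟩ : ∃ u, u = d := ⟨_, rfl⟩
  obtain ⟨v, hv⟩ : ∃ v, v = 1 - 3 * d := ⟨_, rfl⟩
  have hu0 : 0 ≤ u := by rw [hu]; linarith
  have hv0 : 0 ≤ v := by rw [hv]; linarith
  have key : (1 : ℝ) * pmT d t = 1 + (v ^ 5 * cmTa0 t + (u ^ 1 * v ^ 4 * cmTa1 t + (u ^ 2 * v ^ 3 * cmTa2 t + (u ^ 3 * v ^ 2 * cmTa3 t + (u ^ 4 * v ^ 1 * cmTa4 t + (u ^ 5 * cmTa5 t)))))) := by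
    rw [hu, hv]; unfold pmT cmTa0 cmTa1 cmTa2 cmTa3 cmTa4 cmTa5; ring
  have h3 : 0 < (1 : ℝ) * pmT d t := by
    rw [key]; exact add_pos_of_pos_of_nonneg one_pos (add_nonneg (mul_nonneg (by positivity) (cmTa0_nn h0 h1)) (add_nonneg (mul_nonneg (by positivity) (cmTa1_nn h0 h1)) (add_nonneg (mul_nonneg (by positivity) (cmTa2_nn h0 h1)) (add_nonneg (mul_nonneg (by positivity) (cmTa3_nn h0 h1)) (add_nonneg (mul_nonneg (by positivity) (cmTa4_nn h0 h1)) (mul_nonneg (by positivity) (cmTa5_nn h0 h1)))))))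
  exact (mul_pos_iff_of_pos_left (by norm_num)).mp h3

def cmTb0 (t : ℝ) : ℝ := 14877 + 6480 * t + 20700 * t ^ 2 + 28965 * t ^ 3

theorem cmTb0_nn0 {t : ℝ} (h0 : (0 : ℝ) ≤ 1 * t) (h1 : 1 * t ≤ 1) : 0 ≤ cmTb0 t := by
  obtain ⟨r, hr⟩ : ∃ r, r = 1 * t - 0 := ⟨_, rfl⟩
  obtain ⟨s, hs⟩ : ∃ s, s = 1 - 1 * t := ⟨_, rfl⟩
  have hr0 : 0 ≤ r := by rw [hr]; linarith
  have hs0 : 0 ≤ s := by rw [hs]; linarith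
  have e : (1 : ℝ) * cmTb0 t = 14877 * s ^ 3 + 51111 * r ^ 1 * s ^ 2 + 78291 * r ^ 2 * s ^ 1 + 71022 * r ^ 3 := by rw [hr, hs]; unfold cmTb0; ring
  have e2 : 0 ≤ (1 : ℝ) * cmTb0 t := by rw [e]; positivity
  exact (mul_nonneg_iff_of_pos_left (by norm_num)).mp e2

theorem cmTb0_nn {t : ℝ} (h0 : 0 ≤ t) (h1 : t ≤ 1) : 0 ≤ cmTb0 t := by
  exact cmTb0_nn0 (by linarith) (by linarith)

def cmTb1 (t : ℝ) : ℝ := 54486 + 22176 * t + 80694 * t ^ 2 + 112214 * t ^ 3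

theorem cmTb1_nn0 {t : ℝ} (h0 : (0 : ℝ) ≤ 1 * t) (h1 : 1 * t ≤ 1) : 0 ≤ cmTb1 t := by
  obtain ⟨r, hr⟩ : ∃ r, r = 1 * t - 0 := ⟨_, rfl⟩
  obtain ⟨s, hs⟩ : ∃ s, s = 1 - 1 * t := ⟨_, rfl⟩
  have hr0 : 0 ≤ r := by rw [hr]; linarith
  have hs0 : 0 ≤ s := by rw [hs]; linarith
  have e : (1 : ℝ) * cmTb1 t = 54486 * s ^ 3 + 185634 * r ^ 1 * s ^ 2 + 288504 * r ^ 2 * s ^ 1 + 269570 * r ^ 3 := by rw [hr, hs]; unfold cmTb1; ring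
  have e2 : 0 ≤ (1 : ℝ) * cmTb1 t := by rw [e]; positivity
  exact (mul_nonneg_iff_of_pos_left (by norm_num)).mp e2

theorem cmTb1_nn {t : ℝ} (h0 : 0 ≤ t) (h1 : t ≤ 1) : 0 ≤ cmTb1 t := by
  exact cmTb1_nn0 (by linarith) (by linarith)

def cmTb2 (t : ℝ) : ℝ := 79770 + 30150 * t + 124900 * t ^ 2 + 172885 * t ^ 3

theorem cmTb2_nn0 {t : ℝ} (h0 : (0 : ℝ) ≤ 1 * t) (h1 : 1 * t ≤ 1) : 0 ≤ cmTb2 t := by
  obtain ⟨r, hr⟩ : ∃ r, r = 1 * t - 0 := ⟨_, rfl⟩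
  obtain ⟨s, hs⟩ : ∃ s, s = 1 - 1 * t := ⟨_, rfl⟩
  have hr0 : 0 ≤ r := by rw [hr]; linarith
  have hs0 : 0 ≤ s := by rw [hs]; linarith
  have e : (1 : ℝ) * cmTb2 t = 79770 * s ^ 3 + 269460 * r ^ 1 * s ^ 2 + 424510 * r ^ 2 * s ^ 1 + 407705 * r ^ 3 := by rw [hr, hs]; unfold cmTb2; ring
  have e2 : 0 ≤ (1 : ℝ) * cmTb2 t := by rw [e]; positivity
  exact (mul_nonneg_iff_of_pos_left (by norm_num)).mp e2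

theorem cmTb2_nn {t : ℝ} (h0 : 0 ≤ t) (h1 : t ≤ 1) : 0 ≤ cmTb2 t := by
  exact cmTb2_nn0 (by linarith) (by linarith)

def cmTb3 (t : ℝ) : ℝ := 58497 + 20477 * t + 95833 * t ^ 2 + 132283 * t ^ 3

theorem cmTb3_nn0 {t : ℝ} (h0 : (0 : ℝ) ≤ 1 * t) (h1 : 1 * t ≤ 1) : 0 ≤ cmTb3 t := by
  obtain ⟨r, hr⟩ : ∃ r, r = 1 * t - 0 := ⟨_, rfl⟩
  obtain ⟨s, hs⟩ : ∃ s, s = 1 - 1 * t := ⟨_, rfl⟩
  have hr0 : 0 ≤ r := by rw [hr]; linarith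
  have hs0 : 0 ≤ s := by rw [hs]; linarith
  have e : (1 : ℝ) * cmTb3 t = 58497 * s ^ 3 + 195968 * r ^ 1 * s ^ 2 + 312278 * r ^ 2 * s ^ 1 + 307090 * r ^ 3 := by rw [hr, hs]; unfold cmTb3; ring
  have e2 : 0 ≤ (1 : ℝ) * cmTb3 t := by rw [e]; positivity
  exact (mul_nonneg_iff_of_pos_left (by norm_num)).mp e2

theorem cmTb3_nn {t : ℝ} (h0 : 0 ≤ t) (h1 : t ≤ 1) : 0 ≤ cmTb3 t := by
  exact cmTb3_nn0 (by linarith) (by linarith)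

def cmTb4 (t : ℝ) : ℝ := 21558 + 7023 * t + 36392 * t ^ 2 + 50207 * t ^ 3

theorem cmTb4_nn0 {t : ℝ} (h0 : (0 : ℝ) ≤ 1 * t) (h1 : 1 * t ≤ 1) : 0 ≤ cmTb4 t := by
  obtain ⟨r, hr⟩ : ∃ r, r = 1 * t - 0 := ⟨_, rfl⟩
  obtain ⟨s, hs⟩ : ∃ s, s = 1 - 1 * t := ⟨_, rfl⟩
  have hr0 : 0 ≤ r := by rw [hr]; linarith
  have hs0 : 0 ≤ s := by rw [hs]; linarith
  have e : (1 : ℝ) * cmTb4 t = 21558 * s ^ 3 + 71697 * r ^ 1 * s ^ 2 + 115112 * r ^ 2 * s ^ 1 + 115180 * r ^ 3 := by rw [hr, hs]; unfold cmTb4; ring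
  have e2 : 0 ≤ (1 : ℝ) * cmTb4 t := by rw [e]; positivity
  exact (mul_nonneg_iff_of_pos_left (by norm_num)).mp e2

theorem cmTb4_nn {t : ℝ} (h0 : 0 ≤ t) (h1 : t ≤ 1) : 0 ≤ cmTb4 t := by
  exact cmTb4_nn0 (by linarith) (by linarith)

def cmTb5 (t : ℝ) : ℝ := 3208 + 990 * t + 5460 * t ^ 2 + 7550 * t ^ 3

theorem cmTb5_nn0 {t : ℝ} (h0 : (0 : ℝ) ≤ 1 * t) (h1 : 1 * t ≤ 1) : 0 ≤ cmTb5 t := by
  obtain ⟨r, hr⟩ : ∃ r, r = 1 * t - 0 := ⟨_, rfl⟩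
  obtain ⟨s, hs⟩ : ∃ s, s = 1 - 1 * t := ⟨_, rfl⟩
  have hr0 : 0 ≤ r := by rw [hr]; linarith
  have hs0 : 0 ≤ s := by rw [hs]; linarith
  have e : (1 : ℝ) * cmTb5 t = 3208 * s ^ 3 + 10614 * r ^ 1 * s ^ 2 + 17064 * r ^ 2 * s ^ 1 + 17208 * r ^ 3 := by rw [hr, hs]; unfold cmTb5; ring
  have e2 : 0 ≤ (1 : ℝ) * cmTb5 t := by rw [e]; positivity
  exact (mul_nonneg_iff_of_pos_left (by norm_num)).mp e2

theorem cmTb5_nn {t : ℝ} (h0 : 0 ≤ t) (h1 : t ≤ 1) : 0 ≤ cmTb5 t := by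
  exact cmTb5_nn0 (by linarith) (by linarith)

theorem pmT_posb {d t : ℝ} (hd : 1 / 3 ≤ d) (hd3 : d ≤ 1 / 2) (h0 : 0 ≤ t) (h1 : t ≤ 1) : 0 < pmT d t := by
  obtain ⟨u, hu⟩ : ∃ u, u = 3 * d - 1 := ⟨_, rfl⟩
  obtain ⟨v, hv⟩ : ∃ v, v = 1 - 2 * d := ⟨_, rfl⟩
  have hu0 : 0 ≤ u := by rw [hu]; linarith
  have hv0 : 0 ≤ v := by rw [hv]; linarith
  have key : (1 : ℝ) * pmT d t = 1 + (v ^ 5 * cmTb0 t + (u ^ 1 * v ^ 4 * cmTb1 t + (u ^ 2 * v ^ 3 * cmTb2 t + (u ^ 3 * v ^ 2 * cmTb3 t + (u ^ 4 * v ^ 1 * cmTb4 t + (u ^ 5 * cmTb5 t)))))) := by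
    rw [hu, hv]; unfold pmT cmTb0 cmTb1 cmTb2 cmTb3 cmTb4 cmTb5; ring
  have h3 : 0 < (1 : ℝ) * pmT d t := by
    rw [key]; exact add_pos_of_pos_of_nonneg one_pos (add_nonneg (mul_nonneg (by positivity) (cmTb0_nn h0 h1)) (add_nonneg (mul_nonneg (by positivity) (cmTb1_nn h0 h1)) (add_nonneg (mul_nonneg (by positivity) (cmTb2_nn h0 h1)) (add_nonneg (mul_nonneg (by positivity) (cmTb3_nn h0 h1)) (add_nonneg (mul_nonneg (by positivity) (cmTb4_nn h0 h1)) (mul_nonneg (by positivity) (cmTb5_nn h0 h1)))))))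
  exact (mul_pos_iff_of_pos_left (by norm_num)).mp h3

theorem pmT_pos {d t : ℝ} (hd : 0 ≤ d) (hd3 : d ≤ 1 / 2) (h0 : 0 ≤ t) (h1 : t ≤ 1) : 0 < pmT d t := by
  rcases le_total d (1 / 3) with h | h
  · exact pmT_posa hd h h0 h1
  · exact pmT_posb h hd3 h0 h1

end Vale.Agent.Lib.P100.AB.NP
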