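import Vale.Agent.Lib.P100.Atoms

/-!
# P100: a closed form certificate, valid in every dimension.

With `a = b` and the field `U0 X + g V0 Y - x (E1 X + F1 Y) - g y (F2 X + E2 Y) - h1 s X - h2 t Y` the
pointwise inequality reduces, after completing squares, to two binary forms `psi` and two forms
in the `s`, `t` directions; no semidefinite programme is needed.
-/

noncomputable section

namespace Vale.Agent.Lib.P100

/-- Coefficients of the binary form `psi_{E,F}`; `K = r * kappa`, `r >= 1` a slack parameter. -/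
def pA (K a E : ℝ) : ℝ := E * (3 - a) - K / 4 * (a - 2 - 2 * E) ^ 2
/-- Middle coefficient of `psi_{E,F}`. -/
def pB (K a E F : ℝ) : ℝ := (2 - a) * F - a * E - K / 2 * ((a - 2 - 2 * E) * (a - 2 * F))
/-- Last coefficient of `psi_{E,F}`. -/
def pC (K a F : ℝ) : ℝ := (1 - a) * F - K / 4 * (a - 2 * F) ^ 2

/-- The coefficient vector of the field. -/
def coefS (g E1 F1 E2 F2 h1 h2 : ℝ) : Fin 14 → ℝ :=
  ![1, 0, 0, g, -E1, -F1, 0, 0, -(g * F2), -(g * E2), -h1, 0, 0, -h2]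

lemma form_nn {n : ℝ} {A : Atoms} (hA : A.Realizable n) {P B C : ℝ} (hP : 0 < P)
    (hB : B ^ 2 ≤ 4 * P * C) : 0 ≤ P * A.x + B * A.z + C * A.y := by
  have h1 := hA.form_nonneg P (B / 2)
  have h2 : 0 ≤ A.y := hA.y_nonneg
  have h3 : P * (P * A.x + B * A.z + C * A.y)
      = (P ^ 2 * A.x + 2 * P * (B / 2) * A.z + (B / 2) ^ 2 * A.y) + (P * C - B ^ 2 / 4) * A.y := by
    ring
  have h4 : 0 ≤ (P * C - B ^ 2 / 4) * A.y := mul_nonneg (by linarith) h2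
  have h5 : 0 ≤ P * (P * A.x + B * A.z + C * A.y) := by rw [h3]; linarith
  exact nonneg_of_mul_nonneg_right h5 hP

lemma form_nn' {n : ℝ} {A : Atoms} (hA : A.Realizable n) {P B C : ℝ} (hP : 0 < P)
    (hB : B ^ 2 ≤ 4 * P * C) : 0 ≤ P * A.y + B * A.z + C * A.x := by
  have h1 := hA.form_nonneg (B / 2) P
  have h2 : 0 ≤ A.x := hA.x_nonneg
  have h3 : P * (P * A.y + B * A.z + C * A.x)
      = ((B / 2) ^ 2 * A.x + 2 * (B / 2) * P * A.z + P ^ 2 * A.y) + (P * C - B ^ 2 / 4) * A.x := by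
    ring
  have h4 : 0 ≤ (P * C - B ^ 2 / 4) * A.x := mul_nonneg (by linarith) h2
  have h5 : 0 ≤ P * (P * A.y + B * A.z + C * A.x) := by rw [h3]; linarith
  exact nonneg_of_mul_nonneg_right h5 hP

/-- Completing the square in `U0`. -/
lemma tensorU {n r : ℝ} {A : Atoms} (hA : A.Realizable n) (hn : 2 ≤ n) (hr : 0 < r) (G H : ℝ) :
    (1 - 1 / r) * A.UU - r / 4 * (1 - 1 / n) * (G ^ 2 * A.x ^ 2 + 2 * (G * H) * (A.x * A.z) + H ^ 2 * (A.x * A.y))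
      ≤ A.UU + G * A.UXX + H * A.UXY := by
  have h := hA.gram_nonneg ![1, 0, r * G / 2, r * H / 2, 0]
  simp only [Fin.sum_univ_five, Atoms.gram] at h
  simp at h
  have hn0 : (0 : ℝ) < n := by linarith
  have hz : A.z ^ 2 ≤ A.x * A.y := hA.cs
  have hb : (A.x * A.y + A.z ^ 2) / 2 - A.z ^ 2 / n ≤ (1 - 1 / n) * (A.x * A.y) := by
    have : (1 - 1 / n) * (A.x * A.y) - ((A.x * A.y + A.z ^ 2) / 2 - A.z ^ 2 / n)
        = (1 / 2 - 1 / n) * (A.x * A.y - A.z ^ 2) := by ring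
    have h1 : 0 ≤ 1 / 2 - 1 / n := by
      have : 1 / n ≤ 1 / 2 := one_div_le_one_div_of_le (by norm_num) hn
      linarith
    nlinarith [mul_nonneg h1 (sub_nonneg.mpr hz)]
  have hH : (r * H / 2) ^ 2 * ((A.x * A.y + A.z ^ 2) / 2 - A.z ^ 2 / n)
      ≤ (r * H / 2) ^ 2 * ((1 - 1 / n) * (A.x * A.y)) :=
    mul_le_mul_of_nonneg_left hb (sq_nonneg _)
  set k : ℝ := 1 - 1 / n with hk
  have h0 : (1 - n⁻¹) = k := by rw [hk, one_div]
  rw [h0] at h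
  have h' : 0 ≤ A.UU + r * G * A.UXX + r * H * A.UXY + (r * G / 2) ^ 2 * (k * A.x ^ 2)
      + 2 * (r * G / 2) * (r * H / 2) * (k * (A.x * A.z))
      + (r * H / 2) ^ 2 * (k * (A.x * A.y)) := by
    linarith [h, hH]
  have hr' : 1 / r * r = 1 := by field_simp
  have h2 := mul_nonneg (by positivity : (0 : ℝ) ≤ 1 / r) h'
  have e : 1 / r * (A.UU + r * G * A.UXX + r * H * A.UXY + (r * G / 2) ^ 2 * (k * A.x ^ 2)
      + 2 * (r * G / 2) * (r * H / 2) * (k * (A.x * A.z))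
      + (r * H / 2) ^ 2 * (k * (A.x * A.y)))
      = 1 / r * A.UU + G * A.UXX + H * A.UXY + r / 4 * k * (G ^ 2 * A.x ^ 2
        + 2 * (G * H) * (A.x * A.z) + H ^ 2 * (A.x * A.y)) := by
    field_simp
    ring
  rw [e] at h2
  nlinarith [h2]

/-- Completing the square in `V0`. -/
lemma tensorV {n r : ℝ} {A : Atoms} (hA : A.Realizable n) (hn : 2 ≤ n) (hr : 0 < r) (G H : ℝ) :
    (1 - 1 / r) * A.VV - r / 4 * (1 - 1 / n) * (G ^ 2 * A.y ^ 2 + 2 * (G * H) * (A.y * A.z) + H ^ 2 * (A.x * A.y))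
      ≤ A.VV + G * A.VYY + H * A.VXY := by
  have h := hA.gram_nonneg ![0, 1, 0, r * H / 2, r * G / 2]
  simp only [Fin.sum_univ_five, Atoms.gram] at h
  simp at h
  have hn0 : (0 : ℝ) < n := by linarith
  have hz : A.z ^ 2 ≤ A.x * A.y := hA.cs
  have hb : (A.x * A.y + A.z ^ 2) / 2 - A.z ^ 2 / n ≤ (1 - 1 / n) * (A.x * A.y) := by
    have : (1 - 1 / n) * (A.x * A.y) - ((A.x * A.y + A.z ^ 2) / 2 - A.z ^ 2 / n)
        = (1 / 2 - 1 / n) * (A.x * A.y - A.z ^ 2) := by ring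
    have h1 : 0 ≤ 1 / 2 - 1 / n := by
      have : 1 / n ≤ 1 / 2 := one_div_le_one_div_of_le (by norm_num) hn
      linarith
    nlinarith [mul_nonneg h1 (sub_nonneg.mpr hz)]
  have hH : (r * H / 2) ^ 2 * ((A.x * A.y + A.z ^ 2) / 2 - A.z ^ 2 / n)
      ≤ (r * H / 2) ^ 2 * ((1 - 1 / n) * (A.x * A.y)) :=
    mul_le_mul_of_nonneg_left hb (sq_nonneg _)
  set k : ℝ := 1 - 1 / n with hk
  have h0 : (1 - n⁻¹) = k := by rw [hk, one_div]
  rw [h0] at h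
  have h' : 0 ≤ A.VV + r * G * A.VYY + r * H * A.VXY + (r * G / 2) ^ 2 * (k * A.y ^ 2)
      + 2 * (r * G / 2) * (r * H / 2) * (k * (A.y * A.z))
      + (r * H / 2) ^ 2 * (k * (A.x * A.y)) := by
    linarith [h, hH]
  have h2 := mul_nonneg (by positivity : (0 : ℝ) ≤ 1 / r) h'
  have e : 1 / r * (A.VV + r * G * A.VYY + r * H * A.VXY + (r * G / 2) ^ 2 * (k * A.y ^ 2)
      + 2 * (r * G / 2) * (r * H / 2) * (k * (A.y * A.z))
      + (r * H / 2) ^ 2 * (k * (A.x * A.y)))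
      = 1 / r * A.VV + G * A.VYY + H * A.VXY + r / 4 * k * (G ^ 2 * A.y ^ 2
        + 2 * (G * H) * (A.y * A.z) + H ^ 2 * (A.x * A.y)) := by
    field_simp
    ring
  rw [e] at h2
  nlinarith [h2]

/-- The expansion of `Q` for the field of this file. -/
lemma Q_coefS (n p q a g E1 F1 E2 F2 h1 h2 : ℝ) (A : Atoms) :
    Atoms.Q n p q a a (coefS g E1 F1 E2 F2 h1 h2) A =
      (A.UU + (a - 2 - 2 * E1) * A.UXX + (a - 2 * F1) * A.UXY)
      + g * (A.VV + (a - 2 - 2 * E2) * A.VYY + (a - 2 * F2) * A.VXY)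
      + (-E1 * ((a - 3) * A.x ^ 2 + a * (A.x * A.z)) - F1 * ((a - 2) * (A.x * A.z) + (a - 1) * (A.x * A.y)))
      + g * (-F2 * ((a - 2) * (A.y * A.z) + (a - 1) * (A.x * A.y)) - E2 * ((a - 3) * A.y ^ 2 + a * (A.y * A.z)))
      + A.s * (((1 + 2 / n) * E1 + h1 * (2 - a)) * A.x
          + ((2 / n) * F1 - (1 - 1 / n) * p - h1 * (a + p)) * A.z + (g * F2) * A.y)
      + A.t * (F1 * A.x + (g * ((2 / n) * F2 - (1 - 1 / n) * q) - h2 * (a + q)) * A.z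
          + (g * ((1 + 2 / n) * E2) + h2 * (2 - a)) * A.y)
      + h1 * A.s ^ 2 + h2 * A.t ^ 2 := by
  simp [Atoms.Q, Atoms.D, coefS, Fin.sum_univ_succ]
  ring

/-- **The closed form certificate.** -/
theorem cert_of_params {n p q a g E1 F1 E2 F2 h1 h2 r μ c0 : ℝ} (hn : 2 ≤ n) (hr : 0 < r)
    (hg : 0 < g) (hF1 : 0 < F1)
    (h1A : 0 < pA (r * (1 - 1 / n)) a E1 - μ)
    (h1B : pB (r * (1 - 1 / n)) a E1 F1 ^ 2
      ≤ 4 * (pA (r * (1 - 1 / n)) a E1 - μ) * pC (r * (1 - 1 / n)) a F1)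
    (h2A : 0 < pA (r * (1 - 1 / n)) a E2 - μ)
    (h2B : pB (r * (1 - 1 / n)) a E2 F2 ^ 2
      ≤ 4 * (pA (r * (1 - 1 / n)) a E2 - μ) * pC (r * (1 - 1 / n)) a F2)
    (hL1A : 0 < (1 + 2 / n) * E1 + h1 * (2 - a))
    (hL1 : ((2 / n) * F1 - (1 - 1 / n) * p - h1 * (a + p)) ^ 2
      ≤ 4 * ((1 + 2 / n) * E1 + h1 * (2 - a)) * (g * F2))
    (hL2 : (g * ((2 / n) * F2 - (1 - 1 / n) * q) - h2 * (a + q)) ^ 2
      ≤ 4 * F1 * (g * ((1 + 2 / n) * E2) + h2 * (2 - a)))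
    (hc1 : c0 ≤ 1 - 1 / r) (hc2 : c0 ≤ g * (1 - 1 / r)) (hc3 : c0 ≤ μ) (hc4 : c0 ≤ g * μ)
    (hc5 : c0 ≤ h1) (hc6 : c0 ≤ h2) :
    Cert n p q a a (coefS g E1 F1 E2 F2 h1 h2) c0 := by
  intro A hA
  rw [Q_coefS]
  have hx := hA.x_nonneg
  have hy := hA.y_nonneg
  have hs := hA.s_pos
  have ht := hA.t_pos
  have hUU : 0 ≤ A.UU := by
    have := hA.gram_nonneg ![1, 0, 0, 0, 0]
    simpa [Fin.sum_univ_five, Atoms.gram] using this
  have hVV : 0 ≤ A.VV := by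
    have := hA.gram_nonneg ![0, 1, 0, 0, 0]
    simpa [Fin.sum_univ_five, Atoms.gram] using this
  have tU := tensorU hA hn hr (a - 2 - 2 * E1) (a - 2 * F1)
  have tV := tensorV hA hn hr (a - 2 - 2 * E2) (a - 2 * F2)
  have f1 := form_nn hA h1A h1B
  have f2 := form_nn hA h2A h2B
  have b1 := form_nn hA hL1A hL1
  have b2 := form_nn hA hF1 hL2
  have f2s := form_nn' hA h2A h2B
  have f1' := mul_nonneg hx f1
  have f2' := mul_nonneg (mul_nonneg hg.le hy) f2s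
  have b1' := mul_nonneg hs.le b1
  have b2' := mul_nonneg ht.le b2
  have tV' := mul_le_mul_of_nonneg_left tV hg.le
  have c1 := mul_le_mul_of_nonneg_right hc1 hUU
  have c2 := mul_le_mul_of_nonneg_right hc2 hVV
  have c3 := mul_le_mul_of_nonneg_right hc3 (sq_nonneg A.x)
  have c4 := mul_le_mul_of_nonneg_right hc4 (sq_nonneg A.y)
  have c5 := mul_le_mul_of_nonneg_right hc5 (sq_nonneg A.s)
  have c6 := mul_le_mul_of_nonneg_right hc6 (sq_nonneg A.t)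
  simp only [pA, pB, pC] at f1' f2'
  simp only [Atoms.EE]
  linarith [f1', f2', b1', b2', tU, tV', c1, c2, c3, c4, c5, c6]


open Filter Topology in
/-- **Strict version**: the slack parameters `r`, `μ`, `h1`, `h2`, `c0` can be found as soon as the
conditions hold strictly at `r = 1`, `μ = h1 = h2 = 0`. -/
theorem exists_cert_of_strict {n p q a g E1 F1 E2 F2 : ℝ} (hn : 2 ≤ n) (hg : 0 < g)
    (hE1 : 0 < E1) (hF1 : 0 < F1)
    (h1A : 0 < pA (1 - 1 / n) a E1)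
    (h1B : pB (1 - 1 / n) a E1 F1 ^ 2 < 4 * pA (1 - 1 / n) a E1 * pC (1 - 1 / n) a F1)
    (h2A : 0 < pA (1 - 1 / n) a E2)
    (h2B : pB (1 - 1 / n) a E2 F2 ^ 2 < 4 * pA (1 - 1 / n) a E2 * pC (1 - 1 / n) a F2)
    (hL1 : ((2 / n) * F1 - (1 - 1 / n) * p) ^ 2 < 4 * ((1 + 2 / n) * E1) * (g * F2))
    (hL2 : (g * ((2 / n) * F2 - (1 - 1 / n) * q)) ^ 2 < 4 * F1 * (g * ((1 + 2 / n) * E2))) :
    ∃ h c0 : ℝ, 0 < c0 ∧ Cert n p q a a (coefS g E1 F1 E2 F2 h h) c0 := by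
  have hn0 : (0 : ℝ) < n := by linarith
  have ev1 : ∀ᶠ ε in 𝓝 (0 : ℝ), 0 < pA ((1 + ε) * (1 - 1 / n)) a E1 - ε := by
    apply ContinuousAt.eventually_lt
    · exact continuousAt_const
    · unfold pA; fun_prop
    · simpa using h1A
  have ev2 : ∀ᶠ ε in 𝓝 (0 : ℝ), pB ((1 + ε) * (1 - 1 / n)) a E1 F1 ^ 2
      < 4 * (pA ((1 + ε) * (1 - 1 / n)) a E1 - ε) * pC ((1 + ε) * (1 - 1 / n)) a F1 := by
    apply ContinuousAt.eventually_lt
    · unfold pB; fun_prop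
    · unfold pA pC; fun_prop
    · simpa using h1B
  have ev3 : ∀ᶠ ε in 𝓝 (0 : ℝ), 0 < pA ((1 + ε) * (1 - 1 / n)) a E2 - ε := by
    apply ContinuousAt.eventually_lt
    · exact continuousAt_const
    · unfold pA; fun_prop
    · simpa using h2A
  have ev4 : ∀ᶠ ε in 𝓝 (0 : ℝ), pB ((1 + ε) * (1 - 1 / n)) a E2 F2 ^ 2
      < 4 * (pA ((1 + ε) * (1 - 1 / n)) a E2 - ε) * pC ((1 + ε) * (1 - 1 / n)) a F2 := by
    apply ContinuousAt.eventually_lt
    · unfold pB; fun_prop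
    · unfold pA pC; fun_prop
    · simpa using h2B
  have ev5 : ∀ᶠ ε in 𝓝 (0 : ℝ), 0 < (1 + 2 / n) * E1 + ε * (2 - a) := by
    apply ContinuousAt.eventually_lt
    · exact continuousAt_const
    · fun_prop
    · have : 0 < 1 + 2 / n := by positivity
      simpa using mul_pos this hE1
  have ev6 : ∀ᶠ ε in 𝓝 (0 : ℝ), ((2 / n) * F1 - (1 - 1 / n) * p - ε * (a + p)) ^ 2
      < 4 * ((1 + 2 / n) * E1 + ε * (2 - a)) * (g * F2) := by
    apply ContinuousAt.eventually_lt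
    · fun_prop
    · fun_prop
    · simpa using hL1
  have ev7 : ∀ᶠ ε in 𝓝 (0 : ℝ), (g * ((2 / n) * F2 - (1 - 1 / n) * q) - ε * (a + q)) ^ 2
      < 4 * F1 * (g * ((1 + 2 / n) * E2) + ε * (2 - a)) := by
    apply ContinuousAt.eventually_lt
    · fun_prop
    · fun_prop
    · simpa using hL2
  have ev := ev1.and (ev2.and (ev3.and (ev4.and (ev5.and (ev6.and ev7)))))
  have ev' : ∀ᶠ ε in 𝓝[>] (0 : ℝ), 0 < ε := eventually_mem_nhdsWithin
  obtain ⟨ε, ⟨h1, h2, h3, h4, h5, h6, h7⟩, hε⟩ :=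
    ((ev.filter_mono nhdsWithin_le_nhds).and ev').exists
  have hr : (0 : ℝ) < 1 + ε := by linarith
  have hrr : 0 < 1 - 1 / (1 + ε) := by
    have : 1 / (1 + ε) < 1 := by
      rw [div_lt_one hr]; linarith
    linarith
  refine ⟨ε, min (1 - 1 / (1 + ε)) (min (g * (1 - 1 / (1 + ε))) (min ε (g * ε))), ?_, ?_⟩
  · exact lt_min hrr (lt_min (mul_pos hg hrr) (lt_min hε (mul_pos hg hε)))
  · refine cert_of_params (r := 1 + ε) (μ := ε) hn hr hg hF1 h1 h2.le h3 h4.le h5 h6.le h7.le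
      (min_le_left _ _) ?_ ?_ ?_ ?_ ?_
    · exact (min_le_right _ _).trans (min_le_left _ _)
    · exact (min_le_right _ _).trans ((min_le_right _ _).trans (min_le_left _ _))
    · exact (min_le_right _ _).trans ((min_le_right _ _).trans (min_le_right _ _))
    · exact (min_le_right _ _).trans ((min_le_right _ _).trans (min_le_left _ _))
    · exact (min_le_right _ _).trans ((min_le_right _ _).trans (min_le_left _ _))

/-- The interval for `g`. -/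
lemma exists_g {A2 B2 P U : ℝ} (hA : 0 ≤ A2) (hB : 0 ≤ B2) (hP : 0 < P) (_hU : 0 < U)
    (h : A2 * B2 < P * U) : ∃ g : ℝ, 0 < g ∧ A2 < P * g ∧ g * B2 < U := by
  have hL0 : 0 ≤ A2 / P := div_nonneg hA hP.le
  have hLP : A2 / P * P = A2 := by field_simp
  have hLB : A2 / P * B2 < U := by
    rw [div_mul_eq_mul_div, div_lt_iff₀ hP]
    linarith
  have hB1 : 0 < 2 * (B2 + 1) := by positivity
  refine ⟨A2 / P + (U - A2 / P * B2) / (2 * (B2 + 1)), ?_, ?_, ?_⟩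
  · have : 0 < (U - A2 / P * B2) / (2 * (B2 + 1)) := div_pos (by linarith) hB1
    linarith
  · have : 0 < (U - A2 / P * B2) / (2 * (B2 + 1)) := div_pos (by linarith) hB1
    have h2 := mul_pos hP this
    nlinarith
  · have h1 : (U - A2 / P * B2) / (2 * (B2 + 1)) * B2 < U - A2 / P * B2 := by
      rw [div_mul_eq_mul_div, div_lt_iff₀ hB1]
      have : 0 < U - A2 / P * B2 := by linarith
      nlinarith
    nlinarith

/-- **The criterion, with `g` eliminated.** -/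
theorem exists_cert_of_product {n p q a E1 F1 E2 F2 : ℝ} (hn : 2 ≤ n)
    (hE1 : 0 < E1) (hF1 : 0 < F1) (hE2 : 0 < E2) (hF2 : 0 < F2)
    (h1A : 0 < pA (1 - 1 / n) a E1)
    (h1B : pB (1 - 1 / n) a E1 F1 ^ 2 < 4 * pA (1 - 1 / n) a E1 * pC (1 - 1 / n) a F1)
    (h2A : 0 < pA (1 - 1 / n) a E2)
    (h2B : pB (1 - 1 / n) a E2 F2 ^ 2 < 4 * pA (1 - 1 / n) a E2 * pC (1 - 1 / n) a F2)
    (hLL : ((1 - 1 / n) * p - (2 / n) * F1) ^ 2 * ((1 - 1 / n) * q - (2 / n) * F2) ^ 2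
      < 16 * (1 + 2 / n) ^ 2 * (E1 * F1 * E2 * F2)) :
    ∃ g h c0 : ℝ, 0 < g ∧ 0 < c0 ∧ Cert n p q a a (coefS g E1 F1 E2 F2 h h) c0 := by
  have hn0 : (0 : ℝ) < n := by linarith
  have hθ : 0 < 1 + 2 / n := by positivity
  obtain ⟨g, hg, hg1, hg2⟩ := exists_g (A2 := ((1 - 1 / n) * p - (2 / n) * F1) ^ 2)
    (B2 := ((1 - 1 / n) * q - (2 / n) * F2) ^ 2) (P := 4 * (1 + 2 / n) * E1 * F2)
    (U := 4 * (1 + 2 / n) * F1 * E2) (sq_nonneg _) (sq_nonneg _) (by positivity) (by positivity)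
    (by
      have : 4 * (1 + 2 / n) * E1 * F2 * (4 * (1 + 2 / n) * F1 * E2)
          = 16 * (1 + 2 / n) ^ 2 * (E1 * F1 * E2 * F2) := by ring
      rw [this]; exact hLL)
  obtain ⟨h, c0, hc0, hc⟩ := exists_cert_of_strict (g := g) (p := p) (q := q) hn hg hE1 hF1
    h1A h1B h2A h2B
    (by
      have e : ((2 / n) * F1 - (1 - 1 / n) * p) ^ 2 = ((1 - 1 / n) * p - (2 / n) * F1) ^ 2 := by ring
      have e2 : 4 * ((1 + 2 / n) * E1) * (g * F2) = 4 * (1 + 2 / n) * E1 * F2 * g := by ring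
      rw [e, e2]; exact hg1)
    (by
      have e : (g * ((2 / n) * F2 - (1 - 1 / n) * q)) ^ 2
          = g * (g * ((1 - 1 / n) * q - (2 / n) * F2) ^ 2) := by ring
      have e2 : 4 * F1 * (g * ((1 + 2 / n) * E2)) = g * (4 * (1 + 2 / n) * F1 * E2) := by ring
      rw [e, e2]; exact mul_lt_mul_of_pos_left hg2 hg)
  exact ⟨g, h, c0, hg, hc0, hc⟩

end Vale.Agent.Lib.P100
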