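import Vale.Agent.Lib.P100.WAtoms
import Vale.Agent.Lib.P100.Sigma

/-!
# P100: the system with equal negative weights `A = B < 0`: pure algebra.

`W = u^a v^b |x|^c`. The fields `U0 X, V0 Y, x X, x Y, y X, y Y, s X, t Y, w ξ, x ξ, y ξ`.
With `n' = 2 (n + A) / (2 + A)` and `c = -A` the pointwise inequality is the inequality of
`Sigma.lean` in the (real) dimension `n'`.
-/

noncomputable section

namespace Vale.Agent.Lib.P100

/-- The atoms of a weighted jet with the two extra contractions `U0(X,ξ)`, `V0(Y,ξ)`. -/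
structure NAtoms extends WAtoms where
  uxz : ℝ
  vyz : ℝ

/-- The virtual atoms in the effective dimension: the contractions of `U0 - Aw Sy(X,ξ)` and of
`V0 - Aw Sy(Y,ξ)`, with the extra scalar component `γ (s + mm (X·ξ))`, `γ (t + mm (Y·ξ))`. The value
`uv` of the mixed product `UV` does not enter the fields we use and is left free. -/
def NAtoms.Phi (n Aw γ mm uv : ℝ) (A : NAtoms) : Atoms where
  UU := A.UU - 2 * Aw * A.uxz + Aw ^ 2 * ((A.x * A.w + A.tx ^ 2) / 2 - A.tx ^ 2 / n)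
    + γ * (A.s + mm * A.tx) ^ 2
  UV := uv
  VV := A.VV - 2 * Aw * A.vyz + Aw ^ 2 * ((A.y * A.w + A.ty ^ 2) / 2 - A.ty ^ 2 / n)
    + γ * (A.t + mm * A.ty) ^ 2
  UXX := A.UXX - Aw * ((1 - 1 / n) * (A.x * A.tx)) - γ * (A.s + mm * A.tx) * A.x
  UXY := A.UXY - Aw * ((A.x * A.ty + A.z * A.tx) / 2 - A.tx * A.z / n) - γ * (A.s + mm * A.tx) * A.z
  UYY := A.UYY - Aw * (A.z * A.ty - A.tx * A.y / n) - γ * (A.s + mm * A.tx) * A.y
  VXX := A.VXX - Aw * (A.z * A.tx - A.ty * A.x / n) - γ * (A.t + mm * A.ty) * A.x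
  VXY := A.VXY - Aw * ((A.z * A.ty + A.y * A.tx) / 2 - A.ty * A.z / n) - γ * (A.t + mm * A.ty) * A.z
  VYY := A.VYY - Aw * ((1 - 1 / n) * (A.y * A.ty)) - γ * (A.t + mm * A.ty) * A.y
  x := A.x
  z := A.z
  y := A.y
  s := A.s
  t := A.t

/-- What is known about the atoms of an actual jet. -/
structure NAtoms.Realizable (n : ℝ) (A : NAtoms) : Prop where
  base : WAtoms.Realizable n A.toWAtoms
  tensU : ∀ G H I : ℝ, 0 ≤ A.UU + G * A.UXX + H * A.UXY + I * A.uxz + (1 - 1 / n) / 4 * A.x *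
    (G ^ 2 * A.x + H ^ 2 * A.y + I ^ 2 * A.w + 2 * G * H * A.z + 2 * G * I * A.tx + 2 * H * I * A.ty)
  tensV : ∀ G H I : ℝ, 0 ≤ A.VV + G * A.VYY + H * A.VXY + I * A.vyz + (1 - 1 / n) / 4 * A.y *
    (G ^ 2 * A.y + H ^ 2 * A.x + I ^ 2 * A.w + 2 * G * H * A.z + 2 * G * I * A.ty + 2 * H * I * A.tx)
  csX : ∀ l1 l2 l3 : ℝ, (l1 * A.x + l2 * A.z + l3 * A.tx) ^ 2 ≤ A.x *
    (l1 ^ 2 * A.x + l2 ^ 2 * A.y + l3 ^ 2 * A.w + 2 * l1 * l2 * A.z + 2 * l1 * l3 * A.tx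
      + 2 * l2 * l3 * A.ty)
  csY : ∀ l1 l2 l3 : ℝ, (l1 * A.y + l2 * A.z + l3 * A.ty) ^ 2 ≤ A.y *
    (l1 ^ 2 * A.y + l2 ^ 2 * A.x + l3 ^ 2 * A.w + 2 * l1 * l2 * A.z + 2 * l1 * l3 * A.ty
      + 2 * l2 * l3 * A.tx)
  phiGram : ∀ Aw γ mm m' : ℝ, 0 ≤ γ → 1 / m' = 1 / n - γ → ∃ uv : ℝ, ∀ l : Fin 5 → ℝ,
    0 ≤ ∑ i, ∑ j, l i * l j * Atoms.gram m' (NAtoms.Phi n Aw γ mm uv A) i j

/-- The polynomials: `div (W F_k) / W` for `W = u^a v^a |x|^c` and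
`F = U0 X, V0 Y, x X, x Y, y X, y Y, s X, t Y, w ξ, x ξ, y ξ`. -/
def NAtoms.DD (n p q a c Aw : ℝ) (A : NAtoms) : Fin 11 → ℝ :=
  let k := 1 - 1 / n
  ![A.UU + (a - 2) * A.UXX + a * A.UXY + c * A.uxz - k * p * (A.s * A.z) - k * Aw * (A.s * A.tx),
    A.VV + (a - 2) * A.VYY + a * A.VXY + c * A.vyz - k * q * (A.t * A.z) - k * Aw * (A.t * A.ty),
    2 * A.UXX + (a - 3) * A.x ^ 2 + a * (A.x * A.z) + c * (A.x * A.tx) - (1 + 2 / n) * (A.s * A.x),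
    2 * A.UXY + (a - 2) * (A.x * A.z) + (a - 1) * (A.x * A.y) + c * (A.x * A.ty)
      - (2 / n) * (A.s * A.z) - A.t * A.x,
    2 * A.VXY + (a - 2) * (A.y * A.z) + (a - 1) * (A.x * A.y) + c * (A.y * A.tx)
      - (2 / n) * (A.t * A.z) - A.s * A.y,
    2 * A.VYY + (a - 3) * A.y ^ 2 + a * (A.y * A.z) + c * (A.y * A.ty) - (1 + 2 / n) * (A.t * A.y),
    (a - 2) * (A.s * A.x) + (a + p) * (A.s * A.z) - A.s ^ 2 + (Aw + c) * (A.s * A.tx),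
    (a - 2) * (A.t * A.y) + (a + q) * (A.t * A.z) - A.t ^ 2 + (Aw + c) * (A.t * A.ty),
    A.w * (a * A.tx + a * A.ty) + (n - 4 + c) * A.w ^ 2,
    2 * A.uxz + (a - 2) * (A.x * A.tx) + a * (A.x * A.ty) + (n - 2 + c) * (A.x * A.w)
      - (2 / n) * (A.s * A.tx),
    2 * A.vyz + (a - 2) * (A.y * A.ty) + a * (A.y * A.tx) + (n - 2 + c) * (A.y * A.w)
      - (2 / n) * (A.t * A.ty)]

/-- The coefficient vector of the field. -/
def coefN (g E1 F1 E2 F2 Γ η β : ℝ) : Fin 11 → ℝ :=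
  ![1, g, -E1, -F1, -(g * F2), -(g * E2), -Γ, -(g * Γ), η, β, g * β]

/-- The expansion of the divergence. -/
lemma QN_expand (n p q a c Aw g E1 F1 E2 F2 Γ η β : ℝ) (A : NAtoms) :
    ∑ k, coefN g E1 F1 E2 F2 Γ η β k * NAtoms.DD n p q a c Aw A k =
      (A.UU + (a - 2 - 2 * E1) * A.UXX + (a - 2 * F1) * A.UXY + (c + 2 * β) * A.uxz)
      + g * (A.VV + (a - 2 - 2 * E2) * A.VYY + (a - 2 * F2) * A.VXY + (c + 2 * β) * A.vyz)
      + A.x * (E1 * (3 - a) * A.x + ((2 - a) * F1 - a * E1) * A.z + (1 - a) * F1 * A.y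
          + (-(E1 * c) + β * (a - 2)) * A.tx + (-(F1 * c) + β * a) * A.ty
          + β * (n - 2 + c) * A.w)
      + g * (A.y * (E2 * (3 - a) * A.y + ((2 - a) * F2 - a * E2) * A.z + (1 - a) * F2 * A.x
          + (-(E2 * c) + β * (a - 2)) * A.ty + (-(F2 * c) + β * a) * A.tx
          + β * (n - 2 + c) * A.w))
      + A.s * (((1 + 2 / n) * E1 - Γ * (a - 2)) * A.x
          + ((2 / n) * F1 - (1 - 1 / n) * p - Γ * (a + p)) * A.z + g * F2 * A.y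
          + (-(1 - 1 / n) * Aw - (2 / n) * β - Γ * (Aw + c)) * A.tx)
      + A.t * (F1 * A.x
          + g * ((2 / n) * F2 - (1 - 1 / n) * q - Γ * (a + q)) * A.z
          + g * ((1 + 2 / n) * E2 - Γ * (a - 2)) * A.y
          + g * (-(1 - 1 / n) * Aw - (2 / n) * β - Γ * (Aw + c)) * A.ty)
      + Γ * A.s ^ 2 + g * Γ * A.t ^ 2
      + η * (A.w * (a * A.tx + a * A.ty) + (n - 4 + c) * A.w ^ 2) := by
  simp [coefN, NAtoms.DD, Fin.sum_univ_succ]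
  ring

/-- Completing the square with slack `r`. -/
lemma tensU_slack {n r : ℝ} {A : NAtoms} (hA : A.Realizable n) (hr : 0 < r) (G H I : ℝ) :
    (1 - 1 / r) * A.UU - r * (1 - 1 / n) / 4 * A.x *
      (G ^ 2 * A.x + H ^ 2 * A.y + I ^ 2 * A.w + 2 * G * H * A.z + 2 * G * I * A.tx
        + 2 * H * I * A.ty) ≤ A.UU + G * A.UXX + H * A.UXY + I * A.uxz := by
  have h := hA.tensU (r * G) (r * H) (r * I)
  have h2 := mul_nonneg (by positivity : (0 : ℝ) ≤ 1 / r) h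
  have e : 1 / r * (A.UU + r * G * A.UXX + r * H * A.UXY + r * I * A.uxz + (1 - 1 / n) / 4 * A.x *
      ((r * G) ^ 2 * A.x + (r * H) ^ 2 * A.y + (r * I) ^ 2 * A.w + 2 * (r * G) * (r * H) * A.z
        + 2 * (r * G) * (r * I) * A.tx + 2 * (r * H) * (r * I) * A.ty))
      = 1 / r * A.UU + G * A.UXX + H * A.UXY + I * A.uxz + r * (1 - 1 / n) / 4 * A.x *
        (G ^ 2 * A.x + H ^ 2 * A.y + I ^ 2 * A.w + 2 * G * H * A.z + 2 * G * I * A.tx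
          + 2 * H * I * A.ty) := by
    field_simp
  rw [e] at h2
  nlinarith [h2]

lemma tensV_slack {n r : ℝ} {A : NAtoms} (hA : A.Realizable n) (hr : 0 < r) (G H I : ℝ) :
    (1 - 1 / r) * A.VV - r * (1 - 1 / n) / 4 * A.y *
      (G ^ 2 * A.y + H ^ 2 * A.x + I ^ 2 * A.w + 2 * G * H * A.z + 2 * G * I * A.ty
        + 2 * H * I * A.tx) ≤ A.VV + G * A.VYY + H * A.VXY + I * A.vyz := by
  have h := hA.tensV (r * G) (r * H) (r * I)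
  have h2 := mul_nonneg (by positivity : (0 : ℝ) ≤ 1 / r) h
  have e : 1 / r * (A.VV + r * G * A.VYY + r * H * A.VXY + r * I * A.vyz + (1 - 1 / n) / 4 * A.y *
      ((r * G) ^ 2 * A.y + (r * H) ^ 2 * A.x + (r * I) ^ 2 * A.w + 2 * (r * G) * (r * H) * A.z
        + 2 * (r * G) * (r * I) * A.ty + 2 * (r * H) * (r * I) * A.tx))
      = 1 / r * A.VV + G * A.VYY + H * A.VXY + I * A.vyz + r * (1 - 1 / n) / 4 * A.y *
        (G ^ 2 * A.y + H ^ 2 * A.x + I ^ 2 * A.w + 2 * G * H * A.z + 2 * G * I * A.ty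
          + 2 * H * I * A.tx) := by
    field_simp
  rw [e] at h2
  nlinarith [h2]

/-- The square in `s`: `γ s² + 2 γ s ℓ + γ x |V|² ≥ 0`. -/
lemma square_s {x s ell Vn γ : ℝ} (hγ : 0 ≤ γ) (hcs : ell ^ 2 ≤ x * Vn) :
    0 ≤ γ * s ^ 2 + 2 * γ * s * ell + γ * (x * Vn) := by
  have h1 : γ * s ^ 2 + 2 * γ * s * ell + γ * (x * Vn)
      = γ * (s + ell) ^ 2 + γ * (x * Vn - ell ^ 2) := by ring
  rw [h1]
  have h2 := mul_nonneg hγ (sq_nonneg (s + ell))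
  have h3 := mul_nonneg hγ (sub_nonneg.mpr hcs)
  linarith

/-- The cross terms of `w ξ`. -/
lemma wxi_lower {a e x y w tx ty : ℝ} (ha : 0 ≤ a) (he : 0 < e - a) (hx : 0 ≤ x) (hy : 0 ≤ y)
    (hw : 0 ≤ w) (h1 : -(2 * tx) ≤ x + w) (h2 : -(2 * ty) ≤ y + w) :
    (e - a) / 2 * w ^ 2 - a ^ 2 / (4 * (e - a)) * (x ^ 2 + y ^ 2)
      ≤ w * (a * tx + a * ty) + e * w ^ 2 := by
  set d := e - a with hd
  have hed : e = d + a := by rw [hd]; ring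
  have h3 : -(a * w * (2 * tx)) ≤ a * w * (x + w) :=
    by nlinarith [mul_nonneg ha hw, mul_le_mul_of_nonneg_left h1 (mul_nonneg ha hw)]
  have h4 : -(a * w * (2 * ty)) ≤ a * w * (y + w) :=
    by nlinarith [mul_nonneg ha hw, mul_le_mul_of_nonneg_left h2 (mul_nonneg ha hw)]
  have hee : d / 4 * w ^ 2 + a ^ 2 / (4 * d) * x ^ 2 - a / 2 * (x * w) ≥ 0 := by
    have : d / 4 * w ^ 2 + a ^ 2 / (4 * d) * x ^ 2 - a / 2 * (x * w)
        = (d * w - a * x) ^ 2 / (4 * d) := by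
      field_simp
      ring
    rw [this]
    positivity
  have hee2 : d / 4 * w ^ 2 + a ^ 2 / (4 * d) * y ^ 2 - a / 2 * (y * w) ≥ 0 := by
    have : d / 4 * w ^ 2 + a ^ 2 / (4 * d) * y ^ 2 - a / 2 * (y * w)
        = (d * w - a * y) ^ 2 / (4 * d) := by
      field_simp
      ring
    rw [this]
    positivity
  rw [hed]
  nlinarith

lemma tx_lower {n : ℝ} {A : NAtoms} (hA : A.Realizable n) : -(2 * A.tx) ≤ A.x + A.w := by
  have h := hA.base.form3 1 0 1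
  linarith only [h]

lemma ty_lower {n : ℝ} {A : NAtoms} (hA : A.Realizable n) : -(2 * A.ty) ≤ A.y + A.w := by
  have h := hA.base.form3 0 1 1
  linarith only [h]

/-- **The certificate for the negative weight system, in terms of its parameters.** -/
theorem ncert_of_params {n p q a c Aw g E1 F1 E2 F2 Γ η β r γ m v1 v2 v1' v2' μ c0 : ℝ}
    (hr : 0 < r) (hg : 0 < g) (hγ : 0 ≤ γ) (hF1 : 0 < F1) (hη : 0 ≤ η)
    (ha : 0 ≤ a) (he : 0 < n - 4 + c - a)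
    (hm : -(1 - 1 / n) * Aw - (2 / n) * β - Γ * (Aw + c) = 2 * γ * m)
    (hv1 : -(E1 * c) + β * (a - 2) - (r * (1 - 1 / n)) / 2 * ((a - 2 - 2 * E1) * (c + 2 * β))
      = 2 * γ * m * v1)
    (hv2 : -(F1 * c) + β * a - (r * (1 - 1 / n)) / 2 * ((a - 2 * F1) * (c + 2 * β))
      = 2 * γ * m * v2)
    (hv1' : -(E2 * c) + β * (a - 2) - (r * (1 - 1 / n)) / 2 * ((a - 2 - 2 * E2) * (c + 2 * β))
      = 2 * γ * m * v1')
    (hv2' : -(F2 * c) + β * a - (r * (1 - 1 / n)) / 2 * ((a - 2 * F2) * (c + 2 * β))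
      = 2 * γ * m * v2')
    (hF : γ * m ^ 2 ≤ β * (n - 2 + c) - (r * (1 - 1 / n)) / 4 * (c + 2 * β) ^ 2)
    (h1A : 0 < pA (r * (1 - 1 / n)) a E1 - γ * v1 ^ 2 - μ)
    (h1B : (pB (r * (1 - 1 / n)) a E1 F1 - 2 * γ * v1 * v2) ^ 2
      ≤ 4 * (pA (r * (1 - 1 / n)) a E1 - γ * v1 ^ 2 - μ) * (pC (r * (1 - 1 / n)) a F1 - γ * v2 ^ 2))
    (h2A : 0 < pA (r * (1 - 1 / n)) a E2 - γ * v1' ^ 2 - μ)
    (h2B : (pB (r * (1 - 1 / n)) a E2 F2 - 2 * γ * v1' * v2') ^ 2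
      ≤ 4 * (pA (r * (1 - 1 / n)) a E2 - γ * v1' ^ 2 - μ) * (pC (r * (1 - 1 / n)) a F2 - γ * v2' ^ 2))
    (hL1A : 0 < (1 + 2 / n) * E1 - Γ * (a - 2) - 2 * γ * v1)
    (hL1 : ((2 / n) * F1 - (1 - 1 / n) * p - Γ * (a + p) - 2 * γ * v2) ^ 2
      ≤ 4 * ((1 + 2 / n) * E1 - Γ * (a - 2) - 2 * γ * v1) * (g * F2))
    (hL2 : (g * ((2 / n) * F2 - (1 - 1 / n) * q - Γ * (a + q) - 2 * γ * v2')) ^ 2
      ≤ 4 * F1 * (g * ((1 + 2 / n) * E2 - Γ * (a - 2) - 2 * γ * v1')))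
    (hc1 : c0 ≤ 1 - 1 / r) (hc2 : c0 ≤ g * (1 - 1 / r))
    (hc3 : c0 + η * (a ^ 2 / (4 * (n - 4 + c - a))) ≤ μ)
    (hc4 : c0 + η * (a ^ 2 / (4 * (n - 4 + c - a))) ≤ g * μ)
    (hc5 : c0 ≤ Γ - γ) (hc6 : c0 ≤ g * (Γ - γ))
    (hc7 : c0 ≤ η * ((n - 4 + c - a) / 2)) (A : NAtoms) (hA : A.Realizable n) :
    c0 * A.EW ≤ ∑ k, coefN g E1 F1 E2 F2 Γ η β k * NAtoms.DD n p q a c Aw A k := by
  rw [QN_expand]
  have hb := hA.base.base
  have hx := hb.x_nonneg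
  have hy := hb.y_nonneg
  have hs := hb.s_pos
  have ht := hb.t_pos
  have hw := hA.base.w_nonneg
  have hUU : 0 ≤ A.UU := by
    have := hb.gram_nonneg ![1, 0, 0, 0, 0]
    simpa [Fin.sum_univ_five, Atoms.gram] using this
  have hVV : 0 ≤ A.VV := by
    have := hb.gram_nonneg ![0, 1, 0, 0, 0]
    simpa [Fin.sum_univ_five, Atoms.gram] using this
  have tU := tensU_slack hA hr (a - 2 - 2 * E1) (a - 2 * F1) (c + 2 * β)
  have tV := mul_le_mul_of_nonneg_left (tensV_slack hA hr (a - 2 - 2 * E2) (a - 2 * F2) (c + 2 * β)) hg.le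
  have sq1 := square_s (s := A.s) hγ (hA.csX v1 v2 m)
  have sq2 := mul_nonneg hg.le (square_s (s := A.t) hγ (hA.csY v1' v2' m))
  have f1 := mul_nonneg hx (form_nn hb h1A h1B)
  have f2 := mul_nonneg (mul_nonneg hg.le hy) (form_nn' hb h2A h2B)
  have b1 := mul_nonneg hs.le (form_nn hb hL1A hL1)
  have b2 := mul_nonneg ht.le (form_nn hb hF1 hL2)
  have hFF := sub_nonneg.mpr hF
  have F1' := mul_nonneg (mul_nonneg hx hw) hFF
  have F2' := mul_nonneg (mul_nonneg (mul_nonneg hg.le hy) hw) hFF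
  have e1 := congrArg (fun w => w * (A.s * A.tx)) hm
  have e2 := congrArg (fun w => w * (g * (A.t * A.ty))) hm
  have e3 := congrArg (fun w => w * (A.x * A.tx)) hv1
  have e4 := congrArg (fun w => w * (A.x * A.ty)) hv2
  have e5 := congrArg (fun w => w * (g * (A.y * A.ty))) hv1'
  have e6 := congrArg (fun w => w * (g * (A.y * A.tx))) hv2'
  -- the `w ξ` part
  have wl := wxi_lower (e := n - 4 + c) (x := A.x) (y := A.y) ha he hx hy hw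
    (tx_lower hA) (ty_lower hA)
  have wl2 := mul_le_mul_of_nonneg_left wl hη
  have c1 := mul_le_mul_of_nonneg_right hc1 hUU
  have c2 := mul_le_mul_of_nonneg_right hc2 hVV
  have c3 := mul_le_mul_of_nonneg_right hc3 (sq_nonneg A.x)
  have c4 := mul_le_mul_of_nonneg_right hc4 (sq_nonneg A.y)
  have c5 := mul_le_mul_of_nonneg_right hc5 (sq_nonneg A.s)
  have c6 := mul_le_mul_of_nonneg_right hc6 (sq_nonneg A.t)
  have c7 := mul_le_mul_of_nonneg_right hc7 (sq_nonneg A.w)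
  simp only [pA, pB, pC] at f1 f2 b1 b2
  have eEW : A.EW = A.UU + A.VV + A.x ^ 2 + A.y ^ 2 + A.s ^ 2 + A.t ^ 2 + A.w ^ 2 := rfl
  rw [eEW]
  linear_combination tU + tV + sq1 + sq2 + f1 + f2 + b1 + b2 + F1' + F2' + wl2 + c1 + c2 + c3 + c4
    + c5 + c6 + c7 - e1 - e2 - e3 - e4 - e5 - e6


open Filter Topology in
lemma ev_block {a E F K0 : ℝ} {Kt : ℝ → ℝ} (hc : Continuous Kt) (h0 : Kt 0 = K0)
    (hA : 0 < pA K0 a E) (hB : pB K0 a E F ^ 2 < 4 * pA K0 a E * pC K0 a F) :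
    ∀ᶠ δ in 𝓝 (0 : ℝ), 0 < pA (Kt δ) a E - δ ∧
      pB (Kt δ) a E F ^ 2 < 4 * (pA (Kt δ) a E - δ) * pC (Kt δ) a F := by
  have c1 : Continuous fun δ => pA (Kt δ) a E - δ := by unfold pA; fun_prop
  have c2 : Continuous fun δ => pB (Kt δ) a E F ^ 2 := by unfold pB; fun_prop
  have c3 : Continuous fun δ => 4 * (pA (Kt δ) a E - δ) * pC (Kt δ) a F := by
    unfold pA pC; fun_prop
  have e1 : ∀ᶠ δ in 𝓝 (0 : ℝ), 0 < pA (Kt δ) a E - δ := by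
    apply ContinuousAt.eventually_lt continuousAt_const c1.continuousAt
    simpa [h0] using hA
  have e2 : ∀ᶠ δ in 𝓝 (0 : ℝ), pB (Kt δ) a E F ^ 2 < 4 * (pA (Kt δ) a E - δ) * pC (Kt δ) a F := by
    apply ContinuousAt.eventually_lt c2.continuousAt c3.continuousAt
    simpa [h0] using hB
  exact e1.and e2

/-- The square defect: `pF = γ m²` up to the chosen slack. -/
lemma hF_defect {Aw S κ γ0 δ n : ℝ} (hγ0 : 0 < γ0) (hκ : 0 < κ) (hδ : 0 < δ) (hδ1 : δ ≤ 1)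
    (hbase : Aw ^ 2 * S ^ 2 / (4 * γ0) = (-Aw / 2) * (n - 2 + -Aw) - κ * Aw ^ 2) :
    (γ0 + δ) * (-Aw * S / (2 * (γ0 + δ))) ^ 2 ≤ (-Aw / 2) * (n - 2 + -Aw)
      - ((1 + S ^ 2 / (4 * γ0 * (γ0 + 1) * κ) * δ) * κ) / 4 * (-Aw + 2 * (-Aw / 2)) ^ 2 := by
  have h0 : 0 < γ0 + δ := by linarith
  have h1 : 0 < γ0 + 1 := by linarith
  have e1 : (γ0 + δ) * (-Aw * S / (2 * (γ0 + δ))) ^ 2 = Aw ^ 2 * S ^ 2 / 4 * (1 / (γ0 + δ)) := by
    field_simp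
    ring
  have e2 : (-Aw / 2) * (n - 2 + -Aw)
      - ((1 + S ^ 2 / (4 * γ0 * (γ0 + 1) * κ) * δ) * κ) / 4 * (-Aw + 2 * (-Aw / 2)) ^ 2
      = Aw ^ 2 * S ^ 2 / 4 * (1 / γ0 - δ / (γ0 * (γ0 + 1))) := by
    have e3 : (-Aw / 2) * (n - 2 + -Aw) = Aw ^ 2 * S ^ 2 / (4 * γ0) + κ * Aw ^ 2 := by
      rw [hbase]; ring
    rw [e3]
    field_simp
    ring
  rw [e1, e2]
  refine mul_le_mul_of_nonneg_left ?_ (by positivity)
  have e4 : 1 / γ0 - δ / (γ0 * (γ0 + 1)) - 1 / (γ0 + δ) = δ * (1 - δ) / (γ0 * (γ0 + 1) * (γ0 + δ)) := by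
    field_simp
    ring
  have e5 : 0 ≤ δ * (1 - δ) / (γ0 * (γ0 + 1) * (γ0 + δ)) :=
    div_nonneg (mul_nonneg hδ.le (by linarith)) (by positivity)
  linarith

lemma pA_shift (K γ τ a E : ℝ) :
    pA K a E - γ * (τ * (a - 2 - 2 * E)) ^ 2 = pA (K + 4 * γ * τ ^ 2) a E := by
  simp only [pA]; ring

lemma pB_shift (K γ τ a E F : ℝ) :
    pB K a E F - 2 * γ * (τ * (a - 2 - 2 * E)) * (τ * (a - 2 * F)) = pB (K + 4 * γ * τ ^ 2) a E F := by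
  simp only [pB]; ring

lemma pC_shift (K γ τ a F : ℝ) :
    pC K a F - γ * (τ * (a - 2 * F)) ^ 2 = pC (K + 4 * γ * τ ^ 2) a F := by
  simp only [pC]; ring

/-- The choice of the numbers, once `δ` is small. -/
lemma ncert_at {n p q a Aw g E1 F1 E2 F2 γ0 κ S ρ τ δ : ℝ}
    (hn : 5 ≤ n) (hA : Aw < 0) (ha0 : 0 ≤ a) (ha1 : a ≤ 1) (hg : 0 < g) (hF1 : 0 < F1)
    (hκd : κ = 1 - 1 / n) (hSd : S = 1 - 2 / n) (hκ : 0 < κ) (hS : 0 < S) (hγ0pos : 0 < γ0)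
    (hbase : Aw ^ 2 * S ^ 2 / (4 * γ0) = (-Aw / 2) * (n - 2 + -Aw) - κ * Aw ^ 2)
    (hρ : ρ = S ^ 2 / (4 * γ0 * (γ0 + 1) * κ)) (hτ : τ = (1 / 2 - (1 + ρ * δ) * κ) / S)
    (hδ : 0 < δ) (hδ1 : δ ≤ 1)
    (h11 : 0 < pA ((1 + ρ * δ) * κ + 4 * (γ0 + δ) * τ ^ 2) a E1 - δ)
    (h12 : pB ((1 + ρ * δ) * κ + 4 * (γ0 + δ) * τ ^ 2) a E1 F1 ^ 2
      < 4 * (pA ((1 + ρ * δ) * κ + 4 * (γ0 + δ) * τ ^ 2) a E1 - δ)
        * pC ((1 + ρ * δ) * κ + 4 * (γ0 + δ) * τ ^ 2) a F1)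
    (h21 : 0 < pA ((1 + ρ * δ) * κ + 4 * (γ0 + δ) * τ ^ 2) a E2 - δ)
    (h22 : pB ((1 + ρ * δ) * κ + 4 * (γ0 + δ) * τ ^ 2) a E2 F2 ^ 2
      < 4 * (pA ((1 + ρ * δ) * κ + 4 * (γ0 + δ) * τ ^ 2) a E2 - δ)
        * pC ((1 + ρ * δ) * κ + 4 * (γ0 + δ) * τ ^ 2) a F2)
    (h5 : 0 < (1 + 2 / n) * E1 - (γ0 + 2 * δ) * (a - 2) - 2 * (γ0 + δ) * (τ * (a - 2 - 2 * E1)))
    (h6 : ((2 / n) * F1 - (1 - 1 / n) * p - (γ0 + 2 * δ) * (a + p) - 2 * (γ0 + δ) * (τ * (a - 2 * F1))) ^ 2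
      < 4 * ((1 + 2 / n) * E1 - (γ0 + 2 * δ) * (a - 2) - 2 * (γ0 + δ) * (τ * (a - 2 - 2 * E1)))
        * (g * F2))
    (h7 : (g * ((2 / n) * F2 - (1 - 1 / n) * q - (γ0 + 2 * δ) * (a + q)
        - 2 * (γ0 + δ) * (τ * (a - 2 * F2)))) ^ 2
      < 4 * F1 * (g * ((1 + 2 / n) * E2 - (γ0 + 2 * δ) * (a - 2)
        - 2 * (γ0 + δ) * (τ * (a - 2 - 2 * E2))))) :
    ∃ Γ η c0 : ℝ, 0 < c0 ∧ ∀ A : NAtoms, A.Realizable n →
      c0 * A.EW ≤ ∑ k, coefN g E1 F1 E2 F2 Γ η (-Aw / 2) k * NAtoms.DD n p q a (-Aw) Aw A k := by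
  have hn0 : (0 : ℝ) < n := by linarith
  have hρ0 : 0 < ρ := by rw [hρ]; positivity
  have hr : 0 < 1 + ρ * δ := by positivity
  have hr1 : 0 < 1 - 1 / (1 + ρ * δ) := by
    have h0 := mul_pos hρ0 hδ
    have : 1 / (1 + ρ * δ) < 1 := by
      rw [div_lt_one hr]
      linarith only [h0]
    linarith only [this]
  have hd : 0 < n - 4 + -Aw - a := by linarith
  obtain ⟨lam, hlam⟩ : ∃ lam : ℝ, lam = a ^ 2 / (4 * (n - 4 + -Aw - a)) := ⟨_, rfl⟩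
  have hlam0 : 0 ≤ lam := by rw [hlam]; positivity
  obtain ⟨b, hb⟩ : ∃ b : ℝ, b = min δ (g * δ) / 2 := ⟨_, rfl⟩
  have hb0 : 0 < b := by
    rw [hb]
    have := lt_min hδ (mul_pos hg hδ)
    linarith only [this]
  have hb1 : b + b ≤ δ := by
    have := min_le_left δ (g * δ)
    rw [hb]; linarith only [this]
  have hb2 : b + b ≤ g * δ := by
    have := min_le_right δ (g * δ)
    rw [hb]; linarith only [this]
  obtain ⟨η, hη⟩ : ∃ η : ℝ, η = b / (lam + 1) := ⟨_, rfl⟩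
  have hη0 : 0 < η := by rw [hη]; positivity
  have hηlam : η * lam ≤ b := by
    rw [hη, div_mul_eq_mul_div, div_le_iff₀ (by linarith only [hlam0])]
    nlinarith only [hb0, hlam0, mul_nonneg hb0.le hlam0]
  have hcd : 0 < η * ((n - 4 + -Aw - a) / 2) := by positivity
  obtain ⟨c0, hc0⟩ : ∃ c0 : ℝ, c0 = min (1 - 1 / (1 + ρ * δ)) (min (g * (1 - 1 / (1 + ρ * δ))) (min b
      (min (g * δ) (min δ (η * ((n - 4 + -Aw - a) / 2)))))) := ⟨_, rfl⟩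
  have hc1 : c0 ≤ 1 - 1 / (1 + ρ * δ) := by rw [hc0]; exact min_le_left _ _
  have hc2 : c0 ≤ min (g * (1 - 1 / (1 + ρ * δ))) (min b
      (min (g * δ) (min δ (η * ((n - 4 + -Aw - a) / 2))))) := by rw [hc0]; exact min_le_right _ _
  have hc3 := hc2.trans (min_le_right _ _)
  have hc4 := hc3.trans (min_le_right _ _)
  have hc5 := hc4.trans (min_le_right _ _)
  have c2 := hc2.trans (min_le_left _ _)
  have cb := hc3.trans (min_le_left _ _)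
  have cg := hc4.trans (min_le_left _ _)
  have cd := hc5.trans (min_le_left _ _)
  have cη := hc5.trans (min_le_right _ _)
  have hc0pos : 0 < c0 := by
    rw [hc0]
    exact lt_min hr1 (lt_min (mul_pos hg hr1) (lt_min hb0 (lt_min (mul_pos hg hδ) (lt_min hδ hcd))))
  refine ⟨γ0 + 2 * δ, η, c0, hc0pos, ?_⟩
  intro A hAr
  have hγpos : 0 < γ0 + δ := by linarith only [hγ0pos, hδ]
  have hSτ : S * τ = 1 / 2 - (1 + ρ * δ) * κ := by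
    rw [hτ]
    field_simp
  have hm2 : 2 * (γ0 + δ) * (-Aw * S / (2 * (γ0 + δ))) = -Aw * S := by
    field_simp
  refine ncert_of_params (r := 1 + ρ * δ) (γ := γ0 + δ) (m := -Aw * S / (2 * (γ0 + δ)))
    (v1 := τ * (a - 2 - 2 * E1)) (v2 := τ * (a - 2 * F1))
    (v1' := τ * (a - 2 - 2 * E2)) (v2' := τ * (a - 2 * F2)) (μ := δ)
    hr hg hγpos.le hF1 hη0.le ha0 hd ?_ ?_ ?_ ?_ ?_ ?_ ?_ ?_ ?_ ?_ h5 ?_ ?_ hc1 c2 ?_ ?_ ?_ ?_ cη A hAr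
  · -- hm
    rw [hm2, hSd]
    field_simp
    ring
  · rw [← hκd, hm2]
    linear_combination (Aw * (a - 2 - 2 * E1)) * hSτ
  · rw [← hκd, hm2]
    linear_combination (Aw * (a - 2 * F1)) * hSτ
  · rw [← hκd, hm2]
    linear_combination (Aw * (a - 2 - 2 * E2)) * hSτ
  · rw [← hκd, hm2]
    linear_combination (Aw * (a - 2 * F2)) * hSτ
  · rw [← hκd]
    rw [hρ]
    exact hF_defect hγ0pos hκ hδ hδ1 hbase
  · rw [← hκd, pA_shift]; exact h11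
  · rw [← hκd, pA_shift, pB_shift, pC_shift]; exact h12.le
  · rw [← hκd, pA_shift]; exact h21
  · rw [← hκd, pA_shift, pB_shift, pC_shift]; exact h22.le
  · exact h6.le
  · exact h7.le
  · rw [← hlam]; linarith only [cb, hηlam, hb1]
  · rw [← hlam]; linarith only [cb, hηlam, hb2]
  · linarith only [cd]
  · have e : g * (γ0 + 2 * δ - (γ0 + δ)) = g * δ := by ring
    rw [e]; exact cg

open Filter Topology in
/-- **The certificate exists as soon as the closed form conditions hold strictly in the effective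
dimension `n' = 2 (n + A) / (2 + A)`.** -/
theorem exists_ncert {n n' p q a Aw g E1 F1 E2 F2 : ℝ} (hn : 5 ≤ n) (hA : Aw < 0) (hA2 : -2 < Aw)
    (hn' : n' = 2 * (n + Aw) / (2 + Aw)) (ha0 : 0 ≤ a) (ha1 : a ≤ 1) (hg : 0 < g)
    (hE1 : 0 < E1) (hE2 : 0 < E2) (hF1 : 0 < F1)
    (h1A : 0 < pA (1 - 1 / n') a E1)
    (h1B : pB (1 - 1 / n') a E1 F1 ^ 2 < 4 * pA (1 - 1 / n') a E1 * pC (1 - 1 / n') a F1)
    (h2A : 0 < pA (1 - 1 / n') a E2)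
    (h2B : pB (1 - 1 / n') a E2 F2 ^ 2 < 4 * pA (1 - 1 / n') a E2 * pC (1 - 1 / n') a F2)
    (hL1 : ((2 / n') * F1 - (1 - 1 / n') * p) ^ 2 < 4 * ((1 + 2 / n') * E1) * (g * F2))
    (hL2 : (g * ((2 / n') * F2 - (1 - 1 / n') * q)) ^ 2 < 4 * F1 * (g * ((1 + 2 / n') * E2))) :
    ∃ Γ η c0 : ℝ, 0 < c0 ∧ ∀ A : NAtoms, A.Realizable n →
      c0 * A.EW ≤ ∑ k, coefN g E1 F1 E2 F2 Γ η (-Aw / 2) k * NAtoms.DD n p q a (-Aw) Aw A k := by
  have hn0 : (0 : ℝ) < n := by linarith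
  have h2w : 0 < 2 + Aw := by linarith
  have hnA : 0 < n + Aw := by linarith
  have hn'0 : 0 < n' := by rw [hn']; positivity
  have hn2 : 0 < n - 2 := by linarith
  obtain ⟨γ0, hγ0⟩ : ∃ γ0 : ℝ, γ0 = 1 / n - 1 / n' := ⟨_, rfl⟩
  have hγ0f : γ0 = -Aw * (n - 2) / (2 * n * (n + Aw)) := by
    rw [hγ0, hn']
    field_simp
    ring
  have hγ0pos : 0 < γ0 := by
    rw [hγ0f]
    exact div_pos (mul_pos (neg_pos.2 hA) hn2) (by positivity)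
  obtain ⟨κ, hκd⟩ : ∃ κ : ℝ, κ = 1 - 1 / n := ⟨_, rfl⟩
  have hκ : 0 < κ := by
    rw [hκd]
    have : 1 / n < 1 := by rw [div_lt_one hn0]; linarith
    linarith
  obtain ⟨S, hSd⟩ : ∃ S : ℝ, S = 1 - 2 / n := ⟨_, rfl⟩
  have hS : 0 < S := by
    rw [hSd]
    have : 2 / n < 1 := by rw [div_lt_one hn0]; linarith
    linarith
  have hbase : Aw ^ 2 * S ^ 2 / (4 * γ0) = (-Aw / 2) * (n - 2 + -Aw) - κ * Aw ^ 2 := by
    have hA0 : Aw ≠ 0 := hA.ne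
    have hn20 : n - 2 ≠ 0 := hn2.ne'
    rw [hγ0f, hSd, hκd]
    field_simp
    ring
  obtain ⟨ρ, hρ⟩ : ∃ ρ : ℝ, ρ = S ^ 2 / (4 * γ0 * (γ0 + 1) * κ) := ⟨_, rfl⟩
  -- the functions of `δ`
  obtain ⟨τ, hτ⟩ : ∃ τ : ℝ → ℝ, τ = fun δ => (1 / 2 - (1 + ρ * δ) * κ) / S := ⟨_, rfl⟩
  obtain ⟨Kt, hKt⟩ : ∃ Kt : ℝ → ℝ, Kt = fun δ => (1 + ρ * δ) * κ + 4 * (γ0 + δ) * τ δ ^ 2 := ⟨_, rfl⟩
  have hτc : Continuous τ := by rw [hτ]; fun_prop
  have hKtc : Continuous Kt := by rw [hKt]; fun_prop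
  have hτ0 : τ 0 = -1 / 2 := by
    rw [hτ]
    simp only [mul_zero, add_zero, one_mul]
    rw [hκd, hSd]
    have : 1 - 2 / n ≠ 0 := by rw [← hSd]; exact hS.ne'
    field_simp
    ring
  have hKt0 : Kt 0 = 1 - 1 / n' := by
    rw [hKt]
    simp only [mul_zero, add_zero, one_mul]
    rw [hτ0, hκd, hγ0]
    ring
  have b1 := ev_block hKtc hKt0 h1A h1B
  have b2 := ev_block hKtc hKt0 h2A h2B
  -- the linear forms
  have ev5 : ∀ᶠ δ in 𝓝 (0 : ℝ),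
      0 < (1 + 2 / n) * E1 - (γ0 + 2 * δ) * (a - 2) - 2 * (γ0 + δ) * (τ δ * (a - 2 - 2 * E1)) := by
    apply ContinuousAt.eventually_lt continuousAt_const
    · exact Continuous.continuousAt (by fun_prop)
    · simp only [mul_zero, add_zero]
      rw [hτ0]
      have e : (1 + 2 / n) * E1 - γ0 * (a - 2) - 2 * γ0 * (-1 / 2 * (a - 2 - 2 * E1))
          = (1 + 2 / n') * E1 := by rw [hγ0]; ring
      rw [e]
      positivity
  have ev6 : ∀ᶠ δ in 𝓝 (0 : ℝ),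
      ((2 / n) * F1 - (1 - 1 / n) * p - (γ0 + 2 * δ) * (a + p) - 2 * (γ0 + δ) * (τ δ * (a - 2 * F1))) ^ 2
      < 4 * ((1 + 2 / n) * E1 - (γ0 + 2 * δ) * (a - 2) - 2 * (γ0 + δ) * (τ δ * (a - 2 - 2 * E1)))
        * (g * F2) := by
    apply ContinuousAt.eventually_lt
    · exact Continuous.continuousAt (by fun_prop)
    · exact Continuous.continuousAt (by fun_prop)
    · simp only [mul_zero, add_zero]
      rw [hτ0]
      have e : (1 + 2 / n) * E1 - γ0 * (a - 2) - 2 * γ0 * (-1 / 2 * (a - 2 - 2 * E1))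
          = (1 + 2 / n') * E1 := by rw [hγ0]; ring
      have e2 : (2 / n) * F1 - (1 - 1 / n) * p - γ0 * (a + p) - 2 * γ0 * (-1 / 2 * (a - 2 * F1))
          = (2 / n') * F1 - (1 - 1 / n') * p := by rw [hγ0]; ring
      rw [e, e2]
      exact hL1
  have ev7 : ∀ᶠ δ in 𝓝 (0 : ℝ),
      (g * ((2 / n) * F2 - (1 - 1 / n) * q - (γ0 + 2 * δ) * (a + q)
        - 2 * (γ0 + δ) * (τ δ * (a - 2 * F2)))) ^ 2
      < 4 * F1 * (g * ((1 + 2 / n) * E2 - (γ0 + 2 * δ) * (a - 2)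
        - 2 * (γ0 + δ) * (τ δ * (a - 2 - 2 * E2)))) := by
    apply ContinuousAt.eventually_lt
    · exact Continuous.continuousAt (by fun_prop)
    · exact Continuous.continuousAt (by fun_prop)
    · simp only [mul_zero, add_zero]
      rw [hτ0]
      have e : (1 + 2 / n) * E2 - γ0 * (a - 2) - 2 * γ0 * (-1 / 2 * (a - 2 - 2 * E2))
          = (1 + 2 / n') * E2 := by rw [hγ0]; ring
      have e2 : (2 / n) * F2 - (1 - 1 / n) * q - γ0 * (a + q) - 2 * γ0 * (-1 / 2 * (a - 2 * F2))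
          = (2 / n') * F2 - (1 - 1 / n') * q := by rw [hγ0]; ring
      rw [e, e2]
      exact hL2
  have ev1 : ∀ᶠ δ in 𝓝 (0 : ℝ), δ ≤ 1 := ge_mem_nhds (by norm_num)
  have ev := b1.and (b2.and (ev5.and (ev6.and (ev7.and ev1))))
  have ev' : ∀ᶠ δ in 𝓝[>] (0 : ℝ), 0 < δ := eventually_mem_nhdsWithin
  obtain ⟨δ, ⟨⟨h11, h12⟩, ⟨h21, h22⟩, h5, h6, h7, hδ1⟩, hδ⟩ :=
    ((ev.filter_mono nhdsWithin_le_nhds).and ev').exists
  have hKtδ : Kt δ = (1 + ρ * δ) * κ + 4 * (γ0 + δ) * τ δ ^ 2 := by rw [hKt]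
  rw [hKtδ] at h11 h12 h21 h22
  have hτδ : τ δ = (1 / 2 - (1 + ρ * δ) * κ) / S := by rw [hτ]
  exact ncert_at hn hA ha0 ha1 hg hF1 hκd hSd hκ hS hγ0pos hbase hρ hτδ hδ hδ1 h11 h12 h21 h22
    h5 h6 h7

end Vale.Agent.Lib.P100
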