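import Vale.Agent.Lib.P100.WFinal
import Vale.Agent.Lib.P100.CutOffPoly
import Vale.Agent.Lib.P100.NegAlg

/-!
# P100: the system with equal negative weights, analytic part.

`W = |x|^c u^a v^a`, the eleven fields `U0 X, V0 Y, x X, x Y, y X, y Y, s X, t Y, w ξ, x ξ, y ξ`.
-/

open scoped BigOperators
open MeasureTheory Filter Topology Set Metric Module InnerProductSpace Laplacian

set_option linter.unusedSimpArgs false

noncomputable section

namespace Vale.Agent.Lib.P100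

variable {n : ℕ}

/-- The atoms of a weighted jet at the level of numbers, with the two extra contractions. -/
def natomsOf (U V : Fin n → Fin n → ℝ) (X Y Z : Fin n → ℝ) (s t : ℝ) : NAtoms :=
  { toWAtoms := watomsOf U V X Y Z s t, uxz := BB U X Z, vyz := BB V Y Z }

theorem BB_comb3 (U : Fin n → Fin n → ℝ) (P X Y Z : Fin n → ℝ) (G H I : ℝ) :
    BB U P (fun i => G * X i + H * Y i + I * Z i)
      = G * BB U P X + H * BB U P Y + I * BB U P Z := by
  simp only [BB, Finset.mul_sum, ← Finset.sum_add_distrib]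
  refine Finset.sum_congr rfl fun i _ => Finset.sum_congr rfl fun j _ => ?_
  ring

theorem dot_comb3 (P X Y Z : Fin n → ℝ) (G H I : ℝ) :
    dot P (fun i => G * X i + H * Y i + I * Z i) = G * dot P X + H * dot P Y + I * dot P Z := by
  simp only [dot, Finset.mul_sum, ← Finset.sum_add_distrib]
  refine Finset.sum_congr rfl fun i _ => ?_
  ring

theorem dot_self_comb3 (X Y Z : Fin n → ℝ) (G H I : ℝ) :
    dot (fun i => G * X i + H * Y i + I * Z i) (fun i => G * X i + H * Y i + I * Z i)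
      = G ^ 2 * dot X X + H ^ 2 * dot Y Y + I ^ 2 * dot Z Z + 2 * G * H * dot X Y
        + 2 * G * I * dot X Z + 2 * H * I * dot Y Z := by
  simp only [dot, Finset.mul_sum, ← Finset.sum_add_distrib]
  refine Finset.sum_congr rfl fun i _ => ?_
  ring

theorem dot_cs (X R : Fin n → ℝ) : dot X R ^ 2 ≤ dot X X * dot R R := by
  have := Finset.sum_mul_sq_le_sq_mul_sq Finset.univ X R
  simpa only [dot, pow_two] using this

theorem tens_ineq (hn : (2 : ℝ) ≤ n) {U : Fin n → Fin n → ℝ} (hU : ∀ i j, U i j = U j i)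
    (tU : ∑ i, U i i = 0) (X R : Fin n → ℝ) :
    0 ≤ ip U U + BB U X R + (1 - 1 / (n : ℝ)) / 4 * (dot X X * dot R R) := by
  have hn0 : (n : ℝ) ≠ 0 := by linarith
  have h1 : 0 ≤ ip (fun i j => U i j + 1 / 2 * Sy X R i j) (fun i j => U i j + 1 / 2 * Sy X R i j) :=
    ip_nonneg _
  have h2 : ip (fun i j => U i j + 1 / 2 * Sy X R i j) (fun i j => U i j + 1 / 2 * Sy X R i j)
      = ip U U + ip U (Sy X R) + 1 / 4 * ip (Sy X R) (Sy X R) := by
    simp only [ip, Finset.mul_sum, ← Finset.sum_add_distrib]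
    refine Finset.sum_congr rfl fun i _ => Finset.sum_congr rfl fun j _ => ?_
    ring
  rw [h2, ip_Sy U hU tU X R, ip_Sy_Sy hn0] at h1
  have h3 := dot_cs X R
  have h4 : dot R X = dot X R := dot_comm R X
  rw [h4] at h1
  have h5 : 0 ≤ 1 / 2 - 1 / (n : ℝ) := by
    have : 1 / (n : ℝ) ≤ 1 / 2 := one_div_le_one_div_of_le (by norm_num) hn
    linarith
  have h6 := mul_nonneg h5 (sub_nonneg.mpr h3)
  have e : (1 - 1 / (n : ℝ)) / 4 * (dot X X * dot R R) - 1 / 4 * ((dot X X * dot R R + dot X R * dot X R) / 2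
      - dot X R * dot X R / n) = 1 / 4 * ((1 / 2 - 1 / (n : ℝ)) * (dot X X * dot R R - dot X R ^ 2)) := by
    ring
  linarith

/-- The Gram matrix of the virtual atoms. -/
theorem phi_gram {U V : Fin n → Fin n → ℝ} {X Y Z : Fin n → ℝ} {s t : ℝ}
    (hn0 : (n : ℝ) ≠ 0) (hU : ∀ i j, U i j = U j i)
    (hV : ∀ i j, V i j = V j i) (tU : ∑ i, U i i = 0) (tV : ∑ i, V i i = 0)
    (Aw γ mm m' : ℝ) (hγ : 0 ≤ γ) (hm : 1 / m' = 1 / (n : ℝ) - γ) :
    ∃ uv : ℝ, ∀ l : Fin 5 → ℝ, 0 ≤ ∑ i, ∑ j, l i * l j *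
      Atoms.gram m' (NAtoms.Phi n Aw γ mm uv (natomsOf U V X Y Z s t)) i j := by
  obtain ⟨Uh, hUh⟩ : ∃ Uh : Fin n → Fin n → ℝ, Uh = fun i j => U i j - Aw * Sy X Z i j := ⟨_, rfl⟩
  obtain ⟨Vh, hVh⟩ : ∃ Vh : Fin n → Fin n → ℝ, Vh = fun i j => V i j - Aw * Sy Y Z i j := ⟨_, rfl⟩
  have hsub : ∀ (W P Q R : Fin n → Fin n → ℝ), P = (fun i j => W i j - Aw * Q i j) →
      ip P R = ip W R - Aw * ip Q R := by
    intro W P Q R hP
    rw [hP]
    simp only [ip, Finset.mul_sum, ← Finset.sum_sub_distrib]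
    refine Finset.sum_congr rfl fun i _ => Finset.sum_congr rfl fun j _ => ?_
    ring
  have hsub2 : ∀ (W Q : Fin n → Fin n → ℝ),
      ip (fun i j => W i j - Aw * Q i j) (fun i j => W i j - Aw * Q i j)
        = ip W W - 2 * Aw * ip W Q + Aw ^ 2 * ip Q Q := by
    intro W Q
    simp only [ip, Finset.mul_sum, ← Finset.sum_sub_distrib, ← Finset.sum_add_distrib]
    refine Finset.sum_congr rfl fun i _ => Finset.sum_congr rfl fun j _ => ?_
    ring
  have dZX : dot Z X = dot X Z := dot_comm Z X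
  have dZY : dot Z Y = dot Y Z := dot_comm Z Y
  have dYX : dot Y X = dot X Y := dot_comm Y X
  -- the entries
  have e00 : ip Uh Uh = ip U U - 2 * Aw * BB U X Z + Aw ^ 2 *
      ((dot X X * dot Z Z + dot X Z ^ 2) / 2 - dot X Z ^ 2 / n) := by
    rw [hUh, hsub2, ip_Sy U hU tU X Z, ip_Sy_Sy hn0, dZX]
    ring
  have e11 : ip Vh Vh = ip V V - 2 * Aw * BB V Y Z + Aw ^ 2 *
      ((dot Y Y * dot Z Z + dot Y Z ^ 2) / 2 - dot Y Z ^ 2 / n) := by
    rw [hVh, hsub2, ip_Sy V hV tV Y Z, ip_Sy_Sy hn0, dZY]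
    ring
  have e02 : ip Uh (Sy X X) = BB U X X - Aw * ((1 - 1 / (n : ℝ)) * (dot X X * dot X Z)) := by
    rw [hsub U Uh (Sy X Z) _ hUh, ip_Sy U hU tU X X, ip_Sy_Sy hn0, dZX]
    ring
  have e03 : ip Uh (Sy X Y) = BB U X Y - Aw * ((dot X X * dot Y Z + dot X Y * dot X Z) / 2
      - dot X Z * dot X Y / n) := by
    rw [hsub U Uh (Sy X Z) _ hUh, ip_Sy U hU tU X Y, ip_Sy_Sy hn0, dZX, dZY]
  have e04 : ip Uh (Sy Y Y) = BB U Y Y - Aw * (dot X Y * dot Y Z - dot X Z * dot Y Y / n) := by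
    rw [hsub U Uh (Sy X Z) _ hUh, ip_Sy U hU tU Y Y, ip_Sy_Sy hn0, dZY]
    ring
  have e12 : ip Vh (Sy X X) = BB V X X - Aw * (dot X Y * dot X Z - dot Y Z * dot X X / n) := by
    rw [hsub V Vh (Sy Y Z) _ hVh, ip_Sy V hV tV X X, ip_Sy_Sy hn0, dZX, dYX]
    ring
  have e13 : ip Vh (Sy X Y) = BB V X Y - Aw * ((dot X Y * dot Y Z + dot Y Y * dot X Z) / 2
      - dot Y Z * dot X Y / n) := by
    rw [hsub V Vh (Sy Y Z) _ hVh, ip_Sy V hV tV X Y, ip_Sy_Sy hn0, dZX, dZY, dYX]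
  have e14 : ip Vh (Sy Y Y) = BB V Y Y - Aw * ((1 - 1 / (n : ℝ)) * (dot Y Y * dot Y Z)) := by
    rw [hsub V Vh (Sy Y Z) _ hVh, ip_Sy V hV tV Y Y, ip_Sy_Sy hn0, dZY]
    ring
  have s22 : ip (Sy X X) (Sy X X) = (1 - 1 / (n : ℝ)) * dot X X ^ 2 := by
    rw [ip_Sy_Sy hn0]; ring
  have s23 : ip (Sy X X) (Sy X Y) = (1 - 1 / (n : ℝ)) * (dot X X * dot X Y) := by
    rw [ip_Sy_Sy hn0]; ring
  have s24 : ip (Sy X X) (Sy Y Y) = dot X Y ^ 2 - dot X X * dot Y Y / n := by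
    rw [ip_Sy_Sy hn0]; ring
  have s33 : ip (Sy X Y) (Sy X Y) = (dot X X * dot Y Y + dot X Y ^ 2) / 2 - dot X Y ^ 2 / n := by
    rw [ip_Sy_Sy hn0, dYX]; ring
  have s34 : ip (Sy X Y) (Sy Y Y) = (1 - 1 / (n : ℝ)) * (dot Y Y * dot X Y) := by
    rw [ip_Sy_Sy hn0]; ring
  have s44 : ip (Sy Y Y) (Sy Y Y) = (1 - 1 / (n : ℝ)) * dot Y Y ^ 2 := by
    rw [ip_Sy_Sy hn0]; ring
  obtain ⟨w0, hw0⟩ : ∃ w0 : ℝ, w0 = - (s + mm * dot X Z) := ⟨_, rfl⟩
  obtain ⟨w1, hw1⟩ : ∃ w1 : ℝ, w1 = - (t + mm * dot Y Z) := ⟨_, rfl⟩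
  have hk : (1 : ℝ) - 1 / m' = 1 - 1 / (n : ℝ) + γ := by rw [hm]; ring
  refine ⟨ip Uh Vh + γ * w0 * w1, fun l => ?_⟩
  have H : ∀ a b : Fin 5, Atoms.gram m' (NAtoms.Phi n Aw γ mm (ip Uh Vh + γ * w0 * w1)
      (natomsOf U V X Y Z s t)) a b = ip (Tn Uh Vh X Y a) (Tn Uh Vh X Y b)
        + γ * (![w0, w1, dot X X, dot X Y, dot Y Y] : Fin 5 → ℝ) a
            * (![w0, w1, dot X X, dot X Y, dot Y Y] : Fin 5 → ℝ) b := by
    intro a b
    have hdiv : ∀ b : ℝ, b / m' = b * (1 / (n : ℝ) - γ) := fun b => by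
      rw [div_eq_mul_one_div, hm]
    fin_cases a <;> fin_cases b
    · show ip U U - 2 * Aw * BB U X Z + Aw ^ 2 * ((dot X X * dot Z Z + dot X Z ^ 2) / 2 - dot X Z ^ 2 / n) + γ * (s + mm * dot X Z) ^ 2
        = ip Uh Uh + γ * w0 * w0
      rw [e00, hw0]; ring
    · rfl
    · show BB U X X - Aw * ((1 - 1 / (n : ℝ)) * (dot X X * dot X Z)) - γ * (s + mm * dot X Z) * dot X X
        = ip Uh (Sy X X) + γ * w0 * dot X X
      rw [e02, hw0]; ring
    · show BB U X Y - Aw * ((dot X X * dot Y Z + dot X Y * dot X Z) / 2 - dot X Z * dot X Y / n) - γ * (s + mm * dot X Z) * dot X Y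
        = ip Uh (Sy X Y) + γ * w0 * dot X Y
      rw [e03, hw0]; ring
    · show BB U Y Y - Aw * (dot X Y * dot Y Z - dot X Z * dot Y Y / n) - γ * (s + mm * dot X Z) * dot Y Y
        = ip Uh (Sy Y Y) + γ * w0 * dot Y Y
      rw [e04, hw0]; ring
    · show ip Uh Vh + γ * w0 * w1
        = ip Vh Uh + γ * w1 * w0
      rw [ip_comm' Vh Uh]; ring
    · show ip V V - 2 * Aw * BB V Y Z + Aw ^ 2 * ((dot Y Y * dot Z Z + dot Y Z ^ 2) / 2 - dot Y Z ^ 2 / n) + γ * (t + mm * dot Y Z) ^ 2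
        = ip Vh Vh + γ * w1 * w1
      rw [e11, hw1]; ring
    · show BB V X X - Aw * (dot X Y * dot X Z - dot Y Z * dot X X / n) - γ * (t + mm * dot Y Z) * dot X X
        = ip Vh (Sy X X) + γ * w1 * dot X X
      rw [e12, hw1]; ring
    · show BB V X Y - Aw * ((dot X Y * dot Y Z + dot Y Y * dot X Z) / 2 - dot Y Z * dot X Y / n) - γ * (t + mm * dot Y Z) * dot X Y
        = ip Vh (Sy X Y) + γ * w1 * dot X Y
      rw [e13, hw1]; ring
    · show BB V Y Y - Aw * ((1 - 1 / (n : ℝ)) * (dot Y Y * dot Y Z)) - γ * (t + mm * dot Y Z) * dot Y Y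
        = ip Vh (Sy Y Y) + γ * w1 * dot Y Y
      rw [e14, hw1]; ring
    · show BB U X X - Aw * ((1 - 1 / (n : ℝ)) * (dot X X * dot X Z)) - γ * (s + mm * dot X Z) * dot X X
        = ip (Sy X X) Uh + γ * dot X X * w0
      rw [ip_comm' (Sy X X) Uh, e02, hw0]; ring
    · show BB V X X - Aw * (dot X Y * dot X Z - dot Y Z * dot X X / n) - γ * (t + mm * dot Y Z) * dot X X
        = ip (Sy X X) Vh + γ * dot X X * w1
      rw [ip_comm' (Sy X X) Vh, e12, hw1]; ring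
    · show (1 - 1 / m') * dot X X ^ 2
        = ip (Sy X X) (Sy X X) + γ * dot X X * dot X X
      rw [hk, s22]; ring
    · show (1 - 1 / m') * (dot X X * dot X Y)
        = ip (Sy X X) (Sy X Y) + γ * dot X X * dot X Y
      rw [hk, s23]; ring
    · show dot X Y ^ 2 - dot X X * dot Y Y / m'
        = ip (Sy X X) (Sy Y Y) + γ * dot X X * dot Y Y
      rw [hdiv, s24]; ring
    · show BB U X Y - Aw * ((dot X X * dot Y Z + dot X Y * dot X Z) / 2 - dot X Z * dot X Y / n) - γ * (s + mm * dot X Z) * dot X Y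
        = ip (Sy X Y) Uh + γ * dot X Y * w0
      rw [ip_comm' (Sy X Y) Uh, e03, hw0]; ring
    · show BB V X Y - Aw * ((dot X Y * dot Y Z + dot Y Y * dot X Z) / 2 - dot Y Z * dot X Y / n) - γ * (t + mm * dot Y Z) * dot X Y
        = ip (Sy X Y) Vh + γ * dot X Y * w1
      rw [ip_comm' (Sy X Y) Vh, e13, hw1]; ring
    · show (1 - 1 / m') * (dot X X * dot X Y)
        = ip (Sy X Y) (Sy X X) + γ * dot X Y * dot X X
      rw [hk, ip_comm' (Sy X Y) (Sy X X), s23]; ring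
    · show (dot X X * dot Y Y + dot X Y ^ 2) / 2 - dot X Y ^ 2 / m'
        = ip (Sy X Y) (Sy X Y) + γ * dot X Y * dot X Y
      rw [hdiv, s33]; ring
    · show (1 - 1 / m') * (dot Y Y * dot X Y)
        = ip (Sy X Y) (Sy Y Y) + γ * dot X Y * dot Y Y
      rw [hk, s34]; ring
    · show BB U Y Y - Aw * (dot X Y * dot Y Z - dot X Z * dot Y Y / n) - γ * (s + mm * dot X Z) * dot Y Y
        = ip (Sy Y Y) Uh + γ * dot Y Y * w0
      rw [ip_comm' (Sy Y Y) Uh, e04, hw0]; ring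
    · show BB V Y Y - Aw * ((1 - 1 / (n : ℝ)) * (dot Y Y * dot Y Z)) - γ * (t + mm * dot Y Z) * dot Y Y
        = ip (Sy Y Y) Vh + γ * dot Y Y * w1
      rw [ip_comm' (Sy Y Y) Vh, e14, hw1]; ring
    · show dot X Y ^ 2 - dot X X * dot Y Y / m'
        = ip (Sy Y Y) (Sy X X) + γ * dot Y Y * dot X X
      rw [hdiv, ip_comm' (Sy Y Y) (Sy X X), s24]; ring
    · show (1 - 1 / m') * (dot Y Y * dot X Y)
        = ip (Sy Y Y) (Sy X Y) + γ * dot Y Y * dot X Y
      rw [hk, ip_comm' (Sy Y Y) (Sy X Y), s34]; ring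
    · show (1 - 1 / m') * dot Y Y ^ 2
        = ip (Sy Y Y) (Sy Y Y) + γ * dot Y Y * dot Y Y
      rw [hk, s44]; ring
  simp_rw [H]
  have e2 : ∀ a b : Fin 5, l a * l b * (ip (Tn Uh Vh X Y a) (Tn Uh Vh X Y b)
        + γ * (![w0, w1, dot X X, dot X Y, dot Y Y] : Fin 5 → ℝ) a
            * (![w0, w1, dot X X, dot X Y, dot Y Y] : Fin 5 → ℝ) b)
      = l a * l b * ip (Tn Uh Vh X Y a) (Tn Uh Vh X Y b)
        + γ * ((l a * (![w0, w1, dot X X, dot X Y, dot Y Y] : Fin 5 → ℝ) a)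
            * (l b * (![w0, w1, dot X X, dot X Y, dot Y Y] : Fin 5 → ℝ) b)) := by
    intro a b; ring
  simp_rw [e2, Finset.sum_add_distrib]
  rw [gram_sum]
  have e3 : ∑ a, ∑ b, γ * ((l a * (![w0, w1, dot X X, dot X Y, dot Y Y] : Fin 5 → ℝ) a)
      * (l b * (![w0, w1, dot X X, dot X Y, dot Y Y] : Fin 5 → ℝ) b))
      = γ * (∑ a, l a * (![w0, w1, dot X X, dot X Y, dot Y Y] : Fin 5 → ℝ) a) ^ 2 := by
    rw [pow_two, Finset.sum_mul_sum, Finset.mul_sum]
    refine Finset.sum_congr rfl fun a _ => ?_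
    rw [Finset.mul_sum]
  rw [e3]
  exact add_nonneg (ip_nonneg _) (mul_nonneg hγ (sq_nonneg _))

theorem natomsOf_realizable {U V : Fin n → Fin n → ℝ} {X Y Z : Fin n → ℝ} {s t : ℝ}
    (hn : (2 : ℝ) ≤ n) (hU : ∀ i j, U i j = U j i)
    (hV : ∀ i j, V i j = V j i) (tU : ∑ i, U i i = 0) (tV : ∑ i, V i i = 0)
    (hs : 0 < s) (ht : 0 < t) : NAtoms.Realizable n (natomsOf U V X Y Z s t) where
  base := watomsOf_realizable (by linarith) hU hV tU tV hs ht
  tensU := by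
    intro G H I
    have h := tens_ineq hn hU tU X (fun i => G * X i + H * Y i + I * Z i)
    rw [BB_comb3, dot_self_comb3] at h
    show 0 ≤ ip U U + G * BB U X X + H * BB U X Y + I * BB U X Z + (1 - 1 / (n : ℝ)) / 4 * dot X X *
      (G ^ 2 * dot X X + H ^ 2 * dot Y Y + I ^ 2 * dot Z Z + 2 * G * H * dot X Y + 2 * G * I * dot X Z
        + 2 * H * I * dot Y Z)
    linarith
  tensV := by
    intro G H I
    have h := tens_ineq hn hV tV Y (fun i => G * Y i + H * X i + I * Z i)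
    rw [BB_comb3, dot_self_comb3, BB_symm hV Y X, dot_comm Y X] at h
    show 0 ≤ ip V V + G * BB V Y Y + H * BB V X Y + I * BB V Y Z + (1 - 1 / (n : ℝ)) / 4 * dot Y Y *
      (G ^ 2 * dot Y Y + H ^ 2 * dot X X + I ^ 2 * dot Z Z + 2 * G * H * dot X Y + 2 * G * I * dot Y Z
        + 2 * H * I * dot X Z)
    linarith
  csX := by
    intro l1 l2 l3
    have h := dot_cs X (fun i => l1 * X i + l2 * Y i + l3 * Z i)
    rw [dot_comb3, dot_self_comb3] at h
    exact h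
  csY := by
    intro l1 l2 l3
    have h := dot_cs Y (fun i => l1 * Y i + l2 * X i + l3 * Z i)
    rw [dot_comb3, dot_self_comb3, dot_comm Y X] at h
    exact h
  phiGram := fun Aw γ mm m' hγ hm => phi_gram (by linarith) hU hV tU tV Aw γ mm m' hγ hm

/-- The contractions of the fields with `ξ`. -/
def NAtoms.PF (A : NAtoms) : Fin 11 → ℝ :=
  ![A.uxz, A.vyz, A.x * A.tx, A.x * A.ty, A.y * A.tx, A.y * A.ty, A.s * A.tx, A.t * A.ty,
    A.w ^ 2, A.x * A.w, A.y * A.w]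

theorem DD_eq_zero_add (N P Q a c Aw : ℝ) (A : NAtoms) (k : Fin 11) :
    NAtoms.DD N P Q a c Aw A k = NAtoms.DD N P Q a 0 Aw A k + c * A.PF k := by
  fin_cases k <;> simp [NAtoms.DD, NAtoms.PF] <;> ring

theorem DD_zero_D (N P Q a Aw : ℝ) (A : NAtoms) :
    NAtoms.DD N P Q a 0 Aw A 0 = WAtoms.D N P Q a a Aw Aw A.toWAtoms 0 ∧
    NAtoms.DD N P Q a 0 Aw A 1 = WAtoms.D N P Q a a Aw Aw A.toWAtoms 3 ∧
    NAtoms.DD N P Q a 0 Aw A 2 = WAtoms.D N P Q a a Aw Aw A.toWAtoms 4 ∧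
    NAtoms.DD N P Q a 0 Aw A 3 = WAtoms.D N P Q a a Aw Aw A.toWAtoms 5 ∧
    NAtoms.DD N P Q a 0 Aw A 4 = WAtoms.D N P Q a a Aw Aw A.toWAtoms 8 ∧
    NAtoms.DD N P Q a 0 Aw A 5 = WAtoms.D N P Q a a Aw Aw A.toWAtoms 9 ∧
    NAtoms.DD N P Q a 0 Aw A 6 = WAtoms.D N P Q a a Aw Aw A.toWAtoms 10 ∧
    NAtoms.DD N P Q a 0 Aw A 7 = WAtoms.D N P Q a a Aw Aw A.toWAtoms 13 ∧
    NAtoms.DD N P Q a 0 Aw A 8 = WAtoms.D N P Q a a Aw Aw A.toWAtoms 16 := by
  refine ⟨?_, ?_, ?_, ?_, ?_, ?_, ?_, ?_, ?_⟩ <;> simp [NAtoms.DD, WAtoms.D]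

section classical

variable {W S T : Eu n → ℝ} {X Y : Fin n → Eu n → ℝ} {U V : Fin n → Fin n → ℝ}
  {a b p q A B : ℝ} {x : Eu n}

theorem JetW.dxxi (h : JetW W S T X Y U V a b p q A B x) :
    ∑ i, pd i (fun y => W y * Fz X X Xi i y) x = W x *
      (2 * BB U (fun i => X i x) (fun i => Xi i x)
        + (a - 2) * (dot (fun i => X i x) (fun i => X i x) * dot (fun i => X i x) (fun i => Xi i x))
        + b * (dot (fun i => X i x) (fun i => X i x) * dot (fun i => Y i x) (fun i => Xi i x))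
        + (n - 2) * (dot (fun i => X i x) (fun i => X i x) * dot (fun i => Xi i x) (fun i => Xi i x))
        - (2 / (n : ℝ)) * (S x * dot (fun i => X i x) (fun i => Xi i x))) := by
  have d := D_zzS (X1 := (fun i => X i x)) (X2 := (fun i => Y i x)) h.hW h.spX h.spX (sp_Xi x h.hx)
  have hn0 := h.hn
  have nc1 : (n : ℝ) * (S x / n) = S x := by field_simp
  have dzx := dot_comm (fun i => X i x) (fun i => Xi i x)
  have dzy := dot_comm (fun i => Y i x) (fun i => Xi i x)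
  rw [d]
  simp only [nc1, dzx.symm, dzy.symm, dot_comb, BB_rank, tr_rank]
  field_simp
  ring

theorem JetW.dyyi (h : JetW W S T X Y U V a b p q A B x) :
    ∑ i, pd i (fun y => W y * Fz Y Y Xi i y) x = W x *
      (2 * BB V (fun i => Y i x) (fun i => Xi i x)
        + (b - 2) * (dot (fun i => Y i x) (fun i => Y i x) * dot (fun i => Y i x) (fun i => Xi i x))
        + a * (dot (fun i => Y i x) (fun i => Y i x) * dot (fun i => X i x) (fun i => Xi i x))
        + (n - 2) * (dot (fun i => Y i x) (fun i => Y i x) * dot (fun i => Xi i x) (fun i => Xi i x))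
        - (2 / (n : ℝ)) * (T x * dot (fun i => Y i x) (fun i => Xi i x))) := by
  have d := D_zzS (X1 := (fun i => X i x)) (X2 := (fun i => Y i x)) h.hW h.spY h.spY (sp_Xi x h.hx)
  have hn0 := h.hn
  have nc1 : (n : ℝ) * (T x / n) = T x := by field_simp
  have dzx := dot_comm (fun i => X i x) (fun i => Xi i x)
  have dzy := dot_comm (fun i => Y i x) (fun i => Xi i x)
  rw [d]
  simp only [nc1, dzx.symm, dzy.symm, dot_comb, BB_rank, tr_rank]
  field_simp
  ring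

end classical

/-- The atoms of `(u,v)` at `x`, with the weight `Aw` in both equations. -/
def natAt (u v : Eu n → ℝ) (Aw p q : ℝ) (x : Eu n) : NAtoms :=
  natomsOf (fun i j => Ug u (Sr Aw p v) i j x) (fun i j => Ug v (Sr Aw q u) i j x)
    (fun i => Xf u i x) (fun i => Xf v i x) (fun i => Xi i x)
    (Sr Aw p v x / u x) (Sr Aw q u x / v x)

theorem natAt_toW (u v : Eu n → ℝ) (Aw p q : ℝ) (x : Eu n) :
    (natAt u v Aw p q x).toWAtoms = watAt u v Aw Aw p q x := rfl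

/-- The eleven vector fields. -/
def NFlds (u v : Eu n → ℝ) (Aw p q : ℝ) : Fin 11 → Fin n → Eu n → ℝ :=
  ![FUg u (Sr Aw p v) (Xf u), FUg v (Sr Aw q u) (Xf v),
    Fz (Xf u) (Xf u) (Xf u), Fz (Xf u) (Xf u) (Xf v),
    Fz (Xf v) (Xf v) (Xf u), Fz (Xf v) (Xf v) (Xf v),
    Fs (fun y => Sr Aw p v y / u y) (Xf u), Fs (fun y => Sr Aw q u y / v y) (Xf v),
    Fz Xi Xi Xi, Fz (Xf u) (Xf u) Xi, Fz (Xf v) (Xf v) Xi]

/-- The weak divergence of the eleven fields, for `W = u^a v^a`. -/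
theorem weak_NFlds {Ω : Set (Eu n)} (hΩ : IsOpen Ω) (hΩ0 : ∀ x ∈ Ω, x ≠ 0)
    {u v : Eu n → ℝ} {Aw p q : ℝ} (a : ℝ)
    (hu : ContDiffOn ℝ 2 u Ω) (hv : ContDiffOn ℝ 2 v Ω)
    (hLoc : ∀ x ∈ Ω, LocW u v Aw Aw p q x)
    (hn : (n : ℝ) ≠ 0)
    {φ : Eu n → ℝ} (hφ : ContDiff ℝ 1 φ) (hφc : HasCompactSupport φ) (hφΩ : tsupport φ ⊆ Ω)
    (k : Fin 11) :
    ∑ i, ∫ x, pd i φ x * (Wf u v a a x * NFlds u v Aw p q k i x) =
      - ∫ x, φ x * (Wf u v a a x * NAtoms.DD n p q a 0 Aw (natAt u v Aw p q x) k) := by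
  have hupos : ∀ x ∈ Ω, 0 < u x := fun x hx => (hLoc x hx).upos
  have hvpos : ∀ x ∈ Ω, 0 < v x := fun x hx => (hLoc x hx).vpos
  have hX : ∀ i, ContDiffOn ℝ 1 (Xf u i) Ω := contDiffOn_Xf hΩ hu hupos
  have hY : ∀ i, ContDiffOn ℝ 1 (Xf v i) Ω := contDiffOn_Xf hΩ hv hvpos
  have hZ : ∀ i, ContDiffOn ℝ 1 (Xi (n := n) i) Ω := contDiffOn_Xi hΩ0
  have hW : ContDiffOn ℝ 1 (Wf u v a a) Ω :=
    (contDiffOn_Wf hu hv hupos hvpos a a).of_le (by norm_num)
  have hcl : ∀ (F : Fin n → Eu n → ℝ) (hF : ∀ i, ContDiffOn ℝ 1 (F i) Ω) (D : Eu n → ℝ)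
      (hD : ∀ x ∈ Ω, ∑ i, pd i (fun y => Wf u v a a y * F i y) x = Wf u v a a x * D x),
      ∑ i, ∫ x, pd i φ x * (Wf u v a a x * F i x) = - ∫ x, φ x * (Wf u v a a x * D x) := by
    intro F hF D hD
    exact weak_classical hΩ (G := fun i y => Wf u v a a y * F i y) (fun i => hW.mul (hF i)) hD
      hφ hφc hφΩ
  have hcongr : ∀ (A B : Eu n → ℝ), (∀ x ∈ Ω, A x = B x) → ∫ x, φ x * A x = ∫ x, φ x * B x := by
    intro A B hAB
    refine integral_congr_ae (Eventually.of_forall fun x => ?_)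
    by_cases hx : x ∈ Ω
    · show φ x * A x = φ x * B x
      rw [hAB x hx]
    · have h0 : φ x = 0 := image_eq_zero_of_notMem_tsupport (fun h => hx (hφΩ h))
      show φ x * A x = φ x * B x
      simp [h0]
  have base := fun k' : Fin 17 => weak_WFlds (A := Aw) (B := Aw) (p := p) (q := q) hΩ hΩ0 a a hu hv
    hLoc hn hφ hφc hφΩ k'
  have hDD := fun x => DD_zero_D (n : ℝ) p q a Aw (natAt u v Aw p q x)
  fin_cases k
  · refine (base 0).trans ?_
    simp only [← natAt_toW, ← (fun x => (hDD x).1)]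
    rfl
  · refine (base 3).trans ?_
    simp only [← natAt_toW, ← (fun x => (hDD x).2.1)]
    rfl
  · refine (base 4).trans ?_
    simp only [← natAt_toW, ← (fun x => (hDD x).2.2.1)]
    rfl
  · refine (base 5).trans ?_
    simp only [← natAt_toW, ← (fun x => (hDD x).2.2.2.1)]
    rfl
  · refine (base 8).trans ?_
    simp only [← natAt_toW, ← (fun x => (hDD x).2.2.2.2.1)]
    rfl
  · refine (base 9).trans ?_
    simp only [← natAt_toW, ← (fun x => (hDD x).2.2.2.2.2.1)]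
    rfl
  · refine (base 10).trans ?_
    simp only [← natAt_toW, ← (fun x => (hDD x).2.2.2.2.2.2.1)]
    rfl
  · refine (base 13).trans ?_
    simp only [← natAt_toW, ← (fun x => (hDD x).2.2.2.2.2.2.2.1)]
    rfl
  · refine (base 16).trans ?_
    simp only [← natAt_toW, ← (fun x => (hDD x).2.2.2.2.2.2.2.2)]
    rfl
  · refine hcl _ (contDiffOn_Fz hΩ hX hX hZ) _ fun x hx => ?_
    refine (((hLoc x hx).jet a a).dxxi).trans ?_
    congr 1
    simp [NAtoms.DD, natAt, natomsOf, watomsOf, atomsOf]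
  · refine hcl _ (contDiffOn_Fz hΩ hY hY hZ) _ fun x hx => ?_
    refine (((hLoc x hx).jet a a).dyyi).trans ?_
    congr 1
    simp [NAtoms.DD, natAt, natomsOf, watomsOf, atomsOf]


section weight

variable {u v : Eu n → ℝ} {Aw p q a c : ℝ}

/-- The weight `|x|^c u^a v^a`. -/
def Wt (u v : Eu n → ℝ) (a c : ℝ) (y : Eu n) : ℝ := ‖y‖ ^ c * Wf u v a a y

/-- The contraction of the fields with `ξ`. -/
theorem NFlds_contract (x : Eu n) (hUs : ∀ i j, Ug u (Sr Aw p v) i j x = Ug u (Sr Aw p v) j i x)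
    (hVs : ∀ i j, Ug v (Sr Aw q u) i j x = Ug v (Sr Aw q u) j i x) (k : Fin 11) :
    ∑ i, Xi i x * NFlds u v Aw p q k i x = (natAt u v Aw p q x).PF k := by
  have hz : ∀ (P R S : Fin n → Eu n → ℝ),
      ∑ i, Xi i x * Fz P R S i x
        = dot (fun i => P i x) (fun i => R i x) * dot (fun i => S i x) (fun i => Xi i x) := by
    intro P R S
    simp only [Fz, dot, Finset.mul_sum]
    refine Finset.sum_congr rfl fun i _ => ?_
    ring_nf
  have hs : ∀ (f : Eu n → ℝ) (S : Fin n → Eu n → ℝ),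
      ∑ i, Xi i x * Fs f S i x = f x * dot (fun i => S i x) (fun i => Xi i x) := by
    intro f S
    simp only [Fs, dot, Finset.mul_sum]
    refine Finset.sum_congr rfl fun i _ => ?_
    ring
  have hU' : ∀ (g f : Eu n → ℝ) (hs : ∀ i j, Ug g f i j x = Ug g f j i x),
      ∑ i, Xi i x * FUg g f (Xf g) i x
        = BB (fun i j => Ug g f i j x) (fun i => Xf g i x) (fun i => Xi i x) := by
    intro g f hs
    have h1 := BB_symm hs (fun i => Xf g i x) (fun i => Xi i x)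
    rw [h1]
    simp only [FUg, BB, Finset.mul_sum]
    refine Finset.sum_congr rfl fun i _ => Finset.sum_congr rfl fun j _ => ?_
    ring
  fin_cases k
  · exact hU' u _ hUs
  · exact hU' v _ hVs
  · exact hz _ _ _
  · exact hz _ _ _
  · exact hz _ _ _
  · exact hz _ _ _
  · exact hs (fun y => Sr Aw p v y / u y) (Xf u)
  · exact hs (fun y => Sr Aw q u y / v y) (Xf v)
  · refine (hz _ _ _).trans ?_
    simp only [NAtoms.PF, natAt, natomsOf, watomsOf]
    simp [pow_two]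
  · exact hz _ _ _
  · exact hz _ _ _

end weight

lemma contDiff_mul_normpow {φ : Eu n → ℝ} (hφ : ContDiff ℝ 1 φ) (h0 : (0 : Eu n) ∉ tsupport φ) (c : ℝ) :
    ContDiff ℝ 1 (fun x => φ x * ‖x‖ ^ c) := by
  rw [contDiff_iff_contDiffAt]
  intro x
  by_cases hx : x = 0
  · subst hx
    have h1 : φ =ᶠ[𝓝 0] 0 := notMem_tsupport_iff_eventuallyEq.mp h0
    have h2 : (fun x => φ x * ‖x‖ ^ c) =ᶠ[𝓝 0] fun _ => 0 := by
      filter_upwards [h1] with y hy
      simp [hy]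
    exact contDiffAt_const.congr_of_eventuallyEq h2
  · exact hφ.contDiffAt.mul ((contDiffAt_norm ℝ hx).rpow_const_of_ne (norm_ne_zero_iff.2 hx))

lemma pd_mul_normpow {φ : Eu n → ℝ} (hφ : ContDiff ℝ 1 φ) (h0 : (0 : Eu n) ∉ tsupport φ) (c : ℝ)
    (i : Fin n) (x : Eu n) :
    pd i (fun x => φ x * ‖x‖ ^ c) x = pd i φ x * ‖x‖ ^ c + φ x * (‖x‖ ^ c * (c * Xi i x)) := by
  by_cases hx : x = 0
  · subst hx
    have h1 : φ =ᶠ[𝓝 0] 0 := notMem_tsupport_iff_eventuallyEq.mp h0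
    have h2 : (fun x => φ x * ‖x‖ ^ c) =ᶠ[𝓝 0] fun _ => 0 := by
      filter_upwards [h1] with y hy
      simp [hy]
    have h3 : φ 0 = 0 := h1.eq_of_nhds
    simp only [pd]
    rw [h2.fderiv_eq, h1.fderiv_eq, h3]
    simp
  · have h1 : HG φ (fun j => pd j φ x) x := HG.of_diff (hφ.differentiable one_ne_zero x)
    exact ((h1.mul (hg_normpow x hx c)).2 i)

/-- **The weak divergence of the eleven fields, with the factor `|x|^c` in the weight.** -/
theorem weak_NFlds_c {Ω : Set (Eu n)} (hΩ : IsOpen Ω) (hΩ0 : ∀ x ∈ Ω, x ≠ 0)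
    {u v : Eu n → ℝ} {Aw p q : ℝ} (a c : ℝ)
    (hu : ContDiffOn ℝ 2 u Ω) (hv : ContDiffOn ℝ 2 v Ω)
    (hLoc : ∀ x ∈ Ω, LocW u v Aw Aw p q x) (hn : (n : ℝ) ≠ 0)
    (hFc : ∀ k i, ContinuousOn (NFlds u v Aw p q k i) Ω)
    (hWfc : ContinuousOn (Wf u v a a) Ω)
    (hDc : ∀ k, ContinuousOn (fun x => NAtoms.DD n p q a 0 Aw (natAt u v Aw p q x) k) Ω)
    {φ : Eu n → ℝ} (hφ : ContDiff ℝ 1 φ) (hφc : HasCompactSupport φ) (hφΩ : tsupport φ ⊆ Ω)
    (k : Fin 11) :
    ∑ i, ∫ x, pd i φ x * (Wt u v a c x * NFlds u v Aw p q k i x) =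
      - ∫ x, φ x * (Wt u v a c x * NAtoms.DD n p q a c Aw (natAt u v Aw p q x) k) := by
  have h0 : (0 : Eu n) ∉ tsupport φ := fun h => hΩ0 0 (hφΩ h) rfl
  have hψ := contDiff_mul_normpow hφ h0 c
  have hψc : HasCompactSupport (fun x => φ x * ‖x‖ ^ c) := hφc.mul_right
  have hψΩ : tsupport (fun x => φ x * ‖x‖ ^ c) ⊆ Ω :=
    (closure_mono (Function.support_mul_subset_left _ _)).trans hφΩ
  have key := weak_NFlds hΩ hΩ0 a (Aw := Aw) (p := p) (q := q) hu hv hLoc hn hψ hψc hψΩ k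
  have hNc : ContinuousOn (fun y : Eu n => ‖y‖ ^ c) Ω := (contDiffOn_normpow hΩ0 c).continuousOn
  have hWc : ContinuousOn (Wt u v a c) Ω := hNc.mul hWfc
  have hdφ : ∀ i, Continuous (pd i φ) := fun i =>
    (hφ.continuous_fderiv one_ne_zero).clm_apply continuous_const
  have hdφs : ∀ i, HasCompactSupport (pd i φ) := fun i => hφc.fderiv_apply (𝕜 := ℝ) (ee i)
  have hdφΩ : ∀ i, tsupport (pd i φ) ⊆ Ω := fun i =>
    (tsupport_fderiv_apply_subset ℝ (ee i)).trans hφΩ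
  have hZc : ∀ i, ContinuousOn (Xi (n := n) i) Ω := fun i => (contDiffOn_Xi hΩ0 i).continuousOn
  have hint1 : ∀ i, Integrable fun x => pd i φ x * (Wt u v a c x * NFlds u v Aw p q k i x) := by
    intro i
    have := integrable_mul_of_tsupport hΩ (hWc.mul (hFc k i)) (hdφ i) (hdφs i) (hdφΩ i)
    exact this.congr (Eventually.of_forall fun x => by simp only [Pi.mul_apply]; ring)
  have hint2 : ∀ i, Integrable fun x =>
      φ x * (Wt u v a c x * (c * (Xi i x * NFlds u v Aw p q k i x))) := by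
    intro i
    have h5 : ContinuousOn (fun x => c * (Xi i x * NFlds u v Aw p q k i x)) Ω :=
      continuousOn_const.mul ((hZc i).mul (hFc k i))
    have := integrable_mul_of_tsupport hΩ (hWc.mul h5) hφ.continuous hφc hφΩ
    exact this.congr (Eventually.of_forall fun x => by simp only [Pi.mul_apply]; ring)
  have step : ∀ i, ∫ x, pd i (fun x => φ x * ‖x‖ ^ c) x * (Wf u v a a x * NFlds u v Aw p q k i x)
      = (∫ x, pd i φ x * (Wt u v a c x * NFlds u v Aw p q k i x))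
        + ∫ x, φ x * (Wt u v a c x * (c * (Xi i x * NFlds u v Aw p q k i x))) := by
    intro i
    rw [← integral_add (hint1 i) (hint2 i)]
    refine integral_congr_ae (Eventually.of_forall fun x => ?_)
    show pd i (fun x => φ x * ‖x‖ ^ c) x * (Wf u v a a x * NFlds u v Aw p q k i x)
      = pd i φ x * (Wt u v a c x * NFlds u v Aw p q k i x)
        + φ x * (Wt u v a c x * (c * (Xi i x * NFlds u v Aw p q k i x)))
    rw [pd_mul_normpow hφ h0 c i x]
    simp only [Wt]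
    ring
  simp_rw [step] at key
  rw [Finset.sum_add_distrib] at key
  have hpt : ∀ x, ∑ i, φ x * (Wt u v a c x * (c * (Xi i x * NFlds u v Aw p q k i x)))
      = φ x * (Wt u v a c x * (c * (natAt u v Aw p q x).PF k)) := by
    intro x
    by_cases hx : x ∈ Ω
    · rw [← NFlds_contract x (hLoc x hx).U_symm (hLoc x hx).swap.U_symm k]
      simp only [Finset.mul_sum]
    · have h0' : φ x = 0 := image_eq_zero_of_notMem_tsupport (fun h => hx (hφΩ h))
      simp [h0']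
  have hintP : Integrable fun x => φ x * (Wt u v a c x * (c * (natAt u v Aw p q x).PF k)) :=
    (integrable_finsetSum _ (fun i _ => hint2 i)).congr (Eventually.of_forall fun x => by
      simp only [Finset.sum_apply]
      exact hpt x)
  have hintD : Integrable fun x =>
      φ x * (Wt u v a c x * NAtoms.DD n p q a 0 Aw (natAt u v Aw p q x) k) := by
    have := integrable_mul_of_tsupport hΩ (hWc.mul (hDc k)) hφ.continuous hφc hφΩ
    exact this.congr (Eventually.of_forall fun x => by simp only [Pi.mul_apply]; ring)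
  have h2 : ∑ i, ∫ x, φ x * (Wt u v a c x * (c * (Xi i x * NFlds u v Aw p q k i x)))
      = ∫ x, φ x * (Wt u v a c x * (c * (natAt u v Aw p q x).PF k)) := by
    rw [← integral_finsetSum _ (fun i _ => hint2 i)]
    exact integral_congr_ae (Eventually.of_forall hpt)
  have h3 : ∫ x, (φ x * ‖x‖ ^ c) * (Wf u v a a x * NAtoms.DD n p q a 0 Aw (natAt u v Aw p q x) k)
      = ∫ x, φ x * (Wt u v a c x * NAtoms.DD n p q a 0 Aw (natAt u v Aw p q x) k) := by
    refine integral_congr_ae (Eventually.of_forall fun x => ?_)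
    show (φ x * ‖x‖ ^ c) * (Wf u v a a x * NAtoms.DD n p q a 0 Aw (natAt u v Aw p q x) k)
      = φ x * (Wt u v a c x * NAtoms.DD n p q a 0 Aw (natAt u v Aw p q x) k)
    simp only [Wt]
    ring
  have h4 : ∫ x, φ x * (Wt u v a c x * NAtoms.DD n p q a c Aw (natAt u v Aw p q x) k)
      = (∫ x, φ x * (Wt u v a c x * NAtoms.DD n p q a 0 Aw (natAt u v Aw p q x) k))
        + ∫ x, φ x * (Wt u v a c x * (c * (natAt u v Aw p q x).PF k)) := by
    rw [← integral_add hintD hintP]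
    refine integral_congr_ae (Eventually.of_forall fun x => ?_)
    show φ x * (Wt u v a c x * NAtoms.DD n p q a c Aw (natAt u v Aw p q x) k)
      = φ x * (Wt u v a c x * NAtoms.DD n p q a 0 Aw (natAt u v Aw p q x) k)
        + φ x * (Wt u v a c x * (c * (natAt u v Aw p q x).PF k))
    rw [DD_eq_zero_add (n : ℝ) p q a c Aw (natAt u v Aw p q x) k]
    ring
  rw [h2, h3] at key
  rw [h4]
  linarith

/-- The two new fields are bounded by `E^(3/4)`. -/
theorem abs_xZ_le {U V : Fin n → Fin n → ℝ} {X Y Z : Fin n → ℝ} {s t : ℝ} (i : Fin n) :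
    |dot X X * Z i| ≤ (watomsOf U V X Y Z s t).EW ^ ((3 : ℝ) / 4) ∧
    |dot Y Y * Z i| ≤ (watomsOf U V X Y Z s t).EW ^ ((3 : ℝ) / 4) := by
  have hE := EW_nonneg (U := U) (V := V) (X := X) (Y := Y) (Z := Z) (s := s) (t := t)
  have hE0 := EW_eq (U := U) (V := V) (X := X) (Y := Y) (Z := Z) (s := s) (t := t)
  have a1 := ip_nonneg U
  have a2 := ip_nonneg V
  set E := (watomsOf U V X Y Z s t).EW with hEdef
  obtain ⟨e, he⟩ : ∃ e, e = E ^ ((1 : ℝ) / 4) := ⟨_, rfl⟩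
  have he0 : 0 ≤ e := he ▸ Real.rpow_nonneg hE _
  have h4 : E = e ^ 4 := by
    rw [he, ← Real.rpow_natCast, ← Real.rpow_mul hE]
    norm_num
  have h3 : E ^ ((3 : ℝ) / 4) = e ^ 3 := by
    rw [he, ← Real.rpow_natCast, ← Real.rpow_mul hE]
    norm_num
  rw [h3]
  have e2 : 0 ≤ e ^ 2 := by positivity
  have hx : |dot X X| ≤ e ^ 2 := by
    apply abs_le_of_sq_le_sq _ e2
    have : (e ^ 2) ^ 2 = E := by rw [h4]; ring
    rw [this, hE0]
    nlinarith [sq_nonneg (dot Y Y), sq_nonneg s, sq_nonneg t, sq_nonneg (dot Z Z)]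
  have hy : |dot Y Y| ≤ e ^ 2 := by
    apply abs_le_of_sq_le_sq _ e2
    have : (e ^ 2) ^ 2 = E := by rw [h4]; ring
    rw [this, hE0]
    nlinarith [sq_nonneg (dot X X), sq_nonneg s, sq_nonneg t, sq_nonneg (dot Z Z)]
  have hw : |dot Z Z| ≤ e ^ 2 := by
    apply abs_le_of_sq_le_sq _ e2
    have : (e ^ 2) ^ 2 = E := by rw [h4]; ring
    rw [this, hE0]
    nlinarith [sq_nonneg (dot X X), sq_nonneg (dot Y Y), sq_nonneg s, sq_nonneg t]
  have hZi : |Z i| ≤ e := by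
    apply abs_le_of_sq_le_sq _ he0
    have h5 : Z i * Z i ≤ dot Z Z :=
      Finset.single_le_sum (f := fun j => Z j * Z j) (fun _ _ => mul_self_nonneg _)
        (Finset.mem_univ i)
    have h6 : dot Z Z ≤ e ^ 2 := (le_abs_self _).trans hw
    nlinarith
  have hprod : ∀ a b : ℝ, |a| ≤ e ^ 2 → |b| ≤ e → |a * b| ≤ e ^ 3 := by
    intro a b h1 h2
    rw [abs_mul]
    calc |a| * |b| ≤ e ^ 2 * e := mul_le_mul h1 h2 (abs_nonneg _) e2
      _ = e ^ 3 := by ring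
  exact ⟨hprod _ _ hx hZi, hprod _ _ hy hZi⟩

theorem abs_NF_le {u v : Eu n → ℝ} {Aw p q : ℝ} (k : Fin 11) (i : Fin n) (x : Eu n) :
    |NFlds u v Aw p q k i x| ≤ (natAt u v Aw p q x).EW ^ ((3 : ℝ) / 4) := by
  have base := fun k' : Fin 17 => abs_WF_le (u := u) (v := v) (A := Aw) (B := Aw) (p := p) (q := q)
    k' i x
  have hnew := abs_xZ_le (U := fun i j => Ug u (Sr Aw p v) i j x)
    (V := fun i j => Ug v (Sr Aw q u) i j x) (X := fun i => Xf u i x) (Y := fun i => Xf v i x)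
    (Z := fun i => Xi i x) (s := Sr Aw p v x / u x) (t := Sr Aw q u x / v x) i
  fin_cases k
  · exact base 0
  · exact base 3
  · exact base 4
  · exact base 5
  · exact base 8
  · exact base 9
  · exact base 10
  · exact base 13
  · exact base 16
  · exact hnew.1
  · exact hnew.2

lemma contOn_NFlds {Ω : Set (Eu n)} {u v : Eu n → ℝ} {Aw p q : ℝ} (hΩ : IsOpen Ω)
    (hΩ0 : ∀ x ∈ Ω, x ≠ 0)
    (hu : ContDiffOn ℝ 2 u Ω) (hv : ContDiffOn ℝ 2 v Ω)
    (hupos : ∀ x ∈ Ω, 0 < u x) (hvpos : ∀ x ∈ Ω, 0 < v x) (hn : (n : ℝ) ≠ 0)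
    (k : Fin 11) (i : Fin n) : ContinuousOn (NFlds u v Aw p q k i) Ω := by
  have base := fun k' : Fin 17 => contOn_WFlds (A := Aw) (B := Aw) (p := p) (q := q) hΩ hΩ0 hu hv
    hupos hvpos hn k' i
  have hX : ∀ i, ContDiffOn ℝ 1 (Xf u i) Ω := contDiffOn_Xf hΩ hu hupos
  have hY : ∀ i, ContDiffOn ℝ 1 (Xf v i) Ω := contDiffOn_Xf hΩ hv hvpos
  have hZ : ∀ i, ContDiffOn ℝ 1 (Xi (n := n) i) Ω := contDiffOn_Xi hΩ0
  fin_cases k
  · exact base 0
  · exact base 3
  · exact base 4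
  · exact base 5
  · exact base 8
  · exact base 9
  · exact base 10
  · exact base 13
  · exact base 16
  · exact (contDiffOn_Fz hΩ hX hX hZ i).continuousOn
  · exact (contDiffOn_Fz hΩ hY hY hZ i).continuousOn

lemma continuousOn_ND_aux {Ω : Set (Eu n)}
    {f1 f2 f3 f4 f5 f6 f7 f8 f9 f10 f11 f12 f13 f14 f15 f16 f17 f18 f19 : Eu n → ℝ}
    (h1 : ContinuousOn f1 Ω) (h2 : ContinuousOn f2 Ω) (h3 : ContinuousOn f3 Ω)
    (h4 : ContinuousOn f4 Ω) (h5 : ContinuousOn f5 Ω) (h6 : ContinuousOn f6 Ω)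
    (h7 : ContinuousOn f7 Ω) (h8 : ContinuousOn f8 Ω) (h9 : ContinuousOn f9 Ω)
    (h10 : ContinuousOn f10 Ω) (h11 : ContinuousOn f11 Ω) (h12 : ContinuousOn f12 Ω)
    (h13 : ContinuousOn f13 Ω) (h14 : ContinuousOn f14 Ω) (h15 : ContinuousOn f15 Ω)
    (h16 : ContinuousOn f16 Ω) (h17 : ContinuousOn f17 Ω) (h18 : ContinuousOn f18 Ω)
    (h19 : ContinuousOn f19 Ω) (N P Q a c Aw : ℝ) (k : Fin 11) :
    ContinuousOn (fun x => NAtoms.DD N P Q a c Aw
      ⟨⟨⟨f1 x, f2 x, f3 x, f4 x, f5 x, f6 x, f7 x, f8 x, f9 x, f10 x, f11 x, f12 x, f13 x, f14 x⟩,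
        f15 x, f16 x, f17 x⟩, f18 x, f19 x⟩ k) Ω := by
  fin_cases k <;> simp only [NAtoms.DD] <;> simp <;> fun_prop

/-- The weight in terms of `s, t, |x|`. -/
theorem Wt_eq_stw {u v : Eu n → ℝ} {Aw p q a c lam mu : ℝ} {x : Eu n} (hx : x ≠ 0)
    (hu : 0 < u x) (hv : 0 < v x) (ha : a = mu * q - lam) (hb : a = lam * p - mu) :
    Wt u v a c x = (Sr Aw p v x / u x) ^ lam * (Sr Aw q u x / v x) ^ mu *
      ‖x‖ ^ (c - Aw * (lam + mu)) := by
  have hR : 0 < ‖x‖ := norm_pos_iff.2 hx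
  have hA : 0 < ‖x‖ ^ Aw := Real.rpow_pos_of_pos hR _
  have hp : 0 < v x ^ p := Real.rpow_pos_of_pos hv _
  have hq : 0 < u x ^ q := Real.rpow_pos_of_pos hu _
  have hs : 0 < Sr Aw p v x / u x := div_pos (mul_pos hA hp) hu
  have ht : 0 < Sr Aw q u x / v x := div_pos (mul_pos hA hq) hv
  have ls : Real.log (Sr Aw p v x / u x) = Aw * Real.log ‖x‖ + p * Real.log (v x) - Real.log (u x) := by
    simp only [Sr]
    rw [Real.log_div (mul_pos hA hp).ne' hu.ne', Real.log_mul hA.ne' hp.ne', Real.log_rpow hR,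
      Real.log_rpow hv]
  have lt : Real.log (Sr Aw q u x / v x) = Aw * Real.log ‖x‖ + q * Real.log (u x) - Real.log (v x) := by
    simp only [Sr]
    rw [Real.log_div (mul_pos hA hq).ne' hv.ne', Real.log_mul hA.ne' hq.ne', Real.log_rpow hR,
      Real.log_rpow hu]
  simp only [Wt, Wf]
  rw [Real.rpow_def_of_pos hu, Real.rpow_def_of_pos hv, Real.rpow_def_of_pos hR,
    Real.rpow_def_of_pos hs, Real.rpow_def_of_pos ht, Real.rpow_def_of_pos hR, ls, lt,
    ← Real.exp_add, ← Real.exp_add, ← Real.exp_add, ← Real.exp_add]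
  congr 1
  linear_combination (Real.log (u x)) * ha + (Real.log (v x)) * hb


/-- **Certificate implies nonexistence for the system with equal weights `Aw`**, with the weight
`|x|^c u^a v^a`, in the literal class of the problem. -/
theorem no_solution_of_ncert (hn4 : 4 < n) {p q a c Aw lam mu c0 : ℝ} {co : Fin 11 → ℝ}
    (hcert : ∀ A : NAtoms, A.Realizable n → c0 * A.EW ≤ ∑ k, co k * NAtoms.DD n p q a c Aw A k)
    (hc0 : 0 < c0) (hc : 0 ≤ c)
    (ha : a = mu * q - lam) (hb : a = lam * p - mu) (hlam : 0 ≤ lam) (hmu : 0 ≤ mu)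
    (hκ : 0 ≤ c - Aw * (lam + mu))
    (hD : (n : ℝ) < 2 * (lam + mu) + 4 - (c - Aw * (lam + mu)))
    {u v : Eu n → ℝ} (hucont : Continuous u) (hvcont : Continuous v)
    (hupos : ∀ x, 0 < u x) (hvpos : ∀ x, 0 < v x)
    (hu : ContDiffOn ℝ 2 u {0}ᶜ) (hv : ContDiffOn ℝ 2 v {0}ᶜ)
    (hpdeU : ∀ x, x ≠ 0 → ∑ i, Hf u i i x = - (‖x‖ ^ Aw * v x ^ p))
    (hpdeV : ∀ x, x ≠ 0 → ∑ i, Hf v i i x = - (‖x‖ ^ Aw * u x ^ q)) : False := by
  have hn4R : (4 : ℝ) < n := by exact_mod_cast hn4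
  have hn : (n : ℝ) ≠ 0 := by linarith
  have hDpos : 0 < lam + mu := by linarith
  obtain ⟨Ω, hΩdef⟩ : ∃ Ω : Set (Eu n), Ω = {0}ᶜ := ⟨_, rfl⟩
  have hΩ : IsOpen Ω := by rw [hΩdef]; exact isOpen_compl_singleton
  rw [← hΩdef] at hu hv
  have hΩne : ∀ x ∈ Ω, x ≠ 0 := fun x hx => by rwa [hΩdef] at hx
  have hneΩ : ∀ x : Eu n, x ≠ 0 → x ∈ Ω := fun x hx => by rwa [hΩdef]
  have hLoc : ∀ x ∈ Ω, LocW u v Aw Aw p q x := fun x hx =>
    ⟨hu.contDiffAt (hΩ.mem_nhds hx), hv.contDiffAt (hΩ.mem_nhds hx), hupos x, hvpos x,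
      hΩne x hx, hpdeU x (hΩne x hx), hpdeV x (hΩne x hx), hn⟩
  have huposΩ : ∀ x ∈ Ω, 0 < u x := fun x _ => hupos x
  have hvposΩ : ∀ x ∈ Ω, 0 < v x := fun x _ => hvpos x
  -- the weight
  have hWfcont : Continuous (Wf u v a a) :=
    (hucont.rpow_const fun x => Or.inl (hupos x).ne').mul
      (hvcont.rpow_const fun x => Or.inl (hvpos x).ne')
  have hWfpos : ∀ x, 0 < Wf u v a a x := fun x =>
    mul_pos (Real.rpow_pos_of_pos (hupos x) a) (Real.rpow_pos_of_pos (hvpos x) a)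
  have hNc : ContinuousOn (fun y : Eu n => ‖y‖ ^ c) Ω := (contDiffOn_normpow hΩne c).continuousOn
  have hWc : ContinuousOn (Wt u v a c) Ω := hNc.mul hWfcont.continuousOn
  have hWpos : ∀ x, x ≠ 0 → 0 < Wt u v a c x := fun x hx =>
    mul_pos (Real.rpow_pos_of_pos (norm_pos_iff.2 hx) c) (hWfpos x)
  obtain ⟨Wm, hWm⟩ := (isCompact_closedBall (0 : Eu n) 1).bddAbove_image hWfcont.continuousOn
  have hWm' : ∀ x : Eu n, x ≠ 0 → ‖x‖ ≤ 1 → Wt u v a c x ≤ Wm := fun x _ hx => by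
    have h1 : Wf u v a a x ≤ Wm := hWm ⟨x, by simpa using hx, rfl⟩
    have h2 : ‖x‖ ^ c ≤ 1 := Real.rpow_le_one (norm_nonneg _) hx hc
    have h3 := mul_le_mul_of_nonneg_right h2 (hWfpos x).le
    simp only [Wt]
    linarith
  have hSpos : ∀ x : Eu n, x ≠ 0 → 0 < Sr Aw p v x / u x := fun x hx =>
    div_pos (mul_pos (Real.rpow_pos_of_pos (norm_pos_iff.2 hx) _)
      (Real.rpow_pos_of_pos (hvpos x) p)) (hupos x)
  have hTpos : ∀ x : Eu n, x ≠ 0 → 0 < Sr Aw q u x / v x := fun x hx =>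
    div_pos (mul_pos (Real.rpow_pos_of_pos (norm_pos_iff.2 hx) _)
      (Real.rpow_pos_of_pos (hupos x) q)) (hvpos x)
  have hwpos : ∀ x : Eu n, x ≠ 0 → 0 < dot (fun i => Xi i x) (fun i => Xi i x) := fun x hx => by
    rw [dot_Xi x hx]
    have : 0 < ‖x‖ := norm_pos_iff.2 hx
    positivity
  have hreal : ∀ x ∈ Ω, NAtoms.Realizable n (natAt u v Aw p q x) := by
    intro x hx
    have hJ := (hLoc x hx).jet a a
    exact natomsOf_realizable (by linarith) hJ.Usymm hJ.Vsymm hJ.trU hJ.trV (hSpos x (hΩne x hx))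
      (hTpos x (hΩne x hx))
  have hfu : ContinuousOn (Sr Aw p v) Ω := (contDiffOn_Sr hΩne hv hvposΩ Aw p).continuousOn
  have hfv : ContinuousOn (Sr Aw q u) Ω := (contDiffOn_Sr hΩne hu huposΩ Aw q).continuousOn
  have hU1 : ∀ i j, ContinuousOn (Ug u (Sr Aw p v) i j) Ω :=
    contOn_Ug hΩ hu huposΩ hn hfu
  have hV1 : ∀ i j, ContinuousOn (Ug v (Sr Aw q u) i j) Ω :=
    contOn_Ug hΩ hv hvposΩ hn hfv
  have hX1 : ∀ i, ContinuousOn (Xf u i) Ω := fun i => (contDiffOn_Xf hΩ hu huposΩ i).continuousOn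
  have hY1 : ∀ i, ContinuousOn (Xf v i) Ω := fun i => (contDiffOn_Xf hΩ hv hvposΩ i).continuousOn
  have hZ1 : ∀ i, ContinuousOn (Xi (n := n) i) Ω := fun i => (contDiffOn_Xi hΩne i).continuousOn
  have hs1 : ContinuousOn (fun y => Sr Aw p v y / u y) Ω :=
    hfu.div hu.continuousOn fun x hx => (hupos x).ne'
  have ht1 : ContinuousOn (fun y => Sr Aw q u y / v y) Ω :=
    hfv.div hv.continuousOn fun x hx => (hvpos x).ne'
  have hip : ∀ {A B : Fin n → Fin n → Eu n → ℝ}, (∀ i j, ContinuousOn (A i j) Ω) →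
      (∀ i j, ContinuousOn (B i j) Ω) →
      ContinuousOn (fun x => ip (fun i j => A i j x) (fun i j => B i j x)) Ω :=
    fun hA hB => continuousOn_finsetSum _ fun i _ => continuousOn_finsetSum _ fun j _ =>
      (hA i j).mul (hB i j)
  have hBB : ∀ {A : Fin n → Fin n → Eu n → ℝ} {P R : Fin n → Eu n → ℝ},
      (∀ i j, ContinuousOn (A i j) Ω) → (∀ i, ContinuousOn (P i) Ω) → (∀ i, ContinuousOn (R i) Ω) →
      ContinuousOn (fun x => BB (fun i j => A i j x) (fun i => P i x) (fun i => R i x)) Ω :=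
    fun hA hP hR => continuousOn_finsetSum _ fun i _ => continuousOn_finsetSum _ fun j _ =>
      (hA i j).mul ((hP i).mul (hR j))
  have hdot : ∀ {P R : Fin n → Eu n → ℝ}, (∀ i, ContinuousOn (P i) Ω) →
      (∀ i, ContinuousOn (R i) Ω) → ContinuousOn (fun x => dot (fun i => P i x) (fun i => R i x)) Ω :=
    fun hP hR => continuousOn_finsetSum _ fun i _ => (hP i).mul (hR i)
  have a1 := hip hU1 hU1
  have a2 := hip hU1 hV1
  have a3 := hip hV1 hV1
  have a4 := hBB hU1 hX1 hX1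
  have a5 := hBB hU1 hX1 hY1
  have a6 := hBB hU1 hY1 hY1
  have a7 := hBB hV1 hX1 hX1
  have a8 := hBB hV1 hX1 hY1
  have a9 := hBB hV1 hY1 hY1
  have a10 := hdot hX1 hX1
  have a11 := hdot hX1 hY1
  have a12 := hdot hY1 hY1
  have a15 := hdot hX1 hZ1
  have a16 := hdot hY1 hZ1
  have a17 := hdot hZ1 hZ1
  have a18 := hBB hU1 hX1 hZ1
  have a19 := hBB hV1 hY1 hZ1
  have hDc : ∀ c' k, ContinuousOn (fun x => NAtoms.DD n p q a c' Aw (natAt u v Aw p q x) k) Ω :=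
    fun c' k => continuousOn_ND_aux a1 a2 a3 a4 a5 a6 a7 a8 a9 a10 a11 a12 hs1 ht1 a15 a16 a17 a18
      a19 n p q a c' Aw k
  have hEc : ContinuousOn (fun x => (natAt u v Aw p q x).EW) Ω :=
    ((((((a1.add a3).add (a10.pow 2)).add (a12.pow 2)).add (hs1.pow 2)).add (ht1.pow 2))).add
      (a17.pow 2)
  have hE0 : ∀ x, 0 ≤ (natAt u v Aw p q x).EW := fun x => EW_nonneg
  -- the field
  obtain ⟨Z, hZdef⟩ : ∃ Z : Fin n → Eu n → ℝ, Z = fun i y =>
      Wt u v a c y * ∑ k, co k * NFlds u v Aw p q k i y := ⟨_, rfl⟩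
  have hFc := contOn_NFlds (Aw := Aw) (p := p) (q := q) hΩ hΩne hu hv huposΩ hvposΩ hn
  have hZc : ∀ i, ContinuousOn (Z i) Ω := by
    intro i
    rw [hZdef]
    exact hWc.mul (continuousOn_finsetSum _ fun k _ => continuousOn_const.mul (hFc k i))
  have hZb : ∀ i x, x ≠ 0 → |Z i x| ≤ (∑ k, |co k|) *
      (Wt u v a c x * (natAt u v Aw p q x).EW ^ (3 / 4 : ℝ)) := by
    intro i x hx
    rw [hZdef]
    simp only
    rw [abs_mul, abs_of_pos (hWpos x hx)]
    have h1 : |∑ k, co k * NFlds u v Aw p q k i x| ≤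
        (∑ k, |co k|) * (natAt u v Aw p q x).EW ^ (3 / 4 : ℝ) := by
      refine (Finset.abs_sum_le_sum_abs _ _).trans ?_
      rw [Finset.sum_mul]
      refine Finset.sum_le_sum fun k _ => ?_
      rw [abs_mul]
      exact mul_le_mul_of_nonneg_left (abs_NF_le k i x) (abs_nonneg _)
    have h2 := mul_le_mul_of_nonneg_left h1 (hWpos x hx).le
    linarith
  have hWE : ∀ x, x ≠ 0 → Wt u v a c x ≤ 1 * ‖x‖ ^ (c - Aw * (lam + mu)) *
      (natAt u v Aw p q x).EW ^ ((lam + mu) / 2) := by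
    intro x hx
    rw [one_mul, Wt_eq_stw hx (hupos x) (hvpos x) ha hb]
    have h1 := stw_pow_le (U := fun i j => Ug u (Sr Aw p v) i j x)
      (V := fun i j => Ug v (Sr Aw q u) i j x) (X := fun i => Xf u i x) (Y := fun i => Xf v i x)
      (hSpos x hx) (hTpos x hx) (hwpos x hx) hlam hmu le_rfl
    rw [Real.rpow_zero, mul_one, add_zero] at h1
    have h2 : 0 ≤ ‖x‖ ^ (c - Aw * (lam + mu)) := Real.rpow_nonneg (norm_nonneg _) _
    have h3 := mul_le_mul_of_nonneg_right h1 h2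
    have e : (natAt u v Aw p q x).EW = (watAt u v Aw Aw p q x).EW := rfl
    rw [e]
    simp only [watAt]
    linarith
  -- the weak inequality
  have hweak : ∀ φ : Eu n → ℝ, ContDiff ℝ 1 φ → HasCompactSupport φ → (∀ x, 0 ≤ φ x) →
      0 ∉ tsupport φ →
      c0 * ∫ x, φ x * (Wt u v a c x * (natAt u v Aw p q x).EW) ≤
        - ∑ i, ∫ x, fderiv ℝ φ x (ee i) * Z i x := by
    intro φ hφ hφc hφ0 h0
    have hφΩ : tsupport φ ⊆ Ω := by
      intro y hy
      refine hneΩ y ?_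
      rintro rfl
      exact h0 hy
    have hdφ : ∀ i, Continuous (pd i φ) := fun i =>
      (hφ.continuous_fderiv one_ne_zero).clm_apply continuous_const
    have hdφs : ∀ i, HasCompactSupport (pd i φ) := fun i => hφc.fderiv_apply (𝕜 := ℝ) (ee i)
    have hdφΩ : ∀ i, tsupport (pd i φ) ⊆ Ω := fun i =>
      (tsupport_fderiv_apply_subset ℝ (ee i)).trans hφΩ
    have hint : ∀ k i, Integrable fun x => pd i φ x * (Wt u v a c x * NFlds u v Aw p q k i x) := by
      intro k i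
      have := integrable_mul_of_tsupport hΩ (hWc.mul (hFc k i)) (hdφ i) (hdφs i) (hdφΩ i)
      exact this.congr (Eventually.of_forall fun x => by simp only [Pi.mul_apply]; ring)
    have h1 : ∀ i, ∫ x, fderiv ℝ φ x (ee i) * Z i x =
        ∑ k, co k * ∫ x, pd i φ x * (Wt u v a c x * NFlds u v Aw p q k i x) := by
      intro i
      simp_rw [← integral_const_mul]
      rw [← integral_finsetSum _ (fun k _ => (hint k i).const_mul _)]
      refine integral_congr_ae (Eventually.of_forall fun x => ?_)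
      rw [hZdef]
      show fderiv ℝ φ x (ee i) * (Wt u v a c x * ∑ k, co k * NFlds u v Aw p q k i x) =
        ∑ k, co k * (pd i φ x * (Wt u v a c x * NFlds u v Aw p q k i x))
      rw [Finset.mul_sum, Finset.mul_sum]
      refine Finset.sum_congr rfl fun k _ => ?_
      simp only [pd]
      ring
    simp_rw [h1]
    rw [Finset.sum_comm]
    simp_rw [← Finset.mul_sum]
    simp_rw [weak_NFlds_c hΩ hΩne a c hu hv hLoc hn hFc hWfcont.continuousOn (hDc 0) hφ hφc hφΩ]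
    have hintD : ∀ k, Integrable fun x =>
        φ x * (Wt u v a c x * NAtoms.DD n p q a c Aw (natAt u v Aw p q x) k) := by
      intro k
      have := integrable_mul_of_tsupport hΩ (hWc.mul (hDc c k)) hφ.continuous hφc hφΩ
      exact this.congr (Eventually.of_forall fun x => mul_comm _ _)
    have hintE : Integrable fun x => φ x * (Wt u v a c x * (natAt u v Aw p q x).EW) := by
      have := integrable_mul_of_tsupport hΩ (hWc.mul hEc) hφ.continuous hφc hφΩ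
      exact this.congr (Eventually.of_forall fun x => mul_comm _ _)
    have h2 : - ∑ k, co k * - ∫ x, φ x * (Wt u v a c x * NAtoms.DD n p q a c Aw (natAt u v Aw p q x) k) =
        ∫ x, φ x * (Wt u v a c x * ∑ k, co k * NAtoms.DD n p q a c Aw (natAt u v Aw p q x) k) := by
      simp only [mul_neg, Finset.sum_neg_distrib, neg_neg]
      simp_rw [← integral_const_mul]
      rw [← integral_finsetSum _ (fun k _ => (hintD k).const_mul _)]
      refine integral_congr_ae (Eventually.of_forall fun x => ?_)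
      show ∑ k, co k * (φ x * (Wt u v a c x * NAtoms.DD n p q a c Aw (natAt u v Aw p q x) k)) =
        φ x * (Wt u v a c x * ∑ k, co k * NAtoms.DD n p q a c Aw (natAt u v Aw p q x) k)
      rw [Finset.mul_sum, Finset.mul_sum]
      refine Finset.sum_congr rfl fun k _ => ?_
      ring
    rw [h2, ← integral_const_mul]
    refine integral_mono (hintE.const_mul _) ?_ ?_
    · have hQc : ContinuousOn (fun x => ∑ k, co k * NAtoms.DD n p q a c Aw (natAt u v Aw p q x) k) Ω :=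
        continuousOn_finsetSum Finset.univ fun k _ => continuousOn_const.mul (hDc c k)
      have := integrable_mul_of_tsupport hΩ (hWc.mul hQc) hφ.continuous hφc hφΩ
      exact this.congr (Eventually.of_forall fun x => mul_comm _ _)
    · intro x
      by_cases hx : x ∈ Ω
      · have h3 := hcert _ (hreal x hx)
        have h4 : 0 ≤ φ x * Wt u v a c x := mul_nonneg (hφ0 x) (hWpos x (hΩne x hx)).le
        have h5 := mul_le_mul_of_nonneg_left h3 h4
        show c0 * (φ x * (Wt u v a c x * (natAt u v Aw p q x).EW)) ≤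
          φ x * (Wt u v a c x * ∑ k, co k * NAtoms.DD n p q a c Aw (natAt u v Aw p q x) k)
        linarith
      · have h0' : φ x = 0 := image_eq_zero_of_notMem_tsupport (fun h => hx (hφΩ h))
        show c0 * (φ x * (Wt u v a c x * (natAt u v Aw p q x).EW)) ≤
          φ x * (Wt u v a c x * ∑ k, co k * NAtoms.DD n p q a c Aw (natAt u v Aw p q x) k)
        simp [h0']
  have hfr : finrank ℝ (Eu n) = n := finrank_euclideanSpace_fin
  refine cutoff_false_poly (V := Eu n) (fun i : Fin n => ee i) Z (Wt u v a c)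
    (fun x => (natAt u v Aw p q x).EW) (c0 := c0) (C := ∑ k, |co k|) (K := 1)
    (D := lam + mu) (κ := c - Aw * (lam + mu)) (Wm := Wm)
    ?_ ?_ ?_ hWpos ?_ hc0 ?_ zero_le_one hDpos hκ hWm' ?_ ?_ hZb hWE hweak
  · intro i
    rw [← hΩdef]
    exact hZc i
  · rw [← hΩdef]
    exact hWc
  · rw [← hΩdef]
    exact hEc
  · exact fun x _ => hE0 x
  · exact Finset.sum_nonneg fun k _ => abs_nonneg _
  · rw [hfr]
    exact hn4
  · rw [hfr]
    exact hD

/-- The same, with Mathlib's Laplacian. -/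
theorem no_solution_of_ncert_lap (hn4 : 4 < n) {p q a c Aw lam mu c0 : ℝ} {co : Fin 11 → ℝ}
    (hcert : ∀ A : NAtoms, A.Realizable n → c0 * A.EW ≤ ∑ k, co k * NAtoms.DD n p q a c Aw A k)
    (hc0 : 0 < c0) (hc : 0 ≤ c)
    (ha : a = mu * q - lam) (hb : a = lam * p - mu) (hlam : 0 ≤ lam) (hmu : 0 ≤ mu)
    (hκ : 0 ≤ c - Aw * (lam + mu))
    (hD : (n : ℝ) < 2 * (lam + mu) + 4 - (c - Aw * (lam + mu)))
    {u v : Eu n → ℝ} (hucont : Continuous u) (hvcont : Continuous v)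
    (hupos : ∀ x, 0 < u x) (hvpos : ∀ x, 0 < v x)
    (hu : ContDiffOn ℝ 2 u {0}ᶜ) (hv : ContDiffOn ℝ 2 v {0}ᶜ)
    (hpdeU : ∀ x, x ≠ 0 → - Δ u x = ‖x‖ ^ Aw * v x ^ p)
    (hpdeV : ∀ x, x ≠ 0 → - Δ v x = ‖x‖ ^ Aw * u x ^ q) : False := by
  have hc' : ∀ {f : Eu n → ℝ}, ContDiffOn ℝ 2 f {0}ᶜ → ∀ x : Eu n, x ≠ 0 → ContDiffAt ℝ 2 f x :=
    fun hf x hx => hf.contDiffAt (isOpen_compl_singleton.mem_nhds hx)
  refine no_solution_of_ncert hn4 hcert hc0 hc ha hb hlam hmu hκ hD hucont hvcont hupos hvpos hu hv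
    ?_ ?_
  · intro x hx
    rw [← laplacian_eq_sum_Hf (hc' hu x hx), ← hpdeU x hx, neg_neg]
  · intro x hx
    rw [← laplacian_eq_sum_Hf (hc' hv x hx), ← hpdeV x hx, neg_neg]

end Vale.Agent.Lib.P100
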