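import Vale.Agent.Lib.P100.Neg4
import Vale.Agent.Lib.P100.CFBase

/-!
# P100: equal negative weights: transfer of a certificate from the effective dimension.

A certificate of the eight field family in the real dimension `m = 2 (n + A) / (2 + A)` gives, through
the virtual atoms `NAtoms.Phi`, a certificate for the weighted system in dimension `n`.
-/

noncomputable section

namespace Vale.Agent.Lib.P100

/-- The coefficient vector of the field in dimension `n`. -/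
def coefT (G E1 F1 E2 F2 h γ η β : ℝ) : Fin 11 → ℝ :=
  ![1, G, -E1, -F1, -(G * F2), -(G * E2), -(h + γ), -(h + G * γ), η, β, G * β]

/-- **The exact identity.** The divergence in dimension `n` is the divergence in dimension `m` at the
virtual atoms, plus two terms with `x w - tx²`, `y w - ty²`. -/
theorem phi_identity {n m p q a Aw G E1 F1 E2 F2 h γ mm η uv : ℝ}
    (h1 : 1 / m = 1 / n - γ) (h2 : 2 / m = 2 / n - 2 * γ)
    (hmm : 2 * γ * mm = -Aw * (1 - 2 / n)) (A : NAtoms) :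
    ∑ k, coefT G E1 F1 E2 F2 h γ η (-Aw / 2) k * NAtoms.DD n p q a (-Aw) Aw A k
      = Atoms.Q m p q a a (CF.coef E1 E2 F1 F2 G h) (A.Phi n Aw γ mm uv)
        + (((-Aw / 2) * (n - 2 - Aw) - Aw ^ 2 / 2) * (A.x * A.w)
            - (Aw ^ 2 * (1 / 2 - 1 / n) + γ * mm ^ 2) * A.tx ^ 2)
        + G * (((-Aw / 2) * (n - 2 - Aw) - Aw ^ 2 / 2) * (A.y * A.w)
            - (Aw ^ 2 * (1 / 2 - 1 / n) + γ * mm ^ 2) * A.ty ^ 2)
        + η * (A.w * (a * A.tx + a * A.ty) + (n - 4 + -Aw) * A.w ^ 2) := by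
  rw [CF.Q_coef]
  simp only [NAtoms.Phi, h1, h2]
  simp only [coefT, NAtoms.DD, Fin.sum_univ_succ, Fin.sum_univ_zero]
  simp
  linear_combination (-(A.s * A.tx) - G * (A.t * A.ty)
    + a / 2 * (A.x * A.tx + A.z * A.tx + G * (A.z * A.ty) + G * (A.y * A.ty))
    - F1 * (A.z * A.tx) - G * F2 * (A.z * A.ty) - E1 * (A.x * A.tx) - A.x * A.tx
    - G * E2 * (A.y * A.ty) - G * (A.y * A.ty)) * hmm

lemma Phi_UU_lb {n Aw γ mm uv : ℝ} (hn : 2 ≤ n) (hγ : 0 ≤ γ) {A : NAtoms} (hA : A.Realizable n) :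
    A.UU / 2 - Aw ^ 2 * (A.x ^ 2 + A.w ^ 2) ≤ (A.Phi n Aw γ mm uv).UU := by
  have hn0 : 0 < n := by linarith
  have h := hA.tensU 0 0 (-4 * Aw)
  have hx := hA.base.base.x_nonneg
  have hw := hA.base.w_nonneg
  have hκ : 1 / n ≤ 1 := by rw [div_le_one hn0]; linarith
  have hν : 0 ≤ 1 / 2 - 1 / n := by
    have : 1 / n ≤ 1 / 2 := one_div_le_one_div_of_le (by norm_num) hn
    linarith
  have hκ0 : 0 ≤ 1 / n := by positivity
  have h5 : 0 ≤ Aw ^ 2 * (A.x - A.w) ^ 2 := by positivity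
  have h6 : 0 ≤ Aw ^ 2 * ((1 / n) * (A.x * A.w)) := by positivity
  have h7 : 0 ≤ Aw ^ 2 * (A.x * A.w / 2 + (1 / 2 - 1 / n) * A.tx ^ 2) := by positivity
  have h8 : 0 ≤ γ * (A.s + mm * A.tx) ^ 2 := by positivity
  show A.UU / 2 - Aw ^ 2 * (A.x ^ 2 + A.w ^ 2) ≤ A.UU - 2 * Aw * A.uxz
    + Aw ^ 2 * ((A.x * A.w + A.tx ^ 2) / 2 - A.tx ^ 2 / n) + γ * (A.s + mm * A.tx) ^ 2
  have e : Aw ^ 2 * ((A.x * A.w + A.tx ^ 2) / 2 - A.tx ^ 2 / n)
      = Aw ^ 2 * (A.x * A.w / 2 + (1 / 2 - 1 / n) * A.tx ^ 2) := by ring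
  rw [e]
  linear_combination (1 / 2) * h + h5 + 2 * h6 + h7 + h8

lemma Phi_VV_lb {n Aw γ mm uv : ℝ} (hn : 2 ≤ n) (hγ : 0 ≤ γ) {A : NAtoms} (hA : A.Realizable n) :
    A.VV / 2 - Aw ^ 2 * (A.y ^ 2 + A.w ^ 2) ≤ (A.Phi n Aw γ mm uv).VV := by
  have hn0 : 0 < n := by linarith
  have h := hA.tensV 0 0 (-4 * Aw)
  have hy := hA.base.base.y_nonneg
  have hw := hA.base.w_nonneg
  have hν : 0 ≤ 1 / 2 - 1 / n := by
    have : 1 / n ≤ 1 / 2 := one_div_le_one_div_of_le (by norm_num) hn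
    linarith
  have hκ0 : 0 ≤ 1 / n := by positivity
  have h5 : 0 ≤ Aw ^ 2 * (A.y - A.w) ^ 2 := by positivity
  have h6 : 0 ≤ Aw ^ 2 * ((1 / n) * (A.y * A.w)) := by positivity
  have h7 : 0 ≤ Aw ^ 2 * (A.y * A.w / 2 + (1 / 2 - 1 / n) * A.ty ^ 2) := by positivity
  have h8 : 0 ≤ γ * (A.t + mm * A.ty) ^ 2 := by positivity
  show A.VV / 2 - Aw ^ 2 * (A.y ^ 2 + A.w ^ 2) ≤ A.VV - 2 * Aw * A.vyz
    + Aw ^ 2 * ((A.y * A.w + A.ty ^ 2) / 2 - A.ty ^ 2 / n) + γ * (A.t + mm * A.ty) ^ 2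
  have e : Aw ^ 2 * ((A.y * A.w + A.ty ^ 2) / 2 - A.ty ^ 2 / n)
      = Aw ^ 2 * (A.y * A.w / 2 + (1 / 2 - 1 / n) * A.ty ^ 2) := by ring
  rw [e]
  linear_combination (1 / 2) * h + h5 + 2 * h6 + h7 + h8

/-- The coercivity bookkeeping. -/
lemma coercive_core {c0 θ η d lam Aw c1 UU VV x y s t w PU PV D8 : ℝ}
    (hc0 : 0 ≤ c0) (hη : 0 ≤ η) (hUU : 0 ≤ UU) (hVV : 0 ≤ VV)
    (hθ0 : 0 ≤ θ) (hθ1 : θ ≤ 1) (hθA : θ * Aw ^ 2 ≤ 1 / 2) (hθw : 2 * (c0 * θ * Aw ^ 2) ≤ η * d / 4)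
    (hηlam : η * lam ≤ c0 / 4)
    (hc1 : c1 ≤ c0 * θ / 2) (hc2 : c1 ≤ c0 / 4) (hc3 : c1 ≤ c0) (hc4 : c1 ≤ η * d / 4)
    (hPU0 : 0 ≤ PU) (hPV0 : 0 ≤ PV)
    (hPU : UU / 2 - Aw ^ 2 * (x ^ 2 + w ^ 2) ≤ PU) (hPV : VV / 2 - Aw ^ 2 * (y ^ 2 + w ^ 2) ≤ PV)
    (hD : d / 2 * w ^ 2 - lam * (x ^ 2 + y ^ 2) ≤ D8) :
    c1 * (UU + VV + x ^ 2 + y ^ 2 + s ^ 2 + t ^ 2 + w ^ 2)
      ≤ c0 * (PU + PV + x ^ 2 + y ^ 2 + s ^ 2 + t ^ 2) + η * D8 := by
  have u1 : 0 ≤ PU - θ * (UU / 2 - Aw ^ 2 * (x ^ 2 + w ^ 2)) := by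
    have a1 := mul_nonneg hθ0 (sub_nonneg.2 hPU)
    have a2 := mul_nonneg (sub_nonneg.2 hθ1) hPU0
    linear_combination a1 + a2
  have u2 : 0 ≤ PV - θ * (VV / 2 - Aw ^ 2 * (y ^ 2 + w ^ 2)) := by
    have a1 := mul_nonneg hθ0 (sub_nonneg.2 hPV)
    have a2 := mul_nonneg (sub_nonneg.2 hθ1) hPV0
    linear_combination a1 + a2
  have u1' := mul_le_mul_of_nonneg_left (sub_nonneg.1 u1) hc0
  have u2' := mul_le_mul_of_nonneg_left (sub_nonneg.1 u2) hc0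
  have d1 := mul_le_mul_of_nonneg_left hD hη
  have k1 := mul_le_mul_of_nonneg_right hc1 hUU
  have k2 := mul_le_mul_of_nonneg_right hc1 hVV
  have k3 := mul_le_mul_of_nonneg_right hc2 (sq_nonneg x)
  have k4 := mul_le_mul_of_nonneg_right hc2 (sq_nonneg y)
  have k5 := mul_le_mul_of_nonneg_right hc3 (sq_nonneg s)
  have k6 := mul_le_mul_of_nonneg_right hc3 (sq_nonneg t)
  have k7 := mul_le_mul_of_nonneg_right hc4 (sq_nonneg w)
  have m1 := mul_le_mul_of_nonneg_right (mul_le_mul_of_nonneg_left hθA hc0) (sq_nonneg x)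
  have m2 := mul_le_mul_of_nonneg_right (mul_le_mul_of_nonneg_left hθA hc0) (sq_nonneg y)
  have m3 := mul_le_mul_of_nonneg_right hθw (sq_nonneg w)
  have m4 := mul_le_mul_of_nonneg_right hηlam (sq_nonneg x)
  have m5 := mul_le_mul_of_nonneg_right hηlam (sq_nonneg y)
  linear_combination k1 + k2 + k3 + k4 + k5 + k6 + k7 + d1 + m1 + m2 + m3 + m4 + m5 + u1' + u2'

/-- **Transfer.** A certificate of the eight field family in the effective dimension gives a certificate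
for the system with equal negative weights. -/
theorem ncert_of_cert8 {n m p q a Aw G E1 F1 E2 F2 h c0 : ℝ} (hn : 2 < n) (hnc : 0 < n - 4 + -Aw)
    (hA : Aw < 0) (hA2 : -2 < Aw) (hm : m = 2 * (n + Aw) / (2 + Aw)) (ha0 : 0 ≤ a) (hG : 0 < G)
    (hc0 : 0 < c0) (hcert : Cert m p q a a (CF.coef E1 E2 F1 F2 G h) c0) :
    ∃ γ η c1 : ℝ, 0 < c1 ∧ ∀ A : NAtoms, A.Realizable n →
      c1 * A.EW ≤ ∑ k, coefT G E1 F1 E2 F2 h γ η (-Aw / 2) k * NAtoms.DD n p q a (-Aw) Aw A k := by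
  have hn0 : (0 : ℝ) < n := by linarith
  have h2w : 0 < 2 + Aw := by linarith
  have hnA : 0 < n + Aw := by linarith
  have hm0 : 0 < m := by rw [hm]; positivity
  have hn2 : 0 < n - 2 := by linarith
  obtain ⟨γ, hγd⟩ : ∃ γ : ℝ, γ = 1 / n - 1 / m := ⟨_, rfl⟩
  have hγf : γ = -Aw * (n - 2) / (2 * n * (n + Aw)) := by
    rw [hγd, hm]
    field_simp
    ring
  have hγ : 0 < γ := by
    rw [hγf]
    exact div_pos (mul_pos (neg_pos.2 hA) hn2) (by positivity)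
  have hA0 : Aw ≠ 0 := hA.ne
  have hn20 : n - 2 ≠ 0 := hn2.ne'
  obtain ⟨mm, hmmd⟩ : ∃ mm : ℝ, mm = -Aw * (1 - 2 / n) / (2 * γ) := ⟨_, rfl⟩
  have hmm : 2 * γ * mm = -Aw * (1 - 2 / n) := by
    rw [hmmd]; field_simp
  have h1 : 1 / m = 1 / n - γ := by rw [hγd]; ring
  have h2 : 2 / m = 2 / n - 2 * γ := by rw [hγd]; ring
  have hC : (-Aw / 2) * (n - 2 - Aw) - Aw ^ 2 / 2 = Aw ^ 2 * (1 / 2 - 1 / n) + γ * mm ^ 2 := by
    have e : γ * mm ^ 2 = Aw ^ 2 * (1 - 2 / n) ^ 2 / (4 * γ) := by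
      rw [hmmd]; field_simp; ring
    rw [e, hγf]
    field_simp
    ring
  obtain ⟨θ', hθ'0, hd⟩ := exists_theta ha0 hnc
  obtain ⟨lam, hlam⟩ : ∃ lam : ℝ, lam = (a * θ') ^ 2 / (4 * (n - 4 + -Aw - a / θ')) := ⟨_, rfl⟩
  have hlam0 : 0 ≤ lam := by rw [hlam]; positivity
  obtain ⟨η, hηd⟩ : ∃ η : ℝ, η = c0 / 4 / (lam + 1) := ⟨_, rfl⟩
  have hη : 0 < η := by rw [hηd]; positivity
  have hηlam : η * lam ≤ c0 / 4 := by
    rw [hηd, div_mul_eq_mul_div, div_le_iff₀ (by linarith only [hlam0])]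
    have := mul_nonneg hc0.le hlam0
    linarith only [this, hc0]
  obtain ⟨d, hdd⟩ : ∃ d : ℝ, d = n - 4 + -Aw - a / θ' := ⟨_, rfl⟩
  rw [← hdd] at hd
  obtain ⟨B, hB⟩ : ∃ B : ℝ, B = Aw ^ 2 + 1 := ⟨_, rfl⟩
  have hB0 : 0 < B := by rw [hB]; positivity
  obtain ⟨θ, hθd⟩ : ∃ θ : ℝ, θ = min (1 / (2 * B)) (η * d / (8 * c0 * B)) := ⟨_, rfl⟩
  have hθ0 : 0 < θ := by
    rw [hθd]
    exact lt_min (by positivity) (by positivity)
  have hθa : θ ≤ 1 / (2 * B) := by rw [hθd]; exact min_le_left _ _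
  have hθb : θ ≤ η * d / (8 * c0 * B) := by rw [hθd]; exact min_le_right _ _
  have hAB : Aw ^ 2 ≤ B := by rw [hB]; linarith only
  have hB1 : 1 ≤ B := by rw [hB]; nlinarith only [sq_nonneg Aw]
  have hθ1 : θ ≤ 1 := by
    refine hθa.trans ?_
    rw [div_le_one (by positivity)]
    linarith only [hB1]
  have hθA : θ * Aw ^ 2 ≤ 1 / 2 := by
    have e1 : θ * Aw ^ 2 ≤ 1 / (2 * B) * B :=
      mul_le_mul hθa hAB (sq_nonneg Aw) (by positivity)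
    have e2 : 1 / (2 * B) * B = 1 / 2 := by field_simp
    linarith only [e1, e2]
  have hθw : 2 * (c0 * θ * Aw ^ 2) ≤ η * d / 4 := by
    have e1 : θ * Aw ^ 2 ≤ η * d / (8 * c0 * B) * B :=
      mul_le_mul hθb hAB (sq_nonneg Aw) (by positivity)
    have e2 : η * d / (8 * c0 * B) * B = η * d / (8 * c0) := by field_simp
    have e3 := mul_le_mul_of_nonneg_left e1 hc0.le
    rw [e2] at e3
    have e4 : c0 * (η * d / (8 * c0)) = η * d / 8 := by field_simp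
    rw [e4] at e3
    linarith only [e3]
  obtain ⟨c1, hc1d⟩ : ∃ c1 : ℝ, c1 = min (c0 * θ / 2) (min (c0 / 4) (η * d / 4)) := ⟨_, rfl⟩
  have hc1 : c1 ≤ c0 * θ / 2 := by rw [hc1d]; exact min_le_left _ _
  have hc1' : c1 ≤ min (c0 / 4) (η * d / 4) := by rw [hc1d]; exact min_le_right _ _
  have hc2 := hc1'.trans (min_le_left _ _)
  have hc4 := hc1'.trans (min_le_right _ _)
  have hc3 : c1 ≤ c0 := by linarith only [hc2, hc0]
  have hc1pos : 0 < c1 := by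
    rw [hc1d]
    exact lt_min (by positivity) (lt_min (by positivity) (by positivity))
  refine ⟨γ, η, c1, hc1pos, fun A hAr => ?_⟩
  obtain ⟨uv, hgram⟩ := hAr.phiGram Aw γ mm m hγ.le h1
  have hb := hAr.base.base
  have hR : Atoms.Realizable m (A.Phi n Aw γ mm uv) :=
    { x_nonneg := hb.x_nonneg
      y_nonneg := hb.y_nonneg
      cs := hb.cs
      s_pos := hb.s_pos
      t_pos := hb.t_pos
      form_nonneg := hb.form_nonneg
      gram_nonneg := hgram }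
  have hc := hcert _ hR
  rw [phi_identity (uv := uv) h1 h2 hmm A]
  have hx := hb.x_nonneg
  have hy := hb.y_nonneg
  have hw := hAr.base.w_nonneg
  have hUU : 0 ≤ A.UU := by
    have := hb.gram_nonneg ![1, 0, 0, 0, 0]
    simpa [Fin.sum_univ_five, Atoms.gram] using this
  have hVV : 0 ≤ A.VV := by
    have := hb.gram_nonneg ![0, 1, 0, 0, 0]
    simpa [Fin.sum_univ_five, Atoms.gram] using this
  have hPU0 : 0 ≤ (A.Phi n Aw γ mm uv).UU := by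
    have := hR.gram_nonneg ![1, 0, 0, 0, 0]
    simpa [Fin.sum_univ_five, Atoms.gram] using this
  have hPV0 : 0 ≤ (A.Phi n Aw γ mm uv).VV := by
    have := hR.gram_nonneg ![0, 1, 0, 0, 0]
    simpa [Fin.sum_univ_five, Atoms.gram] using this
  have hPU := Phi_UU_lb (uv := uv) (Aw := Aw) (mm := mm) (by linarith : (2 : ℝ) ≤ n) hγ.le hAr
  have hPV := Phi_VV_lb (uv := uv) (Aw := Aw) (mm := mm) (by linarith : (2 : ℝ) ≤ n) hγ.le hAr
  have hf1 : 0 ≤ θ' ^ 2 * A.x + A.w + 2 * θ' * A.tx := by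
    have := hAr.base.form3 θ' 0 1
    linarith only [this]
  have hf2 : 0 ≤ θ' ^ 2 * A.y + A.w + 2 * θ' * A.ty := by
    have := hAr.base.form3 0 θ' 1
    linarith only [this]
  have hwl := wxi_lower0 (e := n - 4 + -Aw) (a := a) (θ := θ') (x := A.x) (y := A.y) ha0 hθ'0
    (by rw [← hdd]; exact hd) hx hy hw hf1 hf2
  have hlam' : lam = (a * θ') ^ 2 / (4 * d) := by rw [hlam, hdd]
  rw [← hdd, ← hlam'] at hwl
  have hcore := coercive_core (c0 := c0) (θ := θ) (η := η) (d := d) (lam := lam) (Aw := Aw) (c1 := c1)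
    (s := A.s) (t := A.t) hc0.le hη.le hUU hVV hθ0.le hθ1 hθA hθw hηlam hc1 hc2 hc3 hc4 hPU0 hPV0
    hPU hPV hwl
  have hcsx : A.tx ^ 2 ≤ A.x * A.w := by
    have := hAr.csX 0 0 1
    simpa using this
  have hcsy : A.ty ^ 2 ≤ A.y * A.w := by
    have := hAr.csY 0 0 1
    simpa using this
  have hCn : 0 ≤ Aw ^ 2 * (1 / 2 - 1 / n) + γ * mm ^ 2 := by
    have hν : 0 ≤ 1 / 2 - 1 / n := by
      have : 1 / n ≤ 1 / 2 := one_div_le_one_div_of_le (by norm_num) (by linarith)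
      linarith only [this]
    positivity
  have R1 := mul_nonneg hCn (sub_nonneg.2 hcsx)
  have R2 := mul_nonneg hG.le (mul_nonneg hCn (sub_nonneg.2 hcsy))
  rw [hC]
  have eEW : A.EW = A.UU + A.VV + A.x ^ 2 + A.y ^ 2 + A.s ^ 2 + A.t ^ 2 + A.w ^ 2 := rfl
  have eEE : (A.Phi n Aw γ mm uv).EE = (A.Phi n Aw γ mm uv).UU + (A.Phi n Aw γ mm uv).VV
      + A.x ^ 2 + A.y ^ 2 + A.s ^ 2 + A.t ^ 2 := rfl
  rw [eEE] at hc
  rw [eEW]
  linear_combination hcore + hc + R1 + R2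

end Vale.Agent.Lib.P100
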