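import Vale.Agent.Lib.P100.NegFinal
import Vale.Agent.Lib.P100.ClosedForm
import Vale.Agent.Lib.P100.NegPhi
import Vale.Agent.Lib.P100.CClean8

/-!
# P100: the system with equal negative weights: the explicit region.

For `-2 < A < 0` put `m = 2 (n + A) / (2 + A)`: the critical hyperbola of the weighted system is
`m/(p+1) + m/(q+1) = m - 2`. The region below is the region of the unweighted system in
the real dimension `m`.
-/

open scoped BigOperators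
open InnerProductSpace Laplacian

noncomputable section

namespace Vale.Agent.Lib.P100

open ClosedForm

/-- From a certificate and the closure inequality to the contradiction. -/
theorem no_solution_neg_of_cert {n : ℕ} (hn : 4 ≤ n) {Aw p q m a c0 : ℝ} {co : Fin 11 → ℝ} (hA : Aw < 0)
    (hA2 : -2 < Aw) (hq : 0 < q) (hp : 0 < p) (hpq : 1 < p * q)
    (hm : m = 2 * ((n : ℝ) + Aw) / (2 + Aw)) (ha0 : 0 ≤ a)
    (hcl : (m - 4) * (p * q - 1) < 2 * a * (p + q + 2)) (hc0 : 0 < c0)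
    (hcert : ∀ A : NAtoms, A.Realizable n →
      c0 * A.EW ≤ ∑ k, co k * NAtoms.DD n p q a (-Aw) Aw A k)
    {u v : Eu n → ℝ} (hucont : Continuous u) (hvcont : Continuous v)
    (hupos : ∀ x, 0 < u x) (hvpos : ∀ x, 0 < v x)
    (hu : ContDiffOn ℝ 2 u {0}ᶜ) (hv : ContDiffOn ℝ 2 v {0}ᶜ)
    (hpdeU : ∀ x, x ≠ 0 → - Laplacian.laplacian u x = ‖x‖ ^ Aw * v x ^ p)
    (hpdeV : ∀ x, x ≠ 0 → - Laplacian.laplacian v x = ‖x‖ ^ Aw * u x ^ q) : False := by
  have h2w : 0 < 2 + Aw := by linarith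
  have hd : 0 < p * q - 1 := by linarith
  obtain ⟨lam, hlam⟩ : ∃ lam : ℝ, lam = a * (1 + q) / (p * q - 1) := ⟨_, rfl⟩
  obtain ⟨mu, hmu⟩ : ∃ mu : ℝ, mu = a * (1 + p) / (p * q - 1) := ⟨_, rfl⟩
  have hlam0 : 0 ≤ lam := by rw [hlam]; positivity
  have hmu0 : 0 ≤ mu := by rw [hmu]; positivity
  have hsum : lam + mu = a * (p + q + 2) / (p * q - 1) := by
    rw [hlam, hmu, ← add_div]
    congr 1
    ring
  have hcl2 : m - 4 < 2 * (lam + mu) := by
    rw [hsum]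
    have : 2 * (a * (p + q + 2) / (p * q - 1)) = 2 * a * (p + q + 2) / (p * q - 1) := by ring
    rw [this, lt_div_iff₀ hd]
    exact hcl
  have hmw : (2 + Aw) * m = 2 * ((n : ℝ) + Aw) := by
    rw [hm]; field_simp
  have hsum0 : 0 ≤ lam + mu := by positivity
  have hnR : (4 : ℝ) ≤ n := by exact_mod_cast hn
  have hlm : 0 < lam + mu := by
    have hm4 : (n : ℝ) ≤ m := by
      rw [hm, le_div_iff₀ h2w]
      nlinarith
    have hmm : 4 ≤ m := hnR.trans hm4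
    have h0 : 0 ≤ (m - 4) * (p * q - 1) := mul_nonneg (by linarith) hd.le
    have h1 : 0 < a * (p + q + 2) := by linarith
    rw [hsum]
    exact div_pos h1 hd
  refine no_solution_of_ncert0_lap (n := n) (by omega) (c := -Aw) (lam := lam) (mu := mu) hcert hc0
    (by linarith) ?_ ?_ hlam0 hmu0 ?_ ?_ (by linarith) hlm hucont hvcont hupos hvpos hu hv hpdeU hpdeV
  · rw [hlam, hmu, div_mul_eq_mul_div, ← sub_div, eq_div_iff hd.ne']
    ring
  · rw [hlam, hmu, div_mul_eq_mul_div, ← sub_div, eq_div_iff hd.ne']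
    ring
  · have h3 := mul_nonneg (neg_nonneg.2 hA.le) (add_nonneg zero_le_one hsum0)
    linarith only [h3]
  · have h4 := mul_lt_mul_of_pos_left hcl2 h2w
    linarith only [h4, hmw]

/-- **Nonexistence for equal negative weights.** -/
theorem no_solution_neg {n : ℕ} (hn : 5 ≤ n) {Aw p q : ℝ} (hA : Aw < 0) (hA2 : -2 < Aw)
    (hp : 0 < p) (hq : 0 < q) (hpq : 1 < p * q) {m : ℝ} (hm : m = 2 * ((n : ℝ) + Aw) / (2 + Aw))
    (hreg : |cS m * p - 1| * |cS m * q - 1| < m ^ 2)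
    {u v : Eu n → ℝ} (hucont : Continuous u) (hvcont : Continuous v)
    (hupos : ∀ x, 0 < u x) (hvpos : ∀ x, 0 < v x)
    (hu : ContDiffOn ℝ 2 u {0}ᶜ) (hv : ContDiffOn ℝ 2 v {0}ᶜ)
    (hpdeU : ∀ x, x ≠ 0 → - Laplacian.laplacian u x = ‖x‖ ^ Aw * v x ^ p)
    (hpdeV : ∀ x, x ≠ 0 → - Laplacian.laplacian v x = ‖x‖ ^ Aw * u x ^ q) : False := by
  have hnR : (5 : ℝ) ≤ n := by exact_mod_cast hn
  have h2w : 0 < 2 + Aw := by linarith
  have hmn : (n : ℝ) ≤ m := by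
    rw [hm, le_div_iff₀ h2w]
    nlinarith
  have hm5 : 5 ≤ m := hnR.trans hmn
  have hm0 : 0 < m := by linarith
  -- the choice of `g`
  obtain ⟨g, hg, hP, hQ⟩ : ∃ g : ℝ, 0 < g ∧ |cS m * p - 1| < m * g ∧ |cS m * q - 1| * g < m := by
    obtain ⟨P, hPd⟩ : ∃ P : ℝ, P = |cS m * p - 1| := ⟨_, rfl⟩
    obtain ⟨Q, hQd⟩ : ∃ Q : ℝ, Q = |cS m * q - 1| := ⟨_, rfl⟩
    rw [← hPd, ← hQd] at hreg ⊢
    have hP0 : 0 ≤ P := hPd ▸ abs_nonneg _
    have hQ0 : 0 ≤ Q := hQd ▸ abs_nonneg _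
    obtain ⟨g, hg1, hg2, hg3⟩ := exists_g (A2 := P) (B2 := Q) (P := m) (U := m) hP0 hQ0 hm0 hm0
      (by nlinarith)
    exact ⟨g, hg1, hg2, by rw [mul_comm]; exact hg3⟩
  obtain ⟨σ, h0, h1, hf1, hf2, _, hf5, hf6⟩ := exists_sigma m p q g (by linarith) hg hP hQ
  have hm2 : 2 < m := by linarith
  have hF0 := F0_pos hm2
  have hE0 := E0_pos hm2
  obtain ⟨E, hE⟩ : ∃ E : ℝ, E = (1 - σ) * E0 m := ⟨_, rfl⟩
  obtain ⟨F, hF⟩ : ∃ F : ℝ, F = (1 - σ) * F0 m := ⟨_, rfl⟩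
  have hEpos : 0 < E := by rw [hE]; exact mul_pos (by linarith) hE0
  have hFpos : 0 < F := by rw [hF]; exact mul_pos (by linarith) hF0
  have hθ : (1 + 2 / m) * E = F := by
    rw [hE, hF, ← id_theta hm2]
    ring
  obtain ⟨a, ha⟩ : ∃ a : ℝ, a = aS m := ⟨_, rfl⟩
  simp only [← hE, ← hF, ← ha] at hf1 hf2 hf5 hf6
  have ha0 : 0 ≤ a := by
    rw [ha]; unfold aS
    exact div_nonneg (by linarith) (by linarith)
  have ha1 : a ≤ 1 := by
    rw [ha]; unfold aS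
    rw [div_le_one (by linarith)]
    linarith
  have hgg : 0 < g ^ 2 := by positivity
  have h1A : 0 < pA (1 - 1 / m) a E := by
    have e : pA (1 - 1 / m) a E = E * (3 - a) - 1 / 4 * (a - 2 - 2 * E) ^ 2 * (1 - 1 / m) := by
      unfold pA; ring
    rw [e]; exact hf1
  have h1B : pB (1 - 1 / m) a E F ^ 2 < 4 * pA (1 - 1 / m) a E * pC (1 - 1 / m) a F := by
    have e1 : pA (1 - 1 / m) a E = E * (3 - a) - 1 / 4 * (a - 2 - 2 * E) ^ 2 * (1 - 1 / m) := by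
      unfold pA; ring
    have e2 : pC (1 - 1 / m) a F = F * (1 - a) - 1 / 4 * (a - 2 * F) ^ 2 * (1 - 1 / m) := by
      unfold pC; ring
    have e3 : pB (1 - 1 / m) a E F
        = F * (2 - a) - E * a - 1 / 2 * (a - 2 - 2 * E) * (a - 2 * F) * (1 - 1 / m) := by
      unfold pB; ring
    rw [e1, e2, e3]
    linarith only [hf2]
  have hL1 : ((2 / m) * F - (1 - 1 / m) * p) ^ 2 < 4 * ((1 + 2 / m) * E) * (g ^ 2 * F) := by
    rw [hθ]
    have e : (2 / m) * F - (1 - 1 / m) * p = 2 * F / m - (1 - 1 / m) * p := by ring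
    rw [e]
    linarith only [hf5]
  have hL2 : (g ^ 2 * ((2 / m) * F - (1 - 1 / m) * q)) ^ 2 < 4 * F * (g ^ 2 * ((1 + 2 / m) * E)) := by
    rw [hθ]
    have e : (2 / m) * F - (1 - 1 / m) * q = 2 * F / m - (1 - 1 / m) * q := by ring
    rw [e]
    linarith only [hf6]
  obtain ⟨Γ, η, c0, hc0, hcert⟩ := exists_ncert (n := (n : ℝ)) (n' := m) (p := p) (q := q) (a := a)
    (Aw := Aw) (g := g ^ 2) (E1 := E) (F1 := F) (E2 := E) (F2 := F) hnR hA hA2 hm ha0 ha1 hgg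
    hEpos hEpos hFpos h1A h1B h1A h1B hL1 hL2
  have hcl := closure_ineq m p q (by linarith) hp hq hpq hreg
  rw [← ha] at hcl
  exact no_solution_neg_of_cert (by omega) hA hA2 hq hp hpq hm ha0 hcl hc0 hcert hucont hvcont hupos hvpos hu hv
    hpdeU hpdeV

/-- The case `q ≤ p` of the clean region. -/
theorem no_solution_neg_clean_core {n : ℕ} (hn : 4 ≤ n) {Aw p q : ℝ} (hA : Aw < 0) (hA2 : -2 < Aw)
    (hp : 0 < p) (hq : 0 < q) (hpq : 1 < p * q) {m : ℝ} (hm : m = 2 * ((n : ℝ) + Aw) / (2 + Aw))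
    (hm5 : 5 ≤ m)
    (hx : 0 < (m - 2) * p - 2) (hy : 0 < (m - 2) * q - 2) (hyx : (m - 2) * q - 2 ≤ (m - 2) * p - 2)
    (hclean : ((m - 2) * p - 2) * ((m - 2) * q - 2)
        + ((m - 2) * p - 2 - ((m - 2) * q - 2)) ^ 2 / (((m - 2) * p - 2) * ((m - 2) * q - 2)) < m ^ 2)
    {u v : Eu n → ℝ} (hucont : Continuous u) (hvcont : Continuous v)
    (hupos : ∀ x, 0 < u x) (hvpos : ∀ x, 0 < v x)
    (hu : ContDiffOn ℝ 2 u {0}ᶜ) (hv : ContDiffOn ℝ 2 v {0}ᶜ)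
    (hpdeU : ∀ x, x ≠ 0 → - Laplacian.laplacian u x = ‖x‖ ^ Aw * v x ^ p)
    (hpdeV : ∀ x, x ≠ 0 → - Laplacian.laplacian v x = ‖x‖ ^ Aw * u x ^ q) : False := by
  have hnR : (4 : ℝ) ≤ n := by exact_mod_cast hn
  have hm2 : 0 < m - 2 := by linarith
  have hm2' : m - 2 ≠ 0 := hm2.ne'
  obtain ⟨d, hd'⟩ : ∃ d : ℝ, d = 1 / (m - 2) := ⟨_, rfl⟩
  have hd : 0 < d := by rw [hd']; positivity
  have hd3 : d ≤ 1 / 3 := by
    rw [hd', div_le_div_iff₀ hm2 (by norm_num)]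
    linarith
  have hnn : CF.nn d = m := by
    unfold CF.nn
    rw [hd']
    field_simp
    ring
  have h2 : 2 + 1 / d = m := by
    rw [hd']
    field_simp
    ring
  have hP : ((m - 2) * p - 2 + 2) * d = p := by
    rw [hd']
    field_simp
    ring
  have hQ : ((m - 2) * q - 2 + 2) * d = q := by
    rw [hd']
    field_simp
    ring
  have hcl : ((m - 2) * p - 2) * ((m - 2) * q - 2)
      + ((m - 2) * p - 2 - ((m - 2) * q - 2)) ^ 2 / (((m - 2) * p - 2) * ((m - 2) * q - 2))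
        < CF.nn d ^ 2 := by
    rw [hnn]
    exact hclean
  obtain ⟨E1, E2, F1, F2, G, h, c0, hG, hc0, hc⟩ := CF.clean_cert8 hd hd3 hx hy hyx hcl
  rw [h2, hP, hQ] at hc
  have ha0 : 0 ≤ 1 - d := by linarith
  obtain ⟨γ, η, c1, hc1, hcert⟩ := ncert_of_cert8 (n := (n : ℝ)) (a := 1 - d) (by linarith)
    (by linarith) hA hA2 hm ha0 hG hc0 hc
  -- the closure inequality
  have hdet : 0 < p * q - 1 := by linarith
  have hxy0 : 0 < ((m - 2) * p - 2) * ((m - 2) * q - 2) := mul_pos hx hy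
  have hlt : ((m - 2) * p - 2) * ((m - 2) * q - 2) < m ^ 2 := by
    have : 0 ≤ ((m - 2) * p - 2 - ((m - 2) * q - 2)) ^ 2 / (((m - 2) * p - 2) * ((m - 2) * q - 2)) := by
      positivity
    linarith
  have hS : (m - 2) * (p * q - 1) < 2 * (p + q + 2) := by
    have h3 : (m - 2) * ((m - 2) * (p * q - 1) - 2 * (p + q + 2)) < 0 := by
      nlinarith only [hlt]
    by_contra hc'
    push Not at hc'
    have h4 := mul_nonneg hm2.le (sub_nonneg.2 hc')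
    linarith only [h3, h4]
  have e : (1 - d) * (m - 2) = m - 3 := by
    rw [hd']
    field_simp
    ring
  have hcl2 : (m - 4) * (p * q - 1) < 2 * (1 - d) * (p + q + 2) := by
    have h3 := mul_lt_mul_of_pos_left hS (by linarith : 0 < 1 - d)
    have h4 : (1 - d) * ((m - 2) * (p * q - 1)) = (m - 3) * (p * q - 1) := by
      rw [← e]; ring
    rw [h4] at h3
    linarith only [h3, hdet]
  exact no_solution_neg_of_cert hn hA hA2 hq hp hpq hm ha0 hcl2 hc1 hcert hucont hvcont hupos hvpos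
    hu hv hpdeU hpdeV

/-- **The clean region for equal negative weights**, dimension `n ≥ 4`, provided `5 ≤ m`. -/
theorem no_solution_neg_clean_m5 {n : ℕ} (hn : 4 ≤ n) {Aw p q : ℝ} (hA : Aw < 0) (hA2 : -2 < Aw)
    (hp : 0 < p) (hq : 0 < q) (hpq : 1 < p * q) {m : ℝ} (hm : m = 2 * ((n : ℝ) + Aw) / (2 + Aw))
    (hm5 : 5 ≤ m)
    (hx : 0 < (m - 2) * p - 2) (hy : 0 < (m - 2) * q - 2)
    (hclean : ((m - 2) * p - 2) * ((m - 2) * q - 2)
        + ((m - 2) * p - 2 - ((m - 2) * q - 2)) ^ 2 / (((m - 2) * p - 2) * ((m - 2) * q - 2)) < m ^ 2)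
    {u v : Eu n → ℝ} (hucont : Continuous u) (hvcont : Continuous v)
    (hupos : ∀ x, 0 < u x) (hvpos : ∀ x, 0 < v x)
    (hu : ContDiffOn ℝ 2 u {0}ᶜ) (hv : ContDiffOn ℝ 2 v {0}ᶜ)
    (hpdeU : ∀ x, x ≠ 0 → - Laplacian.laplacian u x = ‖x‖ ^ Aw * v x ^ p)
    (hpdeV : ∀ x, x ≠ 0 → - Laplacian.laplacian v x = ‖x‖ ^ Aw * u x ^ q) : False := by
  by_cases hyx : (m - 2) * q - 2 ≤ (m - 2) * p - 2
  · exact no_solution_neg_clean_core hn hA hA2 hp hq hpq hm hm5 hx hy hyx hclean hucont hvcont hupos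
      hvpos hu hv hpdeU hpdeV
  · push Not at hyx
    refine no_solution_neg_clean_core hn hA hA2 hq hp (by linarith [mul_comm p q]) hm hm5 hy hx hyx.le ?_
      hvcont hucont hvpos hupos hv hu hpdeV hpdeU
    have e1 : ((m - 2) * q - 2) * ((m - 2) * p - 2) = ((m - 2) * p - 2) * ((m - 2) * q - 2) := by ring
    have e2 : ((m - 2) * q - 2 - ((m - 2) * p - 2)) ^ 2 = ((m - 2) * p - 2 - ((m - 2) * q - 2)) ^ 2 := by
      ring
    rw [e1, e2]
    exact hclean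

/-- **The clean region for equal negative weights.** -/
theorem no_solution_neg_clean {n : ℕ} (hn : 5 ≤ n) {Aw p q : ℝ} (hA : Aw < 0) (hA2 : -2 < Aw)
    (hp : 0 < p) (hq : 0 < q) (hpq : 1 < p * q) {m : ℝ} (hm : m = 2 * ((n : ℝ) + Aw) / (2 + Aw))
    (hx : 0 < (m - 2) * p - 2) (hy : 0 < (m - 2) * q - 2)
    (hclean : ((m - 2) * p - 2) * ((m - 2) * q - 2)
        + ((m - 2) * p - 2 - ((m - 2) * q - 2)) ^ 2 / (((m - 2) * p - 2) * ((m - 2) * q - 2)) < m ^ 2)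
    {u v : Eu n → ℝ} (hucont : Continuous u) (hvcont : Continuous v)
    (hupos : ∀ x, 0 < u x) (hvpos : ∀ x, 0 < v x)
    (hu : ContDiffOn ℝ 2 u {0}ᶜ) (hv : ContDiffOn ℝ 2 v {0}ᶜ)
    (hpdeU : ∀ x, x ≠ 0 → - Laplacian.laplacian u x = ‖x‖ ^ Aw * v x ^ p)
    (hpdeV : ∀ x, x ≠ 0 → - Laplacian.laplacian v x = ‖x‖ ^ Aw * u x ^ q) : False := by
  have hnR : (5 : ℝ) ≤ n := by exact_mod_cast hn
  have h2w : 0 < 2 + Aw := by linarith
  have hmn : (n : ℝ) ≤ m := by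
    rw [hm, le_div_iff₀ h2w]
    nlinarith
  exact no_solution_neg_clean_m5 (by omega) hA hA2 hp hq hpq hm (hnR.trans hmn) hx hy hclean hucont
    hvcont hupos hvpos hu hv hpdeU hpdeV

end Vale.Agent.Lib.P100
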