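import Vale.Agent.Lib.P100.NegPhi
import Vale.Agent.Lib.P100.CClean8
import Vale.Agent.Lib.P100.Neg4

/-!
# P100: equal negative weights: the transfer of a certificate from the effective dimension, `n ≥ 4`.

Same as `NegPhi.lean`, `NegMain.lean` (helper88), with the analysis of `Neg4.lean`: the case `n = 4` is
included, for `m = 2 (n + A) / (2 + A) ≥ 5`.
-/

open scoped BigOperators
open InnerProductSpace Laplacian

noncomputable section

namespace Vale.Agent.Lib.P100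

/-- **Transfer.** A certificate of the eight field family in the effective dimension gives a certificate
for the system with equal negative weights. -/
theorem ncert_of_cert8_0 {n m p q a Aw G E1 F1 E2 F2 h c0 : ℝ} (hn : 4 ≤ n) (hA : Aw < 0)
    (hA2 : -2 < Aw) (hm : m = 2 * (n + Aw) / (2 + Aw)) (ha0 : 0 ≤ a) (hG : 0 < G)
    (hc0 : 0 < c0) (hcert : Cert m p q a a (CF.coef E1 E2 F1 F2 G h) c0) :
    ∃ γ η c1 : ℝ, 0 < c1 ∧ ∀ A : NAtoms, A.Realizable n →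
      c1 * A.EW ≤ ∑ k, coefT G E1 F1 E2 F2 h γ η (-Aw / 2) k * NAtoms.DD n p q a (-Aw) Aw A k := by
  have hn0 : (0 : ℝ) < n := by linarith
  have h2w : 0 < 2 + Aw := by linarith
  have hnA : 0 < n + Aw := by linarith
  have hm0 : 0 < m := by rw [hm]; positivity
  have hn2 : 0 < n - 2 := by linarith
  obtain ⟨γ, hγd⟩ : ∃ γ : ℝ, γ = 1 / n - 1 / m := ⟨_, rfl⟩
  have hγf : γ = -Aw * (n - 2) / (2 * n * (n + Aw)) := by
    rw [hγd, hm]
    field_simp
    ring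
  have hγ : 0 < γ := by
    rw [hγf]
    exact div_pos (mul_pos (neg_pos.2 hA) hn2) (by positivity)
  have hA0 : Aw ≠ 0 := hA.ne
  have hn20 : n - 2 ≠ 0 := hn2.ne'
  obtain ⟨mm, hmmd⟩ : ∃ mm : ℝ, mm = -Aw * (1 - 2 / n) / (2 * γ) := ⟨_, rfl⟩
  have hmm : 2 * γ * mm = -Aw * (1 - 2 / n) := by
    rw [hmmd]; field_simp
  have h1 : 1 / m = 1 / n - γ := by rw [hγd]; ring
  have h2 : 2 / m = 2 / n - 2 * γ := by rw [hγd]; ring
  have hC : (-Aw / 2) * (n - 2 - Aw) - Aw ^ 2 / 2 = Aw ^ 2 * (1 / 2 - 1 / n) + γ * mm ^ 2 := by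
    have e : γ * mm ^ 2 = Aw ^ 2 * (1 - 2 / n) ^ 2 / (4 * γ) := by
      rw [hmmd]; field_simp; ring
    rw [e, hγf]
    field_simp
    ring
  have hnc : 0 < n - 4 + -Aw := by linarith
  obtain ⟨θ', hθ', hd⟩ := exists_theta ha0 hnc
  obtain ⟨lam, hlam⟩ : ∃ lam : ℝ, lam = (a * θ') ^ 2 / (4 * (n - 4 + -Aw - a / θ')) := ⟨_, rfl⟩
  have hlam0 : 0 ≤ lam := by rw [hlam]; positivity
  obtain ⟨η, hηd⟩ : ∃ η : ℝ, η = c0 / 4 / (lam + 1) := ⟨_, rfl⟩
  have hη : 0 < η := by rw [hηd]; positivity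
  have hηlam : η * lam ≤ c0 / 4 := by
    rw [hηd, div_mul_eq_mul_div, div_le_iff₀ (by linarith only [hlam0])]
    have := mul_nonneg hc0.le hlam0
    linarith only [this, hc0]
  obtain ⟨d, hdd⟩ : ∃ d : ℝ, d = n - 4 + -Aw - a / θ' := ⟨_, rfl⟩
  rw [← hdd] at hd
  obtain ⟨B, hB⟩ : ∃ B : ℝ, B = Aw ^ 2 + 1 := ⟨_, rfl⟩
  have hB0 : 0 < B := by rw [hB]; positivity
  obtain ⟨θ, hθd⟩ : ∃ θ : ℝ, θ = min (1 / (2 * B)) (η * d / (8 * c0 * B)) := ⟨_, rfl⟩
  have hθ0 : 0 < θ := by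
    rw [hθd]
    exact lt_min (by positivity) (by positivity)
  have hθa : θ ≤ 1 / (2 * B) := by rw [hθd]; exact min_le_left _ _
  have hθb : θ ≤ η * d / (8 * c0 * B) := by rw [hθd]; exact min_le_right _ _
  have hAB : Aw ^ 2 ≤ B := by rw [hB]; linarith only
  have hB1 : 1 ≤ B := by rw [hB]; nlinarith only [sq_nonneg Aw]
  have hθ1 : θ ≤ 1 := by
    refine hθa.trans ?_
    rw [div_le_one (by positivity)]
    linarith only [hB1]
  have hθA : θ * Aw ^ 2 ≤ 1 / 2 := by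
    have e1 : θ * Aw ^ 2 ≤ 1 / (2 * B) * B :=
      mul_le_mul hθa hAB (sq_nonneg Aw) (by positivity)
    have e2 : 1 / (2 * B) * B = 1 / 2 := by field_simp
    linarith only [e1, e2]
  have hθw : 2 * (c0 * θ * Aw ^ 2) ≤ η * d / 4 := by
    have e1 : θ * Aw ^ 2 ≤ η * d / (8 * c0 * B) * B :=
      mul_le_mul hθb hAB (sq_nonneg Aw) (by positivity)
    have e2 : η * d / (8 * c0 * B) * B = η * d / (8 * c0) := by field_simp
    have e3 := mul_le_mul_of_nonneg_left e1 hc0.le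
    rw [e2] at e3
    have e4 : c0 * (η * d / (8 * c0)) = η * d / 8 := by field_simp
    rw [e4] at e3
    linarith only [e3]
  obtain ⟨c1, hc1d⟩ : ∃ c1 : ℝ, c1 = min (c0 * θ / 2) (min (c0 / 4) (η * d / 4)) := ⟨_, rfl⟩
  have hc1 : c1 ≤ c0 * θ / 2 := by rw [hc1d]; exact min_le_left _ _
  have hc1' : c1 ≤ min (c0 / 4) (η * d / 4) := by rw [hc1d]; exact min_le_right _ _
  have hc2 := hc1'.trans (min_le_left _ _)
  have hc4 := hc1'.trans (min_le_right _ _)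
  have hc3 : c1 ≤ c0 := by linarith only [hc2, hc0]
  have hc1pos : 0 < c1 := by
    rw [hc1d]
    exact lt_min (by positivity) (lt_min (by positivity) (by positivity))
  refine ⟨γ, η, c1, hc1pos, fun A hAr => ?_⟩
  obtain ⟨uv, hgram⟩ := hAr.phiGram Aw γ mm m hγ.le h1
  have hb := hAr.base.base
  have hR : Atoms.Realizable m (A.Phi n Aw γ mm uv) :=
    { x_nonneg := hb.x_nonneg
      y_nonneg := hb.y_nonneg
      cs := hb.cs
      s_pos := hb.s_pos
      t_pos := hb.t_pos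
      form_nonneg := hb.form_nonneg
      gram_nonneg := hgram }
  have hc := hcert _ hR
  rw [phi_identity (uv := uv) h1 h2 hmm A]
  have hx := hb.x_nonneg
  have hy := hb.y_nonneg
  have hw := hAr.base.w_nonneg
  have hUU : 0 ≤ A.UU := by
    have := hb.gram_nonneg ![1, 0, 0, 0, 0]
    simpa [Fin.sum_univ_five, Atoms.gram] using this
  have hVV : 0 ≤ A.VV := by
    have := hb.gram_nonneg ![0, 1, 0, 0, 0]
    simpa [Fin.sum_univ_five, Atoms.gram] using this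
  have hPU0 : 0 ≤ (A.Phi n Aw γ mm uv).UU := by
    have := hR.gram_nonneg ![1, 0, 0, 0, 0]
    simpa [Fin.sum_univ_five, Atoms.gram] using this
  have hPV0 : 0 ≤ (A.Phi n Aw γ mm uv).VV := by
    have := hR.gram_nonneg ![0, 1, 0, 0, 0]
    simpa [Fin.sum_univ_five, Atoms.gram] using this
  have hPU := Phi_UU_lb (uv := uv) (Aw := Aw) (mm := mm) (by linarith : (2 : ℝ) ≤ n) hγ.le hAr
  have hPV := Phi_VV_lb (uv := uv) (Aw := Aw) (mm := mm) (by linarith : (2 : ℝ) ≤ n) hγ.le hAr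
  have t1 : 0 ≤ θ' ^ 2 * A.x + A.w + 2 * θ' * A.tx := by
    have h := hAr.base.form3 θ' 0 1
    linarith only [h]
  have t2 : 0 ≤ θ' ^ 2 * A.y + A.w + 2 * θ' * A.ty := by
    have h := hAr.base.form3 0 θ' 1
    linarith only [h]
  have hwl := wxi_lower0 (e := n - 4 + -Aw) (a := a) (x := A.x) (y := A.y) ha0 hθ'
    (by rw [← hdd]; exact hd) hx hy hw t1 t2
  have hlam' : lam = (a * θ') ^ 2 / (4 * d) := by rw [hlam, hdd]
  rw [← hdd, ← hlam'] at hwl
  have hcore := coercive_core (c0 := c0) (θ := θ) (η := η) (d := d) (lam := lam) (Aw := Aw) (c1 := c1)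
    (s := A.s) (t := A.t) hc0.le hη.le hUU hVV hθ0.le hθ1 hθA hθw hηlam hc1 hc2 hc3 hc4 hPU0 hPV0
    hPU hPV hwl
  have hcsx : A.tx ^ 2 ≤ A.x * A.w := by
    have := hAr.csX 0 0 1
    simpa using this
  have hcsy : A.ty ^ 2 ≤ A.y * A.w := by
    have := hAr.csY 0 0 1
    simpa using this
  have hCn : 0 ≤ Aw ^ 2 * (1 / 2 - 1 / n) + γ * mm ^ 2 := by
    have hν : 0 ≤ 1 / 2 - 1 / n := by
      have : 1 / n ≤ 1 / 2 := one_div_le_one_div_of_le (by norm_num) (by linarith)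
      linarith only [this]
    positivity
  have R1 := mul_nonneg hCn (sub_nonneg.2 hcsx)
  have R2 := mul_nonneg hG.le (mul_nonneg hCn (sub_nonneg.2 hcsy))
  rw [hC]
  have eEW : A.EW = A.UU + A.VV + A.x ^ 2 + A.y ^ 2 + A.s ^ 2 + A.t ^ 2 + A.w ^ 2 := rfl
  have eEE : (A.Phi n Aw γ mm uv).EE = (A.Phi n Aw γ mm uv).UU + (A.Phi n Aw γ mm uv).VV
      + A.x ^ 2 + A.y ^ 2 + A.s ^ 2 + A.t ^ 2 := rfl
  rw [eEE] at hc
  rw [eEW]
  linear_combination hcore + hc + R1 + R2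


/-- From a certificate and the closure inequality to the contradiction. -/
theorem no_solution_neg_of_cert0 {n : ℕ} (hn : 4 ≤ n) {Aw p q m a c0 : ℝ} {co : Fin 11 → ℝ} (hA : Aw < 0)
    (hA2 : -2 < Aw) (hq : 0 < q) (hp : 0 < p) (hpq : 1 < p * q)
    (hm : m = 2 * ((n : ℝ) + Aw) / (2 + Aw)) (ha0 : 0 ≤ a)
    (hcl : (m - 4) * (p * q - 1) < 2 * a * (p + q + 2)) (hc0 : 0 < c0)
    (hcert : ∀ A : NAtoms, A.Realizable n →
      c0 * A.EW ≤ ∑ k, co k * NAtoms.DD n p q a (-Aw) Aw A k)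
    {u v : Eu n → ℝ} (hucont : Continuous u) (hvcont : Continuous v)
    (hupos : ∀ x, 0 < u x) (hvpos : ∀ x, 0 < v x)
    (hu : ContDiffOn ℝ 2 u {0}ᶜ) (hv : ContDiffOn ℝ 2 v {0}ᶜ)
    (hpdeU : ∀ x, x ≠ 0 → - Laplacian.laplacian u x = ‖x‖ ^ Aw * v x ^ p)
    (hpdeV : ∀ x, x ≠ 0 → - Laplacian.laplacian v x = ‖x‖ ^ Aw * u x ^ q) : False := by
  have h2w : 0 < 2 + Aw := by linarith
  have hd : 0 < p * q - 1 := by linarith
  obtain ⟨lam, hlam⟩ : ∃ lam : ℝ, lam = a * (1 + q) / (p * q - 1) := ⟨_, rfl⟩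
  obtain ⟨mu, hmu⟩ : ∃ mu : ℝ, mu = a * (1 + p) / (p * q - 1) := ⟨_, rfl⟩
  have hlam0 : 0 ≤ lam := by rw [hlam]; positivity
  have hmu0 : 0 ≤ mu := by rw [hmu]; positivity
  have hsum : lam + mu = a * (p + q + 2) / (p * q - 1) := by
    rw [hlam, hmu, ← add_div]
    congr 1
    ring
  have hcl2 : m - 4 < 2 * (lam + mu) := by
    rw [hsum]
    have : 2 * (a * (p + q + 2) / (p * q - 1)) = 2 * a * (p + q + 2) / (p * q - 1) := by ring
    rw [this, lt_div_iff₀ hd]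
    exact hcl
  have hmw : (2 + Aw) * m = 2 * ((n : ℝ) + Aw) := by
    rw [hm]; field_simp
  have hsum0 : 0 ≤ lam + mu := by positivity
  have hnR : (4 : ℝ) ≤ n := by exact_mod_cast hn
  have hm4 : 4 ≤ m := by
    rw [hm, le_div_iff₀ h2w]
    nlinarith
  have hDpos : 0 < lam + mu := by
    rw [hsum]
    have hS : 0 < p + q + 2 := by linarith
    have h5 : 0 ≤ (m - 4) * (p * q - 1) := mul_nonneg (by linarith) hd.le
    have h6 : 0 < a * (p + q + 2) := by linarith only [h5, hcl]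
    exact div_pos h6 hd
  refine no_solution_of_ncert0_lap (n := n) (by omega) (c := -Aw) (lam := lam) (mu := mu) hcert hc0
    (by linarith) ?_ ?_ hlam0 hmu0 ?_ ?_ (by linarith) hDpos hucont hvcont hupos hvpos hu hv hpdeU hpdeV
  · rw [hlam, hmu, div_mul_eq_mul_div, ← sub_div, eq_div_iff hd.ne']
    ring
  · rw [hlam, hmu, div_mul_eq_mul_div, ← sub_div, eq_div_iff hd.ne']
    ring
  · have h3 := mul_nonneg (neg_nonneg.2 hA.le) (add_nonneg zero_le_one hsum0)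
    linarith only [h3]
  · have h4 := mul_lt_mul_of_pos_left hcl2 h2w
    linarith only [h4, hmw]

/-- The case `q ≤ p` of the clean region. -/
theorem no_solution_neg_clean_core0 {n : ℕ} (hn : 4 ≤ n) {Aw p q : ℝ} (hA : Aw < 0) (hA2 : -2 < Aw)
    (hp : 0 < p) (hq : 0 < q) (hpq : 1 < p * q) {m : ℝ} (hm : m = 2 * ((n : ℝ) + Aw) / (2 + Aw)) (hm5 : 5 ≤ m)
    (hx : 0 < (m - 2) * p - 2) (hy : 0 < (m - 2) * q - 2) (hyx : (m - 2) * q - 2 ≤ (m - 2) * p - 2)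
    (hclean : ((m - 2) * p - 2) * ((m - 2) * q - 2)
        + ((m - 2) * p - 2 - ((m - 2) * q - 2)) ^ 2 / (((m - 2) * p - 2) * ((m - 2) * q - 2)) < m ^ 2)
    {u v : Eu n → ℝ} (hucont : Continuous u) (hvcont : Continuous v)
    (hupos : ∀ x, 0 < u x) (hvpos : ∀ x, 0 < v x)
    (hu : ContDiffOn ℝ 2 u {0}ᶜ) (hv : ContDiffOn ℝ 2 v {0}ᶜ)
    (hpdeU : ∀ x, x ≠ 0 → - Laplacian.laplacian u x = ‖x‖ ^ Aw * v x ^ p)
    (hpdeV : ∀ x, x ≠ 0 → - Laplacian.laplacian v x = ‖x‖ ^ Aw * u x ^ q) : False := by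
  have hnR : (4 : ℝ) ≤ n := by exact_mod_cast hn
  have hm2 : 0 < m - 2 := by linarith
  have hm2' : m - 2 ≠ 0 := hm2.ne'
  obtain ⟨d, hd'⟩ : ∃ d : ℝ, d = 1 / (m - 2) := ⟨_, rfl⟩
  have hd : 0 < d := by rw [hd']; positivity
  have hd3 : d ≤ 1 / 3 := by
    rw [hd', div_le_div_iff₀ hm2 (by norm_num)]
    linarith
  have hnn : CF.nn d = m := by
    unfold CF.nn
    rw [hd']
    field_simp
    ring
  have h2 : 2 + 1 / d = m := by
    rw [hd']
    field_simp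
    ring
  have hP : ((m - 2) * p - 2 + 2) * d = p := by
    rw [hd']
    field_simp
    ring
  have hQ : ((m - 2) * q - 2 + 2) * d = q := by
    rw [hd']
    field_simp
    ring
  have hcl : ((m - 2) * p - 2) * ((m - 2) * q - 2)
      + ((m - 2) * p - 2 - ((m - 2) * q - 2)) ^ 2 / (((m - 2) * p - 2) * ((m - 2) * q - 2))
        < CF.nn d ^ 2 := by
    rw [hnn]
    exact hclean
  obtain ⟨E1, E2, F1, F2, G, h, c0, hG, hc0, hc⟩ := CF.clean_cert8 hd hd3 hx hy hyx hcl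
  rw [h2, hP, hQ] at hc
  have ha0 : 0 ≤ 1 - d := by linarith
  obtain ⟨γ, η, c1, hc1, hcert⟩ := ncert_of_cert8_0 (n := (n : ℝ)) (a := 1 - d) hnR hA hA2 hm ha0 hG
    hc0 hc
  -- the closure inequality
  have hdet : 0 < p * q - 1 := by linarith
  have hxy0 : 0 < ((m - 2) * p - 2) * ((m - 2) * q - 2) := mul_pos hx hy
  have hlt : ((m - 2) * p - 2) * ((m - 2) * q - 2) < m ^ 2 := by
    have : 0 ≤ ((m - 2) * p - 2 - ((m - 2) * q - 2)) ^ 2 / (((m - 2) * p - 2) * ((m - 2) * q - 2)) := by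
      positivity
    linarith
  have hS : (m - 2) * (p * q - 1) < 2 * (p + q + 2) := by
    have h3 : (m - 2) * ((m - 2) * (p * q - 1) - 2 * (p + q + 2)) < 0 := by
      nlinarith only [hlt]
    by_contra hc'
    push Not at hc'
    have h4 := mul_nonneg hm2.le (sub_nonneg.2 hc')
    linarith only [h3, h4]
  have e : (1 - d) * (m - 2) = m - 3 := by
    rw [hd']
    field_simp
    ring
  have hcl2 : (m - 4) * (p * q - 1) < 2 * (1 - d) * (p + q + 2) := by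
    have h3 := mul_lt_mul_of_pos_left hS (by linarith : 0 < 1 - d)
    have h4 : (1 - d) * ((m - 2) * (p * q - 1)) = (m - 3) * (p * q - 1) := by
      rw [← e]; ring
    rw [h4] at h3
    linarith only [h3, hdet]
  exact no_solution_neg_of_cert0 hn hA hA2 hq hp hpq hm ha0 hcl2 hc1 hcert hucont hvcont hupos hvpos
    hu hv hpdeU hpdeV

/-- **The clean region for equal negative weights.** -/
theorem no_solution_neg_clean0 {n : ℕ} (hn : 4 ≤ n) {Aw p q : ℝ} (hA : Aw < 0) (hA2 : -2 < Aw)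
    (hp : 0 < p) (hq : 0 < q) (hpq : 1 < p * q) {m : ℝ} (hm : m = 2 * ((n : ℝ) + Aw) / (2 + Aw)) (hm5 : 5 ≤ m)
    (hx : 0 < (m - 2) * p - 2) (hy : 0 < (m - 2) * q - 2)
    (hclean : ((m - 2) * p - 2) * ((m - 2) * q - 2)
        + ((m - 2) * p - 2 - ((m - 2) * q - 2)) ^ 2 / (((m - 2) * p - 2) * ((m - 2) * q - 2)) < m ^ 2)
    {u v : Eu n → ℝ} (hucont : Continuous u) (hvcont : Continuous v)
    (hupos : ∀ x, 0 < u x) (hvpos : ∀ x, 0 < v x)
    (hu : ContDiffOn ℝ 2 u {0}ᶜ) (hv : ContDiffOn ℝ 2 v {0}ᶜ)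
    (hpdeU : ∀ x, x ≠ 0 → - Laplacian.laplacian u x = ‖x‖ ^ Aw * v x ^ p)
    (hpdeV : ∀ x, x ≠ 0 → - Laplacian.laplacian v x = ‖x‖ ^ Aw * u x ^ q) : False := by
  by_cases hyx : (m - 2) * q - 2 ≤ (m - 2) * p - 2
  · exact no_solution_neg_clean_core0 hn hA hA2 hp hq hpq hm hm5 hx hy hyx hclean hucont hvcont hupos hvpos
      hu hv hpdeU hpdeV
  · push Not at hyx
    refine no_solution_neg_clean_core0 hn hA hA2 hq hp (by linarith [mul_comm p q]) hm hm5 hy hx hyx.le ?_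
      hvcont hucont hvpos hupos hv hu hpdeV hpdeU
    have e1 : ((m - 2) * q - 2) * ((m - 2) * p - 2) = ((m - 2) * p - 2) * ((m - 2) * q - 2) := by ring
    have e2 : ((m - 2) * q - 2 - ((m - 2) * p - 2)) ^ 2 = ((m - 2) * p - 2 - ((m - 2) * q - 2)) ^ 2 := by
      ring
    rw [e1, e2]
    exact hclean


end Vale.Agent.Lib.P100
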