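import Vale.Agent.Lib.P100.MP.Mit
import Vale.Agent.Lib.P100.NegPhi4
import Vale.Agent.Results.P100.A_clean

/-!
# P100: equal weights `-2 < A ≤ 0`: every solution lies in one explicit set.

With `m = 2 (n + A) / (2 + A)`, `X = (m-2) p - 2`, `Y = (m-2) q - 2` a solution forces `p q > 1`, `X, Y > 0`
(from `max(α, β) ≤ n-2`) and, for `m ≥ 5`, `m² ≤ X Y + (X-Y)²/(X Y)`. The critical hyperbola is `X Y = m²`,
so only the sliver `X Y < m² ≤ X Y + (X-Y)²/(X Y)` of the subcritical set stays open.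
-/

open InnerProductSpace Laplacian

noncomputable section

namespace Vale.Agent.Lib.P100.MP

variable {n : ℕ}

/-- A solution with equal weights forces `q X ≥ m`, `p Y ≥ m`. -/
theorem sliver_pos {A p q m : ℝ} {u v : Eu n → ℝ} (hn : 2 ≤ n) (hA2 : -2 < A)
    (hm : m = 2 * ((n : ℝ) + A) / (2 + A)) (hp : 0 < p) (hq : 0 < q) (h : Sol n A A p q u v) :
    1 < p * q ∧ 0 < (m - 2) * p - 2 ∧ 0 < (m - 2) * q - 2 := by
  obtain ⟨hn3, -, -, hpq, -, h1, h2⟩ := solution_forces_max hn hp hq h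
  have hnR : (3 : ℝ) ≤ n := by exact_mod_cast hn3
  have h2w : 0 < 2 + A := by linarith
  have hmw : (2 + A) * (m - 2) = 2 * ((n : ℝ) - 2) := by
    rw [hm]
    field_simp
    ring
  have hm0 : 0 < m := by
    rw [hm]
    exact div_pos (by linarith) h2w
  have e : (2 + A) * ((m - 2) * (p * q - 1)) = 2 * (((n : ℝ) - 2) * (p * q - 1)) := by
    rw [← mul_assoc, hmw]
    ring
  refine ⟨hpq, ?_, ?_⟩
  · -- from `2 + A + q (2 + A) ≤ (n-2)(pq-1)`
    have h3 : (2 + A) * (2 * (1 + q)) ≤ (2 + A) * ((m - 2) * (p * q - 1)) := by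
      rw [e]
      linarith only [h2]
    have h4 := le_of_mul_le_mul_left h3 h2w
    have h5 : m ≤ q * ((m - 2) * p - 2) := by nlinarith only [h4]
    by_contra hc
    push Not at hc
    have := mul_nonpos_of_nonneg_of_nonpos hq.le hc
    linarith
  · have h3 : (2 + A) * (2 * (1 + p)) ≤ (2 + A) * ((m - 2) * (p * q - 1)) := by
      rw [e]
      linarith only [h1]
    have h4 := le_of_mul_le_mul_left h3 h2w
    have h5 : m ≤ p * ((m - 2) * q - 2) := by nlinarith only [h4]
    by_contra hc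
    push Not at hc
    have := mul_nonpos_of_nonneg_of_nonpos hp.le hc
    linarith

/-- **Every solution with equal weights `-2 < A ≤ 0`, `m ≥ 5`, lies in one explicit set.** -/
theorem solution_sliver {A p q m : ℝ} {u v : Eu n → ℝ} (hn4 : 4 ≤ n) (hA2 : -2 < A) (hA : A ≤ 0)
    (hm : m = 2 * ((n : ℝ) + A) / (2 + A)) (hm5 : 5 ≤ m) (hp : 0 < p) (hq : 0 < q)
    (h : Sol n A A p q u v) :
    1 < p * q ∧ 0 < (m - 2) * p - 2 ∧ 0 < (m - 2) * q - 2 ∧
      m ^ 2 ≤ ((m - 2) * p - 2) * ((m - 2) * q - 2)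
        + ((m - 2) * p - 2 - ((m - 2) * q - 2)) ^ 2 / (((m - 2) * p - 2) * ((m - 2) * q - 2)) := by
  obtain ⟨hpq, hx, hy⟩ := sliver_pos (by omega) hA2 hm hp hq h
  refine ⟨hpq, hx, hy, ?_⟩
  by_contra hc
  push Not at hc
  rcases hA.lt_or_eq with hA0 | hA0
  · -- negative weights
    exact Vale.Agent.Lib.P100.no_solution_neg_clean0 (n := n) hn4 hA0 hA2 hp hq hpq hm hm5 hx hy hc
      h.ucont h.vcont h.upos h.vpos h.uC2 h.vC2 h.ueq h.veq
  · -- no weight
    subst hA0
    have hmn : m = n := by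
      rw [hm]
      simp
    rw [hmn] at hx hy hc hm5
    have hn5 : 5 ≤ n := by exact_mod_cast hm5
    refine Vale.Agent.Results.P100.A_clean.result hn5 hp hq hpq hx hy hc h.ucont h.vcont h.upos h.vpos
      h.uC2 h.vC2 ?_ ?_
    · intro x hx0
      have := h.ueq x hx0
      simpa using this
    · intro x hx0
      have := h.veq x hx0
      simpa using this

end Vale.Agent.Lib.P100.MP
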