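import Vale.Agent.Lib.P100.CertCheck

/-!
# P100: the staircase cover

Fix `m = n - 3` and `e >= 0`. A list of cells whose rectangles `[p0, P_i] × [q0, Q_i]` form a staircase
under the curve `alpha + beta = m + 1 + e` in the `(p, q)`-plane covers the triangle
`alpha <= m`, `alpha + beta >= m + 1 + e`, `q <= p` (where then also `beta <= alpha <= m`), with
`alpha = 2 (p + 1) / (p q - 1)`, `beta = 2 (q + 1) / (p q - 1)`.

In polynomial form the triangle is: `2 (p + 1) <= m (p q - 1)`, `(m + 1 + e) (p q - 1) <= 2 (p + q + 2)`.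
-/

noncomputable section

namespace Vale.Agent.Lib.P100

namespace Check

/-- The point `(P, Q)` is strictly beyond the level curve: `(P, Q)` and everything above it
in both coordinates violates `c (p q - 1) <= 2 (p + q + 2)`. -/
def outsideB (c P Q : ℚ) : Bool :=
  decide (0 < P) && decide (0 < Q) && decide (2 * (P + Q + 2) < c * (P * Q - 1))

theorem outside_mono {c P Q : ℚ} (h : outsideB c P Q = true) {p q : ℝ} (hp : (P : ℝ) ≤ p)
    (hq : (Q : ℝ) ≤ q) (hc : 0 < (c : ℝ)) : 2 * (p + q + 2) < (c : ℝ) * (p * q - 1) := by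
  simp only [outsideB, Bool.and_eq_true, decide_eq_true_eq] at h
  obtain ⟨⟨h0, h1⟩, h2⟩ := h
  have hP : (0 : ℝ) < P := by exact_mod_cast h0
  have hQ : (0 : ℝ) < Q := by exact_mod_cast h1
  have h3 : 2 * ((P : ℝ) + Q + 2) < (c : ℝ) * (P * Q - 1) := by exact_mod_cast h2
  have hcQ : 2 < (c : ℝ) * Q := by
    by_contra hh
    have hh' : (c : ℝ) * Q ≤ 2 := not_lt.mp hh
    have : (c : ℝ) * (P * Q - 1) ≤ 2 * P - c := by nlinarith
    nlinarith
  have hcp : 2 < (c : ℝ) * p := by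
    by_contra hh
    have hh' : (c : ℝ) * p ≤ 2 := not_lt.mp hh
    have hcP : (c : ℝ) * P ≤ 2 := by nlinarith
    have : (c : ℝ) * (P * Q - 1) ≤ 2 * Q - c := by nlinarith
    nlinarith
  have step1 : (c : ℝ) * (p * Q - 1) - 2 * (p + Q + 2) ≥ (c : ℝ) * (P * Q - 1) - 2 * (P + Q + 2) := by
    nlinarith [mul_nonneg (sub_nonneg.mpr hp) (by linarith : (0 : ℝ) ≤ (c : ℝ) * Q - 2)]
  have step2 : (c : ℝ) * (p * q - 1) - 2 * (p + q + 2) ≥ (c : ℝ) * (p * Q - 1) - 2 * (p + Q + 2) := by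
    nlinarith [mul_nonneg (sub_nonneg.mpr hq) (by linarith : (0 : ℝ) ≤ (c : ℝ) * p - 2)]
  linarith

/-- Adjacent cells: the corner `(P_i, Q_{i+1})` is beyond the level curve. -/
def chainB (c : ℚ) : List Cell → Bool
  | C :: D :: L => outsideB c C.p1 D.q1 && chainB c (D :: L)
  | _ => true

theorem cover_of_chain {c : ℚ} (hc : 0 < (c : ℝ)) :
    ∀ (C : Cell) (L : List Cell), chainB c (C :: L) = true → ∀ (p q : ℝ),
      q ≤ (C.q1 : ℝ) → p ≤ (((C :: L).getLast (List.cons_ne_nil _ _)).p1 : ℝ) →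
      (c : ℝ) * (p * q - 1) ≤ 2 * (p + q + 2) →
      ∃ D ∈ (C :: L), p ≤ (D.p1 : ℝ) ∧ q ≤ (D.q1 : ℝ) := by
  intro C L
  induction L generalizing C with
  | nil =>
    intro _ p q hq hp _
    exact ⟨C, by simp, by simpa using hp, hq⟩
  | cons D L ih =>
    intro hch p q hq hp hreg
    simp only [chainB, Bool.and_eq_true] at hch
    obtain ⟨h1, h2⟩ := hch
    by_cases hpC : p ≤ (C.p1 : ℝ)
    · exact ⟨C, by simp, hpC, hq⟩
    · have hpC' : (C.p1 : ℝ) ≤ p := (not_le.mp hpC).le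
      have hqD : q ≤ (D.q1 : ℝ) := by
        by_contra hh
        have hqD' : (D.q1 : ℝ) ≤ q := (not_le.mp hh).le
        have := outside_mono h1 hpC' hqD' hc
        linarith
      have hlast : p ≤ (((D :: L).getLast (List.cons_ne_nil _ _)).p1 : ℝ) := by
        rw [List.getLast_cons (List.cons_ne_nil _ _)] at hp
        exact hp
      obtain ⟨E, hE, hE1, hE2⟩ := ih D h2 p q hqD hlast hreg
      exact ⟨E, List.mem_cons_of_mem _ hE, hE1, hE2⟩

/-- The per-cell test: the cell is correct, its dimension is `n` and its rectangle reaches down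
to `l` in both coordinates. -/
def cellOKB (n l : ℚ) (C : Cell) : Bool :=
  C.check && decide (C.B.n = n) && decide (C.p0 ≤ l) && decide (C.q0 ≤ l)

/-- The triangle, in polynomial form. -/
structure Tri (m e p q : ℝ) : Prop where
  p_pos : 0 < p
  q_pos : 0 < q
  q_le_p : q ≤ p
  alpha_le : 2 * (p + 1) ≤ m * (p * q - 1)
  sum_ge : (m + 1 + e) * (p * q - 1) ≤ 2 * (p + q + 2)

theorem Tri.w_pos {m e p q : ℝ} (h : Tri m e p q) (hm : 0 < m) : 0 < p * q - 1 := by
  have h0 := h.alpha_le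
  have hp := h.p_pos
  by_contra hh
  have h1 : p * q - 1 ≤ 0 := not_lt.mp hh
  nlinarith

/-- `beta >= 1 + e`. -/
theorem Tri.beta_ge {m e p q : ℝ} (h : Tri m e p q) : (1 + e) * (p * q - 1) ≤ 2 * (q + 1) := by
  have h0 := h.alpha_le
  have h1 := h.sum_ge
  nlinarith

/-- `q >= (3 + e) / m`. -/
theorem Tri.q_lower {m e p q : ℝ} (h : Tri m e p q) (hm : 0 < m) : 3 + e ≤ m * q := by
  have hw := h.w_pos hm
  have hb := h.beta_ge
  have h0 := h.alpha_le
  have hq := h.q_pos
  -- `q * (2 (p + 1)) = 2 (q + 1) + 2 w`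
  have key : (3 + e) * (p * q - 1) ≤ m * q * (p * q - 1) := by
    have e1 : q * (2 * (p + 1)) = 2 * (q + 1) + 2 * (p * q - 1) := by ring
    have e2 : q * (2 * (p + 1)) ≤ q * (m * (p * q - 1)) :=
      mul_le_mul_of_nonneg_left h0 hq.le
    nlinarith
  exact le_of_mul_le_mul_right key hw

/-- `p <= (m + 2) / (1 + e)`. -/
theorem Tri.p_upper {m e p q : ℝ} (h : Tri m e p q) (hm : 0 < m) : (1 + e) * p ≤ m + 2 := by
  have hw := h.w_pos hm
  have hb := h.beta_ge
  have h0 := h.alpha_le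
  have hp := h.p_pos
  have key : (1 + e) * p * (p * q - 1) ≤ (m + 2) * (p * q - 1) := by
    have e1 : p * (2 * (q + 1)) = 2 * (p + 1) + 2 * (p * q - 1) := by ring
    have e2 : p * ((1 + e) * (p * q - 1)) ≤ p * (2 * (q + 1)) :=
      mul_le_mul_of_nonneg_left hb hp.le
    nlinarith
  exact le_of_mul_le_mul_right key hw

/-- **The staircase theorem.** A list of correct cells, forming a chain, with the first corner beyond
the curve on the diagonal and the last reaching the edge `alpha = m`, covers the triangle. -/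
theorem stair_sound {n l m e : ℚ} (hm : 0 < m) (he : 0 ≤ e) (hl : l * m ≤ 3 + e)
    (C : Cell) (L : List Cell)
    (hall : (C :: L).all (cellOKB n l) = true)
    (hchain : chainB (m + 1 + e) (C :: L) = true)
    (hdiag : outsideB (m + 1 + e) C.q1 C.q1 = true)
    (hlast : m + 2 ≤ (1 + e) * ((C :: L).getLast (List.cons_ne_nil _ _)).p1)
    {p q : ℝ} (h : Tri (m : ℝ) (e : ℝ) p q) :
    ∃ (a b : ℝ) (c : Fin 14 → ℝ) (c0 : ℝ), CellOK (n : ℝ) a b c c0 p q := by
  have hm' : (0 : ℝ) < m := by exact_mod_cast hm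
  have he' : (0 : ℝ) ≤ e := by exact_mod_cast he
  have hc : 0 < ((m + 1 + e : ℚ) : ℝ) := by push_cast; linarith
  have hq := h.q_pos
  have hqp := h.q_le_p
  have hreg : ((m + 1 + e : ℚ) : ℝ) * (p * q - 1) ≤ 2 * (p + q + 2) := by
    push_cast; exact h.sum_ge
  have hq1 : q ≤ (C.q1 : ℝ) := by
    by_contra hh
    have hh' : (C.q1 : ℝ) ≤ q := (not_le.mp hh).le
    have := outside_mono hdiag (hh'.trans hqp) hh' hc
    linarith
  have hp1 : p ≤ (((C :: L).getLast (List.cons_ne_nil _ _)).p1 : ℝ) := by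
    have h1 := h.p_upper hm'
    have h2 : ((m : ℝ) + 2) ≤ (1 + e) * (((C :: L).getLast (List.cons_ne_nil _ _)).p1 : ℝ) := by
      exact_mod_cast hlast
    have h3 : (1 + (e : ℝ)) * p ≤ (1 + e) * (((C :: L).getLast (List.cons_ne_nil _ _)).p1 : ℝ) :=
      h1.trans h2
    exact le_of_mul_le_mul_left h3 (by linarith)
  obtain ⟨D, hD, hD1, hD2⟩ := cover_of_chain hc C L hchain p q hq1 hp1 hreg
  have hDok := (List.all_eq_true.mp hall) D hD
  simp only [cellOKB, Bool.and_eq_true, decide_eq_true_eq] at hDok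
  obtain ⟨⟨⟨hD3, hD4⟩, hD5⟩, hD6⟩ := hDok
  have hl' : (l : ℝ) ≤ q := by
    have h1 := h.q_lower hm'
    have h2 : (l : ℝ) * m ≤ 3 + e := by exact_mod_cast hl
    have h3 : (l : ℝ) * m ≤ q * m := by nlinarith
    exact le_of_mul_le_mul_right h3 hm'
  have hp0 : (D.p0 : ℝ) ≤ p := by
    have : (D.p0 : ℝ) ≤ l := by exact_mod_cast hD5
    linarith
  have hq0 : (D.q0 : ℝ) ≤ q := by
    have : (D.q0 : ℝ) ≤ l := by exact_mod_cast hD6
    linarith
  have hs := Cell.sound D hD3 hp0 hD1 hq0 hD2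
  have hn : D.B.toR.n = (n : ℝ) := by
    simp only [Base.toR]; exact_mod_cast hD4
  rw [hn] at hs
  exact ⟨_, _, _, _, hs⟩

end Check

end Vale.Agent.Lib.P100
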