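import Vale.Agent.Lib.P100.FromCell
import Vale.Agent.Lib.P100.S5.Main
import Vale.Agent.Lib.P100.S6.Main
import Vale.Agent.Lib.P100.S7.Main
import Vale.Agent.Lib.P100.S8.Main

/-!
# P100: the staircases for `n = 5, 6, 7, 8`, in one theorem.
-/

open InnerProductSpace Laplacian

noncomputable section

namespace Vale.Agent.Lib.P100

/-- The gap of the staircase in dimension `n`. -/
def stairGap (n : ℕ) : ℝ := if n = 5 then 1 / 200 else 1 / 50

theorem exists_cell_stair {n : ℕ} (hn : n = 5 ∨ n = 6 ∨ n = 7 ∨ n = 8) {p q : ℝ}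
    (h : Check.Tri ((n : ℝ) - 3) (stairGap n) p q) :
    ∃ (a b : ℝ) (c : Fin 14 → ℝ) (c0 : ℝ), Check.CellOK (n : ℝ) a b c c0 p q := by
  rcases hn with rfl | rfl | rfl | rfl
  · have h' : Check.Tri 2 (1 / 200) p q := by
      have e : ((5 : ℕ) : ℝ) - 3 = 2 := by norm_num
      rw [e] at h
      simpa [stairGap] using h
    have := Check.S5.exists_cell h'
    simpa using this
  · have h' : Check.Tri 3 (1 / 50) p q := by
      have e : ((6 : ℕ) : ℝ) - 3 = 3 := by norm_num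
      rw [e] at h
      simpa [stairGap] using h
    have := Check.S6.exists_cell h'
    simpa using this
  · have h' : Check.Tri 4 (1 / 50) p q := by
      have e : ((7 : ℕ) : ℝ) - 3 = 4 := by norm_num
      rw [e] at h
      simpa [stairGap] using h
    have := Check.S7.exists_cell h'
    simpa using this
  · have h' : Check.Tri 5 (1 / 50) p q := by
      have e : ((8 : ℕ) : ℝ) - 3 = 5 := by norm_num
      rw [e] at h
      simpa [stairGap] using h
    have := Check.S8.exists_cell h'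
    simpa using this

private theorem no_solution_aux {n : ℕ} (hn : n = 5 ∨ n = 6 ∨ n = 7 ∨ n = 8) {p q : ℝ}
    (hp : 0 < p) (hq : 0 < q) (hqp : q ≤ p) (hpq : 1 < p * q)
    (halpha : 2 * (p + 1) ≤ ((n : ℝ) - 3) * (p * q - 1))
    (hsum : ((n : ℝ) - 2 + stairGap n) * (p * q - 1) ≤ 2 * (p + q + 2))
    {u v : Eu n → ℝ} (hucont : Continuous u) (hvcont : Continuous v)
    (hupos : ∀ x, 0 < u x) (hvpos : ∀ x, 0 < v x)
    (hu : ContDiffOn ℝ 2 u {0}ᶜ) (hv : ContDiffOn ℝ 2 v {0}ᶜ)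
    (hpdeU : ∀ x, x ≠ 0 → - Δ u x = v x ^ p)
    (hpdeV : ∀ x, x ≠ 0 → - Δ v x = u x ^ q) : False := by
  have hT : Check.Tri ((n : ℝ) - 3) (stairGap n) p q :=
    ⟨hp, hq, hqp, halpha, by
      have e : (n : ℝ) - 3 + 1 + stairGap n = (n : ℝ) - 2 + stairGap n := by ring
      rw [e]; exact hsum⟩
  obtain ⟨a, b, c, c0, h⟩ := exists_cell_stair hn hT
  have hn4 : 4 < n := by rcases hn with rfl | rfl | rfl | rfl <;> norm_num
  exact no_solution_of_cellOK hn4 hp hq hpq h hucont hvcont hupos hvpos hu hv hpdeU hpdeV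

/-- **The staircases.** For `n = 5, 6, 7, 8`, `p, q > 0`, `p q > 1`, with
`alpha = 2 (p + 1) / (p q - 1)`, `beta = 2 (q + 1) / (p q - 1)`: if `alpha, beta <= n - 3` and
`alpha + beta >= n - 2 + e`, where `e = 1 / 200` for `n = 5` and `e = 1 / 50` otherwise, then the
Lane-Emden system has no solution of the exact class of the problem. -/
theorem no_solution_stair {n : ℕ} (hn : n = 5 ∨ n = 6 ∨ n = 7 ∨ n = 8) {p q : ℝ}
    (hp : 0 < p) (hq : 0 < q) (hpq : 1 < p * q)
    (halpha : 2 * (p + 1) / (p * q - 1) ≤ (n : ℝ) - 3) (hbeta : 2 * (q + 1) / (p * q - 1) ≤ (n : ℝ) - 3)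
    (hsum : (n : ℝ) - 2 + stairGap n ≤ 2 * (p + 1) / (p * q - 1) + 2 * (q + 1) / (p * q - 1))
    {u v : Eu n → ℝ} (hucont : Continuous u) (hvcont : Continuous v)
    (hupos : ∀ x, 0 < u x) (hvpos : ∀ x, 0 < v x)
    (hu : ContDiffOn ℝ 2 u {0}ᶜ) (hv : ContDiffOn ℝ 2 v {0}ᶜ)
    (hpdeU : ∀ x, x ≠ 0 → - Δ u x = v x ^ p)
    (hpdeV : ∀ x, x ≠ 0 → - Δ v x = u x ^ q) : False := by
  have hw : 0 < p * q - 1 := by linarith
  have h1 : 2 * (p + 1) ≤ ((n : ℝ) - 3) * (p * q - 1) := (div_le_iff₀ hw).mp halpha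
  have h2 : 2 * (q + 1) ≤ ((n : ℝ) - 3) * (p * q - 1) := (div_le_iff₀ hw).mp hbeta
  have h3 : ((n : ℝ) - 2 + stairGap n) * (p * q - 1) ≤ 2 * (p + q + 2) := by
    have e : 2 * (p + 1) / (p * q - 1) + 2 * (q + 1) / (p * q - 1)
        = 2 * (p + q + 2) / (p * q - 1) := by
      rw [← add_div]; ring
    rw [e] at hsum
    exact (le_div_iff₀ hw).mp hsum
  rcases le_total q p with hqp | hpq'
  · exact no_solution_aux hn hp hq hqp hpq h1 h3 hucont hvcont hupos hvpos hu hv hpdeU hpdeV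
  · refine no_solution_aux hn (p := q) (q := p) hq hp hpq' (by linarith [mul_comm p q]) ?_ ?_
      hvcont hucont hvpos hupos hv hu hpdeV hpdeU
    · rw [mul_comm q p]; exact h2
    · rw [mul_comm q p]; linarith

end Vale.Agent.Lib.P100
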