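import Vale.Agent.Lib.P100.Defs

open scoped BigOperators

namespace Vale.Agent.Lib.P100

/-- Abstract Liouville test: a `C¹` vector field `G` whose divergence dominates `c0 * W * Eh`, with
`|G| ≤ K W Eh^{3/4}` and `W ≤ Eh^{D/2}`, `D > n/2 - 2`, forces `Eh ≡ 0`. -/
theorem liouville_test {n : ℕ} (W Eh : Eu n → ℝ) (G : Fin n → Eu n → ℝ) (c0 K D : ℝ)
    (hc0 : 0 < c0) (hK : 0 ≤ K) (hD : 0 < D) (hDn : (n : ℝ) / 2 - 2 < D)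
    (hWc : Continuous W) (hWpos : ∀ x, 0 < W x) (hEc : Continuous Eh) (hEnn : ∀ x, 0 ≤ Eh x)
    (hG : ∀ i, ContDiff ℝ 1 (G i))
    (hdiv : ∀ x, c0 * (W x * Eh x) ≤ ∑ i, pd i (G i) x)
    (hbd : ∀ x, Real.sqrt (∑ i, (G i x) ^ 2) ≤ K * W x * (Eh x) ^ ((3 : ℝ) / 4))
    (hWE : ∀ x, W x ≤ (Eh x) ^ (D / 2)) : ∀ x, Eh x = 0 := by
  sorry

end Vale.Agent.Lib.P100
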