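import Mathlib

/-!
# P100: Bernstein positivity for the uniform strip (helper13). Generated.
-/

set_option maxHeartbeats 4000000

noncomputable section

namespace Vale.Agent.Lib.P100.US

def bE10 (w : ℝ) : ℝ := 20 + 20 * w ^ 2
def bE11 (w : ℝ) : ℝ := 60 - 20 * w ^ 2
def bE12 (w : ℝ) : ℝ := 40
def bE13 (w : ℝ) : ℝ := 9 * w + 9 * w ^ 3
def pE1 (d w : ℝ) : ℝ := bE10 w + d * (bE11 w + d * (bE12 w + d * (bE13 w)))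

def cE10 (w : ℝ) : ℝ := 19 + 20 * w ^ 2

theorem cE10_nn {w : ℝ} (hw : 1 / 7 ≤ w) (hw1 : w ≤ 1) : 0 ≤ cE10 w := by
  obtain ⟨s, hs⟩ : ∃ s, s = 7 * w - 1 := ⟨_, rfl⟩
  obtain ⟨s1, hs1⟩ : ∃ s1, s1 = 1 - w := ⟨_, rfl⟩
  have h0 : 0 ≤ s := by rw [hs]; linarith
  have h1 : 0 ≤ s1 := by rw [hs1]; linarith
  have e : (72 : ℝ) * cE10 w = 2219 * s1 ^ 3 + 1031 * s ^ 1 * s1 ^ 2 + 193 * s ^ 2 * s1 ^ 1 + 13 * s ^ 3 := by rw [hs, hs1]; unfold cE10; ring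
  have h : 0 ≤ (72 : ℝ) * cE10 w := by rw [e]; positivity
  exact (mul_nonneg_iff_of_pos_left (by norm_num)).mp h

def cE11 (w : ℝ) : ℝ := 459 + 400 * w ^ 2

theorem cE11_nn {w : ℝ} (hw : 1 / 7 ≤ w) (hw1 : w ≤ 1) : 0 ≤ cE11 w := by
  obtain ⟨s, hs⟩ : ∃ s, s = 7 * w - 1 := ⟨_, rfl⟩
  obtain ⟨s1, hs1⟩ : ∃ s1, s1 = 1 - w := ⟨_, rfl⟩
  have h0 : 0 ≤ s := by rw [hs]; linarith
  have h1 : 0 ≤ s1 := by rw [hs1]; linarith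
  have e : (216 : ℝ) * cE11 w = 160237 * s1 ^ 3 + 73473 * s ^ 1 * s1 ^ 2 + 13239 * s ^ 2 * s1 ^ 1 + 859 * s ^ 3 := by rw [hs, hs1]; unfold cE11; ring
  have h : 0 ≤ (216 : ℝ) * cE11 w := by rw [e]; positivity
  exact (mul_nonneg_iff_of_pos_left (by norm_num)).mp h

def cE12 (w : ℝ) : ℝ := 3673 + 2660 * w ^ 2

theorem cE12_nn {w : ℝ} (hw : 1 / 7 ≤ w) (hw1 : w ≤ 1) : 0 ≤ cE12 w := by
  obtain ⟨s, hs⟩ : ∃ s, s = 7 * w - 1 := ⟨_, rfl⟩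
  obtain ⟨s1, hs1⟩ : ∃ s1, s1 = 1 - w := ⟨_, rfl⟩
  have h0 : 0 ≤ s := by rw [hs]; linarith
  have h1 : 0 ≤ s1 := by rw [hs1]; linarith
  have e : (72 : ℝ) * cE12 w = 426153 * s1 ^ 3 + 193277 * s ^ 1 * s1 ^ 2 + 33691 * s ^ 2 * s1 ^ 1 + 2111 * s ^ 3 := by rw [hs, hs1]; unfold cE12; ring
  have h : 0 ≤ (72 : ℝ) * cE12 w := by rw [e]; positivity
  exact (mul_nonneg_iff_of_pos_left (by norm_num)).mp h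

def cE13 (w : ℝ) : ℝ := 9737 + 9 * w + 5880 * w ^ 2 + 9 * w ^ 3

theorem cE13_nn {w : ℝ} (hw : 1 / 7 ≤ w) (hw1 : w ≤ 1) : 0 ≤ cE13 w := by
  obtain ⟨s, hs⟩ : ∃ s, s = 7 * w - 1 := ⟨_, rfl⟩
  obtain ⟨s1, hs1⟩ : ∃ s1, s1 = 1 - w := ⟨_, rfl⟩
  have h0 : 0 ≤ s := by rw [hs]; linarith
  have h1 : 0 ≤ s1 := by rw [hs1]; linarith
  have e : (216 : ℝ) * cE13 w = 3381401 * s1 ^ 3 + 1520133 * s ^ 1 * s1 ^ 2 + 257559 * s ^ 2 * s1 ^ 1 + 15635 * s ^ 3 := by rw [hs, hs1]; unfold cE13; ring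
  have h : 0 ≤ (216 : ℝ) * cE13 w := by rw [e]; positivity
  exact (mul_nonneg_iff_of_pos_left (by norm_num)).mp h

theorem E1_R2 {d w : ℝ} (hd : 0 ≤ d) (hd7 : d ≤ 1 / 7) (hw : 1 / 7 ≤ w) (hw1 : w ≤ 1) : 0 < pE1 d w := by
  obtain ⟨t, ht⟩ : ∃ t, t = 1 - 7 * d := ⟨_, rfl⟩
  have h2 : 0 ≤ t := by rw [ht]; linarith
  have key : (1 : ℝ) * pE1 d w = 1 + (t ^ 3 * cE10 w + (d ^ 1 * t ^ 2 * cE11 w + (d ^ 2 * t ^ 1 * cE12 w + (d ^ 3 * cE13 w)))) := by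
    rw [ht]; unfold pE1 bE13 bE11 bE10 bE12 cE10 cE11 cE12 cE13; ring
  have h3 : 0 < (1 : ℝ) * pE1 d w := by
    rw [key]; exact add_pos_of_pos_of_nonneg one_pos (add_nonneg (mul_nonneg (by positivity) (cE10_nn hw hw1)) (add_nonneg (mul_nonneg (by positivity) (cE11_nn hw hw1)) (add_nonneg (mul_nonneg (by positivity) (cE12_nn hw hw1)) (mul_nonneg (by positivity) (cE13_nn hw hw1)))))
  exact (mul_pos_iff_of_pos_left (by norm_num)).mp h3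

def eE10 (w : ℝ) : ℝ := 20 + 20 * w ^ 2

def eE11 (w : ℝ) : ℝ := 60 * w - 20 * w ^ 3

def eE12 (w : ℝ) : ℝ := 40 * w ^ 2

def eE13 (w : ℝ) : ℝ := 9 * w ^ 4 + 9 * w ^ 6

def pE1v (v w : ℝ) : ℝ := eE10 w + v * (eE11 w + v * (eE12 w + v * (eE13 w)))

theorem pE1_v (v w : ℝ) : pE1 (v * w) w = w ^ 0 * pE1v v w := by
  unfold pE1 pE1v bE13 bE11 bE10 bE12 eE13 eE11 eE10 eE12; ring

def fE10 (w : ℝ) : ℝ := 19 + 20 * w ^ 2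

theorem fE10_nn {w : ℝ} (hw : 0 ≤ w) (hw7 : w ≤ 1 / 7) : 0 ≤ fE10 w := by
  obtain ⟨s, hs⟩ : ∃ s, s = 1 - 7 * w := ⟨_, rfl⟩
  have h0 : 0 ≤ s := by rw [hs]; linarith
  have e : fE10 w = 19 * s ^ 6 + 798 * w ^ 1 * s ^ 5 + 13985 * w ^ 2 * s ^ 4 + 130900 * w ^ 3 * s ^ 3 + 690165 * w ^ 4 * s ^ 2 + 1943438 * w ^ 5 * s ^ 1 + 2283351 * w ^ 6 := by rw [hs]; unfold fE10; ring
  rw [e]; positivity

def fE11 (w : ℝ) : ℝ := 513 + 480 * w + 540 * w ^ 2 - 160 * w ^ 3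

theorem fE11_nn {w : ℝ} (hw : 0 ≤ w) (hw7 : w ≤ 1 / 7) : 0 ≤ fE11 w := by
  obtain ⟨s, hs⟩ : ∃ s, s = 1 - 7 * w := ⟨_, rfl⟩
  have h0 : 0 ≤ s := by rw [hs]; linarith
  have e : fE11 w = 513 * s ^ 6 + 22026 * w ^ 1 * s ^ 5 + 394395 * w ^ 2 * s ^ 4 + 3769340 * w ^ 3 * s ^ 3 + 20277495 * w ^ 4 * s ^ 2 + 58211706 * w ^ 5 * s ^ 1 + 69662957 * w ^ 6 := by rw [hs]; unfold fE11; ring
  rw [e]; positivity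

def fE12 (w : ℝ) : ℝ := 4617 + 8640 * w + 7420 * w ^ 2 - 2880 * w ^ 3

theorem fE12_nn {w : ℝ} (hw : 0 ≤ w) (hw7 : w ≤ 1 / 7) : 0 ≤ fE12 w := by
  obtain ⟨s, hs⟩ : ∃ s, s = 1 - 7 * w := ⟨_, rfl⟩
  have h0 : 0 ≤ s := by rw [hs]; linarith
  have e : fE12 w = 4617 * s ^ 6 + 202554 * w ^ 1 * s ^ 5 + 3703315 * w ^ 2 * s ^ 4 + 36111100 * w ^ 3 * s ^ 3 + 198037455 * w ^ 4 * s ^ 2 + 579067594 * w ^ 5 * s ^ 1 + 705225493 * w ^ 6 := by rw [hs]; unfold fE12; ring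
  rw [e]; positivity

def fE13 (w : ℝ) : ℝ := 13851 + 38880 * w + 37620 * w ^ 2 - 12960 * w ^ 3 + 4608 * w ^ 4 + 4608 * w ^ 6

theorem fE13_nn {w : ℝ} (hw : 0 ≤ w) (hw7 : w ≤ 1 / 7) : 0 ≤ fE13 w := by
  obtain ⟨s, hs⟩ : ∃ s, s = 1 - 7 * w := ⟨_, rfl⟩
  have h0 : 0 ≤ s := by rw [hs]; linarith
  have e : fE13 w = 13851 * s ^ 6 + 620622 * w ^ 1 * s ^ 5 + 11578905 * w ^ 2 * s ^ 4 + 115109460 * w ^ 3 * s ^ 3 + 642994893 * w ^ 4 * s ^ 2 + 1913290974 * w ^ 5 * s ^ 1 + 2369123199 * w ^ 6 := by rw [hs]; unfold fE13; ring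
  rw [e]; positivity

theorem E1_R1 {v w : ℝ} (hv : 0 ≤ v) (hv8 : v ≤ 8 / 9) (hw : 0 ≤ w) (hw7 : w ≤ 1 / 7) : 0 < pE1v v w := by
  obtain ⟨t, ht⟩ : ∃ t, t = 8 - 9 * v := ⟨_, rfl⟩
  have h2 : 0 ≤ t := by rw [ht]; linarith
  have key : (512 : ℝ) * pE1v v w = 512 + (t ^ 3 * fE10 w + (v ^ 1 * t ^ 2 * fE11 w + (v ^ 2 * t ^ 1 * fE12 w + (v ^ 3 * fE13 w)))) := by
    rw [ht]; unfold pE1v eE13 eE11 eE10 eE12 fE10 fE11 fE12 fE13; ring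
  have h3 : 0 < (512 : ℝ) * pE1v v w := by
    rw [key]; exact add_pos_of_pos_of_nonneg (by norm_num) (add_nonneg (mul_nonneg (by positivity) (fE10_nn hw hw7)) (add_nonneg (mul_nonneg (by positivity) (fE11_nn hw hw7)) (add_nonneg (mul_nonneg (by positivity) (fE12_nn hw hw7)) (mul_nonneg (by positivity) (fE13_nn hw hw7)))))
  exact (mul_pos_iff_of_pos_left (by norm_num)).mp h3

theorem pE1_pos {d w : ℝ} (hd : 0 < d) (hd7 : d ≤ 1 / 7) (hw : 9 / 8 * d ≤ w) (hw1 : w ≤ 1) : 0 < pE1 d w := by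
  rcases le_total (1 / 7) w with h | h
  · exact E1_R2 hd.le hd7 h hw1
  · have hw0 : 0 < w := by linarith
    have e := pE1_v (d / w) w
    rw [div_mul_cancel₀ d hw0.ne'] at e
    rw [e]
    refine mul_pos (pow_pos hw0 0) (E1_R1 (by positivity) ?_ hw0.le h)
    rw [div_le_iff₀ hw0]
    linarith

def bE20 (w : ℝ) : ℝ := 1 + w ^ 2
def bE21 (w : ℝ) : ℝ := -1 + 3 * w ^ 2
def bE22 (w : ℝ) : ℝ := 2 * w ^ 2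
def pE2 (d w : ℝ) : ℝ := bE20 w + d * (bE21 w + d * (bE22 w))

def cE20 (w : ℝ) : ℝ := 1 + 2 * w ^ 2

theorem cE20_nn {w : ℝ} (hw : 1 / 7 ≤ w) (hw1 : w ≤ 1) : 0 ≤ cE20 w := by
  obtain ⟨s, hs⟩ : ∃ s, s = 7 * w - 1 := ⟨_, rfl⟩
  obtain ⟨s1, hs1⟩ : ∃ s1, s1 = 1 - w := ⟨_, rfl⟩
  have h0 : 0 ≤ s := by rw [hs]; linarith
  have h1 : 0 ≤ s1 := by rw [hs1]; linarith
  have e : (12 : ℝ) * cE20 w = 17 * s1 ^ 2 + 6 * s ^ 1 * s1 ^ 1 + 1 * s ^ 2 := by rw [hs, hs1]; unfold cE20; ring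
  have h : 0 ≤ (12 : ℝ) * cE20 w := by rw [e]; positivity
  exact (mul_nonneg_iff_of_pos_left (by norm_num)).mp h

def cE21 (w : ℝ) : ℝ := 12 + 34 * w ^ 2

theorem cE21_nn {w : ℝ} (hw : 1 / 7 ≤ w) (hw1 : w ≤ 1) : 0 ≤ cE21 w := by
  obtain ⟨s, hs⟩ : ∃ s, s = 7 * w - 1 := ⟨_, rfl⟩
  obtain ⟨s1, hs1⟩ : ∃ s1, s1 = 1 - w := ⟨_, rfl⟩
  have h0 : 0 ≤ s := by rw [hs]; linarith
  have h1 : 0 ≤ s1 := by rw [hs1]; linarith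
  have e : (18 : ℝ) * cE21 w = 311 * s1 ^ 2 + 118 * s ^ 1 * s1 ^ 1 + 23 * s ^ 2 := by rw [hs, hs1]; unfold cE21; ring
  have h : 0 ≤ (18 : ℝ) * cE21 w := by rw [e]; positivity
  exact (mul_nonneg_iff_of_pos_left (by norm_num)).mp h

def cE22 (w : ℝ) : ℝ := 35 + 144 * w ^ 2

theorem cE22_nn {w : ℝ} (hw : 1 / 7 ≤ w) (hw1 : w ≤ 1) : 0 ≤ cE22 w := by
  obtain ⟨s, hs⟩ : ∃ s, s = 7 * w - 1 := ⟨_, rfl⟩
  obtain ⟨s1, hs1⟩ : ∃ s1, s1 = 1 - w := ⟨_, rfl⟩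
  have h0 : 0 ≤ s := by rw [hs]; linarith
  have h1 : 0 ≤ s1 := by rw [hs1]; linarith
  have e : (36 : ℝ) * cE22 w = 1859 * s1 ^ 2 + 778 * s ^ 1 * s1 ^ 1 + 179 * s ^ 2 := by rw [hs, hs1]; unfold cE22; ring
  have h : 0 ≤ (36 : ℝ) * cE22 w := by rw [e]; positivity
  exact (mul_nonneg_iff_of_pos_left (by norm_num)).mp h

theorem E2_R2 {d w : ℝ} (hd : 0 ≤ d) (hd7 : d ≤ 1 / 7) (hw : 1 / 7 ≤ w) (hw1 : w ≤ 1) : 0 < pE2 d w := by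
  obtain ⟨t, ht⟩ : ∃ t, t = 1 - 7 * d := ⟨_, rfl⟩
  have h2 : 0 ≤ t := by rw [ht]; linarith
  have key : (2 : ℝ) * pE2 d w = 1 + (t ^ 2 * cE20 w + (d ^ 1 * t ^ 1 * cE21 w + (d ^ 2 * cE22 w))) := by
    rw [ht]; unfold pE2 bE22 bE21 bE20 cE20 cE21 cE22; ring
  have h3 : 0 < (2 : ℝ) * pE2 d w := by
    rw [key]; exact add_pos_of_pos_of_nonneg one_pos (add_nonneg (mul_nonneg (by positivity) (cE20_nn hw hw1)) (add_nonneg (mul_nonneg (by positivity) (cE21_nn hw hw1)) (mul_nonneg (by positivity) (cE22_nn hw hw1))))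
  exact (mul_pos_iff_of_pos_left (by norm_num)).mp h3

def eE20 (w : ℝ) : ℝ := 1 + w ^ 2

def eE21 (w : ℝ) : ℝ := -w + 3 * w ^ 3

def eE22 (w : ℝ) : ℝ := 2 * w ^ 4

def pE2v (v w : ℝ) : ℝ := eE20 w + v * (eE21 w + v * (eE22 w))

theorem pE2_v (v w : ℝ) : pE2 (v * w) w = w ^ 0 * pE2v v w := by
  unfold pE2 pE2v bE22 bE21 bE20 eE22 eE21 eE20; ring

def fE20 (w : ℝ) : ℝ := 1 + 2 * w ^ 2

theorem fE20_nn {w : ℝ} (hw : 0 ≤ w) (hw7 : w ≤ 1 / 7) : 0 ≤ fE20 w := by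
  obtain ⟨s, hs⟩ : ∃ s, s = 1 - 7 * w := ⟨_, rfl⟩
  have h0 : 0 ≤ s := by rw [hs]; linarith
  have e : fE20 w = 1 * s ^ 4 + 28 * w ^ 1 * s ^ 3 + 296 * w ^ 2 * s ^ 2 + 1400 * w ^ 3 * s ^ 1 + 2499 * w ^ 4 := by rw [hs]; unfold fE20; ring
  rw [e]; positivity

def fE21 (w : ℝ) : ℝ := 18 - 16 * w + 36 * w ^ 2 + 48 * w ^ 3

theorem fE21_nn {w : ℝ} (hw : 0 ≤ w) (hw7 : w ≤ 1 / 7) : 0 ≤ fE21 w := by
  obtain ⟨s, hs⟩ : ∃ s, s = 1 - 7 * w := ⟨_, rfl⟩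
  have h0 : 0 ≤ s := by rw [hs]; linarith
  have e : fE21 w = 18 * s ^ 4 + 488 * w ^ 1 * s ^ 3 + 4992 * w ^ 2 * s ^ 2 + 22896 * w ^ 3 * s ^ 1 + 39830 * w ^ 4 := by rw [hs]; unfold fE21; ring
  rw [e]; positivity

def fE22 (w : ℝ) : ℝ := 81 - 144 * w + 162 * w ^ 2 + 432 * w ^ 3 + 256 * w ^ 4

theorem fE22_nn {w : ℝ} (hw : 0 ≤ w) (hw7 : w ≤ 1 / 7) : 0 ≤ fE22 w := by
  obtain ⟨s, hs⟩ : ∃ s, s = 1 - 7 * w := ⟨_, rfl⟩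
  have h0 : 0 ≤ s := by rw [hs]; linarith
  have e : fE22 w = 81 * s ^ 4 + 2124 * w ^ 1 * s ^ 3 + 20952 * w ^ 2 * s ^ 2 + 92664 * w ^ 3 * s ^ 1 + 156307 * w ^ 4 := by rw [hs]; unfold fE22; ring
  rw [e]; positivity

theorem E2_R1 {v w : ℝ} (hv : 0 ≤ v) (hv8 : v ≤ 8 / 9) (hw : 0 ≤ w) (hw7 : w ≤ 1 / 7) : 0 < pE2v v w := by
  obtain ⟨t, ht⟩ : ∃ t, t = 8 - 9 * v := ⟨_, rfl⟩
  have h2 : 0 ≤ t := by rw [ht]; linarith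
  have key : (128 : ℝ) * pE2v v w = 64 + (t ^ 2 * fE20 w + (v ^ 1 * t ^ 1 * fE21 w + (v ^ 2 * fE22 w))) := by
    rw [ht]; unfold pE2v eE22 eE21 eE20 fE20 fE21 fE22; ring
  have h3 : 0 < (128 : ℝ) * pE2v v w := by
    rw [key]; exact add_pos_of_pos_of_nonneg (by norm_num) (add_nonneg (mul_nonneg (by positivity) (fE20_nn hw hw7)) (add_nonneg (mul_nonneg (by positivity) (fE21_nn hw hw7)) (mul_nonneg (by positivity) (fE22_nn hw hw7))))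
  exact (mul_pos_iff_of_pos_left (by norm_num)).mp h3

theorem pE2_pos {d w : ℝ} (hd : 0 < d) (hd7 : d ≤ 1 / 7) (hw : 9 / 8 * d ≤ w) (hw1 : w ≤ 1) : 0 < pE2 d w := by
  rcases le_total (1 / 7) w with h | h
  · exact E2_R2 hd.le hd7 h hw1
  · have hw0 : 0 < w := by linarith
    have e := pE2_v (d / w) w
    rw [div_mul_cancel₀ d hw0.ne'] at e
    rw [e]
    refine mul_pos (pow_pos hw0 0) (E2_R1 (by positivity) ?_ hw0.le h)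
    rw [div_le_iff₀ hw0]
    linarith

def bR10 (w : ℝ) : ℝ := 1600 * w + 1600 * w ^ 3
def bR11 (w : ℝ) : ℝ := -360 + 4800 * w - 720 * w ^ 2 - 3200 * w ^ 3 - 360 * w ^ 4
def bR12 (w : ℝ) : ℝ := -1080 + 3200 * w - 1440 * w ^ 2 - 360 * w ^ 4
def bR13 (w : ℝ) : ℝ := -720 - 81 * w - 162 * w ^ 3 + 720 * w ^ 4 - 81 * w ^ 5
def bR14 (w : ℝ) : ℝ := -162 * w - 324 * w ^ 3 - 162 * w ^ 5
def pR1 (d w : ℝ) : ℝ := bR10 w + d * (bR11 w + d * (bR12 w + d * (bR13 w + d * (bR14 w))))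

def cR10 (w : ℝ) : ℝ := -1 + 1600 * w + 1600 * w ^ 3

theorem cR10_nn {w : ℝ} (hw : 1 / 7 ≤ w) (hw1 : w ≤ 1) : 0 ≤ cR10 w := by
  obtain ⟨s, hs⟩ : ∃ s, s = 7 * w - 1 := ⟨_, rfl⟩
  obtain ⟨s1, hs1⟩ : ∃ s1, s1 = 1 - w := ⟨_, rfl⟩
  have h0 : 0 ≤ s := by rw [hs]; linarith
  have h1 : 0 ≤ s1 := by rw [hs1]; linarith
  have e : (7776 : ℝ) * cR10 w = 3903193 * s1 ^ 5 + 6282395 * s ^ 1 * s1 ^ 4 + 2966170 * s ^ 2 * s1 ^ 3 + 665110 * s ^ 3 * s1 ^ 2 + 73565 * s ^ 4 * s1 ^ 1 + 3199 * s ^ 5 := by rw [hs, hs1]; unfold cR10; ring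
  have h : 0 ≤ (7776 : ℝ) * cR10 w := by rw [e]; positivity
  exact (mul_nonneg_iff_of_pos_left (by norm_num)).mp h

def cR11 (w : ℝ) : ℝ := -388 + 49600 * w - 720 * w ^ 2 + 41600 * w ^ 3 - 360 * w ^ 4

theorem cR11_nn {w : ℝ} (hw : 1 / 7 ≤ w) (hw1 : w ≤ 1) : 0 ≤ cR11 w := by
  obtain ⟨s, hs⟩ : ∃ s, s = 7 * w - 1 := ⟨_, rfl⟩
  obtain ⟨s1, hs1⟩ : ∃ s1, s1 = 1 - w := ⟨_, rfl⟩
  have h0 : 0 ≤ s := by rw [hs]; linarith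
  have h1 : 0 ≤ s1 := by rw [hs1]; linarith
  have e : (1944 : ℝ) * cR11 w = 28589351 * s1 ^ 5 + 47142565 * s ^ 1 * s1 ^ 4 + 22179110 * s ^ 2 * s1 ^ 3 + 4885610 * s ^ 3 * s1 ^ 2 + 527875 * s ^ 4 * s1 ^ 1 + 22433 * s ^ 5 := by rw [hs, hs1]; unfold cR11; ring
  have h : 0 ≤ (1944 : ℝ) * cR11 w := by rw [e]; positivity
  exact (mul_nonneg_iff_of_pos_left (by norm_num)).mp h

def cR12 (w : ℝ) : ℝ := -8934 + 574400 * w - 16560 * w ^ 2 + 403200 * w ^ 3 - 7920 * w ^ 4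

theorem cR12_nn {w : ℝ} (hw : 1 / 7 ≤ w) (hw1 : w ≤ 1) : 0 ≤ cR12 w := by
  obtain ⟨s, hs⟩ : ∃ s, s = 7 * w - 1 := ⟨_, rfl⟩
  obtain ⟨s1, hs1⟩ : ∃ s1, s1 = 1 - w := ⟨_, rfl⟩
  have h0 : 0 ≤ s := by rw [hs]; linarith
  have h1 : 0 ≤ s1 := by rw [hs1]; linarith
  have e : (3888 : ℝ) * cR12 w = 621500971 * s1 ^ 5 + 1055424785 * s ^ 1 * s1 ^ 4 + 495826990 * s ^ 2 * s1 ^ 3 + 107532130 * s ^ 3 * s1 ^ 2 + 11365655 * s ^ 4 * s1 ^ 1 + 472093 * s ^ 5 := by rw [hs, hs1]; unfold cR12; ring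
  have h : 0 ≤ (3888 : ℝ) * cR12 w := by rw [e]; positivity
  exact (mul_nonneg_iff_of_pos_left (by norm_num)).mp h

def cR13 (w : ℝ) : ℝ := -70132 + 2945519 * w - 126000 * w ^ 2 + 1724638 * w ^ 3 - 57240 * w ^ 4 - 81 * w ^ 5

theorem cR13_nn {w : ℝ} (hw : 1 / 7 ≤ w) (hw1 : w ≤ 1) : 0 ≤ cR13 w := by
  obtain ⟨s, hs⟩ : ∃ s, s = 7 * w - 1 := ⟨_, rfl⟩
  obtain ⟨s1, hs1⟩ : ∃ s1, s1 = 1 - w := ⟨_, rfl⟩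
  have h0 : 0 ≤ s := by rw [hs]; linarith
  have h1 : 0 ≤ s1 := by rw [hs1]; linarith
  have e : (972 : ℝ) * cR13 w = 741796387 * s1 ^ 5 + 1305319610 * s ^ 1 * s1 ^ 4 + 613602658 * s ^ 2 * s1 ^ 3 + 131290180 * s ^ 3 * s1 ^ 2 + 13594529 * s ^ 4 * s1 ^ 1 + 552088 * s ^ 5 := by rw [hs, hs1]; unfold cR13; ring
  have h : 0 ≤ (972 : ℝ) * cR13 w := by rw [e]; positivity
  exact (mul_nonneg_iff_of_pos_left (by norm_num)).mp h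

def cR14 (w : ℝ) : ℝ := -183841 + 5644071 * w - 317520 * w ^ 2 + 2742542 * w ^ 3 - 136080 * w ^ 4 - 729 * w ^ 5

theorem cR14_nn {w : ℝ} (hw : 1 / 7 ≤ w) (hw1 : w ≤ 1) : 0 ≤ cR14 w := by
  obtain ⟨s, hs⟩ : ∃ s, s = 7 * w - 1 := ⟨_, rfl⟩
  obtain ⟨s1, hs1⟩ : ∃ s1, s1 = 1 - w := ⟨_, rfl⟩
  have h0 : 0 ≤ s := by rw [hs]; linarith
  have h1 : 0 ≤ s1 := by rw [hs1]; linarith
  have e : (7776 : ℝ) * cR14 w = 10486120693 * s1 ^ 5 + 19261173815 * s ^ 1 * s1 ^ 4 + 9078335506 * s ^ 2 * s1 ^ 3 + 1920144910 * s ^ 3 * s1 ^ 2 + 195063353 * s ^ 4 * s1 ^ 1 + 7748443 * s ^ 5 := by rw [hs, hs1]; unfold cR14; ring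
  have h : 0 ≤ (7776 : ℝ) * cR14 w := by rw [e]; positivity
  exact (mul_nonneg_iff_of_pos_left (by norm_num)).mp h

theorem R1_R2 {d w : ℝ} (hd : 0 ≤ d) (hd7 : d ≤ 1 / 7) (hw : 1 / 7 ≤ w) (hw1 : w ≤ 1) : 0 < pR1 d w := by
  obtain ⟨t, ht⟩ : ∃ t, t = 1 - 7 * d := ⟨_, rfl⟩
  have h2 : 0 ≤ t := by rw [ht]; linarith
  have key : (1 : ℝ) * pR1 d w = 1 + (t ^ 4 * cR10 w + (d ^ 1 * t ^ 3 * cR11 w + (d ^ 2 * t ^ 2 * cR12 w + (d ^ 3 * t ^ 1 * cR13 w + (d ^ 4 * cR14 w))))) := by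
    rw [ht]; unfold pR1 bR14 bR13 bR12 bR11 bR10 cR10 cR11 cR12 cR13 cR14; ring
  have h3 : 0 < (1 : ℝ) * pR1 d w := by
    rw [key]; exact add_pos_of_pos_of_nonneg one_pos (add_nonneg (mul_nonneg (by positivity) (cR10_nn hw hw1)) (add_nonneg (mul_nonneg (by positivity) (cR11_nn hw hw1)) (add_nonneg (mul_nonneg (by positivity) (cR12_nn hw hw1)) (add_nonneg (mul_nonneg (by positivity) (cR13_nn hw hw1)) (mul_nonneg (by positivity) (cR14_nn hw hw1))))))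
  exact (mul_pos_iff_of_pos_left (by norm_num)).mp h3

def eR10 (w : ℝ) : ℝ := 1600 + 1600 * w ^ 2

def eR11 (w : ℝ) : ℝ := -360 + 4800 * w - 720 * w ^ 2 - 3200 * w ^ 3 - 360 * w ^ 4

def eR12 (w : ℝ) : ℝ := -1080 * w + 3200 * w ^ 2 - 1440 * w ^ 3 - 360 * w ^ 5

def eR13 (w : ℝ) : ℝ := -720 * w ^ 2 - 81 * w ^ 3 - 162 * w ^ 5 + 720 * w ^ 6 - 81 * w ^ 7

def eR14 (w : ℝ) : ℝ := -162 * w ^ 4 - 324 * w ^ 6 - 162 * w ^ 8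

def pR1v (v w : ℝ) : ℝ := eR10 w + v * (eR11 w + v * (eR12 w + v * (eR13 w + v * (eR14 w))))

theorem pR1_v (v w : ℝ) : pR1 (v * w) w = w ^ 1 * pR1v v w := by
  unfold pR1 pR1v bR14 bR13 bR12 bR11 bR10 eR14 eR13 eR12 eR11 eR10; ring

def fR10 (w : ℝ) : ℝ := 1599 + 1600 * w ^ 2

theorem fR10_nn {w : ℝ} (hw : 0 ≤ w) (hw7 : w ≤ 1 / 7) : 0 ≤ fR10 w := by
  obtain ⟨s, hs⟩ : ∃ s, s = 1 - 7 * w := ⟨_, rfl⟩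
  have h0 : 0 ≤ s := by rw [hs]; linarith
  have e : fR10 w = 1599 * s ^ 8 + 89544 * w ^ 1 * s ^ 7 + 2195428 * w ^ 2 * s ^ 6 + 30780792 * w ^ 3 * s ^ 5 + 269919930 * w ^ 4 * s ^ 4 + 1515942008 * w ^ 5 * s ^ 3 + 5325005028 * w ^ 6 * s ^ 2 + 10696109256 * w ^ 7 * s ^ 1 + 9406155199 * w ^ 8 := by rw [hs]; unfold fR10; ring
  rw [e]; positivity

def fR11 (w : ℝ) : ℝ := 54684 + 38400 * w + 51840 * w ^ 2 - 25600 * w ^ 3 - 2880 * w ^ 4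

theorem fR11_nn {w : ℝ} (hw : 0 ≤ w) (hw7 : w ≤ 1 / 7) : 0 ≤ fR11 w := by
  obtain ⟨s, hs⟩ : ∃ s, s = 1 - 7 * w := ⟨_, rfl⟩
  have h0 : 0 ≤ s := by rw [hs]; linarith
  have e : fR11 w = 54684 * s ^ 8 + 3100704 * w ^ 1 * s ^ 7 + 76959888 * w ^ 2 * s ^ 6 + 1092035552 * w ^ 3 * s ^ 5 + 9688935400 * w ^ 4 * s ^ 4 + 55038085088 * w ^ 5 * s ^ 3 + 195470029328 * w ^ 6 * s ^ 2 + 396817424416 * w ^ 7 * s ^ 1 + 352528179164 * w ^ 8 := by rw [hs]; unfold fR11; ring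
  rw [e]; positivity

def fR12 (w : ℝ) : ℝ := 699354 + 967680 * w + 826880 * w ^ 2 - 783360 * w ^ 3 - 77760 * w ^ 4 - 23040 * w ^ 5

theorem fR12_nn {w : ℝ} (hw : 0 ≤ w) (hw7 : w ≤ 1 / 7) : 0 ≤ fR12 w := by
  obtain ⟨s, hs⟩ : ∃ s, s = 1 - 7 * w := ⟨_, rfl⟩
  have h0 : 0 ≤ s := by rw [hs]; linarith
  have e : fR12 w = 699354 * s ^ 8 + 40131504 * w ^ 1 * s ^ 7 + 1007756888 * w ^ 2 * s ^ 6 + 14462879952 * w ^ 3 * s ^ 5 + 129737686620 * w ^ 4 * s ^ 4 + 744831728848 * w ^ 5 * s ^ 3 + 2672401930968 * w ^ 6 * s ^ 2 + 5478380742576 * w ^ 7 * s ^ 1 + 4912483797914 * w ^ 8 := by rw [hs]; unfold fR12; ring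
  rw [e]; positivity

def fR13 (w : ℝ) : ℝ := 3962844 + 8087040 * w + 6583680 * w ^ 2 - 7921152 * w ^ 3 - 699840 * w ^ 4 - 497664 * w ^ 5 + 368640 * w ^ 6 - 41472 * w ^ 7

theorem fR13_nn {w : ℝ} (hw : 0 ≤ w) (hw7 : w ≤ 1 / 7) : 0 ≤ fR13 w := by
  obtain ⟨s, hs⟩ : ∃ s, s = 1 - 7 * w := ⟨_, rfl⟩
  have h0 : 0 ≤ s := by rw [hs]; linarith
  have e : fR13 w = 3962844 * s ^ 8 + 230006304 * w ^ 1 * s ^ 7 + 5839870608 * w ^ 2 * s ^ 6 + 84708465120 * w ^ 3 * s ^ 5 + 767681170920 * w ^ 4 * s ^ 4 + 4450654063584 * w ^ 5 * s ^ 3 + 16118312100624 * w ^ 6 * s ^ 2 + 33336394484256 * w ^ 7 * s ^ 1 + 30144631561884 * w ^ 8 := by rw [hs]; unfold fR13; ring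
  rw [e]; positivity

def fR14 (w : ℝ) : ℝ := 8391519 + 22394880 * w + 19569600 * w ^ 2 - 26500608 * w ^ 3 - 2763072 * w ^ 4 - 2612736 * w ^ 5 + 1990656 * w ^ 6 - 373248 * w ^ 7 - 663552 * w ^ 8

theorem fR14_nn {w : ℝ} (hw : 0 ≤ w) (hw7 : w ≤ 1 / 7) : 0 ≤ fR14 w := by
  obtain ⟨s, hs⟩ : ∃ s, s = 1 - 7 * w := ⟨_, rfl⟩
  have h0 : 0 ≤ s := by rw [hs]; linarith
  have e : fR14 w = 8391519 * s ^ 8 + 492319944 * w ^ 1 * s ^ 7 + 12630082788 * w ^ 2 * s ^ 6 + 185024051064 * w ^ 3 * s ^ 5 + 1692666504378 * w ^ 4 * s ^ 4 + 9901166470776 * w ^ 5 * s ^ 3 + 36160349477220 * w ^ 6 * s ^ 2 + 75380510807496 * w ^ 7 * s ^ 1 + 68668095895839 * w ^ 8 := by rw [hs]; unfold fR14; ring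
  rw [e]; positivity

theorem R1_R1 {v w : ℝ} (hv : 0 ≤ v) (hv8 : v ≤ 8 / 9) (hw : 0 ≤ w) (hw7 : w ≤ 1 / 7) : 0 < pR1v v w := by
  obtain ⟨t, ht⟩ : ∃ t, t = 8 - 9 * v := ⟨_, rfl⟩
  have h2 : 0 ≤ t := by rw [ht]; linarith
  have key : (4096 : ℝ) * pR1v v w = 4096 + (t ^ 4 * fR10 w + (v ^ 1 * t ^ 3 * fR11 w + (v ^ 2 * t ^ 2 * fR12 w + (v ^ 3 * t ^ 1 * fR13 w + (v ^ 4 * fR14 w))))) := by
    rw [ht]; unfold pR1v eR14 eR13 eR12 eR11 eR10 fR10 fR11 fR12 fR13 fR14; ring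
  have h3 : 0 < (4096 : ℝ) * pR1v v w := by
    rw [key]; exact add_pos_of_pos_of_nonneg (by norm_num) (add_nonneg (mul_nonneg (by positivity) (fR10_nn hw hw7)) (add_nonneg (mul_nonneg (by positivity) (fR11_nn hw hw7)) (add_nonneg (mul_nonneg (by positivity) (fR12_nn hw hw7)) (add_nonneg (mul_nonneg (by positivity) (fR13_nn hw hw7)) (mul_nonneg (by positivity) (fR14_nn hw hw7))))))
  exact (mul_pos_iff_of_pos_left (by norm_num)).mp h3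

theorem pR1_pos {d w : ℝ} (hd : 0 < d) (hd7 : d ≤ 1 / 7) (hw : 9 / 8 * d ≤ w) (hw1 : w ≤ 1) : 0 < pR1 d w := by
  rcases le_total (1 / 7) w with h | h
  · exact R1_R2 hd.le hd7 h hw1
  · have hw0 : 0 < w := by linarith
    have e := pR1_v (d / w) w
    rw [div_mul_cancel₀ d hw0.ne'] at e
    rw [e]
    refine mul_pos (pow_pos hw0 1) (R1_R1 (by positivity) ?_ hw0.le h)
    rw [div_le_iff₀ hw0]
    linarith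

def bR60 (w : ℝ) : ℝ := 1 + w ^ 2
def bR61 (w : ℝ) : ℝ := -2 + 3 * w ^ 2
def bR62 (w : ℝ) : ℝ := 2 * w ^ 2
def pR6 (d w : ℝ) : ℝ := bR60 w + d * (bR61 w + d * (bR62 w))

def cR60 (w : ℝ) : ℝ := 3 + 4 * w ^ 2

theorem cR60_nn {w : ℝ} (hw : 1 / 7 ≤ w) (hw1 : w ≤ 1) : 0 ≤ cR60 w := by
  obtain ⟨s, hs⟩ : ∃ s, s = 7 * w - 1 := ⟨_, rfl⟩
  obtain ⟨s1, hs1⟩ : ∃ s1, s1 = 1 - w := ⟨_, rfl⟩
  have h0 : 0 ≤ s := by rw [hs]; linarith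
  have h1 : 0 ≤ s1 := by rw [hs1]; linarith
  have e : (36 : ℝ) * cR60 w = 151 * s1 ^ 2 + 50 * s ^ 1 * s1 ^ 1 + 7 * s ^ 2 := by rw [hs, hs1]; unfold cR60; ring
  have h : 0 ≤ (36 : ℝ) * cR60 w := by rw [e]; positivity
  exact (mul_nonneg_iff_of_pos_left (by norm_num)).mp h

def cR61 (w : ℝ) : ℝ := 34 + 68 * w ^ 2

theorem cR61_nn {w : ℝ} (hw : 1 / 7 ≤ w) (hw1 : w ≤ 1) : 0 ≤ cR61 w := by
  obtain ⟨s, hs⟩ : ∃ s, s = 7 * w - 1 := ⟨_, rfl⟩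
  obtain ⟨s1, hs1⟩ : ∃ s1, s1 = 1 - w := ⟨_, rfl⟩
  have h0 : 0 ≤ s := by rw [hs]; linarith
  have h1 : 0 ≤ s1 := by rw [hs1]; linarith
  have e : (6 : ℝ) * cR61 w = 289 * s1 ^ 2 + 102 * s ^ 1 * s1 ^ 1 + 17 * s ^ 2 := by rw [hs, hs1]; unfold cR61; ring
  have h : 0 ≤ (6 : ℝ) * cR61 w := by rw [e]; positivity
  exact (mul_nonneg_iff_of_pos_left (by norm_num)).mp h

def cR62 (w : ℝ) : ℝ := 91 + 288 * w ^ 2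

theorem cR62_nn {w : ℝ} (hw : 1 / 7 ≤ w) (hw1 : w ≤ 1) : 0 ≤ cR62 w := by
  obtain ⟨s, hs⟩ : ∃ s, s = 7 * w - 1 := ⟨_, rfl⟩
  obtain ⟨s1, hs1⟩ : ∃ s1, s1 = 1 - w := ⟨_, rfl⟩
  have h0 : 0 ≤ s := by rw [hs]; linarith
  have h1 : 0 ≤ s1 := by rw [hs1]; linarith
  have e : (36 : ℝ) * cR62 w = 4747 * s1 ^ 2 + 1850 * s ^ 1 * s1 ^ 1 + 379 * s ^ 2 := by rw [hs, hs1]; unfold cR62; ring
  have h : 0 ≤ (36 : ℝ) * cR62 w := by rw [e]; positivity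
  exact (mul_nonneg_iff_of_pos_left (by norm_num)).mp h

theorem R6_R2 {d w : ℝ} (hd : 0 ≤ d) (hd7 : d ≤ 1 / 7) (hw : 1 / 7 ≤ w) (hw1 : w ≤ 1) : 0 < pR6 d w := by
  obtain ⟨t, ht⟩ : ∃ t, t = 1 - 7 * d := ⟨_, rfl⟩
  have h2 : 0 ≤ t := by rw [ht]; linarith
  have key : (4 : ℝ) * pR6 d w = 1 + (t ^ 2 * cR60 w + (d ^ 1 * t ^ 1 * cR61 w + (d ^ 2 * cR62 w))) := by
    rw [ht]; unfold pR6 bR62 bR61 bR60 cR60 cR61 cR62; ring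
  have h3 : 0 < (4 : ℝ) * pR6 d w := by
    rw [key]; exact add_pos_of_pos_of_nonneg one_pos (add_nonneg (mul_nonneg (by positivity) (cR60_nn hw hw1)) (add_nonneg (mul_nonneg (by positivity) (cR61_nn hw hw1)) (mul_nonneg (by positivity) (cR62_nn hw hw1))))
  exact (mul_pos_iff_of_pos_left (by norm_num)).mp h3

def eR60 (w : ℝ) : ℝ := 1 + w ^ 2

def eR61 (w : ℝ) : ℝ := -2 * w + 3 * w ^ 3

def eR62 (w : ℝ) : ℝ := 2 * w ^ 4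

def pR6v (v w : ℝ) : ℝ := eR60 w + v * (eR61 w + v * (eR62 w))

theorem pR6_v (v w : ℝ) : pR6 (v * w) w = w ^ 0 * pR6v v w := by
  unfold pR6 pR6v bR62 bR61 bR60 eR62 eR61 eR60; ring

def fR60 (w : ℝ) : ℝ := 1 + 2 * w ^ 2

theorem fR60_nn {w : ℝ} (hw : 0 ≤ w) (hw7 : w ≤ 1 / 7) : 0 ≤ fR60 w := by
  obtain ⟨s, hs⟩ : ∃ s, s = 1 - 7 * w := ⟨_, rfl⟩
  have h0 : 0 ≤ s := by rw [hs]; linarith
  have e : fR60 w = 1 * s ^ 4 + 28 * w ^ 1 * s ^ 3 + 296 * w ^ 2 * s ^ 2 + 1400 * w ^ 3 * s ^ 1 + 2499 * w ^ 4 := by rw [hs]; unfold fR60; ring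
  rw [e]; positivity

def fR61 (w : ℝ) : ℝ := 18 - 32 * w + 36 * w ^ 2 + 48 * w ^ 3

theorem fR61_nn {w : ℝ} (hw : 0 ≤ w) (hw7 : w ≤ 1 / 7) : 0 ≤ fR61 w := by
  obtain ⟨s, hs⟩ : ∃ s, s = 1 - 7 * w := ⟨_, rfl⟩
  have h0 : 0 ≤ s := by rw [hs]; linarith
  have e : fR61 w = 18 * s ^ 4 + 472 * w ^ 1 * s ^ 3 + 4656 * w ^ 2 * s ^ 2 + 20544 * w ^ 3 * s ^ 1 + 34342 * w ^ 4 := by rw [hs]; unfold fR61; ring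
  rw [e]; positivity

def fR62 (w : ℝ) : ℝ := 81 - 288 * w + 162 * w ^ 2 + 432 * w ^ 3 + 256 * w ^ 4

theorem fR62_nn {w : ℝ} (hw : 0 ≤ w) (hw7 : w ≤ 1 / 7) : 0 ≤ fR62 w := by
  obtain ⟨s, hs⟩ : ∃ s, s = 1 - 7 * w := ⟨_, rfl⟩
  have h0 : 0 ≤ s := by rw [hs]; linarith
  have e : fR62 w = 81 * s ^ 4 + 1980 * w ^ 1 * s ^ 3 + 17928 * w ^ 2 * s ^ 2 + 71496 * w ^ 3 * s ^ 1 + 106915 * w ^ 4 := by rw [hs]; unfold fR62; ring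
  rw [e]; positivity

theorem R6_R1 {v w : ℝ} (hv : 0 ≤ v) (hv8 : v ≤ 8 / 9) (hw : 0 ≤ w) (hw7 : w ≤ 1 / 7) : 0 < pR6v v w := by
  obtain ⟨t, ht⟩ : ∃ t, t = 8 - 9 * v := ⟨_, rfl⟩
  have h2 : 0 ≤ t := by rw [ht]; linarith
  have key : (128 : ℝ) * pR6v v w = 64 + (t ^ 2 * fR60 w + (v ^ 1 * t ^ 1 * fR61 w + (v ^ 2 * fR62 w))) := by
    rw [ht]; unfold pR6v eR62 eR61 eR60 fR60 fR61 fR62; ring
  have h3 : 0 < (128 : ℝ) * pR6v v w := by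
    rw [key]; exact add_pos_of_pos_of_nonneg (by norm_num) (add_nonneg (mul_nonneg (by positivity) (fR60_nn hw hw7)) (add_nonneg (mul_nonneg (by positivity) (fR61_nn hw hw7)) (mul_nonneg (by positivity) (fR62_nn hw hw7))))
  exact (mul_pos_iff_of_pos_left (by norm_num)).mp h3

theorem pR6_pos {d w : ℝ} (hd : 0 < d) (hd7 : d ≤ 1 / 7) (hw : 9 / 8 * d ≤ w) (hw1 : w ≤ 1) : 0 < pR6 d w := by
  rcases le_total (1 / 7) w with h | h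
  · exact R6_R2 hd.le hd7 h hw1
  · have hw0 : 0 < w := by linarith
    have e := pR6_v (d / w) w
    rw [div_mul_cancel₀ d hw0.ne'] at e
    rw [e]
    refine mul_pos (pow_pos hw0 0) (R6_R1 (by positivity) ?_ hw0.le h)
    rw [div_le_iff₀ hw0]
    linarith

def bEX0 (w : ℝ) : ℝ := 20 + 340 * w + 340 * w ^ 2 + 20 * w ^ 3
def bEX1 (w : ℝ) : ℝ := -40 - 72 * w - 112 * w ^ 3
def bEX2 (w : ℝ) : ℝ := -9 * w - 9 * w ^ 3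
def pEX (d w : ℝ) : ℝ := bEX0 w + d * (bEX1 w + d * (bEX2 w))

def cEX0 (w : ℝ) : ℝ := 19 + 340 * w + 340 * w ^ 2 + 20 * w ^ 3

theorem cEX0_nn {w : ℝ} (hw : 1 / 7 ≤ w) (hw1 : w ≤ 1) : 0 ≤ cEX0 w := by
  obtain ⟨s, hs⟩ : ∃ s, s = 7 * w - 1 := ⟨_, rfl⟩
  obtain ⟨s1, hs1⟩ : ∃ s1, s1 = 1 - w := ⟨_, rfl⟩
  have h0 : 0 ≤ s := by rw [hs]; linarith
  have h1 : 0 ≤ s1 := by rw [hs1]; linarith
  have e : (216 : ℝ) * cEX0 w = 25577 * s1 ^ 3 + 29373 * s ^ 1 * s1 ^ 2 + 8619 * s ^ 2 * s1 ^ 1 + 719 * s ^ 3 := by rw [hs, hs1]; unfold cEX0; ring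
  have h : 0 ≤ (216 : ℝ) * cEX0 w := by rw [e]; positivity
  exact (mul_nonneg_iff_of_pos_left (by norm_num)).mp h

def cEX1 (w : ℝ) : ℝ := 226 + 4688 * w + 4760 * w ^ 2 + 168 * w ^ 3

theorem cEX1_nn {w : ℝ} (hw : 1 / 7 ≤ w) (hw1 : w ≤ 1) : 0 ≤ cEX1 w := by
  obtain ⟨s, hs⟩ : ∃ s, s = 7 * w - 1 := ⟨_, rfl⟩
  obtain ⟨s1, hs1⟩ : ∃ s1, s1 = 1 - w := ⟨_, rfl⟩
  have h0 : 0 ≤ s := by rw [hs]; linarith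
  have h1 : 0 ≤ s1 := by rw [hs1]; linarith
  have e : (108 : ℝ) * cEX1 w = 170359 * s1 ^ 3 + 200235 * s ^ 1 * s1 ^ 2 + 59205 * s ^ 2 * s1 ^ 1 + 4921 * s ^ 3 := by rw [hs, hs1]; unfold cEX1; ring
  have h : 0 ≤ (108 : ℝ) * cEX1 w := by rw [e]; positivity
  exact (mul_nonneg_iff_of_pos_left (by norm_num)).mp h

def cEX2 (w : ℝ) : ℝ := 651 + 16147 * w + 16660 * w ^ 2 + 187 * w ^ 3

theorem cEX2_nn {w : ℝ} (hw : 1 / 7 ≤ w) (hw1 : w ≤ 1) : 0 ≤ cEX2 w := by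
  obtain ⟨s, hs⟩ : ∃ s, s = 7 * w - 1 := ⟨_, rfl⟩
  obtain ⟨s1, hs1⟩ : ∃ s1, s1 = 1 - w := ⟨_, rfl⟩
  have h0 : 0 ≤ s := by rw [hs]; linarith
  have h1 : 0 ≤ s1 := by rw [hs1]; linarith
  have e : (72 : ℝ) * cEX2 w = 377101 * s1 ^ 3 + 454473 * s ^ 1 * s1 ^ 2 + 135459 * s ^ 2 * s1 ^ 1 + 11215 * s ^ 3 := by rw [hs, hs1]; unfold cEX2; ring
  have h : 0 ≤ (72 : ℝ) * cEX2 w := by rw [e]; positivity
  exact (mul_nonneg_iff_of_pos_left (by norm_num)).mp h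

theorem EX_R2 {d w : ℝ} (hd : 0 ≤ d) (hd7 : d ≤ 1 / 7) (hw : 1 / 7 ≤ w) (hw1 : w ≤ 1) : 0 < pEX d w := by
  obtain ⟨t, ht⟩ : ∃ t, t = 1 - 7 * d := ⟨_, rfl⟩
  have h2 : 0 ≤ t := by rw [ht]; linarith
  have key : (1 : ℝ) * pEX d w = 1 + (t ^ 2 * cEX0 w + (d ^ 1 * t ^ 1 * cEX1 w + (d ^ 2 * cEX2 w))) := by
    rw [ht]; unfold pEX bEX2 bEX1 bEX0 cEX0 cEX1 cEX2; ring
  have h3 : 0 < (1 : ℝ) * pEX d w := by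
    rw [key]; exact add_pos_of_pos_of_nonneg one_pos (add_nonneg (mul_nonneg (by positivity) (cEX0_nn hw hw1)) (add_nonneg (mul_nonneg (by positivity) (cEX1_nn hw hw1)) (mul_nonneg (by positivity) (cEX2_nn hw hw1))))
  exact (mul_pos_iff_of_pos_left (by norm_num)).mp h3

def eEX0 (w : ℝ) : ℝ := 20 + 340 * w + 340 * w ^ 2 + 20 * w ^ 3

def eEX1 (w : ℝ) : ℝ := -40 * w - 72 * w ^ 2 - 112 * w ^ 4

def eEX2 (w : ℝ) : ℝ := -9 * w ^ 3 - 9 * w ^ 5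

def pEXv (v w : ℝ) : ℝ := eEX0 w + v * (eEX1 w + v * (eEX2 w))

theorem pEX_v (v w : ℝ) : pEX (v * w) w = w ^ 0 * pEXv v w := by
  unfold pEX pEXv bEX2 bEX1 bEX0 eEX2 eEX1 eEX0; ring

def fEX0 (w : ℝ) : ℝ := 19 + 340 * w + 340 * w ^ 2 + 20 * w ^ 3

theorem fEX0_nn {w : ℝ} (hw : 0 ≤ w) (hw7 : w ≤ 1 / 7) : 0 ≤ fEX0 w := by
  obtain ⟨s, hs⟩ : ∃ s, s = 1 - 7 * w := ⟨_, rfl⟩
  have h0 : 0 ≤ s := by rw [hs]; linarith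
  have e : fEX0 w = 19 * s ^ 5 + 1005 * w ^ 1 * s ^ 4 + 19170 * w ^ 2 * s ^ 3 + 172290 * w ^ 3 * s ^ 2 + 744835 * w ^ 4 * s ^ 1 + 1253273 * w ^ 5 := by rw [hs]; unfold fEX0; ring
  rw [e]; positivity

def fEX1 (w : ℝ) : ℝ := 342 + 5800 * w + 5544 * w ^ 2 + 360 * w ^ 3 - 896 * w ^ 4

theorem fEX1_nn {w : ℝ} (hw : 0 ≤ w) (hw7 : w ≤ 1 / 7) : 0 ≤ fEX1 w := by
  obtain ⟨s, hs⟩ : ∃ s, s = 1 - 7 * w := ⟨_, rfl⟩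
  have h0 : 0 ≤ s := by rw [hs]; linarith
  have e : fEX1 w = 342 * s ^ 5 + 17770 * w ^ 1 * s ^ 4 + 335524 * w ^ 2 * s ^ 3 + 2995044 * w ^ 3 * s ^ 2 + 12882422 * w ^ 4 * s ^ 1 + 21586754 * w ^ 5 := by rw [hs]; unfold fEX1; ring
  rw [e]; positivity

def fEX2 (w : ℝ) : ℝ := 1539 + 24660 * w + 22356 * w ^ 2 + 1044 * w ^ 3 - 8064 * w ^ 4 - 576 * w ^ 5

theorem fEX2_nn {w : ℝ} (hw : 0 ≤ w) (hw7 : w ≤ 1 / 7) : 0 ≤ fEX2 w := by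
  obtain ⟨s, hs⟩ : ∃ s, s = 1 - 7 * w := ⟨_, rfl⟩
  have h0 : 0 ≤ s := by rw [hs]; linarith
  have e : fEX2 w = 1539 * s ^ 5 + 78525 * w ^ 1 * s ^ 4 + 1466946 * w ^ 2 * s ^ 3 + 12999330 * w ^ 3 * s ^ 2 + 55602099 * w ^ 4 * s ^ 1 + 92736873 * w ^ 5 := by rw [hs]; unfold fEX2; ring
  rw [e]; positivity

theorem EX_R1 {v w : ℝ} (hv : 0 ≤ v) (hv8 : v ≤ 8 / 9) (hw : 0 ≤ w) (hw7 : w ≤ 1 / 7) : 0 < pEXv v w := by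
  obtain ⟨t, ht⟩ : ∃ t, t = 8 - 9 * v := ⟨_, rfl⟩
  have h2 : 0 ≤ t := by rw [ht]; linarith
  have key : (64 : ℝ) * pEXv v w = 64 + (t ^ 2 * fEX0 w + (v ^ 1 * t ^ 1 * fEX1 w + (v ^ 2 * fEX2 w))) := by
    rw [ht]; unfold pEXv eEX2 eEX1 eEX0 fEX0 fEX1 fEX2; ring
  have h3 : 0 < (64 : ℝ) * pEXv v w := by
    rw [key]; exact add_pos_of_pos_of_nonneg (by norm_num) (add_nonneg (mul_nonneg (by positivity) (fEX0_nn hw hw7)) (add_nonneg (mul_nonneg (by positivity) (fEX1_nn hw hw7)) (mul_nonneg (by positivity) (fEX2_nn hw hw7))))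
  exact (mul_pos_iff_of_pos_left (by norm_num)).mp h3

theorem pEX_pos {d w : ℝ} (hd : 0 < d) (hd7 : d ≤ 1 / 7) (hw : 9 / 8 * d ≤ w) (hw1 : w ≤ 1) : 0 < pEX d w := by
  rcases le_total (1 / 7) w with h | h
  · exact EX_R2 hd.le hd7 h hw1
  · have hw0 : 0 < w := by linarith
    have e := pEX_v (d / w) w
    rw [div_mul_cancel₀ d hw0.ne'] at e
    rw [e]
    refine mul_pos (pow_pos hw0 0) (EX_R1 (by positivity) ?_ hw0.le h)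
    rw [div_le_iff₀ hw0]
    linarith


end Vale.Agent.Lib.P100.US
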