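import Vale.Agent.Lib.P100.Atoms

/-!
# P100 weighted system: the scalar atoms of a weighted jet, the 17 polynomials, certificates.

System `-Δu = |x|^A v^p`, `-Δv = |x|^B u^q` on `ℝⁿ∖0`. Notation: `X = ∇u/u`, `Y = ∇v/v`,
`s = |x|^A v^p/u`, `t = |x|^B u^q/v`, `U0, V0` the traceless parts of `Hess u/u`, `Hess v/v`,
`ξ = x/|x|²`. New atoms `tx = X·ξ`, `ty = Y·ξ`, `w = |ξ|²`.
Pure algebra, the interface between the analytic part (`WJets`, `WFinal`) and the certificate part.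
-/

noncomputable section

namespace Vale.Agent.Lib.P100

/-- The atoms of a weighted jet: the old atoms and `tx = X·ξ`, `ty = Y·ξ`, `w = |ξ|²`. -/
structure WAtoms extends Atoms where
  tx : ℝ
  ty : ℝ
  w : ℝ

/-- The coercive quantity: `E + w²`. -/
def WAtoms.EW (A : WAtoms) : ℝ := A.toAtoms.EE + A.w ^ 2

/-- What is known about the atoms of an actual weighted jet. -/
structure WAtoms.Realizable (n : ℝ) (A : WAtoms) : Prop where
  base : Atoms.Realizable n A.toAtoms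
  w_nonneg : 0 ≤ A.w
  /-- `|l1 X + l2 Y + l3 ξ|² ≥ 0`. -/
  form3 : ∀ l1 l2 l3 : ℝ, 0 ≤ l1 ^ 2 * A.x + l2 ^ 2 * A.y + l3 ^ 2 * A.w
    + 2 * l1 * l2 * A.z + 2 * l1 * l3 * A.tx + 2 * l2 * l3 * A.ty

/-- The 17 polynomials: `D_k = div (W F_k) / W` for `W = u^a v^b` and
`F = U0 X, U0 Y, V0 X, V0 Y, x X, x Y, z X, z Y, y X, y Y, s X, s Y, t X, t Y, s ξ, t ξ, w ξ`. -/
def WAtoms.D (n p q a b A' B' : ℝ) (A : WAtoms) : Fin 17 → ℝ :=
  let k := 1 - 1 / n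
  ![A.UU + (a - 2) * A.UXX + b * A.UXY - k * p * (A.s * A.z) - k * A' * (A.s * A.tx),
    A.UV + (a - 1) * A.UXY + (b - 1) * A.UYY - k * p * (A.s * A.y) - k * A' * (A.s * A.ty),
    A.UV + (b - 1) * A.VXY + (a - 1) * A.VXX - k * q * (A.t * A.x) - k * B' * (A.t * A.tx),
    A.VV + (b - 2) * A.VYY + a * A.VXY - k * q * (A.t * A.z) - k * B' * (A.t * A.ty),
    2 * A.UXX + (a - 3) * A.x ^ 2 + b * (A.x * A.z) - (1 + 2 / n) * (A.s * A.x),
    2 * A.UXY + (a - 2) * (A.x * A.z) + (b - 1) * (A.x * A.y) - (2 / n) * (A.s * A.z) - A.t * A.x,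
    A.UXY + A.VXX + (a - 2) * (A.x * A.z) + (b - 1) * A.z ^ 2 - (1 + 1 / n) * (A.s * A.z)
      - (1 / n) * (A.t * A.x),
    A.VXY + A.UYY + (b - 2) * (A.y * A.z) + (a - 1) * A.z ^ 2 - (1 + 1 / n) * (A.t * A.z)
      - (1 / n) * (A.s * A.y),
    2 * A.VXY + (b - 2) * (A.y * A.z) + (a - 1) * (A.x * A.y) - (2 / n) * (A.t * A.z) - A.s * A.y,
    2 * A.VYY + (b - 3) * A.y ^ 2 + a * (A.y * A.z) - (1 + 2 / n) * (A.t * A.y),
    (a - 2) * (A.s * A.x) + (b + p) * (A.s * A.z) - A.s ^ 2 + A' * (A.s * A.tx),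
    (a - 1) * (A.s * A.z) + (b + p - 1) * (A.s * A.y) - A.s * A.t + A' * (A.s * A.ty),
    (b - 1) * (A.t * A.z) + (a + q - 1) * (A.t * A.x) - A.s * A.t + B' * (A.t * A.tx),
    (b - 2) * (A.t * A.y) + (a + q) * (A.t * A.z) - A.t ^ 2 + B' * (A.t * A.ty),
    A.s * ((a - 1) * A.tx + (b + p) * A.ty + (A' + n - 2) * A.w),
    A.t * ((a + q) * A.tx + (b - 1) * A.ty + (B' + n - 2) * A.w),
    A.w * (a * A.tx + b * A.ty) + (n - 4) * A.w ^ 2]

/-- `Q = sum_k c_k D_k`. -/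
def WAtoms.Q (n p q a b A' B' : ℝ) (c : Fin 17 → ℝ) (A : WAtoms) : ℝ :=
  ∑ k, c k * WAtoms.D n p q a b A' B' A k

/-- The pointwise certificate for the weighted system: `Q ≥ c0 (E + w²)` on realizable atoms. -/
def WCertif (n p q a b A' B' : ℝ) (c : Fin 17 → ℝ) (c0 : ℝ) : Prop :=
  ∀ A : WAtoms, WAtoms.Realizable n A → c0 * A.EW ≤ WAtoms.Q n p q a b A' B' c A

end Vale.Agent.Lib.P100
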