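import Vale.Agent.Lib.P100.WCert
import Vale.Agent.Lib.P100.WAtoms

/-!
# P100: the weighted certificate in the interface `WCertif`, and its corollaries.
-/

noncomputable section

namespace Vale.Agent.Lib.P100
namespace WCert

open ClosedForm

/-- The coefficient vector of the weighted certificate. -/
def wcoef (E F γ h g1 g2 η : ℝ) : Fin 17 → ℝ :=
  ![1, 0, 0, γ, -E, -F, 0, 0, -(γ * F), -(γ * E), -h, 0, 0, -(γ * h), g1, g2, η]

lemma Q_wcoef (n p q a E F γ h g1 g2 η Aw Bw : ℝ) (A : WAtoms) :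
    WAtoms.Q n p q a a Aw Bw (wcoef E F γ h g1 g2 η) A
      = WQ n p q a E F γ h g1 g2 η Aw Bw A.toAtoms A.tx A.ty A.w := by
  simp only [WQ, Q_coef]
  simp only [WAtoms.Q, WAtoms.D, wcoef, Fin.sum_univ_succ, Fin.sum_univ_zero]
  simp
  ring

lemma xiReal_of (n : ℝ) (A : WAtoms) (h : WAtoms.Realizable n A) :
    XiReal A.toAtoms A.tx A.ty A.w :=
  ⟨h.w_nonneg, fun l1 l2 l3 => by
    have := h.form3 l1 l2 l3
    linarith⟩

/-- The certificate under the two block conditions. -/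
theorem exists_wcertif (n p q Aw Bw g : ℝ) (hn : 5 ≤ n) (hg : 0 < g) (hAw : 0 ≤ Aw) (hBw : 0 ≤ Bw)
    (hP : |cS n * p - 1| < n * g) (hQ : |cS n * q - 1| * g < n)
    (hw1 : 1 - aS n < (aS n + p) / g) (hw2 : 1 - aS n < (aS n + q) * g)
    (hB1 : Aw * ((aS n + p) / g) ^ 2
      < ((n + (cS n * p - 1) / g) / cS n) * ((aS n + p) / g - (1 - aS n)) * (Aw + n - 2))
    (hB2 : Bw * ((aS n + q) * g) ^ 2
      < ((n + (cS n * q - 1) * g) / cS n) * ((aS n + q) * g - (1 - aS n)) * (Bw + n - 2)) :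
    ∃ (c : Fin 17 → ℝ) (c0 : ℝ), 0 < c0 ∧ WCertif n p q (aS n) (aS n) Aw Bw c c0 := by
  obtain ⟨E, F, γ, h, g1, g2, η, c0, -, hc0, H⟩ :=
    exists_wcert n p q Aw Bw g hn hg hAw hBw hP hQ hw1 hw2 hB1 hB2
  refine ⟨wcoef E F γ h g1 g2 η, c0, hc0, fun A hA => ?_⟩
  rw [Q_wcoef]
  exact H A.toAtoms A.tx A.ty A.w hA.base (xiReal_of n A hA)

lemma cS_pos {n : ℝ} (hn : 2 < n) : 0 < cS n := by
  have h1 : 0 < n + 1 := by linarith
  have h2 : 0 < n - 2 := by linarith
  have h3 : 0 < n + 2 := by linarith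
  unfold cS
  positivity

/-- `R > 0`. -/
lemma R_pos {n p g : ℝ} (hn : 2 < n) (hg : 0 < g) (hP : |cS n * p - 1| < n * g) :
    0 < (n + (cS n * p - 1) / g) / cS n := by
  have hc := cS_pos hn
  have h1 : -(n * g) < cS n * p - 1 := by
    have := neg_abs_le (cS n * p - 1)
    linarith
  have h2 : -n < (cS n * p - 1) / g := by
    rw [lt_div_iff₀ hg]
    linarith
  exact div_pos (by linarith) hc

/-- The block condition for every weight, from the weight-free inequality. -/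
lemma block_of_free {n Aw w R τ : ℝ} (hn : 5 ≤ n) (hAw : 0 ≤ Aw) (hR : 0 < R) (hw : τ < w)
    (hfree : w ^ 2 ≤ R * (w - τ)) : Aw * w ^ 2 < R * (w - τ) * (Aw + n - 2) := by
  have h1 : 0 < R * (w - τ) := mul_pos hR (by linarith)
  have h2 : Aw * w ^ 2 ≤ Aw * (R * (w - τ)) := mul_le_mul_of_nonneg_left hfree hAw
  nlinarith

/-- The certificate for all weights `A, B ≥ 0` at once, under the weight-free inequalities. -/
theorem exists_wcertif_free (n p q Aw Bw g : ℝ) (hn : 5 ≤ n) (hg : 0 < g)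
    (hAw : 0 ≤ Aw) (hBw : 0 ≤ Bw)
    (hP : |cS n * p - 1| < n * g) (hQ : |cS n * q - 1| * g < n)
    (hw1 : 1 - aS n < (aS n + p) / g) (hw2 : 1 - aS n < (aS n + q) * g)
    (hF1 : ((aS n + p) / g) ^ 2
      ≤ ((n + (cS n * p - 1) / g) / cS n) * ((aS n + p) / g - (1 - aS n)))
    (hF2 : ((aS n + q) * g) ^ 2
      ≤ ((n + (cS n * q - 1) * g) / cS n) * ((aS n + q) * g - (1 - aS n))) :
    ∃ (c : Fin 17 → ℝ) (c0 : ℝ), 0 < c0 ∧ WCertif n p q (aS n) (aS n) Aw Bw c c0 := by
  have hn2 : 2 < n := by linarith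
  have hgi : 0 < g⁻¹ := inv_pos.mpr hg
  have hR1 := R_pos hn2 hg hP
  have hPi : |cS n * q - 1| < n * g⁻¹ := by
    rw [← div_eq_mul_inv, lt_div_iff₀ hg]
    exact hQ
  have hR2 := R_pos (p := q) hn2 hgi hPi
  rw [div_inv_eq_mul] at hR2
  exact exists_wcertif n p q Aw Bw g hn hg hAw hBw hP hQ hw1 hw2
    (block_of_free hn hAw hR1 hw1 hF1) (block_of_free hn hBw hR2 hw2 hF2)

/-- The weight-free inequality at `g = 1`, for all `p > 0` and `n ≥ 5`. -/
lemma free_at_one (n p : ℝ) (hn : 5 ≤ n) (hp : 0 < p) :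
    1 - aS n < aS n + p
    ∧ (aS n + p) ^ 2 ≤ ((n + (cS n * p - 1)) / cS n) * ((aS n + p) - (1 - aS n)) := by
  have h2 : 0 < n - 2 := by linarith
  have h1 : 0 < n + 1 := by linarith
  have h3 : 0 < n + 2 := by linarith
  have hn2 : 2 < n := by linarith
  have hc := cS_pos hn2
  constructor
  · have : 1 - aS n ≤ aS n := by
      unfold aS
      rw [sub_le_iff_le_add, ← add_div, ← sub_nonneg]
      have : (n - 3 + (n - 3)) / (n - 2) - 1 = (n - 4) / (n - 2) := by
        field_simp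
        ring
      have e : ((n - 3 + (n - 3)) / (n - 2)) - 1 = (n - 3 + (n - 3)) / (n - 2) - 1 := rfl
      linarith [div_nonneg (show 0 ≤ n - 4 by linarith) h2.le]
    linarith
  · -- with `y = a + p`, `R = y + L`
    obtain ⟨y, hy⟩ : ∃ y, y = aS n + p := ⟨_, rfl⟩
    have hR : (n + (cS n * p - 1)) / cS n
        = y + (3 * n + 1) / ((n + 1) * (n - 2)) := by
      rw [hy]
      unfold aS cS
      field_simp
      ring
    rw [← hy, hR]
    have hτ : 1 - aS n = 1 / (n - 2) := by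
      unfold aS
      field_simp
      ring
    rw [hτ]
    have hya : (n - 3) / (n - 2) ≤ y := by
      rw [hy]
      unfold aS
      linarith
    have key : (y + (3 * n + 1) / ((n + 1) * (n - 2))) * (y - 1 / (n - 2)) - y ^ 2
        = (2 * n * (n - 2) * y - (3 * n + 1)) / ((n + 1) * (n - 2) ^ 2) := by
      field_simp
      ring
    have hpos : 0 ≤ (2 * n * (n - 2) * y - (3 * n + 1)) / ((n + 1) * (n - 2) ^ 2) := by
      apply div_nonneg _ (by positivity)
      have hya' : n - 3 ≤ y * (n - 2) := by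
        rwa [div_le_iff₀ h2] at hya
      nlinarith
    linarith

/-- **The square.** For `n ≥ 5`, all `A, B ≥ 0`, `0 < p, q < (n+2)/(n-2)`. -/
theorem exists_wcertif_square (n p q Aw Bw : ℝ) (hn : 5 ≤ n) (hAw : 0 ≤ Aw) (hBw : 0 ≤ Bw)
    (hp : 0 < p) (hq : 0 < q) (hp2 : p < (n + 2) / (n - 2)) (hq2 : q < (n + 2) / (n - 2)) :
    ∃ (c : Fin 17 → ℝ) (c0 : ℝ), 0 < c0 ∧ WCertif n p q (aS n) (aS n) Aw Bw c c0 := by
  have hn2 : 2 < n := by linarith
  have h2 : 0 < n - 2 := by linarith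
  have h1 : 0 < n + 1 := by linarith
  have h3 : 0 < n + 2 := by linarith
  have hc := cS_pos hn2
  have habs : ∀ r : ℝ, 0 < r → r < (n + 2) / (n - 2) → |cS n * r - 1| < n := by
    intro r hr hr2
    have e : cS n * ((n + 2) / (n - 2)) = n + 1 := by
      unfold cS
      field_simp
    have h4 : cS n * r < n + 1 := by
      rw [← e]
      exact mul_lt_mul_of_pos_left hr2 hc
    have h5 : 0 < cS n * r := mul_pos hc hr
    rw [abs_lt]
    constructor <;> linarith
  obtain ⟨a1, a2⟩ := free_at_one n p hn hp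
  obtain ⟨b1, b2⟩ := free_at_one n q hn hq
  refine exists_wcertif_free n p q Aw Bw 1 hn one_pos hAw hBw ?_ ?_ ?_ ?_ ?_ ?_
  · simpa using habs p hp hp2
  · simpa using habs q hq hq2
  · simpa using a1
  · simpa using b1
  · simpa using a2
  · simpa using b2

/-- From the two bounds to the product bound of the closure inequality. -/
lemma prod_of_bounds {n P Q g : ℝ} (hn : 0 < n) (_hg : 0 < g) (hQ0 : 0 ≤ Q) (hP : P < n * g)
    (hQ : Q * g < n) : P * Q < n ^ 2 := by
  have h1 : P * Q ≤ n * g * Q := mul_le_mul_of_nonneg_right hP.le hQ0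
  have h2 : n * (Q * g) < n * n := mul_lt_mul_of_pos_left hQ hn
  nlinarith

/-- The exponents of the cut-off argument. -/
theorem lam_mu (n p q g : ℝ) (hn : 5 ≤ n) (hg : 0 < g) (hp : 0 < p) (hq : 0 < q) (hpq : 1 < p * q)
    (hP : |cS n * p - 1| < n * g) (hQ : |cS n * q - 1| * g < n) :
    ∃ lam mu : ℝ, 0 ≤ lam ∧ 0 ≤ mu ∧ aS n = mu * q - lam ∧ aS n = lam * p - mu
      ∧ n < 2 * (lam + mu) + 4 := by
  have hn0 : 0 < n := by linarith
  have hd : 0 < p * q - 1 := by linarith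
  have ha0 : 0 ≤ aS n := by
    unfold aS
    exact div_nonneg (by linarith) (by linarith)
  have hcl := closure_ineq n p q (by linarith) hp hq hpq
    (prod_of_bounds hn0 hg (abs_nonneg _) hP hQ)
  refine ⟨aS n * (1 + q) / (p * q - 1), aS n * (1 + p) / (p * q - 1), by positivity, by positivity,
    ?_, ?_, ?_⟩
  · have e : aS n * (1 + p) / (p * q - 1) * q - aS n * (1 + q) / (p * q - 1)
        = aS n * ((p * q - 1) / (p * q - 1)) := by ring
    rw [e, div_self hd.ne', mul_one]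
  · have e : aS n * (1 + q) / (p * q - 1) * p - aS n * (1 + p) / (p * q - 1)
        = aS n * ((p * q - 1) / (p * q - 1)) := by ring
    rw [e, div_self hd.ne', mul_one]
  · have e : 2 * (aS n * (1 + q) / (p * q - 1) + aS n * (1 + p) / (p * q - 1))
        = 2 * aS n * (p + q + 2) / (p * q - 1) := by ring
    rw [e]
    have : n - 4 < 2 * aS n * (p + q + 2) / (p * q - 1) := by
      rw [lt_div_iff₀ hd]
      exact hcl
    linarith

end WCert
end Vale.Agent.Lib.P100
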