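import Vale.Agent.Lib.P100.WJets
import Vale.Agent.Lib.P100.LapForm

/-!
# P100 weighted system: from a pointwise certificate to nonexistence, literal solution class.

`u, v` are positive and continuous on `ℝⁿ`, `C²` away from the origin, and solve
`-Δu = |x|^A v^p`, `-Δv = |x|^B u^q` away from the origin.
-/

open scoped BigOperators
open MeasureTheory Filter Topology Set Metric Module InnerProductSpace Laplacian

set_option linter.unusedSimpArgs false

noncomputable section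

namespace Vale.Agent.Lib.P100

variable {n : ℕ}

section bounds

variable {U V : Fin n → Fin n → ℝ} {X Y Z : Fin n → ℝ} {s t : ℝ}

theorem EW_eq : (watomsOf U V X Y Z s t).EW
    = ip U U + ip V V + (dot X X) ^ 2 + (dot Y Y) ^ 2 + s ^ 2 + t ^ 2 + (dot Z Z) ^ 2 := rfl

theorem EW_nonneg : 0 ≤ (watomsOf U V X Y Z s t).EW := by
  rw [EW_eq]
  have a1 := ip_nonneg U
  have a2 := ip_nonneg V
  positivity

theorem EE_le_EW : (atomsOf U V X Y s t).EE ≤ (watomsOf U V X Y Z s t).EW := by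
  rw [EW_eq, EE_eq]
  nlinarith [sq_nonneg (dot Z Z)]

/-- The three new fields. -/
theorem abs_new_le (i : Fin n) :
    |s * Z i| ≤ (watomsOf U V X Y Z s t).EW ^ ((3 : ℝ) / 4) ∧
    |t * Z i| ≤ (watomsOf U V X Y Z s t).EW ^ ((3 : ℝ) / 4) ∧
    |dot Z Z * Z i| ≤ (watomsOf U V X Y Z s t).EW ^ ((3 : ℝ) / 4) := by
  have hE := EW_nonneg (U := U) (V := V) (X := X) (Y := Y) (Z := Z) (s := s) (t := t)
  have hE0 := EW_eq (U := U) (V := V) (X := X) (Y := Y) (Z := Z) (s := s) (t := t)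
  have a1 := ip_nonneg U
  have a2 := ip_nonneg V
  set E := (watomsOf U V X Y Z s t).EW with hEdef
  obtain ⟨e, he⟩ : ∃ e, e = E ^ ((1 : ℝ) / 4) := ⟨_, rfl⟩
  have he0 : 0 ≤ e := he ▸ Real.rpow_nonneg hE _
  have h4 : E = e ^ 4 := by
    rw [he, ← Real.rpow_natCast, ← Real.rpow_mul hE]
    norm_num
  have h3 : E ^ ((3 : ℝ) / 4) = e ^ 3 := by
    rw [he, ← Real.rpow_natCast, ← Real.rpow_mul hE]
    norm_num
  rw [h3]
  have e2 : 0 ≤ e ^ 2 := by positivity
  have hs : |s| ≤ e ^ 2 := by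
    apply abs_le_of_sq_le_sq _ e2
    have : (e ^ 2) ^ 2 = E := by rw [h4]; ring
    rw [this, hE0]
    nlinarith [sq_nonneg (dot X X), sq_nonneg (dot Y Y), sq_nonneg t, sq_nonneg (dot Z Z)]
  have ht : |t| ≤ e ^ 2 := by
    apply abs_le_of_sq_le_sq _ e2
    have : (e ^ 2) ^ 2 = E := by rw [h4]; ring
    rw [this, hE0]
    nlinarith [sq_nonneg (dot X X), sq_nonneg (dot Y Y), sq_nonneg s, sq_nonneg (dot Z Z)]
  have hw : |dot Z Z| ≤ e ^ 2 := by
    apply abs_le_of_sq_le_sq _ e2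
    have : (e ^ 2) ^ 2 = E := by rw [h4]; ring
    rw [this, hE0]
    nlinarith [sq_nonneg (dot X X), sq_nonneg (dot Y Y), sq_nonneg s, sq_nonneg t]
  have hwn : 0 ≤ dot Z Z := dot_nonneg Z
  have hZi : |Z i| ≤ e := by
    apply abs_le_of_sq_le_sq _ he0
    have h5 : Z i * Z i ≤ dot Z Z :=
      Finset.single_le_sum (f := fun j => Z j * Z j) (fun _ _ => mul_self_nonneg _)
        (Finset.mem_univ i)
    have h6 : dot Z Z ≤ e ^ 2 := (le_abs_self _).trans hw
    nlinarith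
  have hprod : ∀ a b : ℝ, |a| ≤ e ^ 2 → |b| ≤ e → |a * b| ≤ e ^ 3 := by
    intro a b h1 h2
    rw [abs_mul]
    calc |a| * |b| ≤ e ^ 2 * e := mul_le_mul h1 h2 (abs_nonneg _) e2
      _ = e ^ 3 := by ring
  exact ⟨hprod _ _ hs hZi, hprod _ _ ht hZi, hprod _ _ hw hZi⟩

/-- `s^lam t^mu w^sig ≤ E^((lam+mu+sig)/2)`. -/
theorem stw_pow_le (hs : 0 < s) (ht : 0 < t) (hw : 0 < dot Z Z) {lam mu sig : ℝ}
    (hl : 0 ≤ lam) (hm : 0 ≤ mu) (hsg : 0 ≤ sig) :
    s ^ lam * t ^ mu * (dot Z Z) ^ sig ≤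
      (watomsOf U V X Y Z s t).EW ^ ((lam + mu + sig) / 2) := by
  have hE0 := EW_eq (U := U) (V := V) (X := X) (Y := Y) (Z := Z) (s := s) (t := t)
  have a1 := ip_nonneg U
  have a2 := ip_nonneg V
  set E := (watomsOf U V X Y Z s t).EW with hEdef
  have hEs : s ^ 2 ≤ E := by
    rw [hE0]; nlinarith [sq_nonneg (dot X X), sq_nonneg (dot Y Y), sq_nonneg t, sq_nonneg (dot Z Z)]
  have hEt : t ^ 2 ≤ E := by
    rw [hE0]; nlinarith [sq_nonneg (dot X X), sq_nonneg (dot Y Y), sq_nonneg s, sq_nonneg (dot Z Z)]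
  have hEw : (dot Z Z) ^ 2 ≤ E := by
    rw [hE0]; nlinarith [sq_nonneg (dot X X), sq_nonneg (dot Y Y), sq_nonneg s, sq_nonneg t]
  have hEpos : 0 < E := lt_of_lt_of_le (by positivity) hEs
  have key : ∀ (f r : ℝ), 0 < f → f ^ 2 ≤ E → 0 ≤ r → f ^ r ≤ E ^ (r / 2) := by
    intro f r hf hfE hr
    have h1 : f ≤ E ^ ((1 : ℝ) / 2) := by
      rw [← Real.sqrt_eq_rpow]
      exact Real.le_sqrt_of_sq_le hfE
    calc f ^ r ≤ (E ^ ((1 : ℝ) / 2)) ^ r := Real.rpow_le_rpow hf.le h1 hr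
      _ = E ^ (r / 2) := by rw [← Real.rpow_mul hEpos.le]; congr 1; ring
  have h3 := key s lam hs hEs hl
  have h4 := key t mu ht hEt hm
  have h5 := key _ sig hw hEw hsg
  calc s ^ lam * t ^ mu * (dot Z Z) ^ sig ≤ E ^ (lam / 2) * E ^ (mu / 2) * E ^ (sig / 2) :=
        mul_le_mul (mul_le_mul h3 h4 (Real.rpow_nonneg ht.le _) (Real.rpow_nonneg hEpos.le _)) h5
          (Real.rpow_nonneg hw.le _)
          (mul_nonneg (Real.rpow_nonneg hEpos.le _) (Real.rpow_nonneg hEpos.le _))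
    _ = E ^ ((lam + mu + sig) / 2) := by
        rw [← Real.rpow_add hEpos, ← Real.rpow_add hEpos]
        congr 1
        ring

end bounds

section fieldbound

variable {u v : Eu n → ℝ} {A B p q : ℝ}

theorem abs_WF_le (k : Fin 17) (i : Fin n) (x : Eu n) :
    |WFlds u v A B p q k i x| ≤ (watAt u v A B p q x).EW ^ ((3 : ℝ) / 4) := by
  obtain ⟨U, hU⟩ : ∃ U : Fin n → Fin n → ℝ, U = fun i j => Ug u (Sr A p v) i j x := ⟨_, rfl⟩
  obtain ⟨V, hV⟩ : ∃ V : Fin n → Fin n → ℝ, V = fun i j => Ug v (Sr B q u) i j x := ⟨_, rfl⟩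
  obtain ⟨X, hX⟩ : ∃ X : Fin n → ℝ, X = fun i => Xf u i x := ⟨_, rfl⟩
  obtain ⟨Y, hY⟩ : ∃ Y : Fin n → ℝ, Y = fun i => Xf v i x := ⟨_, rfl⟩
  obtain ⟨Z, hZ⟩ : ∃ Z : Fin n → ℝ, Z = fun i => Xi i x := ⟨_, rfl⟩
  obtain ⟨s, hs⟩ : ∃ s : ℝ, s = Sr A p v x / u x := ⟨_, rfl⟩
  obtain ⟨t, ht⟩ : ∃ t : ℝ, t = Sr B q u x / v x := ⟨_, rfl⟩
  have hE : watAt u v A B p q x = watomsOf U V X Y Z s t := by
    rw [hU, hV, hX, hY, hZ, hs, ht]; rfl
  rw [hE]
  have hold : ∀ k' : Fin 14, |numF U V X Y s t k' i| ≤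
      (watomsOf U V X Y Z s t).EW ^ ((3 : ℝ) / 4) := fun k' =>
    (abs_numF_le k' i).trans (Real.rpow_le_rpow EE_nonneg EE_le_EW (by norm_num))
  have hnew := abs_new_le (U := U) (V := V) (X := X) (Y := Y) (Z := Z) (s := s) (t := t) i
  fin_cases k
  · have := hold 0; subst hU hV hX hY hZ hs ht; exact this
  · have := hold 1; subst hU hV hX hY hZ hs ht; exact this
  · have := hold 2; subst hU hV hX hY hZ hs ht; exact this
  · have := hold 3; subst hU hV hX hY hZ hs ht; exact this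
  · have := hold 4; subst hU hV hX hY hZ hs ht; exact this
  · have := hold 5; subst hU hV hX hY hZ hs ht; exact this
  · have := hold 6; subst hU hV hX hY hZ hs ht; exact this
  · have := hold 7; subst hU hV hX hY hZ hs ht; exact this
  · have := hold 8; subst hU hV hX hY hZ hs ht; exact this
  · have := hold 9; subst hU hV hX hY hZ hs ht; exact this
  · have := hold 10; subst hU hV hX hY hZ hs ht; exact this
  · have := hold 11; subst hU hV hX hY hZ hs ht; exact this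
  · have := hold 12; subst hU hV hX hY hZ hs ht; exact this
  · have := hold 13; subst hU hV hX hY hZ hs ht; exact this
  · have := hnew.1; subst hU hV hX hY hZ hs ht; exact this
  · have := hnew.2.1; subst hU hV hX hY hZ hs ht; exact this
  · have := hnew.2.2; subst hU hV hX hY hZ hs ht; exact this

end fieldbound

section continuity

variable {Ω : Set (Eu n)} {u v : Eu n → ℝ}

lemma contOn_Ug (hΩ : IsOpen Ω) (hu : ContDiffOn ℝ 2 u Ω)
    (hupos : ∀ x ∈ Ω, 0 < u x) (hn : (n : ℝ) ≠ 0) {f : Eu n → ℝ} (hf : ContinuousOn f Ω)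
    (i j : Fin n) : ContinuousOn (Ug u f i j) Ω :=
  ((contOn_pd hΩ (contDiffOn_pd hΩ hu i) j).div hu.continuousOn fun x hx => (hupos x hx).ne').add
    (continuousOn_const.mul
      ((hf.div hu.continuousOn fun x hx => (hupos x hx).ne').div continuousOn_const fun _ _ => hn))

lemma contOn_WFlds {A B p q : ℝ} (hΩ : IsOpen Ω) (hΩ0 : ∀ x ∈ Ω, x ≠ 0)
    (hu : ContDiffOn ℝ 2 u Ω) (hv : ContDiffOn ℝ 2 v Ω)
    (hupos : ∀ x ∈ Ω, 0 < u x) (hvpos : ∀ x ∈ Ω, 0 < v x) (hn : (n : ℝ) ≠ 0)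
    (k : Fin 17) (i : Fin n) : ContinuousOn (WFlds u v A B p q k i) Ω := by
  have hX : ∀ i, ContDiffOn ℝ 1 (Xf u i) Ω := contDiffOn_Xf hΩ hu hupos
  have hY : ∀ i, ContDiffOn ℝ 1 (Xf v i) Ω := contDiffOn_Xf hΩ hv hvpos
  have hZ : ∀ i, ContDiffOn ℝ 1 (Xi (n := n) i) Ω := contDiffOn_Xi hΩ0
  have hfu : ContDiffOn ℝ 1 (Sr A p v) Ω := contDiffOn_Sr hΩ0 hv hvpos A p
  have hfv : ContDiffOn ℝ 1 (Sr B q u) Ω := contDiffOn_Sr hΩ0 hu hupos B q
  have hS : ContDiffOn ℝ 1 (fun y => Sr A p v y / u y) Ω :=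
    hfu.div (hu.of_le (by norm_num)) fun x hx => (hupos x hx).ne'
  have hT : ContDiffOn ℝ 1 (fun y => Sr B q u y / v y) Ω :=
    hfv.div (hv.of_le (by norm_num)) fun x hx => (hvpos x hx).ne'
  have hU : ∀ Z : Fin n → Eu n → ℝ, (∀ i, ContDiffOn ℝ 1 (Z i) Ω) →
      ContinuousOn (FUg u (Sr A p v) Z i) Ω := fun Z hZ =>
    continuousOn_finsetSum _ fun j _ =>
      (contOn_Ug hΩ hu hupos hn hfu.continuousOn i j).mul (hZ j).continuousOn
  have hV : ∀ Z : Fin n → Eu n → ℝ, (∀ i, ContDiffOn ℝ 1 (Z i) Ω) →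
      ContinuousOn (FUg v (Sr B q u) Z i) Ω := fun Z hZ =>
    continuousOn_finsetSum _ fun j _ =>
      (contOn_Ug hΩ hv hvpos hn hfv.continuousOn i j).mul (hZ j).continuousOn
  fin_cases k
  · exact hU _ hX
  · exact hU _ hY
  · exact hV _ hX
  · exact hV _ hY
  · exact (contDiffOn_Fz hΩ hX hX hX i).continuousOn
  · exact (contDiffOn_Fz hΩ hX hX hY i).continuousOn
  · exact (contDiffOn_Fz hΩ hX hY hX i).continuousOn
  · exact (contDiffOn_Fz hΩ hX hY hY i).continuousOn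
  · exact (contDiffOn_Fz hΩ hY hY hX i).continuousOn
  · exact (contDiffOn_Fz hΩ hY hY hY i).continuousOn
  · exact (contDiffOn_Fs hS hX i).continuousOn
  · exact (contDiffOn_Fs hS hY i).continuousOn
  · exact (contDiffOn_Fs hT hX i).continuousOn
  · exact (contDiffOn_Fs hT hY i).continuousOn
  · exact (contDiffOn_Fs hS hZ i).continuousOn
  · exact (contDiffOn_Fs hT hZ i).continuousOn
  · exact (contDiffOn_Fz hΩ hZ hZ hZ i).continuousOn

lemma continuousOn_WD_aux {f1 f2 f3 f4 f5 f6 f7 f8 f9 f10 f11 f12 f13 f14 f15 f16 f17 : Eu n → ℝ}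
    (h1 : ContinuousOn f1 Ω) (h2 : ContinuousOn f2 Ω) (h3 : ContinuousOn f3 Ω)
    (h4 : ContinuousOn f4 Ω) (h5 : ContinuousOn f5 Ω) (h6 : ContinuousOn f6 Ω)
    (h7 : ContinuousOn f7 Ω) (h8 : ContinuousOn f8 Ω) (h9 : ContinuousOn f9 Ω)
    (h10 : ContinuousOn f10 Ω) (h11 : ContinuousOn f11 Ω) (h12 : ContinuousOn f12 Ω)
    (h13 : ContinuousOn f13 Ω) (h14 : ContinuousOn f14 Ω) (h15 : ContinuousOn f15 Ω)
    (h16 : ContinuousOn f16 Ω) (h17 : ContinuousOn f17 Ω) (N P Q A B A' B' : ℝ) (k : Fin 17) :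
    ContinuousOn (fun x => WAtoms.D N P Q A B A' B'
      ⟨⟨f1 x, f2 x, f3 x, f4 x, f5 x, f6 x, f7 x, f8 x, f9 x, f10 x, f11 x, f12 x, f13 x, f14 x⟩,
        f15 x, f16 x, f17 x⟩ k) Ω := by
  fin_cases k <;> simp only [WAtoms.D] <;> simp <;> fun_prop

end continuity

/-- The weight in terms of `s, t, w`. -/
theorem Wf_eq_stw {u v : Eu n → ℝ} {A B p q a b lam mu : ℝ} {x : Eu n} (hx : x ≠ 0)
    (hu : 0 < u x) (hv : 0 < v x) (ha : a = mu * q - lam) (hb : b = lam * p - mu) :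
    Wf u v a b x = (Sr A p v x / u x) ^ lam * (Sr B q u x / v x) ^ mu *
      (dot (fun i => Xi i x) (fun i => Xi i x)) ^ ((A * lam + B * mu) / 2) := by
  have hR : 0 < ‖x‖ := norm_pos_iff.2 hx
  have hA : 0 < ‖x‖ ^ A := Real.rpow_pos_of_pos hR _
  have hB : 0 < ‖x‖ ^ B := Real.rpow_pos_of_pos hR _
  have hp : 0 < v x ^ p := Real.rpow_pos_of_pos hv _
  have hq : 0 < u x ^ q := Real.rpow_pos_of_pos hu _
  have h2 : 0 < ‖x‖ ^ 2 := by positivity
  have hs : 0 < Sr A p v x / u x := div_pos (mul_pos hA hp) hu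
  have ht : 0 < Sr B q u x / v x := div_pos (mul_pos hB hq) hv
  have hw : 0 < dot (fun i => Xi i x) (fun i => Xi i x) := by
    rw [dot_Xi x hx]; positivity
  have ls : Real.log (Sr A p v x / u x) = A * Real.log ‖x‖ + p * Real.log (v x) - Real.log (u x) := by
    simp only [Sr]
    rw [Real.log_div (mul_pos hA hp).ne' hu.ne', Real.log_mul hA.ne' hp.ne', Real.log_rpow hR,
      Real.log_rpow hv]
  have lt : Real.log (Sr B q u x / v x) = B * Real.log ‖x‖ + q * Real.log (u x) - Real.log (v x) := by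
    simp only [Sr]
    rw [Real.log_div (mul_pos hB hq).ne' hv.ne', Real.log_mul hB.ne' hq.ne', Real.log_rpow hR,
      Real.log_rpow hu]
  have lw : Real.log (dot (fun i => Xi i x) (fun i => Xi i x)) = -2 * Real.log ‖x‖ := by
    rw [dot_Xi x hx, one_div, Real.log_inv, Real.log_pow]
    push_cast
    ring
  simp only [Wf]
  rw [Real.rpow_def_of_pos hu, Real.rpow_def_of_pos hv, Real.rpow_def_of_pos hs,
    Real.rpow_def_of_pos ht, Real.rpow_def_of_pos hw, ls, lt, lw, ← Real.exp_add, ← Real.exp_add,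
    ← Real.exp_add, ha, hb]
  congr 1
  ring

/-- **Certificate implies nonexistence for the weighted system**, literal class of the problem. -/
theorem no_solution_of_wcert (hn4 : 4 < n) {p q a b lam mu c0 A B : ℝ} {c : Fin 17 → ℝ}
    (hcert : WCertif n p q a b A B c c0) (hc0 : 0 < c0)
    (ha : a = mu * q - lam) (hb : b = lam * p - mu) (hlam : 0 ≤ lam) (hmu : 0 ≤ mu)
    (hD : (n : ℝ) < 2 * (lam + mu) + 4) (hA : 0 ≤ A) (hB : 0 ≤ B)
    {u v : Eu n → ℝ} (hucont : Continuous u) (hvcont : Continuous v)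
    (hupos : ∀ x, 0 < u x) (hvpos : ∀ x, 0 < v x)
    (hu : ContDiffOn ℝ 2 u {0}ᶜ) (hv : ContDiffOn ℝ 2 v {0}ᶜ)
    (hpdeU : ∀ x, x ≠ 0 → ∑ i, Hf u i i x = - (‖x‖ ^ A * v x ^ p))
    (hpdeV : ∀ x, x ≠ 0 → ∑ i, Hf v i i x = - (‖x‖ ^ B * u x ^ q)) : False := by
  have hn4R : (4 : ℝ) < n := by exact_mod_cast hn4
  have hn : (n : ℝ) ≠ 0 := by linarith
  have hDpos : 0 < lam + mu := by linarith
  have hsig : 0 ≤ (A * lam + B * mu) / 2 := by positivity
  obtain ⟨Ω, hΩdef⟩ : ∃ Ω : Set (Eu n), Ω = {0}ᶜ := ⟨_, rfl⟩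
  have hΩ : IsOpen Ω := by rw [hΩdef]; exact isOpen_compl_singleton
  rw [← hΩdef] at hu hv
  have hΩne : ∀ x ∈ Ω, x ≠ 0 := fun x hx => by rwa [hΩdef] at hx
  have hneΩ : ∀ x : Eu n, x ≠ 0 → x ∈ Ω := fun x hx => by rwa [hΩdef]
  have hLoc : ∀ x ∈ Ω, LocW u v A B p q x := fun x hx =>
    ⟨hu.contDiffAt (hΩ.mem_nhds hx), hv.contDiffAt (hΩ.mem_nhds hx), hupos x, hvpos x,
      hΩne x hx, hpdeU x (hΩne x hx), hpdeV x (hΩne x hx), hn⟩
  have huposΩ : ∀ x ∈ Ω, 0 < u x := fun x _ => hupos x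
  have hvposΩ : ∀ x ∈ Ω, 0 < v x := fun x _ => hvpos x
  -- the weight
  have hWcont : Continuous (Wf u v a b) :=
    (hucont.rpow_const fun x => Or.inl (hupos x).ne').mul
      (hvcont.rpow_const fun x => Or.inl (hvpos x).ne')
  have hWpos : ∀ x, 0 < Wf u v a b x := fun x =>
    mul_pos (Real.rpow_pos_of_pos (hupos x) a) (Real.rpow_pos_of_pos (hvpos x) b)
  obtain ⟨Wm, hWm⟩ := (isCompact_closedBall (0 : Eu n) 1).bddAbove_image hWcont.continuousOn
  have hWm' : ∀ x : Eu n, x ≠ 0 → ‖x‖ ≤ 1 → Wf u v a b x ≤ Wm := fun x _ hx =>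
    hWm ⟨x, by simpa using hx, rfl⟩
  have hSpos : ∀ x : Eu n, x ≠ 0 → 0 < Sr A p v x / u x := fun x hx =>
    div_pos (mul_pos (Real.rpow_pos_of_pos (norm_pos_iff.2 hx) _)
      (Real.rpow_pos_of_pos (hvpos x) p)) (hupos x)
  have hTpos : ∀ x : Eu n, x ≠ 0 → 0 < Sr B q u x / v x := fun x hx =>
    div_pos (mul_pos (Real.rpow_pos_of_pos (norm_pos_iff.2 hx) _)
      (Real.rpow_pos_of_pos (hupos x) q)) (hvpos x)
  have hwpos : ∀ x : Eu n, x ≠ 0 → 0 < dot (fun i => Xi i x) (fun i => Xi i x) := fun x hx => by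
    rw [dot_Xi x hx]
    have : 0 < ‖x‖ := norm_pos_iff.2 hx
    positivity
  have hreal : ∀ x ∈ Ω, WAtoms.Realizable n (watAt u v A B p q x) := by
    intro x hx
    have hJ := (hLoc x hx).jet a b
    exact watomsOf_realizable hn hJ.Usymm hJ.Vsymm hJ.trU hJ.trV (hSpos x (hΩne x hx))
      (hTpos x (hΩne x hx))
  have hfu : ContinuousOn (Sr A p v) Ω := (contDiffOn_Sr hΩne hv hvposΩ A p).continuousOn
  have hfv : ContinuousOn (Sr B q u) Ω := (contDiffOn_Sr hΩne hu huposΩ B q).continuousOn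
  have hU1 : ∀ i j, ContinuousOn (Ug u (Sr A p v) i j) Ω :=
    contOn_Ug hΩ hu huposΩ hn hfu
  have hV1 : ∀ i j, ContinuousOn (Ug v (Sr B q u) i j) Ω :=
    contOn_Ug hΩ hv hvposΩ hn hfv
  have hX1 : ∀ i, ContinuousOn (Xf u i) Ω := fun i => (contDiffOn_Xf hΩ hu huposΩ i).continuousOn
  have hY1 : ∀ i, ContinuousOn (Xf v i) Ω := fun i => (contDiffOn_Xf hΩ hv hvposΩ i).continuousOn
  have hZ1 : ∀ i, ContinuousOn (Xi (n := n) i) Ω := fun i => (contDiffOn_Xi hΩne i).continuousOn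
  have hs1 : ContinuousOn (fun y => Sr A p v y / u y) Ω :=
    hfu.div hu.continuousOn fun x hx => (hupos x).ne'
  have ht1 : ContinuousOn (fun y => Sr B q u y / v y) Ω :=
    hfv.div hv.continuousOn fun x hx => (hvpos x).ne'
  have hip : ∀ {A B : Fin n → Fin n → Eu n → ℝ}, (∀ i j, ContinuousOn (A i j) Ω) →
      (∀ i j, ContinuousOn (B i j) Ω) →
      ContinuousOn (fun x => ip (fun i j => A i j x) (fun i j => B i j x)) Ω :=
    fun hA hB => continuousOn_finsetSum _ fun i _ => continuousOn_finsetSum _ fun j _ =>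
      (hA i j).mul (hB i j)
  have hBB : ∀ {A : Fin n → Fin n → Eu n → ℝ} {P R : Fin n → Eu n → ℝ},
      (∀ i j, ContinuousOn (A i j) Ω) → (∀ i, ContinuousOn (P i) Ω) → (∀ i, ContinuousOn (R i) Ω) →
      ContinuousOn (fun x => BB (fun i j => A i j x) (fun i => P i x) (fun i => R i x)) Ω :=
    fun hA hP hR => continuousOn_finsetSum _ fun i _ => continuousOn_finsetSum _ fun j _ =>
      (hA i j).mul ((hP i).mul (hR j))
  have hdot : ∀ {P R : Fin n → Eu n → ℝ}, (∀ i, ContinuousOn (P i) Ω) →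
      (∀ i, ContinuousOn (R i) Ω) → ContinuousOn (fun x => dot (fun i => P i x) (fun i => R i x)) Ω :=
    fun hP hR => continuousOn_finsetSum _ fun i _ => (hP i).mul (hR i)
  have a1 := hip hU1 hU1
  have a2 := hip hU1 hV1
  have a3 := hip hV1 hV1
  have a4 := hBB hU1 hX1 hX1
  have a5 := hBB hU1 hX1 hY1
  have a6 := hBB hU1 hY1 hY1
  have a7 := hBB hV1 hX1 hX1
  have a8 := hBB hV1 hX1 hY1
  have a9 := hBB hV1 hY1 hY1
  have a10 := hdot hX1 hX1
  have a11 := hdot hX1 hY1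
  have a12 := hdot hY1 hY1
  have a15 := hdot hX1 hZ1
  have a16 := hdot hY1 hZ1
  have a17 := hdot hZ1 hZ1
  have hDc : ∀ k, ContinuousOn (fun x => WAtoms.D n p q a b A B (watAt u v A B p q x) k) Ω := fun k =>
    continuousOn_WD_aux a1 a2 a3 a4 a5 a6 a7 a8 a9 a10 a11 a12 hs1 ht1 a15 a16 a17 n p q a b A B k
  have hEc : ContinuousOn (fun x => (watAt u v A B p q x).EW) Ω :=
    ((((((a1.add a3).add (a10.pow 2)).add (a12.pow 2)).add (hs1.pow 2)).add (ht1.pow 2))).add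
      (a17.pow 2)
  have hE0 : ∀ x, 0 ≤ (watAt u v A B p q x).EW := fun x => EW_nonneg
  -- the field
  obtain ⟨Z, hZdef⟩ : ∃ Z : Fin n → Eu n → ℝ, Z = fun i y =>
      Wf u v a b y * ∑ k, c k * WFlds u v A B p q k i y := ⟨_, rfl⟩
  have hFc := contOn_WFlds (A := A) (B := B) (p := p) (q := q) hΩ hΩne hu hv huposΩ hvposΩ hn
  have hZc : ∀ i, ContinuousOn (Z i) Ω := by
    intro i
    rw [hZdef]
    exact hWcont.continuousOn.mul (continuousOn_finsetSum _ fun k _ =>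
      continuousOn_const.mul (hFc k i))
  have hZb : ∀ i x, x ≠ 0 → |Z i x| ≤ (∑ k, |c k|) *
      (Wf u v a b x * (watAt u v A B p q x).EW ^ (3 / 4 : ℝ)) := by
    intro i x _
    rw [hZdef]
    simp only
    rw [abs_mul, abs_of_pos (hWpos x)]
    have h1 : |∑ k, c k * WFlds u v A B p q k i x| ≤
        (∑ k, |c k|) * (watAt u v A B p q x).EW ^ (3 / 4 : ℝ) := by
      refine (Finset.abs_sum_le_sum_abs _ _).trans ?_
      rw [Finset.sum_mul]
      refine Finset.sum_le_sum fun k _ => ?_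
      rw [abs_mul]
      exact mul_le_mul_of_nonneg_left (abs_WF_le k i x) (abs_nonneg _)
    have h2 := mul_le_mul_of_nonneg_left h1 (hWpos x).le
    linarith
  have hWE : ∀ x, x ≠ 0 → Wf u v a b x ≤ 1 * (watAt u v A B p q x).EW ^
      ((lam + mu + (A * lam + B * mu) / 2) / 2) := by
    intro x hx
    rw [one_mul, Wf_eq_stw hx (hupos x) (hvpos x) ha hb]
    exact stw_pow_le (hSpos x hx) (hTpos x hx) (hwpos x hx) hlam hmu hsig
  -- the weak inequality
  have hweak : ∀ φ : Eu n → ℝ, ContDiff ℝ 1 φ → HasCompactSupport φ → (∀ x, 0 ≤ φ x) →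
      0 ∉ tsupport φ →
      c0 * ∫ x, φ x * (Wf u v a b x * (watAt u v A B p q x).EW) ≤
        - ∑ i, ∫ x, fderiv ℝ φ x (ee i) * Z i x := by
    intro φ hφ hφc hφ0 h0
    have hφΩ : tsupport φ ⊆ Ω := by
      intro y hy
      refine hneΩ y ?_
      rintro rfl
      exact h0 hy
    have hdφ : ∀ i, Continuous (pd i φ) := fun i =>
      (hφ.continuous_fderiv one_ne_zero).clm_apply continuous_const
    have hdφs : ∀ i, HasCompactSupport (pd i φ) := fun i => hφc.fderiv_apply (𝕜 := ℝ) (ee i)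
    have hdφΩ : ∀ i, tsupport (pd i φ) ⊆ Ω := fun i =>
      (tsupport_fderiv_apply_subset ℝ (ee i)).trans hφΩ
    have hint : ∀ k i, Integrable fun x => pd i φ x * (Wf u v a b x * WFlds u v A B p q k i x) := by
      intro k i
      have := integrable_mul_of_tsupport hΩ (hWcont.continuousOn.mul (hFc k i)) (hdφ i) (hdφs i)
        (hdφΩ i)
      exact this.congr (Eventually.of_forall fun x => by simp only [Pi.mul_apply]; ring)
    have h1 : ∀ i, ∫ x, fderiv ℝ φ x (ee i) * Z i x =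
        ∑ k, c k * ∫ x, pd i φ x * (Wf u v a b x * WFlds u v A B p q k i x) := by
      intro i
      simp_rw [← integral_const_mul]
      rw [← integral_finsetSum _ (fun k _ => (hint k i).const_mul _)]
      refine integral_congr_ae (Eventually.of_forall fun x => ?_)
      rw [hZdef]
      show fderiv ℝ φ x (ee i) * (Wf u v a b x * ∑ k, c k * WFlds u v A B p q k i x) =
        ∑ k, c k * (pd i φ x * (Wf u v a b x * WFlds u v A B p q k i x))
      rw [Finset.mul_sum, Finset.mul_sum]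
      refine Finset.sum_congr rfl fun k _ => ?_
      simp only [pd]
      ring
    simp_rw [h1]
    rw [Finset.sum_comm]
    simp_rw [← Finset.mul_sum]
    simp_rw [weak_WFlds hΩ hΩne a b hu hv hLoc hn hφ hφc hφΩ]
    have hintD : ∀ k, Integrable fun x =>
        φ x * (Wf u v a b x * WAtoms.D n p q a b A B (watAt u v A B p q x) k) := by
      intro k
      have := integrable_mul_of_tsupport hΩ (hWcont.continuousOn.mul (hDc k)) hφ.continuous hφc hφΩ
      exact this.congr (Eventually.of_forall fun x => mul_comm _ _)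
    have hintE : Integrable fun x => φ x * (Wf u v a b x * (watAt u v A B p q x).EW) := by
      have := integrable_mul_of_tsupport hΩ (hWcont.continuousOn.mul hEc) hφ.continuous hφc hφΩ
      exact this.congr (Eventually.of_forall fun x => mul_comm _ _)
    have h2 : - ∑ k, c k * - ∫ x, φ x * (Wf u v a b x * WAtoms.D n p q a b A B (watAt u v A B p q x) k) =
        ∫ x, φ x * (Wf u v a b x * WAtoms.Q n p q a b A B c (watAt u v A B p q x)) := by
      simp only [mul_neg, Finset.sum_neg_distrib, neg_neg]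
      simp_rw [← integral_const_mul]
      rw [← integral_finsetSum _ (fun k _ => (hintD k).const_mul _)]
      refine integral_congr_ae (Eventually.of_forall fun x => ?_)
      show ∑ k, c k * (φ x * (Wf u v a b x * WAtoms.D n p q a b A B (watAt u v A B p q x) k)) =
        φ x * (Wf u v a b x * WAtoms.Q n p q a b A B c (watAt u v A B p q x))
      simp only [WAtoms.Q]
      rw [Finset.mul_sum, Finset.mul_sum]
      refine Finset.sum_congr rfl fun k _ => ?_
      ring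
    rw [h2, ← integral_const_mul]
    refine integral_mono (hintE.const_mul _) ?_ ?_
    · have hQc : ContinuousOn (fun x => WAtoms.Q n p q a b A B c (watAt u v A B p q x)) Ω :=
        continuousOn_finsetSum Finset.univ fun k _ => continuousOn_const.mul (hDc k)
      have := integrable_mul_of_tsupport hΩ (hWcont.continuousOn.mul hQc) hφ.continuous hφc hφΩ
      exact this.congr (Eventually.of_forall fun x => mul_comm _ _)
    · intro x
      by_cases hx : x ∈ Ω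
      · have h3 := hcert _ (hreal x hx)
        have h4 : 0 ≤ φ x * Wf u v a b x := mul_nonneg (hφ0 x) (hWpos x).le
        have h5 := mul_le_mul_of_nonneg_left h3 h4
        show c0 * (φ x * (Wf u v a b x * (watAt u v A B p q x).EW)) ≤
          φ x * (Wf u v a b x * WAtoms.Q n p q a b A B c (watAt u v A B p q x))
        linarith
      · have h0' : φ x = 0 := image_eq_zero_of_notMem_tsupport (fun h => hx (hφΩ h))
        show c0 * (φ x * (Wf u v a b x * (watAt u v A B p q x).EW)) ≤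
          φ x * (Wf u v a b x * WAtoms.Q n p q a b A B c (watAt u v A B p q x))
        simp [h0']
  have hfr : finrank ℝ (Eu n) = n := finrank_euclideanSpace_fin
  refine cutoff_false (V := Eu n) (fun i : Fin n => ee i) Z (Wf u v a b)
    (fun x => (watAt u v A B p q x).EW) (c0 := c0) (C := ∑ k, |c k|) (K := 1)
    (D := lam + mu + (A * lam + B * mu) / 2) (Wm := Wm)
    ?_ ?_ ?_ ?_ ?_ hc0 ?_ zero_le_one (by linarith) hWm' ?_ ?_ hZb hWE hweak
  · intro i
    rw [← hΩdef]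
    exact hZc i
  · exact hWcont.continuousOn
  · rw [← hΩdef]
    exact hEc
  · exact fun x _ => hWpos x
  · exact fun x _ => hE0 x
  · exact Finset.sum_nonneg fun k _ => abs_nonneg _
  · rw [hfr]
    exact hn4
  · rw [hfr]
    linarith

/-- The same, with Mathlib's Laplacian. -/
theorem no_solution_of_wcert_lap (hn4 : 4 < n) {p q a b lam mu c0 A B : ℝ} {c : Fin 17 → ℝ}
    (hcert : WCertif n p q a b A B c c0) (hc0 : 0 < c0)
    (ha : a = mu * q - lam) (hb : b = lam * p - mu) (hlam : 0 ≤ lam) (hmu : 0 ≤ mu)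
    (hD : (n : ℝ) < 2 * (lam + mu) + 4) (hA : 0 ≤ A) (hB : 0 ≤ B)
    {u v : Eu n → ℝ} (hucont : Continuous u) (hvcont : Continuous v)
    (hupos : ∀ x, 0 < u x) (hvpos : ∀ x, 0 < v x)
    (hu : ContDiffOn ℝ 2 u {0}ᶜ) (hv : ContDiffOn ℝ 2 v {0}ᶜ)
    (hpdeU : ∀ x, x ≠ 0 → - Δ u x = ‖x‖ ^ A * v x ^ p)
    (hpdeV : ∀ x, x ≠ 0 → - Δ v x = ‖x‖ ^ B * u x ^ q) : False := by
  have hc : ∀ {f : Eu n → ℝ}, ContDiffOn ℝ 2 f {0}ᶜ → ∀ x : Eu n, x ≠ 0 → ContDiffAt ℝ 2 f x :=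
    fun hf x hx => hf.contDiffAt (isOpen_compl_singleton.mem_nhds hx)
  refine no_solution_of_wcert hn4 hcert hc0 ha hb hlam hmu hD hA hB hucont hvcont hupos hvpos hu hv
    ?_ ?_
  · intro x hx
    rw [← laplacian_eq_sum_Hf (hc hu x hx), ← hpdeU x hx, neg_neg]
  · intro x hx
    rw [← laplacian_eq_sum_Hf (hc hv x hx), ← hpdeV x hx, neg_neg]

end Vale.Agent.Lib.P100
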