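import Vale.Agent.Lib.P100.WeakU

/-!
# P100: the weak divergence of the Hessian fields for a general source.

`-Δu = f` on an open set, `f` of class `C¹`, no partner equation. `weak_FUg` is the analogue of
`weak_FU`; no third derivative of `u` is used.
-/

open scoped BigOperators
open MeasureTheory Filter Topology Set

noncomputable section

namespace Vale.Agent.Lib.P100

variable {n : ℕ}

/-- The traceless part of `Hess u / u`, when `-Δu = f`. -/
def Ug (u f : Eu n → ℝ) (i j : Fin n) (y : Eu n) : ℝ := Hf u i j y / u y + dl i j * (f y / u y / n)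

/-- The field `U0 Z`. -/
def FUg (u f : Eu n → ℝ) (Z : Fin n → Eu n → ℝ) (i : Fin n) (y : Eu n) : ℝ := ∑ j, Ug u f i j y * Z j y

/-- The formal divergence of `W U0 Z`. -/
def FormalUg (u v f : Eu n → ℝ) (a b : ℝ) (Z : Fin n → Eu n → ℝ) (x : Eu n) : ℝ :=
  Wf u v a b x * ((a - 1) * BB (fun i j => Ug u f i j x) (Xv u x) (fun l => Z l x)
    + b * BB (fun i j => Ug u f i j x) (Xv v x) (fun l => Z l x)
    - (1 - 1 / (n:ℝ)) * (∑ l, pd l f x / u x * Z l x)
    + ∑ i, ∑ l, Ug u f i l x * pd i (Z l) x)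

section bracket

variable {u v f : Eu n → ℝ} {x : Eu n}

/-- The pointwise computation. -/
theorem bracket_eqg (hu : ContDiffAt ℝ 2 u x) (hv : ContDiffAt ℝ 2 v x)
    (hf : DifferentiableAt ℝ f x) (hupos : 0 < u x) (hvpos : 0 < v x) (hn : (n : ℝ) ≠ 0)
    (a b : ℝ) {Z : Fin n → Eu n → ℝ} (hZ : ∀ l, DifferentiableAt ℝ (Z l) x) :
    (∑ l, (pd l (fun y => - f y) x * (Wf u v a b x / u x * Z l x)
        + ∑ i, pd l (pd i u) x * pd i (fun y => Wf u v a b y / u y * Z l y) x))
      + ∑ i, pd i (fun y => Wf u v a b y * (f y / u y / n) * Z i y) x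
      = FormalUg u v f a b Z x := by
  have hU0 := hupos.ne'
  have hV0 := hvpos.ne'
  obtain ⟨w, hw⟩ : ∃ w, w = Wf u v a b x := ⟨_, rfl⟩
  obtain ⟨U, hU⟩ : ∃ U, U = u x := ⟨_, rfl⟩
  obtain ⟨s, hs⟩ : ∃ s, s = f x / u x := ⟨_, rfl⟩
  have hU00 : U ≠ 0 := hU ▸ hU0
  have hZg : ∀ l, HG (Z l) (fun i => pd i (Z l) x) x := fun l => HG.of_diff (hZ l)
  have hgu : HG u (fun j => pd j u x) x := HG.of_diff (hu.differentiableAt (by norm_num))
  have hgv : HG v (fun j => pd j v x) x := HG.of_diff (hv.differentiableAt (by norm_num))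
  have hgf : HG f (fun j => pd j f x) x := HG.of_diff hf
  have hgW : HG (Wf u v a b) (fun j => Wf u v a b x * (a * Xf u j x + b * Xf v j x)) x := by
    have h1 := (hgu.rpow hupos a).mul (hgv.rpow hvpos b)
    refine HG.congr_g h1 (fun j => ?_)
    simp only [Xf, Wf]
    rw [Real.rpow_sub_one hV0, Real.rpow_sub_one hU0]
    field_simp
  have hWu := hgW.div hgu hU0
  have hA : ∀ l i, pd i (fun y => Wf u v a b y / u y * Z l y) x =
      (w / U) * (((a - 1) * Xv u x i + b * Xv v x i) * Z l x + pd i (Z l) x) := by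
    intro l i
    have h1 := (hWu.mul (hZg l)).2 i
    rw [h1]
    simp only [Xv, Xf]
    rw [← hw, ← hU]
    field_simp
    ring
  have hL : ∀ l, pd l (fun y => - f y) x = -(U * (pd l f x / u x)) := by
    intro l
    have h1 := (hgf.neg).2 l
    rw [h1, hU]
    field_simp
  have hS : HG (fun y => f y / u y) (fun i => pd i f x / u x - s * Xf u i x) x := by
    have h1 := hgf.div hgu hU0
    refine HG.congr_g h1 (fun i => ?_)
    simp only [Xf]
    rw [hs]
    field_simp
  have hC : ∀ i, pd i (fun y => Wf u v a b y * (f y / u y / n) * Z i y) x =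
      w * (s / n) * (((a - 1) * Xv u x i + b * Xv v x i) * Z i x + pd i (Z i) x)
        + (w / n) * (pd i f x / u x * Z i x) := by
    intro i
    have h1 := ((hgW.mul (HG.div hS (HG.const (n : ℝ) x) hn)).mul (hZg i)).2 i
    rw [h1]
    simp only [Xv]
    rw [← hw, ← hs]
    field_simp
    ring
  have hH : ∀ i l, pd l (pd i u) x = U * (Ug u f i l x - dl i l * (s / n)) := by
    intro i l
    have h3 : Ug u f i l x - dl i l * (s / n) = pd l (pd i u) x / u x := by
      rw [hs]
      simp only [Ug, Hf]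
      ring
    rw [h3, hU]
    field_simp
  -- name the real data
  obtain ⟨M, hM⟩ : ∃ M : Fin n → Fin n → ℝ, M = fun i j => Ug u f i j x := ⟨_, rfl⟩
  have hM' : ∀ i j, Ug u f i j x = M i j := fun i j => by rw [hM]
  set X := Xv u x with hX
  set Y := Xv v x with hY
  obtain ⟨d, hd⟩ : ∃ d : Fin n → ℝ, d = fun l => pd l f x / u x := ⟨_, rfl⟩
  have hd' : ∀ l, pd l f x / u x = d l := fun l => by rw [hd]
  obtain ⟨Zv, hZv⟩ : ∃ Zv : Fin n → ℝ, Zv = fun l => Z l x := ⟨_, rfl⟩
  have hZv' : ∀ l, Z l x = Zv l := fun l => by rw [hZv]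
  obtain ⟨dZ, hdZ⟩ : ∃ dZ : Fin n → Fin n → ℝ, dZ = fun i l => pd i (Z l) x := ⟨_, rfl⟩
  have hdZ' : ∀ i l, pd i (Z l) x = dZ i l := fun i l => by rw [hdZ]
  simp only [hA, hL, hC, hH, hZv', hdZ', hM', hd']
  -- the first two terms
  have t1 : ∀ l, -(U * d l) * (Wf u v a b x / u x * Zv l) = -w * (d l * Zv l) := by
    intro l
    rw [← hw, ← hU]
    field_simp
  have t2 : ∀ l i, U * (M i l - dl i l * (s / n)) *
      (w / U * (((a - 1) * X i + b * Y i) * Zv l + dZ i l)) =
      w * (M i l * (((a - 1) * X i + b * Y i) * Zv l + dZ i l)) -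
        w * (s / n) * (dl i l * (((a - 1) * X i + b * Y i) * Zv l + dZ i l)) := by
    intro l i
    field_simp
  simp only [t1, t2, Finset.sum_add_distrib, Finset.sum_sub_distrib]
  have e1 : ∑ l, ∑ i, w * (M i l * (((a - 1) * X i + b * Y i) * Zv l + dZ i l)) =
      w * ((a - 1) * BB M X Zv + b * BB M Y Zv + ∑ i, ∑ l, M i l * dZ i l) := by
    rw [Finset.sum_comm]
    simp only [BB, Finset.mul_sum, ← Finset.sum_add_distrib]
    refine Finset.sum_congr rfl (fun i _ => Finset.sum_congr rfl (fun l _ => ?_))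
    ring
  have e2 : ∑ l, ∑ i, w * (s / n) * (dl i l * (((a - 1) * X i + b * Y i) * Zv l + dZ i l)) =
      w * (s / n) * ((a - 1) * dot X Zv + b * dot Y Zv + ∑ i, dZ i i) := by
    have h1 : ∀ l, ∑ i, w * (s / n) * (dl i l * (((a - 1) * X i + b * Y i) * Zv l + dZ i l)) =
        w * (s / n) * (((a - 1) * X l + b * Y l) * Zv l + dZ l l) := by
      intro l
      rw [← Finset.mul_sum, sum_dl_mul l (fun i => ((a - 1) * X i + b * Y i) * Zv l + dZ i l)]
    simp only [h1, dot, Finset.mul_sum, ← Finset.sum_add_distrib]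
    refine Finset.sum_congr rfl (fun i _ => ?_)
    ring
  have e3 : ∑ i, w * (s / n) * (((a - 1) * X i + b * Y i) * Zv i + dZ i i) =
      w * (s / n) * ((a - 1) * dot X Zv + b * dot Y Zv + ∑ i, dZ i i) := by
    simp only [dot, Finset.mul_sum, ← Finset.sum_add_distrib]
    refine Finset.sum_congr rfl (fun i _ => ?_)
    ring
  have e4 : ∑ l, -w * (d l * Zv l) = -w * ∑ l, d l * Zv l := by
    simp only [Finset.mul_sum]
  have e5 : ∑ i, w / n * (d i * Zv i) = w / n * ∑ l, d l * Zv l := by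
    simp only [Finset.mul_sum]
  rw [e1, e2, e3, e4, e5]
  simp only [FormalUg, hZv', hdZ', hM', hd', ← hw, ← hX, ← hY]
  rw [show (fun i j => M i j) = M from rfl, show (fun l => Zv l) = Zv from rfl]
  field_simp
  ring

end bracket

/-- **The weak divergence of `W U0 Z`**, for a general source. -/
theorem weak_FUg {Ω : Set (Eu n)} (hΩ : IsOpen Ω) {u v f : Eu n → ℝ} (a b : ℝ)
    (hu : ContDiffOn ℝ 2 u Ω) (hv : ContDiffOn ℝ 2 v Ω) (hf : ContDiffOn ℝ 1 f Ω)
    (hupos : ∀ x ∈ Ω, 0 < u x) (hvpos : ∀ x ∈ Ω, 0 < v x)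
    (hLap : ∀ x ∈ Ω, ∑ i, Hf u i i x = - f x) (hn : (n:ℝ) ≠ 0)
    {Z : Fin n → Eu n → ℝ} (hZ : ∀ l, ContDiffOn ℝ 1 (Z l) Ω)
    {φ : Eu n → ℝ} (hφ : ContDiff ℝ 1 φ) (hφc : HasCompactSupport φ) (hφΩ : tsupport φ ⊆ Ω) :
    ∑ i, ∫ x, pd i φ x * (Wf u v a b x * FUg u f Z i x) = - ∫ x, φ x * FormalUg u v f a b Z x := by
  have hW := contDiffOn_Wf hu hv hupos hvpos a b
  have hW1 : ContDiffOn ℝ 1 (Wf u v a b) Ω := hW.of_le (by norm_num)
  have hu1 : ContDiffOn ℝ 1 u Ω := hu.of_le (by norm_num)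
  -- the two kinds of pieces
  set A : Fin n → Eu n → ℝ := fun l y => Wf u v a b y / u y * Z l y with hA
  set h : Fin n → Eu n → ℝ := fun i y => Wf u v a b y * (f y / u y / n) * Z i y with hh
  have hAc : ∀ l, ContDiffOn ℝ 1 (A l) Ω := fun l =>
    (hW1.div hu1 fun x hx => (hupos x hx).ne').mul (hZ l)
  have hhc : ∀ i, ContDiffOn ℝ 1 (h i) Ω := fun i =>
    (hW1.mul ((hf.div hu1 fun x hx => (hupos x hx).ne').div contDiffOn_const fun x _ => hn)).mul (hZ i)
  set L : Eu n → ℝ := fun y => - f y with hL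
  have hLc : ContDiffOn ℝ 1 L Ω := hf.neg
  have hLap' : ∀ x ∈ Ω, ∑ i, pd i (pd i u) x = L x := fun x hx => hLap x hx
  have hdφ : ∀ i, Continuous (pd i φ) := fun i =>
    (hφ.continuous_fderiv one_ne_zero).clm_apply continuous_const
  have hdφs : ∀ i, HasCompactSupport (pd i φ) := fun i => hφc.fderiv_apply (𝕜 := ℝ) (ee i)
  have hdφΩ : ∀ i, tsupport (pd i φ) ⊆ Ω := fun i =>
    (tsupport_fderiv_apply_subset ℝ (ee i)).trans hφΩ
  have hHc : ∀ i l, ContinuousOn (pd l (pd i u)) Ω := fun i l =>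
    contOn_pd hΩ (contDiffOn_pd hΩ hu i) l
  -- integrand identity
  have hid : ∀ i x, pd i φ x * (Wf u v a b x * FUg u f Z i x) =
      ∑ l, pd i φ x * (pd l (pd i u) x * A l x) + h i x * pd i φ x := by
    intro i x
    simp only [FUg, Ug, hA, hh, Hf]
    have h1 : ∑ j, (pd j (pd i u) x / u x + dl i j * (f x / u x / n)) * Z j x =
        ∑ j, pd j (pd i u) x / u x * Z j x + (f x / u x / n) * Z i x := by
      rw [← sum_dl_mul' i (fun j => (f x / u x / n) * Z j x), ← Finset.sum_add_distrib]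
      refine Finset.sum_congr rfl (fun j _ => ?_)
      ring
    rw [h1, mul_add, mul_add, Finset.mul_sum, Finset.mul_sum]
    congr 1
    · refine Finset.sum_congr rfl (fun l _ => ?_)
      ring
    · ring
  have hint1 : ∀ i l, Integrable fun x => pd i φ x * (pd l (pd i u) x * A l x) := by
    intro i l
    have := integrable_mul_of_tsupport hΩ ((hHc i l).mul (hAc l).continuousOn) (hdφ i) (hdφs i)
      (hdφΩ i)
    exact this.congr (Eventually.of_forall fun x => by simp only [Pi.mul_apply]; ring)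
  have hint2 : ∀ i, Integrable fun x => h i x * pd i φ x := fun i =>
    integrable_mul_of_tsupport hΩ (hhc i).continuousOn (hdφ i) (hdφs i) (hdφΩ i)
  have hstep : ∀ i, ∫ x, pd i φ x * (Wf u v a b x * FUg u f Z i x) =
      ∑ l, (∫ x, pd i φ x * (pd l (pd i u) x * A l x)) + ∫ x, h i x * pd i φ x := by
    intro i
    simp_rw [hid]
    rw [integral_add (integrable_finsetSum _ (fun l _ => hint1 i l)) (hint2 i),
      integral_finsetSum _ (fun l _ => hint1 i l)]
  simp_rw [hstep]
  rw [Finset.sum_add_distrib, Finset.sum_comm]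
  simp_rw [weak_hess_A hΩ hu hLc hLap' (hAc _) hφ hφc hφΩ]
  have hparts : ∀ i, ∫ x, h i x * pd i φ x = - ∫ x, φ x * pd i (h i) x := by
    intro i
    rw [weak_parts_on hΩ (hhc i) hφ hφc hφΩ i]
    congr 1
    refine integral_congr_ae (Eventually.of_forall fun x => ?_)
    exact mul_comm _ _
  simp_rw [hparts]
  -- integrability of the pieces on the right
  have hB : ∀ l, ContinuousOn (fun x => pd l L x * A l x + ∑ i, pd l (pd i u) x * pd i (A l) x) Ω := by
    intro l
    refine ((contOn_pd hΩ hLc l).mul (hAc l).continuousOn).add ?_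
    exact continuousOn_finsetSum _ fun i _ => (hHc i l).mul (contOn_pd hΩ (hAc l) i)
  have hint3 : ∀ l, Integrable fun x =>
      φ x * (pd l L x * A l x + ∑ i, pd l (pd i u) x * pd i (A l) x) := by
    intro l
    have := integrable_mul_of_tsupport hΩ (hB l) hφ.continuous hφc hφΩ
    exact this.congr (Eventually.of_forall fun x => mul_comm _ _)
  have hint4 : ∀ i, Integrable fun x => φ x * pd i (h i) x := by
    intro i
    have := integrable_mul_of_tsupport hΩ (contOn_pd hΩ (hhc i) i) hφ.continuous hφc hφΩ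
    exact this.congr (Eventually.of_forall fun x => mul_comm _ _)
  have hpt : ∀ x, φ x * FormalUg u v f a b Z x =
      ∑ l, φ x * (pd l L x * A l x + ∑ i, pd l (pd i u) x * pd i (A l) x)
        + ∑ i, φ x * pd i (h i) x := by
    intro x
    by_cases hx : x ∈ Ω
    · have hb := bracket_eqg (hu.contDiffAt (hΩ.mem_nhds hx)) (hv.contDiffAt (hΩ.mem_nhds hx))
        ((hf.contDiffAt (hΩ.mem_nhds hx)).differentiableAt one_ne_zero) (hupos x hx) (hvpos x hx) hn
        a b (Z := Z)
        (fun l => ((hZ l).contDiffAt (hΩ.mem_nhds hx)).differentiableAt one_ne_zero)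
      have h2 : φ x * FormalUg u v f a b Z x =
          φ x * ((∑ l, (pd l L x * A l x + ∑ i, pd l (pd i u) x * pd i (A l) x))
            + ∑ i, pd i (h i) x) :=
        congrArg (fun t => φ x * t) hb.symm
      rw [h2, mul_add, Finset.mul_sum, Finset.mul_sum]
    · have h0 : φ x = 0 := image_eq_zero_of_notMem_tsupport (fun h => hx (hφΩ h))
      simp [h0]
  simp_rw [hpt]
  rw [integral_add (integrable_finsetSum _ (fun l _ => hint3 l))
    (integrable_finsetSum _ (fun i _ => hint4 i)),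
    integral_finsetSum _ (fun l _ => hint3 l), integral_finsetSum _ (fun i _ => hint4 i),
    neg_add, Finset.sum_neg_distrib, Finset.sum_neg_distrib]

end Vale.Agent.Lib.P100
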