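import Vale.Agent.Lib.P100.Num
import Vale.Agent.Lib.P100.Jets3
import Vale.Agent.Lib.P100.WAtoms
import Vale.Agent.Lib.P100.WeakG
import Vale.Agent.Lib.P100.Literal

/-!
# P100 weighted system: calculus of `ξ = x/|x|²`, the classical divergences.
-/

open scoped BigOperators
open MeasureTheory Filter Topology Set Module

set_option linter.unusedSimpArgs false

noncomputable section

namespace Vale.Agent.Lib.P100

variable {n : ℕ}

/-- `ξ = x/|x|²`. -/
def Xi (i : Fin n) (y : Eu n) : ℝ := y i / ‖y‖ ^ 2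

theorem hg_coord (i : Fin n) (x : Eu n) : HG (fun y : Eu n => y i) (fun j => dl i j) x := by
  have h : HasFDerivAt (fun y : Eu n => y i) (EuclideanSpace.proj i : Eu n →L[ℝ] ℝ) x :=
    (EuclideanSpace.proj i : Eu n →L[ℝ] ℝ).hasFDerivAt
  refine ⟨h.differentiableAt, fun j => ?_⟩
  simp only [pd]
  rw [h.fderiv]
  by_cases hij : i = j
  · subst hij; simp [dl]
  · have h2 : j ≠ i := fun h => hij h.symm
    simp [dl, hij, h2]

theorem nsq_eq (y : Eu n) : ‖y‖ ^ 2 = ∑ k, y k * y k := by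
  rw [EuclideanSpace.real_norm_sq_eq]
  exact Finset.sum_congr rfl fun k _ => pow_two _

theorem hg_nsq (x : Eu n) : HG (fun y : Eu n => ‖y‖ ^ 2) (fun j => 2 * x j) x := by
  have h1 : HG (fun y : Eu n => ∑ k, y k * y k)
      (fun j => ∑ k, (dl k j * x k + x k * dl k j)) x :=
    HG.sum Finset.univ fun k _ => (hg_coord k x).mul (hg_coord k x)
  have h2 : (fun y : Eu n => ‖y‖ ^ 2) = fun y : Eu n => ∑ k, y k * y k := funext nsq_eq
  rw [h2]
  refine h1.congr_g fun j => ?_
  have h3 : ∑ k, (dl k j * x k + x k * dl k j) = ∑ k, dl k j * (2 * x k) :=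
    Finset.sum_congr rfl fun k _ => by ring
  rw [h3, sum_dl_mul j fun k => 2 * x k]

theorem dot_Xi (x : Eu n) (hx : x ≠ 0) :
    dot (fun i => Xi i x) (fun i => Xi i x) = 1 / ‖x‖ ^ 2 := by
  have hN : ‖x‖ ^ 2 ≠ 0 := pow_ne_zero _ (norm_ne_zero_iff.2 hx)
  simp only [dot, Xi]
  have h1 : ∀ i, x i / ‖x‖ ^ 2 * (x i / ‖x‖ ^ 2) = (x i * x i) * (1 / (‖x‖ ^ 2) ^ 2) := fun i => by
    field_simp
  simp_rw [h1]
  rw [← Finset.sum_mul, ← nsq_eq]
  field_simp

/-- `∂_j ξ_k = δ_jk w - 2 ξ_j ξ_k`, in the form `Sp`. -/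
theorem sp_Xi (x : Eu n) (hx : x ≠ 0) :
    Sp Xi (fun i j => - (Xi i x * Xi j x))
      (- dot (fun i => Xi i x) (fun i => Xi i x)) x := by
  have hN : ‖x‖ ^ 2 ≠ 0 := pow_ne_zero _ (norm_ne_zero_iff.2 hx)
  refine ⟨fun k => ?_⟩
  have h1 := (hg_coord k x).div (hg_nsq x) hN
  refine h1.congr_g fun j => ?_
  rw [dot_Xi x hx]
  simp only [Xi]
  field_simp
  ring

/-- The gradient of `|x|^A`. -/
theorem hg_normpow (x : Eu n) (hx : x ≠ 0) (A : ℝ) :
    HG (fun y : Eu n => ‖y‖ ^ A) (fun j => ‖x‖ ^ A * (A * Xi j x)) x := by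
  have hN : 0 < ‖x‖ ^ 2 := by positivity
  have hn0 : 0 < ‖x‖ := norm_pos_iff.2 hx
  have h1 := (hg_nsq x).rpow hN (A / 2)
  have h2 : (fun y : Eu n => ‖y‖ ^ A) = fun y : Eu n => (‖y‖ ^ 2) ^ (A / 2) := by
    funext y
    rw [← Real.rpow_natCast, ← Real.rpow_mul (norm_nonneg y)]
    congr 1
    push_cast
    ring
  rw [h2]
  refine h1.congr_g fun j => ?_
  have h3 : (‖x‖ ^ 2) ^ (A / 2) = ‖x‖ ^ A := by
    rw [← Real.rpow_natCast, ← Real.rpow_mul hn0.le]
    congr 1
    push_cast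
    ring
  rw [Real.rpow_sub_one hN.ne', h3]
  simp only [Xi]
  field_simp


/-- The atoms of a weighted jet at the level of numbers. -/
def watomsOf (U V : Fin n → Fin n → ℝ) (X Y Z : Fin n → ℝ) (s t : ℝ) : WAtoms :=
  { toAtoms := atomsOf U V X Y s t, tx := dot X Z, ty := dot Y Z, w := dot Z Z }

theorem watomsOf_realizable {U V : Fin n → Fin n → ℝ} {X Y Z : Fin n → ℝ} {s t : ℝ}
    (hn : (n : ℝ) ≠ 0) (hU : ∀ i j, U i j = U j i)
    (hV : ∀ i j, V i j = V j i) (tU : ∑ i, U i i = 0) (tV : ∑ i, V i i = 0)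
    (hs : 0 < s) (ht : 0 < t) : WAtoms.Realizable n (watomsOf U V X Y Z s t) where
  base := atomsOf_realizable hn hU hV tU tV hs ht
  w_nonneg := dot_nonneg Z
  form3 := by
    intro l1 l2 l3
    have h1 : 0 ≤ ∑ i, (l1 * X i + l2 * Y i + l3 * Z i) * (l1 * X i + l2 * Y i + l3 * Z i) :=
      Finset.sum_nonneg (fun _ _ => mul_self_nonneg _)
    have h2 : ∑ i, (l1 * X i + l2 * Y i + l3 * Z i) * (l1 * X i + l2 * Y i + l3 * Z i)
        = l1 ^ 2 * dot X X + l2 ^ 2 * dot Y Y + l3 ^ 2 * dot Z Z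
          + 2 * l1 * l2 * dot X Y + 2 * l1 * l3 * dot X Z + 2 * l2 * l3 * dot Y Z := by
      simp only [dot, Finset.mul_sum, ← Finset.sum_add_distrib]
      refine Finset.sum_congr rfl (fun i _ => ?_)
      ring
    rw [h2] at h1
    exact h1

/-- Abstract data of a weighted jet at a point. -/
structure JetW (W S T : Eu n → ℝ) (X Y : Fin n → Eu n → ℝ) (U V : Fin n → Fin n → ℝ)
    (a b p q A B : ℝ) (x : Eu n) : Prop where
  hx : x ≠ 0
  hn : (n : ℝ) ≠ 0
  hW : HG W (fun i => W x * (a * X i x + b * Y i x)) x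
  spX : Sp X U (S x / n) x
  spY : Sp Y V (T x / n) x
  hS : HG S (fun j => S x * (1 * (p * Y j x + A * Xi j x) - X j x)) x
  hT : HG T (fun j => T x * (1 * (q * X j x + B * Xi j x) - Y j x)) x
  Usymm : ∀ i j, U i j = U j i
  Vsymm : ∀ i j, V i j = V j i
  trU : ∑ i, U i i = 0
  trV : ∑ i, V i i = 0

theorem dot_comb (c d : ℝ) (P R S : Fin n → ℝ) :
    dot (fun j => c * P j + d * R j) S = c * dot P S + d * dot R S := by
  simp only [dot, Finset.mul_sum, ← Finset.sum_add_distrib]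
  exact Finset.sum_congr rfl fun i _ => by ring

section classical

variable {W S T : Eu n → ℝ} {X Y : Fin n → Eu n → ℝ} {U V : Fin n → Fin n → ℝ}
  {a b p q A B : ℝ} {x : Eu n}

/-- The atoms of the abstract jet. -/
def JetW.at (_ : JetW W S T X Y U V a b p q A B x) : WAtoms :=
  watomsOf U V (fun i => X i x) (fun i => Y i x) (fun i => Xi i x) (S x) (T x)

theorem BB_rank (P R S' : Fin n → ℝ) :
    BB (fun i j => - (P i * P j)) R S' = - (dot P R * dot P S') := by
  simp only [dot, BB]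
  rw [Finset.sum_mul_sum, ← Finset.sum_neg_distrib]
  refine Finset.sum_congr rfl fun i _ => ?_
  rw [← Finset.sum_neg_distrib]
  refine Finset.sum_congr rfl fun j _ => ?_
  ring

theorem tr_rank (P : Fin n → ℝ) : ∑ i, (- (P i * P i)) = - dot P P := by
  simp only [dot, Finset.sum_neg_distrib]

theorem JetW.d4 (h : JetW W S T X Y U V a b p q A B x) :
    ∑ i, pd i (fun y => W y * Fz X X X i y) x = W x * WAtoms.D n p q a b A B h.at 4 := by
  have hD : WAtoms.D n p q a b A B h.at 4 = 2 * (BB U (fun i => X i x) (fun i => X i x)) + (a - 3) * (dot (fun i => X i x) (fun i => X i x)) ^ 2 + b * ((dot (fun i => X i x) (fun i => X i x)) * (dot (fun i => X i x) (fun i => Y i x))) - (1 + 2 / (n:ℝ)) * ((S x) * (dot (fun i => X i x) (fun i => X i x))) := rfl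
  have d := D_zzS (X1 := (fun i => X i x)) (X2 := (fun i => Y i x)) h.hW h.spX h.spX h.spX
  have nc1 : (n : ℝ) * (S x / n) = S x := by have := h.hn; field_simp
  have nc2 : (n : ℝ) * (T x / n) = T x := by have := h.hn; field_simp
  have dz := dot_comm (fun i => X i x) (fun i => Y i x)
  have dzx := dot_comm (fun i => X i x) (fun i => Xi i x)
  have dzy := dot_comm (fun i => Y i x) (fun i => Xi i x)
  have bU := BB_symm h.Usymm (fun i => X i x) (fun i => Y i x)
  have bV := BB_symm h.Vsymm (fun i => X i x) (fun i => Y i x)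
  rw [d, hD]
  simp only [h.trU, h.trV, nc1, nc2, bU.symm, bV.symm, dz.symm, dzx.symm, dzy.symm, dot_comb, BB_rank, tr_rank]
  ring

theorem JetW.d5 (h : JetW W S T X Y U V a b p q A B x) :
    ∑ i, pd i (fun y => W y * Fz X X Y i y) x = W x * WAtoms.D n p q a b A B h.at 5 := by
  have hD : WAtoms.D n p q a b A B h.at 5 = 2 * (BB U (fun i => X i x) (fun i => Y i x)) + (a - 2) * ((dot (fun i => X i x) (fun i => X i x)) * (dot (fun i => X i x) (fun i => Y i x))) + (b - 1) * ((dot (fun i => X i x) (fun i => X i x)) * (dot (fun i => Y i x) (fun i => Y i x))) - (2 / (n:ℝ)) * ((S x) * (dot (fun i => X i x) (fun i => Y i x))) - (T x) * (dot (fun i => X i x) (fun i => X i x)) := rfl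
  have d := D_zzS (X1 := (fun i => X i x)) (X2 := (fun i => Y i x)) h.hW h.spX h.spX h.spY
  have nc1 : (n : ℝ) * (S x / n) = S x := by have := h.hn; field_simp
  have nc2 : (n : ℝ) * (T x / n) = T x := by have := h.hn; field_simp
  have dz := dot_comm (fun i => X i x) (fun i => Y i x)
  have dzx := dot_comm (fun i => X i x) (fun i => Xi i x)
  have dzy := dot_comm (fun i => Y i x) (fun i => Xi i x)
  have bU := BB_symm h.Usymm (fun i => X i x) (fun i => Y i x)
  have bV := BB_symm h.Vsymm (fun i => X i x) (fun i => Y i x)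
  rw [d, hD]
  simp only [h.trU, h.trV, nc1, nc2, bU.symm, bV.symm, dz.symm, dzx.symm, dzy.symm, dot_comb, BB_rank, tr_rank]
  ring

theorem JetW.d6 (h : JetW W S T X Y U V a b p q A B x) :
    ∑ i, pd i (fun y => W y * Fz X Y X i y) x = W x * WAtoms.D n p q a b A B h.at 6 := by
  have hD : WAtoms.D n p q a b A B h.at 6 = (BB U (fun i => X i x) (fun i => Y i x)) + (BB V (fun i => X i x) (fun i => X i x)) + (a - 2) * ((dot (fun i => X i x) (fun i => X i x)) * (dot (fun i => X i x) (fun i => Y i x))) + (b - 1) * (dot (fun i => X i x) (fun i => Y i x)) ^ 2 - (1 + 1 / (n:ℝ)) * ((S x) * (dot (fun i => X i x) (fun i => Y i x))) - (1 / (n:ℝ)) * ((T x) * (dot (fun i => X i x) (fun i => X i x))) := rfl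
  have d := D_zzS (X1 := (fun i => X i x)) (X2 := (fun i => Y i x)) h.hW h.spX h.spY h.spX
  have nc1 : (n : ℝ) * (S x / n) = S x := by have := h.hn; field_simp
  have nc2 : (n : ℝ) * (T x / n) = T x := by have := h.hn; field_simp
  have dz := dot_comm (fun i => X i x) (fun i => Y i x)
  have dzx := dot_comm (fun i => X i x) (fun i => Xi i x)
  have dzy := dot_comm (fun i => Y i x) (fun i => Xi i x)
  have bU := BB_symm h.Usymm (fun i => X i x) (fun i => Y i x)
  have bV := BB_symm h.Vsymm (fun i => X i x) (fun i => Y i x)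
  rw [d, hD]
  simp only [h.trU, h.trV, nc1, nc2, bU.symm, bV.symm, dz.symm, dzx.symm, dzy.symm, dot_comb, BB_rank, tr_rank]
  ring

theorem JetW.d7 (h : JetW W S T X Y U V a b p q A B x) :
    ∑ i, pd i (fun y => W y * Fz X Y Y i y) x = W x * WAtoms.D n p q a b A B h.at 7 := by
  have hD : WAtoms.D n p q a b A B h.at 7 = (BB V (fun i => X i x) (fun i => Y i x)) + (BB U (fun i => Y i x) (fun i => Y i x)) + (b - 2) * ((dot (fun i => Y i x) (fun i => Y i x)) * (dot (fun i => X i x) (fun i => Y i x))) + (a - 1) * (dot (fun i => X i x) (fun i => Y i x)) ^ 2 - (1 + 1 / (n:ℝ)) * ((T x) * (dot (fun i => X i x) (fun i => Y i x))) - (1 / (n:ℝ)) * ((S x) * (dot (fun i => Y i x) (fun i => Y i x))) := rfl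
  have d := D_zzS (X1 := (fun i => X i x)) (X2 := (fun i => Y i x)) h.hW h.spX h.spY h.spY
  have nc1 : (n : ℝ) * (S x / n) = S x := by have := h.hn; field_simp
  have nc2 : (n : ℝ) * (T x / n) = T x := by have := h.hn; field_simp
  have dz := dot_comm (fun i => X i x) (fun i => Y i x)
  have dzx := dot_comm (fun i => X i x) (fun i => Xi i x)
  have dzy := dot_comm (fun i => Y i x) (fun i => Xi i x)
  have bU := BB_symm h.Usymm (fun i => X i x) (fun i => Y i x)
  have bV := BB_symm h.Vsymm (fun i => X i x) (fun i => Y i x)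
  rw [d, hD]
  simp only [h.trU, h.trV, nc1, nc2, bU.symm, bV.symm, dz.symm, dzx.symm, dzy.symm, dot_comb, BB_rank, tr_rank]
  ring

theorem JetW.d8 (h : JetW W S T X Y U V a b p q A B x) :
    ∑ i, pd i (fun y => W y * Fz Y Y X i y) x = W x * WAtoms.D n p q a b A B h.at 8 := by
  have hD : WAtoms.D n p q a b A B h.at 8 = 2 * (BB V (fun i => X i x) (fun i => Y i x)) + (b - 2) * ((dot (fun i => Y i x) (fun i => Y i x)) * (dot (fun i => X i x) (fun i => Y i x))) + (a - 1) * ((dot (fun i => X i x) (fun i => X i x)) * (dot (fun i => Y i x) (fun i => Y i x))) - (2 / (n:ℝ)) * ((T x) * (dot (fun i => X i x) (fun i => Y i x))) - (S x) * (dot (fun i => Y i x) (fun i => Y i x)) := rfl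
  have d := D_zzS (X1 := (fun i => X i x)) (X2 := (fun i => Y i x)) h.hW h.spY h.spY h.spX
  have nc1 : (n : ℝ) * (S x / n) = S x := by have := h.hn; field_simp
  have nc2 : (n : ℝ) * (T x / n) = T x := by have := h.hn; field_simp
  have dz := dot_comm (fun i => X i x) (fun i => Y i x)
  have dzx := dot_comm (fun i => X i x) (fun i => Xi i x)
  have dzy := dot_comm (fun i => Y i x) (fun i => Xi i x)
  have bU := BB_symm h.Usymm (fun i => X i x) (fun i => Y i x)
  have bV := BB_symm h.Vsymm (fun i => X i x) (fun i => Y i x)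
  rw [d, hD]
  simp only [h.trU, h.trV, nc1, nc2, bU.symm, bV.symm, dz.symm, dzx.symm, dzy.symm, dot_comb, BB_rank, tr_rank]
  ring

theorem JetW.d9 (h : JetW W S T X Y U V a b p q A B x) :
    ∑ i, pd i (fun y => W y * Fz Y Y Y i y) x = W x * WAtoms.D n p q a b A B h.at 9 := by
  have hD : WAtoms.D n p q a b A B h.at 9 = 2 * (BB V (fun i => Y i x) (fun i => Y i x)) + (b - 3) * (dot (fun i => Y i x) (fun i => Y i x)) ^ 2 + a * ((dot (fun i => Y i x) (fun i => Y i x)) * (dot (fun i => X i x) (fun i => Y i x))) - (1 + 2 / (n:ℝ)) * ((T x) * (dot (fun i => Y i x) (fun i => Y i x))) := rfl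
  have d := D_zzS (X1 := (fun i => X i x)) (X2 := (fun i => Y i x)) h.hW h.spY h.spY h.spY
  have nc1 : (n : ℝ) * (S x / n) = S x := by have := h.hn; field_simp
  have nc2 : (n : ℝ) * (T x / n) = T x := by have := h.hn; field_simp
  have dz := dot_comm (fun i => X i x) (fun i => Y i x)
  have dzx := dot_comm (fun i => X i x) (fun i => Xi i x)
  have dzy := dot_comm (fun i => Y i x) (fun i => Xi i x)
  have bU := BB_symm h.Usymm (fun i => X i x) (fun i => Y i x)
  have bV := BB_symm h.Vsymm (fun i => X i x) (fun i => Y i x)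
  rw [d, hD]
  simp only [h.trU, h.trV, nc1, nc2, bU.symm, bV.symm, dz.symm, dzx.symm, dzy.symm, dot_comb, BB_rank, tr_rank]
  ring

theorem JetW.d10 (h : JetW W S T X Y U V a b p q A B x) :
    ∑ i, pd i (fun y => W y * Fs S X i y) x = W x * WAtoms.D n p q a b A B h.at 10 := by
  have hD : WAtoms.D n p q a b A B h.at 10 = (a - 2) * ((S x) * (dot (fun i => X i x) (fun i => X i x))) + (b + p) * ((S x) * (dot (fun i => X i x) (fun i => Y i x))) - (S x) ^ 2 + A * ((S x) * (dot (fun i => X i x) (fun i => Xi i x))) := rfl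
  have d := D_fS (X1 := (fun i => X i x)) (X2 := (fun i => Y i x)) (g := 1) (E1 := fun j => p * Y j x + A * Xi j x) (E2 := (fun i => X i x)) h.hW h.hS h.spX
  have nc1 : (n : ℝ) * (S x / n) = S x := by have := h.hn; field_simp
  have nc2 : (n : ℝ) * (T x / n) = T x := by have := h.hn; field_simp
  have dz := dot_comm (fun i => X i x) (fun i => Y i x)
  have dzx := dot_comm (fun i => X i x) (fun i => Xi i x)
  have dzy := dot_comm (fun i => Y i x) (fun i => Xi i x)
  have bU := BB_symm h.Usymm (fun i => X i x) (fun i => Y i x)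
  have bV := BB_symm h.Vsymm (fun i => X i x) (fun i => Y i x)
  rw [d, hD]
  simp only [h.trU, h.trV, nc1, nc2, bU.symm, bV.symm, dz.symm, dzx.symm, dzy.symm, dot_comb, BB_rank, tr_rank]
  ring

theorem JetW.d11 (h : JetW W S T X Y U V a b p q A B x) :
    ∑ i, pd i (fun y => W y * Fs S Y i y) x = W x * WAtoms.D n p q a b A B h.at 11 := by
  have hD : WAtoms.D n p q a b A B h.at 11 = (a - 1) * ((S x) * (dot (fun i => X i x) (fun i => Y i x))) + (b + p - 1) * ((S x) * (dot (fun i => Y i x) (fun i => Y i x))) - (S x) * (T x) + A * ((S x) * (dot (fun i => Y i x) (fun i => Xi i x))) := rfl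
  have d := D_fS (X1 := (fun i => X i x)) (X2 := (fun i => Y i x)) (g := 1) (E1 := fun j => p * Y j x + A * Xi j x) (E2 := (fun i => X i x)) h.hW h.hS h.spY
  have nc1 : (n : ℝ) * (S x / n) = S x := by have := h.hn; field_simp
  have nc2 : (n : ℝ) * (T x / n) = T x := by have := h.hn; field_simp
  have dz := dot_comm (fun i => X i x) (fun i => Y i x)
  have dzx := dot_comm (fun i => X i x) (fun i => Xi i x)
  have dzy := dot_comm (fun i => Y i x) (fun i => Xi i x)
  have bU := BB_symm h.Usymm (fun i => X i x) (fun i => Y i x)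
  have bV := BB_symm h.Vsymm (fun i => X i x) (fun i => Y i x)
  rw [d, hD]
  simp only [h.trU, h.trV, nc1, nc2, bU.symm, bV.symm, dz.symm, dzx.symm, dzy.symm, dot_comb, BB_rank, tr_rank]
  ring

theorem JetW.d12 (h : JetW W S T X Y U V a b p q A B x) :
    ∑ i, pd i (fun y => W y * Fs T X i y) x = W x * WAtoms.D n p q a b A B h.at 12 := by
  have hD : WAtoms.D n p q a b A B h.at 12 = (b - 1) * ((T x) * (dot (fun i => X i x) (fun i => Y i x))) + (a + q - 1) * ((T x) * (dot (fun i => X i x) (fun i => X i x))) - (S x) * (T x) + B * ((T x) * (dot (fun i => X i x) (fun i => Xi i x))) := rfl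
  have d := D_fS (X1 := (fun i => X i x)) (X2 := (fun i => Y i x)) (g := 1) (E1 := fun j => q * X j x + B * Xi j x) (E2 := (fun i => Y i x)) h.hW h.hT h.spX
  have nc1 : (n : ℝ) * (S x / n) = S x := by have := h.hn; field_simp
  have nc2 : (n : ℝ) * (T x / n) = T x := by have := h.hn; field_simp
  have dz := dot_comm (fun i => X i x) (fun i => Y i x)
  have dzx := dot_comm (fun i => X i x) (fun i => Xi i x)
  have dzy := dot_comm (fun i => Y i x) (fun i => Xi i x)
  have bU := BB_symm h.Usymm (fun i => X i x) (fun i => Y i x)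
  have bV := BB_symm h.Vsymm (fun i => X i x) (fun i => Y i x)
  rw [d, hD]
  simp only [h.trU, h.trV, nc1, nc2, bU.symm, bV.symm, dz.symm, dzx.symm, dzy.symm, dot_comb, BB_rank, tr_rank]
  ring

theorem JetW.d13 (h : JetW W S T X Y U V a b p q A B x) :
    ∑ i, pd i (fun y => W y * Fs T Y i y) x = W x * WAtoms.D n p q a b A B h.at 13 := by
  have hD : WAtoms.D n p q a b A B h.at 13 = (b - 2) * ((T x) * (dot (fun i => Y i x) (fun i => Y i x))) + (a + q) * ((T x) * (dot (fun i => X i x) (fun i => Y i x))) - (T x) ^ 2 + B * ((T x) * (dot (fun i => Y i x) (fun i => Xi i x))) := rfl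
  have d := D_fS (X1 := (fun i => X i x)) (X2 := (fun i => Y i x)) (g := 1) (E1 := fun j => q * X j x + B * Xi j x) (E2 := (fun i => Y i x)) h.hW h.hT h.spY
  have nc1 : (n : ℝ) * (S x / n) = S x := by have := h.hn; field_simp
  have nc2 : (n : ℝ) * (T x / n) = T x := by have := h.hn; field_simp
  have dz := dot_comm (fun i => X i x) (fun i => Y i x)
  have dzx := dot_comm (fun i => X i x) (fun i => Xi i x)
  have dzy := dot_comm (fun i => Y i x) (fun i => Xi i x)
  have bU := BB_symm h.Usymm (fun i => X i x) (fun i => Y i x)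
  have bV := BB_symm h.Vsymm (fun i => X i x) (fun i => Y i x)
  rw [d, hD]
  simp only [h.trU, h.trV, nc1, nc2, bU.symm, bV.symm, dz.symm, dzx.symm, dzy.symm, dot_comb, BB_rank, tr_rank]
  ring

theorem JetW.d14 (h : JetW W S T X Y U V a b p q A B x) :
    ∑ i, pd i (fun y => W y * Fs S Xi i y) x = W x * WAtoms.D n p q a b A B h.at 14 := by
  have hD : WAtoms.D n p q a b A B h.at 14 = (S x) * ((a - 1) * (dot (fun i => X i x) (fun i => Xi i x)) + (b + p) * (dot (fun i => Y i x) (fun i => Xi i x)) + (A + n - 2) * (dot (fun i => Xi i x) (fun i => Xi i x))) := rfl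
  have d := D_fS (X1 := (fun i => X i x)) (X2 := (fun i => Y i x)) (g := 1) (E1 := fun j => p * Y j x + A * Xi j x) (E2 := (fun i => X i x)) h.hW h.hS (sp_Xi x h.hx)
  have nc1 : (n : ℝ) * (S x / n) = S x := by have := h.hn; field_simp
  have nc2 : (n : ℝ) * (T x / n) = T x := by have := h.hn; field_simp
  have dz := dot_comm (fun i => X i x) (fun i => Y i x)
  have dzx := dot_comm (fun i => X i x) (fun i => Xi i x)
  have dzy := dot_comm (fun i => Y i x) (fun i => Xi i x)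
  have bU := BB_symm h.Usymm (fun i => X i x) (fun i => Y i x)
  have bV := BB_symm h.Vsymm (fun i => X i x) (fun i => Y i x)
  rw [d, hD]
  simp only [h.trU, h.trV, nc1, nc2, bU.symm, bV.symm, dz.symm, dzx.symm, dzy.symm, dot_comb, BB_rank, tr_rank]
  ring

theorem JetW.d15 (h : JetW W S T X Y U V a b p q A B x) :
    ∑ i, pd i (fun y => W y * Fs T Xi i y) x = W x * WAtoms.D n p q a b A B h.at 15 := by
  have hD : WAtoms.D n p q a b A B h.at 15 = (T x) * ((a + q) * (dot (fun i => X i x) (fun i => Xi i x)) + (b - 1) * (dot (fun i => Y i x) (fun i => Xi i x)) + (B + n - 2) * (dot (fun i => Xi i x) (fun i => Xi i x))) := rfl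
  have d := D_fS (X1 := (fun i => X i x)) (X2 := (fun i => Y i x)) (g := 1) (E1 := fun j => q * X j x + B * Xi j x) (E2 := (fun i => Y i x)) h.hW h.hT (sp_Xi x h.hx)
  have nc1 : (n : ℝ) * (S x / n) = S x := by have := h.hn; field_simp
  have nc2 : (n : ℝ) * (T x / n) = T x := by have := h.hn; field_simp
  have dz := dot_comm (fun i => X i x) (fun i => Y i x)
  have dzx := dot_comm (fun i => X i x) (fun i => Xi i x)
  have dzy := dot_comm (fun i => Y i x) (fun i => Xi i x)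
  have bU := BB_symm h.Usymm (fun i => X i x) (fun i => Y i x)
  have bV := BB_symm h.Vsymm (fun i => X i x) (fun i => Y i x)
  rw [d, hD]
  simp only [h.trU, h.trV, nc1, nc2, bU.symm, bV.symm, dz.symm, dzx.symm, dzy.symm, dot_comb, BB_rank, tr_rank]
  ring

theorem JetW.d16 (h : JetW W S T X Y U V a b p q A B x) :
    ∑ i, pd i (fun y => W y * Fz Xi Xi Xi i y) x = W x * WAtoms.D n p q a b A B h.at 16 := by
  have hD : WAtoms.D n p q a b A B h.at 16 = (dot (fun i => Xi i x) (fun i => Xi i x)) * (a * (dot (fun i => X i x) (fun i => Xi i x)) + b * (dot (fun i => Y i x) (fun i => Xi i x))) + (n - 4) * (dot (fun i => Xi i x) (fun i => Xi i x)) ^ 2 := rfl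
  have d := D_zzS (X1 := (fun i => X i x)) (X2 := (fun i => Y i x)) h.hW (sp_Xi x h.hx) (sp_Xi x h.hx) (sp_Xi x h.hx)
  have nc1 : (n : ℝ) * (S x / n) = S x := by have := h.hn; field_simp
  have nc2 : (n : ℝ) * (T x / n) = T x := by have := h.hn; field_simp
  have dz := dot_comm (fun i => X i x) (fun i => Y i x)
  have dzx := dot_comm (fun i => X i x) (fun i => Xi i x)
  have dzy := dot_comm (fun i => Y i x) (fun i => Xi i x)
  have bU := BB_symm h.Usymm (fun i => X i x) (fun i => Y i x)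
  have bV := BB_symm h.Vsymm (fun i => X i x) (fun i => Y i x)
  rw [d, hD]
  simp only [h.trU, h.trV, nc1, nc2, bU.symm, bV.symm, dz.symm, dzx.symm, dzy.symm, dot_comb, BB_rank, tr_rank]
  ring

end classical


/-- The weighted source `|y|^A v^p`. -/
def Sr (A p : ℝ) (v : Eu n → ℝ) (y : Eu n) : ℝ := ‖y‖ ^ A * v y ^ p

/-- Local hypotheses for the weighted system at `x ≠ 0`. -/
structure LocW (u v : Eu n → ℝ) (A B p q : ℝ) (x : Eu n) : Prop where
  cu : ContDiffAt ℝ 2 u x
  cv : ContDiffAt ℝ 2 v x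
  upos : 0 < u x
  vpos : 0 < v x
  hx : x ≠ 0
  pdeU : ∑ i, Hf u i i x = - Sr A p v x
  pdeV : ∑ i, Hf v i i x = - Sr B q u x
  hn : (n : ℝ) ≠ 0

section locw

variable {u v : Eu n → ℝ} {A B p q : ℝ} {x : Eu n}

theorem LocW.swap (h : LocW u v A B p q x) : LocW v u B A q p x :=
  ⟨h.cv, h.cu, h.vpos, h.upos, h.hx, h.pdeV, h.pdeU, h.hn⟩

theorem LocW.hg_u (h : LocW u v A B p q x) : HG u (fun j => pd j u x) x :=
  HG.of_diff (h.cu.differentiableAt (by norm_num))

theorem LocW.hg_pd (h : LocW u v A B p q x) (i : Fin n) : HG (pd i u) (fun j => Hf u i j x) x :=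
  ⟨(cd_pd (k := 1) h.cu i).differentiableAt (by norm_num), fun _ => rfl⟩

theorem LocW.H_symm (h : LocW u v A B p q x) (i j : Fin n) : Hf u i j x = Hf u j i x :=
  pd_symm h.cu i j

theorem LocW.hg_X (h : LocW u v A B p q x) (i : Fin n) :
    HG (Xf u i) (fun j => Ug u (Sr A p v) i j x - dl i j * (Sr A p v x / u x / n)
      - Xf u i x * Xf u j x) x := by
  have h1 := (h.hg_pd i).div h.hg_u h.upos.ne'
  refine HG.congr_g h1 (fun j => ?_)
  have hu := h.upos.ne'
  simp only [Xf, Ug]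
  field_simp
  ring

theorem LocW.hg_Sr (h : LocW u v A B p q x) :
    HG (Sr A p v) (fun j => Sr A p v x * (p * Xf v j x + A * Xi j x)) x := by
  have hv : HG v (fun j => pd j v x) x := h.swap.hg_u
  have h1 := (hg_normpow x h.hx A).mul (hv.rpow h.vpos p)
  refine HG.congr_g h1 (fun j => ?_)
  have hv0 := h.vpos.ne'
  simp only [Xf, Sr]
  rw [Real.rpow_sub_one hv0]
  field_simp
  ring

theorem LocW.hg_S (h : LocW u v A B p q x) :
    HG (fun y => Sr A p v y / u y)
      (fun j => (Sr A p v x / u x) * (1 * (p * Xf v j x + A * Xi j x) - Xf u j x)) x := by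
  have h1 := h.hg_Sr.div h.hg_u h.upos.ne'
  refine HG.congr_g h1 (fun j => ?_)
  have hu0 := h.upos.ne'
  simp only [Xf]
  field_simp

theorem LocW.hg_W (h : LocW u v A B p q x) (a b : ℝ) :
    HG (Wf u v a b) (fun j => Wf u v a b x * (a * Xf u j x + b * Xf v j x)) x := by
  have hv : HG v (fun j => pd j v x) x := h.swap.hg_u
  have h1 := (h.hg_u.rpow h.upos a).mul (hv.rpow h.vpos b)
  refine HG.congr_g h1 (fun j => ?_)
  have hu0 := h.upos.ne'
  have hv0 := h.vpos.ne'
  simp only [Xf, Wf]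
  rw [Real.rpow_sub_one hv0, Real.rpow_sub_one hu0]
  field_simp

theorem LocW.trU (h : LocW u v A B p q x) : ∑ i, Ug u (Sr A p v) i i x = 0 := by
  have h1 := h.pdeU
  have hu0 := h.upos.ne'
  have hn := h.hn
  simp only [Ug, dl, if_true, one_mul, Finset.sum_add_distrib, ← Finset.sum_div, h1]
  simp only [Finset.sum_const, Finset.card_univ, Fintype.card_fin, nsmul_eq_mul]
  field_simp
  ring

theorem LocW.U_symm (h : LocW u v A B p q x) (i j : Fin n) :
    Ug u (Sr A p v) i j x = Ug u (Sr A p v) j i x := by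
  simp only [Ug, h.H_symm i j, dl, eq_comm]

/-- The abstract jet of a solution of the weighted system. -/
theorem LocW.jet (h : LocW u v A B p q x) (a b : ℝ) :
    JetW (Wf u v a b) (fun y => Sr A p v y / u y) (fun y => Sr B q u y / v y) (Xf u) (Xf v)
      (fun i j => Ug u (Sr A p v) i j x) (fun i j => Ug v (Sr B q u) i j x) a b p q A B x where
  hx := h.hx
  hn := h.hn
  hW := h.hg_W a b
  spX := ⟨fun k => h.hg_X k⟩
  spY := ⟨fun k => h.swap.hg_X k⟩
  hS := h.hg_S
  hT := h.swap.hg_S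
  Usymm := h.U_symm
  Vsymm := h.swap.U_symm
  trU := h.trU
  trV := h.swap.trU

/-- The weighted atoms of `(u,v)` at `x`. -/
def watAt (u v : Eu n → ℝ) (A B p q : ℝ) (x : Eu n) : WAtoms :=
  watomsOf (fun i j => Ug u (Sr A p v) i j x) (fun i j => Ug v (Sr B q u) i j x)
    (fun i => Xf u i x) (fun i => Xf v i x) (fun i => Xi i x)
    (Sr A p v x / u x) (Sr B q u x / v x)

theorem contr_sym {U : Fin n → Fin n → ℝ} (hU : ∀ i j, U i j = U j i) (M : Fin n → Fin n → ℝ) :
    ∑ i, ∑ j, U i j * M j i = ip U M := by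
  simp only [ip]
  rw [Finset.sum_comm]
  refine Finset.sum_congr rfl fun i _ => Finset.sum_congr rfl fun j _ => ?_
  rw [hU j i]

theorem dot_comb' (c d e : ℝ) (P R S : Fin n → ℝ) :
    ∑ l, (e * (c * P l + d * R l)) * S l = e * (c * dot P S + d * dot R S) := by
  simp only [dot, Finset.mul_sum, ← Finset.sum_add_distrib]
  exact Finset.sum_congr rfl fun i _ => by ring

/-- The formal divergence of `W U0 Z` at a point of a solution. -/
theorem formal_UZw (h : LocW u v A B p q x) (a b : ℝ)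
    {Z : Fin n → Eu n → ℝ} {M : Fin n → Fin n → ℝ} {c : ℝ} (hZ : Sp Z M c x) :
    FormalUg u v (Sr A p v) a b Z x =
      Wf u v a b x * ((a - 1) * BB (fun i j => Ug u (Sr A p v) i j x) (Xv u x) (fun l => Z l x)
        + b * BB (fun i j => Ug u (Sr A p v) i j x) (Xv v x) (fun l => Z l x)
        - (1 - 1 / (n : ℝ)) * ((Sr A p v x / u x) *
            (p * dot (Xv v x) (fun l => Z l x) + A * dot (fun i => Xi i x) (fun l => Z l x)))
        + (ip (fun i j => Ug u (Sr A p v) i j x) M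
            - BB (fun i j => Ug u (Sr A p v) i j x) (fun l => Z l x) (fun l => Z l x))) := by
  have h1 : ∑ i, ∑ l, Ug u (Sr A p v) i l x * pd i (Z l) x =
      ip (fun i j => Ug u (Sr A p v) i j x) M
        - BB (fun i j => Ug u (Sr A p v) i j x) (fun l => Z l x) (fun l => Z l x) := by
    have h2 := contr_A (fun i j => Ug u (Sr A p v) i j x) M c (fun i => Z i x)
    have h3 : ∀ i l, pd i (Z l) x = M l i - dl l i * c - Z l x * Z i x := fun i l =>
      (hZ.grad l).2 i
    simp only [h3]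
    rw [h2, h.trU, contr_sym h.U_symm]
    ring
  have h2 : ∑ l, pd l (Sr A p v) x / u x * Z l x = (Sr A p v x / u x) *
      (p * dot (Xv v x) (fun l => Z l x) + A * dot (fun i => Xi i x) (fun l => Z l x)) := by
    rw [← dot_comb']
    refine Finset.sum_congr rfl fun l _ => ?_
    rw [h.hg_Sr.2 l]
    simp only [Xv]
    ring
  simp only [FormalUg]
  rw [h1, h2]


theorem formal_w0 (h : LocW u v A B p q x) (a b : ℝ) :
    FormalUg u v (Sr A p v) a b (Xf u) x =
      Wf u v a b x * WAtoms.D n p q a b A B (watAt u v A B p q x) 0 := by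
  have hJ := h.jet a b
  have hD : WAtoms.D n p q a b A B (watAt u v A B p q x) 0 =
      ip (fun i j => Ug u (Sr A p v) i j x) (fun i j => Ug u (Sr A p v) i j x)
        + (a - 2) * BB (fun i j => Ug u (Sr A p v) i j x) (Xv u x) (Xv u x)
        + b * BB (fun i j => Ug u (Sr A p v) i j x) (Xv u x) (Xv v x)
        - (1 - 1 / (n:ℝ)) * p * ((Sr A p v x / u x) * dot (Xv u x) (Xv v x))
        - (1 - 1 / (n:ℝ)) * A * ((Sr A p v x / u x) * dot (Xv u x) (fun i => Xi i x)) := rfl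
  have b1 := BB_symm hJ.Usymm (Xv u x) (Xv v x)
  have dz := dot_comm (Xv u x) (Xv v x)
  have dzx := dot_comm (Xv u x) (fun i => Xi i x)
  have hZ := formal_UZw h a b hJ.spX
  have hX : (fun l => Xf u l x) = Xv u x := rfl
  rw [hZ, hD]
  simp only [hX, b1.symm, dz.symm, dzx.symm]
  ring

theorem formal_w1 (h : LocW u v A B p q x) (a b : ℝ) :
    FormalUg u v (Sr A p v) a b (Xf v) x =
      Wf u v a b x * WAtoms.D n p q a b A B (watAt u v A B p q x) 1 := by
  have hJ := h.jet a b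
  have hD : WAtoms.D n p q a b A B (watAt u v A B p q x) 1 =
      ip (fun i j => Ug u (Sr A p v) i j x) (fun i j => Ug v (Sr B q u) i j x)
        + (a - 1) * BB (fun i j => Ug u (Sr A p v) i j x) (Xv u x) (Xv v x)
        + (b - 1) * BB (fun i j => Ug u (Sr A p v) i j x) (Xv v x) (Xv v x)
        - (1 - 1 / (n:ℝ)) * p * ((Sr A p v x / u x) * dot (Xv v x) (Xv v x))
        - (1 - 1 / (n:ℝ)) * A * ((Sr A p v x / u x) * dot (Xv v x) (fun i => Xi i x)) := rfl
  have dzx := dot_comm (Xv v x) (fun i => Xi i x)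
  have hZ := formal_UZw h a b hJ.spY
  have hX : (fun l => Xf v l x) = Xv v x := rfl
  rw [hZ, hD]
  simp only [hX, dzx.symm]
  ring

theorem formal_w2 (h : LocW u v A B p q x) (a b : ℝ) :
    FormalUg v u (Sr B q u) b a (Xf u) x =
      Wf u v a b x * WAtoms.D n p q a b A B (watAt u v A B p q x) 2 := by
  have hJ := h.jet a b
  have hD : WAtoms.D n p q a b A B (watAt u v A B p q x) 2 =
      ip (fun i j => Ug u (Sr A p v) i j x) (fun i j => Ug v (Sr B q u) i j x)
        + (b - 1) * BB (fun i j => Ug v (Sr B q u) i j x) (Xv u x) (Xv v x)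
        + (a - 1) * BB (fun i j => Ug v (Sr B q u) i j x) (Xv u x) (Xv u x)
        - (1 - 1 / (n:ℝ)) * q * ((Sr B q u x / v x) * dot (Xv u x) (Xv u x))
        - (1 - 1 / (n:ℝ)) * B * ((Sr B q u x / v x) * dot (Xv u x) (fun i => Xi i x)) := rfl
  have b1 := BB_symm hJ.Vsymm (Xv u x) (Xv v x)
  have dzx := dot_comm (Xv u x) (fun i => Xi i x)
  have hZ := formal_UZw h.swap b a hJ.spX
  have hX : (fun l => Xf u l x) = Xv u x := rfl
  have ipc := ip_comm (fun i j => Ug u (Sr A p v) i j x) (fun i j => Ug v (Sr B q u) i j x)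
  rw [hZ, hD, Wf_swap]
  simp only [hX, b1.symm, dzx.symm, ipc]
  ring

theorem formal_w3 (h : LocW u v A B p q x) (a b : ℝ) :
    FormalUg v u (Sr B q u) b a (Xf v) x =
      Wf u v a b x * WAtoms.D n p q a b A B (watAt u v A B p q x) 3 := by
  have hJ := h.jet a b
  have hD : WAtoms.D n p q a b A B (watAt u v A B p q x) 3 =
      ip (fun i j => Ug v (Sr B q u) i j x) (fun i j => Ug v (Sr B q u) i j x)
        + (b - 2) * BB (fun i j => Ug v (Sr B q u) i j x) (Xv v x) (Xv v x)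
        + a * BB (fun i j => Ug v (Sr B q u) i j x) (Xv u x) (Xv v x)
        - (1 - 1 / (n:ℝ)) * q * ((Sr B q u x / v x) * dot (Xv u x) (Xv v x))
        - (1 - 1 / (n:ℝ)) * B * ((Sr B q u x / v x) * dot (Xv v x) (fun i => Xi i x)) := rfl
  have b1 := BB_symm hJ.Vsymm (Xv u x) (Xv v x)
  have dz := dot_comm (Xv u x) (Xv v x)
  have dzx := dot_comm (Xv v x) (fun i => Xi i x)
  have hZ := formal_UZw h.swap b a hJ.spY
  have hX : (fun l => Xf v l x) = Xv v x := rfl
  rw [hZ, hD, Wf_swap]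
  simp only [hX, b1.symm, dz.symm, dzx.symm]
  ring

end locw

section regularity

variable {Ω : Set (Eu n)} {u v : Eu n → ℝ}

lemma contDiffOn_normpow (hΩ0 : ∀ x ∈ Ω, x ≠ 0) (A : ℝ) :
    ContDiffOn ℝ 1 (fun y : Eu n => ‖y‖ ^ A) Ω := fun x hx =>
  (((contDiffAt_norm ℝ (hΩ0 x hx)).rpow_const_of_ne (norm_ne_zero_iff.2 (hΩ0 x hx)))).contDiffWithinAt

lemma contDiffOn_Sr (hΩ0 : ∀ x ∈ Ω, x ≠ 0) (hv : ContDiffOn ℝ 2 v Ω) (hvpos : ∀ x ∈ Ω, 0 < v x)
    (A p : ℝ) : ContDiffOn ℝ 1 (Sr A p v) Ω :=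
  (contDiffOn_normpow hΩ0 A).mul
    ((hv.rpow_const_of_ne fun x hx => (hvpos x hx).ne').of_le (by norm_num))

lemma contDiffOn_Xi (hΩ0 : ∀ x ∈ Ω, x ≠ 0) (i : Fin n) : ContDiffOn ℝ 1 (Xi i) Ω := by
  refine ContDiffOn.div ?_ ?_ ?_
  · exact (EuclideanSpace.proj i : Eu n →L[ℝ] ℝ).contDiff.contDiffOn
  · exact (contDiff_norm_sq ℝ).contDiffOn
  · intro x hx
    exact pow_ne_zero _ (norm_ne_zero_iff.2 (hΩ0 x hx))

end regularity

/-- The 17 vector fields. -/
def WFlds (u v : Eu n → ℝ) (A B p q : ℝ) : Fin 17 → Fin n → Eu n → ℝ :=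
  ![FUg u (Sr A p v) (Xf u), FUg u (Sr A p v) (Xf v), FUg v (Sr B q u) (Xf u), FUg v (Sr B q u) (Xf v),
    Fz (Xf u) (Xf u) (Xf u), Fz (Xf u) (Xf u) (Xf v), Fz (Xf u) (Xf v) (Xf u),
    Fz (Xf u) (Xf v) (Xf v), Fz (Xf v) (Xf v) (Xf u), Fz (Xf v) (Xf v) (Xf v),
    Fs (fun y => Sr A p v y / u y) (Xf u), Fs (fun y => Sr A p v y / u y) (Xf v),
    Fs (fun y => Sr B q u y / v y) (Xf u), Fs (fun y => Sr B q u y / v y) (Xf v),
    Fs (fun y => Sr A p v y / u y) Xi, Fs (fun y => Sr B q u y / v y) Xi, Fz Xi Xi Xi]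

/-- The weak divergence of the 17 fields. -/
theorem weak_WFlds {Ω : Set (Eu n)} (hΩ : IsOpen Ω) (hΩ0 : ∀ x ∈ Ω, x ≠ 0)
    {u v : Eu n → ℝ} {A B p q : ℝ} (a b : ℝ)
    (hu : ContDiffOn ℝ 2 u Ω) (hv : ContDiffOn ℝ 2 v Ω)
    (hLoc : ∀ x ∈ Ω, LocW u v A B p q x)
    (hn : (n : ℝ) ≠ 0)
    {φ : Eu n → ℝ} (hφ : ContDiff ℝ 1 φ) (hφc : HasCompactSupport φ) (hφΩ : tsupport φ ⊆ Ω)
    (k : Fin 17) :
    ∑ i, ∫ x, pd i φ x * (Wf u v a b x * WFlds u v A B p q k i x) =
      - ∫ x, φ x * (Wf u v a b x * WAtoms.D n p q a b A B (watAt u v A B p q x) k) := by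
  have hupos : ∀ x ∈ Ω, 0 < u x := fun x hx => (hLoc x hx).upos
  have hvpos : ∀ x ∈ Ω, 0 < v x := fun x hx => (hLoc x hx).vpos
  have hX : ∀ i, ContDiffOn ℝ 1 (Xf u i) Ω := contDiffOn_Xf hΩ hu hupos
  have hY : ∀ i, ContDiffOn ℝ 1 (Xf v i) Ω := contDiffOn_Xf hΩ hv hvpos
  have hZ : ∀ i, ContDiffOn ℝ 1 (Xi (n := n) i) Ω := contDiffOn_Xi hΩ0
  have hfu : ContDiffOn ℝ 1 (Sr A p v) Ω := contDiffOn_Sr hΩ0 hv hvpos A p
  have hfv : ContDiffOn ℝ 1 (Sr B q u) Ω := contDiffOn_Sr hΩ0 hu hupos B q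
  have hS : ContDiffOn ℝ 1 (fun y => Sr A p v y / u y) Ω :=
    hfu.div (hu.of_le (by norm_num)) fun x hx => (hupos x hx).ne'
  have hT : ContDiffOn ℝ 1 (fun y => Sr B q u y / v y) Ω :=
    hfv.div (hv.of_le (by norm_num)) fun x hx => (hvpos x hx).ne'
  have hW : ContDiffOn ℝ 1 (Wf u v a b) Ω :=
    (contDiffOn_Wf hu hv hupos hvpos a b).of_le (by norm_num)
  have hcl : ∀ (F : Fin n → Eu n → ℝ) (hF : ∀ i, ContDiffOn ℝ 1 (F i) Ω) (D : Eu n → ℝ)
      (hD : ∀ x ∈ Ω, ∑ i, pd i (fun y => Wf u v a b y * F i y) x = Wf u v a b x * D x),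
      ∑ i, ∫ x, pd i φ x * (Wf u v a b x * F i x) = - ∫ x, φ x * (Wf u v a b x * D x) := by
    intro F hF D hD
    exact weak_classical hΩ (G := fun i y => Wf u v a b y * F i y) (fun i => hW.mul (hF i)) hD
      hφ hφc hφΩ
  have hU : ∀ (Z : Fin n → Eu n → ℝ) (hZ : ∀ l, ContDiffOn ℝ 1 (Z l) Ω),
      ∑ i, ∫ x, pd i φ x * (Wf u v a b x * FUg u (Sr A p v) Z i x) =
        - ∫ x, φ x * FormalUg u v (Sr A p v) a b Z x := fun Z hZ =>
    weak_FUg hΩ a b hu hv hfu hupos hvpos (fun x hx => (hLoc x hx).pdeU) hn hZ hφ hφc hφΩ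
  have hV : ∀ (Z : Fin n → Eu n → ℝ) (hZ : ∀ l, ContDiffOn ℝ 1 (Z l) Ω),
      ∑ i, ∫ x, pd i φ x * (Wf u v a b x * FUg v (Sr B q u) Z i x) =
        - ∫ x, φ x * FormalUg v u (Sr B q u) b a Z x := by
    intro Z hZ
    have h := weak_FUg hΩ b a hv hu hfv hvpos hupos (fun x hx => (hLoc x hx).pdeV) hn hZ hφ hφc hφΩ
    rwa [Wf_swap] at h
  have hcongr : ∀ (A B : Eu n → ℝ), (∀ x ∈ Ω, A x = B x) → ∫ x, φ x * A x = ∫ x, φ x * B x := by
    intro A B hAB
    refine integral_congr_ae (Eventually.of_forall fun x => ?_)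
    by_cases hx : x ∈ Ω
    · show φ x * A x = φ x * B x
      rw [hAB x hx]
    · have h0 : φ x = 0 := image_eq_zero_of_notMem_tsupport (fun h => hx (hφΩ h))
      show φ x * A x = φ x * B x
      simp [h0]
  fin_cases k
  · refine (hU (Xf u) hX).trans ?_
    congr 1
    exact hcongr _ _ fun x hx => formal_w0 (hLoc x hx) a b
  · refine (hU (Xf v) hY).trans ?_
    congr 1
    exact hcongr _ _ fun x hx => formal_w1 (hLoc x hx) a b
  · refine (hV (Xf u) hX).trans ?_
    congr 1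
    exact hcongr _ _ fun x hx => formal_w2 (hLoc x hx) a b
  · refine (hV (Xf v) hY).trans ?_
    congr 1
    exact hcongr _ _ fun x hx => formal_w3 (hLoc x hx) a b
  · exact hcl _ (contDiffOn_Fz hΩ hX hX hX) _ fun x hx => ((hLoc x hx).jet a b).d4
  · exact hcl _ (contDiffOn_Fz hΩ hX hX hY) _ fun x hx => ((hLoc x hx).jet a b).d5
  · exact hcl _ (contDiffOn_Fz hΩ hX hY hX) _ fun x hx => ((hLoc x hx).jet a b).d6
  · exact hcl _ (contDiffOn_Fz hΩ hX hY hY) _ fun x hx => ((hLoc x hx).jet a b).d7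
  · exact hcl _ (contDiffOn_Fz hΩ hY hY hX) _ fun x hx => ((hLoc x hx).jet a b).d8
  · exact hcl _ (contDiffOn_Fz hΩ hY hY hY) _ fun x hx => ((hLoc x hx).jet a b).d9
  · exact hcl _ (contDiffOn_Fs hS hX) _ fun x hx => ((hLoc x hx).jet a b).d10
  · exact hcl _ (contDiffOn_Fs hS hY) _ fun x hx => ((hLoc x hx).jet a b).d11
  · exact hcl _ (contDiffOn_Fs hT hX) _ fun x hx => ((hLoc x hx).jet a b).d12
  · exact hcl _ (contDiffOn_Fs hT hY) _ fun x hx => ((hLoc x hx).jet a b).d13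
  · exact hcl _ (contDiffOn_Fs hS hZ) _ fun x hx => ((hLoc x hx).jet a b).d14
  · exact hcl _ (contDiffOn_Fs hT hZ) _ fun x hx => ((hLoc x hx).jet a b).d15
  · exact hcl _ (contDiffOn_Fz hΩ hZ hZ hZ) _ fun x hx => ((hLoc x hx).jet a b).d16

end Vale.Agent.Lib.P100
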