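import Vale.Agent.Lib.P100.Defs

/-! Weak commutation of second derivatives: if `f` is `C¹` and `g` is `C¹` with compact support,
then `∫ (∂_b f)(∂_a g) = ∫ (∂_a f)(∂_b g)`. No third derivative of anything is needed. The proof uses
difference quotients of `g`, integration by parts, translation invariance and dominated convergence.
The local version only asks that `f` be `C¹` on an open set containing the support of `g`. -/

open MeasureTheory Filter Topology Set

namespace Vale.Agent.Lib.P100

variable {n : ℕ}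

/-- The sequence of step sizes `1/(k+1)`. -/
noncomputable def stepSeq (k : ℕ) : ℝ := 1 / ((k : ℝ) + 1)

lemma stepSeq_pos (k : ℕ) : 0 < stepSeq k := by unfold stepSeq; positivity

lemma stepSeq_le_one (k : ℕ) : stepSeq k ≤ 1 := by
  unfold stepSeq
  rw [div_le_one (by positivity)]
  have : (0 : ℝ) ≤ k := Nat.cast_nonneg k
  linarith

lemma stepSeq_tendsto : Tendsto stepSeq atTop (𝓝[≠] 0) := by
  have h0 : Tendsto stepSeq atTop (𝓝 0) := by
    unfold stepSeq
    exact tendsto_one_div_add_atTop_nhds_zero_nat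
  refine tendsto_nhdsWithin_iff.2 ⟨h0, ?_⟩
  exact Eventually.of_forall (fun k => (stepSeq_pos k).ne')

lemma dq_tendsto {f : Eu n → ℝ} {x : Eu n} (hf : DifferentiableAt ℝ f x) (v : Eu n) :
    Tendsto (fun k => (stepSeq k)⁻¹ * (f (x + stepSeq k • v) - f x)) atTop
      (𝓝 (fderiv ℝ f x v)) := by
  have h1 : HasDerivAt (fun t : ℝ => f (x + t • v)) (fderiv ℝ f x v) 0 := by
    have h2 : HasLineDerivAt ℝ f (fderiv ℝ f x v) x v := hf.hasFDerivAt.hasLineDerivAt v
    exact h2
  have h3 := hasDerivAt_iff_tendsto_slope_zero.1 h1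
  have h4 := h3.comp stepSeq_tendsto
  refine h4.congr (fun k => ?_)
  simp only [Function.comp, zero_add, zero_smul, add_zero, smul_eq_mul]

/-- Pointwise Lipschitz bound from a bound of the derivative on a convex set. -/
lemma dq_bound {f : Eu n → ℝ} {s : Set (Eu n)} (hs : Convex ℝ s) {C : ℝ}
    (hf : ∀ x ∈ s, DifferentiableAt ℝ f x) (hC : ∀ x ∈ s, ‖fderiv ℝ f x‖ ≤ C)
    {x y : Eu n} (hx : x ∈ s) (hy : y ∈ s) : |f y - f x| ≤ C * ‖y - x‖ := by
  have := hs.norm_image_sub_le_of_norm_fderiv_le hf hC hx hy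
  simpa [Real.norm_eq_abs] using this

/-- Weak commutation for globally `C¹` functions. -/
theorem weak_swap_global {f g : Eu n → ℝ} (hf : ContDiff ℝ 1 f) (hg : ContDiff ℝ 1 g)
    (hgc : HasCompactSupport g) (a b : Eu n) :
    ∫ x, fderiv ℝ f x b * fderiv ℝ g x a = ∫ x, fderiv ℝ f x a * fderiv ℝ g x b := by
  classical
  have hfd : Differentiable ℝ f := hf.differentiable (by norm_num)
  have hgd : Differentiable ℝ g := hg.differentiable (by norm_num)
  have hfc : Continuous f := hf.continuous
  have hgc' : Continuous g := hg.continuous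
  have hdf : Continuous (fderiv ℝ f) := hf.continuous_fderiv (by norm_num)
  have hdg : Continuous (fderiv ℝ g) := hg.continuous_fderiv (by norm_num)
  have hdfv : ∀ v, Continuous (fun x => fderiv ℝ f x v) := fun v => hdf.clm_apply continuous_const
  have hdgv : ∀ v, Continuous (fun x => fderiv ℝ g x v) := fun v => hdg.clm_apply continuous_const
  have hgsupp : ∀ v, HasCompactSupport (fun x => fderiv ℝ g x v) :=
    fun v => hgc.fderiv_apply (𝕜 := ℝ) v
  -- the difference quotient of `g`
  set G : ℝ → Eu n → ℝ := fun h x => h⁻¹ * (g (x + h • b) - g x) with hG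
  have hGcd : ∀ h, ContDiff ℝ 1 (G h) := by
    intro h
    have : ContDiff ℝ 1 (fun x : Eu n => g (x + h • b)) :=
      hg.comp (contDiff_id.add contDiff_const)
    exact contDiff_const.mul (this.sub hg)
  have hGd : ∀ h, Differentiable ℝ (G h) := fun h => (hGcd h).differentiable (by norm_num)
  have hshift : ∀ c : Eu n, HasCompactSupport (fun x => g (x + c)) := fun c =>
    hgc.comp_homeomorph (Homeomorph.addRight c)
  have hGc : ∀ h, HasCompactSupport (G h) := fun h => ((hshift _).sub hgc).mul_left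
  have hGder : ∀ h x v, fderiv ℝ (G h) x v = h⁻¹ * (fderiv ℝ g (x + h • b) v - fderiv ℝ g x v) := by
    intro h x v
    have h1 : HasFDerivAt (fun x : Eu n => g (x + h • b)) (fderiv ℝ g (x + h • b)) x := by
      have h0 : fderiv ℝ (fun x : Eu n => g (x + h • b)) x = fderiv ℝ g (x + h • b) :=
        fderiv_comp_add_right (h • b)
      rw [← h0]
      exact (((hgd (x + h • b)).comp x (differentiableAt_id.add_const (h • b)))).hasFDerivAt
    have h2 := (h1.sub (hgd x).hasFDerivAt).const_mul h⁻¹
    have h3 : fderiv ℝ (G h) x = _ := h2.fderiv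
    rw [h3]
    simp
  -- integration by parts, translation
  have key : ∀ h : ℝ, h ≠ 0 →
      ∫ x, fderiv ℝ f x a * G h x
        = ∫ x, h⁻¹ * (f (x + h • (-b)) - f x) * fderiv ℝ g x a * (-1) := by
    intro h hh
    have hdGa : Continuous (fun x => fderiv ℝ (G h) x a) :=
      ((hGcd h).continuous_fderiv (by norm_num)).clm_apply continuous_const
    have hGcont : Continuous (G h) := (hGcd h).continuous
    have ib := integral_mul_fderiv_eq_neg_fderiv_mul_of_integrable (μ := (volume : Measure (Eu n)))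
      (f := f) (g := G h) (v := a)
      ((hdfv a).mul hGcont |>.integrable_of_hasCompactSupport (hGc h).mul_left)
      ((hfc.mul hdGa).integrable_of_hasCompactSupport ((hGc h).fderiv_apply (𝕜 := ℝ) a).mul_left)
      ((hfc.mul hGcont).integrable_of_hasCompactSupport (hGc h).mul_left)
      (fun x _ => hfd x) (fun x _ => hGd h x)
    have e1 : ∫ x, fderiv ℝ f x a * G h x = - ∫ x, f x * fderiv ℝ (G h) x a := by
      rw [ib]; ring
    rw [e1]
    simp_rw [hGder]
    -- translation
    have shiftInt : Integrable (fun x => f x * fderiv ℝ g (x + h • b) a) :=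
      (hfc.mul ((hdgv a).comp (continuous_id.add continuous_const))).integrable_of_hasCompactSupport
        (((hgsupp a).comp_homeomorph (Homeomorph.addRight (h • b))).mul_left)
    have baseInt : Integrable (fun x => f x * fderiv ℝ g x a) :=
      (hfc.mul (hdgv a)).integrable_of_hasCompactSupport (hgsupp a).mul_left
    have tr : ∫ x, f x * fderiv ℝ g (x + h • b) a = ∫ x, f (x + h • (-b)) * fderiv ℝ g x a := by
      have := integral_add_right_eq_self (μ := (volume : Measure (Eu n)))
        (fun x => f (x + h • (-b)) * fderiv ℝ g x a) (h • b)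
      rw [← this]
      refine integral_congr_ae (Eventually.of_forall fun x => ?_)
      have : x + h • b + h • (-b) = x := by
        rw [smul_neg]; abel
      simp only [this]
    have shiftInt2 : Integrable (fun x => f (x + h • (-b)) * fderiv ℝ g x a) :=
      ((hfc.comp (continuous_id.add continuous_const)).mul (hdgv a)).integrable_of_hasCompactSupport
        (hgsupp a).mul_left
    have e2 : ∫ x, f x * (h⁻¹ * (fderiv ℝ g (x + h • b) a - fderiv ℝ g x a))
        = h⁻¹ * ∫ x, (f (x + h • (-b)) - f x) * fderiv ℝ g x a := by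
      have e3 : ∀ x, f x * (h⁻¹ * (fderiv ℝ g (x + h • b) a - fderiv ℝ g x a))
          = h⁻¹ * (f x * fderiv ℝ g (x + h • b) a - f x * fderiv ℝ g x a) := fun x => by ring
      simp_rw [e3]
      rw [integral_const_mul, integral_sub shiftInt baseInt, tr]
      have e4 : ∀ x, (f (x + h • (-b)) - f x) * fderiv ℝ g x a
          = f (x + h • (-b)) * fderiv ℝ g x a - f x * fderiv ℝ g x a := fun x => by ring
      simp_rw [e4]
      rw [integral_sub shiftInt2 baseInt]
    rw [e2]
    have e5 : ∀ x, h⁻¹ * (f (x + h • (-b)) - f x) * fderiv ℝ g x a * (-1)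
        = - (h⁻¹ * ((f (x + h • (-b)) - f x) * fderiv ℝ g x a)) := fun x => by ring
    simp_rw [e5]
    rw [integral_neg, integral_const_mul]
  -- pass to the limit
  obtain ⟨L, hL⟩ : ∃ L, ∀ x, ‖fderiv ℝ g x‖ ≤ L := by
    obtain ⟨L, hL⟩ := (hdg.norm.bddAbove_range_of_hasCompactSupport (hgc.fderiv (𝕜 := ℝ)).norm)
    exact ⟨L, fun x => hL ⟨x, rfl⟩⟩
  have hL0 : 0 ≤ L := (norm_nonneg _).trans (hL 0)
  set K : Set (Eu n) := Metric.cthickening (‖b‖ + 1) (tsupport g) with hK
  have hKc : IsCompact K := hgc.isCompact.cthickening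
  obtain ⟨M1, hM1⟩ := hKc.exists_bound_of_continuousOn (f := fun x => fderiv ℝ f x) hdf.continuousOn
  have hsubK : ∀ x ∈ tsupport g, ∀ y, ‖y - x‖ ≤ ‖b‖ → y ∈ K := by
    intro x hx y hy
    have h1 : Metric.closedBall x (‖b‖ + 1) ⊆ K := by
      intro z hz
      refine Metric.mem_cthickening_of_dist_le z x (‖b‖ + 1) (tsupport g) hx ?_
      simpa using hz
    apply h1
    rw [Metric.mem_closedBall, dist_eq_norm]
    linarith
  have hnotK : ∀ x, x ∉ K → ∀ h : ℝ, 0 < h → h ≤ 1 → G h x = 0 := by
    intro x hx h hh0 hh1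
    have h0 : ∀ y, ‖y - x‖ ≤ ‖b‖ → g y = 0 := by
      intro y hy
      by_contra hne
      have hy' : y ∈ tsupport g := subset_tsupport g hne
      apply hx
      apply hsubK y hy' x
      rw [norm_sub_rev]; exact hy
    have e1 : g (x + h • b) = 0 := by
      apply h0
      rw [add_sub_cancel_left, norm_smul, Real.norm_eq_abs, abs_of_pos hh0]
      nlinarith [norm_nonneg b]
    have e2 : g x = 0 := by
      apply h0
      simp
    simp [hG, e1, e2]
  have hGbd : ∀ h : ℝ, 0 < h → ∀ x, |G h x| ≤ L * ‖b‖ := by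
    intro h hh x
    have h1 := dq_bound (f := g) (s := univ) convex_univ (fun y _ => hgd y) (fun y _ => hL y)
      (mem_univ x) (mem_univ (x + h • b))
    simp only [hG, abs_mul, abs_inv, abs_of_pos hh]
    rw [add_sub_cancel_left, norm_smul, Real.norm_eq_abs, abs_of_pos hh] at h1
    rw [inv_mul_le_iff₀ hh]
    nlinarith
  have hlim1 : Tendsto (fun k => ∫ x, fderiv ℝ f x a * G (stepSeq k) x) atTop
      (𝓝 (∫ x, fderiv ℝ f x a * fderiv ℝ g x b)) := by
    refine tendsto_integral_of_dominated_convergence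
      (fun x => K.indicator (fun _ => (M1 * ‖a‖) * (L * ‖b‖)) x) ?_ ?_ ?_ ?_
    · intro k
      exact ((hdfv a).mul (hGcd _).continuous).aestronglyMeasurable
    · exact (integrableOn_const hKc.measure_lt_top.ne).integrable_indicator hKc.measurableSet
    · intro k
      refine Eventually.of_forall fun x => ?_
      by_cases hx : x ∈ K
      · rw [indicator_of_mem hx, norm_mul, Real.norm_eq_abs, Real.norm_eq_abs]
        have h1 : |fderiv ℝ f x a| ≤ M1 * ‖a‖ := by
          have := (fderiv ℝ f x).le_opNorm a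
          rw [Real.norm_eq_abs] at this
          exact this.trans (mul_le_mul_of_nonneg_right (hM1 x hx) (norm_nonneg a))
        exact mul_le_mul h1 (hGbd _ (stepSeq_pos k) x) (abs_nonneg _)
          ((abs_nonneg _).trans h1)
      · rw [indicator_of_notMem hx, hnotK x hx _ (stepSeq_pos k) (stepSeq_le_one k)]
        simp
    · refine Eventually.of_forall fun x => ?_
      exact (dq_tendsto (hgd x) b).const_mul _
  have hlim2 : Tendsto (fun k => ∫ x, (stepSeq k)⁻¹ * (f (x + stepSeq k • (-b)) - f x)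
        * fderiv ℝ g x a * (-1)) atTop
      (𝓝 (∫ x, fderiv ℝ f x b * fderiv ℝ g x a)) := by
    refine tendsto_integral_of_dominated_convergence
      (fun x => (M1 * ‖b‖) * |fderiv ℝ g x a|) ?_ ?_ ?_ ?_
    · intro k
      have : Continuous (fun x => (stepSeq k)⁻¹ * (f (x + stepSeq k • (-b)) - f x)
          * fderiv ℝ g x a * (-1)) := by
        have h1 : Continuous (fun x => f (x + stepSeq k • (-b))) :=
          hfc.comp (continuous_id.add continuous_const)
        exact ((continuous_const.mul (h1.sub hfc)).mul (hdgv a)).mul continuous_const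
      exact this.aestronglyMeasurable
    · exact (((hdgv a).abs).integrable_of_hasCompactSupport (hgsupp a).abs).const_mul _
    · intro k
      refine Eventually.of_forall fun x => ?_
      by_cases hx : x ∈ tsupport g
      · have hball : Convex ℝ (Metric.closedBall x ‖b‖) := convex_closedBall x _
        have hbdd : ∀ y ∈ Metric.closedBall x ‖b‖, ‖fderiv ℝ f y‖ ≤ M1 := by
          intro y hy
          apply hM1
          apply hsubK x hx y
          rwa [Metric.mem_closedBall, dist_eq_norm] at hy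
        have hk := stepSeq_pos k
        have hy : x + stepSeq k • (-b) ∈ Metric.closedBall x ‖b‖ := by
          rw [Metric.mem_closedBall, dist_eq_norm, add_sub_cancel_left, norm_smul,
            Real.norm_eq_abs, abs_of_pos hk, norm_neg]
          have := stepSeq_le_one k
          nlinarith [norm_nonneg b]
        have h1 := dq_bound hball (fun y _ => hfd y) hbdd (Metric.mem_closedBall_self (norm_nonneg b)) hy
        rw [add_sub_cancel_left, norm_smul, Real.norm_eq_abs, abs_of_pos hk, norm_neg] at h1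
        have h2 : |(stepSeq k)⁻¹ * (f (x + stepSeq k • (-b)) - f x)| ≤ M1 * ‖b‖ := by
          rw [abs_mul, abs_inv, abs_of_pos hk, inv_mul_le_iff₀ hk]
          nlinarith
        rw [Real.norm_eq_abs, abs_mul, abs_mul, abs_neg, abs_one, mul_one]
        exact mul_le_mul_of_nonneg_right h2 (abs_nonneg _)
      · have h0 : fderiv ℝ g x a = 0 := by
          have : x ∉ tsupport (fun y => fderiv ℝ g y a) := fun hh =>
            hx ((tsupport_fderiv_apply_subset ℝ a) hh)
          exact image_eq_zero_of_notMem_tsupport (f := fun y => fderiv ℝ g y a) this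
        simp [h0]
    · refine Eventually.of_forall fun x => ?_
      have h1 := ((dq_tendsto (hfd x) (-b)).mul_const (fderiv ℝ g x a)).mul_const (-1 : ℝ)
      have h2 : fderiv ℝ f x (-b) * fderiv ℝ g x a * (-1) = fderiv ℝ f x b * fderiv ℝ g x a := by
        rw [map_neg]; ring
      rwa [h2] at h1
  have heq : (fun k => ∫ x, fderiv ℝ f x a * G (stepSeq k) x)
      = (fun k => ∫ x, (stepSeq k)⁻¹ * (f (x + stepSeq k • (-b)) - f x)
        * fderiv ℝ g x a * (-1)) := by
    funext k
    exact key _ (stepSeq_pos k).ne'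
  rw [heq] at hlim1
  exact tendsto_nhds_unique hlim2 hlim1

/-- A product of a function continuous on an open set and a function continuous with compact support
inside that set is integrable. -/
lemma integrable_mul_of_tsupport {Ω : Set (Eu n)} (hΩ : IsOpen Ω) {h k : Eu n → ℝ}
    (hh : ContinuousOn h Ω) (hk : Continuous k) (hkc : HasCompactSupport k) (hkΩ : tsupport k ⊆ Ω) :
    Integrable (fun x => h x * k x) := by
  have hc : Continuous (fun x => h x * k x) := by
    refine ContinuousOn.continuous_of_tsupport_subset (s := Ω) ?_ hΩ ?_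
    · exact hh.mul hk.continuousOn
    · exact (closure_mono (Function.support_mul_subset_right h k)).trans hkΩ
  exact hc.integrable_of_hasCompactSupport hkc.mul_left

/-- Smooth cut-off: equals `1` near a compact subset of an open set, with closed support inside. -/
lemma exists_cutoff {Ω K : Set (Eu n)} (hΩ : IsOpen Ω) (hK : IsCompact K) (hKΩ : K ⊆ Ω) :
    ∃ χ : Eu n → ℝ, ContDiff ℝ 1 χ ∧ tsupport χ ⊆ Ω ∧ ∀ᶠ x in 𝓝ˢ K, χ x = 1 := by
  obtain ⟨δ, hδ, hsub⟩ := hK.exists_cthickening_subset_open hΩ hKΩ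
  set V := Metric.thickening (δ / 2) K with hV
  set K' := Metric.cthickening (δ / 4) K with hK'
  have hVo : IsOpen V := Metric.isOpen_thickening
  have hK'c : IsClosed K' := Metric.isClosed_cthickening
  have hK'V : K' ⊆ V := Metric.cthickening_subset_thickening' (by linarith) (by linarith) K
  obtain ⟨ψ1, h1s, h1c, h1r⟩ := hVo.exists_contDiff_support_eq (n := 1)
  obtain ⟨ψ2, h2s, h2c, h2r⟩ := (hK'c.isOpen_compl).exists_contDiff_support_eq (n := 1)
  have h1nn : ∀ x, 0 ≤ ψ1 x := fun x => (h1r ⟨x, rfl⟩).1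
  have h2nn : ∀ x, 0 ≤ ψ2 x := fun x => (h2r ⟨x, rfl⟩).1
  have hpos : ∀ x, ψ1 x + ψ2 x ≠ 0 := by
    intro x h0
    have e1 : ψ1 x = 0 := by linarith [h1nn x, h2nn x]
    have e2 : ψ2 x = 0 := by linarith [h1nn x, h2nn x]
    have hxV : x ∉ V := by
      rw [← h1s]; simpa [Function.mem_support] using e1
    have hxK : x ∉ K'ᶜ := by
      rw [← h2s]; simpa [Function.mem_support] using e2
    exact hxV (hK'V (by simpa using hxK))
  refine ⟨fun x => ψ1 x / (ψ1 x + ψ2 x), h1c.div (h1c.add h2c) hpos, ?_, ?_⟩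
  · have hs : Function.support (fun x => ψ1 x / (ψ1 x + ψ2 x)) ⊆ V := by
      intro x hx
      rw [← h1s]
      intro h0
      apply hx
      simp [show ψ1 x = 0 from h0]
    refine (closure_mono hs).trans ?_
    refine (Metric.closure_thickening_subset_cthickening _ _).trans ?_
    exact (Metric.cthickening_mono (by linarith) _).trans hsub
  · have hnhds : Metric.thickening (δ / 4) K ∈ 𝓝ˢ K :=
      (Metric.isOpen_thickening).mem_nhdsSet.2 (Metric.self_subset_thickening (by linarith) K)
    filter_upwards [hnhds] with x hx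
    have hxK' : x ∈ K' := Metric.thickening_subset_cthickening _ _ hx
    have e2 : ψ2 x = 0 := by
      have : x ∉ Function.support ψ2 := by
        rw [h2s]; simpa using hxK'
      simpa [Function.mem_support] using this
    have e1 : ψ1 x ≠ 0 := by
      have : x ∈ Function.support ψ1 := by
        rw [h1s]; exact hK'V hxK'
      simpa [Function.mem_support] using this
    simp [e2, e1]

/-- Weak commutation when `f` is `C¹` only on an open set containing the support of `g`. -/
theorem weak_swap_on {Ω : Set (Eu n)} (hΩ : IsOpen Ω) {f g : Eu n → ℝ} (hf : ContDiffOn ℝ 1 f Ω)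
    (hg : ContDiff ℝ 1 g) (hgc : HasCompactSupport g) (hgΩ : tsupport g ⊆ Ω) (a b : Eu n) :
    ∫ x, fderiv ℝ f x b * fderiv ℝ g x a = ∫ x, fderiv ℝ f x a * fderiv ℝ g x b := by
  obtain ⟨χ, hχ, hχs, hχ1⟩ := exists_cutoff hΩ hgc.isCompact hgΩ
  set F : Eu n → ℝ := fun x => χ x * f x with hF
  have hFc : ContDiff ℝ 1 F := by
    rw [contDiff_iff_contDiffAt]
    intro x
    by_cases hx : x ∈ Ω
    · exact (hχ.contDiffAt).mul (hf.contDiffAt (hΩ.mem_nhds hx))
    · have h0 : x ∉ tsupport χ := fun h => hx (hχs h)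
      have h1 : χ =ᶠ[𝓝 x] 0 := notMem_tsupport_iff_eventuallyEq.1 h0
      have h2 : F =ᶠ[𝓝 x] 0 := by
        filter_upwards [h1] with y hy
        simp [hF, hy]
      exact (contDiffAt_const (c := (0 : ℝ))).congr_of_eventuallyEq h2
  have hder : ∀ x ∈ tsupport g, fderiv ℝ F x = fderiv ℝ f x := by
    intro x hx
    have h1 : ∀ᶠ y in 𝓝 x, χ y = 1 := (mem_nhdsSet_iff_forall.1 hχ1) x hx
    have h2 : F =ᶠ[𝓝 x] f := by
      filter_upwards [h1] with y hy
      simp [hF, hy]
    exact h2.fderiv_eq
  have hzero : ∀ x, x ∉ tsupport g → ∀ v, fderiv ℝ g x v = 0 := by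
    intro x hx v
    have : x ∉ tsupport (fun y => fderiv ℝ g y v) := fun hh =>
      hx ((tsupport_fderiv_apply_subset ℝ v) hh)
    exact image_eq_zero_of_notMem_tsupport (f := fun y => fderiv ℝ g y v) this
  have e : ∀ v w, ∫ x, fderiv ℝ f x v * fderiv ℝ g x w = ∫ x, fderiv ℝ F x v * fderiv ℝ g x w := by
    intro v w
    refine integral_congr_ae (Eventually.of_forall fun x => ?_)
    by_cases hx : x ∈ tsupport g
    · simp only [hder x hx]
    · simp only [hzero x hx w, mul_zero]
  rw [e, e]
  exact weak_swap_global hFc hg hgc a b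

/-- `C²` on an open set: the coordinate derivative is `C¹` there. -/
lemma contDiffOn_pd {Ω : Set (Eu n)} (hΩ : IsOpen Ω) {u : Eu n → ℝ} (hu : ContDiffOn ℝ 2 u Ω)
    (i : Fin n) : ContDiffOn ℝ 1 (pd i u) Ω := by
  have h1 : ContDiffOn ℝ 1 (fderiv ℝ u) Ω := hu.fderiv_of_isOpen hΩ (by norm_num)
  exact h1.clm_apply contDiffOn_const

/-- Weak form of `∑ᵢ ∂ᵢ∂ⱼ u = ∂ⱼ Δ u` for `C²` functions: the derivative falls on the test
function only. -/
theorem weak_hess_sum {Ω : Set (Eu n)} (hΩ : IsOpen Ω) {u g : Eu n → ℝ} (hu : ContDiffOn ℝ 2 u Ω)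
    (hg : ContDiff ℝ 1 g) (hgc : HasCompactSupport g) (hgΩ : tsupport g ⊆ Ω) (j : Fin n) :
    ∑ i, ∫ x, pd j (pd i u) x * pd i g x = ∫ x, (∑ i, pd i (pd i u) x) * pd j g x := by
  have hdg : ∀ v, Continuous (fun x => fderiv ℝ g x v) := fun v =>
    (hg.continuous_fderiv (by norm_num)).clm_apply continuous_const
  have hsuppj : HasCompactSupport (pd j g) := hgc.fderiv_apply (𝕜 := ℝ) (ee j)
  have hts : tsupport (pd j g) ⊆ Ω := (tsupport_fderiv_apply_subset ℝ (ee j)).trans hgΩ
  have hcont : ∀ i, ContinuousOn (pd i (pd i u)) Ω := by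
    intro i
    have h1 : ContDiffOn ℝ 1 (pd i u) Ω := contDiffOn_pd hΩ hu i
    have h2 : ContinuousOn (fderiv ℝ (pd i u)) Ω := h1.continuousOn_fderiv_of_isOpen hΩ le_rfl
    exact h2.clm_apply continuousOn_const
  have hsw : ∀ i, ∫ x, pd j (pd i u) x * pd i g x = ∫ x, pd i (pd i u) x * pd j g x := by
    intro i
    exact weak_swap_on hΩ (contDiffOn_pd hΩ hu i) hg hgc hgΩ (ee i) (ee j)
  simp_rw [hsw, Finset.sum_mul]
  rw [integral_finsetSum]
  intro i _
  exact integrable_mul_of_tsupport hΩ (hcont i) (hdg (ee j)) hsuppj hts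

/-- Integration by parts against a function that is `C¹` only on an open set containing the support
of the test function. -/
theorem weak_parts_on {Ω : Set (Eu n)} (hΩ : IsOpen Ω) {h g : Eu n → ℝ} (hh : ContDiffOn ℝ 1 h Ω)
    (hg : ContDiff ℝ 1 g) (hgc : HasCompactSupport g) (hgΩ : tsupport g ⊆ Ω) (j : Fin n) :
    ∫ x, h x * pd j g x = - ∫ x, pd j h x * g x := by
  obtain ⟨χ, hχ, hχs, hχ1⟩ := exists_cutoff hΩ hgc.isCompact hgΩ
  set F : Eu n → ℝ := fun x => χ x * h x with hF
  have hFc : ContDiff ℝ 1 F := by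
    rw [contDiff_iff_contDiffAt]
    intro x
    by_cases hx : x ∈ Ω
    · exact (hχ.contDiffAt).mul (hh.contDiffAt (hΩ.mem_nhds hx))
    · have h0 : x ∉ tsupport χ := fun hh' => hx (hχs hh')
      have h1 : χ =ᶠ[𝓝 x] 0 := notMem_tsupport_iff_eventuallyEq.1 h0
      have h2 : F =ᶠ[𝓝 x] 0 := by
        filter_upwards [h1] with y hy
        simp [hF, hy]
      exact (contDiffAt_const (c := (0 : ℝ))).congr_of_eventuallyEq h2
  have hEq : ∀ x ∈ tsupport g, F =ᶠ[𝓝 x] h := by
    intro x hx
    have h1 : ∀ᶠ y in 𝓝 x, χ y = 1 := (mem_nhdsSet_iff_forall.1 hχ1) x hx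
    filter_upwards [h1] with y hy
    simp [hF, hy]
  have hzero : ∀ x, x ∉ tsupport g → fderiv ℝ g x (ee j) = 0 := by
    intro x hx
    have : x ∉ tsupport (fun y => fderiv ℝ g y (ee j)) := fun hh' =>
      hx ((tsupport_fderiv_apply_subset ℝ (ee j)) hh')
    exact image_eq_zero_of_notMem_tsupport (f := fun y => fderiv ℝ g y (ee j)) this
  have e1 : ∫ x, h x * pd j g x = ∫ x, F x * pd j g x := by
    refine integral_congr_ae (Eventually.of_forall fun x => ?_)
    by_cases hx : x ∈ tsupport g
    · simp only [(hEq x hx).eq_of_nhds]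
    · simp only [pd, hzero x hx, mul_zero]
  have e2 : ∫ x, pd j h x * g x = ∫ x, pd j F x * g x := by
    refine integral_congr_ae (Eventually.of_forall fun x => ?_)
    by_cases hx : x ∈ tsupport g
    · simp only [pd, (hEq x hx).fderiv_eq]
    · simp only [image_eq_zero_of_notMem_tsupport hx, mul_zero]
  rw [e1, e2]
  have hdF : Continuous (pd j F) :=
    (hFc.continuous_fderiv (by norm_num)).clm_apply continuous_const
  have hdg : Continuous (pd j g) :=
    (hg.continuous_fderiv (by norm_num)).clm_apply continuous_const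
  exact integral_mul_fderiv_eq_neg_fderiv_mul_of_integrable
    ((hdF.mul hg.continuous).integrable_of_hasCompactSupport hgc.mul_left)
    ((hFc.continuous.mul hdg).integrable_of_hasCompactSupport (hgc.fderiv_apply (𝕜 := ℝ) _).mul_left)
    ((hFc.continuous.mul hg.continuous).integrable_of_hasCompactSupport hgc.mul_left)
    (fun x _ => hFc.differentiable (by norm_num) x) (fun x _ => hg.differentiable (by norm_num) x)

/-- The weak identity used for `C²` solutions: for `u` of class `C²` on `Ω` with `Δu` of class `C¹` on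
`Ω` and `g` a `C¹` test function, `∑ᵢ ∫ uᵢⱼ ∂ᵢ g = - ∫ ∂ⱼ(Δu) g`. -/
theorem weak_hess_lap {Ω : Set (Eu n)} (hΩ : IsOpen Ω) {u g L : Eu n → ℝ} (hu : ContDiffOn ℝ 2 u Ω)
    (hL : ContDiffOn ℝ 1 L Ω) (hLap : ∀ x ∈ Ω, ∑ i, pd i (pd i u) x = L x)
    (hg : ContDiff ℝ 1 g) (hgc : HasCompactSupport g) (hgΩ : tsupport g ⊆ Ω) (j : Fin n) :
    ∑ i, ∫ x, pd j (pd i u) x * pd i g x = - ∫ x, pd j L x * g x := by
  rw [weak_hess_sum hΩ hu hg hgc hgΩ j, ← weak_parts_on hΩ hL hg hgc hgΩ j]
  refine integral_congr_ae (Eventually.of_forall fun x => ?_)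
  by_cases hx : x ∈ Ω
  · simp only [hLap x hx]
  · have h0 : x ∉ tsupport g := fun h => hx (hgΩ h)
    have : x ∉ tsupport (fun y => fderiv ℝ g y (ee j)) := fun hh' =>
      h0 ((tsupport_fderiv_apply_subset ℝ (ee j)) hh')
    have h1 : fderiv ℝ g x (ee j) = 0 :=
      image_eq_zero_of_notMem_tsupport (f := fun y => fderiv ℝ g y (ee j)) this
    simp only [pd, h1, mul_zero]

end Vale.Agent.Lib.P100
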