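import Vale.Agent.Lib.P100.Jets2C
import Vale.Agent.Lib.P100.WeakHess

/-!
# P100: the weak divergence of the Hessian fields `W U0 Z` for `C²` solutions.

`weak_FU`: against a test function supported in the open set where `(u,v)` is a positive `C²`
solution, the field `W U0 Z` integrates as if `U0` were differentiable with
`div U0 = -κ p s Y - U0 X`. No third derivative of `u` is used: the third derivative is moved to the
test function by `weak_hess_lap`.
-/

open scoped BigOperators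
open MeasureTheory Filter Topology Set

noncomputable section

namespace Vale.Agent.Lib.P100

variable {n : ℕ}

/-- The formal divergence of the field `W U0 Z`. -/
def FormalU (u v : Eu n → ℝ) (p a b : ℝ) (Z : Fin n → Eu n → ℝ) (x : Eu n) : ℝ :=
  Wf u v a b x * ((a - 1) * BB (Um u v p x) (Xv u x) (fun l => Z l x)
    + b * BB (Um u v p x) (Xv v x) (fun l => Z l x)
    - (1 - 1 / (n : ℝ)) * p * Sf u v p x * dot (Xv v x) (fun l => Z l x)
    + ∑ i, ∑ l, Um u v p x i l * pd i (Z l) x)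

lemma contDiff_mul_of_tsupport {Ω : Set (Eu n)} (hΩ : IsOpen Ω) {φ A : Eu n → ℝ}
    (hφ : ContDiff ℝ 1 φ) (hφΩ : tsupport φ ⊆ Ω) (hA : ContDiffOn ℝ 1 A Ω) :
    ContDiff ℝ 1 (fun x => φ x * A x) := by
  rw [contDiff_iff_contDiffAt]
  intro x
  by_cases hx : x ∈ Ω
  · exact hφ.contDiffAt.mul (hA.contDiffAt (hΩ.mem_nhds hx))
  · have h0 : x ∉ tsupport φ := fun h => hx (hφΩ h)
    have h1 : φ =ᶠ[𝓝 x] 0 := notMem_tsupport_iff_eventuallyEq.1 h0
    have h2 : (fun x => φ x * A x) =ᶠ[𝓝 x] fun _ => 0 := by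
      filter_upwards [h1] with y hy
      simp [hy]
    exact (contDiffAt_const (c := (0 : ℝ))).congr_of_eventuallyEq h2

lemma contOn_pd {Ω : Set (Eu n)} (hΩ : IsOpen Ω) {f : Eu n → ℝ} (hf : ContDiffOn ℝ 1 f Ω)
    (i : Fin n) : ContinuousOn (pd i f) Ω :=
  (hf.continuousOn_fderiv_of_isOpen hΩ le_rfl).clm_apply continuousOn_const

lemma pd_zero_of_notMem {φ : Eu n → ℝ} {x : Eu n} (hx : x ∉ tsupport φ) (i : Fin n) :
    pd i φ x = 0 := by
  have h1 : φ =ᶠ[𝓝 x] 0 := notMem_tsupport_iff_eventuallyEq.1 hx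
  have h2 : fderiv ℝ φ x = fderiv ℝ (0 : Eu n → ℝ) x := h1.fderiv_eq
  simp [pd, h2]

/-- The product rule against a test function, everywhere. -/
lemma pd_mul_test {Ω : Set (Eu n)} (hΩ : IsOpen Ω) {φ A : Eu n → ℝ} (hφ : ContDiff ℝ 1 φ)
    (hφΩ : tsupport φ ⊆ Ω) (hA : ContDiffOn ℝ 1 A Ω) (i : Fin n) (x : Eu n) :
    pd i (fun y => φ y * A y) x = pd i φ x * A x + φ x * pd i A x := by
  by_cases hx : x ∈ Ω
  · have h1 : DifferentiableAt ℝ φ x := (hφ.differentiable one_ne_zero) x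
    have h2 : DifferentiableAt ℝ A x :=
      (hA.contDiffAt (hΩ.mem_nhds hx)).differentiableAt one_ne_zero
    simp only [pd]
    rw [fderiv_fun_mul h1 h2]
    simp only [add_apply, smul_apply, smul_eq_mul]
    ring
  · have h0 : x ∉ tsupport φ := fun h => hx (hφΩ h)
    have h1 : φ =ᶠ[𝓝 x] 0 := notMem_tsupport_iff_eventuallyEq.1 h0
    have h3 : x ∉ tsupport (fun y => φ y * A y) := by
      refine notMem_tsupport_iff_eventuallyEq.2 ?_
      filter_upwards [h1] with y hy
      simp [hy]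
    rw [pd_zero_of_notMem h3, pd_zero_of_notMem h0, image_eq_zero_of_notMem_tsupport h0]
    simp

/-- The Hessian against `φ A`, for a fixed lower index `l`. -/
theorem weak_hess_A {Ω : Set (Eu n)} (hΩ : IsOpen Ω) {u L A φ : Eu n → ℝ}
    (hu : ContDiffOn ℝ 2 u Ω) (hL : ContDiffOn ℝ 1 L Ω)
    (hLap : ∀ x ∈ Ω, ∑ i, pd i (pd i u) x = L x) (hA : ContDiffOn ℝ 1 A Ω)
    (hφ : ContDiff ℝ 1 φ) (hφc : HasCompactSupport φ) (hφΩ : tsupport φ ⊆ Ω) (l : Fin n) :
    ∑ i, ∫ x, pd i φ x * (pd l (pd i u) x * A x) =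
      - ∫ x, φ x * (pd l L x * A x + ∑ i, pd l (pd i u) x * pd i A x) := by
  set g : Eu n → ℝ := fun x => φ x * A x with hg
  have hgc : ContDiff ℝ 1 g := contDiff_mul_of_tsupport hΩ hφ hφΩ hA
  have hgs : HasCompactSupport g := hφc.mul_right
  have hgΩ : tsupport g ⊆ Ω :=
    (closure_mono (Function.support_mul_subset_left φ A)).trans hφΩ
  have key := weak_hess_lap hΩ hu hL hLap hgc hgs hgΩ l
  have hdφ : ∀ i, Continuous (pd i φ) := fun i =>
    (hφ.continuous_fderiv one_ne_zero).clm_apply continuous_const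
  have hdφs : ∀ i, HasCompactSupport (pd i φ) := fun i => hφc.fderiv_apply (𝕜 := ℝ) (ee i)
  have hdφΩ : ∀ i, tsupport (pd i φ) ⊆ Ω := fun i =>
    (tsupport_fderiv_apply_subset ℝ (ee i)).trans hφΩ
  have hH : ∀ i, ContinuousOn (pd l (pd i u)) Ω := fun i =>
    contOn_pd hΩ (contDiffOn_pd hΩ hu i) l
  have hAc : ContinuousOn A Ω := hA.continuousOn
  have hdA : ∀ i, ContinuousOn (pd i A) Ω := fun i => contOn_pd hΩ hA i
  have hint1 : ∀ i, Integrable fun x => pd i φ x * (pd l (pd i u) x * A x) := by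
    intro i
    have := integrable_mul_of_tsupport hΩ ((hH i).mul hAc) (hdφ i) (hdφs i) (hdφΩ i)
    exact this.congr (Eventually.of_forall fun x => by simp only [Pi.mul_apply]; ring)
  have hint2 : ∀ i, Integrable fun x => φ x * (pd l (pd i u) x * pd i A x) := by
    intro i
    have := integrable_mul_of_tsupport hΩ ((hH i).mul (hdA i)) hφ.continuous hφc hφΩ
    exact this.congr (Eventually.of_forall fun x => by simp only [Pi.mul_apply]; ring)
  have hexp : ∀ i, ∫ x, pd l (pd i u) x * pd i g x =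
      (∫ x, pd i φ x * (pd l (pd i u) x * A x)) + ∫ x, φ x * (pd l (pd i u) x * pd i A x) := by
    intro i
    rw [← integral_add (hint1 i) (hint2 i)]
    refine integral_congr_ae (Eventually.of_forall fun x => ?_)
    simp only [hg]
    rw [pd_mul_test hΩ hφ hφΩ hA i x]
    ring
  simp_rw [hexp] at key
  rw [Finset.sum_add_distrib] at key
  have hdL : ContinuousOn (pd l L) Ω := contOn_pd hΩ hL l
  have hint3 : Integrable fun x => φ x * (pd l L x * A x) := by
    have := integrable_mul_of_tsupport hΩ (hdL.mul hAc) hφ.continuous hφc hφΩ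
    exact this.congr (Eventually.of_forall fun x => by simp only [Pi.mul_apply]; ring)
  have hsplit : ∫ x, φ x * (pd l L x * A x + ∑ i, pd l (pd i u) x * pd i A x) =
      (∫ x, φ x * (pd l L x * A x)) + ∑ i, ∫ x, φ x * (pd l (pd i u) x * pd i A x) := by
    rw [← integral_finsetSum _ (fun i _ => hint2 i),
      ← integral_add hint3 (integrable_finsetSum _ (fun i _ => hint2 i))]
    refine integral_congr_ae (Eventually.of_forall fun x => ?_)
    simp only [Finset.mul_sum, mul_add]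
  have hlast : ∫ x, pd l L x * g x = ∫ x, φ x * (pd l L x * A x) := by
    refine integral_congr_ae (Eventually.of_forall fun x => ?_)
    simp only [hg]
    ring
  rw [hsplit]
  rw [hlast] at key
  linarith

section bracket

variable {u v : Eu n → ℝ} {p q : ℝ} {x : Eu n}

/-- The pointwise computation. -/
theorem bracket_eq (h : Loc2 u v p q x) (a b : ℝ) {Z : Fin n → Eu n → ℝ}
    (hZ : ∀ l, DifferentiableAt ℝ (Z l) x) :
    (∑ l, (pd l (fun y => - v y ^ p) x * (Wf u v a b x / u x * Z l x)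
        + ∑ i, pd l (pd i u) x * pd i (fun y => Wf u v a b y / u y * Z l y) x))
      + ∑ i, pd i (fun y => Wf u v a b y * (Sf u v p y / n) * Z i y) x
      = FormalU u v p a b Z x := by
  have hU0 := h.upos.ne'
  have hV0 := h.vpos.ne'
  obtain ⟨w, hw⟩ : ∃ w, w = Wf u v a b x := ⟨_, rfl⟩
  obtain ⟨U, hU⟩ : ∃ U, U = u x := ⟨_, rfl⟩
  obtain ⟨s, hs⟩ : ∃ s, s = Sf u v p x := ⟨_, rfl⟩
  have hU00 : U ≠ 0 := hU ▸ hU0
  have hZg : ∀ l, HG (Z l) (fun i => pd i (Z l) x) x := fun l => HG.of_diff (hZ l)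
  have hWu := (h.hg_W a b).div h.hg_u h.upos.ne'
  have hA : ∀ l i, pd i (fun y => Wf u v a b y / u y * Z l y) x =
      (w / U) * (((a - 1) * Xv u x i + b * Xv v x i) * Z l x + pd i (Z l) x) := by
    intro l i
    have h1 := (hWu.mul (hZg l)).2 i
    rw [h1]
    simp only [Xv, Xf]
    rw [← hw, ← hU]
    field_simp
    ring
  have hv : HG v (fun j => pd j v x) x := h.swap.hg_u
  have hL : ∀ l, pd l (fun y => - v y ^ p) x = -(p * (s * U) * Xv v x l) := by
    intro l
    have h1 := ((hv.rpow h.vpos p).neg).2 l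
    rw [h1]
    simp only [Xv, Xf]
    rw [hs, hU, Sf, Real.rpow_sub_one hV0]
    field_simp
  have hC : ∀ i, pd i (fun y => Wf u v a b y * (Sf u v p y / n) * Z i y) x =
      w * (s / n) * (((a - 1) * Xv u x i + (b + p) * Xv v x i) * Z i x + pd i (Z i) x) := by
    intro i
    have h1 := (((h.hg_W a b).mul (HG.div h.hg_S (HG.const (n : ℝ) x) h.hn)).mul (hZg i)).2 i
    rw [h1]
    simp only [Xv]
    rw [← hw, ← hs]
    have hn := h.hn
    field_simp
    ring
  have hH : ∀ i l, pd l (pd i u) x = U * (Um u v p x i l - dl i l * (s / n)) := by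
    intro i l
    have h1 := h.H_div i l
    have h2 : pd l (pd i u) x = Hf u i l x := rfl
    have h3 : Um u v p x i l - dl i l * (s / n) = Hf u i l x / u x := by
      rw [hs, h1]
      rfl
    rw [h2, h3, hU]
    field_simp
  -- name the real data
  set M := Um u v p x with hM
  set X := Xv u x with hX
  set Y := Xv v x with hY
  obtain ⟨Zv, hZv⟩ : ∃ Zv : Fin n → ℝ, Zv = fun l => Z l x := ⟨_, rfl⟩
  have hZv' : ∀ l, Z l x = Zv l := fun l => by rw [hZv]
  obtain ⟨dZ, hdZ⟩ : ∃ dZ : Fin n → Fin n → ℝ, dZ = fun i l => pd i (Z l) x := ⟨_, rfl⟩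
  have hdZ' : ∀ i l, pd i (Z l) x = dZ i l := fun i l => by rw [hdZ]
  simp only [hA, hL, hC, hH, hZv', hdZ']
  -- the first two terms
  have t1 : ∀ l, -(p * (s * U) * Y l) * (Wf u v a b x / u x * Zv l) =
      -(p * s * w) * (Y l * Zv l) := by
    intro l
    rw [← hw, ← hU]
    field_simp
  have t2 : ∀ l i, U * (M i l - dl i l * (s / n)) *
      (w / U * (((a - 1) * X i + b * Y i) * Zv l + dZ i l)) =
      w * (M i l * (((a - 1) * X i + b * Y i) * Zv l + dZ i l)) -
        w * (s / n) * (dl i l * (((a - 1) * X i + b * Y i) * Zv l + dZ i l)) := by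
    intro l i
    field_simp
  simp only [t1, t2, Finset.sum_add_distrib, Finset.sum_sub_distrib]
  have e1 : ∑ l, ∑ i, w * (M i l * (((a - 1) * X i + b * Y i) * Zv l + dZ i l)) =
      w * ((a - 1) * BB M X Zv + b * BB M Y Zv + ∑ i, ∑ l, M i l * dZ i l) := by
    rw [Finset.sum_comm]
    simp only [BB, Finset.mul_sum, ← Finset.sum_add_distrib]
    refine Finset.sum_congr rfl (fun i _ => Finset.sum_congr rfl (fun l _ => ?_))
    ring
  have e2 : ∑ l, ∑ i, w * (s / n) * (dl i l * (((a - 1) * X i + b * Y i) * Zv l + dZ i l)) =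
      w * (s / n) * ((a - 1) * dot X Zv + b * dot Y Zv + ∑ i, dZ i i) := by
    have h1 : ∀ l, ∑ i, w * (s / n) * (dl i l * (((a - 1) * X i + b * Y i) * Zv l + dZ i l)) =
        w * (s / n) * (((a - 1) * X l + b * Y l) * Zv l + dZ l l) := by
      intro l
      rw [← Finset.mul_sum, sum_dl_mul l (fun i => ((a - 1) * X i + b * Y i) * Zv l + dZ i l)]
    simp only [h1, dot, Finset.mul_sum, ← Finset.sum_add_distrib]
    refine Finset.sum_congr rfl (fun i _ => ?_)
    ring
  have e3 : ∑ i, w * (s / n) * (((a - 1) * X i + (b + p) * Y i) * Zv i + dZ i i) =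
      w * (s / n) * ((a - 1) * dot X Zv + (b + p) * dot Y Zv + ∑ i, dZ i i) := by
    simp only [dot, Finset.mul_sum, ← Finset.sum_add_distrib]
    refine Finset.sum_congr rfl (fun i _ => ?_)
    ring
  have e4 : ∑ l, -(p * s * w) * (Y l * Zv l) = -(p * s * w) * dot Y Zv := by
    simp only [dot, Finset.mul_sum]
  rw [e1, e2, e3, e4]
  simp only [FormalU, hZv', hdZ', ← hw, ← hs, ← hM, ← hX, ← hY]
  ring

end bracket

section regularity

variable {Ω : Set (Eu n)} {u v : Eu n → ℝ}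

lemma contDiffOn_Wf (hu : ContDiffOn ℝ 2 u Ω) (hv : ContDiffOn ℝ 2 v Ω)
    (hupos : ∀ x ∈ Ω, 0 < u x) (hvpos : ∀ x ∈ Ω, 0 < v x) (a b : ℝ) :
    ContDiffOn ℝ 2 (Wf u v a b) Ω :=
  (hu.rpow_const_of_ne fun x hx => (hupos x hx).ne').mul
    (hv.rpow_const_of_ne fun x hx => (hvpos x hx).ne')

lemma contDiffOn_Sf (hu : ContDiffOn ℝ 2 u Ω) (hv : ContDiffOn ℝ 2 v Ω)
    (hupos : ∀ x ∈ Ω, 0 < u x) (hvpos : ∀ x ∈ Ω, 0 < v x) (p : ℝ) :
    ContDiffOn ℝ 2 (Sf u v p) Ω :=
  (hv.rpow_const_of_ne fun x hx => (hvpos x hx).ne').div hu fun x hx => (hupos x hx).ne'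

lemma contDiffOn_Xf (hΩ : IsOpen Ω) (hu : ContDiffOn ℝ 2 u Ω) (hupos : ∀ x ∈ Ω, 0 < u x)
    (i : Fin n) : ContDiffOn ℝ 1 (Xf u i) Ω :=
  (contDiffOn_pd hΩ hu i).div (hu.of_le (by norm_num)) fun x hx => (hupos x hx).ne'

end regularity

/-- **The weak divergence of `W U0 Z`.** -/
theorem weak_FU {Ω : Set (Eu n)} (hΩ : IsOpen Ω) {u v : Eu n → ℝ} {p q : ℝ} (a b : ℝ)
    (hu : ContDiffOn ℝ 2 u Ω) (hv : ContDiffOn ℝ 2 v Ω)
    (hLoc : ∀ x ∈ Ω, Loc2 u v p q x)
    {Z : Fin n → Eu n → ℝ} (hZ : ∀ l, ContDiffOn ℝ 1 (Z l) Ω)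
    {φ : Eu n → ℝ} (hφ : ContDiff ℝ 1 φ) (hφc : HasCompactSupport φ) (hφΩ : tsupport φ ⊆ Ω) :
    ∑ i, ∫ x, pd i φ x * (Wf u v a b x * FU u v p Z i x) =
      - ∫ x, φ x * FormalU u v p a b Z x := by
  have hupos : ∀ x ∈ Ω, 0 < u x := fun x hx => (hLoc x hx).upos
  have hvpos : ∀ x ∈ Ω, 0 < v x := fun x hx => (hLoc x hx).vpos
  have hW := contDiffOn_Wf hu hv hupos hvpos a b
  have hS := contDiffOn_Sf hu hv hupos hvpos p
  have hW1 : ContDiffOn ℝ 1 (Wf u v a b) Ω := hW.of_le (by norm_num)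
  have hS1 : ContDiffOn ℝ 1 (Sf u v p) Ω := hS.of_le (by norm_num)
  have hu1 : ContDiffOn ℝ 1 u Ω := hu.of_le (by norm_num)
  -- the two kinds of pieces
  set A : Fin n → Eu n → ℝ := fun l y => Wf u v a b y / u y * Z l y with hA
  set h : Fin n → Eu n → ℝ := fun i y => Wf u v a b y * (Sf u v p y / n) * Z i y with hh
  have hAc : ∀ l, ContDiffOn ℝ 1 (A l) Ω := fun l =>
    (hW1.div hu1 fun x hx => (hupos x hx).ne').mul (hZ l)
  have hhc : ∀ i, ContDiffOn ℝ 1 (h i) Ω := fun i =>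
    (hW1.mul (hS1.div contDiffOn_const fun x hx => (hLoc x hx).hn)).mul (hZ i)
  set L : Eu n → ℝ := fun y => - v y ^ p with hL
  have hLc : ContDiffOn ℝ 1 L Ω :=
    ((hv.rpow_const_of_ne fun x hx => (hvpos x hx).ne').of_le (by norm_num)).neg
  have hLap : ∀ x ∈ Ω, ∑ i, pd i (pd i u) x = L x := fun x hx => (hLoc x hx).pdeU
  have hdφ : ∀ i, Continuous (pd i φ) := fun i =>
    (hφ.continuous_fderiv one_ne_zero).clm_apply continuous_const
  have hdφs : ∀ i, HasCompactSupport (pd i φ) := fun i => hφc.fderiv_apply (𝕜 := ℝ) (ee i)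
  have hdφΩ : ∀ i, tsupport (pd i φ) ⊆ Ω := fun i =>
    (tsupport_fderiv_apply_subset ℝ (ee i)).trans hφΩ
  have hHc : ∀ i l, ContinuousOn (pd l (pd i u)) Ω := fun i l =>
    contOn_pd hΩ (contDiffOn_pd hΩ hu i) l
  -- integrand identity
  have hid : ∀ i x, pd i φ x * (Wf u v a b x * FU u v p Z i x) =
      ∑ l, pd i φ x * (pd l (pd i u) x * A l x) + h i x * pd i φ x := by
    intro i x
    simp only [FU, Uf, hA, hh, Hf]
    have h1 : ∑ j, (pd j (pd i u) x / u x + dl i j * (Sf u v p x / n)) * Z j x =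
        ∑ j, pd j (pd i u) x / u x * Z j x + (Sf u v p x / n) * Z i x := by
      rw [← sum_dl_mul' i (fun j => (Sf u v p x / n) * Z j x), ← Finset.sum_add_distrib]
      refine Finset.sum_congr rfl (fun j _ => ?_)
      ring
    rw [h1, mul_add, mul_add, Finset.mul_sum, Finset.mul_sum]
    congr 1
    · refine Finset.sum_congr rfl (fun l _ => ?_)
      ring
    · ring
  have hint1 : ∀ i l, Integrable fun x => pd i φ x * (pd l (pd i u) x * A l x) := by
    intro i l
    have := integrable_mul_of_tsupport hΩ ((hHc i l).mul (hAc l).continuousOn) (hdφ i) (hdφs i)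
      (hdφΩ i)
    exact this.congr (Eventually.of_forall fun x => by simp only [Pi.mul_apply]; ring)
  have hint2 : ∀ i, Integrable fun x => h i x * pd i φ x := fun i =>
    integrable_mul_of_tsupport hΩ (hhc i).continuousOn (hdφ i) (hdφs i) (hdφΩ i)
  have hstep : ∀ i, ∫ x, pd i φ x * (Wf u v a b x * FU u v p Z i x) =
      ∑ l, (∫ x, pd i φ x * (pd l (pd i u) x * A l x)) + ∫ x, h i x * pd i φ x := by
    intro i
    simp_rw [hid]
    rw [integral_add (integrable_finsetSum _ (fun l _ => hint1 i l)) (hint2 i),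
      integral_finsetSum _ (fun l _ => hint1 i l)]
  simp_rw [hstep]
  rw [Finset.sum_add_distrib, Finset.sum_comm]
  simp_rw [weak_hess_A hΩ hu hLc hLap (hAc _) hφ hφc hφΩ]
  have hparts : ∀ i, ∫ x, h i x * pd i φ x = - ∫ x, φ x * pd i (h i) x := by
    intro i
    rw [weak_parts_on hΩ (hhc i) hφ hφc hφΩ i]
    congr 1
    refine integral_congr_ae (Eventually.of_forall fun x => ?_)
    exact mul_comm _ _
  simp_rw [hparts]
  -- integrability of the pieces on the right
  have hB : ∀ l, ContinuousOn (fun x => pd l L x * A l x + ∑ i, pd l (pd i u) x * pd i (A l) x) Ω := by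
    intro l
    refine ((contOn_pd hΩ hLc l).mul (hAc l).continuousOn).add ?_
    exact continuousOn_finsetSum _ fun i _ => (hHc i l).mul (contOn_pd hΩ (hAc l) i)
  have hint3 : ∀ l, Integrable fun x =>
      φ x * (pd l L x * A l x + ∑ i, pd l (pd i u) x * pd i (A l) x) := by
    intro l
    have := integrable_mul_of_tsupport hΩ (hB l) hφ.continuous hφc hφΩ
    exact this.congr (Eventually.of_forall fun x => mul_comm _ _)
  have hint4 : ∀ i, Integrable fun x => φ x * pd i (h i) x := by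
    intro i
    have := integrable_mul_of_tsupport hΩ (contOn_pd hΩ (hhc i) i) hφ.continuous hφc hφΩ
    exact this.congr (Eventually.of_forall fun x => mul_comm _ _)
  have hpt : ∀ x, φ x * FormalU u v p a b Z x =
      ∑ l, φ x * (pd l L x * A l x + ∑ i, pd l (pd i u) x * pd i (A l) x)
        + ∑ i, φ x * pd i (h i) x := by
    intro x
    by_cases hx : x ∈ Ω
    · have hb := bracket_eq (hLoc x hx) a b (Z := Z)
        (fun l => ((hZ l).contDiffAt (hΩ.mem_nhds hx)).differentiableAt one_ne_zero)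
      have h2 : φ x * FormalU u v p a b Z x =
          φ x * ((∑ l, (pd l L x * A l x + ∑ i, pd l (pd i u) x * pd i (A l) x))
            + ∑ i, pd i (h i) x) :=
        congrArg (fun t => φ x * t) hb.symm
      rw [h2, mul_add, Finset.mul_sum, Finset.mul_sum]
    · have h0 : φ x = 0 := image_eq_zero_of_notMem_tsupport (fun h => hx (hφΩ h))
      simp [h0]
  simp_rw [hpt]
  rw [integral_add (integrable_finsetSum _ (fun l _ => hint3 l))
    (integrable_finsetSum _ (fun i _ => hint4 i)),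
    integral_finsetSum _ (fun l _ => hint3 l), integral_finsetSum _ (fun i _ => hint4 i),
    neg_add, Finset.sum_neg_distrib, Finset.sum_neg_distrib]

end Vale.Agent.Lib.P100
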